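import Mathlib
import Crest.Prelude.Def_TwoAdicShift

/-!
# S0148 project (HI): shared definitions

Model space: `L²(ℤ₂ × ℤ)`.  Fibre over `x`: bilateral weighted shift `δ_l ↦ bet x l • δ_{l+1}` with
`bet x l = exp (-(4 ^ kap x l))`, `kap x l` = least `k` such that `x` and `x + l` lie in the same
dyadic block of length `2^k` of the odometer orbit.
-/

set_option autoImplicit false

namespace Crest.Agent.HI

open MeasureTheory Crest.AnalysisR.TwoAdic

attribute [local instance] borelTwoAdic borelSpace_twoAdic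

/-- residue of `x` modulo `2^k`, as an integer in `[0, 2^k)`. -/
noncomputable def res (k : ℕ) (x : ℤ_[2]) : ℤ := (PadicInt.appr x k : ℤ)

/-- `x + l` lies in the same `2^k`-block of the orbit as `x`. -/
def inB (k : ℕ) (x : ℤ_[2]) (l : ℤ) : Prop := 0 ≤ res k x + l ∧ res k x + l < 2 ^ k

/-- level at which `x` and `x + l` merge (junk `0` if never). -/
noncomputable def kap (x : ℤ_[2]) (l : ℤ) : ℕ := sInf {k | inB k x l}

/-- minus the logarithm of the weight. -/
noncomputable def aw (x : ℤ_[2]) (l : ℤ) : ℝ := (4 : ℝ) ^ kap x l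

/-- good points: the blocks exhaust the orbit (true off the integers). -/
def Good (x : ℤ_[2]) : Prop := ∀ l : ℤ, ∃ k : ℕ, inB k x l

/-- potential: `Phi x (j+1) - Phi x j = aw x j`, `Phi x 0 = 0`. -/
noncomputable def Phi (x : ℤ_[2]) (j : ℤ) : ℝ :=
  ∑ l ∈ Finset.Ico 0 j, aw x l - ∑ l ∈ Finset.Ico j 0, aw x l

/-- weights of `S`. -/
noncomputable def bet (x : ℤ_[2]) (l : ℤ) : ℝ := Real.exp (-(aw x l))

/-- weights of `V`. -/
noncomputable def bb (x : ℤ_[2]) (j : ℤ) : ℝ :=
  Real.exp (Phi x j - Phi (x + 1) (j - 1) - (1 + (8 : ℝ) ^ kap x 1))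

/-- the base measure on `ℤ₂ × ℤ`. -/
noncomputable def nu : Measure (ℤ_[2] × ℤ) := haarTwoAdic.prod Measure.count

/-- the model Hilbert space. -/
abbrev HS : Type := Lp ℂ 2 nu

end Crest.Agent.HI
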