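import Crest.Agent.Lib_HI_Defs

/-! # S0148 project (HI), package P6: the odometer as a measure preserving ergodic system -/

set_option autoImplicit false

namespace Crest.Agent.HI

open MeasureTheory Crest.AnalysisR.TwoAdic

attribute [local instance] borelTwoAdic borelSpace_twoAdic

instance erg_isAddHaar : (haarTwoAdic).IsAddHaarMeasure := by
  unfold haarTwoAdic; infer_instance

instance isProbabilityMeasure_haarTwoAdic : IsProbabilityMeasure haarTwoAdic := by
  constructor
  have h := Measure.addHaarMeasure_self (G := ℤ_[2]) (K₀ := ⊤)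
  simpa [haarTwoAdic] using h

theorem mp_add_one : MeasurePreserving (fun x : ℤ_[2] => x + 1) haarTwoAdic haarTwoAdic :=
  measurePreserving_add_right haarTwoAdic 1

theorem mp_sub_one : MeasurePreserving (fun x : ℤ_[2] => x - 1) haarTwoAdic haarTwoAdic := by
  have h := measurePreserving_add_right haarTwoAdic (-1 : ℤ_[2])
  simpa [sub_eq_add_neg] using h

theorem ergodic_add_one : Ergodic (fun x : ℤ_[2] => x + 1) haarTwoAdic := by
  have hd : DenseRange (fun n : ℕ => n • (1 : ℤ_[2])) := by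
    have h := PadicInt.denseRange_natCast (p := 2)
    have e : (fun n : ℕ => n • (1 : ℤ_[2])) = (Nat.cast : ℕ → ℤ_[2]) := by
      funext n; simp
    rw [e]; exact h
  have h := ergodic_add_left_of_denseRange_nsmul hd haarTwoAdic
  have e : (fun x : ℤ_[2] => x + 1) = (fun x : ℤ_[2] => 1 + x) := by
    funext x; ring
  rw [e]; exact h

instance erg_neBot : (nhdsWithin (0 : ℤ_[2]) {0}ᶜ).NeBot := by
  have h1 : Filter.Tendsto (fun n : ℕ => (2 : ℤ_[2]) ^ n) Filter.atTop (nhds 0) := by
    apply tendsto_pow_atTop_nhds_zero_of_norm_lt_one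
    have : ‖(2 : ℤ_[2])‖ = (2 : ℝ)⁻¹ := by
      have := PadicInt.norm_p (p := 2)
      simpa using this
    rw [this]; norm_num
  have h2 : Filter.Tendsto (fun n : ℕ => (2 : ℤ_[2]) ^ n) Filter.atTop (nhdsWithin 0 {0}ᶜ) := by
    rw [tendsto_nhdsWithin_iff]
    refine ⟨h1, Filter.Eventually.of_forall fun n => ?_⟩
    simp
  exact h2.neBot

theorem haar_singleton (x : ℤ_[2]) : haarTwoAdic {x} = 0 := by
  have : NullSingletonClass haarTwoAdic := inferInstance
  exact measure_singleton x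

/-- `a.e.` on the product with counting measure. -/
theorem ae_nu_of_ae {P : ℤ_[2] × ℤ → Prop} (h : ∀ᵐ x ∂haarTwoAdic, ∀ j : ℤ, P (x, j)) :
    ∀ᵐ p ∂nu, P p := by
  rw [ae_iff] at h ⊢
  set N : Set ℤ_[2] := {x | ¬ ∀ j : ℤ, P (x, j)} with hN
  have hsub : {p : ℤ_[2] × ℤ | ¬ P p} ⊆ N ×ˢ (Set.univ : Set ℤ) := by
    rintro ⟨x, j⟩ hp
    refine ⟨?_, trivial⟩
    intro hall
    exact hp (hall j)
  refine measure_mono_null hsub ?_
  have h2 := Measure.prod_prod_le (μ := haarTwoAdic) (ν := (Measure.count : Measure ℤ)) N Set.univ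
  rw [h, zero_mul] at h2
  exact le_antisymm h2 zero_le

theorem ae_of_ae_nu {P : ℤ_[2] × ℤ → Prop} (h : ∀ᵐ p ∂nu, P p) :
    ∀ᵐ x ∂haarTwoAdic, ∀ j : ℤ, P (x, j) := by
  have h2 := Measure.ae_ae_of_ae_prod (μ := haarTwoAdic) (ν := (Measure.count : Measure ℤ)) h
  filter_upwards [h2] with x hx
  exact Measure.ae_count_iff.1 hx

end Crest.Agent.HI
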