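import Mathlib

/-! # S0148 project (HI), package P1: slope grid + monotone argmax + pigeonhole (helper7) -/

set_option autoImplicit false

namespace Crest.Agent.HI

theorem klp_exch (P φ : ℤ → ℝ) (a b : ℤ) (s : ℝ) (hPa : 0 < P a)
    (h1 : P b * Real.exp (s * φ b) ≤ P a * Real.exp (s * φ a))
    (h2 : P a * Real.exp ((s + 4) * φ a) ≤ P b * Real.exp ((s + 4) * φ b)) : φ a ≤ φ b := by
  have e1 : ∀ x : ℝ, Real.exp ((s + 4) * x) = Real.exp (s * x) * Real.exp (4 * x) := by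
    intro x; rw [← Real.exp_add]; ring_nf
  rw [e1, e1] at h2
  have h3 : P a * Real.exp (s * φ a) * Real.exp (4 * φ a) ≤
      P a * Real.exp (s * φ a) * Real.exp (4 * φ b) := by
    calc P a * Real.exp (s * φ a) * Real.exp (4 * φ a)
        = P a * (Real.exp (s * φ a) * Real.exp (4 * φ a)) := by ring
      _ ≤ P b * (Real.exp (s * φ b) * Real.exp (4 * φ b)) := h2
      _ = (P b * Real.exp (s * φ b)) * Real.exp (4 * φ b) := by ring
      _ ≤ (P a * Real.exp (s * φ a)) * Real.exp (4 * φ b) :=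
          mul_le_mul_of_nonneg_right h1 (Real.exp_pos _).le
  have hpos : 0 < P a * Real.exp (s * φ a) := mul_pos hPa (Real.exp_pos _)
  have h4 := le_of_mul_le_mul_left h3 hpos
  have h5 := Real.exp_le_exp.1 h4
  linarith

theorem klp_decay (P φ : ℤ → ℝ) (i i₁ : ℤ) (s : ℝ)
    (h1 : P i * Real.exp (s * φ i) ≤ P i₁ * Real.exp (s * φ i₁))
    (h2 : P i * Real.exp ((s + 4) * φ i) ≤ P i₁ * Real.exp ((s + 4) * φ i₁)) :
    P i * Real.exp ((s + 2) * φ i) ≤
      P i₁ * Real.exp ((s + 2) * φ i₁) * Real.exp (-2 * |φ i - φ i₁|) := by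
  rcases le_total (φ i₁) (φ i) with h | h
  · rw [abs_of_nonneg (sub_nonneg.2 h)]
    calc P i * Real.exp ((s + 2) * φ i)
        = (P i * Real.exp ((s + 4) * φ i)) * Real.exp (-2 * φ i) := by
          rw [mul_assoc, ← Real.exp_add]; ring_nf
      _ ≤ (P i₁ * Real.exp ((s + 4) * φ i₁)) * Real.exp (-2 * φ i) :=
          mul_le_mul_of_nonneg_right h2 (Real.exp_pos _).le
      _ = P i₁ * Real.exp ((s + 2) * φ i₁) * Real.exp (-2 * (φ i - φ i₁)) := by
          rw [mul_assoc, ← Real.exp_add, mul_assoc, ← Real.exp_add]; ring_nf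
  · rw [abs_of_nonpos (sub_nonpos.2 h)]
    calc P i * Real.exp ((s + 2) * φ i)
        = (P i * Real.exp (s * φ i)) * Real.exp (2 * φ i) := by
          rw [mul_assoc, ← Real.exp_add]; ring_nf
      _ ≤ (P i₁ * Real.exp (s * φ i₁)) * Real.exp (2 * φ i) :=
          mul_le_mul_of_nonneg_right h1 (Real.exp_pos _).le
      _ = P i₁ * Real.exp ((s + 2) * φ i₁) * Real.exp (-2 * -(φ i - φ i₁)) := by
          rw [mul_assoc, ← Real.exp_add, mul_assoc, ← Real.exp_add]; ring_nf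

/-- slope grid + monotone argmax + pigeonhole. -/
theorem kl_pigeon (I J : Finset ℤ) (P Q : ℤ → ℝ) (hP : ∀ i, 0 ≤ P i) (hQ : ∀ j, 0 ≤ Q j)
    (i0 j0 : ℤ) (hi0 : i0 ∈ I) (hj0 : j0 ∈ J) (hPi0 : 0 < P i0) (hQj0 : 0 < Q j0)
    (lo hi : ℤ) (hI : ∀ i ∈ I, lo ≤ i ∧ i ≤ hi) (hJ : ∀ j ∈ J, lo ≤ j ∧ j ≤ hi)
    (N : ℕ) (hN : 2 * (hi - lo) < N) :
    ∃ t : ℕ, t < N ∧ ∃ i₁ ∈ I, ∃ j₁ ∈ J,
      (∀ i ∈ I, P i * Real.exp (-(4 * (t : ℝ) + 2) * i) ≤
        P i₁ * Real.exp (-(4 * (t : ℝ) + 2) * i₁) * Real.exp (-2 * |(i : ℝ) - i₁|)) ∧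
      (∀ j ∈ J, Q j * Real.exp ((4 * (t : ℝ) + 2) * j) ≤
        Q j₁ * Real.exp ((4 * (t : ℝ) + 2) * j₁) * Real.exp (-2 * |(j : ℝ) - j₁|)) := by
  set φ : ℤ → ℝ := fun i => -(i : ℝ) with hφ
  set ψ : ℤ → ℝ := fun i => (i : ℝ) with hψ
  choose iT hiTm hiTmax using fun t : ℕ =>
    Finset.exists_max_image I (fun i => P i * Real.exp ((4 * (t : ℝ)) * φ i)) ⟨i0, hi0⟩
  choose jT hjTm hjTmax using fun t : ℕ =>
    Finset.exists_max_image J (fun j => Q j * Real.exp ((4 * (t : ℝ)) * ψ j)) ⟨j0, hj0⟩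
  have hPpos : ∀ t, 0 < P (iT t) := by
    intro t
    have h := hiTmax t i0 hi0
    have h0 : 0 < P i0 * Real.exp ((4 * (t : ℝ)) * φ i0) := mul_pos hPi0 (Real.exp_pos _)
    have h1 : 0 < P (iT t) * Real.exp ((4 * (t : ℝ)) * φ (iT t)) := lt_of_lt_of_le h0 h
    exact (pos_iff_pos_of_mul_pos h1).2 (Real.exp_pos _)
  have hQpos : ∀ t, 0 < Q (jT t) := by
    intro t
    have h := hjTmax t j0 hj0
    have h0 : 0 < Q j0 * Real.exp ((4 * (t : ℝ)) * ψ j0) := mul_pos hQj0 (Real.exp_pos _)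
    have h1 : 0 < Q (jT t) * Real.exp ((4 * (t : ℝ)) * ψ (jT t)) := lt_of_lt_of_le h0 h
    exact (pos_iff_pos_of_mul_pos h1).2 (Real.exp_pos _)
  have hcast : ∀ t : ℕ, (4 * ((t + 1 : ℕ) : ℝ)) = 4 * (t : ℝ) + 4 := by
    intro t; push_cast; ring
  have hiMono : ∀ t, iT (t + 1) ≤ iT t := by
    intro t
    have h1 := hiTmax t (iT (t + 1)) (hiTm (t + 1))
    have h2 := hiTmax (t + 1) (iT t) (hiTm t)
    simp only [hcast] at h2
    have := klp_exch P φ (iT t) (iT (t + 1)) (4 * (t : ℝ)) (hPpos t) h1 h2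
    simp only [hφ, neg_le_neg_iff] at this
    exact_mod_cast this
  have hjMono : ∀ t, jT t ≤ jT (t + 1) := by
    intro t
    have h1 := hjTmax t (jT (t + 1)) (hjTm (t + 1))
    have h2 := hjTmax (t + 1) (jT t) (hjTm t)
    simp only [hcast] at h2
    have := klp_exch Q ψ (jT t) (jT (t + 1)) (4 * (t : ℝ)) (hQpos t) h1 h2
    simp only [hψ] at this
    exact_mod_cast this
  have hex : ∃ t : ℕ, t < N ∧ iT (t + 1) = iT t ∧ jT (t + 1) = jT t := by
    by_contra hcon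
    push Not at hcon
    have hstep : ∀ t : ℕ, t < N → jT t - iT t + 1 ≤ jT (t + 1) - iT (t + 1) := by
      intro t ht
      have h1 := hiMono t
      have h2 := hjMono t
      by_cases he : iT (t + 1) = iT t
      · have h3 := hcon t ht he
        have : jT t < jT (t + 1) := lt_of_le_of_ne h2 (Ne.symm h3)
        omega
      · have : iT (t + 1) < iT t := lt_of_le_of_ne h1 he
        omega
    have hind : ∀ t : ℕ, t ≤ N → jT 0 - iT 0 + t ≤ jT t - iT t := by
      intro t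
      induction t with
      | zero => intro _; simp
      | succ t ih =>
        intro ht
        have h1 := ih (by omega)
        have h2 := hstep t (by omega)
        push_cast
        omega
    have h1 := hind N le_rfl
    have a1 := hI _ (hiTm 0)
    have a2 := hI _ (hiTm N)
    have a3 := hJ _ (hjTm 0)
    have a4 := hJ _ (hjTm N)
    omega
  obtain ⟨t, htN, hi1, hj1⟩ := hex
  refine ⟨t, htN, iT t, hiTm t, jT t, hjTm t, ?_, ?_⟩
  · intro i hi
    have h1 := hiTmax t i hi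
    have h2 := hiTmax (t + 1) i hi
    rw [hi1] at h2
    simp only [hcast] at h2
    have := klp_decay P φ i (iT t) (4 * (t : ℝ)) h1 h2
    simp only [hφ] at this
    have e1 : ∀ x : ℝ, -(4 * (t : ℝ) + 2) * x = (4 * (t : ℝ) + 2) * -x := by intro x; ring
    have e2 : |(i : ℝ) - (iT t : ℝ)| = |-(i : ℝ) - -(iT t : ℝ)| := by
      rw [← abs_neg]; congr 1; ring
    rw [e1, e1, e2]
    exact this
  · intro j hj
    have h1 := hjTmax t j hj
    have h2 := hjTmax (t + 1) j hj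
    rw [hj1] at h2
    simp only [hcast] at h2
    exact klp_decay Q ψ j (jT t) (4 * (t : ℝ)) h1 h2

end Crest.Agent.HI
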