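import Crest.Agent.Lib_HI_KL0
import Crest.Agent.Lib_HI_KLpigeon

/-! # S0148 project (HI), package P1: the fibre Key Lemma (pure statement on sequences over ℤ) -/

set_option autoImplicit false

namespace Crest.Agent.HI

theorem kl_sum_consec (a : ℤ → ℝ) {i j k : ℤ} (hij : i ≤ j) (hjk : j ≤ k) :
    ∑ l ∈ Finset.Ico i j, a l + ∑ l ∈ Finset.Ico j k, a l = ∑ l ∈ Finset.Ico i k, a l := by
  rw [← Finset.Ico_union_Ico_eq_Ico hij hjk,
    Finset.sum_union (Finset.Ico_disjoint_Ico_consecutive i j k)]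

set_option maxHeartbeats 1000000 in
/-- **Key Lemma.** -/
theorem keyLemma (a : ℤ → ℝ) (ha : ∀ l, 0 ≤ a l) (f g : ℤ → ℂ)
    (hf : Summable fun i => ‖f i‖ ^ 2) (hg : Summable fun i => ‖g i‖ ^ 2)
    (i0 j0 : ℤ) (hij : i0 < j0) (hfi : f i0 ≠ 0) (hgj : g j0 ≠ 0)
    (hsc : ∀ Λ : ℝ, ∃ (m M : ℤ) (lam : ℝ), Λ ≤ lam ∧ m ≤ i0 ∧ j0 ≤ M ∧
      (∀ l, m ≤ l → l ≤ M → a l ≤ lam) ∧ (∀ l, (l < m ∨ M < l) → 4 * lam ≤ a l) ∧
      100 * (((M - m : ℤ) : ℝ) + 10) ≤ lam) :
    ∃ n : ℕ, ∑' i : ℤ, (starRingEnd ℂ (f i)) * g (i + n) *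
      ((Real.exp (-(∑ l ∈ Finset.Ico i (i + n), a l)) : ℝ) : ℂ) ≠ 0 := by
  classical
  set K : ℝ := ((∑' i, ‖f i‖ ^ 2) + (∑' i, ‖g i‖ ^ 2)) / 2 with hK
  have hfle : ∀ i, ‖f i‖ ^ 2 ≤ ∑' i, ‖f i‖ ^ 2 := fun i =>
    hf.le_tsum i (fun j _ => by positivity)
  have hgle : ∀ i, ‖g i‖ ^ 2 ≤ ∑' i, ‖g i‖ ^ 2 := fun i =>
    hg.le_tsum i (fun j _ => by positivity)
  have hprod : ∀ i j, ‖f i‖ * ‖g j‖ ≤ K := by
    intro i j
    have h1 := hfle i
    have h2 := hgle j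
    rw [hK]
    nlinarith [sq_nonneg (‖f i‖ - ‖g j‖)]
  have hK0 : 0 ≤ K := le_trans (by positivity) (hprod i0 j0)
  have hfpos : 0 < ‖f i0‖ := norm_pos_iff.2 hfi
  have hgpos : 0 < ‖g j0‖ := norm_pos_iff.2 hgj
  set c0 : ℝ := ‖f i0‖ * ‖g j0‖ * Real.exp (-(∑ l ∈ Finset.Ico i0 j0, a l)) with hc0
  have hc0pos : 0 < c0 := by positivity
  obtain ⟨m, M, lam, hΛ, hmi, hjM, hin, hout, hbig⟩ := hsc (4 * K / c0 + 1)
  have hL : (0 : ℝ) ≤ ((M - m : ℤ) : ℝ) := by exact_mod_cast (by omega : (0 : ℤ) ≤ M - m)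
  have hlam : 1000 ≤ lam := by linarith
  have hbigA : 4 * K < c0 * Real.exp lam := by
    have h1 : lam + 1 ≤ Real.exp lam := Real.add_one_le_exp lam
    have h2 : 4 * K / c0 < Real.exp lam := by linarith
    rw [div_lt_iff₀ hc0pos] at h2
    linarith
  set lo : ℤ := m - (M - m) - 2 with hlo
  set hi : ℤ := M + (M - m) + 2 with hhi
  set Φ : ℤ → ℝ := fun j => ∑ l ∈ Finset.Ico lo j, a l with hΦ
  have hΦsub : ∀ i j, lo ≤ i → i ≤ j → Φ j - Φ i = ∑ l ∈ Finset.Ico i j, a l := by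
    intro i j h1 h2
    simp only [hΦ]
    rw [← kl_sum_consec a h1 h2]
    ring
  set P : ℤ → ℝ := fun i => ‖f i‖ * Real.exp (Φ i - lam * i) with hP
  set Q : ℤ → ℝ := fun j => ‖g j‖ * Real.exp (-(Φ j) + lam * j) with hQ
  set N : ℕ := ⌊lam / 4⌋₊ with hN
  have hN1 : (N : ℝ) ≤ lam / 4 := Nat.floor_le (by positivity)
  have hN2 : lam / 4 < N + 1 := Nat.lt_floor_add_one _
  have hN3 : 2 * (hi - lo) < (N : ℤ) := by
    have h1 : ((2 * (hi - lo) : ℤ) : ℝ) < ((N : ℤ) : ℝ) := by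
      rw [hhi, hlo]
      push_cast
      push_cast at hbig hL
      linarith
    exact_mod_cast h1
  obtain ⟨t, htN, i₁, hi₁, j₁, hj₁, hPd, hQd⟩ := kl_pigeon (Finset.Icc lo M) (Finset.Icc m hi) P Q
    (fun i => by positivity) (fun j => by positivity) i0 j0
    (Finset.mem_Icc.2 ⟨by omega, by omega⟩) (Finset.mem_Icc.2 ⟨by omega, by omega⟩)
    (by positivity) (by positivity) lo hi
    (fun i h => by rw [Finset.mem_Icc] at h; constructor <;> omega)
    (fun j h => by rw [Finset.mem_Icc] at h; constructor <;> omega) N hN3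
  rw [Finset.mem_Icc] at hi₁ hj₁
  set σ : ℝ := 4 * (t : ℝ) + 2 with hσ
  have hσ0 : 0 ≤ σ := by positivity
  have hσ1 : σ ≤ lam := by
    have h1 : (t : ℝ) + 1 ≤ N := by exact_mod_cast htN
    linarith
  set s : ℝ := lam + σ with hs
  set A : ℝ := (P i₁ * Real.exp (-σ * i₁)) * (Q j₁ * Real.exp (σ * j₁)) with hA
  have hPQ : ∀ i j : ℤ, (P i * Real.exp (-σ * i)) * (Q j * Real.exp (σ * j)) =
      ‖f i‖ * ‖g j‖ * Real.exp (Φ i - Φ j + s * ((j : ℝ) - i)) := by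
    intro i j
    have h1 : Real.exp (Φ i - Φ j + s * ((j : ℝ) - i)) = Real.exp (Φ i - lam * i) *
        Real.exp (-σ * i) * (Real.exp (-(Φ j) + lam * j) * Real.exp (σ * j)) := by
      rw [← Real.exp_add, ← Real.exp_add, ← Real.exp_add]
      congr 1
      rw [hs]
      ring
    rw [h1]
    simp only [hP, hQ]
    ring
  have hPnn : ∀ i : ℤ, 0 ≤ P i * Real.exp (-σ * i) := fun i => by positivity
  have hQnn : ∀ j : ℤ, 0 ≤ Q j * Real.exp (σ * j) := fun j => by positivity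
  have hA0 : 0 ≤ A := mul_nonneg (hPnn _) (hQnn _)
  -- lower bound for `A`
  have hA1 : c0 * Real.exp lam ≤ A := by
    have h1 : P i0 * Real.exp (-σ * i0) ≤ P i₁ * Real.exp (-σ * i₁) := by
      refine le_trans (hPd i0 (Finset.mem_Icc.2 ⟨by omega, by omega⟩)) ?_
      apply mul_le_of_le_one_right (hPnn _)
      rw [Real.exp_le_one_iff]
      have := abs_nonneg ((i0 : ℝ) - i₁)
      linarith
    have h2 : Q j0 * Real.exp (σ * j0) ≤ Q j₁ * Real.exp (σ * j₁) := by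
      refine le_trans (hQd j0 (Finset.mem_Icc.2 ⟨by omega, by omega⟩)) ?_
      apply mul_le_of_le_one_right (hQnn _)
      rw [Real.exp_le_one_iff]
      have := abs_nonneg ((j0 : ℝ) - j₁)
      linarith
    have h3 : (P i0 * Real.exp (-σ * i0)) * (Q j0 * Real.exp (σ * j0)) ≤ A :=
      mul_le_mul h1 h2 (hQnn _) (hPnn _)
    refine le_trans ?_ h3
    rw [hPQ, hc0, mul_assoc (‖f i0‖ * ‖g j0‖), ← Real.exp_add]
    apply mul_le_mul_of_nonneg_left _ (by positivity)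
    rw [Real.exp_le_exp]
    have h4 := hΦsub i0 j0 (by omega) hij.le
    have h5 : (1 : ℝ) ≤ (j0 : ℝ) - i0 := by
      have : (i0 : ℝ) + 1 ≤ j0 := by exact_mod_cast hij
      linarith
    have h6 : lam ≤ s * ((j0 : ℝ) - i0) := by
      have : lam ≤ s := by rw [hs]; linarith
      nlinarith
    linarith
  have hKA : 4 * K < A := lt_of_lt_of_le hbigA hA1
  -- `i₁ ≤ j₁`
  have hij₁ : i₁ ≤ j₁ := by
    by_contra hcon
    push Not at hcon
    have h1 : A ≤ K := by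
      rw [hA, hPQ]
      refine le_trans ?_ (hprod i₁ j₁)
      apply mul_le_of_le_one_right (by positivity)
      rw [Real.exp_le_one_iff]
      have h2 := hΦsub j₁ i₁ (by omega) hcon.le
      have h3 : ∑ l ∈ Finset.Ico j₁ i₁, a l ≤ (Finset.Ico j₁ i₁).card • lam := by
        apply Finset.sum_le_card_nsmul
        intro l hl
        rw [Finset.mem_Ico] at hl
        exact hin l (by omega) (by omega)
      rw [Int.card_Ico, nsmul_eq_mul] at h3
      have h4 : (((i₁ - j₁).toNat : ℕ) : ℝ) = (i₁ : ℝ) - j₁ := by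
        have : (((i₁ - j₁).toNat : ℕ) : ℤ) = i₁ - j₁ := Int.toNat_of_nonneg (by omega)
        exact_mod_cast this
      rw [h4] at h3
      have h5 : (0 : ℝ) ≤ (i₁ : ℝ) - j₁ := by
        have : (j₁ : ℝ) ≤ i₁ := by exact_mod_cast hcon.le
        linarith
      have h6 : ((i₁ : ℝ) - j₁) * lam ≤ ((i₁ : ℝ) - j₁) * s :=
        mul_le_mul_of_nonneg_left (by rw [hs]; linarith) h5
      nlinarith
    linarith
  obtain ⟨n, hn⟩ : ∃ n : ℕ, (n : ℤ) = j₁ - i₁ := ⟨(j₁ - i₁).toNat, Int.toNat_of_nonneg (by omega)⟩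
  refine ⟨n, ?_⟩
  set T : ℤ → ℂ := fun i => (starRingEnd ℂ (f i)) * g (i + n) *
      ((Real.exp (-(∑ l ∈ Finset.Ico i (i + n), a l)) : ℝ) : ℂ) with hT
  set c : ℝ := Real.exp (s * n) with hc
  have hnormT : ∀ i, c * ‖T i‖ = ‖f i‖ * ‖g (i + n)‖ *
      Real.exp (-(∑ l ∈ Finset.Ico i (i + n), a l) + s * n) := by
    intro i
    simp only [hT, norm_mul, RCLike.norm_conj, Complex.norm_real, Real.norm_eq_abs,
      abs_of_pos (Real.exp_pos _)]
    rw [Real.exp_add, hc]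
    ring
  set w : ℤ → ℝ := fun i => ‖f i‖ * ‖g (i + n)‖ with hw
  have hw0 : ∀ i, 0 ≤ w i := fun i => by positivity
  have hB : HasSum (fun i : ℤ => (‖f i‖ ^ 2 + ‖g (i + n)‖ ^ 2) / 2) K := by
    have h1 : HasSum (fun i : ℤ => ‖g (i + n)‖ ^ 2) (∑' i, ‖g i‖ ^ 2) :=
      (Equiv.addRight (n : ℤ)).hasSum_iff.2 hg.hasSum
    exact (hf.hasSum.add h1).div_const 2
  have hwle : ∀ i, w i ≤ (‖f i‖ ^ 2 + ‖g (i + n)‖ ^ 2) / 2 := by
    intro i
    simp only [hw]
    nlinarith [sq_nonneg (‖f i‖ - ‖g (i + n)‖)]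
  have hws : Summable w := Summable.of_nonneg_of_le hw0 hwle hB.summable
  have hwK : ∑' i, w i ≤ K := hasSum_le hwle hws.hasSum hB
  have hnear : ∀ i, lo ≤ i → c * ‖T i‖ =
      (P i * Real.exp (-σ * i)) * (Q (i + n) * Real.exp (σ * ((i + n : ℤ) : ℝ))) := by
    intro i hi
    rw [hnormT, hPQ]
    congr 2
    have h1 := hΦsub i (i + n) hi (by omega)
    push_cast
    linarith
  apply kl_dominant T i₁ c A K (Real.exp_pos _) w hw0 hws hwK
  · rw [hnear i₁ hi₁.1, hA]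
    have : i₁ + (n : ℤ) = j₁ := by omega
    rw [this]
  · linarith
  · intro i hii
    by_cases hcase : (lo ≤ i ∧ i ≤ M) ∧ (m ≤ i + n ∧ i + n ≤ hi)
    · have h1 := hPd i (Finset.mem_Icc.2 hcase.1)
      have h2 := hQd (i + n) (Finset.mem_Icc.2 hcase.2)
      rw [hnear i hcase.1.1]
      have h3 := mul_le_mul h1 h2 (hQnn _) (mul_nonneg (hPnn _) (Real.exp_pos _).le)
      refine le_trans h3 ?_
      have h4 : (((i + n : ℤ) : ℝ) - j₁) = (i : ℝ) - i₁ := by
        have : (n : ℝ) = (j₁ : ℝ) - i₁ := by exact_mod_cast hn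
        push_cast
        linarith
      rw [h4]
      have h5 : Real.exp (-4 * |(i : ℝ) - i₁|) =
          Real.exp (-2 * |(i : ℝ) - i₁|) * Real.exp (-2 * |(i : ℝ) - i₁|) := by
        rw [← Real.exp_add]
        congr 1
        ring
      rw [h5, hA]
      have := hw0 i
      nlinarith
    · have hfar : 0 ≤ ∑ l ∈ Finset.Ico i (i + n), (a l - s) := by
        apply kl_far (fun l => a l - s) m M (by omega) lam (by linarith)
        · intro l _ _
          have := ha l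
          simp only [hs]
          linarith
        · intro l hl
          have := hout l hl
          simp only [hs]
          linarith
        · omega
      rw [Finset.sum_sub_distrib, Finset.sum_const, Int.card_Ico, nsmul_eq_mul] at hfar
      have h1 : (((i + n - i).toNat : ℕ) : ℝ) = n := by
        have : (i + (n : ℤ) - i).toNat = n := by omega
        rw [this]
      rw [h1] at hfar
      rw [hnormT]
      have h2 : Real.exp (-(∑ l ∈ Finset.Ico i (i + n), a l) + s * n) ≤ 1 := by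
        rw [Real.exp_le_one_iff]
        linarith
      have h3 : ‖f i‖ * ‖g (i + n)‖ * Real.exp (-(∑ l ∈ Finset.Ico i (i + n), a l) + s * n) ≤ w i :=
        mul_le_of_le_one_right (hw0 i) h2
      have h4 : 0 ≤ A * Real.exp (-4 * |(i : ℝ) - i₁|) := by positivity
      linarith

end Crest.Agent.HI
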