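import Mathlib

/-! # S0148 project (HI), package P1, auxiliary lemmas for the Key Lemma: far windows, dominating term -/

set_option autoImplicit false

namespace Crest.Agent.HI

/-- far windows: the sum of the increments `d l = a l - s` is nonnegative. -/
theorem kl_far (d : ℤ → ℝ) (m M : ℤ) (hmM : m ≤ M) (lam : ℝ) (hlam : 0 ≤ lam)
    (hin : ∀ l, m ≤ l → l ≤ M → -(2 * lam) ≤ d l) (hout : ∀ l, (l < m ∨ M < l) → 2 * lam ≤ d l)
    (i : ℤ) (n : ℕ) (h : i < m - (M - m) - 2 ∨ M < i ∨ i + n < m ∨ M + (M - m) + 2 < i + n) :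
    0 ≤ ∑ l ∈ Finset.Ico i (i + n), d l := by
  classical
  set W := Finset.Ico i (i + n) with hW
  set Win := W.filter (fun l => m ≤ l ∧ l ≤ M) with hWin
  set Wout := W.filter (fun l => ¬ (m ≤ l ∧ l ≤ M)) with hWout
  have hsplit : ∑ l ∈ W, d l = ∑ l ∈ Win, d l + ∑ l ∈ Wout, d l :=
    (Finset.sum_filter_add_sum_filter_not W _ d).symm
  have h1 : (Win.card : ℝ) * (-(2 * lam)) ≤ ∑ l ∈ Win, d l := by
    rw [← nsmul_eq_mul]
    apply Finset.card_nsmul_le_sum
    intro l hl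
    obtain ⟨_, h1, h2⟩ := Finset.mem_filter.1 hl
    exact hin l h1 h2
  have h2 : (Wout.card : ℝ) * (2 * lam) ≤ ∑ l ∈ Wout, d l := by
    rw [← nsmul_eq_mul]
    apply Finset.card_nsmul_le_sum
    intro l hl
    obtain ⟨_, h1⟩ := Finset.mem_filter.1 hl
    exact hout l (by omega)
  have hcard : Win.card ≤ Wout.card := by
    by_cases hne : Win = ∅
    · simp [hne]
    · obtain ⟨l0, hl0⟩ := Finset.nonempty_iff_ne_empty.2 hne
      obtain ⟨hl0W, hl0m, hl0M⟩ := Finset.mem_filter.1 hl0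
      rw [hW, Finset.mem_Ico] at hl0W
      have hle : Win.card ≤ (Finset.Icc m M).card := Finset.card_le_card (fun l hl => by
          obtain ⟨_, h1, h2⟩ := Finset.mem_filter.1 hl
          exact Finset.mem_Icc.2 ⟨h1, h2⟩)
      rw [Int.card_Icc] at hle
      rcases h with h | h | h | h
      · have hsub : Finset.Ico i m ⊆ Wout := by
          intro l hl
          rw [Finset.mem_Ico] at hl
          exact Finset.mem_filter.2 ⟨Finset.mem_Ico.2 ⟨hl.1, by omega⟩, by omega⟩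
        have := Finset.card_le_card hsub
        rw [Int.card_Ico] at this
        omega
      · omega
      · omega
      · have hsub : Finset.Ico (M + 1) (i + n) ⊆ Wout := by
          intro l hl
          rw [Finset.mem_Ico] at hl
          exact Finset.mem_filter.2 ⟨Finset.mem_Ico.2 ⟨by omega, hl.2⟩, by omega⟩
        have := Finset.card_le_card hsub
        rw [Int.card_Ico] at this
        omega
  have hc : (Win.card : ℝ) ≤ Wout.card := by exact_mod_cast hcard
  rw [hsplit]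
  nlinarith

theorem kl_hasSum_geom (q : ℝ) (hq0 : 0 ≤ q) (hq1 : q < 1) :
    HasSum (fun k : ℤ => if k = 0 then (0 : ℝ) else q ^ k.natAbs) (2 * (q * (1 - q)⁻¹)) := by
  have hg : HasSum (fun n : ℕ => q * q ^ n) (q * (1 - q)⁻¹) :=
    (hasSum_geometric_of_lt_one hq0 hq1).mul_left _
  set F : ℤ → ℝ := fun k : ℤ => if k = 0 then (0 : ℝ) else q ^ k.natAbs with hF
  have h1 : HasSum (fun n : ℕ => F ((n : ℤ) + 1)) (q * (1 - q)⁻¹) := by
    have he : (fun n : ℕ => F ((n : ℤ) + 1)) = fun n : ℕ => q * q ^ n := by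
      funext n
      have h0 : ((n : ℤ) + 1) ≠ 0 := by omega
      have h3 : ((n : ℤ) + 1).natAbs = n + 1 := by omega
      simp only [hF, h0, if_false]
      rw [h3, pow_succ']
    rw [he]; exact hg
  have h2 : HasSum (fun n : ℕ => F (-((n : ℤ) + 1))) (q * (1 - q)⁻¹) := by
    have he : (fun n : ℕ => F (-((n : ℤ) + 1))) = fun n : ℕ => q * q ^ n := by
      funext n
      have h0 : (-((n : ℤ) + 1)) ≠ 0 := by omega
      have h3 : (-((n : ℤ) + 1)).natAbs = n + 1 := by omega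
      simp only [hF, h0, if_false]
      rw [h3, pow_succ']
    rw [he]; exact hg
  have h4 := HasSum.of_add_one_of_neg_add_one h1 h2
  have h5 : q * (1 - q)⁻¹ + F 0 + q * (1 - q)⁻¹ = 2 * (q * (1 - q)⁻¹) := by
    simp only [hF, if_true]; ring
  rw [h5] at h4
  exact h4

theorem kl_hasSum_exp : HasSum (fun k : ℤ => if k = 0 then (0 : ℝ) else Real.exp (-4 * |(k : ℝ)|))
    (2 * (Real.exp (-4) * (1 - Real.exp (-4))⁻¹)) := by
  have hq0 : 0 ≤ Real.exp (-4) := (Real.exp_pos _).le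
  have hq1 : Real.exp (-4) < 1 := Real.exp_lt_one_iff.2 (by norm_num)
  have h := kl_hasSum_geom _ hq0 hq1
  have he : (fun k : ℤ => if k = 0 then (0 : ℝ) else Real.exp (-4 * |(k : ℝ)|)) =
      fun k : ℤ => if k = 0 then (0 : ℝ) else Real.exp (-4) ^ k.natAbs := by
    funext k
    have h3 : |(k : ℝ)| = (k.natAbs : ℝ) := by
      rw [Nat.cast_natAbs]; push_cast; rfl
    rw [← Real.exp_nat_mul, h3, mul_comm]
  rw [he]; exact h

theorem kl_exp_const : 2 * (Real.exp (-4) * (1 - Real.exp (-4))⁻¹) ≤ 1 / 2 := by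
  have h1 : Real.exp (-4) ≤ 1 / 5 := by
    rw [Real.exp_neg, one_div]
    apply inv_anti₀ (by norm_num)
    have := Real.add_one_le_exp (4 : ℝ)
    linarith
  have h0 : 0 < Real.exp (-4) := Real.exp_pos _
  have h2 : 0 < 1 - Real.exp (-4) := by linarith
  rw [← div_eq_mul_inv, ← mul_div_assoc, div_le_iff₀ h2]
  linarith

/-- one dominating term. -/
theorem kl_dominant (T : ℤ → ℂ) (i₁ : ℤ) (c A K : ℝ) (hc : 0 < c) (w : ℤ → ℝ) (hw0 : ∀ i, 0 ≤ w i)
    (hw : Summable w) (hwK : ∑' i, w i ≤ K) (hA : c * ‖T i₁‖ = A) (hKA : 2 * K < A)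
    (hT : ∀ i, i ≠ i₁ → c * ‖T i‖ ≤ A * Real.exp (-4 * |(i : ℝ) - i₁|) + w i) :
    ∑' i, T i ≠ 0 := by
  set S : ℝ := 2 * (Real.exp (-4) * (1 - Real.exp (-4))⁻¹) with hS
  have hA0 : 0 ≤ A := by rw [← hA]; positivity
  set G : ℤ → ℝ := fun k : ℤ => if k = 0 then (0 : ℝ) else Real.exp (-4 * |(k : ℝ)|) with hG
  have hGs : HasSum (fun i : ℤ => G (i - i₁)) S := by
    have := (Equiv.subRight i₁).hasSum_iff.2 kl_hasSum_exp
    exact this
  have hB : HasSum (fun i : ℤ => c⁻¹ * (A * G (i - i₁) + w i)) (c⁻¹ * (A * S + ∑' i, w i)) :=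
    ((hGs.mul_left A).add hw.hasSum).mul_left _
  set T' : ℤ → ℂ := fun i => if i = i₁ then 0 else T i with hT'
  have hbound : ∀ i, ‖T' i‖ ≤ c⁻¹ * (A * G (i - i₁) + w i) := by
    intro i
    by_cases hi : i = i₁
    · simp only [hT', hi, if_true, norm_zero, sub_self, hG]
      have := hw0 i₁
      positivity
    · have h0 : i - i₁ ≠ 0 := sub_ne_zero.2 hi
      simp only [hT', hi, if_false, hG, h0]
      rw [le_inv_mul_iff₀ hc]
      have := hT i hi
      push_cast
      exact this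
  have hsT' : Summable T' := Summable.of_norm_bounded hB.summable hbound
  have hnorm : ‖∑' i, T' i‖ ≤ c⁻¹ * (A * S + ∑' i, w i) := tsum_of_norm_bounded hB hbound
  have hsum : HasSum T ((∑' i, T' i) + T i₁) := by
    have h1 := hsT'.hasSum.add (hasSum_ite_eq i₁ (T i₁))
    convert h1 using 2 with i
    by_cases hi : i = i₁
    · simp [hT', hi]
    · simp [hT', hi]
  rw [hsum.tsum_eq]
  intro h0
  have h1 : T i₁ = -∑' i, T' i := by
    rw [eq_neg_iff_add_eq_zero, add_comm]; exact h0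
  have h2 : ‖T i₁‖ ≤ c⁻¹ * (A * S + ∑' i, w i) := by rw [h1, norm_neg]; exact hnorm
  rw [le_inv_mul_iff₀ hc, hA] at h2
  have h3 : A * S ≤ A * (1 / 2) := mul_le_mul_of_nonneg_left kl_exp_const hA0
  linarith

end Crest.Agent.HI
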