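import Crest.Agent.Lib_HI_Ops
import Crest.Agent.Lib_HI_KL

/-! # S0148 project (HI), package P5: the main argument -/

set_option autoImplicit false

namespace Crest.Agent.HI

open MeasureTheory Crest.AnalysisR.TwoAdic Filter Topology

attribute [local instance] borelTwoAdic borelSpace_twoAdic

/-- sections of an `L²` function are `ℓ²`. -/
theorem section_summable (u : HS) :
    ∀ᵐ x ∂haarTwoAdic, Summable fun j : ℤ => ‖(u : ℤ_[2] × ℤ → ℂ) (x, j)‖ ^ 2 := by
  have hu : MemLp (u : ℤ_[2] × ℤ → ℂ) 2 nu := Lp.memLp u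
  have h1 : Integrable (fun p => ‖(u : ℤ_[2] × ℤ → ℂ) p‖ ^ 2) nu :=
    (memLp_two_iff_integrable_sq_norm hu.1).1 hu
  have h2 := Integrable.prod_right_ae (μ := haarTwoAdic) (ν := Measure.count) h1
  filter_upwards [h2] with x hx
  have := integrable_count_iff.1 hx
  simpa using this

/-- fibrewise orthogonality. -/
theorem fibre_orth (u F : HS)
    (h : ∀ (E : Set ℤ_[2]) (hE : MeasurableSet E), inner ℂ (opM E hE u) F = 0) :
    ∀ᵐ x ∂haarTwoAdic, ∑' j : ℤ, (starRingEnd ℂ ((u : ℤ_[2] × ℤ → ℂ) (x, j))) *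
      (F : ℤ_[2] × ℤ → ℂ) (x, j) = 0 := by
  set hh : ℤ_[2] × ℤ → ℂ := fun p => inner ℂ ((u : ℤ_[2] × ℤ → ℂ) p) ((F : ℤ_[2] × ℤ → ℂ) p)
    with hhdef
  have hint : Integrable hh nu := L2.integrable_inner u F
  have hG : Integrable (fun x => ∫ j, hh (x, j) ∂Measure.count) haarTwoAdic :=
    Integrable.integral_prod_left (μ := haarTwoAdic) (ν := Measure.count) hint
  have hzero : (fun x => ∫ j, hh (x, j) ∂Measure.count) =ᵐ[haarTwoAdic] 0 := by
    apply hG.ae_eq_zero_of_forall_setIntegral_eq_zero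
    intro E hE _
    have h1 := h E hE
    rw [L2.inner_def] at h1
    have h2 : ∫ p, inner ℂ ((opM E hE u : ℤ_[2] × ℤ → ℂ) p) ((F : ℤ_[2] × ℤ → ℂ) p) ∂nu
        = ∫ p in E ×ˢ (Set.univ : Set ℤ), hh p ∂nu := by
      rw [← integral_indicator (hE.prod MeasurableSet.univ)]
      apply integral_congr_ae
      filter_upwards [opM_ae E hE u] with p hp
      rw [hp]
      by_cases hpE : p.1 ∈ E
      · have : p ∈ E ×ˢ (Set.univ : Set ℤ) := ⟨hpE, trivial⟩
        simp [Set.indicator_of_mem this, Set.indicator_of_mem hpE, hhdef]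
      · have : p ∉ E ×ˢ (Set.univ : Set ℤ) := fun hc => hpE hc.1
        simp [Set.indicator_of_notMem this, Set.indicator_of_notMem hpE]
    rw [h2] at h1
    have h3 := setIntegral_prod (μ := haarTwoAdic) (ν := Measure.count) hh
      (s := E) (t := (Set.univ : Set ℤ)) hint.integrableOn
    rw [show haarTwoAdic.prod Measure.count = nu from rfl, h1] at h3
    simpa using h3.symm
  have hsec := Integrable.prod_right_ae (μ := haarTwoAdic) (ν := Measure.count) hint
  filter_upwards [hzero, hsec] with x hx hxs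
  have h4 := integral_countable hxs
  simp only [Pi.zero_apply] at hx
  rw [hx] at h4
  rw [h4]
  apply tsum_congr
  intro j
  simp [hhdef, Measure.real, mul_comm]

/-- the fibre identity for `S^n u` against `F`. -/
theorem fibre_pow (u F : HS) (n : ℕ)
    (h : ∀ (E : Set ℤ_[2]) (hE : MeasurableSet E), inner ℂ (opM E hE ((opS ^ n) u)) F = 0) :
    ∀ᵐ x ∂haarTwoAdic, ∑' i : ℤ, (starRingEnd ℂ ((u : ℤ_[2] × ℤ → ℂ) (x, i))) *
      (F : ℤ_[2] × ℤ → ℂ) (x, i + n) *
      ((Real.exp (-(∑ l ∈ Finset.Ico i (i + n), aw x l)) : ℝ) : ℂ) = 0 := by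
  filter_upwards [fibre_orth ((opS ^ n) u) F h, ae_of_ae_nu (opS_pow_ae n u)] with x hx hp
  rw [← (Equiv.addRight (n : ℤ)).tsum_eq] at hx
  rw [← hx]
  apply tsum_congr
  intro i
  simp only [Equiv.coe_addRight]
  rw [hp (i + n)]
  simp only [add_sub_cancel_right, map_mul, Complex.conj_ofReal]
  ring

/-- Step 4: the Key Lemma applied fibrewise. -/
theorem claim_zero (W : Submodule ℂ HS)
    (hS : ∀ f ∈ W, opS f ∈ W)
    (hM : ∀ (E : Set ℤ_[2]) (hE : MeasurableSet E), ∀ f ∈ W, opM E hE f ∈ W)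
    (F : HS) (hF : ∀ u ∈ W, inner ℂ u F = 0) (u : HS) (hu : u ∈ W) :
    ∀ᵐ x ∂haarTwoAdic, ∀ i j : ℤ, i < j →
      (u : ℤ_[2] × ℤ → ℂ) (x, i) = 0 ∨ (F : ℤ_[2] × ℤ → ℂ) (x, j) = 0 := by
  have hpow : ∀ n : ℕ, (opS ^ n) u ∈ W := by
    intro n
    induction n with
    | zero => simpa using hu
    | succ n ih =>
      rw [pow_succ']
      exact hS _ ih
  have h1 : ∀ᵐ x ∂haarTwoAdic, ∀ n : ℕ, ∑' i : ℤ, (starRingEnd ℂ ((u : ℤ_[2] × ℤ → ℂ) (x, i))) *
      (F : ℤ_[2] × ℤ → ℂ) (x, i + n) *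
      ((Real.exp (-(∑ l ∈ Finset.Ico i (i + n), aw x l)) : ℝ) : ℂ) = 0 := by
    rw [ae_all_iff]
    intro n
    exact fibre_pow u F n (fun E hE => hF _ (hM E hE _ (hpow n)))
  filter_upwards [h1, good_ae, section_summable u, section_summable F] with x hx hg hsu hsF
  intro i j hij
  by_contra hcon
  push Not at hcon
  obtain ⟨n, hn⟩ := keyLemma (aw x) (fun l => le_trans zero_le_one (aw_ge_one x l))
    (fun i => (u : ℤ_[2] × ℤ → ℂ) (x, i)) (fun i => (F : ℤ_[2] × ℤ → ℂ) (x, i)) hsu hsF i j hij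
    hcon.1 hcon.2 (fun Λ => scales hg i j Λ)
  exact hn (hx n)

/-- Step 5: induction with `V`. -/
theorem claim_k (W : Submodule ℂ HS)
    (hS : ∀ f ∈ W, opS f ∈ W) (hV : ∀ f ∈ W, opV f ∈ W)
    (hM : ∀ (E : Set ℤ_[2]) (hE : MeasurableSet E), ∀ f ∈ W, opM E hE f ∈ W)
    (F : HS) (hF : ∀ u ∈ W, inner ℂ u F = 0) (k : ℕ) : ∀ u ∈ W,
    ∀ᵐ x ∂haarTwoAdic, ∀ i j : ℤ, i - k < j →
      (u : ℤ_[2] × ℤ → ℂ) (x, i) = 0 ∨ (F : ℤ_[2] × ℤ → ℂ) (x + (k : ℤ_[2]), j) = 0 := by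
  induction k with
  | zero =>
    intro u hu
    filter_upwards [claim_zero W hS hM F hF u hu] with x hx i j hij
    simpa using hx i j (by simpa using hij)
  | succ k ih =>
    intro u hu
    have h1 := mp_add_one.quasiMeasurePreserving.ae (ih (opV u) (hV u hu))
    have h2 := mp_add_one.quasiMeasurePreserving.ae (ae_of_ae_nu (opV_ae u))
    filter_upwards [h1, h2] with x hx1 hx2 i j hij
    have h3 := hx1 (i - 1) j (by push_cast at hij; linarith)
    rw [hx2 (i - 1)] at h3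
    simp only [add_sub_cancel_right, sub_add_cancel] at h3
    rcases h3 with h3 | h3
    · left
      rcases mul_eq_zero.1 h3 with h4 | h4
      · exact absurd (by exact_mod_cast h4) (bb_pos x i).ne'
      · exact h4
    · right
      have : x + ((k + 1 : ℕ) : ℤ_[2]) = x + 1 + (k : ℤ_[2]) := by push_cast; ring
      rw [this]; exact h3

theorem mp_add_nat (k : ℕ) :
    MeasurePreserving (fun x : ℤ_[2] => x + (k : ℤ_[2])) haarTwoAdic haarTwoAdic := by
  induction k with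
  | zero =>
    have h : (fun x : ℤ_[2] => x + ((0 : ℕ) : ℤ_[2])) = id := by funext x; simp
    rw [h]; exact MeasurePreserving.id haarTwoAdic
  | succ k ih =>
    have := mp_add_one.comp ih
    convert this using 1
    funext x
    simp only [Function.comp]
    push_cast; ring

/-- a nonzero element has a nonzero column. -/
theorem exists_column (u : HS) (hu : u ≠ 0) :
    ∃ i : ℤ, ¬ ∀ᵐ x ∂haarTwoAdic, (u : ℤ_[2] × ℤ → ℂ) (x, i) = 0 := by
  by_contra hcon
  push Not at hcon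
  apply hu
  rw [Lp.eq_zero_iff_ae_eq_zero]
  exact ae_nu_of_ae (P := fun p => (u : ℤ_[2] × ℤ → ℂ) p = 0) (ae_all_iff.2 hcon)

theorem main (W : Submodule ℂ HS) (hW : IsClosed (W : Set HS))
    (hS : ∀ f ∈ W, opS f ∈ W) (hV : ∀ f ∈ W, opV f ∈ W)
    (hM : ∀ (E : Set ℤ_[2]) (hE : MeasurableSet E), ∀ f ∈ W, opM E hE f ∈ W) :
    W = ⊥ ∨ W = ⊤ := by
  by_contra hcon
  push Not at hcon
  obtain ⟨hbot, htop⟩ := hcon
  obtain ⟨f, hfW, hf0⟩ := (Submodule.ne_bot_iff W).1 hbot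
  have : CompleteSpace W := hW.completeSpace_coe
  have horth : Wᗮ ≠ ⊥ := fun h => htop ((Submodule.orthogonal_eq_bot_iff).1 h)
  obtain ⟨F, hFW, hF0⟩ := (Submodule.ne_bot_iff _).1 horth
  have hF : ∀ u ∈ W, inner ℂ u F = 0 := fun u hu => (Submodule.mem_orthogonal W F).1 hFW u hu
  obtain ⟨i, hi⟩ := exists_column f hf0
  obtain ⟨j, hj⟩ := exists_column F hF0
  set k₀ : ℕ := (i - j + 1).toNat with hk₀
  have hk₀' : i - k₀ < j := by
    have := Int.self_le_toNat (i - j + 1)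
    omega
  set B : Set ℤ_[2] := {x | (F : ℤ_[2] × ℤ → ℂ) (x, j) ≠ 0} with hB
  have hBm : MeasurableSet B := by
    have h1 : Measurable fun x : ℤ_[2] => (F : ℤ_[2] × ℤ → ℂ) (x, j) :=
      (Lp.stronglyMeasurable F).measurable.comp measurable_prodMk_right
    exact h1 (MeasurableSet.singleton (0 : ℂ)).compl
  set C : Set ℤ_[2] := ⋃ k : ℕ, ⋃ _ : k₀ ≤ k, (fun x : ℤ_[2] => x + (k : ℤ_[2])) ⁻¹' B with hC
  have hCm : MeasurableSet C :=
    MeasurableSet.iUnion fun k => MeasurableSet.iUnion fun _ => (mp_add_nat k).measurable hBm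
  have hCinv : (fun x : ℤ_[2] => x + 1) ⁻¹' C ⊆ C := by
    intro x hx
    simp only [hC, Set.mem_preimage, Set.mem_iUnion] at hx ⊢
    obtain ⟨k, hk, hxk⟩ := hx
    refine ⟨k + 1, by omega, ?_⟩
    have : x + ((k + 1 : ℕ) : ℤ_[2]) = x + 1 + (k : ℤ_[2]) := by push_cast; ring
    rw [this]; exact hxk
  rcases ergodic_add_one.ae_empty_or_univ_of_preimage_ae_le hCm.nullMeasurableSet
    (Filter.Eventually.of_forall hCinv) with hCe | hCu
  · -- `C` null contradicts `B` non-null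
    apply hj
    have h1 : haarTwoAdic C = 0 := by
      rw [measure_congr hCe]; simp
    have h2 : haarTwoAdic ((fun x : ℤ_[2] => x + (k₀ : ℤ_[2])) ⁻¹' B) = 0 := by
      apply measure_mono_null _ h1
      intro x hx
      simp only [hC, Set.mem_iUnion]
      exact ⟨k₀, le_refl _, hx⟩
    rw [(mp_add_nat k₀).measure_preimage hBm.nullMeasurableSet] at h2
    rw [ae_iff]
    exact h2
  · apply hi
    have h1 : ∀ᵐ x ∂haarTwoAdic, x ∈ C := by
      have := hCu.mem_iff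
      filter_upwards [this] with x hx
      exact hx.2 trivial
    have h2 : ∀ᵐ x ∂haarTwoAdic, ∀ k : ℕ, ∀ i j : ℤ, i - k < j →
        (f : ℤ_[2] × ℤ → ℂ) (x, i) = 0 ∨ (F : ℤ_[2] × ℤ → ℂ) (x + (k : ℤ_[2]), j) = 0 :=
      ae_all_iff.2 fun k => claim_k W hS hV hM F hF k f hfW
    filter_upwards [h1, h2] with x hx1 hx2
    simp only [hC, Set.mem_iUnion] at hx1
    obtain ⟨k, hk, hxk⟩ := hx1
    rcases hx2 k i j (by have : (k₀ : ℤ) ≤ k := by exact_mod_cast hk
                         linarith) with h3 | h3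
    · exact h3
    · exact absurd h3 hxk

end Crest.Agent.HI
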