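import Crest.Agent.Lib_HI_Defs
import Crest.Agent.Lib_HI_Erg

/-! # S0148 project (HI), package P2c/d: good points, scales, window sums (helper6) -/

set_option autoImplicit false

namespace Crest.Agent.HI

open MeasureTheory Crest.AnalysisR.TwoAdic

attribute [local instance] borelTwoAdic borelSpace_twoAdic

theorem odo_res_nonneg (k : ℕ) (x : ℤ_[2]) : 0 ≤ res k x := by
  unfold res; exact Int.natCast_nonneg _

theorem odo_res_lt (k : ℕ) (x : ℤ_[2]) : res k x < 2 ^ k := by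
  have h := PadicInt.appr_lt x k
  unfold res
  exact_mod_cast h

theorem odo_res_succ (k : ℕ) (x : ℤ_[2]) :
    res (k + 1) x = res k x ∨ res (k + 1) x = res k x + 2 ^ k := by
  have h1 : x.appr k ≤ x.appr (k + 1) := PadicInt.appr_mono x (Nat.le_succ k)
  have h2 : 2 ^ k ∣ x.appr (k + 1) - x.appr k := PadicInt.dvd_appr_sub_appr x k (k + 1) (Nat.le_succ k)
  have h3 : x.appr (k + 1) < 2 ^ (k + 1) := PadicInt.appr_lt x (k + 1)
  obtain ⟨c, hc⟩ := h2
  have hpos : 0 < 2 ^ k := by positivity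
  have hc2 : c < 2 := by
    by_contra hcon
    have : 2 ≤ c := by omega
    have h4 : 2 ^ k * 2 ≤ 2 ^ k * c := Nat.mul_le_mul_left _ this
    rw [pow_succ] at h3
    omega
  unfold res
  interval_cases c
  · left
    have : x.appr (k + 1) = x.appr k := by omega
    rw [this]
  · right
    have : x.appr (k + 1) = x.appr k + 2 ^ k := by omega
    rw [this]; push_cast; ring

theorem odo_inB_succ {k : ℕ} {x : ℤ_[2]} {l : ℤ} (h : inB k x l) : inB (k + 1) x l := by
  obtain ⟨h1, h2⟩ := h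
  have hp : (0 : ℤ) < 2 ^ k := by positivity
  unfold inB
  rw [pow_succ]
  rcases odo_res_succ k x with e | e <;> rw [e] <;> constructor <;> linarith

theorem odo_inB_mono {k k' : ℕ} (hk : k ≤ k') {x : ℤ_[2]} {l : ℤ} (h : inB k x l) : inB k' x l := by
  induction k', hk using Nat.le_induction with
  | base => exact h
  | succ n _ ih => exact odo_inB_succ ih

theorem odo_kap_le {k : ℕ} {x : ℤ_[2]} {l : ℤ} (h : inB k x l) : kap x l ≤ k := Nat.sInf_le h

theorem odo_lt_kap {k : ℕ} {x : ℤ_[2]} {l : ℤ} (hx : Good x) (h : ¬ inB k x l) : k < kap x l := by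
  by_contra hcon
  have hmem : inB (kap x l) x l := Nat.sInf_mem (hx l)
  exact h (odo_inB_mono (not_lt.mp hcon) hmem)

theorem odo_aw_le {k : ℕ} {x : ℤ_[2]} {l : ℤ} (h : inB k x l) : aw x l ≤ 4 ^ k := by
  unfold aw
  exact pow_le_pow_right₀ (by norm_num) (odo_kap_le h)

theorem odo_le_aw {k : ℕ} {x : ℤ_[2]} {l : ℤ} (hx : Good x) (h : ¬ inB k x l) :
    (4 : ℝ) ^ (k + 1) ≤ aw x l := by
  unfold aw
  exact pow_le_pow_right₀ (by norm_num) (odo_lt_kap hx h)

theorem odo_aw_nonneg (x : ℤ_[2]) (l : ℤ) : 0 ≤ aw x l := by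
  unfold aw; positivity

/-- an element lying in all the ideals `(2^k)` vanishes. -/
theorem odo_eq_zero_of_mem_span {y : ℤ_[2]}
    (h : ∀ k : ℕ, y ∈ (Ideal.span {((2 : ℕ) : ℤ_[2]) ^ k} : Ideal ℤ_[2])) : y = 0 := by
  have hn : ∀ k : ℕ, ‖y‖ ≤ ((2 : ℕ) : ℝ) ^ (-(k : ℤ)) := fun k =>
    (PadicInt.norm_le_pow_iff_mem_span_pow y k).mpr (h k)
  have hlim : Filter.Tendsto (fun k : ℕ => ((2 : ℕ) : ℝ) ^ (-(k : ℤ))) Filter.atTop (nhds 0) := by
    have : (fun k : ℕ => ((2 : ℕ) : ℝ) ^ (-(k : ℤ))) = fun k : ℕ => ((1 : ℝ) / 2) ^ k := by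
      funext k
      rw [zpow_neg, zpow_natCast]
      simp
    rw [this]
    exact tendsto_pow_atTop_nhds_zero_of_lt_one (by norm_num) (by norm_num)
  have h0 : ‖y‖ ≤ 0 := ge_of_tendsto' hlim hn
  exact norm_le_zero_iff.mp h0

/-- a point that is not good is an integer. -/
theorem odo_not_good {x : ℤ_[2]} (hx : ¬ Good x) : x ∈ Set.range (fun c : ℤ => (c : ℤ_[2])) := by
  unfold Good at hx
  push Not at hx
  obtain ⟨l, hl⟩ := hx
  -- for every `k` some integer `c` with `|c| ≤ |l|` is congruent to `x` modulo `2^k`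
  have key : ∀ k : ℕ, ∃ c ∈ Finset.Icc (-|l|) |l|,
      x - (c : ℤ_[2]) ∈ (Ideal.span {((2 : ℕ) : ℤ_[2]) ^ k} : Ideal ℤ_[2]) := by
    intro k
    have hs := PadicInt.appr_spec k x
    have h0 := odo_res_nonneg k x
    have h1 := odo_res_lt k x
    have hk := hl k
    unfold inB at hk
    have habs1 : l ≤ |l| := le_abs_self l
    have habs2 : -l ≤ |l| := neg_le_abs l
    by_cases hneg : 0 ≤ res k x + l
    · -- then `2^k ≤ res + l`
      have h2 : (2 : ℤ) ^ k ≤ res k x + l := by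
        by_contra hcon
        exact hk ⟨hneg, not_le.mp hcon⟩
      refine ⟨res k x - 2 ^ k, Finset.mem_Icc.mpr ⟨by linarith, by linarith⟩, ?_⟩
      have : x - ((res k x - 2 ^ k : ℤ) : ℤ_[2]) = (x - (x.appr k : ℤ_[2])) + ((2 : ℕ) : ℤ_[2]) ^ k := by
        unfold res; push_cast; ring
      rw [this]
      exact Ideal.add_mem _ hs (Ideal.subset_span rfl)
    · refine ⟨res k x, Finset.mem_Icc.mpr ⟨by linarith, by linarith⟩, ?_⟩
      have : x - ((res k x : ℤ) : ℤ_[2]) = x - (x.appr k : ℤ_[2]) := by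
        unfold res; push_cast; ring
      rw [this]
      exact hs
  have hprod : ∏ c ∈ Finset.Icc (-|l|) |l|, (x - (c : ℤ_[2])) = 0 := by
    apply odo_eq_zero_of_mem_span
    intro k
    obtain ⟨c, hc, hmem⟩ := key k
    exact Ideal.prod_mem _ hc hmem
  obtain ⟨c, _, hc⟩ := Finset.prod_eq_zero_iff.mp hprod
  exact ⟨c, (sub_eq_zero.mp hc).symm⟩

theorem odo_good_ae : ∀ᵐ x ∂haarTwoAdic, Good x := by
  have : NullSingletonClass haarTwoAdic := ⟨haar_singleton⟩
  have hc : (Set.range (fun c : ℤ => (c : ℤ_[2]))).Countable := Set.countable_range _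
  have h0 : haarTwoAdic (Set.range (fun c : ℤ => (c : ℤ_[2]))) = 0 := hc.measure_zero _
  rw [ae_iff]
  exact measure_mono_null (fun x hx => odo_not_good hx) h0

theorem odo_inB_iff (k : ℕ) (x : ℤ_[2]) (l : ℤ) :
    inB k x l ↔ -res k x ≤ l ∧ l ≤ 2 ^ k - 1 - res k x := by
  unfold inB
  constructor
  · rintro ⟨h1, h2⟩; constructor <;> linarith
  · rintro ⟨h1, h2⟩; constructor <;> linarith

theorem odo_scales {x : ℤ_[2]} (hx : Good x) (i0 j0 : ℤ) (Λ : ℝ) :
    ∃ (m M : ℤ) (lam : ℝ), Λ ≤ lam ∧ m ≤ i0 ∧ j0 ≤ M ∧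
      (∀ l, m ≤ l → l ≤ M → aw x l ≤ lam) ∧ (∀ l, (l < m ∨ M < l) → 4 * lam ≤ aw x l) ∧
      100 * (((M - m : ℤ) : ℝ) + 10) ≤ lam := by
  obtain ⟨k1, hk1⟩ := hx i0
  obtain ⟨k2, hk2⟩ := hx j0
  obtain ⟨k3, hk3⟩ := pow_unbounded_of_one_lt Λ (show (1 : ℝ) < 4 by norm_num)
  set k : ℕ := k1 + k2 + k3 + 7 with hk
  have hi : inB k x i0 := odo_inB_mono (by omega) hk1
  have hj : inB k x j0 := odo_inB_mono (by omega) hk2
  refine ⟨-res k x, 2 ^ k - 1 - res k x, 4 ^ k, ?_, ((odo_inB_iff k x i0).mp hi).1,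
    ((odo_inB_iff k x j0).mp hj).2, ?_, ?_, ?_⟩
  · exact hk3.le.trans (pow_le_pow_right₀ (by norm_num) (by omega))
  · intro l h1 h2
    exact odo_aw_le ((odo_inB_iff k x l).mpr ⟨h1, h2⟩)
  · intro l hl
    have hn : ¬ inB k x l := by
      rw [odo_inB_iff]
      rintro ⟨h1, h2⟩
      rcases hl with h | h <;> linarith
    have := odo_le_aw hx hn
    rw [pow_succ] at this
    linarith
  · have h7 : (128 : ℝ) ≤ 2 ^ k := by
      calc (128 : ℝ) = 2 ^ 7 := by norm_num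
        _ ≤ 2 ^ k := pow_le_pow_right₀ (by norm_num) (by omega)
    have h4 : (4 : ℝ) ^ k = 2 ^ k * 2 ^ k := by
      rw [← mul_pow]; norm_num
    have hcast : (((2 ^ k - 1 - res k x - -res k x : ℤ)) : ℝ) = 2 ^ k - 1 := by
      push_cast; ring
    rw [hcast, h4]
    nlinarith

theorem odo_window {x : ℤ_[2]} (hx : Good x) (k : ℕ) (i : ℤ) (n : ℕ) :
    ((n : ℝ) - 2 ^ k) * 4 ^ (k + 1) ≤ ∑ l ∈ Finset.Ico i (i + n), aw x l := by
  classical
  set s : Finset ℤ := Finset.Ico i (i + n) with hs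
  set B : Finset ℤ := Finset.Icc (-res k x) (2 ^ k - 1 - res k x) with hB
  have hscard : s.card = n := by
    rw [hs, Int.card_Ico]; simp
  have hBcard : B.card = 2 ^ k := by
    rw [hB, Int.card_Icc]
    have : (2 : ℤ) ^ k - 1 - res k x + 1 - -res k x = ((2 ^ k : ℕ) : ℤ) := by push_cast; ring
    rw [this, Int.toNat_natCast]
  have hcard : (n : ℝ) - 2 ^ k ≤ ((s \ B).card : ℝ) := by
    have h := Finset.le_card_sdiff B s
    rw [hscard, hBcard] at h
    have h' : n ≤ (s \ B).card + 2 ^ k := by omega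
    have h'' : (n : ℝ) ≤ ((s \ B).card : ℝ) + 2 ^ k := by exact_mod_cast h'
    linarith
  calc ((n : ℝ) - 2 ^ k) * 4 ^ (k + 1) ≤ ((s \ B).card : ℝ) * 4 ^ (k + 1) :=
        mul_le_mul_of_nonneg_right hcard (by positivity)
    _ = ∑ _l ∈ s \ B, (4 : ℝ) ^ (k + 1) := by rw [Finset.sum_const, nsmul_eq_mul]
    _ ≤ ∑ l ∈ s \ B, aw x l := by
        apply Finset.sum_le_sum
        intro l hl
        have hlB : l ∉ B := (Finset.mem_sdiff.mp hl).2
        apply odo_le_aw hx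
        intro hin
        exact hlB (Finset.mem_Icc.mpr ((odo_inB_iff k x l).mp hin))
    _ ≤ ∑ l ∈ s, aw x l :=
        Finset.sum_le_sum_of_subset_of_nonneg Finset.sdiff_subset (fun l _ _ => odo_aw_nonneg x l)

end Crest.Agent.HI
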