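import Crest.Agent.Lib_HI_Defs
import Crest.Agent.Lib_HI_OdoC

/-! # S0148 project (HI), package P2a/b: measurability of the weights, commutation algebra,
the bound `bb ≤ 1` (helper5) -/

set_option autoImplicit false

namespace Crest.Agent.HI

open MeasureTheory Crest.AnalysisR.TwoAdic

attribute [local instance] borelTwoAdic borelSpace_twoAdic

/-- uniqueness of the residue. -/
theorem odo_res_eq {k : ℕ} {x : ℤ_[2]} {r : ℤ} (h0 : 0 ≤ r) (h1 : r < 2 ^ k)
    (hmem : x - (r : ℤ_[2]) ∈ (Ideal.span {((2 : ℕ) : ℤ_[2]) ^ k} : Ideal ℤ_[2])) :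
    res k x = r := by
  have hs := PadicInt.appr_spec k x
  have hd : ((r - res k x : ℤ) : ℤ_[2]) ∈ (Ideal.span {((2 : ℕ) : ℤ_[2]) ^ k} : Ideal ℤ_[2]) := by
    have : ((r - res k x : ℤ) : ℤ_[2]) = (x - (x.appr k : ℤ_[2])) - (x - (r : ℤ_[2])) := by
      unfold res; push_cast; ring
    rw [this]
    exact Ideal.sub_mem _ hs hmem
  rw [Ideal.mem_span_singleton, PadicInt.pow_p_dvd_int_iff] at hd
  have a0 := odo_res_nonneg k x
  have a1 := odo_res_lt k x
  obtain ⟨c, hc⟩ := hd
  have hp : (0 : ℤ) < 2 ^ k := by positivity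
  push_cast at hc
  have hc0 : c = 0 := by
    by_contra hne
    rcases lt_or_gt_of_ne hne with h | h
    · have : c ≤ -1 := by omega
      nlinarith
    · have : 1 ≤ c := by omega
      nlinarith
  rw [hc0] at hc
  linarith

theorem odo_res_eq_iff (k : ℕ) (x : ℤ_[2]) (r : ℤ) :
    res k x = r ↔ (0 ≤ r ∧ r < 2 ^ k) ∧ ‖x - (r : ℤ_[2])‖ ≤ ((2 : ℕ) : ℝ) ^ (-(k : ℤ)) := by
  constructor
  · rintro rfl
    refine ⟨⟨odo_res_nonneg k x, odo_res_lt k x⟩, ?_⟩
    rw [PadicInt.norm_le_pow_iff_mem_span_pow]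
    have := PadicInt.appr_spec k x
    unfold res
    simpa using this
  · rintro ⟨⟨h0, h1⟩, h2⟩
    rw [PadicInt.norm_le_pow_iff_mem_span_pow] at h2
    exact odo_res_eq h0 h1 h2

theorem odo_measurableSet_res (k : ℕ) (r : ℤ) : MeasurableSet {x : ℤ_[2] | res k x = r} := by
  have : {x : ℤ_[2] | res k x = r} =
      {x : ℤ_[2] | (0 ≤ r ∧ r < 2 ^ k)} ∩
        {x : ℤ_[2] | ‖x - (r : ℤ_[2])‖ ≤ ((2 : ℕ) : ℝ) ^ (-(k : ℤ))} := by
    ext x
    exact odo_res_eq_iff k x r
  rw [this]
  refine MeasurableSet.inter (MeasurableSet.const _) ?_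
  apply IsClosed.measurableSet
  exact isClosed_le (by fun_prop) continuous_const

theorem odo_measurable_res (k : ℕ) : Measurable fun x : ℤ_[2] => res k x :=
  measurable_to_countable' fun r => odo_measurableSet_res k r

theorem odo_measurableSet_inB (k : ℕ) (l : ℤ) : MeasurableSet {x : ℤ_[2] | inB k x l} := by
  have h : Measurable fun x : ℤ_[2] => res k x + l := (odo_measurable_res k).add_const l
  have : {x : ℤ_[2] | inB k x l} = (fun x : ℤ_[2] => res k x + l) ⁻¹' (Set.Ico 0 (2 ^ k)) := by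
    ext x; simp [inB]
  rw [this]
  exact h measurableSet_Ico

theorem odo_kap_eq_iff (x : ℤ_[2]) (l : ℤ) (k : ℕ) :
    kap x l = k ↔ (inB k x l ∧ ∀ k' < k, ¬ inB k' x l) ∨ (k = 0 ∧ ∀ k', ¬ inB k' x l) := by
  constructor
  · rintro rfl
    by_cases hne : ∃ k', inB k' x l
    · left
      refine ⟨Nat.sInf_mem hne, fun k' hk' hin => ?_⟩
      exact absurd (odo_kap_le hin) (not_le.mpr hk')
    · right
      push Not at hne
      refine ⟨?_, hne⟩
      have : {k | inB k x l} = ∅ := by
        ext k'; simp [hne k']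
      unfold kap
      rw [this, Nat.sInf_empty]
  · rintro (⟨h1, h2⟩ | ⟨rfl, h2⟩)
    · apply le_antisymm (odo_kap_le h1)
      by_contra hcon
      have hmem : inB (kap x l) x l := Nat.sInf_mem (s := {k | inB k x l}) ⟨k, h1⟩
      exact h2 _ (not_le.mp hcon) hmem
    · have : {k | inB k x l} = ∅ := by
        ext k'; simp [h2 k']
      unfold kap
      rw [this, Nat.sInf_empty]

theorem odo_measurable_kap (l : ℤ) : Measurable fun x : ℤ_[2] => kap x l := by
  apply measurable_to_countable'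
  intro k
  have : (fun x : ℤ_[2] => kap x l) ⁻¹' {k} =
      ({x | inB k x l} ∩ ⋂ k' : ℕ, ⋂ (_ : k' < k), {x | inB k' x l}ᶜ) ∪
        ({x : ℤ_[2] | k = 0} ∩ ⋂ k' : ℕ, {x | inB k' x l}ᶜ) := by
    ext x
    simp only [Set.mem_preimage, Set.mem_singleton_iff, Set.mem_union, Set.mem_inter_iff,
      Set.mem_ofPred_eq, Set.mem_iInter, Set.mem_compl_iff]
    exact odo_kap_eq_iff x l k
  rw [this]
  refine MeasurableSet.union (MeasurableSet.inter (odo_measurableSet_inB k l) ?_)
    (MeasurableSet.inter (MeasurableSet.const _) ?_)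
  · exact MeasurableSet.iInter fun k' => MeasurableSet.iInter fun _ =>
      (odo_measurableSet_inB k' l).compl
  · exact MeasurableSet.iInter fun k' => (odo_measurableSet_inB k' l).compl

theorem odo_measurable_aw (l : ℤ) : Measurable fun x : ℤ_[2] => aw x l := by
  have h : Measurable fun n : ℕ => (4 : ℝ) ^ n := Measurable.of_discrete
  exact h.comp (odo_measurable_kap l)

theorem odo_measurable_bet (l : ℤ) : Measurable fun x : ℤ_[2] => bet x l :=
  Real.measurable_exp.comp (odo_measurable_aw l).neg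

theorem odo_measurable_Phi (j : ℤ) : Measurable fun x : ℤ_[2] => Phi x j := by
  unfold Phi
  exact (Finset.measurable_sum _ fun l _ => odo_measurable_aw l).sub
    (Finset.measurable_sum _ fun l _ => odo_measurable_aw l)

theorem odo_measurable_add_one : Measurable fun x : ℤ_[2] => x + 1 :=
  (continuous_add_const (1 : ℤ_[2])).measurable

theorem odo_measurable_bb (j : ℤ) : Measurable fun x : ℤ_[2] => bb x j := by
  have h8 : Measurable fun x : ℤ_[2] => (8 : ℝ) ^ kap x 1 := by
    have h : Measurable fun n : ℕ => (8 : ℝ) ^ n := Measurable.of_discrete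
    exact h.comp (odo_measurable_kap 1)
  have h2 : Measurable fun x : ℤ_[2] => Phi (x + 1) (j - 1) :=
    (odo_measurable_Phi (j - 1)).comp odo_measurable_add_one
  unfold bb
  exact Real.measurable_exp.comp (((odo_measurable_Phi j).sub h2).sub (h8.const_add 1))

theorem odo_aw_ge_one (x : ℤ_[2]) (l : ℤ) : 1 ≤ aw x l := by
  unfold aw
  exact one_le_pow₀ (by norm_num)

theorem odo_bet_le_one (x : ℤ_[2]) (l : ℤ) : bet x l ≤ 1 := by
  unfold bet
  rw [Real.exp_le_one_iff]
  have := odo_aw_nonneg x l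
  linarith

/-! ### telescoping on `ℤ` -/

theorem odo_Ico_succ_right {b j : ℤ} (h : b ≤ j) :
    Finset.Ico b (j + 1) = insert j (Finset.Ico b j) := by
  ext l; simp only [Finset.mem_Ico, Finset.mem_insert]; omega

theorem odo_Ico_pred_left {b j : ℤ} (h : j < b) :
    Finset.Ico j b = insert j (Finset.Ico (j + 1) b) := by
  ext l; simp only [Finset.mem_Ico, Finset.mem_insert]; omega

theorem odo_G_succ (a : ℤ → ℝ) (b j : ℤ) :
    (∑ l ∈ Finset.Ico b (j + 1), a l - ∑ l ∈ Finset.Ico (j + 1) b, a l) =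
      (∑ l ∈ Finset.Ico b j, a l - ∑ l ∈ Finset.Ico j b, a l) + a j := by
  rcases le_or_gt b j with h | h
  · rw [odo_Ico_succ_right h, Finset.sum_insert (by simp),
      Finset.Ico_eq_empty (by omega : ¬ j + 1 < b), Finset.Ico_eq_empty (by omega : ¬ j < b)]
    simp; ring
  · rw [odo_Ico_pred_left h, Finset.sum_insert (by simp),
      Finset.Ico_eq_empty (by omega : ¬ b < j + 1), Finset.Ico_eq_empty (by omega : ¬ b < j)]
    simp

theorem odo_Phi_succ (x : ℤ_[2]) (j : ℤ) : Phi x (j + 1) = Phi x j + aw x j := by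
  unfold Phi
  exact odo_G_succ (aw x) 0 j

theorem odo_tele (E d : ℤ → ℝ) (h : ∀ j, E (j + 1) = E j + d j) (b j : ℤ) :
    E j = E b + (∑ l ∈ Finset.Ico b j, d l - ∑ l ∈ Finset.Ico j b, d l) := by
  induction j using Int.inductionOn' (b := b) with
  | zero => simp
  | succ k _ ih => rw [h, ih, odo_G_succ]; ring
  | pred k _ ih =>
    have h1 := h (k - 1)
    have h2 := odo_G_succ d b (k - 1)
    rw [sub_add_cancel] at h1 h2
    rw [h1, h2] at ih
    linarith

theorem odo_bb_mul_bet (x : ℤ_[2]) (j : ℤ) :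
    bb x (j + 1) * bet x j = bet (x + 1) (j - 1) * bb x j := by
  unfold bb bet
  rw [← Real.exp_add, ← Real.exp_add]
  congr 1
  have h1 := odo_Phi_succ x j
  have h2 := odo_Phi_succ (x + 1) (j - 1)
  rw [sub_add_cancel] at h2
  rw [add_sub_cancel_right, h1, h2]
  ring

/-! ### the bound `bb ≤ 1` -/

theorem odo_res_add_one {k : ℕ} {x : ℤ_[2]} (h : inB k x 1) : res k (x + 1) = res k x + 1 := by
  apply odo_res_eq
  · have := odo_res_nonneg k x; linarith
  · exact h.2
  · have hs := PadicInt.appr_spec k x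
    have : x + 1 - ((res k x + 1 : ℤ) : ℤ_[2]) = x - (x.appr k : ℤ_[2]) := by
      unfold res; push_cast; ring
    rw [this]
    exact hs

theorem odo_inB_shift {k : ℕ} {x : ℤ_[2]} (h : inB k x 1) (l : ℤ) :
    inB k (x + 1) (l - 1) ↔ inB k x l := by
  unfold inB
  rw [odo_res_add_one h]
  have : res k x + 1 + (l - 1) = res k x + l := by ring
  rw [this]

theorem odo_kap_zero (x : ℤ_[2]) : kap x 0 = 0 := by
  have : inB 0 x 0 := by
    have h0 := odo_res_nonneg 0 x
    have h1 := odo_res_lt 0 x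
    unfold inB
    constructor <;> simp at * <;> omega
  exact Nat.le_zero.mp (odo_kap_le this)

theorem odo_sum_abs_le (d : ℤ → ℝ) (B : Finset ℤ) (c : ℝ) (hB : ∀ l ∈ B, |d l| ≤ c)
    (hc : 0 ≤ c) (hz : ∀ l, l ∉ B → d l = 0) (T : Finset ℤ) : |∑ l ∈ T, d l| ≤ B.card * c := by
  classical
  have h1 : ∑ l ∈ T, d l = ∑ l ∈ T ∩ B, d l := by
    symm
    apply Finset.sum_subset Finset.inter_subset_left
    intro l hl hl'
    apply hz
    intro hlB
    exact hl' (Finset.mem_inter.mpr ⟨hl, hlB⟩)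
  rw [h1]
  calc |∑ l ∈ T ∩ B, d l| ≤ ∑ l ∈ T ∩ B, |d l| := Finset.abs_sum_le_sum_abs _ _
    _ ≤ ∑ _l ∈ T ∩ B, c := Finset.sum_le_sum fun l hl => hB l (Finset.mem_inter.mp hl).2
    _ = ((T ∩ B).card : ℝ) * c := by rw [Finset.sum_const, nsmul_eq_mul]
    _ ≤ B.card * c := by
        apply mul_le_mul_of_nonneg_right _ hc
        exact_mod_cast Finset.card_le_card Finset.inter_subset_right

theorem odo_bb_le_one {x : ℤ_[2]} (hx : Good x) (j : ℤ) : bb x j ≤ 1 := by
  classical
  set k1 : ℕ := kap x 1 with hk1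
  have hin1 : inB k1 x 1 := Nat.sInf_mem (hx 1)
  set E : ℤ → ℝ := fun j => Phi x j - Phi (x + 1) (j - 1) with hE
  set d : ℤ → ℝ := fun l => aw x l - aw (x + 1) (l - 1) with hd
  have hstep : ∀ j, E (j + 1) = E j + d j := by
    intro j
    have h1 := odo_Phi_succ x j
    have h2 := odo_Phi_succ (x + 1) (j - 1)
    rw [sub_add_cancel] at h2
    simp only [hE, hd, add_sub_cancel_right]
    rw [h1, h2]; ring
  have hE1 : E 1 = 1 := by
    have h1 := odo_Phi_succ x 0
    have h0 : ∀ y : ℤ_[2], Phi y 0 = 0 := by intro y; simp [Phi]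
    simp only [hE]
    rw [zero_add] at h1
    rw [h1, sub_self, h0, h0]
    simp [aw, odo_kap_zero]
  set B : Finset ℤ := Finset.Icc (-res k1 x) (2 ^ k1 - 1 - res k1 x) with hB
  have hBcard : B.card = 2 ^ k1 := by
    rw [hB, Int.card_Icc]
    have : (2 : ℤ) ^ k1 - 1 - res k1 x + 1 - -res k1 x = ((2 ^ k1 : ℕ) : ℤ) := by push_cast; ring
    rw [this, Int.toNat_natCast]
  have hdB : ∀ l ∈ B, |d l| ≤ (4 : ℝ) ^ k1 := by
    intro l hl
    have hin : inB k1 x l := (odo_inB_iff k1 x l).mpr (Finset.mem_Icc.mp hl)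
    have hin' : inB k1 (x + 1) (l - 1) := (odo_inB_shift hin1 l).mpr hin
    have a1 := odo_aw_le hin
    have a2 := odo_aw_le hin'
    have a3 := odo_aw_nonneg x l
    have a4 := odo_aw_nonneg (x + 1) (l - 1)
    simp only [hd]
    rw [abs_le]
    constructor <;> linarith
  have hdz : ∀ l, l ∉ B → d l = 0 := by
    intro l hl
    have hnin : ¬ inB k1 x l := fun hin => hl (Finset.mem_Icc.mpr ((odo_inB_iff k1 x l).mp hin))
    have hset : {k | inB k x l} = {k | inB k (x + 1) (l - 1)} := by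
      ext k
      simp only [Set.mem_ofPred_eq]
      rcases le_or_gt k1 k with hk | hk
      · exact (odo_inB_shift (odo_inB_mono hk hin1) l).symm
      · constructor
        · intro h; exact absurd (odo_inB_mono hk.le h) hnin
        · intro h
          exact absurd ((odo_inB_shift hin1 l).mp (odo_inB_mono hk.le h)) hnin
    have hkap : kap x l = kap (x + 1) (l - 1) := by
      unfold kap; rw [hset]
    simp only [hd, aw, hkap, sub_self]
  have hbound : ∀ T : Finset ℤ, |∑ l ∈ T, d l| ≤ (8 : ℝ) ^ k1 := by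
    intro T
    have := odo_sum_abs_le d B ((4 : ℝ) ^ k1) hdB (by positivity) hdz T
    rw [hBcard] at this
    have h8 : ((2 ^ k1 : ℕ) : ℝ) * (4 : ℝ) ^ k1 = (8 : ℝ) ^ k1 := by
      push_cast
      rw [← mul_pow]; norm_num
    rwa [h8] at this
  have hEj : E j ≤ 1 + (8 : ℝ) ^ k1 := by
    have ht := odo_tele E d hstep 1 j
    rw [hE1] at ht
    rcases le_or_gt 1 j with h | h
    · rw [Finset.Ico_eq_empty (by omega : ¬ j < 1)] at ht
      have := (abs_le.mp (hbound (Finset.Ico 1 j))).2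
      simp at ht
      linarith
    · rw [Finset.Ico_eq_empty (by omega : ¬ 1 < j)] at ht
      have := (abs_le.mp (hbound (Finset.Ico j 1))).1
      simp at ht
      linarith
  unfold bb
  rw [Real.exp_le_one_iff]
  simp only [hE] at hEj
  linarith

end Crest.Agent.HI
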