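import Crest.Agent.Lib_HI_Defs
import Crest.Agent.Lib_HI_OdoC
import Crest.Agent.Lib_HI_OdoA

/-! # S0148 project (HI), package P2: odometer combinatorics
(proofs in `Lib_HI_OdoA` (helper5) and `Lib_HI_OdoC` (helper6)) -/

set_option autoImplicit false

namespace Crest.Agent.HI

open MeasureTheory Crest.AnalysisR.TwoAdic

attribute [local instance] borelTwoAdic borelSpace_twoAdic

-- P2a
theorem measurable_kap (l : ℤ) : Measurable fun x : ℤ_[2] => kap x l := odo_measurable_kap l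

theorem measurable_aw (l : ℤ) : Measurable fun x : ℤ_[2] => aw x l := odo_measurable_aw l

theorem measurable_bet (l : ℤ) : Measurable fun x : ℤ_[2] => bet x l := odo_measurable_bet l

theorem measurable_bb (j : ℤ) : Measurable fun x : ℤ_[2] => bb x j := odo_measurable_bb j

theorem aw_ge_one (x : ℤ_[2]) (l : ℤ) : 1 ≤ aw x l := odo_aw_ge_one x l

theorem bet_pos (x : ℤ_[2]) (l : ℤ) : 0 < bet x l := Real.exp_pos _

theorem bet_le_one (x : ℤ_[2]) (l : ℤ) : bet x l ≤ 1 := odo_bet_le_one x l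

theorem bb_pos (x : ℤ_[2]) (j : ℤ) : 0 < bb x j := Real.exp_pos _

-- P2b
/-- pure algebra from `Phi x (j+1) - Phi x j = aw x j`. -/
theorem bb_mul_bet (x : ℤ_[2]) (j : ℤ) : bb x (j + 1) * bet x j = bet (x + 1) (j - 1) * bb x j :=
  odo_bb_mul_bet x j

/-- for `k ≥ kap x 1`: `inB k (x+1) (l-1) ↔ inB k x l`; hence `aw (x+1) (l-1) = aw x l` unless
`inB (kap x 1) x l` (at most `2 ^ kap x 1` values of `l`), where both are `≤ 4 ^ kap x 1`. -/
theorem bb_le_one {x : ℤ_[2]} (hx : Good x) (j : ℤ) : bb x j ≤ 1 := odo_bb_le_one hx j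

-- P2c
theorem good_ae : ∀ᵐ x ∂haarTwoAdic, Good x := odo_good_ae

theorem scales {x : ℤ_[2]} (hx : Good x) (i0 j0 : ℤ) (Λ : ℝ) :
    ∃ (m M : ℤ) (lam : ℝ), Λ ≤ lam ∧ m ≤ i0 ∧ j0 ≤ M ∧
      (∀ l, m ≤ l → l ≤ M → aw x l ≤ lam) ∧ (∀ l, (l < m ∨ M < l) → 4 * lam ≤ aw x l) ∧
      100 * (((M - m : ℤ) : ℝ) + 10) ≤ lam := odo_scales hx i0 j0 Λ

-- P2d
theorem window {x : ℤ_[2]} (hx : Good x) (k : ℕ) (i : ℤ) (n : ℕ) :
    ((n : ℝ) - 2 ^ k) * 4 ^ (k + 1) ≤ ∑ l ∈ Finset.Ico i (i + n), aw x l := odo_window hx k i n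

end Crest.Agent.HI
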