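import Mathlib

/-! # S0148 project (HI), package P3: weighted composition operators on `L²(μ)` -/

set_option autoImplicit false

namespace Crest.Agent.HI

open MeasureTheory

section wc

variable {α : Type*} [MeasurableSpace α] {μ : Measure α}

theorem ops_memLp (w : α → ℂ) (hw : Measurable w) (C : ℝ) (hC : ∀ᵐ p ∂μ, ‖w p‖ ≤ C)
    (f : Lp ℂ 2 μ) : MemLp (fun p => w p * (f : α → ℂ) p) 2 μ :=
  (Lp.memLp f).of_le_mul (hw.aestronglyMeasurable.mul (Lp.aestronglyMeasurable f))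
    (hC.mono fun p hp => by rw [norm_mul]; gcongr)

/-- multiplication by an a.e. bounded measurable function. -/
noncomputable def ops_mul (w : α → ℂ) (hw : Measurable w) (C : ℝ) (hC : ∀ᵐ p ∂μ, ‖w p‖ ≤ C) :
    Lp ℂ 2 μ →L[ℂ] Lp ℂ 2 μ :=
  LinearMap.mkContinuous
    { toFun := fun f => (ops_memLp w hw C hC f).toLp _
      map_add' := by
        intro f g
        refine Lp.ext ?_
        filter_upwards [MemLp.coeFn_toLp (ops_memLp w hw C hC (f + g)),
          Lp.coeFn_add ((ops_memLp w hw C hC f).toLp _) ((ops_memLp w hw C hC g).toLp _),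
          MemLp.coeFn_toLp (ops_memLp w hw C hC f), MemLp.coeFn_toLp (ops_memLp w hw C hC g),
          Lp.coeFn_add f g] with p h1 h2 h3 h4 h5
        rw [h1, h2, Pi.add_apply, h3, h4, h5, Pi.add_apply, mul_add]
      map_smul' := by
        intro c f
        refine Lp.ext ?_
        filter_upwards [MemLp.coeFn_toLp (ops_memLp w hw C hC (c • f)),
          Lp.coeFn_smul c ((ops_memLp w hw C hC f).toLp _),
          MemLp.coeFn_toLp (ops_memLp w hw C hC f), Lp.coeFn_smul c f] with p h1 h2 h3 h4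
        simp only [RingHom.id_apply]
        rw [h1, h2, Pi.smul_apply, h3, h4, Pi.smul_apply, smul_eq_mul, smul_eq_mul]
        ring }
    C (by
      intro f
      refine Lp.norm_le_mul_norm_of_ae_le_mul ?_
      filter_upwards [MemLp.coeFn_toLp (ops_memLp w hw C hC f), hC] with p h1 h2
      change ‖((ops_memLp w hw C hC f).toLp _ : α → ℂ) p‖ ≤ _
      rw [h1, norm_mul]
      gcongr)

theorem ops_mul_ae (w : α → ℂ) (hw : Measurable w) (C : ℝ) (hC : ∀ᵐ p ∂μ, ‖w p‖ ≤ C)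
    (f : Lp ℂ 2 μ) : (ops_mul w hw C hC f : α → ℂ) =ᵐ[μ] fun p => w p * (f : α → ℂ) p :=
  MemLp.coeFn_toLp (ops_memLp w hw C hC f)

/-- weighted composition operator `f ↦ w · (f ∘ φ)`. -/
noncomputable def ops_wc (w : α → ℂ) (hw : Measurable w) (C : ℝ) (hC : ∀ᵐ p ∂μ, ‖w p‖ ≤ C)
    (φ : α → α) (hφ : MeasurePreserving φ μ μ) : Lp ℂ 2 μ →L[ℂ] Lp ℂ 2 μ :=
  (ops_mul w hw C hC).comp (Lp.compMeasurePreservingₗᵢ ℂ φ hφ).toContinuousLinearMap

theorem ops_wc_ae (w : α → ℂ) (hw : Measurable w) (C : ℝ) (hC : ∀ᵐ p ∂μ, ‖w p‖ ≤ C)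
    (φ : α → α) (hφ : MeasurePreserving φ μ μ) (f : Lp ℂ 2 μ) :
    (ops_wc w hw C hC φ hφ f : α → ℂ) =ᵐ[μ] fun p => w p * (f : α → ℂ) (φ p) := by
  have h1 := ops_mul_ae w hw C hC (Lp.compMeasurePreserving φ hφ f)
  have h2 := Lp.coeFn_compMeasurePreserving f hφ
  change (ops_mul w hw C hC (Lp.compMeasurePreserving φ hφ f) : α → ℂ) =ᵐ[μ] _
  filter_upwards [h1, h2] with p h1 h2
  rw [h1, h2]
  rfl

/-- an a.e. statement can be pulled back along a measure preserving map. -/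
theorem ops_ae_comp {φ : α → α} (hφ : MeasurePreserving φ μ μ) {P : α → Prop}
    (h : ∀ᵐ p ∂μ, P p) : ∀ᵐ p ∂μ, P (φ p) :=
  hφ.quasiMeasurePreserving.ae h

/-- norm bound from an a.e. pointwise bound against a composition. -/
theorem ops_norm_le_of_ae (φ : α → α) (hφ : MeasurePreserving φ μ μ) (c : ℝ) (g f : Lp ℂ 2 μ)
    (h : ∀ᵐ p ∂μ, ‖(g : α → ℂ) p‖ ≤ c * ‖(f : α → ℂ) (φ p)‖) : ‖g‖ ≤ c * ‖f‖ := by
  have h2 := Lp.coeFn_compMeasurePreserving f hφ
  have h3 : ‖g‖ ≤ c * ‖Lp.compMeasurePreserving φ hφ f‖ := by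
    refine Lp.norm_le_mul_norm_of_ae_le_mul ?_
    filter_upwards [h, h2] with p h h2
    rw [h2]
    exact h
  rwa [Lp.norm_compMeasurePreserving] at h3

end wc

end Crest.Agent.HI
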