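import Crest.Agent.Lib_HI_Odo
import Crest.Agent.Lib_HI_Erg
import Crest.Agent.Lib_HI_WC

/-! # S0148 project (HI), packages P3+P4: the operators S, V, M_E on `HS = L²(ℤ₂ × ℤ)` -/

set_option autoImplicit false

namespace Crest.Agent.HI

open MeasureTheory Crest.AnalysisR.TwoAdic Filter Topology

attribute [local instance] borelTwoAdic borelSpace_twoAdic

theorem ops_mp_shift (c : ℤ) : MeasurePreserving (fun p : ℤ_[2] × ℤ => (p.1, p.2 - c)) nu nu :=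
  (MeasurePreserving.id haarTwoAdic).prod (measurePreserving_sub_right Measure.count c)

theorem ops_mp_V : MeasurePreserving (fun p : ℤ_[2] × ℤ => (p.1 - 1, p.2 + 1)) nu nu :=
  mp_sub_one.prod (measurePreserving_add_right Measure.count 1)

theorem ops_meas_wS : Measurable fun p : ℤ_[2] × ℤ => ((bet p.1 (p.2 - 1) : ℝ) : ℂ) :=
  measurable_from_prod_countable_left fun j =>
    Complex.measurable_ofReal.comp (measurable_bet (j - 1))

theorem ops_bound_wS : ∀ᵐ p ∂nu, ‖((bet p.1 (p.2 - 1) : ℝ) : ℂ)‖ ≤ 1 :=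
  Eventually.of_forall fun p => by
    rw [Complex.norm_real, Real.norm_eq_abs, abs_of_pos (bet_pos _ _)]
    exact bet_le_one _ _

theorem ops_meas_wV : Measurable fun p : ℤ_[2] × ℤ => ((bb (p.1 - 1) (p.2 + 1) : ℝ) : ℂ) :=
  measurable_from_prod_countable_left fun j =>
    Complex.measurable_ofReal.comp ((measurable_bb (j + 1)).comp mp_sub_one.measurable)

theorem ops_bound_wV : ∀ᵐ p ∂nu, ‖((bb (p.1 - 1) (p.2 + 1) : ℝ) : ℂ)‖ ≤ 1 := by
  refine ae_nu_of_ae (P := fun p => ‖((bb (p.1 - 1) (p.2 + 1) : ℝ) : ℂ)‖ ≤ 1) ?_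
  filter_upwards [mp_sub_one.quasiMeasurePreserving.ae good_ae] with x hx j
  rw [Complex.norm_real, Real.norm_eq_abs, abs_of_pos (bb_pos _ _)]
  exact bb_le_one hx _

theorem ops_meas_wM (E : Set ℤ_[2]) (hE : MeasurableSet E) :
    Measurable fun p : ℤ_[2] × ℤ => Set.indicator E (fun _ => (1 : ℂ)) p.1 :=
  (measurable_const.indicator hE).comp measurable_fst

theorem ops_bound_wM (E : Set ℤ_[2]) :
    ∀ᵐ p ∂nu, ‖Set.indicator E (fun _ => (1 : ℂ)) p.1‖ ≤ 1 :=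
  Eventually.of_forall fun p => by
    by_cases h : p.1 ∈ E <;> simp [h]

noncomputable def opS : HS →L[ℂ] HS :=
  ops_wc _ ops_meas_wS 1 ops_bound_wS _ (ops_mp_shift 1)

noncomputable def opV : HS →L[ℂ] HS :=
  ops_wc _ ops_meas_wV 1 ops_bound_wV _ ops_mp_V

noncomputable def opM (E : Set ℤ_[2]) (hE : MeasurableSet E) : HS →L[ℂ] HS :=
  ops_wc _ (ops_meas_wM E hE) 1 (ops_bound_wM E) _ (MeasurePreserving.id nu)

theorem opS_ae (f : HS) : (opS f : ℤ_[2] × ℤ → ℂ) =ᵐ[nu]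
    fun p => (bet p.1 (p.2 - 1) : ℂ) * (f : ℤ_[2] × ℤ → ℂ) (p.1, p.2 - 1) :=
  ops_wc_ae _ ops_meas_wS 1 ops_bound_wS _ (ops_mp_shift 1) f

theorem opV_ae (f : HS) : (opV f : ℤ_[2] × ℤ → ℂ) =ᵐ[nu]
    fun p => (bb (p.1 - 1) (p.2 + 1) : ℂ) * (f : ℤ_[2] × ℤ → ℂ) (p.1 - 1, p.2 + 1) :=
  ops_wc_ae _ ops_meas_wV 1 ops_bound_wV _ ops_mp_V f

theorem opM_ae (E : Set ℤ_[2]) (hE : MeasurableSet E) (f : HS) :
    (opM E hE f : ℤ_[2] × ℤ → ℂ) =ᵐ[nu]
    fun p => Set.indicator E (fun _ => (1 : ℂ)) p.1 * (f : ℤ_[2] × ℤ → ℂ) p :=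
  ops_wc_ae _ (ops_meas_wM E hE) 1 (ops_bound_wM E) _ (MeasurePreserving.id nu) f

theorem opV_comm : opV * opS = opS * opV := by
  ext1 f
  refine Lp.ext ?_
  change (opV (opS f) : ℤ_[2] × ℤ → ℂ) =ᵐ[nu] (opS (opV f) : ℤ_[2] × ℤ → ℂ)
  filter_upwards [opV_ae (opS f), opS_ae (opV f), ops_ae_comp ops_mp_V (opS_ae f),
    ops_ae_comp (ops_mp_shift 1) (opV_ae f)] with p h1 h2 h3 h4
  rw [h1, h2, h3, h4]
  have h := bb_mul_bet (p.1 - 1) p.2
  rw [sub_add_cancel] at h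
  have h' : ((bb (p.1 - 1) (p.2 + 1) : ℝ) : ℂ) * ((bet (p.1 - 1) p.2 : ℝ) : ℂ) =
      ((bet p.1 (p.2 - 1) : ℝ) : ℂ) * ((bb (p.1 - 1) p.2 : ℝ) : ℂ) := by
    exact_mod_cast h
  simp only [add_sub_cancel_right, sub_add_cancel]
  rw [← mul_assoc, h', mul_assoc]

theorem opM_comm (E : Set ℤ_[2]) (hE : MeasurableSet E) : opM E hE * opS = opS * opM E hE := by
  ext1 f
  refine Lp.ext ?_
  change (opM E hE (opS f) : ℤ_[2] × ℤ → ℂ) =ᵐ[nu] (opS (opM E hE f) : ℤ_[2] × ℤ → ℂ)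
  filter_upwards [opM_ae E hE (opS f), opS_ae (opM E hE f), opS_ae f,
    ops_ae_comp (ops_mp_shift 1) (opM_ae E hE f)] with p h1 h2 h3 h4
  rw [h1, h2, h3, h4]
  ring

theorem ops_sum_Ico_succ (f : ℤ → ℝ) (a b : ℤ) (h : a ≤ b) :
    ∑ l ∈ Finset.Ico a (b + 1), f l = ∑ l ∈ Finset.Ico a b, f l + f b := by
  have : Finset.Ico a (b + 1) = insert b (Finset.Ico a b) := by
    ext x; simp only [Finset.mem_Ico, Finset.mem_insert]; omega
  rw [this, Finset.sum_insert (by simp), add_comm]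

theorem opS_pow_ae (n : ℕ) (f : HS) : ((opS ^ n) f : ℤ_[2] × ℤ → ℂ) =ᵐ[nu]
    fun p => ((Real.exp (-(∑ l ∈ Finset.Ico (p.2 - n) p.2, aw p.1 l)) : ℝ) : ℂ) *
      (f : ℤ_[2] × ℤ → ℂ) (p.1, p.2 - n) := by
  induction n with
  | zero =>
    refine Eventually.of_forall fun p => ?_
    simp
  | succ n ih =>
    have hpow : (opS ^ (n + 1)) f = opS ((opS ^ n) f) := by
      rw [pow_succ']; rfl
    rw [hpow]
    filter_upwards [opS_ae ((opS ^ n) f), ops_ae_comp (ops_mp_shift 1) ih] with p h1 h2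
    rw [h1, h2]
    have e1 : p.2 - 1 - (n : ℤ) = p.2 - ((n + 1 : ℕ) : ℤ) := by push_cast; ring
    have hsum : ∑ l ∈ Finset.Ico (p.2 - ((n + 1 : ℕ) : ℤ)) p.2, aw p.1 l =
        ∑ l ∈ Finset.Ico (p.2 - ((n + 1 : ℕ) : ℤ)) (p.2 - 1), aw p.1 l + aw p.1 (p.2 - 1) := by
      have := ops_sum_Ico_succ (aw p.1) (p.2 - ((n + 1 : ℕ) : ℤ)) (p.2 - 1) (by push_cast; omega)
      rwa [sub_add_cancel] at this
    simp only [e1]
    rw [hsum, ← mul_assoc, ← Complex.ofReal_mul]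
    congr 2
    unfold bet
    rw [← Real.exp_add]
    congr 1
    ring

theorem ops_good_nu : ∀ᵐ p ∂nu, Good p.1 :=
  ae_nu_of_ae (P := fun p => Good p.1) (good_ae.mono fun _ hx _ => hx)

theorem ops_norm_pow_le (k n : ℕ) :
    ‖opS ^ n‖ ≤ Real.exp (-(((n : ℝ) - 2 ^ k) * 4 ^ (k + 1))) := by
  refine ContinuousLinearMap.opNorm_le_bound _ (Real.exp_pos _).le fun f => ?_
  refine ops_norm_le_of_ae _ (ops_mp_shift n) _ _ _ ?_
  filter_upwards [opS_pow_ae n f, ops_good_nu] with p h1 hg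
  rw [h1, norm_mul, Complex.norm_real, Real.norm_eq_abs, abs_of_pos (Real.exp_pos _)]
  have hw := window hg k (p.2 - n) n
  rw [sub_add_cancel] at hw
  gcongr

theorem opS_quasinilpotent :
    Tendsto (fun n : ℕ => ‖opS ^ n‖ ^ (1 / (n : ℝ))) atTop (𝓝 0) := by
  rw [Metric.tendsto_atTop]
  intro ε hε
  obtain ⟨k, hk⟩ : ∃ k : ℕ, Real.exp (-((4 : ℝ) ^ (k + 1) / 2)) < ε := by
    have h1 : Tendsto (fun k : ℕ => (4 : ℝ) ^ (k + 1) / 2) atTop atTop :=
      ((tendsto_pow_atTop_atTop_of_one_lt (by norm_num : (1 : ℝ) < 4)).comp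
        (tendsto_add_atTop_nat 1)).atTop_div_const (by norm_num)
    have h2 := Real.tendsto_exp_neg_atTop_nhds_zero.comp h1
    exact ((tendsto_order.1 h2).2 ε hε).exists
  refine ⟨2 ^ (k + 1), fun n hn => ?_⟩
  have hn0 : 0 < n := lt_of_lt_of_le (by positivity) hn
  have hnR : (0 : ℝ) < n := by exact_mod_cast hn0
  have hn2 : (2 : ℝ) ^ (k + 1) ≤ n := by exact_mod_cast hn
  have h0 : 0 ≤ ‖opS ^ n‖ ^ (1 / (n : ℝ)) := Real.rpow_nonneg (norm_nonneg _) _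
  rw [Real.dist_eq, sub_zero, abs_of_nonneg h0]
  refine lt_of_le_of_lt ?_ hk
  have h1 : ‖opS ^ n‖ ≤ Real.exp (-((4 : ℝ) ^ (k + 1) / 2) * n) := by
    refine (ops_norm_pow_le k n).trans ?_
    apply Real.exp_le_exp.2
    have h4 : (0 : ℝ) < 4 ^ (k + 1) := by positivity
    have h5 : (n : ℝ) / 2 ≤ (n : ℝ) - 2 ^ k := by
      have : (2 : ℝ) ^ (k + 1) = 2 * 2 ^ k := by ring
      linarith
    have h6 : (n : ℝ) / 2 * 4 ^ (k + 1) ≤ ((n : ℝ) - 2 ^ k) * 4 ^ (k + 1) :=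
      mul_le_mul_of_nonneg_right h5 h4.le
    linarith
  calc ‖opS ^ n‖ ^ (1 / (n : ℝ))
      ≤ (Real.exp (-((4 : ℝ) ^ (k + 1) / 2) * n)) ^ (1 / (n : ℝ)) :=
        Real.rpow_le_rpow (norm_nonneg _) h1 (by positivity)
    _ = Real.exp (-((4 : ℝ) ^ (k + 1) / 2)) := by
        rw [← Real.exp_mul]
        congr 1
        field_simp

theorem ops_meas_slice (j : ℤ) : MeasurableSet ((Set.univ : Set ℤ_[2]) ×ˢ ({j} : Set ℤ)) :=
  MeasurableSet.univ.prod (measurableSet_singleton j)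

theorem ops_nu_slice (j : ℤ) : nu ((Set.univ : Set ℤ_[2]) ×ˢ ({j} : Set ℤ)) = 1 := by
  unfold nu
  rw [Measure.prod_prod, measure_univ, Measure.count_singleton, one_mul]

theorem ops_nu_slice_ne_top (j : ℤ) : nu ((Set.univ : Set ℤ_[2]) ×ˢ ({j} : Set ℤ)) ≠ ⊤ := by
  rw [ops_nu_slice]; exact ENNReal.one_ne_top

/-- the indicator of the slice `ℤ₂ × {j}`. -/
noncomputable def ops_e (j : ℤ) : HS :=
  indicatorConstLp 2 (ops_meas_slice j) (ops_nu_slice_ne_top j) (1 : ℂ)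

theorem ops_e_orthonormal : Orthonormal ℂ ops_e := by
  rw [orthonormal_iff_ite]
  intro i j
  unfold ops_e
  rw [L2.inner_indicatorConstLp_indicatorConstLp (ops_meas_slice i) (ops_meas_slice j)
    (ops_nu_slice_ne_top i) (ops_nu_slice_ne_top j)]
  by_cases h : i = j
  · subst h
    rw [Set.inter_self, Measure.real, ops_nu_slice]
    simp
  · have : ((Set.univ : Set ℤ_[2]) ×ˢ ({i} : Set ℤ)) ∩ ((Set.univ : Set ℤ_[2]) ×ˢ ({j} : Set ℤ)) = ∅ := by
      ext p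
      simp only [Set.mem_inter_iff, Set.mem_prod, Set.mem_univ, Set.mem_singleton_iff, true_and,
        Set.mem_empty_iff_false, iff_false, not_and]
      intro h1 h2
      exact h (h1.symm.trans h2)
    rw [this]
    simp [h]

theorem not_finiteDimensional_HS : ¬ FiniteDimensional ℂ HS := by
  intro h
  have := ops_e_orthonormal.linearIndependent
  have hfin : Finite ℤ := this.finite
  exact not_finite ℤ

theorem opS_ne_zero : opS ≠ 0 := by
  intro h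
  have h1 := opS_ae (ops_e 0)
  rw [h] at h1
  have h2 : ((0 : HS →L[ℂ] HS) (ops_e 0) : ℤ_[2] × ℤ → ℂ) =ᵐ[nu] 0 := by
    exact Lp.coeFn_zero _ _ _
  have h3 := ops_ae_comp (ops_mp_shift 1)
    (indicatorConstLp_coeFn (p := 2) (hs := ops_meas_slice 0)
      (hμs := ops_nu_slice_ne_top 0) (c := (1 : ℂ)))
  have h4 : ∀ᵐ p ∂nu, p.2 ≠ 1 := by
    filter_upwards [h1, h2, h3] with p h1 h2 h3 hp
    rw [h2] at h1
    have h5 : (ops_e 0 : ℤ_[2] × ℤ → ℂ) (p.1, p.2 - 1) = 1 := by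
      unfold ops_e
      rw [h3]
      simp [hp]
    rw [h5] at h1
    have := bet_pos p.1 (p.2 - 1)
    simp only [Pi.zero_apply, mul_one] at h1
    have h6 : bet p.1 (p.2 - 1) = 0 := by exact_mod_cast h1.symm
    exact this.ne' h6
  obtain ⟨x, hx⟩ := (ae_of_ae_nu h4).exists
  exact hx 1 rfl

instance separableSpace_HS : TopologicalSpace.SeparableSpace HS := by
  have : SFinite nu := by unfold nu; infer_instance
  have : Fact ((2 : ENNReal) ≠ ⊤) := ⟨by norm_num⟩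
  have : SecondCountableTopology HS := inferInstance
  infer_instance

end Crest.Agent.HI
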