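import Mathlib

set_option autoImplicit false

open Filter Topology

namespace Crest.Agent.HI

section iso

variable {E : Type*} [NormedAddCommGroup E] [InnerProductSpace ℂ E]

/-- an orthonormal family in a separable space is countable -/
lemma countable_of_orthonormal [TopologicalSpace.SeparableSpace E] {ι : Type*} {v : ι → E}
    (hv : Orthonormal ℂ v) : Countable ι := by
  have hdist : ∀ i j, i ≠ j → 1 < dist (v i) (v j) := by
    intro i j hij
    have h1 : ‖v i - v j‖ ^ 2 = 2 := by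
      have := @norm_sub_sq ℂ E _ _ _ (v i) (v j)
      rw [this, hv.1 i, hv.1 j, hv.2 hij]
      simp; norm_num
    rw [dist_eq_norm]
    nlinarith [norm_nonneg (v i - v j)]
  have hdisj : (Set.univ : Set ι).PairwiseDisjoint (fun i => Metric.ball (v i) (1 / 2)) := by
    intro i _ j _ hij
    apply Metric.ball_disjoint_ball
    have := hdist i j hij
    linarith
  have := hdisj.countable_of_isOpen (fun i _ => Metric.isOpen_ball)
    (fun i _ => ⟨v i, Metric.mem_ball_self (by norm_num)⟩)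
  exact Set.countable_univ_iff.mp this

variable [CompleteSpace E]

/-- the index type of a Hilbert basis of an infinite-dimensional space is infinite -/
lemma infinite_of_hilbertBasis {ι : Type*} (b : HilbertBasis ι ℂ E)
    (hE : ¬ FiniteDimensional ℂ E) : Infinite ι := by
  by_contra hfin
  rw [not_infinite_iff_finite] at hfin
  apply hE
  have hfd : FiniteDimensional ℂ (Submodule.span ℂ (Set.range b)) :=
    FiniteDimensional.span_of_finite ℂ (Set.finite_range b)
  have hcl : IsClosed ((Submodule.span ℂ (Set.range b) : Submodule ℂ E) : Set E) :=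
    Submodule.closed_of_finiteDimensional _
  have htop : Submodule.span ℂ (Set.range b) = ⊤ := by
    have h1 := b.dense_span
    rw [hcl.submodule_topologicalClosure_eq] at h1
    exact h1
  rw [htop] at hfd
  exact (LinearEquiv.finiteDimensional (Submodule.topEquiv : (⊤ : Submodule ℂ E) ≃ₗ[ℂ] E))

end iso

/-- two separable infinite-dimensional complex Hilbert spaces are isometrically isomorphic -/
theorem nonempty_iso
    (H : Type*) [NormedAddCommGroup H] [InnerProductSpace ℂ H] [CompleteSpace H]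
    [TopologicalSpace.SeparableSpace H] (hH : ¬ FiniteDimensional ℂ H)
    (H₀ : Type*) [NormedAddCommGroup H₀] [InnerProductSpace ℂ H₀] [CompleteSpace H₀]
    [TopologicalSpace.SeparableSpace H₀] (hH₀ : ¬ FiniteDimensional ℂ H₀) :
    Nonempty (H ≃ₗᵢ[ℂ] H₀) := by
  obtain ⟨w, b, -⟩ := exists_hilbertBasis ℂ H
  obtain ⟨w₀, b₀, -⟩ := exists_hilbertBasis ℂ H₀
  haveI : Countable w := countable_of_orthonormal b.orthonormal
  haveI : Countable w₀ := countable_of_orthonormal b₀.orthonormal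
  haveI : Infinite w := infinite_of_hilbertBasis b hH
  haveI : Infinite w₀ := infinite_of_hilbertBasis b₀ hH₀
  obtain ⟨e1⟩ := nonempty_denumerable w
  obtain ⟨e2⟩ := nonempty_denumerable w₀
  let e : w ≃ w₀ := (Denumerable.eqv w).trans (Denumerable.eqv w₀).symm
  have hon : Orthonormal ℂ (fun i : w => b₀ (e i)) := b₀.orthonormal.comp e e.injective
  have hrange : Set.range (fun i : w => b₀ (e i)) = Set.range b₀ :=
    e.surjective.range_comp b₀
  let b₁ : HilbertBasis w ℂ H₀ := HilbertBasis.mk hon (by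
    rw [hrange, b₀.dense_span])
  exact ⟨b.repr.trans b₁.repr.symm⟩

/-- transport of the statement along an isometric isomorphism -/
theorem transport_iso
    {H : Type*} [NormedAddCommGroup H] [InnerProductSpace ℂ H] [CompleteSpace H]
    {H₀ : Type*} [NormedAddCommGroup H₀] [InnerProductSpace ℂ H₀] [CompleteSpace H₀]
    (U : H ≃ₗᵢ[ℂ] H₀) (T₀ : H₀ →L[ℂ] H₀) (h0 : T₀ ≠ 0)
    (hq : Tendsto (fun n : ℕ => ‖T₀ ^ n‖ ^ (1 / (n : ℝ))) atTop (𝓝 0))
    (hinv : ∀ V : Submodule ℂ H₀, IsClosed (V : Set H₀) →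
        (∀ A : H₀ →L[ℂ] H₀, A * T₀ = T₀ * A → ∀ v ∈ V, A v ∈ V) → V = ⊥ ∨ V = ⊤) :
    ∃ T : H →L[ℂ] H, T ≠ 0 ∧
      Tendsto (fun n : ℕ => ‖T ^ n‖ ^ (1 / (n : ℝ))) atTop (𝓝 0) ∧
      ∀ V : Submodule ℂ H, IsClosed (V : Set H) →
        (∀ A : H →L[ℂ] H, A * T = T * A → ∀ v ∈ V, A v ∈ V) → V = ⊥ ∨ V = ⊤ := by
  -- conjugation
  let Uc : H →L[ℂ] H₀ := U.toContinuousLinearEquiv.toContinuousLinearMap
  let Us : H₀ →L[ℂ] H := U.symm.toContinuousLinearEquiv.toContinuousLinearMap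
  have hUs : ∀ x, Us (Uc x) = x := fun x => U.symm_apply_apply x
  have hUc : ∀ x, Uc (Us x) = x := fun x => U.apply_symm_apply x
  let conj : (H₀ →L[ℂ] H₀) → (H →L[ℂ] H) := fun A => Us.comp (A.comp Uc)
  let conj' : (H →L[ℂ] H) → (H₀ →L[ℂ] H₀) := fun A => Uc.comp (A.comp Us)
  have hconj_apply : ∀ A x, conj A x = Us (A (Uc x)) := fun A x => rfl
  have hconj'_apply : ∀ A x, conj' A x = Uc (A (Us x)) := fun A x => rfl
  have hpow : ∀ n : ℕ, (conj T₀) ^ n = conj (T₀ ^ n) := by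
    intro n
    induction n with
    | zero =>
      ext x
      simp [hconj_apply, hUs]
    | succ n ih =>
      ext x
      rw [pow_succ, ih, pow_succ]
      simp only [ContinuousLinearMap.mul_apply, hconj_apply, hUc]
  have hnorm : ∀ A, ‖conj A‖ = ‖A‖ := by
    intro A
    apply le_antisymm
    · refine ContinuousLinearMap.opNorm_le_bound _ (norm_nonneg _) fun x => ?_
      rw [hconj_apply]
      have h1 : ‖Us (A (Uc x))‖ = ‖A (Uc x)‖ := U.symm.norm_map _
      have h2 : ‖Uc x‖ = ‖x‖ := U.norm_map _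
      rw [h1, ← h2]
      exact A.le_opNorm _
    · refine ContinuousLinearMap.opNorm_le_bound _ (norm_nonneg _) fun y => ?_
      have h1 : ‖conj A (Us y)‖ = ‖A y‖ := by
        rw [hconj_apply, hUc]
        exact U.symm.norm_map _
      have h2 : ‖Us y‖ = ‖y‖ := U.symm.norm_map _
      rw [← h1, ← h2]
      exact (conj A).le_opNorm _
  refine ⟨conj T₀, ?_, ?_, ?_⟩
  · intro h
    apply h0
    have := hnorm T₀
    rw [h, norm_zero] at this
    exact norm_eq_zero.mp this.symm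
  · simpa only [hpow, hnorm] using hq
  · intro V hV hVinv
    -- push V forward
    let V₀ : Submodule ℂ H₀ := V.comap (Us : H₀ →ₗ[ℂ] H)
    have hV₀mem : ∀ y, y ∈ V₀ ↔ Us y ∈ V := fun y => Iff.rfl
    have hV₀cl : IsClosed (V₀ : Set H₀) := hV.preimage Us.continuous
    have hV₀inv : ∀ A : H₀ →L[ℂ] H₀, A * T₀ = T₀ * A → ∀ v ∈ V₀, A v ∈ V₀ := by
      intro A hA v hv
      rw [hV₀mem] at hv ⊢
      have hcomm : conj A * conj T₀ = conj T₀ * conj A := by
        ext x
        simp only [ContinuousLinearMap.mul_apply, hconj_apply, hUc]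
        have := congrArg (fun B : H₀ →L[ℂ] H₀ => B (Uc x)) hA
        simp only [ContinuousLinearMap.mul_apply] at this
        rw [this]
      have := hVinv (conj A) hcomm (Us v) hv
      rwa [hconj_apply, hUc] at this
    rcases hinv V₀ hV₀cl hV₀inv with h | h
    · left
      rw [Submodule.eq_bot_iff]
      intro x hx
      have : Uc x ∈ V₀ := by rw [hV₀mem, hUs]; exact hx
      rw [h, Submodule.mem_bot] at this
      have h2 := congrArg Us this
      rwa [hUs, map_zero] at h2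
    · right
      rw [Submodule.eq_top_iff']
      intro x
      have : Uc x ∈ V₀ := by rw [h]; exact Submodule.mem_top
      rwa [hV₀mem, hUs] at this

/-- the final transport statement: one model operator suffices for S0148 -/
theorem transport
    {H₀ : Type*} [NormedAddCommGroup H₀] [InnerProductSpace ℂ H₀] [CompleteSpace H₀]
    [TopologicalSpace.SeparableSpace H₀] (hH₀ : ¬ FiniteDimensional ℂ H₀)
    (T₀ : H₀ →L[ℂ] H₀) (h0 : T₀ ≠ 0)
    (hq : Tendsto (fun n : ℕ => ‖T₀ ^ n‖ ^ (1 / (n : ℝ))) atTop (𝓝 0))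
    (hinv : ∀ V : Submodule ℂ H₀, IsClosed (V : Set H₀) →
        (∀ A : H₀ →L[ℂ] H₀, A * T₀ = T₀ * A → ∀ v ∈ V, A v ∈ V) → V = ⊥ ∨ V = ⊤)
    (H : Type*) [NormedAddCommGroup H] [InnerProductSpace ℂ H] [CompleteSpace H]
    [TopologicalSpace.SeparableSpace H] (hH : ¬ FiniteDimensional ℂ H) :
    ∃ T : H →L[ℂ] H, T ≠ 0 ∧
      Tendsto (fun n : ℕ => ‖T ^ n‖ ^ (1 / (n : ℝ))) atTop (𝓝 0) ∧
      ∀ V : Submodule ℂ H, IsClosed (V : Set H) →
        (∀ A : H →L[ℂ] H, A * T = T * A → ∀ v ∈ V, A v ∈ V) → V = ⊥ ∨ V = ⊤ := by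
  obtain ⟨U⟩ := nonempty_iso H hH H₀ hH₀
  exact transport_iso U T₀ h0 hq hinv

/-- the name used in the project skeleton -/
theorem exists_of_model {H₀ : Type*} [NormedAddCommGroup H₀] [InnerProductSpace ℂ H₀]
    [CompleteSpace H₀] [TopologicalSpace.SeparableSpace H₀] (h₀ : ¬ FiniteDimensional ℂ H₀)
    (S : H₀ →L[ℂ] H₀) (hS0 : S ≠ 0)
    (hq : Tendsto (fun n : ℕ => ‖S ^ n‖ ^ (1 / (n : ℝ))) atTop (𝓝 0))
    (hinv : ∀ V : Submodule ℂ H₀, IsClosed (V : Set H₀) →
      (∀ A : H₀ →L[ℂ] H₀, A * S = S * A → ∀ v ∈ V, A v ∈ V) → V = ⊥ ∨ V = ⊤)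
    (H : Type*) [NormedAddCommGroup H] [InnerProductSpace ℂ H] [CompleteSpace H]
    [TopologicalSpace.SeparableSpace H] (hH : ¬ FiniteDimensional ℂ H) :
    ∃ T : H →L[ℂ] H, T ≠ 0 ∧
      Tendsto (fun n : ℕ => ‖T ^ n‖ ^ (1 / (n : ℝ))) atTop (𝓝 0) ∧
      ∀ V : Submodule ℂ H, IsClosed (V : Set H) →
        (∀ A : H →L[ℂ] H, A * T = T * A → ∀ v ∈ V, A v ∈ V) → V = ⊥ ∨ V = ⊤ :=
  transport h₀ S hS0 hq hinv H hH

end Crest.Agent.HI
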