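import Crest.Agent.Lib_HJ_Seq

/-! # S0150 project (HJ), package C: the backward weighted shift maps tails densely into tails -/

set_option autoImplicit false

namespace Crest.Agent.HJ

open Crest.AnalysisR.TwoAdic

/-- every basis vector `δ_j`, `j ≥ h`, lies in the tail space at height `h`. -/
theorem back_basisVec_mem_tailSpace {h j : ℤ} (hj : h ≤ j) : basisVec j ∈ tailSpace h :=
  Submodule.le_topologicalClosure _ (Submodule.subset_span ⟨⟨j, hj⟩, rfl⟩)

/-- a closed submodule containing all `δ_j`, `j ≥ h`, contains the tail space. -/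
theorem back_tailSpace_le {h : ℤ} {M : Submodule ℂ seqHilbert} (hM : IsClosed (M : Set seqHilbert))
    (hmem : ∀ j, h ≤ j → basisVec j ∈ M) : tailSpace h ≤ M := by
  refine Submodule.topologicalClosure_minimal _ ?_ hM
  rw [Submodule.span_le]
  rintro _ ⟨⟨j, hj⟩, rfl⟩
  exact hmem j hj

/-- a closed submodule containing all `δ_j` is everything. -/
theorem back_eq_top {M : Submodule ℂ seqHilbert} (hM : IsClosed (M : Set seqHilbert))
    (hmem : ∀ j, basisVec j ∈ M) : M = ⊤ := by
  rw [eq_top_iff]
  intro f _
  have hs := lp.hasSum_single (E := fun _ : ℤ => ℂ) (p := 2) (by norm_num) f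
  refine hM.mem_of_tendsto hs (Filter.Eventually.of_forall fun s => ?_)
  refine Submodule.sum_mem _ fun i _ => ?_
  have : lp.single 2 i (f i) = (f i) • basisVec i := by
    unfold basisVec
    rw [← lp.single_smul]
    simp
  rw [this]
  exact M.smul_mem _ (hmem i)

/-- **Package C, tails.** -/
theorem back_closure_image_tailSpace (T : seqHilbert →L[ℂ] seqHilbert) (c : ℤ → ℝ)
    (hc : ∀ j, 0 < c j) (hT : ∀ j, T (basisVec j) = (c j : ℂ) • basisVec (j - 1)) (h : ℤ) :
    closure (T '' (tailSpace h : Set seqHilbert)) = (tailSpace (h - 1) : Set seqHilbert) := by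
  apply Set.Subset.antisymm
  · refine closure_minimal ?_ (Submodule.isClosed_topologicalClosure _)
    have h1 : tailSpace h ≤ (tailSpace (h - 1)).comap (T : seqHilbert →ₗ[ℂ] seqHilbert) := by
      refine back_tailSpace_le ?_ ?_
      · exact (Submodule.isClosed_topologicalClosure _).preimage T.continuous
      · intro j hj
        rw [Submodule.mem_comap]
        change T (basisVec j) ∈ _
        rw [hT]
        exact Submodule.smul_mem _ _ (back_basisVec_mem_tailSpace (by omega))
    rintro _ ⟨v, hv, rfl⟩
    exact h1 hv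
  · have h2 : tailSpace (h - 1) ≤
        ((tailSpace h).map (T : seqHilbert →ₗ[ℂ] seqHilbert)).topologicalClosure := by
      refine back_tailSpace_le (Submodule.isClosed_topologicalClosure _) ?_
      intro j hj
      apply Submodule.le_topologicalClosure
      have hne : (c (j + 1) : ℂ) ≠ 0 := by exact_mod_cast (hc (j + 1)).ne'
      refine ⟨(c (j + 1) : ℂ)⁻¹ • basisVec (j + 1),
        Submodule.smul_mem _ _ (back_basisVec_mem_tailSpace (by omega)), ?_⟩
      change T _ = _
      rw [map_smul, hT, smul_smul, inv_mul_cancel₀ hne, one_smul, add_sub_cancel_right]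
    intro v hv
    have := h2 hv
    rwa [← SetLike.mem_coe, Submodule.topologicalClosure_coe, Submodule.map_coe] at this

/-- **Package C, dense range.** -/
theorem back_closure_range_aux (T : seqHilbert →L[ℂ] seqHilbert) (c : ℤ → ℝ)
    (hc : ∀ j, 0 < c j) (hT : ∀ j, T (basisVec j) = (c j : ℂ) • basisVec (j - 1)) :
    closure (Set.range T) = Set.univ := by
  have h2 : (LinearMap.range (T : seqHilbert →ₗ[ℂ] seqHilbert)).topologicalClosure = ⊤ := by
    refine back_eq_top (Submodule.isClosed_topologicalClosure _) ?_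
    intro j
    apply Submodule.le_topologicalClosure
    have hne : (c (j + 1) : ℂ) ≠ 0 := by exact_mod_cast (hc (j + 1)).ne'
    refine ⟨(c (j + 1) : ℂ)⁻¹ • basisVec (j + 1), ?_⟩
    change T _ = _
    rw [map_smul, hT, smul_smul, inv_mul_cancel₀ hne, one_smul, add_sub_cancel_right]
  have h3 := congrArg (fun M : Submodule ℂ seqHilbert => (M : Set seqHilbert)) h2
  have h4 : ((LinearMap.range (T : seqHilbert →ₗ[ℂ] seqHilbert) : Submodule ℂ seqHilbert) :
      Set seqHilbert) = Set.range T := by
    ext v
    simp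
  simp only [Submodule.topologicalClosure_coe, Submodule.top_coe] at h3
  rw [← h4]
  exact h3

theorem back_closure_tail (b : ℤ → ℝ) (hb : ∀ j, 0 < b j ∧ b j ≤ 1) (h : ℤ) :
    closure (wsh b (-1) '' (tailSpace h : Set seqHilbert)) = (tailSpace (h - 1) : Set seqHilbert) :=
  back_closure_image_tailSpace (wsh b (-1)) b (fun j => (hb j).1)
    (fun j => by rw [wsh_basisVec b (fun j => ⟨(hb j).1.le, (hb j).2⟩), sub_eq_add_neg]) h

theorem back_closure_range (b : ℤ → ℝ) (hb : ∀ j, 0 < b j ∧ b j ≤ 1) :
    closure (Set.range (wsh b (-1))) = Set.univ :=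
  back_closure_range_aux (wsh b (-1)) b (fun j => (hb j).1)
    (fun j => by rw [wsh_basisVec b (fun j => ⟨(hb j).1.le, (hb j).2⟩), sub_eq_add_neg])

end Crest.Agent.HJ
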