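import Crest.Agent.Lib_HJ_Seq
import Crest.Agent.Lib_HI_Erg

/-! # S0150 project (HJ), package D1: decomposable operators on `L²(ℤ₂; ℓ²(ℤ))` -/

set_option autoImplicit false

namespace Crest.Agent.HJ

open MeasureTheory Crest.AnalysisR.TwoAdic Crest.Agent.HI

attribute [local instance] borelTwoAdic borelSpace_twoAdic

theorem dec_meas (w : ℤ → ℤ_[2] → ℝ) (hw : ∀ j, Measurable (w j)) (s : ℤ) (f : fibreSpace) :
    AEStronglyMeasurable (fun x => wsh (fun j => w j x) s ((f : ℤ_[2] → seqHilbert) x))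
      haarTwoAdic := by
  have hterm : ∀ j : ℤ, AEStronglyMeasurable (fun x =>
      ((wsh (fun j => w j x) s ((f : ℤ_[2] → seqHilbert) x) : seqHilbert) : ℤ → ℂ) j • basisVec j)
      haarTwoAdic := by
    intro j
    have h1 : (fun x => ((wsh (fun j => w j x) s ((f : ℤ_[2] → seqHilbert) x) : seqHilbert) :
        ℤ → ℂ) j) = fun x => ((max 0 (min 1 (w (j - s) x)) : ℝ) : ℂ) *
          seqEval (j - s) ((f : ℤ_[2] → seqHilbert) x) := by
      funext x
      rw [wsh_apply', seqEval_apply]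
    have h2 : AEStronglyMeasurable (fun x =>
        ((wsh (fun j => w j x) s ((f : ℤ_[2] → seqHilbert) x) : seqHilbert) : ℤ → ℂ) j)
        haarTwoAdic := by
      rw [h1]
      apply AEStronglyMeasurable.mul
      · exact (Complex.measurable_ofReal.comp
          (measurable_const.max (measurable_const.min (hw (j - s))))).aestronglyMeasurable
      · exact (seqEval (j - s)).continuous.comp_aestronglyMeasurable (Lp.aestronglyMeasurable f)
    exact h2.smul_const _
  refine aestronglyMeasurable_of_tendsto_ae (Filter.atTop : Filter (Finset ℤ))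
    (f := fun F x => ∑ j ∈ F,
      ((wsh (fun j => w j x) s ((f : ℤ_[2] → seqHilbert) x) : seqHilbert) : ℤ → ℂ) j • basisVec j)
    (fun F => ?_) (Filter.Eventually.of_forall fun x => seq_hasSum _)
  exact Finset.aestronglyMeasurable_fun_sum F (fun j _ => hterm j)

theorem dec_memLp (w : ℤ → ℤ_[2] → ℝ) (hw : ∀ j, Measurable (w j)) (s : ℤ) (f : fibreSpace) :
    MemLp (fun x => wsh (fun j => w j x) s ((f : ℤ_[2] → seqHilbert) x)) 2 haarTwoAdic :=
  (Lp.memLp f).of_le_mul (c := 1) (dec_meas w hw s f)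
    (Filter.Eventually.of_forall fun x => by rw [one_mul]; exact wsh_norm_le _ _ _)

/-- the decomposable operator with fibres `wsh (fun j => w j x) s`. -/
noncomputable def dec (w : ℤ → ℤ_[2] → ℝ) (hw : ∀ j, Measurable (w j)) (s : ℤ) :
    fibreSpace →L[ℂ] fibreSpace :=
  LinearMap.mkContinuous
    { toFun := fun f => (dec_memLp w hw s f).toLp _
      map_add' := by
        intro f g
        refine Lp.ext ?_
        filter_upwards [MemLp.coeFn_toLp (dec_memLp w hw s (f + g)),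
          Lp.coeFn_add ((dec_memLp w hw s f).toLp _) ((dec_memLp w hw s g).toLp _),
          MemLp.coeFn_toLp (dec_memLp w hw s f), MemLp.coeFn_toLp (dec_memLp w hw s g),
          Lp.coeFn_add f g] with p h1 h2 h3 h4 h5
        rw [h1, h2, Pi.add_apply, h3, h4, h5, Pi.add_apply, map_add]
      map_smul' := by
        intro c f
        refine Lp.ext ?_
        filter_upwards [MemLp.coeFn_toLp (dec_memLp w hw s (c • f)),
          Lp.coeFn_smul c ((dec_memLp w hw s f).toLp _),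
          MemLp.coeFn_toLp (dec_memLp w hw s f), Lp.coeFn_smul c f] with p h1 h2 h3 h4
        simp only [RingHom.id_apply]
        rw [h1, h2, Pi.smul_apply, h3, h4, Pi.smul_apply, map_smul] }
    1 (by
      intro f
      refine Lp.norm_le_mul_norm_of_ae_le_mul ?_
      filter_upwards [MemLp.coeFn_toLp (dec_memLp w hw s f)] with p h1
      change ‖((dec_memLp w hw s f).toLp _ : ℤ_[2] → seqHilbert) p‖ ≤ _
      rw [h1, one_mul]
      exact wsh_norm_le _ _ _)

theorem dec_ae (w : ℤ → ℤ_[2] → ℝ) (hw : ∀ j, Measurable (w j)) (s : ℤ) (f : fibreSpace) :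
    ∀ᵐ x ∂haarTwoAdic, (dec w hw s f : ℤ_[2] → seqHilbert) x =
      wsh (fun j => w j x) s ((f : ℤ_[2] → seqHilbert) x) :=
  MemLp.coeFn_toLp (dec_memLp w hw s f)

/-- `∀ᵐ x, P (x + 1)` implies `∀ᵐ y, P y`. -/
theorem ae_of_ae_add_one {P : ℤ_[2] → Prop} (h : ∀ᵐ x ∂haarTwoAdic, P (x + 1)) :
    ∀ᵐ y ∂haarTwoAdic, P y := by
  have h1 := mp_sub_one.quasiMeasurePreserving.ae h
  filter_upwards [h1] with y hy
  simpa using hy

theorem ae_add_one_of_ae {P : ℤ_[2] → Prop} (h : ∀ᵐ y ∂haarTwoAdic, P y) :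
    ∀ᵐ x ∂haarTwoAdic, P (x + 1) :=
  mp_add_one.quasiMeasurePreserving.ae h

/-- translation along the odometer. -/
noncomputable def tr : fibreSpace →L[ℂ] fibreSpace :=
  (Lp.compMeasurePreservingₗᵢ ℂ (fun x : ℤ_[2] => x - 1) mp_sub_one).toContinuousLinearMap

theorem tr_ae (f : fibreSpace) :
    ∀ᵐ x ∂haarTwoAdic, (tr f : ℤ_[2] → seqHilbert) (x + 1) = (f : ℤ_[2] → seqHilbert) x := by
  have h2 := Lp.coeFn_compMeasurePreserving f mp_sub_one
  have h3 := ae_add_one_of_ae h2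
  filter_upwards [h3] with x hx
  change (Lp.compMeasurePreserving (fun x : ℤ_[2] => x - 1) mp_sub_one f : ℤ_[2] → seqHilbert)
    (x + 1) = _
  rw [hx]
  simp

theorem norm_tr (f : fibreSpace) : ‖tr f‖ = ‖f‖ :=
  Lp.norm_compMeasurePreserving f mp_sub_one

/-- operator norm bound from an a.e. fibrewise bound. -/
theorem fib_norm_le (g f : fibreSpace) (c : ℝ)
    (h : ∀ᵐ x ∂haarTwoAdic, ‖(g : ℤ_[2] → seqHilbert) x‖ ≤ c * ‖(f : ℤ_[2] → seqHilbert) x‖) :
    ‖g‖ ≤ c * ‖f‖ :=
  Lp.norm_le_mul_norm_of_ae_le_mul h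

/-- cut-off by a measurable set. -/
theorem exists_cut (E : Set ℤ_[2]) (hE : MeasurableSet E) (f : fibreSpace) :
    ∃ f' : fibreSpace, ∀ᵐ x ∂haarTwoAdic, (f' : ℤ_[2] → seqHilbert) x =
      (Set.indicator E (fun _ => (1 : ℂ)) x) • (f : ℤ_[2] → seqHilbert) x := by
  have h1 : MemLp (E.indicator (f : ℤ_[2] → seqHilbert)) 2 haarTwoAdic := (Lp.memLp f).indicator hE
  refine ⟨h1.toLp _, ?_⟩
  filter_upwards [MemLp.coeFn_toLp h1] with x hx
  rw [hx]
  by_cases hxE : x ∈ E
  · simp [Set.indicator_of_mem hxE]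
  · simp [Set.indicator_of_notMem hxE]

/-- constant fields. -/
theorem exists_const (v : seqHilbert) :
    ∃ f : fibreSpace, (∀ᵐ x ∂haarTwoAdic, (f : ℤ_[2] → seqHilbert) x = v) ∧ ‖f‖ = ‖v‖ := by
  have h1 : MemLp (fun _ : ℤ_[2] => v) 2 haarTwoAdic := memLp_const v
  refine ⟨h1.toLp _, MemLp.coeFn_toLp h1, ?_⟩
  rw [Lp.norm_toLp, eLpNorm_const v (by norm_num) (IsProbabilityMeasure.ne_zero _)]
  simp

end Crest.Agent.HJ
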