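import Crest.Agent.Lib_HJ_Seq
import Crest.Agent.Lib_HI_KL

/-! # S0150 project (HJ), package B: the fibre shifts are unicellular -/

set_option autoImplicit false

namespace Crest.Agent.HJ

open Crest.AnalysisR.TwoAdic Crest.Agent.HI

theorem uni_w (a : ℤ → ℝ) (ha : ∀ l, 0 ≤ a l) (j : ℤ) :
    0 ≤ Real.exp (-(a j)) ∧ Real.exp (-(a j)) ≤ 1 :=
  ⟨(Real.exp_pos _).le, Real.exp_le_one_iff.2 (by have := ha j; linarith)⟩

theorem wsh_pow_apply (a : ℤ → ℝ) (ha : ∀ l, 0 ≤ a l) (n : ℕ) (v : seqHilbert) (j : ℤ) :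
    (((wsh (fun l => Real.exp (-(a l))) 1) ^ n) v : ℤ → ℂ) j =
      ((Real.exp (-(∑ l ∈ Finset.Ico (j - n) j, a l)) : ℝ) : ℂ) * (v : ℤ → ℂ) (j - n) := by
  induction n generalizing j with
  | zero => simp
  | succ n ih =>
    rw [pow_succ']
    change (wsh (fun l => Real.exp (-(a l))) 1 (((wsh (fun l => Real.exp (-(a l))) 1) ^ n) v) :
      ℤ → ℂ) j = _
    rw [wsh_apply _ (uni_w a ha), ih]
    have h1 : j - 1 - (n : ℤ) = j - ((n + 1 : ℕ) : ℤ) := by push_cast; ring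
    have h2 : Finset.Ico (j - 1) j = {j - 1} := by
      ext l
      simp only [Finset.mem_Ico, Finset.mem_singleton]
      omega
    have h3 : ∑ l ∈ Finset.Ico (j - ((n + 1 : ℕ) : ℤ)) j, a l =
        ∑ l ∈ Finset.Ico (j - 1 - (n : ℤ)) (j - 1), a l + a (j - 1) := by
      rw [← kl_sum_consec a (i := j - ((n + 1 : ℕ) : ℤ)) (j := j - 1) (k := j)
        (by push_cast; omega) (by omega), h2, Finset.sum_singleton, h1]
    rw [h3, h1, neg_add, Real.exp_add]
    push_cast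
    ring

theorem wsh_pow_norm_le (a : ℤ → ℝ) (ha : ∀ l, 0 ≤ a l) (n : ℕ) (c : ℝ)
    (hc : ∀ i : ℤ, c ≤ ∑ l ∈ Finset.Ico i (i + n), a l) (v : seqHilbert) :
    ‖((wsh (fun l => Real.exp (-(a l))) 1) ^ n) v‖ ≤ Real.exp (-c) * ‖v‖ := by
  apply seq_norm_le_of_shift _ _ _ (Real.exp_pos _).le (n : ℤ)
  intro j
  rw [wsh_pow_apply a ha, norm_mul, Complex.norm_real, Real.norm_eq_abs,
    abs_of_pos (Real.exp_pos _)]
  apply mul_le_mul_of_nonneg_right _ (norm_nonneg _)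
  rw [Real.exp_le_exp]
  have := hc (j - n)
  rw [sub_add_cancel] at this
  linarith

/-- the Key Lemma in operator form. -/
theorem fibre_sep (a : ℤ → ℝ) (ha : ∀ l, 0 ≤ a l)
    (hsc : ∀ (i0 j0 : ℤ) (Λ : ℝ), ∃ (m M : ℤ) (lam : ℝ), Λ ≤ lam ∧ m ≤ i0 ∧ j0 ≤ M ∧
      (∀ l, m ≤ l → l ≤ M → a l ≤ lam) ∧ (∀ l, (l < m ∨ M < l) → 4 * lam ≤ a l) ∧
      100 * (((M - m : ℤ) : ℝ) + 10) ≤ lam)
    (u F : seqHilbert)
    (h : ∀ n : ℕ, inner ℂ (((wsh (fun l => Real.exp (-(a l))) 1) ^ n) u) F = 0) (i j : ℤ) (hij : i < j) :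
    (u : ℤ → ℂ) i = 0 ∨ (F : ℤ → ℂ) j = 0 := by
  by_contra hcon
  push Not at hcon
  obtain ⟨n, hn⟩ := keyLemma a ha (fun i => (u : ℤ → ℂ) i) (fun i => (F : ℤ → ℂ) i)
    (seq_summable_sq u) (seq_summable_sq F) i j hij hcon.1 hcon.2 (hsc i j)
  apply hn
  have h1 := h n
  rw [seq_inner, ← (Equiv.addRight (n : ℤ)).tsum_eq] at h1
  rw [← h1]
  apply tsum_congr
  intro i
  simp only [Equiv.coe_addRight]
  rw [wsh_pow_apply a ha]
  simp only [add_sub_cancel_right, map_mul, Complex.conj_ofReal]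
  ring

theorem fibre_unicellular (a : ℤ → ℝ) (ha : ∀ l, 0 ≤ a l)
    (hsc : ∀ (i0 j0 : ℤ) (Λ : ℝ), ∃ (m M : ℤ) (lam : ℝ), Λ ≤ lam ∧ m ≤ i0 ∧ j0 ≤ M ∧
      (∀ l, m ≤ l → l ≤ M → a l ≤ lam) ∧ (∀ l, (l < m ∨ M < l) → 4 * lam ≤ a l) ∧
      100 * (((M - m : ℤ) : ℝ) + 10) ≤ lam)
    (W : Submodule ℂ seqHilbert) (hW : IsClosed (W : Set seqHilbert)) :
    (∀ v ∈ W, wsh (fun l => Real.exp (-(a l))) 1 v ∈ W) ↔
      (W = ⊥ ∨ W = ⊤ ∨ ∃ h : ℤ, W = tailSpace h) := by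
  constructor
  · intro hinv
    by_cases hbot : W = ⊥
    · exact Or.inl hbot
    by_cases htop : W = ⊤
    · exact Or.inr (Or.inl htop)
    right; right
    have hcs : CompleteSpace W := hW.completeSpace_coe
    obtain ⟨u0, hu0W, hu00⟩ := (Submodule.ne_bot_iff W).1 hbot
    have horth : Wᗮ ≠ ⊥ := fun h => htop (Submodule.orthogonal_eq_bot_iff.1 h)
    obtain ⟨F0, hF0W, hF00⟩ := (Submodule.ne_bot_iff _).1 horth
    have hpow : ∀ u ∈ W, ∀ n : ℕ, ((wsh (fun l => Real.exp (-(a l))) 1) ^ n) u ∈ W := by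
      intro u hu n
      induction n with
      | zero => simpa using hu
      | succ n ih =>
        rw [pow_succ']
        exact hinv _ ih
    have hsep : ∀ u ∈ W, ∀ F ∈ Wᗮ, ∀ i j : ℤ, i < j →
        (u : ℤ → ℂ) i = 0 ∨ (F : ℤ → ℂ) j = 0 := fun u hu F hF =>
      fibre_sep a ha hsc u F (fun n => (Submodule.mem_orthogonal W F).1 hF _ (hpow u hu n))
    obtain ⟨i1, hi1⟩ : ∃ i, (u0 : ℤ → ℂ) i ≠ 0 := by
      by_contra hc
      push Not at hc
      exact hu00 (seq_ext (fun j => by rw [hc j]; rfl))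
    obtain ⟨j1, hj1⟩ : ∃ j, (F0 : ℤ → ℂ) j ≠ 0 := by
      by_contra hc
      push Not at hc
      exact hF00 (seq_ext (fun j => by rw [hc j]; rfl))
    have hlow : ∀ i : ℤ, (∃ u ∈ W, (u : ℤ → ℂ) i ≠ 0) → j1 ≤ i := by
      rintro i ⟨u, hu, hui⟩
      by_contra hc
      push Not at hc
      rcases hsep u hu F0 hF0W i j1 hc with h | h
      exacts [hui h, hj1 h]
    obtain ⟨h, ⟨uh, huhW, huh⟩, hmin⟩ := Int.exists_least_of_bdd
      (P := fun i => ∃ u ∈ W, (u : ℤ → ℂ) i ≠ 0) ⟨j1, hlow⟩ ⟨i1, u0, hu0W, hi1⟩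
    have hWtail : ∀ u ∈ W, ∀ j, j < h → (u : ℤ → ℂ) j = 0 := by
      intro u hu j hj
      by_contra hc
      have := hmin j ⟨u, hu, hc⟩
      omega
    refine ⟨h, le_antisymm ?_ ?_⟩
    · intro u hu
      rw [mem_tailSpace_iff]
      exact hWtail u hu
    · rw [← Submodule.orthogonal_orthogonal W]
      intro v hv
      rw [Submodule.mem_orthogonal]
      intro F hF
      have hFgt : ∀ j, h < j → (F : ℤ → ℂ) j = 0 := by
        intro j hj
        rcases hsep uh huhW F hF h j hj with h1 | h1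
        · exact absurd h1 huh
        · exact h1
      have hFh : (F : ℤ → ℂ) h = 0 := by
        have h1 := (Submodule.mem_orthogonal W F).1 hF uh huhW
        rw [seq_inner, tsum_eq_single h] at h1
        · rcases mul_eq_zero.1 h1 with h2 | h2
          · exact absurd ((map_eq_zero _).1 h2) huh
          · exact h2
        · intro j hj
          rcases lt_or_gt_of_ne hj with h2 | h2
          · rw [hWtail uh huhW j h2]; simp
          · rw [hFgt j h2]; simp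
      rw [seq_inner]
      have hz : ∀ j, (starRingEnd ℂ ((F : ℤ → ℂ) j)) * (v : ℤ → ℂ) j = 0 := by
        intro j
        by_cases hj : j < h
        · rw [(mem_tailSpace_iff h v).1 hv j hj]; simp
        · rcases eq_or_lt_of_le (not_lt.1 hj) with h2 | h2
          · rw [← h2, hFh]; simp
          · rw [hFgt j h2]; simp
      simp [hz]
  · rintro (h | h | ⟨h, hh⟩)
    · intro v hv
      rw [h] at hv ⊢
      rw [Submodule.mem_bot] at hv
      rw [hv, map_zero]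
      exact Submodule.zero_mem _
    · intro v _
      rw [h]
      exact Submodule.mem_top
    · intro v hv
      rw [hh] at hv ⊢
      rw [mem_tailSpace_iff] at hv ⊢
      intro j hj
      rw [wsh_apply _ (uni_w a ha), hv (j - 1) (by omega)]
      simp

end Crest.Agent.HJ
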