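import Crest.Agent.Lib_HI_Odo

/-! # S0150 project (HJ), package E: the weights -/

set_option autoImplicit false

namespace Crest.Agent.HJ

open MeasureTheory Crest.AnalysisR.TwoAdic Crest.Agent.HI

attribute [local instance] borelTwoAdic borelSpace_twoAdic

theorem exists_good : ∃ x : ℤ_[2], Good x := good_ae.exists

/-- a fixed good point. -/
noncomputable def x0 : ℤ_[2] := Classical.choose exists_good

open Classical in
/-- replace the (countably many) bad points by `x0`. -/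
noncomputable def g0 (x : ℤ_[2]) : ℤ_[2] := if Good x then x else x0

theorem good_g0 (x : ℤ_[2]) : Good (g0 x) := by
  unfold g0
  split_ifs with h
  · exact h
  · exact Classical.choose_spec exists_good

theorem g0_of_good {x : ℤ_[2]} (hx : Good x) : g0 x = x := by
  unfold g0
  rw [if_pos hx]

theorem measurableSet_good : MeasurableSet {x : ℤ_[2] | Good x} := by
  have : {x : ℤ_[2] | Good x} = ⋂ l : ℤ, ⋃ k : ℕ, {x | inB k x l} := by
    ext x
    simp [Good]
  rw [this]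
  exact MeasurableSet.iInter fun l => MeasurableSet.iUnion fun k => odo_measurableSet_inB k l

/-- weights of `S`. -/
noncomputable def beta (j : ℤ) (x : ℤ_[2]) : ℝ := Real.exp (-(10 * aw (g0 x) j))

open Classical in
/-- weights of `V`. -/
noncomputable def bw (j : ℤ) (x : ℤ_[2]) : ℝ := if Good x ∧ Good (x + 1) then (bb x j) ^ 10 else 0

theorem wts_measurable_g0 : Measurable g0 := by
  unfold g0
  exact Measurable.ite measurableSet_good measurable_id measurable_const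

theorem measurable_beta (j : ℤ) : Measurable (beta j) := by
  unfold beta
  exact Real.measurable_exp.comp ((((measurable_aw j).comp wts_measurable_g0).const_mul 10).neg)

theorem wts_measurableSet_good2 : MeasurableSet {x : ℤ_[2] | Good x ∧ Good (x + 1)} := by
  have : {x : ℤ_[2] | Good x ∧ Good (x + 1)} =
      {x | Good x} ∩ (fun x : ℤ_[2] => x + 1) ⁻¹' {x | Good x} := by
    ext x; simp
  rw [this]
  exact measurableSet_good.inter (odo_measurable_add_one measurableSet_good)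

theorem measurable_bw (j : ℤ) : Measurable (bw j) := by
  unfold bw
  exact Measurable.ite wts_measurableSet_good2 ((measurable_bb j).pow_const 10) measurable_const

theorem beta_pos (j : ℤ) (x : ℤ_[2]) : 0 < beta j x := Real.exp_pos _

theorem beta_le (j : ℤ) (x : ℤ_[2]) : beta j x ≤ Real.exp (-10) := by
  unfold beta
  apply Real.exp_le_exp.mpr
  have := aw_ge_one (g0 x) j
  linarith

theorem beta_le_one (j : ℤ) (x : ℤ_[2]) : beta j x ≤ 1 := by
  unfold beta
  rw [Real.exp_le_one_iff]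
  have := aw_ge_one (g0 x) j
  linarith

theorem beta_zero (x : ℤ_[2]) : beta 0 x = Real.exp (-10) := by
  unfold beta
  have : aw (g0 x) 0 = 1 := by simp [aw, odo_kap_zero]
  rw [this]; norm_num

theorem bw_nonneg (j : ℤ) (x : ℤ_[2]) : 0 ≤ bw j x := by
  unfold bw
  split_ifs
  · exact pow_nonneg (bb_pos x j).le 10
  · exact le_rfl

theorem bw_le_one (j : ℤ) (x : ℤ_[2]) : bw j x ≤ 1 := by
  unfold bw
  split_ifs with h
  · exact pow_le_one₀ (bb_pos x j).le (bb_le_one h.1 j)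
  · exact zero_le_one

theorem good2_ae : ∀ᵐ x ∂haarTwoAdic, Good x ∧ Good (x + 1) := by
  have h1 := good_ae
  have h2 : ∀ᵐ x ∂haarTwoAdic, Good (x + 1) := mp_add_one.quasiMeasurePreserving.ae good_ae
  filter_upwards [h1, h2] with x a b
  exact ⟨a, b⟩

theorem bw_pos {x : ℤ_[2]} (hx : Good x ∧ Good (x + 1)) (j : ℤ) : 0 < bw j x := by
  unfold bw
  rw [if_pos hx]
  exact pow_pos (bb_pos x j) 10

theorem wts_beta_eq {x : ℤ_[2]} (hx : Good x) (j : ℤ) : beta j x = (bet x j) ^ 10 := by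
  unfold beta bet
  rw [g0_of_good hx, ← Real.exp_nat_mul]
  congr 1
  push_cast
  ring

theorem bw_mul_beta {x : ℤ_[2]} (hx : Good x ∧ Good (x + 1)) (j : ℤ) :
    bw (j + 1) x * beta j x = beta (j - 1) (x + 1) * bw j x := by
  rw [wts_beta_eq hx.1, wts_beta_eq hx.2]
  unfold bw
  rw [if_pos hx, if_pos hx, ← mul_pow, ← mul_pow, bb_mul_bet]

theorem scales10 (x : ℤ_[2]) (i0 j0 : ℤ) (Λ : ℝ) :
    ∃ (m M : ℤ) (lam : ℝ), Λ ≤ lam ∧ m ≤ i0 ∧ j0 ≤ M ∧
      (∀ l, m ≤ l → l ≤ M → 10 * aw (g0 x) l ≤ lam) ∧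
      (∀ l, (l < m ∨ M < l) → 4 * lam ≤ 10 * aw (g0 x) l) ∧
      100 * (((M - m : ℤ) : ℝ) + 10) ≤ lam := by
  obtain ⟨m, M, lam, h1, h2, h3, h4, h5, h6⟩ := scales (good_g0 x) i0 j0 (max Λ 0)
  have hl0 : 0 ≤ lam := (le_max_right Λ 0).trans h1
  have hl1 : Λ ≤ lam := (le_max_left Λ 0).trans h1
  refine ⟨m, M, 10 * lam, by linarith, h2, h3, ?_, ?_, by linarith⟩
  · intro l a b
    have := h4 l a b
    linarith
  · intro l a
    have := h5 l a
    linarith

theorem wts_window (x : ℤ_[2]) (i : ℤ) (n : ℕ) (hn : 1 ≤ n) :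
    (((n + 1) ^ 2 / 4 : ℕ) : ℝ) ≤ ∑ l ∈ Finset.Ico i (i + n), aw (g0 x) l := by
  rcases Nat.lt_or_ge n 2 with h | h
  · have h1 : n = 1 := by omega
    subst h1
    have hs : Finset.Ico i (i + ((1 : ℕ) : ℤ)) = {i} := by
      ext l; simp only [Finset.mem_Ico, Finset.mem_singleton]; push_cast; omega
    rw [hs, Finset.sum_singleton]
    have := aw_ge_one (g0 x) i
    norm_num
    exact this
  · set L := Nat.log 2 n with hL
    have hL1 : 1 ≤ L := by
      rw [hL]
      exact Nat.log_pos (by norm_num) h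
    have hlo : 2 ^ L ≤ n := Nat.pow_log_le_self 2 (by omega)
    have hhi : n < 2 ^ (L + 1) := Nat.lt_pow_succ_log_self (by norm_num) n
    obtain ⟨k, hk⟩ : ∃ k, L = k + 1 := ⟨L - 1, by omega⟩
    rw [hk] at hlo hhi
    have hw := window (good_g0 x) k i n
    have hloR : (2 : ℝ) ^ (k + 1) ≤ n := by exact_mod_cast hlo
    have hhiR : (n : ℝ) + 1 ≤ 2 ^ (k + 1 + 1) := by exact_mod_cast hhi
    have hp : (1 : ℝ) ≤ 2 ^ k := one_le_pow₀ (by norm_num)
    have h4 : (4 : ℝ) ^ (k + 1) = 2 ^ (k + 1) * 2 ^ (k + 1) := by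
      rw [← mul_pow]; norm_num
    have hfl : (((n + 1) ^ 2 / 4 : ℕ) : ℝ) ≤ ((n : ℝ) + 1) ^ 2 / 4 := by
      have := @Nat.cast_div_le ℝ _ _ _ ((n + 1) ^ 2) 4
      push_cast at this
      exact this
    have hsq : ((n : ℝ) + 1) ^ 2 / 4 ≤ 4 ^ (k + 1) := by
      rw [h4]
      have e : (2 : ℝ) ^ (k + 1 + 1) = 2 * 2 ^ (k + 1) := by rw [pow_succ]; ring
      rw [e] at hhiR
      have hn0 : (0 : ℝ) ≤ (n : ℝ) + 1 := by positivity
      nlinarith
    have hfac : (1 : ℝ) ≤ (n : ℝ) - 2 ^ k := by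
      have e : (2 : ℝ) ^ (k + 1) = 2 * 2 ^ k := by rw [pow_succ]; ring
      rw [e] at hloR
      linarith
    have h4pos : (0 : ℝ) ≤ 4 ^ (k + 1) := by positivity
    calc (((n + 1) ^ 2 / 4 : ℕ) : ℝ) ≤ ((n : ℝ) + 1) ^ 2 / 4 := hfl
      _ ≤ 4 ^ (k + 1) := hsq
      _ ≤ ((n : ℝ) - 2 ^ k) * 4 ^ (k + 1) := by nlinarith
      _ ≤ _ := hw

/-- from `window` (k = 0 for small n, 2^(k+1) ≤ n < 2^(k+2) in general) and `aw_ge_one`. -/
theorem window10 (x : ℤ_[2]) (i : ℤ) (n : ℕ) (hn : 1 ≤ n) :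
    10 * (((n + 1) ^ 2 / 4 : ℕ) : ℝ) ≤ ∑ l ∈ Finset.Ico i (i + n), 10 * aw (g0 x) l := by
  rw [← Finset.mul_sum]
  have := wts_window x i n hn
  linarith

end Crest.Agent.HJ
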