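import Crest.Agent.Lib_HJ_Dec
import Crest.Agent.Lib_HJ_Wts
import Crest.Agent.Lib_HJ_Uni

/-! # S0150 project (HJ), package D2: the global operators `S`, `V` -/

set_option autoImplicit false

namespace Crest.Agent.HJ

open MeasureTheory Crest.AnalysisR.TwoAdic Crest.Agent.HI

attribute [local instance] borelTwoAdic borelSpace_twoAdic

noncomputable def Sfib (x : ℤ_[2]) : seqHilbert →L[ℂ] seqHilbert := wsh (fun j => beta j x) 1

noncomputable def Vfib (x : ℤ_[2]) : seqHilbert →L[ℂ] seqHilbert := wsh (fun j => bw j x) (-1)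

noncomputable def gS : fibreSpace →L[ℂ] fibreSpace := dec beta measurable_beta 1

noncomputable def gV : fibreSpace →L[ℂ] fibreSpace := tr.comp (dec bw measurable_bw (-1))

theorem gS_ae (f : fibreSpace) : ∀ᵐ x ∂haarTwoAdic,
    (gS f : ℤ_[2] → seqHilbert) x = Sfib x ((f : ℤ_[2] → seqHilbert) x) :=
  dec_ae beta measurable_beta 1 f

theorem gV_ae (f : fibreSpace) : ∀ᵐ x ∂haarTwoAdic,
    (gV f : ℤ_[2] → seqHilbert) (x + 1) = Vfib x ((f : ℤ_[2] → seqHilbert) x) := by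
  filter_upwards [tr_ae (dec bw measurable_bw (-1) f), dec_ae bw measurable_bw (-1) f] with x h1 h2
  change (tr (dec bw measurable_bw (-1) f) : ℤ_[2] → seqHilbert) (x + 1) = _
  rw [h1, h2]
  rfl

theorem gS_pow_ae (n : ℕ) (f : fibreSpace) : ∀ᵐ x ∂haarTwoAdic,
    ((gS ^ n) f : ℤ_[2] → seqHilbert) x = ((Sfib x) ^ n) ((f : ℤ_[2] → seqHilbert) x) := by
  induction n with
  | zero => exact Filter.Eventually.of_forall fun x => by simp
  | succ n ih =>
    filter_upwards [ih, gS_ae ((gS ^ n) f)] with x h1 h2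
    rw [pow_succ', pow_succ']
    change (gS ((gS ^ n) f) : ℤ_[2] → seqHilbert) x = Sfib x (((Sfib x) ^ n) _)
    rw [h2, h1]

theorem glob_beta_mem (x : ℤ_[2]) : ∀ j, 0 ≤ beta j x ∧ beta j x ≤ 1 :=
  fun j => ⟨(beta_pos j x).le, beta_le_one j x⟩

theorem glob_bw_mem (x : ℤ_[2]) : ∀ j, 0 ≤ bw j x ∧ bw j x ≤ 1 :=
  fun j => ⟨bw_nonneg j x, bw_le_one j x⟩

theorem Sfib_basisVec (x : ℤ_[2]) (j : ℤ) :
    Sfib x (basisVec j) = (beta j x : ℂ) • basisVec (j + 1) :=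
  wsh_basisVec (fun j => beta j x) (glob_beta_mem x) 1 j

theorem Vfib_basisVec (x : ℤ_[2]) (j : ℤ) :
    Vfib x (basisVec j) = (bw j x : ℂ) • basisVec (j - 1) := by
  rw [sub_eq_add_neg]
  exact wsh_basisVec (fun j => bw j x) (glob_bw_mem x) (-1) j

theorem Sfib_apply (x : ℤ_[2]) (v : seqHilbert) (j : ℤ) :
    (Sfib x v : ℤ → ℂ) j = (beta (j - 1) x : ℂ) * (v : ℤ → ℂ) (j - 1) :=
  wsh_apply (fun j => beta j x) (glob_beta_mem x) 1 v j

theorem Vfib_apply (x : ℤ_[2]) (v : seqHilbert) (j : ℤ) :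
    (Vfib x v : ℤ → ℂ) j = (bw (j + 1) x : ℂ) * (v : ℤ → ℂ) (j + 1) := by
  have h := wsh_apply (fun j => bw j x) (glob_bw_mem x) (-1) v j
  rw [sub_neg_eq_add] at h
  exact h

theorem norm_gS_pow (n : ℕ) (hn : 1 ≤ n) :
    ‖gS ^ n‖ ≤ Real.exp (-10 * (((n + 1) ^ 2 / 4 : ℕ) : ℝ)) := by
  refine ContinuousLinearMap.opNorm_le_bound _ (Real.exp_pos _).le fun f => ?_
  refine fib_norm_le _ _ _ ?_
  filter_upwards [gS_pow_ae n f] with x hx
  rw [hx]
  have h := wsh_pow_norm_le (fun l => 10 * aw (g0 x) l)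
    (fun l => by have := aw_ge_one (g0 x) l; linarith) n
    (10 * (((n + 1) ^ 2 / 4 : ℕ) : ℝ)) (fun i => window10 x i n hn) ((f : ℤ_[2] → seqHilbert) x)
  rw [neg_mul]
  exact h

theorem norm_gS : ‖gS‖ = Real.exp (-10) := by
  apply le_antisymm
  · have h := norm_gS_pow 1 le_rfl
    simpa using h
  · obtain ⟨f0, hf0, hn0⟩ := exists_const (basisVec 0)
    obtain ⟨f1, hf1, hn1⟩ := exists_const (basisVec 1)
    have h1 : ‖f1‖ ≤ Real.exp 10 * ‖gS f0‖ := by
      refine fib_norm_le _ _ _ ?_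
      filter_upwards [gS_ae f0, hf0, hf1] with x h2 h3 h4
      rw [h2, h3, h4, Sfib_basisVec, beta_zero, norm_smul, zero_add, norm_basisVec, mul_one,
        Complex.norm_real, Real.norm_eq_abs, abs_of_pos (Real.exp_pos _), ← Real.exp_add]
      simp
    have h2 : ‖gS f0‖ ≤ ‖gS‖ * ‖f0‖ := gS.le_opNorm f0
    rw [hn0, norm_basisVec, mul_one] at h2
    rw [hn1, norm_basisVec] at h1
    have h3 : Real.exp (-10) * 1 ≤ Real.exp (-10) * (Real.exp 10 * ‖gS f0‖) :=
      mul_le_mul_of_nonneg_left h1 (Real.exp_pos _).le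
    rw [← mul_assoc, ← Real.exp_add] at h3
    simp only [neg_add_cancel, Real.exp_zero, one_mul, mul_one] at h3
    exact h3.trans h2

theorem gS_ne_zero : gS ≠ 0 := by
  intro h
  have h1 := norm_gS
  rw [h, norm_zero] at h1
  exact (Real.exp_pos (-10)).ne h1

theorem norm_gV : ‖gV‖ ≤ 1 := by
  refine ContinuousLinearMap.opNorm_le_bound _ zero_le_one fun f => ?_
  change ‖tr (dec bw measurable_bw (-1) f)‖ ≤ _
  rw [norm_tr]
  refine fib_norm_le _ _ _ ?_
  filter_upwards [dec_ae bw measurable_bw (-1) f] with x hx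
  rw [hx, one_mul]
  exact wsh_norm_le _ _ _

theorem glob_fib_comm {x : ℤ_[2]} (hx : Good x ∧ Good (x + 1)) (v : seqHilbert) :
    Vfib x (Sfib x v) = Sfib (x + 1) (Vfib x v) := by
  apply seq_ext
  intro j
  rw [Vfib_apply, Sfib_apply, Sfib_apply, Vfib_apply, add_sub_cancel_right, sub_add_cancel,
    ← mul_assoc, ← mul_assoc]
  congr 1
  exact_mod_cast bw_mul_beta hx j

theorem gV_comm : gV * gS = gS * gV := by
  ext1 f
  change gV (gS f) = gS (gV f)
  apply Lp.ext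
  apply ae_of_ae_add_one
  filter_upwards [gV_ae (gS f), gS_ae f, ae_add_one_of_ae (gS_ae (gV f)), gV_ae f, good2_ae]
    with x h1 h2 h3 h4 h5
  rw [h1, h2, h3, h4]
  exact glob_fib_comm h5 _

end Crest.Agent.HJ
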