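import Crest.Agent.Lib_HJ_Glob

/-! # S0150 project (HJ): transitivity -/

set_option autoImplicit false

namespace Crest.Agent.HJ

open MeasureTheory Crest.AnalysisR.TwoAdic Crest.Agent.HI

attribute [local instance] borelTwoAdic borelSpace_twoAdic

/-- fibrewise orthogonality. -/
theorem fib_orth (u F : fibreSpace)
    (h : ∀ (E : Set ℤ_[2]) (_ : MeasurableSet E) (u' : fibreSpace),
      (∀ᵐ x ∂haarTwoAdic, (u' : ℤ_[2] → seqHilbert) x =
        (Set.indicator E (fun _ => (1 : ℂ)) x) • (u : ℤ_[2] → seqHilbert) x) → inner ℂ u' F = 0) :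
    ∀ᵐ x ∂haarTwoAdic, inner ℂ ((u : ℤ_[2] → seqHilbert) x) ((F : ℤ_[2] → seqHilbert) x) = 0 := by
  set hh : ℤ_[2] → ℂ := fun x => inner ℂ ((u : ℤ_[2] → seqHilbert) x) ((F : ℤ_[2] → seqHilbert) x)
    with hhdef
  have hint : Integrable hh haarTwoAdic := L2.integrable_inner u F
  have hzero : hh =ᵐ[haarTwoAdic] 0 := by
    apply hint.ae_eq_zero_of_forall_setIntegral_eq_zero
    intro E hE _
    obtain ⟨u', hu'⟩ := exists_cut E hE u
    have h1 := h E hE u' hu'
    rw [L2.inner_def] at h1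
    rw [← h1, ← integral_indicator hE]
    apply integral_congr_ae
    filter_upwards [hu'] with x hx
    rw [hx]
    by_cases hxE : x ∈ E
    · simp [Set.indicator_of_mem hxE, hhdef]
    · simp [Set.indicator_of_notMem hxE]
  filter_upwards [hzero] with x hx
  exact hx

theorem claim_zero (W : Submodule ℂ fibreSpace)
    (hS : ∀ f ∈ W, gS f ∈ W)
    (hM : ∀ g : ℤ_[2] → ℂ, Measurable g → (∃ C : ℝ, ∀ x, ‖g x‖ ≤ C) →
          ∀ f ∈ W, ∀ f' : fibreSpace,
            (∀ᵐ x ∂haarTwoAdic, (f' : ℤ_[2] → seqHilbert) x = g x • (f : ℤ_[2] → seqHilbert) x) → f' ∈ W)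
    (F : fibreSpace) (hF : ∀ u ∈ W, inner ℂ u F = 0) (u : fibreSpace) (hu : u ∈ W) :
    ∀ᵐ x ∂haarTwoAdic, ∀ i j : ℤ, i < j →
      ((u : ℤ_[2] → seqHilbert) x : ℤ → ℂ) i = 0 ∨ ((F : ℤ_[2] → seqHilbert) x : ℤ → ℂ) j = 0 := by
  have hpow : ∀ n : ℕ, (gS ^ n) u ∈ W := by
    intro n
    induction n with
    | zero => simpa using hu
    | succ n ih =>
      rw [pow_succ']
      exact hS _ ih
  have h1 : ∀ᵐ x ∂haarTwoAdic, ∀ n : ℕ,
      inner ℂ (((Sfib x) ^ n) ((u : ℤ_[2] → seqHilbert) x)) ((F : ℤ_[2] → seqHilbert) x) = 0 := by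
    rw [ae_all_iff]
    intro n
    have h2 := fib_orth ((gS ^ n) u) F (fun E hE u' hu' => hF u' (hM _
      (measurable_const.indicator hE) ⟨1, fun x => by
        by_cases hx : x ∈ E
        · simp [Set.indicator_of_mem hx]
        · simp [Set.indicator_of_notMem hx]⟩ _ (hpow n) u' hu'))
    filter_upwards [h2, gS_pow_ae n u] with x hx1 hx2
    rw [← hx2]
    exact hx1
  filter_upwards [h1] with x hx i j hij
  exact fibre_sep (fun l => 10 * aw (g0 x) l)
    (fun l => by have := aw_ge_one (g0 x) l; linarith) (scales10 x) _ _ hx i j hij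

theorem claim_k (W : Submodule ℂ fibreSpace)
    (hS : ∀ f ∈ W, gS f ∈ W) (hV : ∀ f ∈ W, gV f ∈ W)
    (hM : ∀ g : ℤ_[2] → ℂ, Measurable g → (∃ C : ℝ, ∀ x, ‖g x‖ ≤ C) →
          ∀ f ∈ W, ∀ f' : fibreSpace,
            (∀ᵐ x ∂haarTwoAdic, (f' : ℤ_[2] → seqHilbert) x = g x • (f : ℤ_[2] → seqHilbert) x) → f' ∈ W)
    (F : fibreSpace) (hF : ∀ u ∈ W, inner ℂ u F = 0) (k : ℕ) : ∀ u ∈ W,
    ∀ᵐ x ∂haarTwoAdic, ∀ i j : ℤ, i - k < j →
      ((u : ℤ_[2] → seqHilbert) x : ℤ → ℂ) i = 0 ∨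
        ((F : ℤ_[2] → seqHilbert) (x + (k : ℤ_[2])) : ℤ → ℂ) j = 0 := by
  induction k with
  | zero =>
    intro u hu
    filter_upwards [claim_zero W hS hM F hF u hu] with x hx i j hij
    simpa using hx i j (by simpa using hij)
  | succ k ih =>
    intro u hu
    have h1 := ae_add_one_of_ae (ih (gV u) (hV u hu))
    filter_upwards [h1, gV_ae u, good2_ae] with x hx1 hx2 hg i j hij
    have h3 := hx1 (i - 1) j (by push_cast at hij; linarith)
    rw [hx2, Vfib_apply] at h3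
    simp only [sub_add_cancel] at h3
    rcases h3 with h3 | h3
    · left
      rcases mul_eq_zero.1 h3 with h4 | h4
      · exact absurd (by exact_mod_cast h4) (bw_pos hg i).ne'
      · exact h4
    · right
      have : x + ((k + 1 : ℕ) : ℤ_[2]) = x + 1 + (k : ℤ_[2]) := by push_cast; ring
      rw [this]; exact h3

theorem mp_add_nat (k : ℕ) :
    MeasurePreserving (fun x : ℤ_[2] => x + (k : ℤ_[2])) haarTwoAdic haarTwoAdic := by
  induction k with
  | zero =>
    have h : (fun x : ℤ_[2] => x + ((0 : ℕ) : ℤ_[2])) = id := by funext x; simp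
    rw [h]; exact MeasurePreserving.id haarTwoAdic
  | succ k ih =>
    have := mp_add_one.comp ih
    convert this using 1
    funext x
    simp only [Function.comp]
    push_cast; ring

theorem exists_column (u : fibreSpace) (hu : u ≠ 0) :
    ∃ i : ℤ, ¬ ∀ᵐ x ∂haarTwoAdic, ((u : ℤ_[2] → seqHilbert) x : ℤ → ℂ) i = 0 := by
  by_contra hcon
  push Not at hcon
  apply hu
  rw [Lp.eq_zero_iff_ae_eq_zero]
  filter_upwards [ae_all_iff.2 hcon] with x hx
  apply seq_ext
  intro j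
  rw [hx j]
  rfl

theorem main (W : Submodule ℂ fibreSpace) (hW : IsClosed (W : Set fibreSpace))
    (hS : ∀ f ∈ W, gS f ∈ W) (hV : ∀ f ∈ W, gV f ∈ W)
    (hM : ∀ g : ℤ_[2] → ℂ, Measurable g → (∃ C : ℝ, ∀ x, ‖g x‖ ≤ C) →
          ∀ f ∈ W, ∀ f' : fibreSpace,
            (∀ᵐ x ∂haarTwoAdic, (f' : ℤ_[2] → seqHilbert) x = g x • (f : ℤ_[2] → seqHilbert) x) → f' ∈ W) :
    W = ⊥ ∨ W = ⊤ := by
  by_contra hcon
  push Not at hcon
  obtain ⟨hbot, htop⟩ := hcon
  obtain ⟨f, hfW, hf0⟩ := (Submodule.ne_bot_iff W).1 hbot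
  have : CompleteSpace W := hW.completeSpace_coe
  have horth : Wᗮ ≠ ⊥ := fun h => htop ((Submodule.orthogonal_eq_bot_iff).1 h)
  obtain ⟨F, hFW, hF0⟩ := (Submodule.ne_bot_iff _).1 horth
  have hF : ∀ u ∈ W, inner ℂ u F = 0 := fun u hu => (Submodule.mem_orthogonal W F).1 hFW u hu
  obtain ⟨i, hi⟩ := exists_column f hf0
  obtain ⟨j, hj⟩ := exists_column F hF0
  set k₀ : ℕ := (i - j + 1).toNat with hk₀
  have hk₀' : i - k₀ < j := by
    have := Int.self_le_toNat (i - j + 1)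
    omega
  set B : Set ℤ_[2] := {x | ((F : ℤ_[2] → seqHilbert) x : ℤ → ℂ) j ≠ 0} with hB
  have hBm : MeasurableSet B := by
    have h1 : Measurable fun x : ℤ_[2] => ((F : ℤ_[2] → seqHilbert) x : ℤ → ℂ) j := by
      have h2 := ((seqEval j).continuous.comp_stronglyMeasurable (Lp.stronglyMeasurable F)).measurable
      have h3 : (fun x : ℤ_[2] => ((F : ℤ_[2] → seqHilbert) x : ℤ → ℂ) j) =
          fun x => seqEval j ((F : ℤ_[2] → seqHilbert) x) := by
        funext x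
        rw [seqEval_apply]
      rw [h3]
      exact h2
    exact h1 (MeasurableSet.singleton (0 : ℂ)).compl
  set C : Set ℤ_[2] := ⋃ k : ℕ, ⋃ _ : k₀ ≤ k, (fun x : ℤ_[2] => x + (k : ℤ_[2])) ⁻¹' B with hC
  have hCm : MeasurableSet C :=
    MeasurableSet.iUnion fun k => MeasurableSet.iUnion fun _ => (mp_add_nat k).measurable hBm
  have hCinv : (fun x : ℤ_[2] => x + 1) ⁻¹' C ⊆ C := by
    intro x hx
    simp only [hC, Set.mem_preimage, Set.mem_iUnion] at hx ⊢
    obtain ⟨k, hk, hxk⟩ := hx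
    refine ⟨k + 1, by omega, ?_⟩
    have : x + ((k + 1 : ℕ) : ℤ_[2]) = x + 1 + (k : ℤ_[2]) := by push_cast; ring
    rw [this]; exact hxk
  rcases ergodic_add_one.ae_empty_or_univ_of_preimage_ae_le hCm.nullMeasurableSet
    (Filter.Eventually.of_forall hCinv) with hCe | hCu
  · apply hj
    have h1 : haarTwoAdic C = 0 := by
      rw [measure_congr hCe]; simp
    have h2 : haarTwoAdic ((fun x : ℤ_[2] => x + (k₀ : ℤ_[2])) ⁻¹' B) = 0 := by
      apply measure_mono_null _ h1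
      intro x hx
      simp only [hC, Set.mem_iUnion]
      exact ⟨k₀, le_refl _, hx⟩
    rw [(mp_add_nat k₀).measure_preimage hBm.nullMeasurableSet] at h2
    rw [ae_iff]
    exact h2
  · apply hi
    have h1 : ∀ᵐ x ∂haarTwoAdic, x ∈ C := by
      have := hCu.mem_iff
      filter_upwards [this] with x hx
      exact hx.2 trivial
    have h2 : ∀ᵐ x ∂haarTwoAdic, ∀ k : ℕ, ∀ i j : ℤ, i - k < j →
        ((f : ℤ_[2] → seqHilbert) x : ℤ → ℂ) i = 0 ∨
          ((F : ℤ_[2] → seqHilbert) (x + (k : ℤ_[2])) : ℤ → ℂ) j = 0 :=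
      ae_all_iff.2 fun k => claim_k W hS hV hM F hF k f hfW
    filter_upwards [h1, h2] with x hx1 hx2
    simp only [hC, Set.mem_iUnion] at hx1
    obtain ⟨k, hk, hxk⟩ := hx1
    rcases hx2 k i j (by have : (k₀ : ℤ) ≤ k := by exact_mod_cast hk
                         linarith) with h3 | h3
    · exact h3
    · exact absurd h3 hxk

end Crest.Agent.HJ
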