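import Mathlib
import Crest.Prelude.Def_TwoAdicShift

/-! # S0150 project (HJ), package A: toolbox for `ℓ²(ℤ)` -/

set_option autoImplicit false

namespace Crest.Agent.HJ

open Crest.AnalysisR.TwoAdic
open scoped ENNReal

theorem seq_two_toReal : (0 : ℝ) < (2 : ℝ≥0∞).toReal := by norm_num

theorem seq_summable_sq (v : seqHilbert) : Summable fun j : ℤ => ‖(v : ℤ → ℂ) j‖ ^ 2 := by
  have h := (lp.memℓp v).summable seq_two_toReal
  simpa using h

theorem seq_norm_sq (v : seqHilbert) : ‖v‖ ^ 2 = ∑' j : ℤ, ‖(v : ℤ → ℂ) j‖ ^ 2 := by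
  have h := lp.norm_rpow_eq_tsum seq_two_toReal v
  simpa using h

/-- norm comparison from a coordinatewise bound after a shift. -/
theorem seq_norm_le_of_shift (u v : seqHilbert) (c : ℝ) (hc : 0 ≤ c) (s : ℤ)
    (h : ∀ j, ‖(u : ℤ → ℂ) j‖ ≤ c * ‖(v : ℤ → ℂ) (j - s)‖) : ‖u‖ ≤ c * ‖v‖ := by
  have hsv : Summable fun j : ℤ => ‖(v : ℤ → ℂ) (j - s)‖ ^ 2 :=
    (Equiv.subRight s).summable_iff.2 (seq_summable_sq v)
  have h1 : ∑' j : ℤ, ‖(u : ℤ → ℂ) j‖ ^ 2 ≤ ∑' j : ℤ, c ^ 2 * ‖(v : ℤ → ℂ) (j - s)‖ ^ 2 := by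
    refine (seq_summable_sq u).tsum_le_tsum (fun j => ?_) (hsv.mul_left _)
    rw [← mul_pow]
    exact pow_le_pow_left₀ (norm_nonneg _) (h j) 2
  have h2 : ∑' j : ℤ, ‖(v : ℤ → ℂ) (j - s)‖ ^ 2 = ∑' j : ℤ, ‖(v : ℤ → ℂ) j‖ ^ 2 :=
    (Equiv.subRight s).tsum_eq (fun j : ℤ => ‖(v : ℤ → ℂ) j‖ ^ 2)
  rw [tsum_mul_left, h2, ← seq_norm_sq, ← seq_norm_sq, ← mul_pow] at h1
  exact (pow_le_pow_iff_left₀ (norm_nonneg _) (mul_nonneg hc (norm_nonneg _)) two_ne_zero).1 h1

/-- clamping to `[0,1]`. -/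
noncomputable def seq_clamp (t : ℝ) : ℝ := max 0 (min 1 t)

theorem seq_clamp_nonneg (t : ℝ) : 0 ≤ seq_clamp t := le_max_left _ _

theorem seq_clamp_le_one (t : ℝ) : seq_clamp t ≤ 1 :=
  max_le zero_le_one (min_le_left _ _)

theorem seq_clamp_eq {t : ℝ} (h : 0 ≤ t ∧ t ≤ 1) : seq_clamp t = t := by
  unfold seq_clamp
  rw [min_eq_right h.2, max_eq_right h.1]

theorem seq_wsh_mem (w : ℤ → ℝ) (s : ℤ) (v : seqHilbert) :
    Memℓp (fun j : ℤ => ((seq_clamp (w (j - s)) : ℝ) : ℂ) * (v : ℤ → ℂ) (j - s)) 2 := by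
  apply memℓp_gen
  have hsv : Summable fun j : ℤ => ‖(v : ℤ → ℂ) (j - s)‖ ^ 2 :=
    (Equiv.subRight s).summable_iff.2 (seq_summable_sq v)
  have : Summable fun j : ℤ =>
      ‖((seq_clamp (w (j - s)) : ℝ) : ℂ) * (v : ℤ → ℂ) (j - s)‖ ^ 2 := by
    refine Summable.of_nonneg_of_le (fun j => by positivity) (fun j => ?_) hsv
    refine pow_le_pow_left₀ (norm_nonneg _) ?_ 2
    rw [norm_mul, Complex.norm_real, Real.norm_eq_abs, abs_of_nonneg (seq_clamp_nonneg _)]
    exact mul_le_of_le_one_left (norm_nonneg _) (seq_clamp_le_one _)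
  simpa using this

/-- the linear map underlying `wsh`. -/
noncomputable def seq_wshₗ (w : ℤ → ℝ) (s : ℤ) : seqHilbert →ₗ[ℂ] seqHilbert where
  toFun v := ⟨fun j : ℤ => ((seq_clamp (w (j - s)) : ℝ) : ℂ) * (v : ℤ → ℂ) (j - s), seq_wsh_mem w s v⟩
  map_add' u v := by
    apply lp.ext
    funext j
    simp [mul_add]
  map_smul' c v := by
    apply lp.ext
    funext j
    simp [mul_left_comm]

theorem seq_wshₗ_apply (w : ℤ → ℝ) (s : ℤ) (v : seqHilbert) (j : ℤ) :
    (seq_wshₗ w s v : ℤ → ℂ) j = ((seq_clamp (w (j - s)) : ℝ) : ℂ) * (v : ℤ → ℂ) (j - s) := rfl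

theorem seq_wshₗ_norm_le (w : ℤ → ℝ) (s : ℤ) (v : seqHilbert) : ‖seq_wshₗ w s v‖ ≤ 1 * ‖v‖ := by
  refine seq_norm_le_of_shift _ v 1 zero_le_one s (fun j => ?_)
  rw [seq_wshₗ_apply, norm_mul, Complex.norm_real, Real.norm_eq_abs,
    abs_of_nonneg (seq_clamp_nonneg _)]
  exact mul_le_mul_of_nonneg_right (seq_clamp_le_one _) (norm_nonneg _)

/-- weighted shift by `s` on `ℓ²(ℤ)`: `(wsh w s v) j = w (j - s) * v (j - s)`; the weights are clamped to `[0,1]`
(e.g. replace `w j` by `max 0 (min 1 (w j))`) so that no boundedness proof is carried around. -/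
noncomputable def wsh (w : ℤ → ℝ) (s : ℤ) : seqHilbert →L[ℂ] seqHilbert :=
  (seq_wshₗ w s).mkContinuous 1 (seq_wshₗ_norm_le w s)

/-- the clamped version, valid for all `w` (needed for measurability in package D1). -/
theorem wsh_apply' (w : ℤ → ℝ) (s : ℤ) (v : seqHilbert) (j : ℤ) :
    (wsh w s v : ℤ → ℂ) j = ((max 0 (min 1 (w (j - s))) : ℝ) : ℂ) * (v : ℤ → ℂ) (j - s) := rfl

theorem wsh_apply (w : ℤ → ℝ) (hw : ∀ j, 0 ≤ w j ∧ w j ≤ 1) (s : ℤ) (v : seqHilbert) (j : ℤ) :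
    (wsh w s v : ℤ → ℂ) j = (w (j - s) : ℂ) * (v : ℤ → ℂ) (j - s) := by
  rw [wsh_apply']
  have := seq_clamp_eq (hw (j - s))
  unfold seq_clamp at this
  rw [this]

theorem wsh_norm_le (w : ℤ → ℝ) (s : ℤ) (v : seqHilbert) : ‖wsh w s v‖ ≤ ‖v‖ := by
  have := seq_wshₗ_norm_le w s v
  rw [one_mul] at this
  exact this

theorem basisVec_apply (i j : ℤ) : (basisVec i : ℤ → ℂ) j = if j = i then 1 else 0 := by
  unfold basisVec
  rw [lp.single_apply, Pi.single_apply]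

theorem norm_basisVec (i : ℤ) : ‖basisVec i‖ = 1 := by
  unfold basisVec
  rw [lp.norm_single (by norm_num)]
  simp

theorem seq_ext {u v : seqHilbert} (h : ∀ j, (u : ℤ → ℂ) j = (v : ℤ → ℂ) j) : u = v :=
  lp.ext (funext h)

theorem wsh_basisVec (w : ℤ → ℝ) (hw : ∀ j, 0 ≤ w j ∧ w j ≤ 1) (s j : ℤ) :
    wsh w s (basisVec j) = (w j : ℂ) • basisVec (j + s) := by
  apply seq_ext
  intro i
  rw [wsh_apply w hw, lp.coeFn_smul, Pi.smul_apply, basisVec_apply, basisVec_apply, smul_eq_mul]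
  by_cases h : i = j + s
  · have h' : i - s = j := by omega
    rw [if_pos h, if_pos h', h']
  · have h' : ¬ i - s = j := by omega
    rw [if_neg h, if_neg h']
    simp

theorem seq_inner (u v : seqHilbert) :
    inner ℂ u v = ∑' j : ℤ, (starRingEnd ℂ ((u : ℤ → ℂ) j)) * (v : ℤ → ℂ) j := by
  rw [lp.inner_eq_tsum]
  apply tsum_congr
  intro j
  simp [mul_comm]

theorem seq_hasSum (v : seqHilbert) : HasSum (fun j : ℤ => (v : ℤ → ℂ) j • basisVec j) v := by
  have h := lp.hasSum_single (p := 2) (by norm_num) v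
  convert h using 2 with j
  unfold basisVec
  rw [← lp.single_smul]
  simp

/-- evaluation at a coordinate as a continuous linear functional. -/
noncomputable def seqEval (j : ℤ) : seqHilbert →L[ℂ] ℂ :=
  lp.evalCLM ℂ (fun _ : ℤ => ℂ) 2 j

theorem seqEval_apply (j : ℤ) (v : seqHilbert) : seqEval j v = (v : ℤ → ℂ) j := rfl

theorem isClosed_tailSpace (h : ℤ) : IsClosed (tailSpace h : Set seqHilbert) :=
  Submodule.isClosed_topologicalClosure _

theorem seq_basisVec_mem_tailSpace {h j : ℤ} (hj : h ≤ j) : basisVec j ∈ tailSpace h := by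
  unfold tailSpace
  apply Submodule.le_topologicalClosure
  apply Submodule.subset_span
  exact ⟨⟨j, hj⟩, rfl⟩

theorem mem_tailSpace_iff (h : ℤ) (v : seqHilbert) :
    v ∈ tailSpace h ↔ ∀ j, j < h → (v : ℤ → ℂ) j = 0 := by
  constructor
  · intro hv j hj
    have hle : tailSpace h ≤ LinearMap.ker (seqEval j).toLinearMap := by
      unfold tailSpace
      apply Submodule.topologicalClosure_minimal
      · rw [Submodule.span_le]
        rintro _ ⟨⟨i, hi⟩, rfl⟩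
        simp only [SetLike.mem_coe, LinearMap.mem_ker, ContinuousLinearMap.coe_coe, seqEval_apply]
        rw [basisVec_apply, if_neg]
        omega
      · exact (seqEval j).isClosed_ker
    have := hle hv
    simpa [LinearMap.mem_ker, seqEval_apply] using this
  · intro hv
    have hs := seq_hasSum v
    refine (isClosed_tailSpace h).mem_of_tendsto hs (Filter.Eventually.of_forall fun s => ?_)
    refine Submodule.sum_mem _ (fun j _ => ?_)
    by_cases hj : j < h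
    · rw [hv j hj, zero_smul]
      exact Submodule.zero_mem _
    · exact Submodule.smul_mem _ _ (seq_basisVec_mem_tailSpace (not_lt.1 hj))

end Crest.Agent.HJ
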