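import Mathlib

/-! # S0151 project (HK), package F1: `cfc log` as a power series -/

set_option autoImplicit false

namespace Crest.Agent.HK

variable {H : Type*} [NormedAddCommGroup H] [InnerProductSpace ℂ H] [CompleteSpace H]

/-- `log (C (1 - Y)) = log C - ∑ Y^k / k`, with a norm estimate for the partial sums. -/
theorem fk_log_series (Y : H →L[ℂ] H) (hY : IsSelfAdjoint Y) (ρ : ℝ) (hρ : ρ < 1) (hYρ : ‖Y‖ ≤ ρ)
    (C : ℝ) (hC : 0 < C) (n : ℕ) :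
    ‖cfc Real.log (((C : ℝ) : ℂ) • (1 - Y)) - (((Real.log C : ℝ) : ℂ) • (1 : H →L[ℂ] H) -
      ∑ k ∈ Finset.range n, ((((k : ℝ) + 1)⁻¹ : ℝ) : ℂ) • Y ^ (k + 1))‖ ≤ ρ ^ (n + 1) / (1 - ρ) := by
  classical
  have hρ0 : 0 ≤ ρ := (norm_nonneg Y).trans hYρ
  have h1ρ : 0 < 1 - ρ := by linarith
  have hbound : 0 ≤ ρ ^ (n + 1) / (1 - ρ) := by positivity
  rcases subsingleton_or_nontrivial (H →L[ℂ] H) with hs | hn
  · rw [Subsingleton.elim (cfc Real.log (((C : ℝ) : ℂ) • (1 - Y)) -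
      (((Real.log C : ℝ) : ℂ) • (1 : H →L[ℂ] H) -
      ∑ k ∈ Finset.range n, ((((k : ℝ) + 1)⁻¹ : ℝ) : ℂ) • Y ^ (k + 1))) 0, norm_zero]
    exact hbound
  have hsp : ∀ x ∈ spectrum ℝ Y, |x| ≤ ρ := fun x hx => by
    have := spectrum.norm_le_norm_of_mem hx
    simpa using this.trans hYρ
  have hpos : ∀ y ∈ spectrum ℝ Y, 0 < C * (1 - y) := fun y hy => by
    have := hsp y hy
    have hy1 : y < 1 := lt_of_le_of_lt (le_abs_self y) (this.trans_lt hρ)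
    exact mul_pos hC (by linarith)
  have h1 : ((C : ℝ) : ℂ) • (1 - Y) = cfc (fun y : ℝ => C * (1 - y)) Y := by
    rw [cfc_const_mul C (fun y : ℝ => 1 - y) Y, cfc_sub (fun _ : ℝ => (1:ℝ)) (fun y : ℝ => y) Y,
      cfc_const_one ℝ Y, cfc_id' ℝ Y, Complex.coe_smul]
  have hc1 : ContinuousOn Real.log ((fun y : ℝ => C * (1 - y)) '' spectrum ℝ Y) := by
    intro z hz
    obtain ⟨y, hy, rfl⟩ := hz
    exact (Real.continuousAt_log (hpos y hy).ne').continuousWithinAt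
  have hc2 : ContinuousOn (fun y : ℝ => Real.log (C * (1 - y))) (spectrum ℝ Y) := by
    intro y hy
    have h : ContinuousAt (fun y : ℝ => C * (1 - y)) y := by fun_prop
    exact (h.log (hpos y hy).ne').continuousWithinAt
  have hc3 : ContinuousOn (fun y : ℝ => Real.log C -
      ∑ k ∈ Finset.range n, ((k : ℝ) + 1)⁻¹ * y ^ (k + 1)) (spectrum ℝ Y) := by
    fun_prop
  have h2 : cfc Real.log (((C : ℝ) : ℂ) • (1 - Y)) = cfc (fun y : ℝ => Real.log (C * (1 - y))) Y := by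
    rw [h1, ← cfc_comp' Real.log (fun y : ℝ => C * (1 - y)) Y hc1]
  have h4 : cfc (fun y : ℝ => ∑ k ∈ Finset.range n, ((k : ℝ) + 1)⁻¹ * y ^ (k + 1)) Y =
      ∑ k ∈ Finset.range n, ((((k : ℝ) + 1)⁻¹ : ℝ) : ℂ) • Y ^ (k + 1) := by
    have hs : (fun y : ℝ => ∑ k ∈ Finset.range n, ((k : ℝ) + 1)⁻¹ * y ^ (k + 1)) =
        ∑ k ∈ Finset.range n, (fun y : ℝ => ((k : ℝ) + 1)⁻¹ * y ^ (k + 1)) := by
      ext y; simp
    rw [hs, cfc_sum (fun (k : ℕ) (y : ℝ) => ((k : ℝ) + 1)⁻¹ * y ^ (k + 1)) Y (Finset.range n)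
      (fun k _ => by fun_prop)]
    refine Finset.sum_congr rfl fun k _ => ?_
    rw [cfc_const_mul _ (fun y : ℝ => y ^ (k+1)) Y, cfc_pow_id (R := ℝ) Y, Complex.coe_smul]
  have h3 : (((Real.log C : ℝ) : ℂ) • (1 : H →L[ℂ] H) -
      ∑ k ∈ Finset.range n, ((((k : ℝ) + 1)⁻¹ : ℝ) : ℂ) • Y ^ (k + 1)) =
      cfc (fun y : ℝ => Real.log C - ∑ k ∈ Finset.range n, ((k : ℝ) + 1)⁻¹ * y ^ (k + 1)) Y := by
    rw [cfc_sub (fun _ : ℝ => Real.log C)
      (fun y : ℝ => ∑ k ∈ Finset.range n, ((k : ℝ) + 1)⁻¹ * y ^ (k + 1)) Y (by fun_prop) (by fun_prop),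
      cfc_const (Real.log C) Y, h4, Algebra.algebraMap_eq_smul_one, Complex.coe_smul]
  rw [h2, h3, ← cfc_sub (fun y : ℝ => Real.log (C * (1 - y))) _ Y hc2 hc3]
  refine norm_cfc_le hbound fun y hy => ?_
  have hyρ := hsp y hy
  have hy1 : |y| < 1 := hyρ.trans_lt hρ
  have hy1' : y < 1 := lt_of_le_of_lt (le_abs_self y) hy1
  have key := Real.abs_log_sub_add_sum_range_le hy1 n
  have e : Real.log (C * (1 - y)) - (Real.log C - ∑ k ∈ Finset.range n, ((k : ℝ) + 1)⁻¹ * y ^ (k + 1))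
      = (∑ i ∈ Finset.range n, y ^ (i + 1) / ((i : ℝ) + 1)) + Real.log (1 - y) := by
    rw [Real.log_mul hC.ne' (by linarith)]
    have : ∑ k ∈ Finset.range n, ((k : ℝ) + 1)⁻¹ * y ^ (k + 1) =
        ∑ i ∈ Finset.range n, y ^ (i + 1) / ((i : ℝ) + 1) :=
      Finset.sum_congr rfl fun k _ => by rw [div_eq_mul_inv, mul_comm]
    rw [this]; ring
  rw [Real.norm_eq_abs, e]
  refine key.trans ?_
  have h1y : 0 < 1 - |y| := by linarith
  calc |y| ^ (n + 1) / (1 - |y|) ≤ ρ ^ (n + 1) / (1 - |y|) := by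
        gcongr
    _ ≤ ρ ^ (n + 1) / (1 - ρ) := by
        gcongr

end Crest.Agent.HK
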