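import Crest.Agent.Lib_HK_FK2p

/-! # S0151 project (HK), package F2: the abstract Fuglede–Kadison lemma (main part) -/

set_option autoImplicit false

namespace Crest.Agent.HK

open Filter Topology

variable {H : Type*} [NormedAddCommGroup H] [InnerProductSpace ℂ H] [CompleteSpace H]

theorem deriv_id (ξ : H) (𝒞 : Subalgebra ℂ (H →L[ℂ] H))
    (htrc : ∀ X ∈ 𝒞, ∀ Y ∈ 𝒞, tau ξ (X * Y) = tau ξ (Y * X))
    (R G A : H →L[ℂ] H) (hRs : star R ∈ 𝒞) (hG : G ∈ 𝒞) (hGs : star G ∈ 𝒞)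
    (hA : A ∈ 𝒞)
    (hGA : G * A = 1) (hAG : A * G = 1) (h0 : tau ξ (G * R) = 0) (h0' : tau ξ (R * G) = 0)
    (C : ℝ) (hC : 0 < C) (n : ℕ) :
    ∑ k ∈ Finset.range n, tau ξ (((1 : H →L[ℂ] H) - ((C⁻¹ : ℝ) : ℂ) • (star A * A)) ^ k *
      (-(((C⁻¹ : ℝ) : ℂ) • ((-star R) * A + star A * (-R))))) =
    tau ξ (((1 : H →L[ℂ] H) - ((C⁻¹ : ℝ) : ℂ) • (star A * A)) ^ n *
      (G * star G * ((-star R) * A + star A * (-R)))) := by
  set Y : H →L[ℂ] H := (1 : H →L[ℂ] H) - ((C⁻¹ : ℝ) : ℂ) • (star A * A) with hY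
  set B' : H →L[ℂ] H := (-star R) * A + star A * (-R) with hB'
  have hCC : ((C : ℝ) : ℂ) ≠ 0 := by exact_mod_cast hC.ne'
  have hsGA : star A * star G = 1 := by rw [← star_mul, hGA, star_one]
  have hsAG : star G * star A = 1 := by rw [← star_mul, hAG, star_one]
  have h1 : (∑ k ∈ Finset.range n, Y ^ k) * (1 - Y) = 1 - Y ^ n := geom_sum_mul_neg Y n
  have h2 : (1 - Y) * (((C : ℝ) : ℂ) • (G * star G)) = 1 := by
    have : (1 : H →L[ℂ] H) - Y = ((C⁻¹ : ℝ) : ℂ) • (star A * A) := by rw [hY]; abel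
    rw [this, smul_mul_smul_comm]
    have e1 : star A * A * (G * star G) = 1 := by
      rw [mul_assoc, ← mul_assoc A G, hAG, one_mul, hsGA]
    rw [e1]
    have e2 : ((C⁻¹ : ℝ) : ℂ) * ((C : ℝ) : ℂ) = 1 := by
      push_cast
      exact inv_mul_cancel₀ hCC
    rw [e2, one_smul]
  have h3 : (∑ k ∈ Finset.range n, Y ^ k) = (1 - Y ^ n) * (((C : ℝ) : ℂ) • (G * star G)) := by
    rw [← h1, mul_assoc, h2, mul_one]
  have h4 : tau ξ (G * star G * B') = 0 := by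
    rw [hB', mul_add, map_add]
    have e1 : G * star G * (star A * (-R)) = -(G * R) := by
      rw [mul_assoc, ← mul_assoc (star G), hsAG, one_mul, mul_neg]
    have e2 : tau ξ (G * star G * (-star R * A)) = -tau ξ (star (R * G)) := by
      have : G * star G * (-star R * A) = (G * (star G * (-star R))) * A := by
        simp only [mul_assoc]
      rw [this, htrc _ (Subalgebra.mul_mem _ hG (Subalgebra.mul_mem _ hGs
        (Subalgebra.neg_mem _ hRs))) _ hA, ← mul_assoc, hAG, one_mul, mul_neg, map_neg, star_mul]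
    rw [e1, e2, map_neg, h0, tau_star, h0']
    simp
  have h5 : ∑ k ∈ Finset.range n, tau ξ (Y ^ k * (-(((C⁻¹ : ℝ) : ℂ) • B'))) =
      tau ξ ((∑ k ∈ Finset.range n, Y ^ k) * (-(((C⁻¹ : ℝ) : ℂ) • B'))) := by
    rw [Finset.sum_mul, map_sum]
  rw [h5, h3]
  have h6 : (1 - Y ^ n) * (((C : ℝ) : ℂ) • (G * star G)) * (-(((C⁻¹ : ℝ) : ℂ) • B')) =
      Y ^ n * (G * star G * B') - G * star G * B' := by
    have e2 : ((C : ℝ) : ℂ) * ((C⁻¹ : ℝ) : ℂ) = 1 := by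
      push_cast
      exact mul_inv_cancel₀ hCC
    rw [mul_assoc, mul_neg, smul_mul_smul_comm, e2, one_smul, sub_mul, one_mul, mul_neg]
    abel
  rw [h6, map_sub, h4, sub_zero]


theorem fk_limit (f : ℕ → ℝ → ℂ) (d : ℕ → ℝ → ℂ) (hf : ∀ n t, HasDerivAt (f n) (d n t) t)
    (ρ E E' : ℝ) (hρ0 : 0 ≤ ρ) (hρ1 : ρ < 1)
    (hd : ∀ n, ∀ t ∈ Set.Icc (0:ℝ) 1, ‖d n t‖ ≤ E * ρ ^ n)
    (L0 L1 : ℂ) (h0 : ∀ n, ‖L0 - f n 0‖ ≤ E' * ρ ^ n) (h1 : ∀ n, ‖L1 - f n 1‖ ≤ E' * ρ ^ n) :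
    L1 = L0 := by
  have hb : ∀ n, ‖L1 - L0‖ ≤ (E + 2 * E') * ρ ^ n := by
    intro n
    have hm : ‖f n 1 - f n 0‖ ≤ E * ρ ^ n :=
      norm_image_sub_le_of_norm_deriv_le_segment_01' (fun t _ => (hf n t).hasDerivWithinAt)
        (fun t ht => hd n t ⟨ht.1, ht.2.le⟩)
    have e : L1 - L0 = (L1 - f n 1) + (f n 1 - f n 0) - (L0 - f n 0) := by ring
    rw [e]
    have a1 := norm_sub_le ((L1 - f n 1) + (f n 1 - f n 0)) (L0 - f n 0)
    have a2 := norm_add_le (L1 - f n 1) (f n 1 - f n 0)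
    have a3 := h0 n
    have a4 := h1 n
    linarith
  have ht : Tendsto (fun n : ℕ => (E + 2 * E') * ρ ^ n) atTop (𝓝 0) := by
    simpa using (tendsto_pow_atTop_nhds_zero_of_lt_one hρ0 hρ1).const_mul (E + 2 * E')
  have : ‖L1 - L0‖ ≤ 0 := ge_of_tendsto' ht hb
  exact sub_eq_zero.mp (norm_le_zero_iff.mp this)

theorem pow_norm_le (X : H →L[ℂ] H) (ρ : ℝ) (h : ‖X‖ ≤ ρ) (n : ℕ) : ‖X ^ n‖ ≤ ρ ^ n := by
  have hρ : 0 ≤ ρ := (norm_nonneg _).trans h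
  induction n with
  | zero =>
    rw [pow_zero, pow_zero]
    exact ContinuousLinearMap.norm_id_le
  | succ n ih =>
    rw [pow_succ, pow_succ]
    calc ‖X ^ n * X‖ ≤ ‖X ^ n‖ * ‖X‖ := norm_mul_le _ _
      _ ≤ ρ ^ n * ρ := by gcongr

set_option maxHeartbeats 1600000 in
theorem fk_main (ξ : H) (R : H →L[ℂ] H) (𝒜 : Subalgebra ℂ (H →L[ℂ] H))
    (hR : R ∈ 𝒜) (hR' : star R ∈ 𝒜)
    (htr : ∀ X ∈ 𝒜, ∀ Y ∈ 𝒜, inner ℂ ξ ((X * Y) ξ) = inner ℂ ξ ((Y * X) ξ))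
    (hzero : ∀ n : ℕ, 1 ≤ n → inner ℂ ξ ((R ^ n) ξ) = 0)
    (hsum : Summable fun n : ℕ => ‖R ^ n‖) :
    RCLike.re (inner ℂ ξ (cfc Real.log (star (1 - R) * (1 - R)) ξ)) = 0 := by
  have htrc := tau_closure ξ 𝒜 htr
  have hle := 𝒜.le_topologicalClosure
  have hK00 : 0 ≤ ∑' n, ‖R ^ n‖ := tsum_nonneg fun n => norm_nonneg _
  set K : ℝ := ∑' n, ‖R ^ n‖ + 1 with hK
  have hK0 : 0 < K := by positivity
  set c : ℝ := 1 / K ^ 2 with hc
  have hc0 : 0 < c := by positivity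
  set C : ℝ := (1 + ‖R‖) ^ 2 + c with hC
  have hC0 : 0 < C := by positivity
  have hcC : c ≤ C := by rw [hC]; nlinarith [sq_nonneg (1 + ‖R‖)]
  set ρ : ℝ := 1 - c / C with hρ
  have hρ1 : ρ < 1 := by rw [hρ]; have : 0 < c / C := by positivity
                         linarith
  have hρ0 : 0 ≤ ρ := by rw [hρ, sub_nonneg, div_le_one hC0]; exact hcC
  set A : ℝ → (H →L[ℂ] H) := fun t => 1 - (t : ℂ) • R with hA
  set Y : ℝ → (H →L[ℂ] H) := fun t => 1 - ((C⁻¹ : ℝ) : ℂ) • (star (A t) * A t) with hY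
  have hAs : ∀ t, star (A t) = 1 - (t : ℂ) • star R := by
    intro t
    simp only [hA, star_sub, star_one, star_smul]
    simp
  have hsm : ∀ (Z : H →L[ℂ] H) (t : ℝ), HasDerivAt (fun t : ℝ => (1 : H →L[ℂ] H) - (t : ℂ) • Z) (-Z) t := by
    intro Z t
    have h1 : HasDerivAt (fun t : ℝ => (t : ℂ)) 1 t := Complex.ofRealCLM.hasDerivAt
    have h2 := (h1.smul_const Z).const_sub (1 : H →L[ℂ] H)
    simpa using h2
  have hAd : ∀ t, HasDerivAt A (-R) t := fun t => hsm R t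
  have hAsd : ∀ t, HasDerivAt (fun t => star (A t)) (-star R) t := by
    intro t
    have : (fun t => star (A t)) = fun t : ℝ => (1 : H →L[ℂ] H) - (t : ℂ) • star R := funext hAs
    rw [this]
    exact hsm (star R) t
  set B' : ℝ → (H →L[ℂ] H) := fun t => (-star R) * A t + star (A t) * (-R) with hB'
  have hBd : ∀ t, HasDerivAt (fun t => star (A t) * A t) (B' t) t := fun t =>
    (hAsd t).fun_mul (hAd t)
  set Y' : ℝ → (H →L[ℂ] H) := fun t => -(((C⁻¹ : ℝ) : ℂ) • B' t) with hY'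
  have hYd : ∀ t, HasDerivAt Y (Y' t) t := by
    intro t
    have h1 := ((hBd t).fun_const_smul (((C⁻¹ : ℝ) : ℂ))).const_sub (1 : H →L[ℂ] H)
    exact h1
  have hAn : ∀ t ∈ Set.Icc (0 : ℝ) 1, ‖A t‖ ≤ 1 + ‖R‖ := by
    intro t ht
    calc ‖A t‖ ≤ ‖(1 : H →L[ℂ] H)‖ + ‖(t : ℂ) • R‖ := norm_sub_le _ _
      _ ≤ 1 + ‖R‖ := by
        gcongr
        · exact ContinuousLinearMap.norm_id_le
        · rw [norm_smul, Complex.norm_real, Real.norm_eq_abs, abs_of_nonneg ht.1]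
          exact mul_le_of_le_one_left (norm_nonneg _) ht.2
  have hAmem : ∀ t, A t ∈ 𝒜 := fun t =>
    Subalgebra.sub_mem _ (Subalgebra.one_mem _) (Subalgebra.smul_mem _ hR _)
  have hAsmem : ∀ t, star (A t) ∈ 𝒜 := fun t => by
    rw [hAs]
    exact Subalgebra.sub_mem _ (Subalgebra.one_mem _) (Subalgebra.smul_mem _ hR' _)
  have hYmem : ∀ t, Y t ∈ 𝒜 := fun t =>
    Subalgebra.sub_mem _ (Subalgebra.one_mem _)
      (Subalgebra.smul_mem _ (Subalgebra.mul_mem _ (hAsmem t) (hAmem t)) _)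
  have hB'mem : ∀ t, B' t ∈ 𝒜 := fun t =>
    Subalgebra.add_mem _ (Subalgebra.mul_mem _ (Subalgebra.neg_mem _ hR') (hAmem t))
      (Subalgebra.mul_mem _ (hAsmem t) (Subalgebra.neg_mem _ hR))
  have hY'mem : ∀ t, Y' t ∈ 𝒜 := fun t =>
    Subalgebra.neg_mem _ (Subalgebra.smul_mem _ (hB'mem t) _)
  have hYn : ∀ t ∈ Set.Icc (0 : ℝ) 1, ‖Y t‖ ≤ ρ := by
    intro t ht
    obtain ⟨G, _, hG1, _, hG3⟩ := geo R hsum t ht.1 ht.2
    apply Y_norm_le (A t) c C hc0 hcC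
    · intro v
      exact geo_lower R G ((t : ℂ) • R) hG1 K hK0 (by linarith) v
    · intro v
      have h1 : ‖A t v‖ ≤ (1 + ‖R‖) * ‖v‖ :=
        le_trans ((A t).le_opNorm v) (by gcongr; exact hAn t ht)
      have h2 : ‖A t v‖ ^ 2 ≤ ((1 + ‖R‖) * ‖v‖) ^ 2 := pow_le_pow_left₀ (norm_nonneg _) h1 2
      rw [mul_pow] at h2
      have h3 : 0 ≤ c * ‖v‖ ^ 2 := by positivity
      rw [hC]
      linarith
  -- the scalar functions
  set f : ℕ → ℝ → ℂ := fun n t => ((Real.log C : ℝ) : ℂ) * tau ξ 1 -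
    ∑ k ∈ Finset.range n, ((((k : ℝ) + 1)⁻¹ : ℝ) : ℂ) * tau ξ (Y t ^ (k + 1)) with hf
  have hfP : ∀ n t, f n t = tau ξ (((Real.log C : ℝ) : ℂ) • (1 : H →L[ℂ] H) -
      ∑ k ∈ Finset.range n, ((((k : ℝ) + 1)⁻¹ : ℝ) : ℂ) • Y t ^ (k + 1)) := by
    intro n t
    simp only [hf, map_sub, map_sum, map_smul, smul_eq_mul]
  have hfd : ∀ n t, HasDerivAt (f n) (-∑ k ∈ Finset.range n, tau ξ (Y t ^ k * Y' t)) t := by
    intro n t
    have h1 : ∀ k ∈ Finset.range n, HasDerivAt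
        (fun s => ((((k : ℝ) + 1)⁻¹ : ℝ) : ℂ) * tau ξ (Y s ^ (k + 1))) (tau ξ (Y t ^ k * Y' t)) t := by
      intro k _
      have h2 := (tau_pow_deriv ξ Y (Y' t) t (hYd t) (fun i j => by
        rw [htrc _ (hle (Subalgebra.mul_mem _ (Subalgebra.pow_mem _ (hYmem t) i) (hY'mem t))) _
          (hle (Subalgebra.pow_mem _ (hYmem t) j)), ← mul_assoc, ← pow_add, add_comm]) k).const_mul
        ((((k : ℝ) + 1)⁻¹ : ℝ) : ℂ)
      have e : ((((k : ℝ) + 1)⁻¹ : ℝ) : ℂ) * (((k : ℂ) + 1) * tau ξ (Y t ^ k * Y' t)) =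
          tau ξ (Y t ^ k * Y' t) := by
        rw [← mul_assoc]
        have : ((((k : ℝ) + 1)⁻¹ : ℝ) : ℂ) * ((k : ℂ) + 1) = 1 := by
          push_cast
          apply inv_mul_cancel₀
          exact_mod_cast (Nat.cast_add_one_ne_zero k : ((k : ℂ) + 1) ≠ 0)
        rw [this, one_mul]
      rw [e] at h2
      exact h2
    exact (HasDerivAt.fun_sum h1).const_sub _
  set M : ℝ := 2 * (‖R‖ * (1 + ‖R‖)) with hM
  have hB'n : ∀ t ∈ Set.Icc (0 : ℝ) 1, ‖B' t‖ ≤ M := by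
    intro t ht
    have a1 : ‖(-star R) * A t‖ ≤ ‖R‖ * (1 + ‖R‖) := by
      calc ‖(-star R) * A t‖ ≤ ‖-star R‖ * ‖A t‖ := norm_mul_le _ _
        _ ≤ ‖R‖ * (1 + ‖R‖) := by
          rw [norm_neg, norm_star]
          gcongr
          exact hAn t ht
    have a2 : ‖star (A t) * (-R)‖ ≤ ‖R‖ * (1 + ‖R‖) := by
      calc ‖star (A t) * (-R)‖ ≤ ‖star (A t)‖ * ‖-R‖ := norm_mul_le _ _
        _ ≤ (1 + ‖R‖) * ‖R‖ := by
          rw [norm_neg, norm_star]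
          gcongr
          exact hAn t ht
        _ = ‖R‖ * (1 + ‖R‖) := by ring
    calc ‖B' t‖ ≤ ‖(-star R) * A t‖ + ‖star (A t) * (-R)‖ := norm_add_le _ _
      _ ≤ M := by rw [hM]; linarith
  have hM0 : 0 ≤ M := by positivity
  have hdb : ∀ n, ∀ t ∈ Set.Icc (0:ℝ) 1, ‖-∑ k ∈ Finset.range n, tau ξ (Y t ^ k * Y' t)‖ ≤
      (‖ξ‖ ^ 2 * (K * K * M)) * ρ ^ n := by
    intro n t ht
    obtain ⟨G, hGs, hG1, hG2, hG3⟩ := geo R hsum t ht.1 ht.2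
    have hGmem := geo_mem 𝒜 R G hR t hGs
    have hGstar : HasSum (fun n : ℕ => ((t : ℂ) • star R) ^ n) (star G) := by
      have h := hGs.star
      have e : (fun n : ℕ => ((t : ℂ) • star R) ^ n) = fun n : ℕ => star (((t : ℂ) • R) ^ n) := by
        funext n
        rw [star_pow, star_smul]
        simp
      rw [e]
      exact h
    have hGsmem := geo_mem 𝒜 (star R) (star G) hR' t hGstar
    obtain ⟨h0, h0'⟩ := geo_tau ξ R G t hGs hzero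
    have hid : ∑ k ∈ Finset.range n, tau ξ (Y t ^ k * Y' t) =
        tau ξ (Y t ^ n * (G * star G * B' t)) :=
      deriv_id ξ 𝒜.topologicalClosure htrc R G (A t) (hle hR') hGmem hGsmem (hle (hAmem t))
        hG1 hG2 h0 h0' C hC0 n
    have hGK : ‖G‖ ≤ K := by linarith
    rw [norm_neg, hid]
    have b1 : ‖G * star G * B' t‖ ≤ K * K * M := by
      calc ‖G * star G * B' t‖ ≤ ‖G * star G‖ * ‖B' t‖ := norm_mul_le _ _
        _ ≤ (‖G‖ * ‖star G‖) * ‖B' t‖ := by gcongr; exact norm_mul_le _ _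
        _ ≤ K * K * M := by
          rw [norm_star]
          gcongr
          exact hB'n t ht
    calc ‖tau ξ (Y t ^ n * (G * star G * B' t))‖
        ≤ ‖ξ‖ ^ 2 * ‖Y t ^ n * (G * star G * B' t)‖ := tau_norm_le _ _
      _ ≤ ‖ξ‖ ^ 2 * (‖Y t ^ n‖ * ‖G * star G * B' t‖) := by gcongr; exact norm_mul_le _ _
      _ ≤ ‖ξ‖ ^ 2 * (ρ ^ n * (K * K * M)) := by
          gcongr
          exact pow_norm_le _ _ (hYn t ht) n
      _ = (‖ξ‖ ^ 2 * (K * K * M)) * ρ ^ n := by ring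
  have hCC : ((C : ℝ) : ℂ) ≠ 0 := by exact_mod_cast hC0.ne'
  have hlog : ∀ t ∈ Set.Icc (0 : ℝ) 1, ∀ n, ‖tau ξ (cfc Real.log (star (A t) * A t)) - f n t‖ ≤
      (‖ξ‖ ^ 2 * (ρ / (1 - ρ))) * ρ ^ n := by
    intro t ht n
    have h1 := fk_log_series (Y t) (Y_sa (A t) _) ρ hρ1 (hYn t ht) C hC0 n
    have h2 : ((C : ℝ) : ℂ) • (1 - Y t) = star (A t) * A t := by
      have : (1 : H →L[ℂ] H) - Y t = ((C⁻¹ : ℝ) : ℂ) • (star (A t) * A t) := by
        simp only [hY]; abel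
      rw [this, smul_smul]
      have e2 : ((C : ℝ) : ℂ) * ((C⁻¹ : ℝ) : ℂ) = 1 := by
        push_cast
        exact mul_inv_cancel₀ hCC
      rw [e2, one_smul]
    rw [h2] at h1
    rw [hfP, ← map_sub]
    calc _ ≤ ‖ξ‖ ^ 2 * _ := tau_norm_le _ _
      _ ≤ ‖ξ‖ ^ 2 * (ρ ^ (n + 1) / (1 - ρ)) := by gcongr
      _ = _ := by rw [pow_succ]; ring
  have hfin := fk_limit f (fun n t => -∑ k ∈ Finset.range n, tau ξ (Y t ^ k * Y' t)) hfd ρ _ _
    hρ0 hρ1 hdb (tau ξ (cfc Real.log (star (A 0) * A 0))) (tau ξ (cfc Real.log (star (A 1) * A 1)))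
    (hlog 0 ⟨le_rfl, zero_le_one⟩) (hlog 1 ⟨zero_le_one, le_rfl⟩)
  have hA0 : star (A 0) * A 0 = 1 := by simp [hA]
  have hA1 : A 1 = 1 - R := by simp [hA]
  rw [hA0, hA1] at hfin
  have hl1 : cfc Real.log (1 : H →L[ℂ] H) = 0 := by
    rw [cfc_apply_one (R := ℝ), Real.log_one, map_zero]
  rw [← tau_apply, hfin, hl1, map_zero]
  simp

end Crest.Agent.HK
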