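import Crest.Agent.Lib_HK_FK1

/-! # S0151 project (HK), package F2: the abstract Fuglede–Kadison lemma -/

set_option autoImplicit false

namespace Crest.Agent.HK

open Filter Topology

variable {H : Type*} [NormedAddCommGroup H] [InnerProductSpace ℂ H] [CompleteSpace H]

/-- the vector functional. -/
noncomputable def tau (ξ : H) : (H →L[ℂ] H) →L[ℂ] ℂ :=
  (innerSL ℂ ξ).comp (ContinuousLinearMap.apply ℂ H ξ)

theorem tau_apply (ξ : H) (X : H →L[ℂ] H) : tau ξ X = inner ℂ ξ (X ξ) := rfl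

theorem tau_norm_le (ξ : H) (X : H →L[ℂ] H) : ‖tau ξ X‖ ≤ ‖ξ‖ ^ 2 * ‖X‖ := by
  rw [tau_apply]
  calc ‖inner ℂ ξ (X ξ)‖ ≤ ‖ξ‖ * ‖X ξ‖ := norm_inner_le_norm _ _
    _ ≤ ‖ξ‖ * (‖X‖ * ‖ξ‖) := by gcongr; exact X.le_opNorm ξ
    _ = ‖ξ‖ ^ 2 * ‖X‖ := by ring

theorem tau_star (ξ : H) (X : H →L[ℂ] H) : tau ξ (star X) = starRingEnd ℂ (tau ξ X) := by
  rw [tau_apply, tau_apply, ContinuousLinearMap.star_eq_adjoint,
    ContinuousLinearMap.adjoint_inner_right, inner_conj_symm]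

/-- the trace property passes to the norm closure. -/
theorem tau_closure (ξ : H) (𝒜 : Subalgebra ℂ (H →L[ℂ] H))
    (htr : ∀ X ∈ 𝒜, ∀ Y ∈ 𝒜, tau ξ (X * Y) = tau ξ (Y * X)) :
    ∀ X ∈ 𝒜.topologicalClosure, ∀ Y ∈ 𝒜.topologicalClosure, tau ξ (X * Y) = tau ξ (Y * X) := by
  have h1 : ∀ Y ∈ 𝒜, ∀ X ∈ 𝒜.topologicalClosure, tau ξ (X * Y) = tau ξ (Y * X) := by
    intro Y hY X hX
    have hcl : IsClosed {X : H →L[ℂ] H | tau ξ (X * Y) = tau ξ (Y * X)} :=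
      isClosed_eq ((tau ξ).continuous.comp (continuous_id.mul continuous_const))
        ((tau ξ).continuous.comp (continuous_const.mul continuous_id))
    exact closure_minimal (fun X hX => htr X hX Y hY) hcl hX
  intro X hX Y hY
  have hcl : IsClosed {Y : H →L[ℂ] H | tau ξ (X * Y) = tau ξ (Y * X)} :=
    isClosed_eq ((tau ξ).continuous.comp (continuous_const.mul continuous_id))
      ((tau ξ).continuous.comp (continuous_id.mul continuous_const))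
  exact closure_minimal (fun Y hY => h1 Y hY X hX) hcl hY

/-- derivative of `τ (Y^k)` for a path in a tracial algebra. -/
theorem tau_pow_deriv (ξ : H) (Y : ℝ → (H →L[ℂ] H)) (Y' : H →L[ℂ] H) (t : ℝ)
    (hY : HasDerivAt Y Y' t)
    (htr : ∀ i j : ℕ, tau ξ (Y t ^ i * Y' * Y t ^ j) = tau ξ (Y t ^ (i + j) * Y')) (k : ℕ) :
    HasDerivAt (fun s => tau ξ (Y s ^ (k + 1))) (((k : ℂ) + 1) * tau ξ (Y t ^ k * Y')) t := by
  -- derivative of the power
  have hD : ∀ k : ℕ, ∃ D : H →L[ℂ] H, HasDerivAt (fun s => Y s ^ (k + 1)) D t ∧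
      ∀ j : ℕ, tau ξ (D * Y t ^ j) = ((k : ℂ) + 1) * tau ξ (Y t ^ (k + j) * Y') := by
    intro k
    induction k with
    | zero =>
      refine ⟨Y', by simpa using hY, ?_⟩
      intro j
      have := htr 0 j
      simp only [pow_zero, one_mul, zero_add] at this
      simp [this]
    | succ k ih =>
      obtain ⟨D, hD1, hD2⟩ := ih
      refine ⟨D * Y t + Y t ^ (k + 1) * Y', ?_, ?_⟩
      · have h3 := hD1.fun_mul hY
        have e0 : (fun s => Y s ^ (k + 1 + 1)) = fun s => Y s ^ (k + 1) * Y s := by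
          funext s; rw [pow_succ]
        rw [e0]
        exact h3
      · intro j
        rw [add_mul, map_add, mul_assoc, ← pow_succ', hD2 (j + 1), htr (k + 1) j]
        have e1 : k + (j + 1) = k + 1 + j := by ring
        rw [e1]
        push_cast
        ring
  obtain ⟨D, hD1, hD2⟩ := hD k
  have h1 := ((tau ξ).restrictScalars ℝ).hasFDerivAt.comp_hasDerivAt t hD1
  have h2 := hD2 0
  simp only [pow_zero, mul_one, add_zero] at h2
  rw [← h2]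
  exact h1


theorem geo (R : H →L[ℂ] H) (hsum : Summable fun n : ℕ => ‖R ^ n‖) (t : ℝ) (ht0 : 0 ≤ t)
    (ht1 : t ≤ 1) :
    ∃ G : H →L[ℂ] H, HasSum (fun n : ℕ => ((t : ℂ) • R) ^ n) G ∧ G * (1 - (t : ℂ) • R) = 1 ∧
      (1 - (t : ℂ) • R) * G = 1 ∧ ‖G‖ ≤ ∑' n, ‖R ^ n‖ := by
  have hb : ∀ n : ℕ, ‖((t : ℂ) • R) ^ n‖ ≤ ‖R ^ n‖ := by
    intro n
    rw [smul_pow, norm_smul, norm_pow, Complex.norm_real, Real.norm_eq_abs, abs_of_nonneg ht0]
    exact mul_le_of_le_one_left (norm_nonneg _) (pow_le_one₀ ht0 ht1)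
  have hs : Summable (fun n : ℕ => ((t : ℂ) • R) ^ n) := Summable.of_norm_bounded hsum hb
  exact ⟨_, hs.hasSum, hs.tsum_pow_mul_one_sub, hs.one_sub_mul_tsum_pow,
    tsum_of_norm_bounded hsum.hasSum hb⟩

theorem geo_tau (ξ : H) (R G : H →L[ℂ] H) (t : ℝ)
    (hG : HasSum (fun n : ℕ => ((t : ℂ) • R) ^ n) G)
    (hzero : ∀ n : ℕ, 1 ≤ n → tau ξ (R ^ n) = 0) : tau ξ (G * R) = 0 ∧ tau ξ (R * G) = 0 := by
  constructor
  · have h1 := (tau ξ).hasSum (hG.mul_right R)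
    have h2 : (fun n : ℕ => tau ξ (((t : ℂ) • R) ^ n * R)) = fun _ => 0 := by
      funext n
      rw [smul_pow, smul_mul_assoc, ← pow_succ, map_smul, hzero (n + 1) (by omega), smul_zero]
    rw [h2] at h1
    exact h1.unique hasSum_zero
  · have h1 := (tau ξ).hasSum (hG.mul_left R)
    have h2 : (fun n : ℕ => tau ξ (R * ((t : ℂ) • R) ^ n)) = fun _ => 0 := by
      funext n
      rw [smul_pow, mul_smul_comm, ← pow_succ', map_smul, hzero (n + 1) (by omega), smul_zero]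
    rw [h2] at h1
    exact h1.unique hasSum_zero

theorem geo_mem (𝒜 : Subalgebra ℂ (H →L[ℂ] H)) (R G : H →L[ℂ] H) (hR : R ∈ 𝒜) (t : ℝ)
    (hG : HasSum (fun n : ℕ => ((t : ℂ) • R) ^ n) G) : G ∈ 𝒜.topologicalClosure := by
  refine 𝒜.isClosed_topologicalClosure.mem_of_tendsto hG (Eventually.of_forall fun s => ?_)
  exact Subalgebra.sum_mem _ fun n _ => 𝒜.le_topologicalClosure
    (Subalgebra.pow_mem _ (Subalgebra.smul_mem _ hR _) n)

/-- lower bound for `(1-tR)`. -/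
theorem geo_lower (R G : H →L[ℂ] H) (x : H →L[ℂ] H) (hG : G * (1 - x) = 1) (K : ℝ) (hK : 0 < K)
    (hGK : ‖G‖ ≤ K) (v : H) : (1 / K ^ 2) * ‖v‖ ^ 2 ≤ ‖(1 - x) v‖ ^ 2 := by
  have h1 : v = G ((1 - x) v) := by
    have : (G * (1 - x)) v = v := by rw [hG]; rfl
    exact this.symm
  have h2 : ‖v‖ ≤ K * ‖(1 - x) v‖ := by
    calc ‖v‖ = ‖G ((1 - x) v)‖ := by rw [← h1]
      _ ≤ ‖G‖ * ‖(1 - x) v‖ := G.le_opNorm _
      _ ≤ K * ‖(1 - x) v‖ := by gcongr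
  have h3 : ‖v‖ ^ 2 ≤ K ^ 2 * ‖(1 - x) v‖ ^ 2 := by
    rw [← mul_pow]
    exact pow_le_pow_left₀ (norm_nonneg _) h2 2
  rw [div_mul_eq_mul_div, one_mul, div_le_iff₀ (by positivity)]
  linarith

/-- lower bound for `(1-R)*(1-R)` (also needed in F3). -/
theorem fk_lower (R : H →L[ℂ] H) (hsum : Summable fun n : ℕ => ‖R ^ n‖) :
    ∃ c : ℝ, 0 < c ∧ ∀ v : H, c * ‖v‖ ^ 2 ≤ ‖(1 - R) v‖ ^ 2 := by
  obtain ⟨G, _, hG1, _, hG3⟩ := geo R hsum 1 zero_le_one le_rfl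
  have hK0 : 0 ≤ ∑' n, ‖R ^ n‖ := tsum_nonneg fun n => norm_nonneg _
  refine ⟨1 / (∑' n, ‖R ^ n‖ + 1) ^ 2, by positivity, fun v => ?_⟩
  have := geo_lower R G (((1 : ℝ) : ℂ) • R) hG1 (∑' n, ‖R ^ n‖ + 1) (by positivity) (by linarith) v
  simpa using this

theorem Y_sa (A : H →L[ℂ] H) (r : ℝ) :
    IsSelfAdjoint ((1 : H →L[ℂ] H) - ((r : ℝ) : ℂ) • (star A * A)) := by
  rw [IsSelfAdjoint, star_sub, star_one, star_smul, star_mul, star_star]
  simp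

theorem Y_form (A : H →L[ℂ] H) (r : ℝ) (x : H) :
    RCLike.re (inner ℂ (((1 : H →L[ℂ] H) - ((r : ℝ) : ℂ) • (star A * A)) x) x) =
      ‖x‖ ^ 2 - r * ‖A x‖ ^ 2 := by
  have h1 : ((1 : H →L[ℂ] H) - ((r : ℝ) : ℂ) • (star A * A)) x =
      x - ((r : ℝ) : ℂ) • (star A) (A x) := rfl
  rw [h1, inner_sub_left, inner_smul_left, ContinuousLinearMap.star_eq_adjoint,
    ContinuousLinearMap.adjoint_inner_left, map_sub, Complex.conj_ofReal, RCLike.re_to_complex,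
    RCLike.re_to_complex, Complex.re_ofReal_mul, ← RCLike.re_to_complex, ← RCLike.re_to_complex,
    inner_self_eq_norm_sq, inner_self_eq_norm_sq]

theorem Y_norm_le (A : H →L[ℂ] H) (c C : ℝ) (hc : 0 < c) (hcC : c ≤ C)
    (hlow : ∀ v, c * ‖v‖ ^ 2 ≤ ‖A v‖ ^ 2) (hup : ∀ v, ‖A v‖ ^ 2 ≤ C * ‖v‖ ^ 2) :
    ‖(1 : H →L[ℂ] H) - ((C⁻¹ : ℝ) : ℂ) • (star A * A)‖ ≤ 1 - c / C := by
  have hC : 0 < C := lt_of_lt_of_le hc hcC
  have hpos : 0 ≤ (1 : H →L[ℂ] H) - ((C⁻¹ : ℝ) : ℂ) • (star A * A) := by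
    rw [ContinuousLinearMap.nonneg_iff_isPositive, ContinuousLinearMap.isPositive_def']
    refine ⟨Y_sa A _, fun x => ?_⟩
    rw [ContinuousLinearMap.reApplyInnerSelf_apply, Y_form]
    have := hup x
    rw [inv_mul_eq_div, sub_nonneg, div_le_iff₀ hC]
    linarith
  rw [CStarAlgebra.norm_le_iff_le_algebraMap _ (by rw [sub_nonneg, div_le_one hC]; exact hcC) hpos,
    ContinuousLinearMap.le_def, ContinuousLinearMap.isPositive_def']
  constructor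
  · exact (IsSelfAdjoint.algebraMap _ (by simp [IsSelfAdjoint])).sub (Y_sa A _)
  · intro x
    rw [ContinuousLinearMap.reApplyInnerSelf_apply]
    have h1 : (algebraMap ℝ (H →L[ℂ] H) (1 - c / C) -
        ((1 : H →L[ℂ] H) - ((C⁻¹ : ℝ) : ℂ) • (star A * A))) x =
        (((1 - c / C : ℝ) : ℂ)) • x - ((1 : H →L[ℂ] H) - ((C⁻¹ : ℝ) : ℂ) • (star A * A)) x := by
      rw [ContinuousLinearMap.sub_apply]
      congr 1
    rw [h1, inner_sub_left, map_sub, Y_form, inner_smul_left, Complex.conj_ofReal,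
      RCLike.re_to_complex, Complex.re_ofReal_mul, ← RCLike.re_to_complex, inner_self_eq_norm_sq]
    have h2 := hlow x
    have h4 : c / C * ‖x‖ ^ 2 ≤ C⁻¹ * ‖A x‖ ^ 2 := by
      rw [div_mul_eq_mul_div, inv_mul_eq_div]
      gcongr
    linarith


end Crest.Agent.HK
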