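import Crest.Agent.Lib_HK_FK2
import Crest.Prelude.Def_ProductShift

/-! # S0151 project (HK), package F3: scaling and the limit `ε → 0` -/

set_option autoImplicit false

namespace Crest.Agent.HK

open Crest.AnalysisR.ProductShift

variable {H : Type*} [NormedAddCommGroup H] [InnerProductSpace ℂ H] [CompleteSpace H]

theorem fk3_algMap (a : ℝ) :
    algebraMap ℝ (H →L[ℂ] H) a = ((a : ℝ) : ℂ) • (1 : H →L[ℂ] H) := by
  rw [Algebra.algebraMap_eq_smul_one]
  ext v
  simp

theorem fk3_core (B : H →L[ℂ] H) (hB : IsSelfAdjoint B) (c : ℝ) (hc : 0 < c)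
    (hsp : ∀ x ∈ spectrum ℝ B, c ≤ x) (r ε : ℝ) (hr : 0 < r) (hε : 0 < ε) :
    ∃ D : H →L[ℂ] H, 0 ≤ D ∧ ‖D‖ ≤ ε / (r * c) ∧
      cfc Real.log (((r : ℝ) : ℂ) • B + ((ε : ℝ) : ℂ) • (1 : H →L[ℂ] H)) =
        ((Real.log r : ℝ) : ℂ) • (1 : H →L[ℂ] H) + cfc Real.log B + D := by
  set e : ℝ := ε / r with he
  have he0 : 0 < e := by positivity
  set h : ℝ → ℝ := fun t => Real.log (t + e) - Real.log t with hh
  have hlogc : ContinuousOn Real.log (spectrum ℝ B) :=
    Real.continuousOn_log.mono fun x hx => by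
      have := hsp x hx
      simp only [Set.mem_compl_iff, Set.mem_singleton_iff]
      linarith
  have hlogc2 : ContinuousOn (fun t : ℝ => Real.log (t + e)) (spectrum ℝ B) := by
    refine ContinuousOn.log (by fun_prop) fun x hx => ?_
    have := hsp x hx
    linarith
  have hhc : ContinuousOn h (spectrum ℝ B) := hlogc2.sub hlogc
  refine ⟨cfc h B, cfc_nonneg fun x hx => ?_, norm_cfc_le (by positivity) fun x hx => ?_, ?_⟩
  · have hx0 := hsp x hx
    simp only [hh, sub_nonneg]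
    exact Real.log_le_log (by linarith) (by linarith)
  · have hx0 := hsp x hx
    have hxp : 0 < x := by linarith
    have h1 : 0 ≤ h x := by
      simp only [hh, sub_nonneg]
      exact Real.log_le_log (by linarith) (by linarith)
    rw [Real.norm_eq_abs, abs_of_nonneg h1]
    simp only [hh]
    rw [← Real.log_div (by linarith) (by linarith)]
    have h2 := Real.log_le_sub_one_of_pos (show 0 < (x + e) / x by positivity)
    have h3 : (x + e) / x - 1 = e / x := by field_simp; ring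
    have h4 : e / x ≤ e / c := div_le_div_of_nonneg_left he0.le hc hx0
    have h5 : e / c = ε / (r * c) := by rw [he]; field_simp
    linarith
  · set g : ℝ → ℝ := fun t => r * t + ε with hg
    have hX : ((r : ℝ) : ℂ) • B + ((ε : ℝ) : ℂ) • (1 : H →L[ℂ] H) = cfc g B := by
      simp only [hg]
      rw [cfc_add_const ε (fun t => r * t) B, cfc_const_mul r (fun t => t) B, cfc_id' ℝ B, fk3_algMap]
      congr 1
    rw [hX, ← cfc_comp' Real.log g B
      (Real.continuousOn_log.mono (by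
        rintro y ⟨x, hx, rfl⟩
        have := hsp x hx
        simp only [hg, Set.mem_compl_iff, Set.mem_singleton_iff]
        have : 0 < r * x := mul_pos hr (by linarith)
        linarith)) (by fun_prop) hB]
    have hcongr : (spectrum ℝ B).EqOn (fun t => Real.log (g t))
        (fun t => (Real.log r + Real.log t) + h t) := by
      intro x hx
      have hx0 := hsp x hx
      have hxp : 0 < x := by linarith
      simp only [hg, hh]
      have : r * x + ε = r * (x + e) := by rw [he]; field_simp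
      rw [this, Real.log_mul hr.ne' (by linarith)]
      ring
    rw [cfc_congr hcongr, cfc_add B (fun t => Real.log r + Real.log t) h
      (continuousOn_const.add hlogc) hhc, cfc_const_add (Real.log r) Real.log B hlogc hB, fk3_algMap]

theorem fk_vectorDet (ξ : H) (hξ : ‖ξ‖ = 1) (T : H →L[ℂ] H) (𝒜 : Subalgebra ℂ (H →L[ℂ] H))
    (hT : T ∈ 𝒜) (hT' : star T ∈ 𝒜)
    (htr : ∀ X ∈ 𝒜, ∀ Y ∈ 𝒜, inner ℂ ξ ((X * Y) ξ) = inner ℂ ξ ((Y * X) ξ))
    (hzero : ∀ n : ℕ, 1 ≤ n → inner ℂ ξ ((T ^ n) ξ) = 0)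
    (z : ℂ) (hz : z ≠ 0) (hsum : Summable fun n : ℕ => ‖T ^ n‖ / ‖z‖ ^ n) :
    vectorDet ξ (T - z • (1 : H →L[ℂ] H)) = ‖z‖ := by
  have hnz : 0 < ‖z‖ := norm_pos_iff.2 hz
  set R : H →L[ℂ] H := z⁻¹ • T with hR
  have hRmem : R ∈ 𝒜 := 𝒜.smul_mem hT _
  have hRs : star R ∈ 𝒜 := by rw [hR, star_smul]; exact 𝒜.smul_mem hT' _
  have hpow : ∀ n : ℕ, R ^ n = (z⁻¹) ^ n • T ^ n := fun n => smul_pow _ _ _
  have hzeroR : ∀ n : ℕ, 1 ≤ n → inner ℂ ξ ((R ^ n) ξ) = 0 := by
    intro n hn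
    rw [hpow, ContinuousLinearMap.smul_apply, inner_smul_right, hzero n hn, mul_zero]
  have hsumR : Summable fun n : ℕ => ‖R ^ n‖ := by
    refine hsum.congr fun n => ?_
    rw [hpow, norm_smul, norm_pow (z⁻¹) n, norm_inv, inv_pow, div_eq_inv_mul]
  have hmain := fk_main ξ R 𝒜 hRmem hRs htr hzeroR hsumR
  obtain ⟨c, hc, hlow⟩ := fk_lower R hsumR
  set B : H →L[ℂ] H := star (1 - R) * (1 - R) with hB
  have hBsa : IsSelfAdjoint B := IsSelfAdjoint.star_mul_self _
  have hsp : ∀ x ∈ spectrum ℝ B, c ≤ x := by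
    rw [← algebraMap_le_iff_le_spectrum hBsa, ContinuousLinearMap.le_def,
      ContinuousLinearMap.isPositive_def']
    refine ⟨hBsa.sub (IsSelfAdjoint.algebraMap _ (IsSelfAdjoint.all c)), fun v => ?_⟩
    rw [ContinuousLinearMap.reApplyInnerSelf_apply, fk3_algMap, hB]
    simp only [ContinuousLinearMap.sub_apply, ContinuousLinearMap.smul_apply,
      ContinuousLinearMap.one_apply, inner_sub_left, inner_smul_left, map_sub]
    have h1 : inner ℂ ((star (1 - R) * (1 - R)) v) v = ((‖(1 - R) v‖ ^ 2 : ℝ) : ℂ) := by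
      have h0 : (star (1 - R) * (1 - R)) v = (star (1 - R)) ((1 - R) v) := rfl
      rw [h0, ContinuousLinearMap.star_eq_adjoint, ContinuousLinearMap.adjoint_inner_left,
        inner_self_eq_norm_sq_to_K]
      push_cast; rfl
    have h2 : inner ℂ v v = ((‖v‖ ^ 2 : ℝ) : ℂ) := by
      rw [inner_self_eq_norm_sq_to_K]; push_cast; rfl
    rw [h1, h2]
    have := hlow v
    simp only [Complex.conj_ofReal, ← Complex.ofReal_mul, RCLike.re_to_complex, Complex.ofReal_re]
    linarith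
  set r : ℝ := ‖z‖ ^ 2 with hr
  have hr0 : 0 < r := by positivity
  have hAA : star (T - z • (1 : H →L[ℂ] H)) * (T - z • (1 : H →L[ℂ] H)) = ((r : ℝ) : ℂ) • B := by
    have h1 : T - z • (1 : H →L[ℂ] H) = (-z) • (1 - R) := by
      rw [hR, smul_sub, smul_smul, neg_mul, mul_inv_cancel₀ hz]
      simp
      abel
    rw [h1, star_smul, smul_mul_smul_comm, hB]
    congr 1
    rw [hr]
    simp only [star_neg, neg_mul_neg, RCLike.star_def]
    rw [RCLike.conj_mul]
    push_cast; rfl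
  have hlogr : Real.exp (Real.log r / 2) = ‖z‖ := by
    rw [hr, Real.log_pow]
    push_cast
    rw [mul_div_cancel_left₀ _ (two_ne_zero), Real.exp_log hnz]
  have hval : ∀ ε : ℝ, 0 < ε → ∃ δ : ℝ, 0 ≤ δ ∧ δ ≤ ε / (r * c) ∧
      RCLike.re (inner ℂ ξ (cfc Real.log (star (T - z • (1 : H →L[ℂ] H)) *
        (T - z • (1 : H →L[ℂ] H)) + ((ε : ℝ) : ℂ) • (1 : H →L[ℂ] H)) ξ)) = Real.log r + δ := by
    intro ε hε
    obtain ⟨D, hD0, hDn, hDe⟩ := fk3_core B hBsa c hc hsp r ε hr0 hε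
    refine ⟨RCLike.re (inner ℂ ξ (D ξ)),
      ((ContinuousLinearMap.nonneg_iff_isPositive D).1 hD0).re_inner_nonneg_right ξ, ?_, ?_⟩
    · have h1 : RCLike.re (inner ℂ ξ (D ξ)) ≤ ‖ξ‖ * ‖D ξ‖ := re_inner_le_norm _ _
      have h2 := D.le_opNorm ξ
      rw [hξ] at h1 h2
      linarith
    · rw [hAA, hDe]
      simp only [ContinuousLinearMap.add_apply, ContinuousLinearMap.smul_apply,
        ContinuousLinearMap.one_apply, inner_add_right, inner_smul_right, map_add]
      rw [hmain, inner_self_eq_norm_sq_to_K, hξ]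
      simp
  unfold vectorDet
  haveI : Nonempty {r : ℝ // 0 < r} := ⟨⟨1, one_pos⟩⟩
  apply le_antisymm
  · have hbdd : BddBelow (Set.range fun ε : {r : ℝ // 0 < r} =>
        Real.exp (RCLike.re (inner ℂ ξ (cfc Real.log (star (T - z • (1 : H →L[ℂ] H)) *
          (T - z • (1 : H →L[ℂ] H)) + ((ε : ℝ) : ℂ) • (1 : H →L[ℂ] H)) ξ)) / 2)) :=
      ⟨0, by rintro _ ⟨ε, rfl⟩; exact (Real.exp_pos _).le⟩
    have htend : Filter.Tendsto (fun n : ℕ =>
        Real.exp ((Real.log r + (1 / ((n : ℝ) + 1)) / (r * c)) / 2)) Filter.atTop (nhds ‖z‖) := by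
      have h0 : Filter.Tendsto (fun n : ℕ => (Real.log r + (1 / ((n : ℝ) + 1)) / (r * c)) / 2)
          Filter.atTop (nhds ((Real.log r + 0 / (r * c)) / 2)) :=
        ((tendsto_one_div_add_atTop_nhds_zero_nat.div_const _).const_add _).div_const _
      have h1 := (Real.continuous_exp.tendsto _).comp h0
      rw [zero_div, add_zero, hlogr] at h1
      exact h1
    refine ge_of_tendsto' htend fun n => ?_
    have hpos : (0 : ℝ) < 1 / ((n : ℝ) + 1) := by positivity
    refine (ciInf_le hbdd ⟨1 / ((n : ℝ) + 1), hpos⟩).trans ?_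
    obtain ⟨δ, _, hδ1, hδe⟩ := hval _ hpos
    simp only
    rw [hδe, Real.exp_le_exp]
    linarith
  · refine le_ciInf fun ε => ?_
    obtain ⟨δ, hδ0, _, hδe⟩ := hval ε.1 ε.2
    rw [hδe, ← hlogr, Real.exp_le_exp]
    linarith

end Crest.Agent.HK
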