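import Crest.Agent.Lib_HK_Tr

/-! # S0151 project (HK), package G3: `T` is quasinilpotent -/

set_option autoImplicit false

namespace Crest.Agent.HK

open MeasureTheory Crest.AnalysisR.ProductShift

theorem qn_floor_nonneg (θ : ℕ → ℝ) (hθ : ∀ i, 0 < θ i ∧ θ i < 1) (y : ℕ → ℝ) (hy : ∀ i, 0 ≤ y i)
    (i : ℕ) : (0 : ℝ) ≤ (⌊y i + θ i⌋ : ℝ) := by
  have : (0 : ℤ) ≤ ⌊y i + θ i⌋ := Int.floor_nonneg.2 (by have := hy i; have := (hθ i).1; linarith)
  exact_mod_cast this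

theorem qn_weight_le (θ c : ℕ → ℝ) (hθ : ∀ i, 0 < θ i ∧ θ i < 1) (hc : ∀ i, 0 ≤ c i)
    (y : ℕ → ℝ) (hy : ∀ i, 0 ≤ y i) (N : ℕ) :
    weight θ c y ≤ Real.exp (-(∑ i ∈ Finset.range N, c i * (⌊y i + θ i⌋ : ℝ))) := by
  unfold weight
  split_ifs with h
  · exact (Real.exp_pos _).le
  · rw [Real.exp_le_exp, neg_le_neg_iff, ← ENNReal.ofReal_le_iff_le_toReal h,
      ENNReal.ofReal_sum_of_nonneg (fun i _ => mul_nonneg (hc i) (qn_floor_nonneg θ hθ y hy i))]
    exact ENNReal.sum_le_tsum _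

theorem qn_floor_eq (θ : ℕ → ℝ) (m : ℤ) (x : ℕ → ℝ) (i : ℕ) :
    (⌊orbitPoint θ m x i + θ i⌋ : ℝ) =
      orbitPoint θ m x i + θ i - orbitPoint θ (m + 1) x i := by
  have h1 : orbitPoint θ (m + 1) x i = Int.fract (orbitPoint θ m x i + θ i) := by
    have := congrFun (orbit_add θ 1 m x) i
    rw [add_comm 1 m] at this
    rw [← this]
    simp [orbitPoint]
  rw [h1]
  have := Int.self_sub_fract (orbitPoint θ m x i + θ i)
  linarith

theorem qn_sum_floor (θ : ℕ → ℝ) (m : ℤ) (x : ℕ → ℝ) (i : ℕ) (n : ℕ) :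
    (n : ℝ) * θ i - 1 ≤ ∑ l ∈ Finset.range n, (⌊orbitPoint θ (m - l) x i + θ i⌋ : ℝ) := by
  have h1 : ∀ l : ℕ, (⌊orbitPoint θ (m - l) x i + θ i⌋ : ℝ) =
      θ i + (orbitPoint θ (m + 1 - ((l + 1 : ℕ) : ℤ)) x i - orbitPoint θ (m + 1 - (l : ℤ)) x i) := by
    intro l
    rw [qn_floor_eq]
    have e1 : m + 1 - ((l + 1 : ℕ) : ℤ) = m - l := by push_cast; ring
    have e2 : m + 1 - (l : ℤ) = m - l + 1 := by ring
    rw [e1, e2]; ring
  simp only [h1]
  rw [Finset.sum_add_distrib, Finset.sum_range_sub (fun l : ℕ => orbitPoint θ (m + 1 - (l : ℤ)) x i)]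
  simp only [Finset.sum_const, Finset.card_range, nsmul_eq_mul]
  have a1 := (orbit_mem θ (m + 1 - (n : ℤ)) x i).1
  have a2 := (orbit_mem θ (m + 1 - ((0 : ℕ) : ℤ)) x i).2
  linarith

theorem qn_prod_le (θ c : ℕ → ℝ) (hθ : ∀ i, 0 < θ i ∧ θ i < 1) (hc : ∀ i, 0 ≤ c i)
    (m : ℤ) (x : ℕ → ℝ) (n N : ℕ) :
    ∏ l ∈ Finset.range n, weight θ c (orbitPoint θ (m - l) x) ≤
      Real.exp (∑ i ∈ Finset.range N, c i - n * ∑ i ∈ Finset.range N, c i * θ i) := by
  have h1 : ∏ l ∈ Finset.range n, weight θ c (orbitPoint θ (m - l) x) ≤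
      ∏ l ∈ Finset.range n,
        Real.exp (-(∑ i ∈ Finset.range N, c i * (⌊orbitPoint θ (m - l) x i + θ i⌋ : ℝ))) :=
    Finset.prod_le_prod (fun l _ => weight_nonneg θ c _)
      (fun l _ => qn_weight_le θ c hθ hc _ (fun i => (orbit_mem θ _ x i).1) N)
  refine h1.trans ?_
  rw [← Real.exp_sum, Real.exp_le_exp, Finset.sum_neg_distrib, Finset.sum_comm]
  have h2 : ∀ i ∈ Finset.range N, c i * ((n : ℝ) * θ i - 1) ≤
      ∑ l ∈ Finset.range n, c i * (⌊orbitPoint θ (m - l) x i + θ i⌋ : ℝ) := by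
    intro i _
    rw [← Finset.mul_sum]
    exact mul_le_mul_of_nonneg_left (qn_sum_floor θ m x i n) (hc i)
  have h3 := Finset.sum_le_sum h2
  have h4 : ∑ i ∈ Finset.range N, c i * ((n : ℝ) * θ i - 1) =
      n * ∑ i ∈ Finset.range N, c i * θ i - ∑ i ∈ Finset.range N, c i := by
    rw [Finset.mul_sum, ← Finset.sum_sub_distrib]
    apply Finset.sum_congr rfl
    intro i _; ring
  rw [h4] at h3
  linarith

theorem qn_norm_pow_le (θ c : ℕ → ℝ) (hθ : ∀ i, 0 < θ i ∧ θ i < 1) (hc : ∀ i, 0 ≤ c i)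
    (T : pairSpace →L[ℂ] pairSpace) (hT : IsWeightedShift θ c T) (n N : ℕ) :
    ‖T ^ n‖ ≤ Real.exp (∑ i ∈ Finset.range N, c i - n * ∑ i ∈ Finset.range N, c i * θ i) := by
  refine ContinuousLinearMap.opNorm_le_bound _ (Real.exp_pos _).le fun g => ?_
  refine HI.ops_norm_le_of_ae (fun p : (ℕ → ℝ) × ℤ => (p.1, p.2 + (-(n : ℤ))))
    (mp_pair_shift (-(n : ℤ))) _ ((T ^ n) g) g ?_
  filter_upwards [T_pow_ae θ c T hT n g] with p hp
  rw [hp, norm_mul, Complex.norm_real, Real.norm_eq_abs,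
    abs_of_nonneg (Finset.prod_nonneg fun l _ => weight_nonneg θ c _), ← sub_eq_add_neg]
  exact mul_le_mul_of_nonneg_right (qn_prod_le θ c hθ hc (p.2 - 1) p.1 n N) (norm_nonneg _)

theorem qn_measurable_term (a b : ℝ) : Measurable fun t : ℝ => ENNReal.ofReal (a * (⌊t + b⌋ : ℝ)) := by
  refine ENNReal.measurable_ofReal.comp (measurable_const.mul ?_)
  have h1 : Measurable fun t : ℝ => ⌊t + b⌋ := Int.measurable_floor.comp (measurable_id.add_const _)
  exact (measurable_from_top : Measurable fun z : ℤ => (z : ℝ)).comp h1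

theorem qn_lintegral_floor (a b : ℝ) (ha : 0 ≤ a) (hb0 : 0 < b) (hb1 : b < 1) :
    ∫⁻ t, ENNReal.ofReal (a * (⌊t + b⌋ : ℝ)) ∂unitLebesgue ≤ ENNReal.ofReal (a * b) := by
  unfold unitLebesgue
  have h1 : ∫⁻ t in Set.Ico (0 : ℝ) 1, ENNReal.ofReal (a * (⌊t + b⌋ : ℝ)) ≤
      ∫⁻ t in Set.Ico (0 : ℝ) 1, (Set.Ico (1 - b) 1).indicator (fun _ => ENNReal.ofReal a) t := by
    refine setLIntegral_mono' measurableSet_Ico fun t ht => ?_
    rcases lt_or_ge t (1 - b) with h | h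
    · have : ⌊t + b⌋ = 0 := by
        rw [Int.floor_eq_iff]
        constructor
        · have := ht.1; push_cast; linarith
        · push_cast; linarith
      rw [this]; simp
    · have : ⌊t + b⌋ = 1 := by
        rw [Int.floor_eq_iff]
        constructor
        · push_cast; linarith
        · have := ht.2; push_cast; linarith
      have hmem : t ∈ Set.Ico (1 - b) 1 := Set.mem_Ico.2 ⟨h, ht.2⟩
      rw [this, Set.indicator_of_mem hmem]
      simp
  refine h1.trans ?_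
  rw [lintegral_indicator_const measurableSet_Ico, ENNReal.ofReal_mul ha]
  gcongr
  refine (Measure.restrict_apply_le _ _).trans ?_
  rw [Real.volume_Ico]
  apply ENNReal.ofReal_le_ofReal
  linarith

theorem qn_lintegral_dropCost (θ c : ℕ → ℝ) (hθ : ∀ i, 0 < θ i ∧ θ i < 1) (hc : ∀ i, 0 ≤ c i) :
    ∫⁻ x, dropCost θ c x ∂cubeMeasure ≤ ∑' i, ENNReal.ofReal (c i * θ i) := by
  unfold dropCost
  have hme : ∀ i : ℕ, AEMeasurable (fun x : ℕ → ℝ => ENNReal.ofReal (c i * (⌊x i + θ i⌋ : ℝ)))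
      cubeMeasure :=
    fun i => ((qn_measurable_term (c i) (θ i)).comp (measurable_pi_apply i)).aemeasurable
  rw [lintegral_tsum hme]
  refine ENNReal.tsum_le_tsum fun i => ?_
  have h := (measurePreserving_eval_infinitePi (fun _ : ℕ => unitLebesgue) i).lintegral_comp
    (qn_measurable_term (c i) (θ i))
  refine le_trans (le_of_eq ?_) (qn_lintegral_floor (c i) (θ i) (hc i) (hθ i).1 (hθ i).2)
  exact h

theorem qn_not_summable (θ c : ℕ → ℝ) (hθ : ∀ i, 0 < θ i ∧ θ i < 1) (hc : ∀ i, 0 ≤ c i)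
    (hlog : ∫⁻ x, ENNReal.ofReal (- Real.log (weight θ c x)) ∂cubeMeasure = ⊤) :
    ¬ Summable fun i => c i * θ i := by
  intro hs
  have h1 : ∫⁻ x, ENNReal.ofReal (- Real.log (weight θ c x)) ∂cubeMeasure ≤
      ∫⁻ x, dropCost θ c x ∂cubeMeasure := by
    refine lintegral_mono fun x => ?_
    unfold weight
    split_ifs with h
    · rw [h]; exact le_top
    · rw [Real.log_exp, neg_neg, ENNReal.ofReal_toReal h]
  have h2 := h1.trans (qn_lintegral_dropCost θ c hθ hc)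
  rw [hlog, ← ENNReal.ofReal_tsum_of_nonneg (fun i => mul_nonneg (hc i) (hθ i).1.le) hs] at h2
  exact absurd (lt_of_le_of_lt h2 ENNReal.ofReal_lt_top) (lt_irrefl _)

theorem summable_T (θ c : ℕ → ℝ) (hθ : ∀ i, 0 < θ i ∧ θ i < 1) (hc : ∀ i, 0 ≤ c i)
    (hlog : ∫⁻ x, ENNReal.ofReal (- Real.log (weight θ c x)) ∂cubeMeasure = ⊤)
    (T : pairSpace →L[ℂ] pairSpace) (hT : IsWeightedShift θ c T) (r : ℝ) (hr : 0 < r) :
    Summable fun n : ℕ => ‖T ^ n‖ / r ^ n := by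
  have htend := (not_summable_iff_tendsto_nat_atTop_of_nonneg
    (fun i => mul_nonneg (hc i) (hθ i).1.le)).1 (qn_not_summable θ c hθ hc hlog)
  obtain ⟨N, hN⟩ := (htend.eventually (Filter.eventually_gt_atTop (-Real.log r))).exists
  set S : ℝ := ∑ i ∈ Finset.range N, c i * θ i with hS
  set S' : ℝ := ∑ i ∈ Finset.range N, c i with hS'
  set q : ℝ := Real.exp (-S) / r with hq
  have hq0 : 0 ≤ q := by positivity
  have hq1 : q < 1 := by
    rw [hq, div_lt_one hr]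
    calc Real.exp (-S) < Real.exp (Real.log r) := Real.exp_lt_exp.2 (by linarith)
      _ = r := Real.exp_log hr
  refine Summable.of_nonneg_of_le (fun n => by positivity) (fun n => ?_)
    ((summable_geometric_of_lt_one hq0 hq1).mul_left (Real.exp S'))
  have h1 := qn_norm_pow_le θ c hθ hc T hT n N
  rw [hq, div_pow, ← Real.exp_nat_mul, ← mul_div_assoc, ← Real.exp_add]
  apply div_le_div_of_nonneg_right _ (by positivity)
  refine h1.trans (le_of_eq ?_)
  congr 1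
  ring

end Crest.Agent.HK
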