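import Mathlib
import Crest.Prelude.Def_ProductShift

/-! # S0151 project (HK), package G1: the rotation of the infinite torus -/

set_option autoImplicit false

namespace Crest.Agent.HK

open MeasureTheory Crest.AnalysisR.ProductShift

theorem rot_measurable_fract (a : ℝ) : Measurable (fun t : ℝ => Int.fract (t + a)) :=
  measurable_fract.comp (measurable_id.add_const a)

theorem rot_fract_map (a : ℝ) :
    unitLebesgue.map (fun t : ℝ => Int.fract (t + a)) = unitLebesgue := by
  ext s hs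
  rw [Measure.map_apply (rot_measurable_fract a) hs]
  unfold unitLebesgue
  rw [Measure.restrict_apply ((rot_measurable_fract a) hs), Measure.restrict_apply hs]
  set τ : ℝ := Int.fract a with hτ
  have hτ0 : 0 ≤ τ := Int.fract_nonneg a
  have hτ1 : τ < 1 := Int.fract_lt_one a
  have hfr : ∀ t : ℝ, Int.fract (t + a) = Int.fract (t + τ) := by
    intro t
    rw [Int.fract_eq_fract]
    refine ⟨⌊a⌋, ?_⟩
    have := Int.self_sub_floor a
    rw [hτ, ← this]; ring
  have hset : (fun t : ℝ => Int.fract (t + a)) ⁻¹' s ∩ Set.Ico 0 1 =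
      ((fun t : ℝ => t + τ) ⁻¹' (s ∩ Set.Ico τ 1)) ∪
        ((fun t : ℝ => t + (τ - 1)) ⁻¹' (s ∩ Set.Ico 0 τ)) := by
    ext t
    simp only [Set.mem_inter_iff, Set.mem_preimage, Set.mem_Ico, Set.mem_union]
    constructor
    · rintro ⟨h1, h2, h3⟩
      rw [hfr] at h1
      rcases lt_or_ge (t + τ) 1 with h | h
      · left
        rw [Int.fract_eq_self.2 ⟨by linarith, h⟩] at h1
        exact ⟨h1, by linarith, h⟩
      · right
        have : Int.fract (t + τ) = t + (τ - 1) := by
          rw [Int.fract_eq_iff]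
          exact ⟨by linarith, by linarith, 1, by push_cast; ring⟩
        rw [this] at h1
        exact ⟨h1, by linarith, by linarith⟩
    · rintro (⟨h1, h2, h3⟩ | ⟨h1, h2, h3⟩)
      · rw [hfr, Int.fract_eq_self.2 ⟨by linarith, h3⟩]
        exact ⟨h1, by linarith, by linarith⟩
      · have : Int.fract (t + τ) = t + (τ - 1) := by
          rw [Int.fract_eq_iff]
          exact ⟨by linarith, by linarith, 1, by push_cast; ring⟩
        rw [hfr, this]
        exact ⟨h1, by linarith, by linarith⟩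
  rw [hset]
  have hm1 : MeasurableSet (s ∩ Set.Ico τ 1) := hs.inter measurableSet_Ico
  have hm2 : MeasurableSet (s ∩ Set.Ico 0 τ) := hs.inter measurableSet_Ico
  have hm3 : MeasurableSet ((fun t : ℝ => t + (τ - 1)) ⁻¹' (s ∩ Set.Ico 0 τ)) :=
    (measurable_add_const (τ - 1)) hm2
  rw [measure_union _ hm3]
  · rw [measure_preimage_add_right, measure_preimage_add_right, ← measure_union _ hm2]
    · congr 1
      rw [← Set.inter_union_distrib_left, Set.union_comm, Set.Ico_union_Ico_eq_Ico hτ0 hτ1.le]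
    · rw [Set.disjoint_left]
      rintro x ⟨_, h1, _⟩ ⟨_, _, h2⟩
      linarith
  · rw [Set.disjoint_left]
    rintro x ⟨_, _, h1⟩ ⟨_, h2, _⟩
    simp only at h1 h2
    linarith

theorem mp_orbit (θ : ℕ → ℝ) (k : ℤ) :
    MeasurePreserving (orbitPoint θ k) cubeMeasure cubeMeasure := by
  have hm : ∀ i : ℕ, Measurable (fun t : ℝ => Int.fract (t + (k : ℝ) * θ i)) :=
    fun i => rot_measurable_fract _
  refine ⟨measurable_pi_lambda _ fun i => (hm i).comp (measurable_pi_apply i), ?_⟩
  have h := Measure.infinitePi_map_pi (μ := fun _ : ℕ => unitLebesgue)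
    (f := fun (i : ℕ) (t : ℝ) => Int.fract (t + (k : ℝ) * θ i)) hm
  unfold cubeMeasure
  have h2 : (fun i : ℕ => unitLebesgue.map (fun t : ℝ => Int.fract (t + (k : ℝ) * θ i))) =
      fun _ : ℕ => unitLebesgue := by
    funext i; exact rot_fract_map _
  rw [h2] at h
  exact h

theorem orbit_add (θ : ℕ → ℝ) (j k : ℤ) (x : ℕ → ℝ) :
    orbitPoint θ j (orbitPoint θ k x) = orbitPoint θ (j + k) x := by
  funext i
  unfold orbitPoint
  rw [Int.fract_eq_fract]
  refine ⟨-⌊x i + (k : ℝ) * θ i⌋, ?_⟩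
  have := Int.self_sub_floor (x i + (k : ℝ) * θ i)
  rw [← this]; push_cast; ring

theorem cube_ae : ∀ᵐ x ∂cubeMeasure, ∀ i, 0 ≤ x i ∧ x i < 1 := by
  rw [ae_all_iff]
  intro i
  have h : ∀ᵐ t ∂unitLebesgue, 0 ≤ t ∧ t < 1 := by
    unfold unitLebesgue
    filter_upwards [ae_restrict_mem measurableSet_Ico] with t ht using ht
  exact (measurePreserving_eval_infinitePi (fun _ : ℕ => unitLebesgue) i).quasiMeasurePreserving.ae h

theorem orbit_zero_ae (θ : ℕ → ℝ) : ∀ᵐ x ∂cubeMeasure, orbitPoint θ 0 x = x := by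
  filter_upwards [cube_ae] with x hx
  funext i
  unfold orbitPoint
  simp only [Int.cast_zero, zero_mul, add_zero]
  exact Int.fract_eq_self.2 (hx i)

theorem orbit_mem (θ : ℕ → ℝ) (k : ℤ) (x : ℕ → ℝ) (i : ℕ) :
    0 ≤ orbitPoint θ k x i ∧ orbitPoint θ k x i < 1 :=
  ⟨Int.fract_nonneg _, Int.fract_lt_one _⟩

theorem measurable_dropCost (θ c : ℕ → ℝ) : Measurable (dropCost θ c) := by
  unfold dropCost
  refine Measurable.ennreal_tsum fun i => ?_
  refine ENNReal.measurable_ofReal.comp (measurable_const.mul ?_)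
  have h1 : Measurable fun x : ℕ → ℝ => ⌊x i + θ i⌋ :=
    Int.measurable_floor.comp ((measurable_pi_apply i).add_const _)
  exact (measurable_from_top : Measurable fun z : ℤ => (z : ℝ)).comp h1

theorem measurable_weight (θ c : ℕ → ℝ) : Measurable (weight θ c) := by
  unfold weight
  refine Measurable.ite (measurable_dropCost θ c (measurableSet_singleton ⊤)) measurable_const ?_
  exact Real.measurable_exp.comp (measurable_dropCost θ c).ennreal_toReal.neg

theorem weight_nonneg (θ c : ℕ → ℝ) (x : ℕ → ℝ) : 0 ≤ weight θ c x := by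
  unfold weight
  split_ifs
  · exact le_rfl
  · exact (Real.exp_pos _).le

theorem weight_le_one (θ c : ℕ → ℝ) (x : ℕ → ℝ) : weight θ c x ≤ 1 := by
  unfold weight
  split_ifs
  · exact zero_le_one
  · rw [Real.exp_le_one_iff]
    have := ENNReal.toReal_nonneg (a := dropCost θ c x)
    linarith

/-- `a.e.` on the product with counting measure. -/
theorem ae_pair_of_ae {P : (ℕ → ℝ) × ℤ → Prop} (h : ∀ᵐ x ∂cubeMeasure, ∀ j : ℤ, P (x, j)) :
    ∀ᵐ p ∂pairMeasure, P p := by
  rw [ae_iff] at h ⊢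
  set N : Set (ℕ → ℝ) := {x | ¬ ∀ j : ℤ, P (x, j)} with hN
  have hsub : {p : (ℕ → ℝ) × ℤ | ¬ P p} ⊆ N ×ˢ (Set.univ : Set ℤ) := by
    rintro ⟨x, j⟩ hp
    refine ⟨?_, trivial⟩
    intro hall
    exact hp (hall j)
  refine measure_mono_null hsub ?_
  have h2 := Measure.prod_prod_le (μ := cubeMeasure) (ν := (Measure.count : Measure ℤ)) N Set.univ
  rw [h, zero_mul] at h2
  exact le_antisymm h2 zero_le

theorem ae_of_ae_pair {P : (ℕ → ℝ) × ℤ → Prop} (h : ∀ᵐ p ∂pairMeasure, P p) :
    ∀ᵐ x ∂cubeMeasure, ∀ j : ℤ, P (x, j) := by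
  have h2 := Measure.ae_ae_of_ae_prod (μ := cubeMeasure) (ν := (Measure.count : Measure ℤ)) h
  filter_upwards [h2] with x hx
  exact Measure.ae_count_iff.1 hx

/-- skew maps `(x, k) ↦ (σ^a x, k + b)` preserve the pair measure. -/
theorem mp_pair (θ : ℕ → ℝ) (a b : ℤ) :
    MeasurePreserving (fun p : (ℕ → ℝ) × ℤ => (orbitPoint θ a p.1, p.2 + b)) pairMeasure pairMeasure :=
  (mp_orbit θ a).prod (measurePreserving_add_right Measure.count b)

theorem mp_pair_shift (b : ℤ) :
    MeasurePreserving (fun p : (ℕ → ℝ) × ℤ => (p.1, p.2 + b)) pairMeasure pairMeasure :=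
  (MeasurePreserving.id cubeMeasure).prod (measurePreserving_add_right Measure.count b)

theorem vacuum_ae : (vacuumVector : (ℕ → ℝ) × ℤ → ℂ) =ᵐ[pairMeasure]
    fun p => if p.2 = 0 then 1 else 0 := by
  unfold vacuumVector
  filter_upwards [indicatorConstLp_coeFn (μ := pairMeasure) (p := 2)
    (hs := MeasurableSet.univ.prod (measurableSet_singleton (0 : ℤ))) (c := (1 : ℂ))] with p hp
  rw [hp]
  by_cases h : p.2 = 0
  · rw [if_pos h, Set.indicator_of_mem]
    exact ⟨trivial, h⟩
  · rw [if_neg h, Set.indicator_of_notMem]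
    exact fun hc => h hc.2

theorem rot_measure_slice :
    pairMeasure ((Set.univ : Set (ℕ → ℝ)) ×ˢ ({0} : Set ℤ)) = 1 := by
  rw [pairMeasure, Measure.prod_prod, measure_univ, Measure.count_singleton, one_mul]

theorem norm_vacuum : ‖vacuumVector‖ = 1 := by
  unfold vacuumVector
  rw [norm_indicatorConstLp (by norm_num) (by norm_num)]
  simp [Measure.real, rot_measure_slice]

/-- inner product against the vacuum. -/
theorem inner_vacuum (g : pairSpace) :
    inner ℂ vacuumVector g = ∫ x, (g : (ℕ → ℝ) × ℤ → ℂ) (x, 0) ∂cubeMeasure := by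
  unfold vacuumVector
  rw [L2.inner_indicatorConstLp_one]
  have hint : IntegrableOn (g : (ℕ → ℝ) × ℤ → ℂ)
      ((Set.univ : Set (ℕ → ℝ)) ×ˢ ({0} : Set ℤ)) pairMeasure :=
    integrableOn_Lp_of_measure_ne_top g (by norm_num) (by rw [rot_measure_slice]; exact ENNReal.one_ne_top)
  have h3 := setIntegral_prod (μ := cubeMeasure) (ν := (Measure.count : Measure ℤ))
    (g : (ℕ → ℝ) × ℤ → ℂ) (s := Set.univ) (t := ({0} : Set ℤ)) hint
  rw [show cubeMeasure.prod Measure.count = pairMeasure from rfl] at h3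
  rw [h3]
  simp [Measure.restrict_singleton]

end Crest.Agent.HK
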