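import Crest.Agent.Lib_HK_Rot
import Crest.Agent.Lib_HI_WC

/-! # S0151 project (HK), package G2: the vacuum vector is tracial -/

set_option autoImplicit false

namespace Crest.Agent.HK

open MeasureTheory Crest.AnalysisR.ProductShift Crest.Agent.HI

theorem T_pow_ae (θ c : ℕ → ℝ) (T : pairSpace →L[ℂ] pairSpace) (hT : IsWeightedShift θ c T)
    (n : ℕ) (g : pairSpace) : ((T ^ n) g : (ℕ → ℝ) × ℤ → ℂ) =ᵐ[pairMeasure]
    fun p => ((∏ l ∈ Finset.range n, weight θ c (orbitPoint θ (p.2 - 1 - l) p.1) : ℝ) : ℂ) *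
      (g : (ℕ → ℝ) × ℤ → ℂ) (p.1, p.2 - n) := by
  induction n with
  | zero =>
    filter_upwards with p
    simp
  | succ n ih =>
    have h1 := hT ((T ^ n) g)
    have h2 := ops_ae_comp (mp_pair_shift (-1)) ih
    rw [pow_succ']
    change (T ((T ^ n) g) : (ℕ → ℝ) × ℤ → ℂ) =ᵐ[pairMeasure] _
    filter_upwards [h1, h2] with p hp1 hp2
    rw [hp1]
    have e1 : p.2 - 1 = p.2 + -1 := by ring
    rw [e1, hp2, Finset.prod_range_succ']
    have e2 : p.2 + -1 - (n : ℤ) = p.2 - ((n + 1 : ℕ) : ℤ) := by push_cast; ring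
    have e3 : ∀ l : ℕ, p.2 + -1 - 1 - (l : ℤ) = p.2 + -1 - ((l + 1 : ℕ) : ℤ) := by
      intro l; push_cast; ring
    have e4 : p.2 + -1 - ((0 : ℕ) : ℤ) = p.2 + -1 := by push_cast; ring
    rw [e2, e4]
    simp only [e3]
    push_cast
    ring

theorem vac_ae : ∀ᵐ x ∂cubeMeasure, ∀ j : ℤ,
    (vacuumVector : (ℕ → ℝ) × ℤ → ℂ) (x, j) = if j = 0 then 1 else 0 :=
  ae_of_ae_pair (P := fun p => (vacuumVector : (ℕ → ℝ) × ℤ → ℂ) p = if p.2 = 0 then 1 else 0)
    vacuum_ae

theorem moments_T (θ c : ℕ → ℝ) (T : pairSpace →L[ℂ] pairSpace) (hT : IsWeightedShift θ c T)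
    (n : ℕ) (hn : 1 ≤ n) : inner ℂ vacuumVector ((T ^ n) vacuumVector) = 0 := by
  rw [inner_vacuum]
  have h1 := ae_of_ae_pair (T_pow_ae θ c T hT n vacuumVector)
  have h2 : ∀ᵐ x ∂cubeMeasure, ((T ^ n) vacuumVector : (ℕ → ℝ) × ℤ → ℂ) (x, 0) = 0 := by
    filter_upwards [h1, vac_ae] with x hx1 hx2
    rw [hx1 0]
    rw [hx2]
    have : (0 : ℤ) - (n : ℤ) ≠ 0 := by omega
    rw [if_neg this, mul_zero]
  rw [integral_congr_ae h2]
  simp


section ops

variable (θ c : ℕ → ℝ)

theorem tr_meas_adj : Measurable fun p : (ℕ → ℝ) × ℤ =>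
    ((weight θ c (orbitPoint θ p.2 p.1) : ℝ) : ℂ) :=
  measurable_from_prod_countable_left fun j =>
    Complex.measurable_ofReal.comp ((measurable_weight θ c).comp (mp_orbit θ j).measurable)

theorem tr_meas_r : Measurable fun p : (ℕ → ℝ) × ℤ => ((weight θ c p.1 : ℝ) : ℂ) :=
  Complex.measurable_ofReal.comp ((measurable_weight θ c).comp measurable_fst)

theorem tr_norm_w (x : ℕ → ℝ) : ‖((weight θ c x : ℝ) : ℂ)‖ ≤ 1 := by
  rw [Complex.norm_real, Real.norm_eq_abs, abs_of_nonneg (weight_nonneg θ c x)]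
  exact weight_le_one θ c x

/-- the adjoint of `T`. -/
noncomputable def opA : pairSpace →L[ℂ] pairSpace :=
  ops_wc (fun p : (ℕ → ℝ) × ℤ => ((weight θ c (orbitPoint θ p.2 p.1) : ℝ) : ℂ)) (tr_meas_adj θ c) 1
    (Filter.Eventually.of_forall fun p => tr_norm_w θ c _)
    (fun p => (p.1, p.2 + 1)) (mp_pair_shift 1)

theorem opA_ae (g : pairSpace) : (opA θ c g : (ℕ → ℝ) × ℤ → ℂ) =ᵐ[pairMeasure]
    fun p => ((weight θ c (orbitPoint θ p.2 p.1) : ℝ) : ℂ) * (g : (ℕ → ℝ) × ℤ → ℂ) (p.1, p.2 + 1) :=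
  ops_wc_ae _ _ _ _ _ _ g

/-- right multiplication by `T`. -/
noncomputable def opR : pairSpace →L[ℂ] pairSpace :=
  ops_wc (fun p : (ℕ → ℝ) × ℤ => ((weight θ c p.1 : ℝ) : ℂ)) (tr_meas_r θ c) 1
    (Filter.Eventually.of_forall fun p => tr_norm_w θ c _)
    (fun p => (orbitPoint θ 1 p.1, p.2 + -1)) (mp_pair θ 1 (-1))

theorem opR_ae (g : pairSpace) : (opR θ c g : (ℕ → ℝ) × ℤ → ℂ) =ᵐ[pairMeasure]
    fun p => ((weight θ c p.1 : ℝ) : ℂ) * (g : (ℕ → ℝ) × ℤ → ℂ) (orbitPoint θ 1 p.1, p.2 + -1) :=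
  ops_wc_ae _ _ _ _ _ _ g

variable {θ c}

theorem star_T (T : pairSpace →L[ℂ] pairSpace) (hT : IsWeightedShift θ c T) :
    star T = opA θ c := by
  rw [ContinuousLinearMap.star_eq_adjoint]
  symm
  rw [ContinuousLinearMap.eq_adjoint_iff]
  intro h g
  rw [L2.inner_def, L2.inner_def]
  have hm : AEStronglyMeasurable (fun q => inner ℂ ((h : (ℕ → ℝ) × ℤ → ℂ) q)
      ((T g : (ℕ → ℝ) × ℤ → ℂ) q)) (Measure.map (fun p : (ℕ → ℝ) × ℤ => (p.1, p.2 + 1)) pairMeasure) := by
    rw [(mp_pair_shift 1).map_eq]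
    exact (L2.integrable_inner h (T g)).aestronglyMeasurable
  have h1 := integral_map (mp_pair_shift 1).measurable.aemeasurable hm
  rw [(mp_pair_shift 1).map_eq] at h1
  rw [h1]
  apply integral_congr_ae
  filter_upwards [opA_ae θ c h, ops_ae_comp (mp_pair_shift 1) (hT g)] with p hp1 hp2
  rw [hp1, hp2]
  simp only [add_sub_cancel_right, RCLike.inner_apply, map_mul, Complex.conj_ofReal]
  ring

theorem opR_comm_T (T : pairSpace →L[ℂ] pairSpace) (hT : IsWeightedShift θ c T) :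
    opR θ c * T = T * opR θ c := by
  ext1 g
  change opR θ c (T g) = T (opR θ c g)
  refine Lp.ext ?_
  filter_upwards [opR_ae θ c (T g), hT (opR θ c g), ops_ae_comp (mp_pair θ 1 (-1)) (hT g),
    ops_ae_comp (mp_pair_shift (-1)) (opR_ae θ c g)] with p h1 h2 h3 h4
  rw [h1, h2, h3]
  have e1 : p.2 - 1 = p.2 + -1 := by ring
  rw [e1, h4]
  simp only [orbit_add]
  have e2 : p.2 + -1 - 1 + 1 = p.2 + -1 := by ring
  have e3 : p.2 + -1 - 1 = p.2 + -1 + -1 := by ring
  rw [e2, e3]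
  ring

theorem opR_comm_A : opR θ c * opA θ c = opA θ c * opR θ c := by
  ext1 g
  change opR θ c (opA θ c g) = opA θ c (opR θ c g)
  refine Lp.ext ?_
  filter_upwards [opR_ae θ c (opA θ c g), opA_ae θ c (opR θ c g),
    ops_ae_comp (mp_pair θ 1 (-1)) (opA_ae θ c g),
    ops_ae_comp (mp_pair_shift 1) (opR_ae θ c g)] with p h1 h2 h3 h4
  rw [h1, h2, h3, h4]
  simp only [orbit_add]
  have e2 : p.2 + -1 + 1 = p.2 := by ring
  have e3 : p.2 + 1 + -1 = p.2 := by ring
  rw [e2, e3]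
  ring

theorem opR_vac (T : pairSpace →L[ℂ] pairSpace) (hT : IsWeightedShift θ c T) :
    opR θ c vacuumVector = T vacuumVector := by
  refine Lp.ext ?_
  have h0 : ∀ᵐ p ∂pairMeasure, orbitPoint θ 0 p.1 = p.1 :=
    ae_pair_of_ae (P := fun p => orbitPoint θ 0 p.1 = p.1)
      ((orbit_zero_ae θ).mono fun x hx _ => hx)
  filter_upwards [opR_ae θ c vacuumVector, hT vacuumVector,
    ops_ae_comp (mp_pair θ 1 (-1)) vacuum_ae, ops_ae_comp (mp_pair_shift (-1)) vacuum_ae, h0]
    with p h1 h2 h3 h4 h5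
  rw [h1, h2, h3]
  have e1 : p.2 - 1 = p.2 + -1 := by ring
  rw [e1, h4]
  by_cases hp : p.2 + -1 = 0
  · simp only [hp, if_true, h5]
  · simp only [hp, if_false, mul_zero]

theorem inner_vac_opR (T : pairSpace →L[ℂ] pairSpace) (hT : IsWeightedShift θ c T) (η : pairSpace) :
    inner ℂ vacuumVector (opR θ c η) = inner ℂ vacuumVector (T η) := by
  rw [inner_vacuum, inner_vacuum]
  have hsm : StronglyMeasurable fun x : ℕ → ℝ => (T η : (ℕ → ℝ) × ℤ → ℂ) (x, 0) :=
    (Lp.stronglyMeasurable (T η)).comp_measurable measurable_prodMk_right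
  have hm : AEStronglyMeasurable (fun x : ℕ → ℝ => (T η : (ℕ → ℝ) × ℤ → ℂ) (x, 0))
      (Measure.map (orbitPoint θ 1) cubeMeasure) := hsm.aestronglyMeasurable
  have h1 := integral_map (mp_orbit θ 1).measurable.aemeasurable hm
  rw [(mp_orbit θ 1).map_eq] at h1
  rw [h1]
  apply integral_congr_ae
  have h2 := ae_of_ae_pair (opR_ae θ c η)
  have h3 := (mp_orbit θ 1).quasiMeasurePreserving.ae (ae_of_ae_pair (hT η))
  filter_upwards [h2, h3, orbit_zero_ae θ] with x hx2 hx3 hx0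
  rw [hx2 0, hx3 0]
  simp only [orbit_add]
  have e1 : (0 : ℤ) - 1 + 1 = 0 := by ring
  have e2 : (0 : ℤ) - 1 = 0 + -1 := by ring
  rw [e1, hx0, e2]

end ops

theorem trace_T (θ c : ℕ → ℝ) (T : pairSpace →L[ℂ] pairSpace) (hT : IsWeightedShift θ c T) :
    ∀ X ∈ Algebra.adjoin ℂ ({T, star T} : Set (pairSpace →L[ℂ] pairSpace)),
    ∀ Y ∈ Algebra.adjoin ℂ ({T, star T} : Set (pairSpace →L[ℂ] pairSpace)),
      inner ℂ vacuumVector ((X * Y) vacuumVector) = inner ℂ vacuumVector ((Y * X) vacuumVector) := by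
  set 𝒜 := Algebra.adjoin ℂ ({T, star T} : Set (pairSpace →L[ℂ] pairSpace)) with h𝒜
  -- every element commutes with `opR`
  have hcomm : ∀ Y ∈ 𝒜, opR θ c * Y = Y * opR θ c := by
    intro Y hY
    induction hY using Algebra.adjoin_induction with
    | mem a ha =>
      rcases ha with rfl | ha
      · exact opR_comm_T _ hT
      · rw [Set.mem_singleton_iff] at ha
        rw [ha, star_T T hT]
        exact opR_comm_A
    | algebraMap r => exact (Algebra.commutes r (opR θ c)).symm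
    | add a b _ _ iha ihb => rw [mul_add, add_mul, iha, ihb]
    | mul a b _ _ iha ihb => rw [← mul_assoc, iha, mul_assoc, ihb, mul_assoc]
  -- star closed
  have hstar : ∀ Y ∈ 𝒜, star Y ∈ 𝒜 := by
    intro Y hY
    induction hY using Algebra.adjoin_induction with
    | mem a ha =>
      rcases ha with rfl | ha
      · exact Algebra.subset_adjoin (by simp)
      · rw [Set.mem_singleton_iff] at ha
        rw [ha, star_star]
        exact Algebra.subset_adjoin (by simp)
    | algebraMap r =>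
      rw [← algebraMap_star_comm]
      exact Subalgebra.algebraMap_mem _ _
    | add a b _ _ iha ihb => rw [star_add]; exact Subalgebra.add_mem _ iha ihb
    | mul a b _ _ iha ihb => rw [star_mul]; exact Subalgebra.mul_mem _ ihb iha
  -- generator `T`
  have hgT : ∀ Y ∈ 𝒜, inner ℂ vacuumVector ((T * Y) vacuumVector) =
      inner ℂ vacuumVector ((Y * T) vacuumVector) := by
    intro Y hY
    change inner ℂ vacuumVector (T (Y vacuumVector)) = inner ℂ vacuumVector (Y (T vacuumVector))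
    rw [← inner_vac_opR T hT, ← opR_vac T hT]
    change inner ℂ vacuumVector ((opR θ c * Y) vacuumVector) =
      inner ℂ vacuumVector ((Y * opR θ c) vacuumVector)
    rw [hcomm Y hY]
  -- generator `star T`
  have hgS : ∀ Y ∈ 𝒜, inner ℂ vacuumVector ((star T * Y) vacuumVector) =
      inner ℂ vacuumVector ((Y * star T) vacuumVector) := by
    intro Y hY
    have h1 := hgT (star Y) (hstar Y hY)
    have h2 : ∀ Z : pairSpace →L[ℂ] pairSpace, inner ℂ vacuumVector (Z vacuumVector) =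
        starRingEnd ℂ (inner ℂ vacuumVector ((star Z) vacuumVector)) := by
      intro Z
      rw [ContinuousLinearMap.star_eq_adjoint, ContinuousLinearMap.adjoint_inner_right,
        inner_conj_symm]
    rw [h2 (star T * Y), h2 (Y * star T), star_mul, star_mul, star_star, h1]
  intro X hX
  induction hX using Algebra.adjoin_induction with
  | mem a ha =>
    rcases ha with rfl | ha
    · exact hgT
    · rw [Set.mem_singleton_iff] at ha
      rw [ha]
      exact hgS
  | algebraMap r =>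
    intro Y _
    rw [Algebra.commutes r Y]
  | add a b _ _ iha ihb =>
    intro Y hY
    rw [add_mul, mul_add, ContinuousLinearMap.add_apply, ContinuousLinearMap.add_apply,
      inner_add_right, inner_add_right, iha Y hY, ihb Y hY]
  | mul a b ha hb iha ihb =>
    intro Y hY
    rw [mul_assoc, iha (b * Y) (Subalgebra.mul_mem _ hb hY), mul_assoc,
      ihb (Y * a) (Subalgebra.mul_mem _ hY ha), mul_assoc]

end Crest.Agent.HK
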