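import Mathlib

/-! # S0151 project (HK), package G4, sub-lemma Za: tangent line bound for `cfc log` -/

set_option autoImplicit false

namespace Crest.Agent.HK

theorem zero_tangent {H : Type*} [NormedAddCommGroup H] [InnerProductSpace ℂ H] [CompleteSpace H]
    (T : H →L[ℂ] H) (ε : ℝ) (hε : 0 < ε) (a : ℝ) (ha : 0 < a) (η : H) :
    RCLike.re (inner ℂ η (cfc Real.log (star T * T + ((ε : ℝ) : ℂ) • (1 : H →L[ℂ] H)) η)) ≤
      (Real.log a - 1) * ‖η‖ ^ 2 + (‖T η‖ ^ 2 + ε * ‖η‖ ^ 2) / a := by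
  classical
  obtain ⟨B, hB⟩ : ∃ B : H →L[ℂ] H, B = star T * T + ((ε : ℝ) : ℂ) • (1 : H →L[ℂ] H) := ⟨_, rfl⟩
  rw [← hB]
  have hB' : B = star T * T + algebraMap ℝ (H →L[ℂ] H) ε := by
    rw [hB, Algebra.algebraMap_eq_smul_one, Complex.coe_smul]
  have hle : algebraMap ℝ (H →L[ℂ] H) ε ≤ B := by
    rw [hB']
    exact le_add_of_nonneg_left (star_mul_self_nonneg T)
  have hBsa : IsSelfAdjoint B := by
    rw [hB']
    exact (IsSelfAdjoint.star_mul_self T).add (IsSelfAdjoint.algebraMap _ (IsSelfAdjoint.all ε))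
  have hsp : ∀ x ∈ spectrum ℝ B, ε ≤ x := by
    exact (algebraMap_le_iff_le_spectrum (a := B) (r := ε)).1 hle
  have hmono : cfc Real.log B ≤ cfc (fun t : ℝ => (Real.log a - 1) + a⁻¹ * t) B := by
    refine cfc_mono (fun x hx => ?_) ?_ ?_
    · have hx0 : 0 < x := hε.trans_le (hsp x hx)
      have h1 := Real.log_le_sub_one_of_pos (div_pos hx0 ha)
      rw [Real.log_div hx0.ne' ha.ne'] at h1
      have : x / a = a⁻¹ * x := by rw [div_eq_mul_inv, mul_comm]
      linarith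
    · intro x hx
      exact (Real.continuousAt_log (hε.trans_le (hsp x hx)).ne').continuousWithinAt
    · fun_prop
  have haff : cfc (fun t : ℝ => (Real.log a - 1) + a⁻¹ * t) B =
      (Real.log a - 1) • (1 : H →L[ℂ] H) + a⁻¹ • B := by
    rw [cfc_add B (fun _ : ℝ => Real.log a - 1) (fun t : ℝ => a⁻¹ * t) , cfc_const _ B,
      cfc_const_mul_id a⁻¹ B, Algebra.algebraMap_eq_smul_one]
  rw [haff] at hmono
  rw [ContinuousLinearMap.le_def] at hmono
  have h := hmono.2 η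
  rw [ContinuousLinearMap.reApplyInnerSelf_apply] at h
  have e1 : ((Real.log a - 1) • (1 : H →L[ℂ] H) + a⁻¹ • B - cfc Real.log B) η =
      (((Real.log a - 1 : ℝ) : ℂ)) • η + ((a⁻¹ : ℝ) : ℂ) • (B η) - cfc Real.log B η := by
    rw [Complex.coe_smul, Complex.coe_smul]
    simp only [ContinuousLinearMap.sub_apply, ContinuousLinearMap.add_apply,
      ContinuousLinearMap.smul_apply, ContinuousLinearMap.one_apply]
  have e2 : B η = star T (T η) + ((ε : ℝ) : ℂ) • η := by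
    rw [hB]; simp
  have e3 : RCLike.re (inner ℂ (B η) η) = ‖T η‖ ^ 2 + ε * ‖η‖ ^ 2 := by
    rw [e2, inner_add_left, ContinuousLinearMap.star_eq_adjoint,
      ContinuousLinearMap.adjoint_inner_left, inner_smul_left, map_add]
    rw [inner_self_eq_norm_sq (𝕜 := ℂ) (T η)]
    congr 1
    rw [Complex.conj_ofReal]
    have := inner_self_eq_norm_sq (𝕜 := ℂ) η
    simp only [RCLike.re_to_complex] at this ⊢
    rw [Complex.re_ofReal_mul, this]
  have e4 : RCLike.re (inner ℂ (cfc Real.log B η) η) = RCLike.re (inner ℂ η (cfc Real.log B η)) :=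
    inner_re_symm (𝕜 := ℂ) _ _
  rw [e1, inner_sub_left, inner_add_left, inner_smul_left, inner_smul_left, map_sub, map_add,
    Complex.conj_ofReal, Complex.conj_ofReal, e4] at h
  have e5 := inner_self_eq_norm_sq (𝕜 := ℂ) η
  simp only [RCLike.re_to_complex] at h e3 e5 ⊢
  rw [Complex.re_ofReal_mul, Complex.re_ofReal_mul, e3, e5] at h
  have e6 : (‖T η‖ ^ 2 + ε * ‖η‖ ^ 2) / a = a⁻¹ * (‖T η‖ ^ 2 + ε * ‖η‖ ^ 2) := by
    rw [div_eq_mul_inv, mul_comm]
  rw [e6]
  linarith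

end Crest.Agent.HK
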