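import Mathlib

set_option autoImplicit false

namespace Crest.Agent.HK

open MeasureTheory

theorem zero_levels {Ω : Type*} [MeasurableSpace Ω] (μ : MeasureTheory.Measure Ω)
    [MeasureTheory.IsProbabilityMeasure μ] (w : Ω → ℝ) (hw : Measurable w)
    (hlog : ∫⁻ x, ENNReal.ofReal (- Real.log (w x)) ∂μ = ⊤) (M : ℝ) :
    ∃ J : ℕ, M ≤ ∑ j ∈ Finset.range (J + 1),
      (j : ℝ) * (μ {x | min ⌊- Real.log (w x)⌋₊ J = j}).toReal := by
  set N : Ω → ℕ := fun x => ⌊- Real.log (w x)⌋₊ with hN
  have hNm : Measurable N := (Real.measurable_log.comp hw).neg.nat_floor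
  have hcast : Measurable (fun n : ℕ => (n : ENNReal)) := measurable_from_top
  have h1 : ∫⁻ x, (N x : ENNReal) ∂μ = ⊤ := by
    by_contra hne
    have hle : ∫⁻ x, ENNReal.ofReal (- Real.log (w x)) ∂μ ≤ ∫⁻ x, ((N x : ENNReal) + 1) ∂μ := by
      apply lintegral_mono
      intro x
      have h : - Real.log (w x) ≤ (N x : ℝ) + 1 := (Nat.lt_floor_add_one _).le
      calc ENNReal.ofReal (- Real.log (w x)) ≤ ENNReal.ofReal ((N x : ℝ) + 1) :=
            ENNReal.ofReal_le_ofReal h
        _ = (N x : ENNReal) + 1 := by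
          rw [ENNReal.ofReal_add (Nat.cast_nonneg _) zero_le_one, ENNReal.ofReal_natCast,
            ENNReal.ofReal_one]
    rw [hlog, lintegral_add_right _ measurable_const, lintegral_const, measure_univ, mul_one]
      at hle
    have h : ∫⁻ x, (N x : ENNReal) ∂μ + 1 = ⊤ := top_le_iff.mp hle
    rcases ENNReal.add_eq_top.mp h with h | h
    · exact hne h
    · exact ENNReal.one_ne_top h
  have hgm : ∀ J : ℕ, Measurable (fun x => ((min (N x) J : ℕ) : ENNReal)) := fun J =>
    hcast.comp (hNm.min measurable_const)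
  have h2 : ∫⁻ x, (N x : ENNReal) ∂μ = ⨆ J : ℕ, ∫⁻ x, ((min (N x) J : ℕ) : ENNReal) ∂μ := by
    rw [← lintegral_iSup hgm]
    · apply lintegral_congr
      intro x
      apply le_antisymm
      · exact le_iSup_of_le (N x) (by simp)
      · exact iSup_le fun J => by exact_mod_cast min_le_left _ _
    · intro J K hJK x
      have : min (N x) J ≤ min (N x) K := min_le_min_left _ hJK
      show ((min (N x) J : ℕ) : ENNReal) ≤ ((min (N x) K : ℕ) : ENNReal)
      exact_mod_cast this
  have h3 : ∃ J : ℕ, ENNReal.ofReal M < ∫⁻ x, ((min (N x) J : ℕ) : ENNReal) ∂μ := by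
    have h : ENNReal.ofReal M < ⨆ J : ℕ, ∫⁻ x, ((min (N x) J : ℕ) : ENNReal) ∂μ := by
      rw [← h2, h1]; exact ENNReal.ofReal_lt_top
    exact lt_iSup_iff.mp h
  obtain ⟨J, hJ⟩ := h3
  refine ⟨J, ?_⟩
  have hset : ∀ j : ℕ, MeasurableSet {x | min (N x) J = j} := fun j =>
    (hNm.min measurable_const) (measurableSet_singleton j)
  have h4 : ∫⁻ x, ((min (N x) J : ℕ) : ENNReal) ∂μ
      = ∑ j ∈ Finset.range (J + 1), (j : ENNReal) * μ {x | min (N x) J = j} := by
    have hx : ∀ x, ((min (N x) J : ℕ) : ENNReal) = ∑ j ∈ Finset.range (J + 1),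
        (j : ENNReal) * Set.indicator {x | min (N x) J = j} (1 : Ω → ENNReal) x := by
      intro x
      rw [Finset.sum_eq_single (min (N x) J)]
      · simp
      · intro b _ hb
        have : x ∉ {x | min (N x) J = b} := fun h => hb h.symm
        rw [Set.indicator_of_notMem this, mul_zero]
      · intro h
        exact absurd (Finset.mem_range.mpr (Nat.lt_succ_of_le (min_le_right _ _))) h
    simp_rw [hx]
    rw [lintegral_finsetSum]
    · apply Finset.sum_congr rfl
      intro j _
      rw [lintegral_const_mul _ (measurable_one.indicator (hset j)), lintegral_indicator_one (hset j)]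
    · intro j _
      exact (measurable_one.indicator (hset j)).const_mul _
  have hfin : ∀ j ∈ Finset.range (J + 1), (j : ENNReal) * μ {x | min (N x) J = j} ≠ ⊤ :=
    fun j _ => ENNReal.mul_ne_top (ENNReal.natCast_ne_top j) (measure_ne_top _ _)
  have h5 : (∑ j ∈ Finset.range (J + 1), (j : ENNReal) * μ {x | min (N x) J = j}).toReal
      = ∑ j ∈ Finset.range (J + 1), (j : ℝ) * (μ {x | min (N x) J = j}).toReal := by
    rw [ENNReal.toReal_sum hfin]
    simp [ENNReal.toReal_mul]
  rw [← h5, ← h4]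
  have hne : ∫⁻ x, ((min (N x) J : ℕ) : ENNReal) ∂μ ≠ ⊤ := by
    rw [h4]; exact ENNReal.sum_ne_top.mpr hfin
  exact (ENNReal.ofReal_le_iff_le_toReal hne).mp hJ.le

end Crest.Agent.HK
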