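import Crest.Agent.Lib_HK_Rot
import Crest.Agent.Lib_HI_WC
import Crest.Agent.Lib_HK_Za
import Crest.Agent.Lib_HK_Zc

/-! # S0151 project (HK), package G4: the case `z = 0` -/

set_option autoImplicit false

namespace Crest.Agent.HK

open MeasureTheory Crest.AnalysisR.ProductShift

section generic

variable {H : Type*} [NormedAddCommGroup H] [InnerProductSpace ℂ H] [CompleteSpace H]

noncomputable def zL (T : H →L[ℂ] H) (ε : ℝ) : H →L[ℂ] H :=
  cfc Real.log (star T * T + ((ε : ℝ) : ℂ) • (1 : H →L[ℂ] H))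

theorem zL_comm (T Q : H →L[ℂ] H) (h1 : Commute T Q) (hQ : star Q = Q) (ε : ℝ) :
    Commute (zL T ε) Q := by
  have h2 : Commute (star T) Q := by
    have := h1.star_star
    rwa [hQ] at this
  have h3 : Commute (star T * T + ((ε : ℝ) : ℂ) • (1 : H →L[ℂ] H)) Q :=
    (h2.mul_left h1).add_left ((Commute.one_left _).smul_left _)
  exact h3.cfc_real _

theorem zL_tangent (T : H →L[ℂ] H) (ε : ℝ) (hε : 0 < ε) (a : ℝ) (ha : 0 < a) (η : H) :
    RCLike.re (inner ℂ η (zL T ε η)) ≤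
      (Real.log a - 1) * ‖η‖ ^ 2 + (‖T η‖ ^ 2 + ε * ‖η‖ ^ 2) / a :=
  zero_tangent T ε hε a ha η

theorem vectorDet_eq (ξ : H) (A : H →L[ℂ] H) :
    vectorDet ξ A = ⨅ ε : {r : ℝ // 0 < r},
      Real.exp (RCLike.re (inner ℂ ξ (zL A (ε : ℝ) ξ)) / 2) := rfl

end generic

noncomputable def zInd (E : Set (ℕ → ℝ)) : (ℕ → ℝ) × ℤ → ℂ :=
  fun p => E.indicator (fun _ => (1 : ℂ)) p.1

theorem zInd_meas {E : Set (ℕ → ℝ)} (hE : MeasurableSet E) : Measurable (zInd E) :=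
  (measurable_const.indicator hE).comp measurable_fst

theorem zInd_mem {E : Set (ℕ → ℝ)} {p : (ℕ → ℝ) × ℤ} (h : p.1 ∈ E) : zInd E p = 1 := by
  simp [zInd, h]

theorem zInd_not_mem {E : Set (ℕ → ℝ)} {p : (ℕ → ℝ) × ℤ} (h : p.1 ∉ E) : zInd E p = 0 := by
  simp [zInd, h]

theorem zInd_norm (E : Set (ℕ → ℝ)) (p : (ℕ → ℝ) × ℤ) : ‖zInd E p‖ ≤ 1 := by
  by_cases h : p.1 ∈ E
  · simp [zInd_mem h]
  · simp [zInd_not_mem h]

noncomputable def zQ (E : Set (ℕ → ℝ)) (hE : MeasurableSet E) : pairSpace →L[ℂ] pairSpace :=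
  HI.ops_mul (zInd E) (zInd_meas hE) 1 (Filter.Eventually.of_forall (zInd_norm E))

theorem zQ_ae (E : Set (ℕ → ℝ)) (hE : MeasurableSet E) (g : pairSpace) :
    (zQ E hE g : (ℕ → ℝ) × ℤ → ℂ) =ᵐ[pairMeasure]
      fun p => zInd E p * (g : (ℕ → ℝ) × ℤ → ℂ) p :=
  HI.ops_mul_ae _ _ _ _ g

theorem zQ_idem (E : Set (ℕ → ℝ)) (hE : MeasurableSet E) (g : pairSpace) :
    zQ E hE (zQ E hE g) = zQ E hE g := by
  refine Lp.ext ?_
  filter_upwards [zQ_ae E hE (zQ E hE g), zQ_ae E hE g] with p h1 h2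
  rw [h1, h2]
  by_cases h : p.1 ∈ E
  · simp [zInd_mem h]
  · simp [zInd_not_mem h]

theorem zQ_inner (E : Set (ℕ → ℝ)) (hE : MeasurableSet E) (x y : pairSpace) :
    inner ℂ (zQ E hE x) y = inner ℂ x (zQ E hE y) := by
  rw [L2.inner_def, L2.inner_def]
  refine integral_congr_ae ?_
  filter_upwards [zQ_ae E hE x, zQ_ae E hE y] with p h1 h2
  rw [h1, h2]
  by_cases h : p.1 ∈ E
  · simp [zInd_mem h]
  · simp [zInd_not_mem h]

theorem zQ_sa (E : Set (ℕ → ℝ)) (hE : MeasurableSet E) : star (zQ E hE) = zQ E hE := by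
  rw [ContinuousLinearMap.star_eq_adjoint]
  exact ((ContinuousLinearMap.eq_adjoint_iff _ _).2 (fun x y => zQ_inner E hE x y)).symm

theorem zQ_comm_T (θ c : ℕ → ℝ) (T : pairSpace →L[ℂ] pairSpace) (hT : IsWeightedShift θ c T)
    (E : Set (ℕ → ℝ)) (hE : MeasurableSet E) : Commute T (zQ E hE) := by
  refine ContinuousLinearMap.ext fun g => ?_
  change T (zQ E hE g) = zQ E hE (T g)
  refine Lp.ext ?_
  filter_upwards [hT (zQ E hE g), zQ_ae E hE (T g), hT g,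
    HI.ops_ae_comp (mp_pair_shift (-1)) (zQ_ae E hE g)] with p h1 h2 h3 h4
  rw [h1, h2, h3, sub_eq_add_neg, h4]
  have : zInd E (p.1, p.2 + -1) = zInd E p := rfl
  rw [this]
  ring

theorem zQ_norm_sq (E : Set (ℕ → ℝ)) (hE : MeasurableSet E) :
    ‖zQ E hE vacuumVector‖ ^ 2 = (cubeMeasure E).toReal := by
  have h1 : ((‖zQ E hE vacuumVector‖ ^ 2 : ℝ) : ℂ) = inner ℂ vacuumVector (zQ E hE vacuumVector) := by
    rw [← zQ_idem E hE vacuumVector, ← zQ_inner, zQ_idem, inner_self_eq_norm_sq_to_K]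
    norm_cast
  rw [inner_vacuum] at h1
  have h2 : ∫ x, (zQ E hE vacuumVector : (ℕ → ℝ) × ℤ → ℂ) (x, 0) ∂cubeMeasure
      = ∫ x, E.indicator (fun _ => (1 : ℂ)) x ∂cubeMeasure := by
    refine integral_congr_ae ?_
    filter_upwards [ae_of_ae_pair (zQ_ae E hE vacuumVector), ae_of_ae_pair vacuum_ae] with x h3 h4
    rw [h3 0, h4 0]
    simp [zInd]
  rw [h2, integral_indicator_const _ hE] at h1
  simp only [Measure.real, Complex.real_smul, mul_one] at h1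
  exact_mod_cast h1

theorem zQ_T_norm (θ c : ℕ → ℝ) (T : pairSpace →L[ℂ] pairSpace) (hT : IsWeightedShift θ c T)
    (E : Set (ℕ → ℝ)) (hE : MeasurableSet E) (b : ℝ) (hb : ∀ x ∈ E, weight θ c x ≤ b) :
    ‖T (zQ E hE vacuumVector)‖ ≤ b * ‖zQ E hE vacuumVector‖ := by
  refine HI.ops_norm_le_of_ae _ (mp_pair_shift (-1)) b _ _ ?_
  have h0 : ∀ᵐ p ∂pairMeasure, orbitPoint θ 0 p.1 = p.1 :=
    ae_pair_of_ae ((orbit_zero_ae θ).mono fun x hx _ => hx)
  filter_upwards [hT (zQ E hE vacuumVector),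
    HI.ops_ae_comp (mp_pair_shift (-1)) (zQ_ae E hE vacuumVector),
    HI.ops_ae_comp (mp_pair_shift (-1)) vacuum_ae, h0] with p h1 h2 h3 h4
  rw [h1, sub_eq_add_neg, h2, h3]
  have h5 : zInd E (p.1, p.2 + -1) = zInd E p := rfl
  rw [h5]
  by_cases hp : p.1 ∈ E
  · by_cases hk : p.2 + -1 = 0
    · simp only [hk, if_true, zInd_mem hp, mul_one, norm_one]
      rw [h4, Complex.norm_real, Real.norm_of_nonneg (weight_nonneg θ c _)]
      exact hb _ hp
    · simp [hk]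
  · simp [zInd_not_mem hp]

theorem zero_coeFn_sum (s : Finset ℕ) (F : ℕ → pairSpace) :
    ((∑ j ∈ s, F j : pairSpace) : (ℕ → ℝ) × ℤ → ℂ) =ᵐ[pairMeasure]
      fun p => ∑ j ∈ s, (F j : (ℕ → ℝ) × ℤ → ℂ) p := by
  classical
  induction s using Finset.induction_on with
  | empty =>
    simp only [Finset.sum_empty]
    exact Lp.coeFn_zero _ _ _
  | insert a s ha ih =>
    rw [Finset.sum_insert ha]
    filter_upwards [Lp.coeFn_add (F a) (∑ j ∈ s, F j), ih] with p h1 h2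
    rw [h1, Pi.add_apply, h2, Finset.sum_insert ha]

theorem zero_decomp (L : pairSpace →L[ℂ] pairSpace) (s : Finset ℕ) (E : ℕ → Set (ℕ → ℝ))
    (hE : ∀ j, MeasurableSet (E j)) (hcomm : ∀ j, Commute L (zQ (E j) (hE j)))
    (hsum : ∑ j ∈ s, zQ (E j) (hE j) vacuumVector = vacuumVector) :
    inner ℂ vacuumVector (L vacuumVector) =
      ∑ j ∈ s, inner ℂ (zQ (E j) (hE j) vacuumVector) (L (zQ (E j) (hE j) vacuumVector)) := by
  calc inner ℂ vacuumVector (L vacuumVector)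
      = inner ℂ vacuumVector (L (∑ j ∈ s, zQ (E j) (hE j) vacuumVector)) := by rw [hsum]
    _ = ∑ j ∈ s, inner ℂ vacuumVector (L (zQ (E j) (hE j) vacuumVector)) := by
        rw [map_sum, inner_sum]
    _ = _ := by
        refine Finset.sum_congr rfl fun j _ => ?_
        have h1 : L (zQ (E j) (hE j) (zQ (E j) (hE j) vacuumVector))
            = zQ (E j) (hE j) (L (zQ (E j) (hE j) vacuumVector)) :=
          congrArg (fun A : pairSpace →L[ℂ] pairSpace => A (zQ (E j) (hE j) vacuumVector)) (hcomm j)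
        rw [zQ_inner, ← h1, zQ_idem]

noncomputable def zN (θ c : ℕ → ℝ) (J : ℕ) (x : ℕ → ℝ) : ℕ :=
  min ⌊- Real.log (weight θ c x)⌋₊ J

theorem zN_meas (θ c : ℕ → ℝ) (J : ℕ) : Measurable (zN θ c J) :=
  (Nat.measurable_floor.comp (Real.measurable_log.comp (measurable_weight θ c)).neg).min
    measurable_const

def zE (θ c : ℕ → ℝ) (J j : ℕ) : Set (ℕ → ℝ) := {x | min ⌊- Real.log (weight θ c x)⌋₊ J = j}

theorem zE_meas (θ c : ℕ → ℝ) (J j : ℕ) : MeasurableSet (zE θ c J j) :=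
  zN_meas θ c J (measurableSet_singleton j)

theorem zE_weight (θ c : ℕ → ℝ) (J j : ℕ) (x : ℕ → ℝ) (hx : x ∈ zE θ c J j) :
    weight θ c x ≤ Real.exp (-(j : ℝ)) := by
  by_cases hj : j = 0
  · subst hj
    simpa using weight_le_one θ c x
  · have h1 : j ≤ ⌊- Real.log (weight θ c x)⌋₊ := by
      have : min ⌊- Real.log (weight θ c x)⌋₊ J = j := hx
      rw [← this]
      exact min_le_left _ _
    have h2 : (j : ℝ) ≤ - Real.log (weight θ c x) := (Nat.le_floor_iff' hj).1 h1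
    rcases (weight_nonneg θ c x).eq_or_lt with h0 | h0
    · rw [← h0]
      exact (Real.exp_pos _).le
    · rw [← Real.exp_log h0]
      exact Real.exp_le_exp.2 (by linarith)

theorem zE_sum (θ c : ℕ → ℝ) (J : ℕ) :
    ∑ j ∈ Finset.range (J + 1), zQ (zE θ c J j) (zE_meas θ c J j) vacuumVector = vacuumVector := by
  refine Lp.ext ?_
  filter_upwards [zero_coeFn_sum (Finset.range (J + 1))
      (fun j => zQ (zE θ c J j) (zE_meas θ c J j) vacuumVector),
    ae_all_iff.2 fun j => zQ_ae (zE θ c J j) (zE_meas θ c J j) vacuumVector] with p h1 h2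
  rw [h1]
  have h3 : ∑ j ∈ Finset.range (J + 1), zInd (zE θ c J j) p = 1 := by
    rw [Finset.sum_eq_single (zN θ c J p.1)]
    · exact zInd_mem (show p.1 ∈ zE θ c J (zN θ c J p.1) from rfl)
    · intro j _ hj
      exact zInd_not_mem (fun h => hj (show zN θ c J p.1 = j from h).symm)
    · intro h
      exact absurd (Finset.mem_range.2 (Nat.lt_succ_of_le (min_le_right _ _))) h
  calc ∑ j ∈ Finset.range (J + 1),
        (zQ (zE θ c J j) (zE_meas θ c J j) vacuumVector : (ℕ → ℝ) × ℤ → ℂ) p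
      = ∑ j ∈ Finset.range (J + 1), zInd (zE θ c J j) p * (vacuumVector : (ℕ → ℝ) × ℤ → ℂ) p :=
        Finset.sum_congr rfl fun j _ => h2 j
    _ = (vacuumVector : (ℕ → ℝ) × ℤ → ℂ) p := by rw [← Finset.sum_mul, h3, one_mul]

theorem zero_term (θ c : ℕ → ℝ) (T : pairSpace →L[ℂ] pairSpace) (hT : IsWeightedShift θ c T)
    (J j : ℕ) (hj : j ≤ J) :
    RCLike.re (inner ℂ (zQ (zE θ c J j) (zE_meas θ c J j) vacuumVector)
      (zL T (Real.exp (-(J : ℝ)) ^ 2) (zQ (zE θ c J j) (zE_meas θ c J j) vacuumVector))) ≤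
      (if j = 0 then 1 else 0) - (j : ℝ) * (cubeMeasure (zE θ c J j)).toReal := by
  set η := zQ (zE θ c J j) (zE_meas θ c J j) vacuumVector with hη
  have hn : ‖η‖ ^ 2 = (cubeMeasure (zE θ c J j)).toReal := zQ_norm_sq _ _
  rw [← hn]
  have hn0 : 0 ≤ ‖η‖ ^ 2 := by positivity
  have hn1 : ‖η‖ ^ 2 ≤ 1 := by
    rw [hn]
    have := ENNReal.toReal_mono ENNReal.one_ne_top (prob_le_one (μ := cubeMeasure) (s := zE θ c J j))
    simpa using this
  have he : 0 < Real.exp (-(j : ℝ)) ^ 2 := by positivity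
  have hε : 0 < Real.exp (-(J : ℝ)) ^ 2 := by positivity
  have ha : 0 < 2 * Real.exp (-(j : ℝ)) ^ 2 := by positivity
  have h1 := zL_tangent T _ hε _ ha η
  have h2 : ‖T η‖ ^ 2 ≤ Real.exp (-(j : ℝ)) ^ 2 * ‖η‖ ^ 2 := by
    have := zQ_T_norm θ c T hT (zE θ c J j) (zE_meas θ c J j) _ (zE_weight θ c J j)
    calc ‖T η‖ ^ 2 ≤ (Real.exp (-(j : ℝ)) * ‖η‖) ^ 2 := pow_le_pow_left₀ (norm_nonneg _) this 2
      _ = _ := by ring
  have h3 : Real.exp (-(J : ℝ)) ^ 2 ≤ Real.exp (-(j : ℝ)) ^ 2 := by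
    refine pow_le_pow_left₀ (Real.exp_pos _).le (Real.exp_le_exp.2 ?_) 2
    have : (j : ℝ) ≤ J := by exact_mod_cast hj
    linarith
  have h4 : (‖T η‖ ^ 2 + Real.exp (-(J : ℝ)) ^ 2 * ‖η‖ ^ 2) / (2 * Real.exp (-(j : ℝ)) ^ 2)
      ≤ ‖η‖ ^ 2 := by
    rw [div_le_iff₀ ha]
    nlinarith [mul_le_mul_of_nonneg_right h3 hn0]
  have h5 : Real.log (2 * Real.exp (-(j : ℝ)) ^ 2) = Real.log 2 - 2 * j := by
    rw [Real.log_mul (by norm_num) he.ne', Real.log_pow, Real.log_exp]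
    push_cast
    ring
  rw [h5] at h1
  have h6 : Real.log 2 ≤ 1 := by
    have := Real.log_two_lt_d9
    linarith
  have h7 : 0 ≤ Real.log 2 := Real.log_nonneg (by norm_num)
  by_cases hj0 : j = 0
  · subst hj0
    simp only [if_true, Nat.cast_zero, mul_zero, sub_zero, zero_mul] at h1 ⊢
    nlinarith
  · have hj1 : (1 : ℝ) ≤ j := by exact_mod_cast Nat.one_le_iff_ne_zero.2 hj0
    simp only [if_neg hj0]
    nlinarith

theorem zero_key (θ c : ℕ → ℝ)
    (hlog : ∫⁻ x, ENNReal.ofReal (- Real.log (weight θ c x)) ∂cubeMeasure = ⊤)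
    (T : pairSpace →L[ℂ] pairSpace) (hT : IsWeightedShift θ c T) (M : ℝ) :
    ∃ ε : {r : ℝ // 0 < r},
      RCLike.re (inner ℂ vacuumVector (zL T (ε : ℝ) vacuumVector)) ≤ 1 - M := by
  obtain ⟨J, hJ⟩ := zero_levels cubeMeasure (weight θ c) (measurable_weight θ c) hlog M
  refine ⟨⟨Real.exp (-(J : ℝ)) ^ 2, by positivity⟩, ?_⟩
  change RCLike.re (inner ℂ vacuumVector (zL T (Real.exp (-(J : ℝ)) ^ 2) vacuumVector)) ≤ 1 - M
  rw [zero_decomp (zL T (Real.exp (-(J : ℝ)) ^ 2)) (Finset.range (J + 1)) (zE θ c J)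
    (zE_meas θ c J) (fun j => zL_comm T _ (zQ_comm_T θ c T hT _ _) (zQ_sa _ _) _) (zE_sum θ c J),
    map_sum]
  calc _ ≤ ∑ j ∈ Finset.range (J + 1),
        ((if j = 0 then (1 : ℝ) else 0) - (j : ℝ) * (cubeMeasure (zE θ c J j)).toReal) :=
        Finset.sum_le_sum fun j hj =>
          zero_term θ c T hT J j (Nat.lt_succ_iff.1 (Finset.mem_range.1 hj))
    _ = 1 - ∑ j ∈ Finset.range (J + 1), (j : ℝ) * (cubeMeasure (zE θ c J j)).toReal := by
        rw [Finset.sum_sub_distrib]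
        simp
    _ ≤ 1 - M := by
        have : M ≤ ∑ j ∈ Finset.range (J + 1), (j : ℝ) * (cubeMeasure (zE θ c J j)).toReal := hJ
        linarith

theorem vectorDet_T (θ c : ℕ → ℝ) (hθ : ∀ i, 0 < θ i ∧ θ i < 1) (hc : ∀ i, 0 ≤ c i)
    (hpos : ∀ᵐ x ∂cubeMeasure, 0 < weight θ c x)
    (hlog : ∫⁻ x, ENNReal.ofReal (- Real.log (weight θ c x)) ∂cubeMeasure = ⊤)
    (T : pairSpace →L[ℂ] pairSpace) (hT : IsWeightedShift θ c T) :
    vectorDet vacuumVector T = 0 := by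
  rw [vectorDet_eq]
  apply le_antisymm
  · apply le_of_forall_pos_le_add
    intro δ hδ
    obtain ⟨ε, hε⟩ := zero_key θ c hlog T hT (1 - 2 * Real.log δ)
    refine (ciInf_le ⟨0, ?_⟩ ε).trans ?_
    · rintro _ ⟨e, rfl⟩
      exact (Real.exp_pos _).le
    · have h1 : RCLike.re (inner ℂ vacuumVector (zL T (ε : ℝ) vacuumVector)) / 2 ≤ Real.log δ := by
        linarith
      calc _ ≤ Real.exp (Real.log δ) := Real.exp_le_exp.2 h1
        _ = 0 + δ := by rw [Real.exp_log hδ, zero_add]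
  · exact Real.iInf_nonneg fun e => (Real.exp_pos _).le

end Crest.Agent.HK
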