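import Crest.Agent.Lib_MM_Defs

/-! # MM-AP : abstract construction of the approximating Monge maps -/

set_option autoImplicit false
open MeasureTheory Set
open scoped ENNReal

namespace Crest.Agent.MM

variable {X : Type*} [MeasurableSpace X]

open Classical in
noncomputable def apT₂ (KA H : Set X) (Y Z W W' D : X → X) (p : X) : X :=
  if p ∈ KA then Y p else if p ∈ H then Z (W (D p)) else W' (D p)

open Classical in
noncomputable def apT₃ (KA H : Set X) (Y Z W W' D : X → X) (p : X) : X :=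
  if p ∈ KA then Z p else if p ∈ H then W (D p) else Y (W' (D p))

lemma map_piece (ν : Measure X) {H : Set X} (hH : MeasurableSet H) {D : X → X} (hD : Measurable D)
    (hD1 : (ν.restrict H).map D = (2 : ℝ≥0∞)⁻¹ • ν) {S g : X → X} (hg : Measurable g)
    (hS : ∀ p ∈ H, S p = g (D p)) : (ν.restrict H).map S = (2 : ℝ≥0∞)⁻¹ • ν.map g := by
  have h1 : S =ᵐ[ν.restrict H] (g ∘ D) := by
    rw [Filter.EventuallyEq, ae_restrict_iff' hH]
    exact Filter.Eventually.of_forall hS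
  rw [Measure.map_congr h1, ← Measure.map_map hg hD, hD1, Measure.map_smul]

lemma lint_piece (ν : Measure X) {H : Set X} {D : X → X} (hD : Measurable D)
    (hD1 : (ν.restrict H).map D = (2 : ℝ≥0∞)⁻¹ • ν) {F : X → ℝ≥0∞} (hF : Measurable F) :
    ∫⁻ p in H, F (D p) ∂ν = (2 : ℝ≥0∞)⁻¹ * ∫⁻ q, F q ∂ν := by
  rw [← lintegral_map hF hD, hD1, lintegral_smul_measure, smul_eq_mul]

/-- push-forward of `ν` under a map defined by cases on `H` -/
lemma map_cases (ν : Measure X) {H : Set X} (hH : MeasurableSet H) {D : X → X} (hD : Measurable D)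
    (hD1 : (ν.restrict H).map D = (2 : ℝ≥0∞)⁻¹ • ν)
    (hD2 : (ν.restrict Hᶜ).map D = (2 : ℝ≥0∞)⁻¹ • ν) {S g g' : X → X} (hSm : Measurable S)
    (hg : Measurable g) (hg' : Measurable g')
    (hS : ∀ p ∈ H, S p = g (D p)) (hS' : ∀ p ∈ Hᶜ, S p = g' (D p)) :
    ν.map S = (2 : ℝ≥0∞)⁻¹ • ν.map g + (2 : ℝ≥0∞)⁻¹ • ν.map g' := by
  conv_lhs => rw [← Measure.restrict_add_restrict_compl (μ := ν) hH]
  rw [Measure.map_add _ _ hSm, map_piece ν hH hD hD1 hg hS, map_piece ν hH.compl hD hD2 hg' hS']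

lemma half_add_half (μ₁ μ₂ : Measure X) :
    (2 : ℝ≥0∞) • ((2 : ℝ≥0∞)⁻¹ • μ₁ + (2 : ℝ≥0∞)⁻¹ • μ₂) = μ₁ + μ₂ := by
  rw [smul_add, smul_smul, smul_smul, ENNReal.mul_inv_cancel (by norm_num) (by norm_num),
    one_smul, one_smul]

/-- `μ = μA + 2 ν`, `ν = Y # μA = Z # μA`, `W`, `W'` left inverses of `Y`, `Z` on `KA`,
`D # (ν|H) = D # (ν|Hᶜ) = ν / 2`.  Then `apT₂`, `apT₃` preserve `μ`, and if the cost of the triple
at `p` is at most `lam` times the cost of the triple with `p` replaced by `D p`, the Monge cost is at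
most `lam` times the cost of `planOf`. -/
theorem ap_main (μA ν : Measure X) [IsFiniteMeasure μA] {Y Z W W' D : X → X}
    (hY : Measurable Y) (hZ : Measurable Z) (hW : Measurable W) (hW' : Measurable W')
    (hD : Measurable D) (hYν : μA.map Y = ν) (hZν : μA.map Z = ν)
    {KA H : Set X} (hKA : MeasurableSet KA) (hH : MeasurableSet H)
    (hA : ∀ᵐ x ∂μA, x ∈ KA) (hS : ∀ᵐ y ∂ν, y ∉ KA)
    (hWY : ∀ x ∈ KA, W (Y x) = x) (hWZ : ∀ x ∈ KA, W' (Z x) = x)
    (hD1 : (ν.restrict H).map D = (2 : ℝ≥0∞)⁻¹ • ν)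
    (hD2 : (ν.restrict Hᶜ).map D = (2 : ℝ≥0∞)⁻¹ • ν)
    (c : X × X × X → ℝ≥0∞) (hc : Measurable c) (lam : ℝ≥0∞) (hlam : 1 ≤ lam)
    (hc1 : ∀ᵐ p ∂ν, c (p, Z (W (D p)), W (D p)) ≤ lam * c (D p, Z (W (D p)), W (D p)))
    (hc2 : ∀ᵐ p ∂ν, c (p, W' (D p), Y (W' (D p))) ≤ lam * c (D p, W' (D p), Y (W' (D p)))) :
    Measurable (apT₂ KA H Y Z W W' D) ∧ Measurable (apT₃ KA H Y Z W W' D) ∧
      (μA + (2 : ℝ≥0∞) • ν).map (apT₂ KA H Y Z W W' D) = μA + (2 : ℝ≥0∞) • ν ∧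
      (μA + (2 : ℝ≥0∞) • ν).map (apT₃ KA H Y Z W W' D) = μA + (2 : ℝ≥0∞) • ν ∧
      ∫⁻ p, c (p, apT₂ KA H Y Z W W' D p, apT₃ KA H Y Z W W' D p) ∂(μA + (2 : ℝ≥0∞) • ν) ≤
        lam * ∫⁻ p, c p ∂(planOf μA Y Z) := by
  classical
  -- auxiliary maps
  set S₂ : X → X := fun p => if p ∈ H then Z (W (D p)) else W' (D p) with hS₂
  set S₃ : X → X := fun p => if p ∈ H then W (D p) else Y (W' (D p)) with hS₃
  have mS₂ : Measurable S₂ := Measurable.ite hH (hZ.comp (hW.comp hD)) (hW'.comp hD)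
  have mS₃ : Measurable S₃ := Measurable.ite hH (hW.comp hD) (hY.comp (hW'.comp hD))
  have m₂ : Measurable (apT₂ KA H Y Z W W' D) := Measurable.ite hKA hY mS₂
  have m₃ : Measurable (apT₃ KA H Y Z W W' D) := Measurable.ite hKA hZ mS₃
  -- a.e. identities
  have e₂A : apT₂ KA H Y Z W W' D =ᵐ[μA] Y := by
    filter_upwards [hA] with x hx; simp [apT₂, hx]
  have e₃A : apT₃ KA H Y Z W W' D =ᵐ[μA] Z := by
    filter_upwards [hA] with x hx; simp [apT₃, hx]
  have e₂S : apT₂ KA H Y Z W W' D =ᵐ[ν] S₂ := by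
    filter_upwards [hS] with x hx; simp [apT₂, hx, hS₂]
  have e₃S : apT₃ KA H Y Z W W' D =ᵐ[ν] S₃ := by
    filter_upwards [hS] with x hx; simp [apT₃, hx, hS₃]
  -- push-forwards of ν
  have pW : ν.map W = μA := by
    rw [← hYν, Measure.map_map hW hY]
    have : (W ∘ Y) =ᵐ[μA] id := by filter_upwards [hA] with x hx using hWY x hx
    rw [Measure.map_congr this, Measure.map_id]
  have pW' : ν.map W' = μA := by
    rw [← hZν, Measure.map_map hW' hZ]
    have : (W' ∘ Z) =ᵐ[μA] id := by filter_upwards [hA] with x hx using hWZ x hx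
    rw [Measure.map_congr this, Measure.map_id]
  have pZW : ν.map (fun q => Z (W q)) = ν := by
    have : (fun q => Z (W q)) = Z ∘ W := rfl
    rw [this, ← Measure.map_map hZ hW, pW, hZν]
  have pYW' : ν.map (fun q => Y (W' q)) = ν := by
    have : (fun q => Y (W' q)) = Y ∘ W' := rfl
    rw [this, ← Measure.map_map hY hW', pW', hYν]
  have q₂ : ν.map S₂ = (2 : ℝ≥0∞)⁻¹ • ν + (2 : ℝ≥0∞)⁻¹ • μA := by
    have := map_cases ν hH hD hD1 hD2 (S := S₂) (g := fun q => Z (W q)) (g' := W') mS₂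
      (hZ.comp hW) hW' (fun p hp => by simp [hS₂, hp])
      (fun p hp => by have : p ∉ H := hp; simp [hS₂, this])
    rw [this, pZW, pW']
  have q₃ : ν.map S₃ = (2 : ℝ≥0∞)⁻¹ • μA + (2 : ℝ≥0∞)⁻¹ • ν := by
    have := map_cases ν hH hD hD1 hD2 (S := S₃) (g := W) (g' := fun q => Y (W' q)) mS₃
      hW (hY.comp hW') (fun p hp => by simp [hS₃, hp])
      (fun p hp => by have : p ∉ H := hp; simp [hS₃, this])
    rw [this, pW, pYW']
  have two : (2 : ℝ≥0∞) • ν = ν + ν := two_smul _ _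
  refine ⟨m₂, m₃, ?_, ?_, ?_⟩
  · rw [Measure.map_add _ _ m₂, Measure.map_smul, Measure.map_congr e₂A, Measure.map_congr e₂S,
      hYν, q₂, half_add_half, two]
    abel
  · rw [Measure.map_add _ _ m₃, Measure.map_smul, Measure.map_congr e₃A, Measure.map_congr e₃S,
      hZν, q₃, half_add_half, two]
    abel
  · -- the cost
    have n1 : Measurable (fun x => (x, Y x, Z x)) := measurable_id.prodMk (hY.prodMk hZ)
    have n2 : Measurable (fun x => (Y x, Z x, x)) := hY.prodMk (hZ.prodMk measurable_id)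
    have n3 : Measurable (fun x => (Z x, x, Y x)) := hZ.prodMk (measurable_id.prodMk hY)
    have hplan : ∫⁻ p, c p ∂(planOf μA Y Z) =
        ∫⁻ x, c (x, Y x, Z x) ∂μA + ∫⁻ x, c (Y x, Z x, x) ∂μA + ∫⁻ x, c (Z x, x, Y x) ∂μA := by
      unfold planOf
      rw [lintegral_add_measure, lintegral_add_measure, lintegral_map hc n1, lintegral_map hc n2,
        lintegral_map hc n3]
    -- part on μA
    have cA : ∫⁻ p, c (p, apT₂ KA H Y Z W W' D p, apT₃ KA H Y Z W W' D p) ∂μA =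
        ∫⁻ x, c (x, Y x, Z x) ∂μA := by
      refine lintegral_congr_ae ?_
      filter_upwards [e₂A, e₃A] with x h2 h3
      rw [h2, h3]
    -- part on ν
    set F₁ : X → ℝ≥0∞ := fun q => c (q, Z (W q), W q) with hF₁
    set F₂ : X → ℝ≥0∞ := fun q => c (q, W' q, Y (W' q)) with hF₂
    have mF₁ : Measurable F₁ := hc.comp (measurable_id.prodMk ((hZ.comp hW).prodMk hW))
    have mF₂ : Measurable F₂ := hc.comp (measurable_id.prodMk (hW'.prodMk (hY.comp hW')))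
    have iF₁ : ∫⁻ q, F₁ q ∂ν = ∫⁻ x, c (Y x, Z x, x) ∂μA := by
      rw [← hYν, lintegral_map mF₁ hY]
      refine lintegral_congr_ae ?_
      filter_upwards [hA] with x hx
      simp only [hF₁, hWY x hx]
    have iF₂ : ∫⁻ q, F₂ q ∂ν = ∫⁻ x, c (Z x, x, Y x) ∂μA := by
      rw [← hZν, lintegral_map mF₂ hZ]
      refine lintegral_congr_ae ?_
      filter_upwards [hA] with x hx
      simp only [hF₂, hWZ x hx]
    have cS : ∫⁻ p, c (p, apT₂ KA H Y Z W W' D p, apT₃ KA H Y Z W W' D p) ∂ν ≤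
        lam * ((2 : ℝ≥0∞)⁻¹ * ∫⁻ q, F₁ q ∂ν) + lam * ((2 : ℝ≥0∞)⁻¹ * ∫⁻ q, F₂ q ∂ν) := by
      rw [← lintegral_add_compl _ hH]
      refine add_le_add ?_ ?_
      · have w1 : Measurable fun p => F₁ (D p) := mF₁.comp hD
        rw [← lint_piece ν hD hD1 mF₁, ← lintegral_const_mul _ w1]
        refine lintegral_mono_ae ?_
        rw [ae_restrict_iff' hH]
        filter_upwards [e₂S, e₃S, hc1] with p h2 h3 h4 hp
        rw [h2, h3]
        simpa [hS₂, hS₃, hp, hF₁] using h4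
      · have w2 : Measurable fun p => F₂ (D p) := mF₂.comp hD
        rw [← lint_piece ν hD hD2 mF₂, ← lintegral_const_mul _ w2]
        refine lintegral_mono_ae ?_
        rw [ae_restrict_iff' hH.compl]
        filter_upwards [e₂S, e₃S, hc2] with p h2 h3 h4 hp
        have hp' : p ∉ H := hp
        rw [h2, h3]
        simpa [hS₂, hS₃, hp', hF₂] using h4
    rw [lintegral_add_measure, lintegral_smul_measure, smul_eq_mul, cA, hplan]
    set a := ∫⁻ x, c (x, Y x, Z x) ∂μA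
    set b := ∫⁻ x, c (Y x, Z x, x) ∂μA
    set d := ∫⁻ x, c (Z x, x, Y x) ∂μA
    rw [iF₁, iF₂] at cS
    have h22 : (2 : ℝ≥0∞) * (2 : ℝ≥0∞)⁻¹ = 1 := ENNReal.mul_inv_cancel (by norm_num) (by norm_num)
    calc a + 2 * ∫⁻ p, c (p, apT₂ KA H Y Z W W' D p, apT₃ KA H Y Z W W' D p) ∂ν
        ≤ a + 2 * (lam * ((2 : ℝ≥0∞)⁻¹ * b) + lam * ((2 : ℝ≥0∞)⁻¹ * d)) := by gcongr
      _ = a + (2 * (2 : ℝ≥0∞)⁻¹) * (lam * b + lam * d) := by ring
      _ = 1 * a + (lam * b + lam * d) := by rw [h22, one_mul, one_mul]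
      _ ≤ lam * a + (lam * b + lam * d) := by gcongr
      _ = lam * (a + b + d) := by ring

end Crest.Agent.MM
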