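import Crest.Agent.Lib_MM_Defs

/-! # MM-J : algebra of `JJ`, `qq`, `RR`, `rotcs`, `rot` -/

set_option autoImplicit false
open MeasureTheory Set
open scoped ENNReal RealInnerProductSpace

namespace Crest.Agent.MM

variable {n : ℕ}

lemma one_ne_zero' : (1 : Fin (n + 2)) ≠ 0 := by
  intro h; simpa using congrArg Fin.val h

lemma JJ_eq (x : EE n) : JJ x = x 1 • (-e0) + x 0 • e1 := by
  simp [JJ]

lemma e0_zero : (e0 : EE n) 0 = 1 := by simp [e0]
lemma e0_of_ne (i : Fin (n + 2)) (h : i ≠ 0) : (e0 : EE n) i = 0 := by simp [e0, h]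
lemma e1_one : (e1 : EE n) 1 = 1 := by simp [e1]
lemma e1_of_ne (i : Fin (n + 2)) (h : i ≠ 1) : (e1 : EE n) i = 0 := by simp [e1, h]

lemma inner_e0_left (x : EE n) : ⟪(e0 : EE n), x⟫ = x 0 := by
  simp [e0, EuclideanSpace.inner_single_left]
lemma inner_e1_left (x : EE n) : ⟪(e1 : EE n), x⟫ = x 1 := by
  simp [e1, EuclideanSpace.inner_single_left]
lemma inner_e0_right (x : EE n) : ⟪x, (e0 : EE n)⟫ = x 0 := by
  rw [real_inner_comm, inner_e0_left]
lemma inner_e1_right (x : EE n) : ⟪x, (e1 : EE n)⟫ = x 1 := by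
  rw [real_inner_comm, inner_e1_left]

/-! ### coordinates -/
theorem JJ_apply_zero (x : EE n) : (JJ x) 0 = -x 1 := by
  rw [JJ_eq]; simp [e0_zero, e1_of_ne 0 one_ne_zero'.symm]
theorem JJ_apply_one (x : EE n) : (JJ x) 1 = x 0 := by
  rw [JJ_eq]; simp [e1_one, e0_of_ne 1 one_ne_zero']
theorem JJ_apply_of_ne (x : EE n) (i : Fin (n + 2)) (h0 : i ≠ 0) (h1 : i ≠ 1) : (JJ x) i = 0 := by
  rw [JJ_eq]; simp [e0_of_ne i h0, e1_of_ne i h1]
theorem RR_apply_one (x : EE n) : (RR x) 1 = -x 1 := by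
  simp [RR, e1_one]; ring
theorem RR_apply_of_ne (x : EE n) (i : Fin (n + 2)) (h1 : i ≠ 1) : (RR x) i = x i := by
  simp [RR, e1_of_ne i h1]
theorem rotcs_apply (c s : ℝ) (x : EE n) : rotcs c s x = x + s • JJ x + (1 - c) • JJ (JJ x) := by
  simp [rotcs]
theorem rotcs_apply_zero (c s : ℝ) (x : EE n) : (rotcs c s x) 0 = c * x 0 - s * x 1 := by
  rw [rotcs_apply]; simp [JJ_apply_zero, JJ_apply_one]; ring
theorem rotcs_apply_one (c s : ℝ) (x : EE n) : (rotcs c s x) 1 = s * x 0 + c * x 1 := by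
  rw [rotcs_apply]; simp [JJ_apply_zero, JJ_apply_one]; ring
theorem rotcs_apply_of_ne (c s : ℝ) (x : EE n) (i : Fin (n + 2)) (h0 : i ≠ 0) (h1 : i ≠ 1) :
    (rotcs c s x) i = x i := by
  rw [rotcs_apply]; simp [JJ_apply_of_ne _ i h0 h1]

/-- extensionality by the three kinds of coordinates -/
lemma ext3 {x y : EE n} (h0 : x 0 = y 0) (h1 : x 1 = y 1)
    (h : ∀ i : Fin (n + 2), i ≠ 0 → i ≠ 1 → x i = y i) : x = y := by
  ext i
  by_cases hi0 : i = 0
  · rw [hi0]; exact h0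
  by_cases hi1 : i = 1
  · rw [hi1]; exact h1
  exact h i hi0 hi1

/-! ### `JJ` -/
lemma inner_JJ_eq (x y : EE n) : ⟪JJ x, y⟫ = -(x 1 * y 0) + x 0 * y 1 := by
  rw [JJ_eq, inner_add_left, real_inner_smul_left, real_inner_smul_left, inner_neg_left,
    inner_e0_left, inner_e1_left]; ring
theorem inner_JJ_left (x y : EE n) : ⟪JJ x, y⟫ = -⟪x, JJ y⟫ := by
  rw [real_inner_comm (JJ y) x, inner_JJ_eq, inner_JJ_eq]; ring
theorem inner_JJ_self (x : EE n) : ⟪JJ x, x⟫ = 0 := by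
  rw [inner_JJ_eq]; ring
theorem inner_self_JJ (x : EE n) : ⟪x, JJ x⟫ = 0 := by
  rw [real_inner_comm, inner_JJ_self]
theorem JJ_JJ_JJ (x : EE n) : JJ (JJ (JJ x)) = -JJ x := by
  apply ext3
  · simp [JJ_apply_zero, JJ_apply_one]
  · simp [JJ_apply_zero, JJ_apply_one]
  · intro i h0 h1; simp [JJ_apply_of_ne _ i h0 h1]
theorem norm_JJ_sq (x : EE n) : ‖JJ x‖ ^ 2 = qq x := by
  rw [← real_inner_self_eq_norm_sq, inner_JJ_eq, JJ_apply_zero, JJ_apply_one, qq]; ring
theorem qq_JJ (x : EE n) : qq (JJ x) = qq x := by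
  simp [qq, JJ_apply_zero, JJ_apply_one]; ring
theorem norm_JJ_JJ_sq (x : EE n) : ‖JJ (JJ x)‖ ^ 2 = qq x := by
  rw [norm_JJ_sq, qq_JJ]
theorem inner_JJ_JJ_self (x : EE n) : ⟪JJ (JJ x), x⟫ = -qq x := by
  rw [inner_JJ_eq, JJ_apply_zero, JJ_apply_one, qq]; ring
theorem inner_JJ_JJ_JJ (x : EE n) : ⟪JJ (JJ x), JJ x⟫ = 0 := inner_JJ_self (JJ x)
theorem qq_nonneg (x : EE n) : 0 ≤ qq x := by unfold qq; positivity
theorem qq_smul (a : ℝ) (x : EE n) : qq (a • x) = a ^ 2 * qq x := by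
  simp [qq]; ring
theorem qq_neg (x : EE n) : qq (-x) = qq x := by
  simp [qq]
/-- `qq` of a combination `a x + b J x + c J² x` -/
theorem qq_comb (a b c : ℝ) (x : EE n) :
    qq (a • x + b • JJ x + c • JJ (JJ x)) = ((a - c) ^ 2 + b ^ 2) * qq x := by
  simp [qq, JJ_apply_zero, JJ_apply_one]; ring
/-- squared norm of a combination `a x + b J x + c J² x` -/
theorem norm_sq_comb (a b c : ℝ) (x : EE n) :
    ‖a • x + b • JJ x + c • JJ (JJ x)‖ ^ 2 = a ^ 2 * ‖x‖ ^ 2 + (b ^ 2 + c ^ 2 - 2 * a * c) * qq x := by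
  rw [← real_inner_self_eq_norm_sq]
  simp only [inner_add_left, inner_add_right, real_inner_smul_left, real_inner_smul_right]
  rw [real_inner_self_eq_norm_sq, real_inner_self_eq_norm_sq, real_inner_self_eq_norm_sq,
    norm_JJ_sq, norm_JJ_JJ_sq, inner_JJ_self, inner_self_JJ, inner_JJ_JJ_self, inner_JJ_JJ_JJ,
    real_inner_comm (JJ (JJ x)) x, inner_JJ_JJ_self, real_inner_comm (JJ (JJ x)) (JJ x),
    inner_JJ_JJ_JJ]
  ring
/-- the out-of-plane part: `‖x + J J x‖^2 = ‖x‖^2 - qq x` -/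
theorem norm_add_JJ_JJ_sq (x : EE n) : ‖x + JJ (JJ x)‖ ^ 2 = ‖x‖ ^ 2 - qq x := by
  have := norm_sq_comb 1 0 1 x
  simp only [one_smul, zero_smul, add_zero] at this
  rw [this]; ring
theorem qq_le_norm_sq (x : EE n) : qq x ≤ ‖x‖ ^ 2 := by
  have := norm_add_JJ_JJ_sq x
  have h2 : 0 ≤ ‖x + JJ (JJ x)‖ ^ 2 := by positivity
  linarith
theorem continuous_qq : Continuous (qq : EE n → ℝ) := by
  have h0 : Continuous (fun y : EE n => y 0) := (EuclideanSpace.proj (0 : Fin (n + 2))).continuous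
  have h1 : Continuous (fun y : EE n => y 1) := (EuclideanSpace.proj (1 : Fin (n + 2))).continuous
  exact (h0.pow 2).add (h1.pow 2)
theorem contDiff_qq : ContDiff ℝ (⊤ : ℕ∞) (qq : EE n → ℝ) := by
  have h0 : ContDiff ℝ (⊤ : ℕ∞) (fun y : EE n => y 0) :=
    (EuclideanSpace.proj (0 : Fin (n + 2)) : EE n →L[ℝ] ℝ).contDiff
  have h1 : ContDiff ℝ (⊤ : ℕ∞) (fun y : EE n => y 1) :=
    (EuclideanSpace.proj (1 : Fin (n + 2)) : EE n →L[ℝ] ℝ).contDiff
  exact (h0.pow 2).add (h1.pow 2)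


/-- the plane is two-dimensional -/
theorem planar (e x : EE n) (he : JJ (JJ e) = -e) (hex : ⟪e, x⟫ = 0) (hn : ‖e‖ = 1)
    (hx : 0 < qq x) :
    e = (Real.sqrt (qq x))⁻¹ • JJ x ∨ e = -((Real.sqrt (qq x))⁻¹ • JJ x) := by
  set r := Real.sqrt (qq x) with hr
  have hr0 : 0 < r := Real.sqrt_pos.mpr hx
  have hr2 : r ^ 2 = x 0 ^ 2 + x 1 ^ 2 := Real.sq_sqrt hx.le
  have hoth : ∀ i : Fin (n + 2), i ≠ 0 → i ≠ 1 → e i = 0 := by
    intro i h0 h1
    have := congrArg (fun v : EE n => v i) he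
    simp only [JJ_apply_of_ne _ i h0 h1] at this
    have h2 : (-e) i = -(e i) := rfl
    rw [h2] at this; linarith
  -- `e = -JJ (JJ e)`, so inner products only see the first two coordinates
  have hin : ∀ y : EE n, ⟪e, y⟫ = e 0 * y 0 + e 1 * y 1 := by
    intro y
    have h1 : e = -JJ (JJ e) := by rw [he, neg_neg]
    conv_lhs => rw [h1]
    rw [inner_neg_left, inner_JJ_eq, JJ_apply_zero, JJ_apply_one]; ring
  have h1 : e 0 * x 0 + e 1 * x 1 = 0 := by rw [← hin]; exact hex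
  have h2 : e 0 ^ 2 + e 1 ^ 2 = 1 := by
    have := hin e
    rw [real_inner_self_eq_norm_sq, hn] at this
    nlinarith
  set t := -(e 0 * x 1) + e 1 * x 0 with ht
  have ht2 : t ^ 2 = r ^ 2 := by
    rw [hr2]
    have : t ^ 2 = (e 0 ^ 2 + e 1 ^ 2) * (x 0 ^ 2 + x 1 ^ 2) - (e 0 * x 0 + e 1 * x 1) ^ 2 := by
      rw [ht]; ring
    rw [this, h1, h2]; ring
  have ha : e 0 * r ^ 2 = -(x 1 * t) := by
    rw [hr2, ht]; linear_combination x 0 * h1
  have hb : e 1 * r ^ 2 = x 0 * t := by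
    rw [hr2, ht]; linear_combination x 1 * h1
  have hcases : t = r ∨ t = -r := sq_eq_sq_iff_eq_or_eq_neg.mp ht2
  rcases hcases with h | h
  · left
    apply ext3
    · have : ((r⁻¹ • JJ x : EE n)) 0 = r⁻¹ * (JJ x) 0 := rfl
      rw [this, JJ_apply_zero]
      rw [h] at ha
      field_simp
      nlinarith
    · have : ((r⁻¹ • JJ x : EE n)) 1 = r⁻¹ * (JJ x) 1 := rfl
      rw [this, JJ_apply_one]
      rw [h] at hb
      field_simp
      nlinarith
    · intro i h0 h1'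
      have : ((r⁻¹ • JJ x : EE n)) i = r⁻¹ * (JJ x) i := rfl
      rw [this, JJ_apply_of_ne _ i h0 h1', hoth i h0 h1', mul_zero]
  · right
    apply ext3
    · have : (-(r⁻¹ • JJ x : EE n)) 0 = -(r⁻¹ * (JJ x) 0) := rfl
      rw [this, JJ_apply_zero]
      rw [h] at ha
      field_simp
      nlinarith
    · have : (-(r⁻¹ • JJ x : EE n)) 1 = -(r⁻¹ * (JJ x) 1) := rfl
      rw [this, JJ_apply_one]
      rw [h] at hb
      field_simp
      nlinarith
    · intro i h0 h1'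
      have : (-(r⁻¹ • JJ x : EE n)) i = -(r⁻¹ * (JJ x) i) := rfl
      rw [this, JJ_apply_of_ne _ i h0 h1', hoth i h0 h1', mul_zero, neg_zero]

/-! ### `RR` -/
lemma RR_apply_zero (x : EE n) : (RR x) 0 = x 0 := RR_apply_of_ne x 0 one_ne_zero'.symm
theorem RR_RR (x : EE n) : RR (RR x) = x := by
  apply ext3
  · rw [RR_apply_zero, RR_apply_zero]
  · rw [RR_apply_one, RR_apply_one, neg_neg]
  · intro i _ h1; rw [RR_apply_of_ne _ i h1, RR_apply_of_ne _ i h1]
lemma RR_eq (x : EE n) : RR x = x - (2 * x 1) • e1 := by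
  simp [RR, smul_smul]
lemma eq_of_sq_norm_eq {x y : EE n} (h : ‖x‖ ^ 2 = ‖y‖ ^ 2) : ‖x‖ = ‖y‖ :=
  (sq_eq_sq₀ (norm_nonneg _) (norm_nonneg _)).mp h
theorem norm_RR (x : EE n) : ‖RR x‖ = ‖x‖ := by
  apply eq_of_sq_norm_eq
  rw [RR_eq, ← real_inner_self_eq_norm_sq, ← real_inner_self_eq_norm_sq]
  simp only [inner_sub_left, inner_sub_right, real_inner_smul_left, real_inner_smul_right,
    inner_e1_left, inner_e1_right, e1_one]
  ring
theorem qq_RR (x : EE n) : qq (RR x) = qq x := by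
  simp [qq, RR_apply_one, RR_apply_zero]
theorem RR_JJ (x : EE n) : RR (JJ x) = -JJ (RR x) := by
  apply ext3
  · have : (-JJ (RR x)) 0 = -((JJ (RR x)) 0) := rfl
    rw [this, RR_apply_zero, JJ_apply_zero, JJ_apply_zero, RR_apply_one]; ring
  · have : (-JJ (RR x)) 1 = -((JJ (RR x)) 1) := rfl
    rw [this, RR_apply_one, JJ_apply_one, JJ_apply_one, RR_apply_zero]
  · intro i h0 h1
    have : (-JJ (RR x)) i = -((JJ (RR x)) i) := rfl
    rw [this, RR_apply_of_ne _ i h1, JJ_apply_of_ne _ i h0 h1, JJ_apply_of_ne _ i h0 h1, neg_zero]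

/-- a norm preserving continuous linear map with a two-sided inverse preserves the volume -/
lemma measurePreserving_of_isometry (A B : EE n →L[ℝ] EE n) (hAB : ∀ x, A (B x) = x)
    (hBA : ∀ x, B (A x) = x) (hA : ∀ x, ‖A x‖ = ‖x‖) :
    MeasurePreserving (A : EE n → EE n) volume volume := by
  let e₀ : EE n ≃ₗ[ℝ] EE n :=
    { toFun := A
      map_add' := A.map_add
      map_smul' := A.map_smul
      invFun := B
      left_inv := hBA
      right_inv := hAB }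
  let e : EE n ≃ₗᵢ[ℝ] EE n := { e₀ with norm_map' := hA }
  exact e.measurePreserving

theorem measurePreserving_RR : MeasurePreserving (RR : EE n → EE n) volume volume :=
  measurePreserving_of_isometry RR RR RR_RR RR_RR norm_RR

/-! ### rotations -/
theorem norm_rotcs {c s : ℝ} (h : c ^ 2 + s ^ 2 = 1) (x : EE n) : ‖rotcs c s x‖ = ‖x‖ := by
  apply eq_of_sq_norm_eq
  have := norm_sq_comb 1 s (1 - c) x
  rw [one_smul] at this
  rw [rotcs_apply, this]
  have h2 : s ^ 2 + (1 - c) ^ 2 - 2 * 1 * (1 - c) = 0 := by linear_combination h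
  rw [h2]; ring
theorem qq_rotcs {c s : ℝ} (h : c ^ 2 + s ^ 2 = 1) (x : EE n) : qq (rotcs c s x) = qq x := by
  have := qq_comb 1 s (1 - c) x
  rw [one_smul] at this
  rw [rotcs_apply, this]
  have h2 : (1 - (1 - c)) ^ 2 + s ^ 2 = 1 := by linear_combination h
  rw [h2, one_mul]
theorem rotcs_JJ (c s : ℝ) (x : EE n) : rotcs c s (JJ x) = JJ (rotcs c s x) := by
  simp [rotcs_apply]
theorem rotcs_rotcs_neg {c s : ℝ} (h : c ^ 2 + s ^ 2 = 1) (x : EE n) :
    rotcs c s (rotcs c (-s) x) = x := by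
  apply ext3
  · rw [rotcs_apply_zero, rotcs_apply_zero, rotcs_apply_one]; linear_combination x 0 * h
  · rw [rotcs_apply_one, rotcs_apply_zero, rotcs_apply_one]; linear_combination x 1 * h
  · intro i h0 h1; rw [rotcs_apply_of_ne _ _ _ i h0 h1, rotcs_apply_of_ne _ _ _ i h0 h1]
theorem rotcs_neg_rotcs {c s : ℝ} (h : c ^ 2 + s ^ 2 = 1) (x : EE n) :
    rotcs c (-s) (rotcs c s x) = x := by
  apply ext3
  · rw [rotcs_apply_zero, rotcs_apply_zero, rotcs_apply_one]; linear_combination x 0 * h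
  · rw [rotcs_apply_one, rotcs_apply_zero, rotcs_apply_one]; linear_combination x 1 * h
  · intro i h0 h1; rw [rotcs_apply_of_ne _ _ _ i h0 h1, rotcs_apply_of_ne _ _ _ i h0 h1]
theorem measurePreserving_rotcs {c s : ℝ} (h : c ^ 2 + s ^ 2 = 1) :
    MeasurePreserving (rotcs c s : EE n → EE n) volume volume :=
  measurePreserving_of_isometry (rotcs c s) (rotcs c (-s)) (rotcs_rotcs_neg h) (rotcs_neg_rotcs h)
    (norm_rotcs h)
/-- the reflection of a point is also a rotation of this point -/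
theorem exists_rotcs_eq_RR (y : EE n) :
    ∃ c s : ℝ, c ^ 2 + s ^ 2 = 1 ∧ rotcs c s y = RR y := by
  by_cases hq : qq y = 0
  · refine ⟨1, 0, by norm_num, ?_⟩
    have h0 : y 0 = 0 := by unfold qq at hq; nlinarith [sq_nonneg (y 0), sq_nonneg (y 1)]
    have h1 : y 1 = 0 := by unfold qq at hq; nlinarith [sq_nonneg (y 0), sq_nonneg (y 1)]
    apply ext3
    · rw [rotcs_apply_zero, RR_apply_zero]; ring
    · rw [rotcs_apply_one, RR_apply_one, h0, h1]; ring
    · intro i h0 h1; rw [rotcs_apply_of_ne _ _ _ i h0 h1, RR_apply_of_ne _ i h1]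
  · have hq' : y 0 ^ 2 + y 1 ^ 2 ≠ 0 := hq
    refine ⟨(y 0 ^ 2 - y 1 ^ 2) / qq y, -(2 * y 0 * y 1) / qq y, ?_, ?_⟩
    · unfold qq; field_simp; ring
    · apply ext3
      · rw [rotcs_apply_zero, RR_apply_zero]; unfold qq; field_simp; ring
      · rw [rotcs_apply_one, RR_apply_one]; unfold qq; field_simp; ring
      · intro i h0 h1; rw [rotcs_apply_of_ne _ _ _ i h0 h1, RR_apply_of_ne _ i h1]

lemma cs_sq (α : ℝ) : Real.cos α ^ 2 + Real.sin α ^ 2 = 1 := Real.cos_sq_add_sin_sq α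

theorem rot_zero (x : EE n) : rot 0 x = x := by
  simp [rot, rotcs_apply]
theorem rot_add (α β : ℝ) (x : EE n) : rot (α + β) x = rot α (rot β x) := by
  unfold rot
  apply ext3
  · rw [rotcs_apply_zero, rotcs_apply_zero, rotcs_apply_zero, rotcs_apply_one, Real.cos_add,
      Real.sin_add]; ring
  · rw [rotcs_apply_one, rotcs_apply_one, rotcs_apply_zero, rotcs_apply_one, Real.cos_add,
      Real.sin_add]; ring
  · intro i h0 h1
    rw [rotcs_apply_of_ne _ _ _ i h0 h1, rotcs_apply_of_ne _ _ _ i h0 h1,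
      rotcs_apply_of_ne _ _ _ i h0 h1]
theorem rot_add_two_pi (α : ℝ) (x : EE n) : rot (α + 2 * Real.pi) x = rot α x := by
  unfold rot; rw [Real.cos_add_two_pi, Real.sin_add_two_pi]
theorem norm_rot (α : ℝ) (x : EE n) : ‖rot α x‖ = ‖x‖ := norm_rotcs (cs_sq α) x
theorem qq_rot (α : ℝ) (x : EE n) : qq (rot α x) = qq x := qq_rotcs (cs_sq α) x
theorem measurePreserving_rot (α : ℝ) : MeasurePreserving (rot α : EE n → EE n) volume volume :=
  measurePreserving_rotcs (cs_sq α)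
theorem continuous_rot_uncurry : Continuous (fun p : ℝ × EE n => rot p.1 p.2) := by
  have : (fun p : ℝ × EE n => rot p.1 p.2) = fun p : ℝ × EE n =>
      p.2 + Real.sin p.1 • JJ p.2 + (1 - Real.cos p.1) • JJ (JJ p.2) := by
    funext p; exact rotcs_apply _ _ _
  rw [this]
  have hJ : Continuous (fun p : ℝ × EE n => JJ p.2) := JJ.continuous.comp continuous_snd
  have hJJ : Continuous (fun p : ℝ × EE n => JJ (JJ p.2)) := JJ.continuous.comp hJ
  exact (continuous_snd.add ((Real.continuous_sin.comp continuous_fst).smul hJ)).add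
    ((continuous_const.sub (Real.continuous_cos.comp continuous_fst)).smul hJJ)
theorem norm_rot_sub_le (β : ℝ) (y : EE n) : ‖rot β y - y‖ ≤ |β| * ‖y‖ := by
  have h1 : rot β y - y = (0 : ℝ) • y + Real.sin β • JJ y + (1 - Real.cos β) • JJ (JJ y) := by
    unfold rot; rw [rotcs_apply]; simp; abel
  have h2 : ‖rot β y - y‖ ^ 2 ≤ (|β| * ‖y‖) ^ 2 := by
    rw [h1, norm_sq_comb, mul_pow, sq_abs]
    have h3 : Real.sin β ^ 2 + (1 - Real.cos β) ^ 2 - 2 * 0 * (1 - Real.cos β) =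
        2 * (1 - Real.cos β) := by linear_combination cs_sq β
    rw [h3]
    have h4 : 2 * (1 - Real.cos β) ≤ β ^ 2 := by
      have := Real.one_sub_sq_div_two_le_cos (x := β); linarith
    have h5 : 0 ≤ 2 * (1 - Real.cos β) := by have := Real.cos_le_one β; linarith
    have h6 := qq_le_norm_sq y
    have h7 := qq_nonneg y
    calc 0 ^ 2 * ‖y‖ ^ 2 + 2 * (1 - Real.cos β) * qq y = 2 * (1 - Real.cos β) * qq y := by ring
      _ ≤ β ^ 2 * ‖y‖ ^ 2 := mul_le_mul h4 h6 h7 (sq_nonneg β)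
  exact (sq_le_sq₀ (norm_nonneg _) (by positivity)).mp h2

end Crest.Agent.MM
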