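import Crest.Agent.Lib_MM_Fam2
import Crest.Agent.Lib_MM_J

/-! # MM-B : the bump half-density on the far shell

`f₀ x = ψ(‖x‖² - a) ψ(b - ‖x‖²) ψ(1 - (‖x‖² - qq x))`, `ψ = Real.smoothTransition`,
`a = om1 s (3 k0/4) < b = om1 s (k0/2)`; on the closed support `a ≤ ‖x‖² ≤ b`, `‖x‖² - qq x ≤ 1`,
hence `qq x ≥ a - 1 ≥ 1/3 > 0`.  `f = c f₀` with `c = (3 ∫ f₀²)^(-1/2)`; `∫ f₀² > 0` since `f₀` is
continuous and positive at `√((a+b)/2) e0`. -/

set_option autoImplicit false
open Set MeasureTheory
open scoped ENNReal ContDiff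

namespace Crest.Agent.MM

variable {n : ℕ} {s k0 : ℝ}

/-- the unnormalised bump. -/
noncomputable def bump0 (a b : ℝ) (x : EE n) : ℝ :=
  Real.smoothTransition (‖x‖ ^ 2 - a) * Real.smoothTransition (b - ‖x‖ ^ 2) *
    Real.smoothTransition (1 - (‖x‖ ^ 2 - qq x))

theorem bump0_contDiff (a b : ℝ) : ContDiff ℝ ∞ (bump0 a b : EE n → ℝ) := by
  have hn : ContDiff ℝ ∞ (fun x : EE n => ‖x‖ ^ 2) := contDiff_norm_sq ℝ
  have hq : ContDiff ℝ ∞ (qq : EE n → ℝ) := contDiff_qq
  unfold bump0
  exact ((Real.smoothTransition.contDiff.comp (hn.sub contDiff_const)).mul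
    (Real.smoothTransition.contDiff.comp (contDiff_const.sub hn))).mul
    (Real.smoothTransition.contDiff.comp (contDiff_const.sub (hn.sub hq)))

theorem bump0_nonneg (a b : ℝ) (x : EE n) : 0 ≤ bump0 a b x := by
  unfold bump0
  exact mul_nonneg (mul_nonneg (Real.smoothTransition.nonneg _) (Real.smoothTransition.nonneg _))
    (Real.smoothTransition.nonneg _)

theorem bump0_le_one (a b : ℝ) (x : EE n) : bump0 a b x ≤ 1 := by
  unfold bump0
  have h1 := Real.smoothTransition.le_one (‖x‖ ^ 2 - a)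
  have h2 := Real.smoothTransition.le_one (b - ‖x‖ ^ 2)
  have h3 := Real.smoothTransition.le_one (1 - (‖x‖ ^ 2 - qq x))
  have g1 := Real.smoothTransition.nonneg (‖x‖ ^ 2 - a)
  have g2 := Real.smoothTransition.nonneg (b - ‖x‖ ^ 2)
  have g3 := Real.smoothTransition.nonneg (1 - (‖x‖ ^ 2 - qq x))
  calc (‖x‖ ^ 2 - a).smoothTransition * (b - ‖x‖ ^ 2).smoothTransition *
        (1 - (‖x‖ ^ 2 - qq x)).smoothTransition ≤ 1 * 1 * 1 := by gcongr
    _ = 1 := by norm_num

theorem bump0_ne_zero {a b : ℝ} {x : EE n} (h : bump0 a b x ≠ 0) :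
    a < ‖x‖ ^ 2 ∧ ‖x‖ ^ 2 < b ∧ ‖x‖ ^ 2 - qq x < 1 := by
  unfold bump0 at h
  refine ⟨?_, ?_, ?_⟩
  · by_contra hc
    apply h
    rw [Real.smoothTransition.zero_of_nonpos (by linarith : ‖x‖ ^ 2 - a ≤ 0)]
    ring
  · by_contra hc
    apply h
    rw [Real.smoothTransition.zero_of_nonpos (by linarith : b - ‖x‖ ^ 2 ≤ 0)]
    ring
  · by_contra hc
    apply h
    rw [Real.smoothTransition.zero_of_nonpos (by linarith : 1 - (‖x‖ ^ 2 - qq x) ≤ 0)]
    ring

theorem bump0_pos {a b : ℝ} {x : EE n} (h1 : a < ‖x‖ ^ 2) (h2 : ‖x‖ ^ 2 < b)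
    (h3 : ‖x‖ ^ 2 - qq x < 1) : 0 < bump0 a b x := by
  unfold bump0
  exact mul_pos (mul_pos (Real.smoothTransition.pos_of_pos (by linarith))
    (Real.smoothTransition.pos_of_pos (by linarith)))
    (Real.smoothTransition.pos_of_pos (by linarith))

/-- the closed set containing the support. -/
def bumpK (a b : ℝ) : Set (EE n) := {x | a ≤ ‖x‖ ^ 2 ∧ ‖x‖ ^ 2 ≤ b ∧ ‖x‖ ^ 2 - qq x ≤ 1}

theorem bumpK_closed (a b : ℝ) : IsClosed (bumpK a b : Set (EE n)) := by
  have hn : Continuous (fun x : EE n => ‖x‖ ^ 2) := by fun_prop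
  have hq : Continuous (qq : EE n → ℝ) := continuous_qq
  unfold bumpK
  exact (isClosed_le continuous_const hn).inter
    ((isClosed_le hn continuous_const).inter (isClosed_le (hn.sub hq) continuous_const))

theorem bumpK_compact (a b : ℝ) : IsCompact (bumpK a b : Set (EE n)) := by
  apply Metric.isCompact_of_isClosed_isBounded (bumpK_closed a b)
  apply (Metric.isBounded_closedBall (x := (0 : EE n)) (r := Real.sqrt b)).subset
  intro x hx
  rw [mem_closedBall_zero_iff]
  exact Real.le_sqrt_of_sq_le hx.2.1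

theorem exists_bump (h : Small s k0) : ∃ f : EE n → ℝ, ContDiff ℝ ∞ f ∧ (∀ x, 0 ≤ f x) ∧
    HasCompactSupport f ∧ tsupport f ⊆ ΩA s k0 ∧ ∫⁻ x, ENNReal.ofReal (f x ^ 2) = 1 / 3 ∧
    (∀ c t : ℝ, c ^ 2 + t ^ 2 = 1 → ∀ x, f (rotcs c t x) = f x) ∧ (∀ x, f (RR x) = f x) := by
  have hk0 := h.pos
  have hk1 := h.le1
  set a := om1 s (3 * k0 / 4) with ha
  set b := om1 s (k0 / 2) with hb
  have hanti := om1_strictAntiOn h.hs
  have hab : a < b := hanti ⟨by linarith, by linarith⟩ ⟨by linarith, by linarith⟩ (by linarith)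
  have ha0 : om1 s k0 < a := hanti ⟨by linarith, by linarith⟩ ⟨by linarith, by linarith⟩ (by linarith)
  have hb0 : b < om1 s (k0 / 4) :=
    hanti ⟨by linarith, by linarith⟩ ⟨by linarith, by linarith⟩ (by linarith)
  have ha43 : 4 / 3 ≤ a := om1_ge h.hs (by linarith) (by linarith)
  -- the integral of the square
  set I : ℝ≥0∞ := ∫⁻ x : EE n, ENNReal.ofReal (bump0 a b x ^ 2) with hI
  have hcont : Continuous (bump0 a b : EE n → ℝ) := (bump0_contDiff a b).continuous
  have hmeas : Measurable (fun x : EE n => ENNReal.ofReal (bump0 a b x ^ 2)) :=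
    ENNReal.measurable_ofReal.comp (hcont.pow 2).measurable
  have hIfin : I ≠ ⊤ := by
    have hle : I ≤ ∫⁻ x : EE n, (bumpK a b : Set (EE n)).indicator (fun _ => (1 : ℝ≥0∞)) x := by
      apply lintegral_mono
      intro x
      by_cases hx : x ∈ (bumpK a b : Set (EE n))
      · rw [indicator_of_mem hx]
        rw [← ENNReal.ofReal_one]
        apply ENNReal.ofReal_le_ofReal
        have h1 := bump0_le_one a b x
        have h0 := bump0_nonneg a b x
        nlinarith
      · have : bump0 a b x = 0 := by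
          by_contra hne
          have := bump0_ne_zero hne
          exact hx ⟨this.1.le, this.2.1.le, this.2.2.le⟩
        simp [this]
    rw [lintegral_indicator_const (bumpK_closed a b).measurableSet, one_mul] at hle
    exact ne_top_of_le_ne_top (bumpK_compact a b).measure_lt_top.ne hle
  have hIpos : I ≠ 0 := by
    have hpos : 0 < I := by
      rw [hI, lintegral_pos_iff_support hmeas]
      have hopen : IsOpen (Function.support fun x : EE n => ENNReal.ofReal (bump0 a b x ^ 2)) := by
        have : (Function.support fun x : EE n => ENNReal.ofReal (bump0 a b x ^ 2)) =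
            {x | bump0 a b x ≠ 0} := by
          ext x
          simp only [Function.mem_support, ne_eq, ENNReal.ofReal_eq_zero, not_le, mem_ofPred_eq]
          constructor
          · intro hx h0
            rw [h0] at hx
            norm_num at hx
          · intro hx
            positivity
        rw [this]
        exact isOpen_ne_fun hcont continuous_const
      refine hopen.measure_pos (volume : Measure (EE n)) ?_
      -- a point of the support
      set r := Real.sqrt ((a + b) / 2) with hr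
      have hr2 : r ^ 2 = (a + b) / 2 := Real.sq_sqrt (by linarith)
      refine ⟨r • (e0 : EE n), ?_⟩
      have hnorm : ‖r • (e0 : EE n)‖ ^ 2 = (a + b) / 2 := by
        rw [norm_smul, mul_pow, Real.norm_eq_abs, sq_abs, hr2]
        simp [e0]
      have hqq : qq (r • (e0 : EE n)) = (a + b) / 2 := by
        rw [qq_smul, hr2]
        simp [qq, e0]
      have := bump0_pos (a := a) (b := b) (x := r • (e0 : EE n)) (by rw [hnorm]; linarith)
        (by rw [hnorm]; linarith) (by rw [hnorm, hqq]; linarith)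
      simp only [Function.mem_support, ne_eq, ENNReal.ofReal_eq_zero, not_le]
      positivity
    exact hpos.ne'
  set I' := I.toReal with hI'
  have hI'pos : 0 < I' := ENNReal.toReal_pos hIpos hIfin
  have hIeq : I = ENNReal.ofReal I' := (ENNReal.ofReal_toReal hIfin).symm
  set c := Real.sqrt (1 / (3 * I')) with hc
  have hc2 : c ^ 2 = 1 / (3 * I') := Real.sq_sqrt (by positivity)
  have hc0 : 0 ≤ c := Real.sqrt_nonneg _
  have hsupp : Function.support (fun x : EE n => c * bump0 a b x) ⊆ bumpK a b := by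
    intro x hx
    have hne : bump0 a b x ≠ 0 := by
      intro h0
      apply hx
      simp [h0]
    have := bump0_ne_zero hne
    exact ⟨this.1.le, this.2.1.le, this.2.2.le⟩
  refine ⟨fun x => c * bump0 a b x, contDiff_const.mul (bump0_contDiff a b),
    fun x => mul_nonneg hc0 (bump0_nonneg a b x), ?_, ?_, ?_, ?_, ?_⟩
  · exact HasCompactSupport.of_support_subset_isCompact (bumpK_compact a b) hsupp
  · intro x hx
    have hxK : x ∈ (bumpK a b : Set (EE n)) := closure_minimal hsupp (bumpK_closed a b) hx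
    refine ⟨⟨by linarith [hxK.1], by linarith [hxK.2.1]⟩, ?_⟩
    linarith [hxK.1, hxK.2.2]
  · have h1 : ∀ x : EE n, ENNReal.ofReal ((c * bump0 a b x) ^ 2) =
        ENNReal.ofReal (c ^ 2) * ENNReal.ofReal (bump0 a b x ^ 2) := by
      intro x
      rw [mul_pow, ENNReal.ofReal_mul (by positivity)]
    simp only [h1]
    rw [lintegral_const_mul _ hmeas, ← hI, hIeq, ← ENNReal.ofReal_mul (by positivity), hc2]
    have : 1 / (3 * I') * I' = 1 / 3 := by field_simp
    rw [this, ENNReal.ofReal_div_of_pos (by norm_num)]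
    simp
  · intro c' t hct x
    simp only [bump0]
    rw [norm_rotcs hct, qq_rotcs hct]
  · intro x
    simp only [bump0]
    rw [norm_RR, qq_RR]

end Crest.Agent.MM
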