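import Crest.Agent.Lib_MM_Defs

/-! # MM-CERT : abstract certificate (weak duality) lemmas, and the plan `planOf` -/

set_option autoImplicit false
open MeasureTheory Set
open scoped ENNReal
open Crest.AnalysisR.OT

namespace Crest.Agent.MM

variable {X : Type*} [MeasurableSpace X]

/-- weak duality -/
theorem cert_lower (μ : Measure X) [IsFiniteMeasure μ] (c : X × X × X → ℝ≥0∞)
    (v : X → ℝ≥0∞) (hv : Measurable v) (C : ℝ≥0∞)
    (K : Set X) (hK : MeasurableSet K) (hμK : μ Kᶜ = 0)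
    (hle : ∀ x ∈ K, ∀ y ∈ K, ∀ z ∈ K, v x + v y + v z ≤ c (x, y, z) + C)
    (π : Measure (X × X × X)) (hπ : IsCoupling₃ μ π) :
    3 * ∫⁻ x, v x ∂μ ≤ ∫⁻ p, c p ∂π + C * μ univ := by
  obtain ⟨h1, h2, h3⟩ := hπ
  have m1 : Measurable (fun p : X × X × X => p.1) := measurable_fst
  have m2 : Measurable (fun p : X × X × X => p.2.1) := measurable_fst.comp measurable_snd
  have m3 : Measurable (fun p : X × X × X => p.2.2) := measurable_snd.comp measurable_snd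
  have i1 : ∫⁻ x, v x ∂μ = ∫⁻ p, v p.1 ∂π := by
    conv_lhs => rw [← h1]
    exact lintegral_map hv m1
  have i2 : ∫⁻ x, v x ∂μ = ∫⁻ p, v p.2.1 ∂π := by
    conv_lhs => rw [← h2]
    exact lintegral_map hv m2
  have i3 : ∫⁻ x, v x ∂μ = ∫⁻ p, v p.2.2 ∂π := by
    conv_lhs => rw [← h3]
    exact lintegral_map hv m3
  have a1 : ∀ᵐ p ∂π, p.1 ∈ K := by
    have : π ((fun p : X × X × X => p.1) ⁻¹' Kᶜ) = 0 := by
      rw [← Measure.map_apply m1 hK.compl, h1, hμK]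
    rw [ae_iff]; exact this
  have a2 : ∀ᵐ p ∂π, p.2.1 ∈ K := by
    have : π ((fun p : X × X × X => p.2.1) ⁻¹' Kᶜ) = 0 := by
      rw [← Measure.map_apply m2 hK.compl, h2, hμK]
    rw [ae_iff]; exact this
  have a3 : ∀ᵐ p ∂π, p.2.2 ∈ K := by
    have : π ((fun p : X × X × X => p.2.2) ⁻¹' Kᶜ) = 0 := by
      rw [← Measure.map_apply m3 hK.compl, h3, hμK]
    rw [ae_iff]; exact this
  have hu : π univ = μ univ := by
    rw [← h1, Measure.map_apply m1 MeasurableSet.univ, preimage_univ]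
  calc 3 * ∫⁻ x, v x ∂μ = ∫⁻ x, v x ∂μ + ∫⁻ x, v x ∂μ + ∫⁻ x, v x ∂μ := by ring
    _ = ∫⁻ p, v p.1 ∂π + ∫⁻ p, v p.2.1 ∂π + ∫⁻ p, v p.2.2 ∂π := by
        rw [← i1, ← i2, ← i3]
    _ = ∫⁻ p, (v p.1 + v p.2.1 + v p.2.2) ∂π := by
        have w3 : Measurable fun p : X × X × X => v p.2.2 := hv.comp m3
        have w2 : Measurable fun p : X × X × X => v p.2.1 := hv.comp m2
        rw [lintegral_add_right _ w3, lintegral_add_right _ w2]
    _ ≤ ∫⁻ p, (c p + C) ∂π := by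
        refine lintegral_mono_ae ?_
        filter_upwards [a1, a2, a3] with p p1 p2 p3
        exact hle p.1 p1 p.2.1 p2 p.2.2 p3
    _ = ∫⁻ p, c p ∂π + C * μ univ := by
        rw [lintegral_add_right _ measurable_const, lintegral_const, hu]

/-- equality case for Monge plans -/
theorem cert_monge_eq (μ : Measure X) [IsFiniteMeasure μ] (c : X × X × X → ℝ≥0∞)
    (hc : Measurable c) (v : X → ℝ≥0∞) (hv : Measurable v) (hvfin : ∫⁻ x, v x ∂μ ≠ ⊤)
    (C : ℝ≥0∞) (hC : C ≠ ⊤)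
    (K : Set X) (hK : MeasurableSet K) (hμK : μ Kᶜ = 0)
    (hle : ∀ x ∈ K, ∀ y ∈ K, ∀ z ∈ K, v x + v y + v z ≤ c (x, y, z) + C)
    (T₂ T₃ : X → X) (h₂ : Measurable T₂) (h₃ : Measurable T₃)
    (hT₂ : μ.map T₂ = μ) (hT₃ : μ.map T₃ = μ)
    (hcost : ∫⁻ x, c (x, T₂ x, T₃ x) ∂μ + C * μ univ ≤ 3 * ∫⁻ x, v x ∂μ) :
    ∀ᵐ x ∂μ, x ∈ K ∧ T₂ x ∈ K ∧ T₃ x ∈ K ∧
      v x + v (T₂ x) + v (T₃ x) = c (x, T₂ x, T₃ x) + C := by
  have a1 : ∀ᵐ x ∂μ, x ∈ K := by
    rw [ae_iff]; exact hμK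
  have a2 : ∀ᵐ x ∂μ, T₂ x ∈ K := by
    have : μ (T₂ ⁻¹' Kᶜ) = 0 := by
      rw [← Measure.map_apply h₂ hK.compl, hT₂, hμK]
    rw [ae_iff]; exact this
  have a3 : ∀ᵐ x ∂μ, T₃ x ∈ K := by
    have : μ (T₃ ⁻¹' Kᶜ) = 0 := by
      rw [← Measure.map_apply h₃ hK.compl, hT₃, hμK]
    rw [ae_iff]; exact this
  have i2 : ∫⁻ x, v (T₂ x) ∂μ = ∫⁻ x, v x ∂μ := by
    conv_rhs => rw [← hT₂]
    exact (lintegral_map hv h₂).symm
  have i3 : ∫⁻ x, v (T₃ x) ∂μ = ∫⁻ x, v x ∂μ := by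
    conv_rhs => rw [← hT₃]
    exact (lintegral_map hv h₃).symm
  have hm : Measurable (fun x => (x, T₂ x, T₃ x)) := measurable_id.prodMk (h₂.prodMk h₃)
  have hf : ∫⁻ x, (v x + v (T₂ x) + v (T₃ x)) ∂μ = 3 * ∫⁻ x, v x ∂μ := by
    have w3 : Measurable fun x => v (T₃ x) := hv.comp h₃
    have w2 : Measurable fun x => v (T₂ x) := hv.comp h₂
    rw [lintegral_add_right _ w3, lintegral_add_right _ w2, i2, i3]; ring
  have hg : ∫⁻ x, (c (x, T₂ x, T₃ x) + C) ∂μ = ∫⁻ x, c (x, T₂ x, T₃ x) ∂μ + C * μ univ := by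
    rw [lintegral_add_right _ measurable_const, lintegral_const]
  have hfg : (fun x => v x + v (T₂ x) + v (T₃ x)) ≤ᵐ[μ] fun x => c (x, T₂ x, T₃ x) + C := by
    filter_upwards [a1, a2, a3] with x x1 x2 x3
    exact hle x x1 _ x2 _ x3
  have key := ae_eq_of_ae_le_of_lintegral_le hfg
    (by rw [hf]; exact ENNReal.mul_ne_top (by simp) hvfin)
    ((hc.comp hm).add measurable_const).aemeasurable (by rw [hf, hg]; exact hcost)
  filter_upwards [a1, a2, a3, key] with x x1 x2 x3 x4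
  exact ⟨x1, x2, x3, x4⟩

/-- second-moment rigidity for Monge plans -/
theorem moment_monge (μ : Measure X) [IsFiniteMeasure μ] (φ : X → ℝ) (hφ : Measurable φ)
    (hb : ∃ M : ℝ, ∀ x, |φ x| ≤ M) (h0 : ∫ x, φ x ∂μ = 0)
    (T₂ T₃ : X → X) (h₂ : Measurable T₂) (h₃ : Measurable T₃)
    (hT₂ : μ.map T₂ = μ) (hT₃ : μ.map T₃ = μ)
    (hnn : ∀ᵐ x ∂μ, 0 ≤ φ x + φ (T₂ x) + φ (T₃ x)) :
    ∀ᵐ x ∂μ, φ x + φ (T₂ x) + φ (T₃ x) = 0 := by
  obtain ⟨M, hM⟩ := hb
  have hint : ∀ ψ : X → ℝ, Measurable ψ → (∀ x, |ψ x| ≤ M) → Integrable ψ μ := by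
    intro ψ hψ hψM
    exact Integrable.of_bound hψ.aestronglyMeasurable M (Filter.Eventually.of_forall hψM)
  have I1 := hint φ hφ hM
  have I2 := hint (fun x => φ (T₂ x)) (hφ.comp h₂) (fun x => hM _)
  have I3 := hint (fun x => φ (T₃ x)) (hφ.comp h₃) (fun x => hM _)
  have I12 : Integrable (fun x => φ x + φ (T₂ x)) μ := I1.add I2
  have i2 : ∫ x, φ (T₂ x) ∂μ = 0 := by
    rw [← integral_map h₂.aemeasurable (by rw [hT₂]; exact hφ.aestronglyMeasurable), hT₂, h0]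
  have i3 : ∫ x, φ (T₃ x) ∂μ = 0 := by
    rw [← integral_map h₃.aemeasurable (by rw [hT₃]; exact hφ.aestronglyMeasurable), hT₃, h0]
  have hsum : ∫ x, (φ x + φ (T₂ x) + φ (T₃ x)) ∂μ = 0 := by
    rw [integral_add I12 I3, integral_add I1 I2, h0, i2, i3]; simp
  have := (integral_eq_zero_iff_of_nonneg_ae hnn (I12.add I3)).mp hsum
  filter_upwards [this] with x hx using hx

/-- `planOf` is a coupling -/
theorem planOf_coupling (μA ν : Measure X) {Y Z : X → X} (hY : Measurable Y) (hZ : Measurable Z)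
    (hYν : μA.map Y = ν) (hZν : μA.map Z = ν) :
    IsCoupling₃ (μA + (2 : ℝ≥0∞) • ν) (planOf μA Y Z) := by
  have m1 : Measurable (fun p : X × X × X => p.1) := measurable_fst
  have m2 : Measurable (fun p : X × X × X => p.2.1) := measurable_fst.comp measurable_snd
  have m3 : Measurable (fun p : X × X × X => p.2.2) := measurable_snd.comp measurable_snd
  have n1 : Measurable (fun x => (x, Y x, Z x)) := measurable_id.prodMk (hY.prodMk hZ)
  have n2 : Measurable (fun x => (Y x, Z x, x)) := hY.prodMk (hZ.prodMk measurable_id)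
  have n3 : Measurable (fun x => (Z x, x, Y x)) := hZ.prodMk (measurable_id.prodMk hY)
  have hid : μA.map (fun x => x) = μA := Measure.map_id
  have two : (2 : ℝ≥0∞) • ν = ν + ν := two_smul _ _
  refine ⟨?_, ?_, ?_⟩
  · unfold planOf
    rw [Measure.map_add _ _ m1, Measure.map_add _ _ m1, Measure.map_map m1 n1,
      Measure.map_map m1 n2, Measure.map_map m1 n3]
    change μA.map (fun x => x) + μA.map Y + μA.map Z = _
    rw [hid, hYν, hZν, two, add_assoc]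
  · unfold planOf
    rw [Measure.map_add _ _ m2, Measure.map_add _ _ m2, Measure.map_map m2 n1,
      Measure.map_map m2 n2, Measure.map_map m2 n3]
    change μA.map Y + μA.map Z + μA.map (fun x => x) = _
    rw [hid, hYν, hZν, two, add_comm]
  · unfold planOf
    rw [Measure.map_add _ _ m3, Measure.map_add _ _ m3, Measure.map_map m3 n1,
      Measure.map_map m3 n2, Measure.map_map m3 n3]
    change μA.map Z + μA.map (fun x => x) + μA.map Y = _
    rw [hid, hYν, hZν, two, add_comm ν μA, add_assoc]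

/-- integral against `planOf` -/
theorem lintegral_planOf (μA : Measure X) {Y Z : X → X} (hY : Measurable Y) (hZ : Measurable Z)
    (c : X × X × X → ℝ≥0∞) (hc : Measurable c) :
    ∫⁻ p, c p ∂(planOf μA Y Z) =
      ∫⁻ x, c (x, Y x, Z x) ∂μA + ∫⁻ x, c (Y x, Z x, x) ∂μA + ∫⁻ x, c (Z x, x, Y x) ∂μA := by
  have n1 : Measurable (fun x => (x, Y x, Z x)) := measurable_id.prodMk (hY.prodMk hZ)
  have n2 : Measurable (fun x => (Y x, Z x, x)) := hY.prodMk (hZ.prodMk measurable_id)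
  have n3 : Measurable (fun x => (Z x, x, Y x)) := hZ.prodMk (measurable_id.prodMk hY)
  unfold planOf
  rw [lintegral_add_measure, lintegral_add_measure, lintegral_map hc n1, lintegral_map hc n2,
    lintegral_map hc n3]

end Crest.Agent.MM
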