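import Crest.Agent.Lib_MM_Fam1

/-! # MM-C1 : the main inequality (tangent lines + completing the square) -/

set_option autoImplicit false
set_option linter.unusedVariables false
open Set
open scoped RealInnerProductSpace

namespace Crest.Agent.MM

variable {s k t t0 : ℝ}

theorem hh_ratio (ht : 0 < t) (ht0 : 0 < t0) : hh s t = hh s t0 * (t / t0) ^ (-(s / 2)) := by
  unfold hh
  rw [Real.div_rpow ht.le ht0.le]
  have := Real.rpow_pos_of_pos ht0 (-(s / 2))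
  field_simp

theorem slope_eq (ht0 : 0 < t0) : s / 2 * t0 ^ (-(sg s)) * (t - t0) = hh s t0 * (s / 2 * (t / t0 - 1)) := by
  unfold hh sg
  have : -(s / 2 + 1) = -(s / 2) - 1 := by ring
  rw [this, Real.rpow_sub_one ht0.ne']
  field_simp

/-- `r^(-a) ≥ 1 - a (r - 1)`, strict unless `r = 1` -/
theorem bern {a r : ℝ} (ha : 0 < a) (hr : 0 < r) : 1 - a * (r - 1) ≤ r ^ (-a) := by
  rw [Real.rpow_def_of_pos hr]
  have h1 := Real.add_one_le_exp (Real.log r * -a)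
  have h2 := Real.log_le_sub_one_of_pos hr
  nlinarith

theorem bern_eq {a r : ℝ} (ha : 0 < a) (hr : 0 < r) (h : r ^ (-a) ≤ 1 - a * (r - 1)) : r = 1 := by
  by_contra hne
  rw [Real.rpow_def_of_pos hr] at h
  have h1 := Real.add_one_le_exp (Real.log r * -a)
  have h2 := Real.log_lt_sub_one_of_pos hr hne
  nlinarith

theorem tangent_line (hs : 0 < s) (ht : 0 < t) (ht0 : 0 < t0) :
    hh s t0 - s / 2 * t0 ^ (-(sg s)) * (t - t0) ≤ hh s t := by
  rw [slope_eq ht0, hh_ratio ht ht0]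
  have h0 := hh_pos (s := s) ht0
  have := bern (a := s / 2) (r := t / t0) (by positivity) (by positivity)
  nlinarith

theorem tangent_line_eq (hs : 0 < s) (ht : 0 < t) (ht0 : 0 < t0)
    (h : hh s t ≤ hh s t0 - s / 2 * t0 ^ (-(sg s)) * (t - t0)) : t = t0 := by
  rw [slope_eq ht0, hh_ratio ht ht0] at h
  have h0 := hh_pos (s := s) ht0
  have h1 : (t / t0) ^ (-(s / 2)) ≤ 1 - s / 2 * (t / t0 - 1) := by
    have : hh s t0 * (t / t0) ^ (-(s / 2)) ≤ hh s t0 * (1 - s / 2 * (t / t0 - 1)) := by linarith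
    exact le_of_mul_le_mul_left this h0
  have := bern_eq (a := s / 2) (r := t / t0) (by positivity) (by positivity) h1
  rwa [div_eq_one_iff_eq ht0.ne'] at this

variable {V : Type*} [NormedAddCommGroup V] [InnerProductSpace ℝ V]

theorem quad_identity (γ : ℝ) (x y z : V) :
    γ * ‖x - y‖ ^ 2 + γ * ‖x - z‖ ^ 2 + ‖y - z‖ ^ 2 =
      (γ ^ 2 + 2 * γ) * ‖x‖ ^ 2 + (γ + 2) * (‖y‖ ^ 2 + ‖z‖ ^ 2) - ‖γ • x + y + z‖ ^ 2 := by
  rw [norm_sub_sq_real, norm_sub_sq_real, norm_sub_sq_real, norm_add_sq_real, norm_add_sq_real,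
    norm_smul, inner_add_left, inner_smul_left, inner_smul_left, mul_pow, Real.norm_eq_abs, sq_abs]
  simp only [conj_trivial]
  ring

/-- sum of the three tangent lines -/
theorem tangent_sum (hs : 0 < s) (hk : 0 < k) (x y z : V) (hx : ‖x‖ ^ 2 = om1 s k) :
    (hh s (4 / k) - s / 2 * (4 / k) ^ (-(sg s)) * (‖x - y‖ ^ 2 - 4 / k)) +
      (hh s (4 / k) - s / 2 * (4 / k) ^ (-(sg s)) * (‖x - z‖ ^ 2 - 4 / k)) +
      (hh s 4 - s / 2 * (4 : ℝ) ^ (-(sg s)) * (‖y - z‖ ^ 2 - 4)) =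
    cbase s k - kapQ s * (2 + gam s k) * (‖y‖ ^ 2 - om2 s k)
        - kapQ s * (2 + gam s k) * (‖z‖ ^ 2 - om2 s k) + kapQ s * ‖gam s k • x + y + z‖ ^ 2 := by
  rw [kapP_eq hk]
  have e : s / 2 * (4 : ℝ) ^ (-(sg s)) = kapQ s := rfl
  rw [e]
  have h1 := quad_identity (gam s k) x y z
  have h2 := base_identity (s := s) hk
  rw [hx] at h1
  unfold cbase
  have h3 : ‖gam s k • x + y + z‖ ^ 2 = (gam s k ^ 2 + 2 * gam s k) * om1 s k +
      (gam s k + 2) * (‖y‖ ^ 2 + ‖z‖ ^ 2) -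
      (gam s k * ‖x - y‖ ^ 2 + gam s k * ‖x - z‖ ^ 2 + ‖y - z‖ ^ 2) := by linarith
  rw [h3]
  have h4 : (gam s k ^ 2 + 2 * gam s k) * om1 s k =
      2 * gam s k * (4 / k) + 4 - 2 * (gam s k + 2) * om2 s k := by linarith
  rw [h4]
  ring

theorem sq_pos_of_ne {x y : V} (h : x ≠ y) : 0 < ‖x - y‖ ^ 2 := by
  have : 0 < ‖x - y‖ := norm_pos_iff.2 (sub_ne_zero.2 h)
  positivity

theorem main_ineq (hs : 0 < s) (hk : 0 < k) {x y z : V} (hxy : x ≠ y) (hxz : x ≠ z) (hyz : y ≠ z)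
    (hx : ‖x‖ ^ 2 = om1 s k) :
    cbase s k - kapQ s * (2 + gam s k) * (‖y‖ ^ 2 - om2 s k)
        - kapQ s * (2 + gam s k) * (‖z‖ ^ 2 - om2 s k) + kapQ s * ‖gam s k • x + y + z‖ ^ 2 ≤
      hh s (‖x - y‖ ^ 2) + hh s (‖x - z‖ ^ 2) + hh s (‖y - z‖ ^ 2) := by
  rw [← tangent_sum hs hk x y z hx]
  have h1 := tangent_line hs (sq_pos_of_ne hxy) (t0 := 4 / k) (by positivity)
  have h2 := tangent_line hs (sq_pos_of_ne hxz) (t0 := 4 / k) (by positivity)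
  have h3 := tangent_line hs (sq_pos_of_ne hyz) (t0 := 4) (by norm_num)
  linarith

theorem main_ineq_eq (hs : 0 < s) (hk : 0 < k) {x y z : V} (hxy : x ≠ y) (hxz : x ≠ z)
    (hyz : y ≠ z) (hx : ‖x‖ ^ 2 = om1 s k)
    (h : hh s (‖x - y‖ ^ 2) + hh s (‖x - z‖ ^ 2) + hh s (‖y - z‖ ^ 2) ≤
      cbase s k - kapQ s * (2 + gam s k) * (‖y‖ ^ 2 - om2 s k)
        - kapQ s * (2 + gam s k) * (‖z‖ ^ 2 - om2 s k)) :
    ‖x - y‖ ^ 2 = 4 / k ∧ ‖x - z‖ ^ 2 = 4 / k ∧ ‖y - z‖ ^ 2 = 4 ∧ gam s k • x + y + z = 0 := by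
  have hsum := tangent_sum hs hk x y z hx
  have h1 := tangent_line hs (sq_pos_of_ne hxy) (t0 := 4 / k) (by positivity)
  have h2 := tangent_line hs (sq_pos_of_ne hxz) (t0 := 4 / k) (by positivity)
  have h3 := tangent_line hs (sq_pos_of_ne hyz) (t0 := 4) (by norm_num)
  have hκ := kapQ_pos hs
  have hsq : 0 ≤ kapQ s * ‖gam s k • x + y + z‖ ^ 2 := by positivity
  refine ⟨tangent_line_eq hs (sq_pos_of_ne hxy) (by positivity) (by linarith),
    tangent_line_eq hs (sq_pos_of_ne hxz) (by positivity) (by linarith),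
    tangent_line_eq hs (sq_pos_of_ne hyz) (by norm_num) (by linarith), ?_⟩
  have h0 : kapQ s * ‖gam s k • x + y + z‖ ^ 2 = 0 := by linarith
  have h0' : ‖gam s k • x + y + z‖ ^ 2 = 0 := by
    rcases mul_eq_zero.1 h0 with h | h
    · exact absurd h hκ.ne'
    · exact h
  exact norm_eq_zero.1 (pow_eq_zero_iff two_ne_zero |>.1 h0')

/-- norms of the base points of a balanced triangle -/
theorem tri_norms (hk : 0 < k) {x y z : V} (hx : ‖x‖ ^ 2 = om1 s k)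
    (h1 : ‖x - y‖ ^ 2 = ‖x - z‖ ^ 2) (h3 : ‖y - z‖ ^ 2 = 4) (h4 : gam s k • x + y + z = 0) :
    ‖y‖ ^ 2 = om2 s k ∧ ‖z‖ ^ 2 = om2 s k ∧ ⟪x, y - z⟫ = 0 := by
  have hg := gam_pos (s := s) hk
  have hz : z = -(gam s k • x) - y := by
    have : z = (gam s k • x + y + z) - gam s k • x - y := by abel
    rw [this, h4]; abel
  rw [norm_sub_sq_real, norm_sub_sq_real] at h1
  rw [norm_sub_sq_real] at h3
  -- inner products
  have e1 : ⟪x, z⟫ = -(gam s k) * ‖x‖ ^ 2 - ⟪x, y⟫ := by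
    rw [hz, inner_sub_right, inner_neg_right, inner_smul_right, real_inner_self_eq_norm_sq]
    ring
  have e2 : ⟪y, z⟫ = -(gam s k) * ⟪x, y⟫ - ‖y‖ ^ 2 := by
    rw [hz, inner_sub_right, inner_neg_right, inner_smul_right, real_inner_self_eq_norm_sq,
      real_inner_comm]
    ring
  have e3 : ‖z‖ ^ 2 = (gam s k) ^ 2 * ‖x‖ ^ 2 + 2 * gam s k * ⟪x, y⟫ + ‖y‖ ^ 2 := by
    rw [hz, norm_sub_sq_real, norm_neg, norm_smul, inner_neg_left, inner_smul_left, mul_pow,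
      Real.norm_eq_abs, sq_abs]
    simp only [conj_trivial]
    ring
  rw [e1, e3] at h1
  rw [e2, e3] at h3
  rw [hx] at h1 h3 e3 e1
  -- from h1: solve for ⟪x,y⟫
  have hxy : ⟪x, y⟫ = -(gam s k) / 2 * om1 s k := by
    have : (gam s k + 2) * (2 * ⟪x, y⟫ + gam s k * om1 s k) = 0 := by nlinarith
    rcases mul_eq_zero.1 this with h | h
    · linarith
    · linarith
  have hy : ‖y‖ ^ 2 = om2 s k := by
    unfold om2
    rw [hxy] at h3
    nlinarith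
  refine ⟨hy, ?_, ?_⟩
  · rw [e3, hxy, hy]; ring
  · rw [inner_sub_right, e1, hxy]; ring

end Crest.Agent.MM
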