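import Crest.Agent.Lib_MM_Pot
import Crest.Agent.Lib_MM_Main

/-! # MM-C2 : the certificate `vv x + vv y + vv z ≤ tripleCost + CC` on the two shells

Patterns (A = far shell `‖x‖^2 ∈ OA`, S = near shell `‖x‖^2 ∈ OS`; disjoint):
* (A,S,S) and permutations: `main_ineq` with `k = kA (‖x‖^2)`, `US_supergrad` at `w' = om2 k`
  (`NN_om2`), definition of `UA`.  Equality: `main_ineq_eq`.
* (A,A,·): `uu ≤ -(7/10) h4` on A, `uu ≤ (91/100) h4` on S, so the sum of the `uu` is `< 0 <` cost.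
* (S,S,S): `‖y - y'‖^2 ≤ 4 (1 + 1/(50 s))`, so every pair cost is `≥ (99/100) h4 > (91/100) h4` (`hh_far`).
If two points coincide the cost is `⊤`.
-/

set_option autoImplicit false
open Set MeasureTheory
open scoped ENNReal
open Crest.AnalysisR.OT

namespace Crest.Agent.MM

variable {n : ℕ} {s k0 : ℝ} {x y z : EE n}

theorem pairCost_eq {E : Type*} [NormedAddCommGroup E] (s : ℝ) {x y : E} (h : x ≠ y) :
    pairCost s x y = ENNReal.ofReal (hh s (‖x - y‖ ^ 2)) := by
  have hpos : 0 < ‖x - y‖ := norm_pos_iff.2 (sub_ne_zero.2 h)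
  unfold pairCost hh
  rw [ENNReal.ofReal_rpow_of_pos hpos]
  congr 1
  rw [← Real.rpow_natCast, ← Real.rpow_mul hpos.le]
  congr 1
  push_cast
  ring

theorem pairCost_self {E : Type*} [NormedAddCommGroup E] {s : ℝ} (hs : 0 < s) (x : E) :
    pairCost s x x = ⊤ := by
  unfold pairCost
  rw [sub_self, norm_zero, ENNReal.ofReal_zero]
  exact ENNReal.zero_rpow_of_neg (by linarith)

theorem pairCost_comm {E : Type*} [NormedAddCommGroup E] (s : ℝ) (x y : E) :
    pairCost s x y = pairCost s y x := by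
  unfold pairCost
  rw [norm_sub_rev]

theorem measurable_tripleCost (s : ℝ) :
    Measurable (tripleCost s : EE n × EE n × EE n → ℝ≥0∞) := by
  unfold tripleCost pairCost
  fun_prop

theorem tripleCost_swap12 (s : ℝ) (x y z : EE n) :
    tripleCost s (y, x, z) = tripleCost s (x, y, z) := by
  simp only [tripleCost]
  rw [pairCost_comm s y x, add_assoc, add_assoc, add_comm (pairCost s y z)]

theorem tripleCost_swap23 (s : ℝ) (x y z : EE n) :
    tripleCost s (x, z, y) = tripleCost s (x, y, z) := by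
  simp only [tripleCost]
  rw [pairCost_comm s z y, add_comm (pairCost s x z)]

theorem tripleCost_rot (s : ℝ) (x y z : EE n) :
    tripleCost s (y, z, x) = tripleCost s (x, y, z) := by
  rw [tripleCost_swap23, tripleCost_swap12]

theorem measurableSet_normSq (O : Set ℝ) (hO : MeasurableSet O) :
    MeasurableSet {x : EE n | ‖x‖ ^ 2 ∈ O} := by
  have : Measurable (fun x : EE n => ‖x‖ ^ 2) := by fun_prop
  exact this hO

theorem measurable_uu (h : Small s k0) : Measurable (uu s k0 : EE n → ℝ) := by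
  classical
  have hn : Measurable (fun x : EE n => ‖x‖ ^ 2) := by fun_prop
  unfold uu
  refine Measurable.ite (measurableSet_normSq _ measurableSet_Ioo)
    ((continuous_US h).measurable.comp hn) ?_
  exact Measurable.ite (measurableSet_normSq _ measurableSet_Ioo)
    ((measurable_UA h).comp hn) measurable_const

theorem measurable_vv (h : Small s k0) : Measurable (vv s k0 : EE n → ℝ≥0∞) := by
  unfold vv
  exact ENNReal.measurable_ofReal.comp ((measurable_uu h).add_const _)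

theorem uu_of_S (hx : ‖x‖ ^ 2 ∈ OS s k0) : uu s k0 x = US s k0 (‖x‖ ^ 2) := by
  unfold uu
  rw [if_pos hx]

theorem uu_of_A (h : Small s k0) (hx : ‖x‖ ^ 2 ∈ OA s k0) : uu s k0 x = UA s k0 (‖x‖ ^ 2) := by
  unfold uu
  rw [if_neg (not_mem_OS_of_mem_OA h hx), if_pos hx]

theorem uu_bounds (h : Small s k0) (x : EE n) :
    -2 * hh s 4 ≤ uu s k0 x ∧ uu s k0 x ≤ hh s 4 := by
  have h4 := hh_pos (s := s) (t := 4) (by norm_num)
  by_cases hS : ‖x‖ ^ 2 ∈ OS s k0
  · rw [uu_of_S hS]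
    have := US_bounds h hS
    constructor <;> linarith [this.1, this.2]
  · by_cases hA : ‖x‖ ^ 2 ∈ OA s k0
    · rw [uu_of_A h hA]
      have := UA_bounds h hA
      constructor <;> linarith [this.1, this.2]
    · unfold uu
      rw [if_neg hS, if_neg hA]
      constructor <;> linarith

theorem vv_le (h : Small s k0) (x : EE n) : vv s k0 x ≤ ENNReal.ofReal (3 * hh s 4) := by
  unfold vv
  apply ENNReal.ofReal_le_ofReal
  linarith [(uu_bounds h x).2]

theorem measurableSet_KK : MeasurableSet (KK s k0 : Set (EE n)) := by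
  unfold KK
  exact (measurableSet_normSq _ measurableSet_Ioo).union (measurableSet_normSq _ measurableSet_Ioo)

/-- the real cost. -/
noncomputable def cR (s : ℝ) (x y z : EE n) : ℝ :=
  hh s (‖x - y‖ ^ 2) + hh s (‖x - z‖ ^ 2) + hh s (‖y - z‖ ^ 2)

theorem cR_swap12 (s : ℝ) (x y z : EE n) : cR s y x z = cR s x y z := by
  unfold cR
  rw [norm_sub_rev y x]
  ring

theorem cR_swap23 (s : ℝ) (x y z : EE n) : cR s x z y = cR s x y z := by
  unfold cR
  rw [norm_sub_rev z y]
  ring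

theorem cR_pos (hxy : x ≠ y) (hxz : x ≠ z) (hyz : y ≠ z) : 0 < cR s x y z := by
  unfold cR
  have h1 := hh_pos (s := s) (sq_pos_of_ne hxy)
  have h2 := hh_pos (s := s) (sq_pos_of_ne hxz)
  have h3 := hh_pos (s := s) (sq_pos_of_ne hyz)
  linarith

theorem tripleCost_eq (s : ℝ) (hxy : x ≠ y) (hxz : x ≠ z) (hyz : y ≠ z) :
    tripleCost s (x, y, z) = ENNReal.ofReal (cR s x y z) := by
  simp only [tripleCost, cR]
  rw [pairCost_eq s hxy, pairCost_eq s hxz, pairCost_eq s hyz,
    ENNReal.ofReal_add (add_nonneg (hh_pos (sq_pos_of_ne hxy)).le (hh_pos (sq_pos_of_ne hxz)).le)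
      (hh_pos (sq_pos_of_ne hyz)).le,
    ENNReal.ofReal_add (hh_pos (sq_pos_of_ne hxy)).le (hh_pos (sq_pos_of_ne hxz)).le]

theorem tripleCost_top (hs : 0 < s) (hne : ¬ (x ≠ y ∧ x ≠ z ∧ y ≠ z)) :
    tripleCost s (x, y, z) = ⊤ := by
  simp only [tripleCost]
  by_cases hxy : x = y
  · subst hxy
    rw [pairCost_self hs]
    simp
  by_cases hxz : x = z
  · subst hxz
    rw [pairCost_self hs]
    simp
  by_cases hyz : y = z
  · subst hyz
    rw [pairCost_self hs]
    simp
  exact absurd ⟨hxy, hxz, hyz⟩ hne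

theorem vv_sum (h : Small s k0) (x y z : EE n) :
    vv s k0 x + vv s k0 y + vv s k0 z =
      ENNReal.ofReal (uu s k0 x + uu s k0 y + uu s k0 z + 6 * hh s 4) := by
  unfold vv
  have hx := (uu_bounds h x).1
  have hy := (uu_bounds h y).1
  have hz := (uu_bounds h z).1
  rw [← ENNReal.ofReal_add (by linarith) (by linarith),
    ← ENNReal.ofReal_add (by linarith) (by linarith)]
  congr 1
  ring

/-- pattern (A,S,S). -/
theorem real_ASS (h : Small s k0) (hx : ‖x‖ ^ 2 ∈ OA s k0) (hy : ‖y‖ ^ 2 ∈ OS s k0)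
    (hz : ‖z‖ ^ 2 ∈ OS s k0) (hxy : x ≠ y) (hxz : x ≠ z) (hyz : y ≠ z) :
    uu s k0 x + uu s k0 y + uu s k0 z ≤ cR s x y z ∧
      (uu s k0 x + uu s k0 y + uu s k0 z = cR s x y z → Tri s k0 x y z) := by
  set k := kA s k0 (‖x‖ ^ 2) with hk
  have hkII : k ∈ II k0 := kA_mem h hx
  have hkpos : 0 < k := (II_subset h hkII).1
  have hxk : ‖x‖ ^ 2 = om1 s k := (om1_kA h hx).symm
  have hmain := main_ineq h.hs hkpos hxy hxz hyz hxk
  have hNN := NN_om2 h hkII
  have hsy := US_supergrad h (‖y‖ ^ 2) (om2 s k)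
  have hsz := US_supergrad h (‖z‖ ^ 2) (om2 s k)
  rw [hNN] at hsy hsz
  have hUA : uu s k0 x = cbase s k - 2 * US s k0 (om2 s k) := by
    rw [uu_of_A h hx]
    rfl
  rw [hUA, uu_of_S hy, uu_of_S hz]
  have hκ := kapQ_pos h.hs
  have hsq : 0 ≤ kapQ s * ‖gam s k • x + y + z‖ ^ 2 := by positivity
  constructor
  · unfold cR
    linarith
  · intro heq
    unfold cR at heq
    have := main_ineq_eq h.hs hkpos hxy hxz hyz hxk (by linarith)
    exact ⟨hx, this.1, this.2.1, this.2.2.1, this.2.2.2⟩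

theorem uu_A_le (h : Small s k0) (hx : ‖x‖ ^ 2 ∈ OA s k0) : uu s k0 x ≤ -(7 / 10) * hh s 4 := by
  rw [uu_of_A h hx]
  exact (UA_bounds h hx).2

theorem uu_S_le (h : Small s k0) (hx : ‖x‖ ^ 2 ∈ OS s k0) : uu s k0 x ≤ 91 / 100 * hh s 4 := by
  rw [uu_of_S hx]
  exact (US_bounds h hx).2

theorem uu_KK_le (h : Small s k0) (hx : x ∈ KK s k0) : uu s k0 x ≤ 91 / 100 * hh s 4 := by
  have h4 := hh_pos (s := s) (t := 4) (by norm_num)
  rcases hx with hx | hx
  · linarith [uu_A_le h hx]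
  · exact uu_S_le h hx

/-- pair cost between two points of the near shell. -/
theorem hh_SS (h : Small s k0) (hx : ‖x‖ ^ 2 ∈ OS s k0) (hy : ‖y‖ ^ 2 ∈ OS s k0) (hxy : x ≠ y) :
    99 / 100 * hh s 4 ≤ hh s (‖x - y‖ ^ 2) := by
  apply hh_far h.hs (sq_pos_of_ne hxy)
  have h1 := (OS_bounds h hx).2.2
  have h2 := (OS_bounds h hy).2.2
  have h3 : ‖x - y‖ ^ 2 ≤ 2 * (‖x‖ ^ 2 + ‖y‖ ^ 2) := by
    have hp := parallelogram_law_with_norm ℝ x y
    nlinarith [sq_nonneg ‖x + y‖]
  linarith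

/-- the real certificate. -/
theorem real_cert (h : Small s k0) (hx : x ∈ KK s k0) (hy : y ∈ KK s k0) (hz : z ∈ KK s k0)
    (hxy : x ≠ y) (hxz : x ≠ z) (hyz : y ≠ z) :
    uu s k0 x + uu s k0 y + uu s k0 z ≤ cR s x y z ∧
      (uu s k0 x + uu s k0 y + uu s k0 z = cR s x y z →
        Tri s k0 x y z ∨ Tri s k0 y x z ∨ Tri s k0 z x y) := by
  have h4 := hh_pos (s := s) (t := 4) (by norm_num)
  have hpos := cR_pos (s := s) hxy hxz hyz
  rcases hx with hxA | hxS
  · rcases hy with hyA | hyS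
    · -- A A ·
      have h1 := uu_A_le h hxA
      have h2 := uu_A_le h hyA
      have h3 := uu_KK_le h hz
      exact ⟨by linarith, fun he => by linarith⟩
    · rcases hz with hzA | hzS
      · have h1 := uu_A_le h hxA
        have h2 := uu_S_le h hyS
        have h3 := uu_A_le h hzA
        exact ⟨by linarith, fun he => by linarith⟩
      · have := real_ASS h hxA hyS hzS hxy hxz hyz
        exact ⟨this.1, fun he => Or.inl (this.2 he)⟩
  · rcases hy with hyA | hyS
    · rcases hz with hzA | hzS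
      · have h1 := uu_S_le h hxS
        have h2 := uu_A_le h hyA
        have h3 := uu_A_le h hzA
        exact ⟨by linarith, fun he => by linarith⟩
      · have := real_ASS h hyA hxS hzS hxy.symm hyz hxz
        rw [cR_swap12] at this
        exact ⟨by linarith [this.1], fun he => Or.inr (Or.inl (this.2 (by linarith)))⟩
    · rcases hz with hzA | hzS
      · have := real_ASS h hzA hxS hyS hxz.symm hyz.symm hxy
        rw [cR_swap12, cR_swap23] at this
        exact ⟨by linarith [this.1], fun he => Or.inr (Or.inr (this.2 (by linarith)))⟩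
      · have h1 := uu_S_le h hxS
        have h2 := uu_S_le h hyS
        have h3 := uu_S_le h hzS
        have c1 := hh_SS h hxS hyS hxy
        have c2 := hh_SS h hxS hzS hxz
        have c3 := hh_SS h hyS hzS hyz
        unfold cR
        exact ⟨by linarith, fun he => by linarith⟩

theorem cost_add_CC (hxy : x ≠ y) (hxz : x ≠ z) (hyz : y ≠ z) :
    tripleCost s (x, y, z) + CC s = ENNReal.ofReal (cR s x y z + 6 * hh s 4) := by
  have h4 := hh_pos (s := s) (t := 4) (by norm_num)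
  rw [tripleCost_eq s hxy hxz hyz, CC, ← ENNReal.ofReal_add (cR_pos hxy hxz hyz).le (by linarith)]

theorem cert_le (h : Small s k0) (hx : x ∈ KK s k0) (hy : y ∈ KK s k0) (hz : z ∈ KK s k0) :
    vv s k0 x + vv s k0 y + vv s k0 z ≤ tripleCost s (x, y, z) + CC s := by
  by_cases hne : x ≠ y ∧ x ≠ z ∧ y ≠ z
  · obtain ⟨hxy, hxz, hyz⟩ := hne
    rw [vv_sum h, cost_add_CC hxy hxz hyz]
    apply ENNReal.ofReal_le_ofReal
    linarith [(real_cert h hx hy hz hxy hxz hyz).1]
  · rw [tripleCost_top h.hs hne]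
    simp

theorem cert_eq (h : Small s k0) (hx : x ∈ KK s k0) (hy : y ∈ KK s k0) (hz : z ∈ KK s k0)
    (heq : vv s k0 x + vv s k0 y + vv s k0 z = tripleCost s (x, y, z) + CC s) :
    Tri s k0 x y z ∨ Tri s k0 y x z ∨ Tri s k0 z x y := by
  have h4 := hh_pos (s := s) (t := 4) (by norm_num)
  by_cases hne : x ≠ y ∧ x ≠ z ∧ y ≠ z
  · obtain ⟨hxy, hxz, hyz⟩ := hne
    rw [vv_sum h, cost_add_CC hxy hxz hyz] at heq
    have hpos := cR_pos (s := s) hxy hxz hyz
    have h1 := (uu_bounds h x).1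
    have h2 := (uu_bounds h y).1
    have h3 := (uu_bounds h z).1
    rw [ENNReal.ofReal_eq_ofReal_iff (by linarith) (by linarith)] at heq
    exact (real_cert h hx hy hz hxy hxz hyz).2 (by linarith)
  · rw [tripleCost_top h.hs hne, vv_sum h] at heq
    simp at heq

theorem Tri_norms (h : Small s k0) (ht : Tri s k0 x y z) :
    ‖y‖ ^ 2 = om2 s (kA s k0 (‖x‖ ^ 2)) ∧ ‖z‖ ^ 2 = om2 s (kA s k0 (‖x‖ ^ 2)) ∧
      ‖y‖ ^ 2 ∈ OS s k0 ∧ ‖z‖ ^ 2 ∈ OS s k0 := by
  obtain ⟨hx, h1, h2, h3, h5⟩ := ht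
  have hkII := kA_mem h hx
  have hkpos := (II_subset h hkII).1
  have := tri_norms hkpos (om1_kA h hx).symm (h1.trans h2.symm) h3 h5
  refine ⟨this.1, this.2.1, ?_, ?_⟩
  · rw [this.1]
    exact om2_mem h hkII
  · rw [this.2.1]
    exact om2_mem h hkII

theorem Tri_ne (h : Small s k0) (ht : Tri s k0 x y z) : x ≠ y ∧ x ≠ z ∧ y ≠ z := by
  obtain ⟨hx, h1, h2, h3, h5⟩ := ht
  have hkII := kA_mem h hx
  have hkpos := (II_subset h hkII).1
  have hp : 0 < 4 / kA s k0 (‖x‖ ^ 2) := by positivity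
  refine ⟨?_, ?_, ?_⟩
  · rintro rfl
    rw [sub_self, norm_zero] at h1
    norm_num at h1
    linarith
  · rintro rfl
    rw [sub_self, norm_zero] at h2
    norm_num at h2
    linarith
  · rintro rfl
    rw [sub_self, norm_zero] at h3
    norm_num at h3

theorem Tri_cR (ht : Tri s k0 x y z) : cR s x y z = cbase s (kA s k0 (‖x‖ ^ 2)) := by
  obtain ⟨hx, h1, h2, h3, h5⟩ := ht
  unfold cR cbase
  rw [h1, h2, h3]
  ring

theorem cert_of_Tri (h : Small s k0) (ht : Tri s k0 x y z) :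
    vv s k0 x + vv s k0 y + vv s k0 z = tripleCost s (x, y, z) + CC s := by
  obtain ⟨hxy, hxz, hyz⟩ := Tri_ne h ht
  obtain ⟨hy, hz, hyS, hzS⟩ := Tri_norms h ht
  rw [vv_sum h, cost_add_CC hxy hxz hyz, Tri_cR ht, uu_of_A h ht.1, uu_of_S hyS, uu_of_S hzS, hy, hz]
  congr 1
  unfold UA
  ring

/-- the cost of a contact triangle is bounded -/
theorem tripleCost_Tri_le (h : Small s k0) (ht : Tri s k0 x y z) :
    tripleCost s (x, y, z) ≤ ENNReal.ofReal (2 * hh s 4) := by
  have h4 := hh_pos (s := s) (t := 4) (by norm_num)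
  obtain ⟨hxy, hxz, hyz⟩ := Tri_ne h ht
  rw [tripleCost_eq s hxy hxz hyz, Tri_cR ht]
  apply ENNReal.ofReal_le_ofReal
  have hkII := kA_mem h ht.1
  have := cbase_le h (II_subset h hkII).1 hkII.2.le
  linarith

end Crest.Agent.MM
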