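import Mathlib

/-! # MM-D, part 0 : the doubling map on the real line and periodic integrals -/

set_option autoImplicit false
open MeasureTheory Set
open scoped ENNReal

namespace Crest.Agent.MM

/-- keep the integer part, double the fractional part mod 1 -/
noncomputable def dbl (x : ℝ) : ℝ := ⌊x⌋ + Int.fract (2 * x)

/-- first halves of the unit intervals -/
def H0 : Set ℝ := {x | Int.fract x < 1 / 2}

lemma measurableSet_H0 : MeasurableSet H0 :=
  measurableSet_lt measurable_fract measurable_const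

lemma fract_two_mul_of_mem {x : ℝ} (h : x ∈ H0) : Int.fract (2 * x) = 2 * Int.fract x := by
  have h' : Int.fract x < 1 / 2 := h
  rw [Int.fract_eq_iff]
  refine ⟨by have := Int.fract_nonneg x; linarith, by linarith, 2 * ⌊x⌋, ?_⟩
  have := Int.self_sub_floor x
  push_cast
  linarith

lemma fract_two_mul_of_notMem {x : ℝ} (h : x ∉ H0) : Int.fract (2 * x) = 2 * Int.fract x - 1 := by
  have h' : ¬ Int.fract x < 1 / 2 := h
  rw [Int.fract_eq_iff]
  refine ⟨by linarith, by have := Int.fract_lt_one x; linarith, 2 * ⌊x⌋ + 1, ?_⟩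
  have := Int.self_sub_floor x
  push_cast
  linarith

lemma dbl_of_mem {x : ℝ} (h : x ∈ H0) : dbl x = 2 * x - ⌊x⌋ := by
  have := Int.self_sub_floor x
  rw [dbl, fract_two_mul_of_mem h]; linarith

lemma dbl_of_notMem {x : ℝ} (h : x ∉ H0) : dbl x = 2 * x - ⌊x⌋ - 1 := by
  have := Int.self_sub_floor x
  rw [dbl, fract_two_mul_of_notMem h]; linarith

lemma floor_dbl (x : ℝ) : ⌊dbl x⌋ = ⌊x⌋ := by
  rw [dbl, Int.floor_intCast_add, Int.floor_fract, add_zero]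

lemma injOn_dbl_H0 : InjOn dbl H0 := by
  intro x hx y hy h
  have hf : ⌊x⌋ = ⌊y⌋ := by rw [← floor_dbl x, ← floor_dbl y, h]
  rw [dbl_of_mem hx, dbl_of_mem hy, hf] at h
  linarith

lemma injOn_dbl_H0c : InjOn dbl H0ᶜ := by
  intro x hx y hy h
  have hf : ⌊x⌋ = ⌊y⌋ := by rw [← floor_dbl x, ← floor_dbl y, h]
  rw [dbl_of_notMem hx, dbl_of_notMem hy, hf] at h
  linarith

lemma floor_fract_of {j : ℤ} {r x : ℝ} (h0 : 0 ≤ r) (h1 : r < 1) (hx : x = j + r) :
    ⌊x⌋ = j ∧ Int.fract x = r := by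
  have h : ⌊x⌋ = j := by
    rw [Int.floor_eq_iff]; constructor <;> linarith
  refine ⟨h, ?_⟩
  have := Int.self_sub_floor x
  rw [h] at this; linarith

lemma image_dbl_H0 : dbl '' H0 = univ := by
  refine eq_univ_of_forall fun u => ?_
  have h0 := Int.fract_nonneg u
  have h1 := Int.fract_lt_one u
  obtain ⟨hf, hr⟩ := floor_fract_of (j := ⌊u⌋) (r := Int.fract u / 2) (x := ⌊u⌋ + Int.fract u / 2)
    (by linarith) (by linarith) rfl
  have hm : (⌊u⌋ + Int.fract u / 2 : ℝ) ∈ H0 := by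
    change Int.fract (⌊u⌋ + Int.fract u / 2 : ℝ) < 1 / 2
    rw [hr]; linarith
  refine ⟨_, hm, ?_⟩
  rw [dbl_of_mem hm, hf]
  have := Int.self_sub_floor u
  linarith

lemma image_dbl_H0c : dbl '' H0ᶜ = univ := by
  refine eq_univ_of_forall fun u => ?_
  have h0 := Int.fract_nonneg u
  have h1 := Int.fract_lt_one u
  obtain ⟨hf, hr⟩ := floor_fract_of (j := ⌊u⌋) (r := (Int.fract u + 1) / 2)
    (x := ⌊u⌋ + (Int.fract u + 1) / 2) (by linarith) (by linarith) rfl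
  have hm : (⌊u⌋ + (Int.fract u + 1) / 2 : ℝ) ∉ H0 := by
    change ¬ Int.fract (⌊u⌋ + (Int.fract u + 1) / 2 : ℝ) < 1 / 2
    rw [hr]; linarith
  refine ⟨_, hm, ?_⟩
  rw [dbl_of_notMem hm, hf]
  have := Int.self_sub_floor u
  linarith

lemma hasDerivWithinAt_dbl_H0 {x : ℝ} (hx : x ∈ H0) : HasDerivWithinAt dbl 2 H0 x := by
  have hx' : Int.fract x < 1 / 2 := hx
  have h0 := Int.fract_nonneg x
  have hs := Int.self_sub_floor x
  have h1 : HasDerivWithinAt (fun z : ℝ => 2 * z - ⌊x⌋) 2 H0 x := by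
    have := ((hasDerivAt_id x).const_mul (2 : ℝ)).sub_const (⌊x⌋ : ℝ)
    simpa using this.hasDerivWithinAt
  refine h1.congr_of_eventuallyEq ?_ (dbl_of_mem hx)
  have hU : Ioo ((⌊x⌋ : ℝ) - 1 / 2) (⌊x⌋ + 1 / 2) ∈ nhds x :=
    Ioo_mem_nhds (by linarith) (by linarith)
  filter_upwards [mem_nhdsWithin_of_mem_nhds hU, self_mem_nhdsWithin] with z hzU hzH
  rw [dbl_of_mem hzH]
  have hzH' : Int.fract z < 1 / 2 := hzH
  have : ⌊z⌋ = ⌊x⌋ := by
    by_contra hne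
    have hz0 := Int.fract_nonneg z
    have hzs := Int.self_sub_floor z
    rcases lt_or_gt_of_ne hne with hlt | hgt
    · have : (⌊z⌋ : ℝ) + 1 ≤ ⌊x⌋ := by exact_mod_cast hlt
      have := hzU.1
      linarith
    · have : (⌊x⌋ : ℝ) + 1 ≤ ⌊z⌋ := by exact_mod_cast hgt
      have := hzU.2
      linarith
  rw [this]

lemma hasDerivWithinAt_dbl_H0c {x : ℝ} (hx : x ∈ H0ᶜ) : HasDerivWithinAt dbl 2 H0ᶜ x := by
  have hx' : ¬ Int.fract x < 1 / 2 := hx
  have h0 := Int.fract_lt_one x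
  have hs := Int.self_sub_floor x
  have h1 : HasDerivWithinAt (fun z : ℝ => 2 * z - ⌊x⌋ - 1) 2 H0ᶜ x := by
    have := (((hasDerivAt_id x).const_mul (2 : ℝ)).sub_const (⌊x⌋ : ℝ)).sub_const (1 : ℝ)
    simpa using this.hasDerivWithinAt
  refine h1.congr_of_eventuallyEq ?_ (dbl_of_notMem hx)
  have hU : Ioo (⌊x⌋ : ℝ) (⌊x⌋ + 1) ∈ nhds x :=
    Ioo_mem_nhds (by linarith) (by linarith)
  filter_upwards [mem_nhdsWithin_of_mem_nhds hU, self_mem_nhdsWithin] with z hzU hzH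
  rw [dbl_of_notMem hzH]
  have : ⌊z⌋ = ⌊x⌋ := by
    rw [Int.floor_eq_iff]; exact ⟨hzU.1.le, hzU.2⟩
  rw [this]

/-- change of variables for the doubling map, first halves -/
lemma lintegral_dbl_H0 (g : ℝ → ℝ≥0∞) :
    ∫⁻ x in H0, g (dbl x) = (2 : ℝ≥0∞)⁻¹ * ∫⁻ u, g u := by
  have h := lintegral_image_eq_lintegral_abs_deriv_mul measurableSet_H0
    (fun x hx => hasDerivWithinAt_dbl_H0 hx) injOn_dbl_H0 g
  rw [image_dbl_H0, Measure.restrict_univ] at h
  rw [h, lintegral_const_mul' _ _ ENNReal.ofReal_ne_top, ← mul_assoc]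
  have : (2 : ℝ≥0∞)⁻¹ * ENNReal.ofReal |(2 : ℝ)| = 1 := by
    rw [abs_of_pos (by norm_num : (0 : ℝ) < 2)]
    rw [show ENNReal.ofReal 2 = 2 by simp]
    exact ENNReal.inv_mul_cancel (by norm_num) (by norm_num)
  rw [this, one_mul]

/-- change of variables for the doubling map, second halves -/
lemma lintegral_dbl_H0c (g : ℝ → ℝ≥0∞) :
    ∫⁻ x in H0ᶜ, g (dbl x) = (2 : ℝ≥0∞)⁻¹ * ∫⁻ u, g u := by
  have h := lintegral_image_eq_lintegral_abs_deriv_mul measurableSet_H0.compl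
    (fun x hx => hasDerivWithinAt_dbl_H0c hx) injOn_dbl_H0c g
  rw [image_dbl_H0c, Measure.restrict_univ] at h
  rw [h, lintegral_const_mul' _ _ ENNReal.ofReal_ne_top, ← mul_assoc]
  have : (2 : ℝ≥0∞)⁻¹ * ENNReal.ofReal |(2 : ℝ)| = 1 := by
    rw [abs_of_pos (by norm_num : (0 : ℝ) < 2)]
    rw [show ENNReal.ofReal 2 = 2 by simp]
    exact ENNReal.inv_mul_cancel (by norm_num) (by norm_num)
  rw [this, one_mul]

/-! ### periodicity -/

lemma dbl_add_int (x : ℝ) (m : ℤ) : dbl (x + m) = dbl x + m := by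
  unfold dbl
  have h : 2 * (x + m) = 2 * x + ((2 * m : ℤ) : ℝ) := by push_cast; ring
  rw [Int.floor_add_intCast, h, Int.fract_add_intCast]
  push_cast; ring

lemma mem_H0_add_int (x : ℝ) (m : ℤ) : x + m ∈ H0 ↔ x ∈ H0 := by
  unfold H0
  simp only [mem_setOf_eq, Int.fract_add_intCast]

lemma abs_dbl_sub_le (x : ℝ) : |dbl x - x| ≤ 1 := by
  have h1 := Int.fract_nonneg x
  have h2 := Int.fract_lt_one x
  have h3 := Int.fract_nonneg (2 * x)
  have h4 := Int.fract_lt_one (2 * x)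
  have h5 := Int.self_sub_floor x
  unfold dbl
  rw [abs_le]; constructor <;> linarith

lemma measurable_dbl : Measurable dbl := by
  unfold dbl
  exact (measurable_from_top.comp Int.measurable_floor).add
    (measurable_fract.comp (measurable_const.mul measurable_id))

lemma dbl_mem_Ico (N : ℕ) (z : ℝ) : dbl z ∈ Ico (0 : ℝ) N ↔ z ∈ Ico (0 : ℝ) N := by
  have key : ∀ w : ℝ, w ∈ Ico (0 : ℝ) N ↔ 0 ≤ ⌊w⌋ ∧ ⌊w⌋ < (N : ℤ) := by
    intro w
    rw [Int.floor_nonneg, Int.floor_lt]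
    simp
  rw [key, key, floor_dbl]

lemma lintegral_Ioc_shift (T : ℝ) (hT : 0 < T) (g : ℝ → ℝ≥0∞) (hg : Function.Periodic g T)
    (c : ℝ) : ∫⁻ x in Ioc 0 T, g (c + x) = ∫⁻ x in Ioc 0 T, g x := by
  haveI : Fact (0 < T) := ⟨hT⟩
  have h1 := AddCircle.lintegral_preimage T 0 (fun b => hg.lift ((c : AddCircle T) + b))
  have h2 := AddCircle.lintegral_preimage T 0 hg.lift
  have h3 : ∀ x : ℝ, hg.lift ((c : AddCircle T) + (x : AddCircle T)) = g (c + x) := by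
    intro x; rw [← AddCircle.coe_add]; exact hg.lift_coe _
  simp only [zero_add, h3, Function.Periodic.lift_coe] at h1 h2
  rw [h1, h2]
  exact lintegral_add_left_eq_self _ _

/-- the doubling map over `N` unit intervals -/
lemma lintegral_Ico_dbl {s : Set ℝ} (hs : MeasurableSet s)
    (hchg : ∀ g : ℝ → ℝ≥0∞, ∫⁻ x in s, g (dbl x) = (2 : ℝ≥0∞)⁻¹ * ∫⁻ u, g u)
    (N : ℕ) (Ψ : ℝ → ℝ≥0∞) :
    ∫⁻ z in Ico (0 : ℝ) N, s.indicator (fun z => Ψ (dbl z)) z =
      (2 : ℝ≥0∞)⁻¹ * ∫⁻ u in Ico (0 : ℝ) N, Ψ u := by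
  rw [← lintegral_indicator measurableSet_Ico, ← lintegral_indicator measurableSet_Ico,
    ← hchg, ← lintegral_indicator hs]
  congr 1
  ext z
  by_cases hz : z ∈ s
  · by_cases hI : z ∈ Ico (0 : ℝ) N
    · have hI' := (dbl_mem_Ico N z).mpr hI
      rw [indicator_of_mem hI, indicator_of_mem hz, indicator_of_mem hz, indicator_of_mem hI']
    · have hI' : dbl z ∉ Ico (0 : ℝ) N := fun h => hI ((dbl_mem_Ico N z).mp h)
      rw [indicator_of_notMem hI, indicator_of_mem hz, indicator_of_notMem hI']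
  · by_cases hI : z ∈ Ico (0 : ℝ) N
    · rw [indicator_of_mem hI, indicator_of_notMem hz, indicator_of_notMem hz]
    · rw [indicator_of_notMem hI, indicator_of_notMem hz]

/-- the inner identity -/
lemma inner_identity {s : Set ℝ} (hs : MeasurableSet s)
    (hchg : ∀ g : ℝ → ℝ≥0∞, ∫⁻ x in s, g (dbl x) = (2 : ℝ≥0∞)⁻¹ * ∫⁻ u, g u)
    (hper : ∀ (x : ℝ) (m : ℤ), x + m ∈ s ↔ x ∈ s)
    (N : ℕ) (hN : 0 < N) (Ψ : ℝ → ℝ≥0∞) (hΨ : Function.Periodic Ψ (N : ℝ)) (c : ℝ) :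
    ∫⁻ x in Ioc (0 : ℝ) N, s.indicator (fun z => Ψ (dbl z - c)) (c + x) =
      (2 : ℝ≥0∞)⁻¹ * ∫⁻ x in Ioc (0 : ℝ) N, Ψ x := by
  have hN' : (0 : ℝ) < N := by exact_mod_cast hN
  have hg1 : Function.Periodic (s.indicator (fun z => Ψ (dbl z - c))) (N : ℝ) := by
    intro z
    have h1 : z + (N : ℝ) = z + ((N : ℤ) : ℝ) := by simp
    by_cases hz : z ∈ s
    · have hz' : z + (N : ℝ) ∈ s := by rw [h1]; exact (hper z N).mpr hz
      rw [indicator_of_mem hz, indicator_of_mem hz', h1, dbl_add_int]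
      have : dbl z + ((N : ℤ) : ℝ) - c = dbl z - c + (N : ℝ) := by simp; ring
      rw [this, hΨ]
    · have hz' : z + (N : ℝ) ∉ s := by rw [h1]; exact fun h => hz ((hper z N).mp h)
      rw [indicator_of_notMem hz, indicator_of_notMem hz']
  rw [lintegral_Ioc_shift (N : ℝ) hN' _ hg1 c, ← restrict_Ico_eq_restrict_Ioc,
    lintegral_Ico_dbl hs hchg N (fun u => Ψ (u - c)), restrict_Ico_eq_restrict_Ioc]
  congr 1
  have := lintegral_Ioc_shift (N : ℝ) hN' Ψ hΨ (-c)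
  rw [← this]
  congr 1; ext u; congr 1; ring

end Crest.Agent.MM
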