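import Crest.Agent.Lib_MM_J
import Crest.Agent.Lib_MM_Dbl0

/-! # MM-D : the angle doubling lemma

`ν` a finite measure on `EE n`, invariant under all in-plane rotations `rot α`, not charging
`{qq = 0}`.  With `L = 2π/N`, `ang y = arg (y 0 + i y 1) / L`, `H = {y | fract (ang y) < 1/2}`,
`D y = rot (L (dbl (ang y) - ang y)) y` (`dbl x = ⌊x⌋ + fract (2x)`), one has
`D # (ν|H) = D # (ν|Hᶜ) = ν / 2`.  Proof by averaging over the rotations (Tonelli) and the
one-dimensional change of variables for `dbl` (`Lib_MM_Dbl0`). -/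

set_option autoImplicit false
open MeasureTheory Set
open scoped ENNReal

namespace Crest.Agent.MM

variable {n : ℕ}

/-- the in-plane part as a complex number -/
def cpx (y : EE n) : ℂ := ⟨y 0, y 1⟩

lemma measurable_cpx : Measurable (cpx : EE n → ℂ) := by
  have h0 : Continuous (fun y : EE n => y 0) := (EuclideanSpace.proj (0 : Fin (n + 2))).continuous
  have h1 : Continuous (fun y : EE n => y 1) := (EuclideanSpace.proj (1 : Fin (n + 2))).continuous
  have : (cpx : EE n → ℂ) = fun y => ((y 0 : ℝ) : ℂ) + ((y 1 : ℝ) : ℂ) * Complex.I := by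
    ext y
    apply Complex.ext <;> simp [cpx]
  rw [this]
  exact ((Complex.continuous_ofReal.comp h0).add
    ((Complex.continuous_ofReal.comp h1).mul continuous_const)).measurable

lemma cpx_ne_zero {y : EE n} (hy : qq y ≠ 0) : cpx y ≠ 0 := by
  intro h
  apply hy
  have h0 : y 0 = 0 := congrArg Complex.re h
  have h1 : y 1 = 0 := congrArg Complex.im h
  simp [qq, h0, h1]

lemma cpx_rot (α : ℝ) (y : EE n) :
    cpx (rot α y) = (Real.cos α + Real.sin α * Complex.I) * cpx y := by
  apply Complex.ext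
  · simp [cpx, rot, rotcs_apply_zero, -Complex.ofReal_cos, -Complex.ofReal_sin]
  · simp [cpx, rot, rotcs_apply_one, -Complex.ofReal_cos, -Complex.ofReal_sin]; ring

/-- the angle -/
noncomputable def tht (y : EE n) : ℝ := Complex.arg (cpx y)

lemma measurable_tht : Measurable (tht : EE n → ℝ) := Complex.measurable_arg.comp measurable_cpx

lemma tht_rot {y : EE n} (hy : qq y ≠ 0) (α : ℝ) :
    ∃ m : ℤ, tht (rot α y) = tht y + α + 2 * Real.pi * m := by
  have h1 : (Real.cos α + Real.sin α * Complex.I : ℂ) ≠ 0 := by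
    intro h
    have hc : Real.cos α = 0 := by
      simpa [-Complex.ofReal_cos, -Complex.ofReal_sin] using congrArg Complex.re h
    have hs : Real.sin α = 0 := by
      simpa [-Complex.ofReal_cos, -Complex.ofReal_sin] using congrArg Complex.im h
    have := Real.cos_sq_add_sin_sq α
    rw [hc, hs] at this; norm_num at this
  have h2 : ((tht (rot α y) : ℝ) : Real.Angle) = ((α + tht y : ℝ) : Real.Angle) := by
    unfold tht
    rw [cpx_rot, Complex.arg_mul_coe_angle h1 (cpx_ne_zero hy), Real.Angle.coe_add]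
    congr 1
    have := Complex.arg_cos_add_sin_mul_I_coe_angle (α : Real.Angle)
    simpa using this
  obtain ⟨m, hm⟩ := Real.Angle.angle_eq_iff_two_pi_dvd_sub.mp h2
  exact ⟨m, by linarith⟩

lemma rot_add_int (α : ℝ) (m : ℤ) (y : EE n) : rot (α + 2 * Real.pi * m) y = rot α y := by
  unfold rot
  have h : α + 2 * Real.pi * m = α + m * (2 * Real.pi) := by ring
  rw [h, Real.cos_add_int_mul_two_pi, Real.sin_add_int_mul_two_pi]

lemma measurable_rot_comp {β : EE n → ℝ} (hβ : Measurable β) :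
    Measurable (fun y : EE n => rot (β y) y) := by
  have h1 : Measurable (fun p : ℝ × EE n => rot p.1 p.2) :=
    (continuous_rot_uncurry (n := n)).measurable
  have h2 : Measurable (fun y : EE n => (β y, y)) := hβ.prodMk measurable_id
  have h := Measurable.comp h1 h2
  have h3 : ((fun p : ℝ × EE n => rot p.1 p.2) ∘ fun y : EE n => (β y, y)) =
      (fun y : EE n => rot (β y) y) := by
    funext y
    rfl
  rw [h3] at h
  exact h

/-- averaging over rotations -/
lemma average_rot (ν : Measure (EE n)) [IsFiniteMeasure ν] (hrot : ∀ α : ℝ, ν.map (rot α) = ν)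
    (L : ℝ) (N : ℕ) {G : EE n → ℝ≥0∞} (hG : Measurable G) :
    ∫⁻ y, (∫⁻ x in Ioc (0 : ℝ) N, G (rot (L * x) y)) ∂ν = N * ∫⁻ y, G y ∂ν := by
  have hm : Measurable (Function.uncurry fun (y : EE n) (x : ℝ) => G (rot (L * x) y)) := by
    have h1 : Measurable (fun p : ℝ × EE n => rot p.1 p.2) :=
      (continuous_rot_uncurry (n := n)).measurable
    have h2 : Measurable (fun p : EE n × ℝ => (L * p.2, p.1)) :=
      (measurable_const.mul measurable_snd).prodMk measurable_fst
    have h := Measurable.comp hG (Measurable.comp h1 h2)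
    have h3 : (G ∘ (fun p : ℝ × EE n => rot p.1 p.2) ∘ fun p : EE n × ℝ => (L * p.2, p.1)) =
        (Function.uncurry fun (y : EE n) (x : ℝ) => G (rot (L * x) y)) := by
      funext p
      rfl
    rw [h3] at h
    exact h
  rw [lintegral_lintegral_swap hm.aemeasurable]
  have h1 : ∀ x : ℝ, ∫⁻ y, G (rot (L * x) y) ∂ν = ∫⁻ y, G y ∂ν := by
    intro x
    rw [← lintegral_map hG (rot (L * x)).continuous.measurable, hrot]
  simp only [h1, lintegral_const, Measure.restrict_apply MeasurableSet.univ, univ_inter,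
    Real.volume_Ioc, sub_zero, ENNReal.ofReal_natCast]
  rw [mul_comm]

/-- arc length -/
noncomputable def arcL (N : ℕ) : ℝ := 2 * Real.pi / N

lemma arcL_pos {N : ℕ} (hN : 0 < N) : 0 < arcL N := by
  have : (0 : ℝ) < N := by exact_mod_cast hN
  unfold arcL; positivity

lemma arcL_mul {N : ℕ} (hN : 0 < N) : arcL N * N = 2 * Real.pi := by
  have : (N : ℝ) ≠ 0 := by exact_mod_cast hN.ne'
  unfold arcL; field_simp

/-- the angle in units of the arc length -/
noncomputable def ang (N : ℕ) (y : EE n) : ℝ := tht y / arcL N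

lemma measurable_ang (N : ℕ) : Measurable (ang N : EE n → ℝ) := measurable_tht.div_const _

/-- the doubling map -/
noncomputable def Dmap (N : ℕ) (y : EE n) : EE n := rot (arcL N * (dbl (ang N y) - ang N y)) y

lemma measurable_Dmap (N : ℕ) : Measurable (Dmap N : EE n → EE n) :=
  measurable_rot_comp (measurable_const.mul
    ((measurable_dbl.comp (measurable_ang N)).sub (measurable_ang N)))

lemma ang_rot {N : ℕ} (hN : 0 < N) {y : EE n} (hy : qq y ≠ 0) (x : ℝ) :
    ∃ m : ℤ, ang N (rot (arcL N * x) y) = ang N y + x + m := by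
  obtain ⟨m, hm⟩ := tht_rot hy (arcL N * x)
  refine ⟨N * m, ?_⟩
  have hL := (arcL_pos hN).ne'
  unfold ang
  rw [hm, ← arcL_mul hN]
  push_cast
  field_simp

lemma Dmap_rot {N : ℕ} (hN : 0 < N) {y : EE n} (hy : qq y ≠ 0) (x : ℝ) :
    Dmap N (rot (arcL N * x) y) = rot (arcL N * (dbl (ang N y + x) - ang N y)) y := by
  obtain ⟨m, hm⟩ := ang_rot hN hy x
  unfold Dmap
  rw [hm, dbl_add_int, ← rot_add]
  have : arcL N * (dbl (ang N y + x) + ↑m - (ang N y + x + ↑m)) + arcL N * x =
      arcL N * (dbl (ang N y + x) - ang N y) := by ring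
  rw [this]

lemma half_push (ν : Measure (EE n)) [IsFiniteMeasure ν] (hrot : ∀ α : ℝ, ν.map (rot α) = ν)
    (hq : ν {y | qq y = 0} = 0) (N : ℕ) (hN : 0 < N) {s : Set ℝ} (hs : MeasurableSet s)
    (hchg : ∀ g : ℝ → ℝ≥0∞, ∫⁻ x in s, g (dbl x) = (2 : ℝ≥0∞)⁻¹ * ∫⁻ u, g u)
    (hper : ∀ (x : ℝ) (m : ℤ), x + m ∈ s ↔ x ∈ s) :
    (ν.restrict (ang N ⁻¹' s)).map (Dmap N) = (2 : ℝ≥0∞)⁻¹ • ν := by
  have hD : Measurable (Dmap N : EE n → EE n) := measurable_Dmap N
  have hH : MeasurableSet (ang N ⁻¹' s : Set (EE n)) := measurable_ang N hs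
  ext B hB
  rw [Measure.map_apply hD hB, Measure.restrict_apply (hD hB), Measure.smul_apply, smul_eq_mul]
  set F : EE n → ℝ≥0∞ := B.indicator 1 with hFdef
  set G : EE n → ℝ≥0∞ := (ang N ⁻¹' s).indicator (fun y => F (Dmap N y)) with hGdef
  have hF : Measurable F := measurable_one.indicator hB
  have hG : Measurable G := (hF.comp hD).indicator hH
  have hGint : ∫⁻ y, G y ∂ν = ν (Dmap N ⁻¹' B ∩ ang N ⁻¹' s) := by
    have : G = (Dmap N ⁻¹' B ∩ ang N ⁻¹' s).indicator 1 := by
      ext y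
      by_cases h1 : y ∈ ang N ⁻¹' s
      · by_cases h2 : Dmap N y ∈ B
        · have h3 : y ∈ Dmap N ⁻¹' B ∩ ang N ⁻¹' s := ⟨h2, h1⟩
          rw [hGdef, indicator_of_mem h1, hFdef, indicator_of_mem h2, indicator_of_mem h3]
          rfl
        · have h3 : y ∉ Dmap N ⁻¹' B ∩ ang N ⁻¹' s := fun h => h2 h.1
          rw [hGdef, indicator_of_mem h1, hFdef, indicator_of_notMem h2, indicator_of_notMem h3]
      · have h3 : y ∉ Dmap N ⁻¹' B ∩ ang N ⁻¹' s := fun h => h1 h.2
        rw [hGdef, indicator_of_notMem h1, indicator_of_notMem h3]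
    rw [this, lintegral_indicator_one ((hD hB).inter hH)]
  have hFint : ∫⁻ y, F y ∂ν = ν B := lintegral_indicator_one hB
  have h1 := average_rot ν hrot (arcL N) N hG
  have h2 := average_rot ν hrot (arcL N) N hF
  have h3 : ∫⁻ y, (∫⁻ x in Ioc (0 : ℝ) N, G (rot (arcL N * x) y)) ∂ν =
      ∫⁻ y, (2 : ℝ≥0∞)⁻¹ * (∫⁻ x in Ioc (0 : ℝ) N, F (rot (arcL N * x) y)) ∂ν := by
    refine lintegral_congr_ae ?_
    have hae : ∀ᵐ y ∂ν, qq y ≠ 0 := by
      rw [ae_iff]; simpa using hq
    filter_upwards [hae] with y hy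
    have hΨ : Function.Periodic (fun β : ℝ => F (rot (arcL N * β) y)) (N : ℝ) := by
      intro β
      have : arcL N * (β + N) = arcL N * β + 2 * Real.pi := by rw [mul_add, arcL_mul hN]
      simp only [this, rot_add_two_pi]
    have := inner_identity hs hchg hper N hN (fun β => F (rot (arcL N * β) y)) hΨ (ang N y)
    rw [← this]
    refine lintegral_congr fun x => ?_
    obtain ⟨m, hm⟩ := ang_rot hN hy x
    by_cases hx : ang N y + x ∈ s
    · have hx' : rot (arcL N * x) y ∈ ang N ⁻¹' s := by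
        change ang N (rot (arcL N * x) y) ∈ s
        rw [hm]; exact (hper _ m).mpr hx
      rw [hGdef, indicator_of_mem hx', indicator_of_mem hx, Dmap_rot hN hy]
    · have hx' : rot (arcL N * x) y ∉ ang N ⁻¹' s := by
        change ¬ ang N (rot (arcL N * x) y) ∈ s
        rw [hm]; exact fun h => hx ((hper _ m).mp h)
      rw [hGdef, indicator_of_notMem hx', indicator_of_notMem hx]
  rw [lintegral_const_mul' _ _ (by simp), h1, h2, hGint, hFint] at h3
  have hN0 : (N : ℝ≥0∞) ≠ 0 := by exact_mod_cast hN.ne'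
  have h4 : (N : ℝ≥0∞) * ν (Dmap N ⁻¹' B ∩ ang N ⁻¹' s) = N * ((2 : ℝ≥0∞)⁻¹ * ν B) := by
    rw [h3]; ring
  exact (ENNReal.mul_right_inj hN0 (ENNReal.natCast_ne_top N)).mp h4

theorem doubling (ν : Measure (EE n)) [IsFiniteMeasure ν] (hrot : ∀ α : ℝ, ν.map (rot α) = ν)
    (hq : ν {y | qq y = 0} = 0) (N : ℕ) (hN : 0 < N) :
    ∃ (H : Set (EE n)) (D : EE n → EE n), MeasurableSet H ∧ Measurable D ∧
      (ν.restrict H).map D = (2 : ℝ≥0∞)⁻¹ • ν ∧ (ν.restrict Hᶜ).map D = (2 : ℝ≥0∞)⁻¹ • ν ∧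
      ∀ y, ∃ β : ℝ, |β| ≤ 2 * Real.pi / N ∧ D y = rot β y := by
  refine ⟨ang N ⁻¹' H0, Dmap N, measurable_ang N measurableSet_H0, measurable_Dmap N,
    half_push ν hrot hq N hN measurableSet_H0 lintegral_dbl_H0 mem_H0_add_int, ?_, ?_⟩
  · rw [← preimage_compl]
    exact half_push ν hrot hq N hN measurableSet_H0.compl lintegral_dbl_H0c
      (fun x m => not_congr (mem_H0_add_int x m))
  · intro y
    refine ⟨arcL N * (dbl (ang N y) - ang N y), ?_, rfl⟩
    rw [abs_mul, abs_of_pos (arcL_pos hN)]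
    calc arcL N * |dbl (ang N y) - ang N y| ≤ arcL N * 1 :=
          mul_le_mul_of_nonneg_left (abs_dbl_sub_le _) (arcL_pos hN).le
      _ = 2 * Real.pi / N := by rw [mul_one]; rfl

end Crest.Agent.MM
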