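import Mathlib
import Crest.Prelude.Def_MultiMarginal

/-!
# S0175 project (three-marginal inverse power cost, no Monge minimiser): definitions

Everything lives on `EE n = EuclideanSpace ℝ (Fin (n+2))`.
`JJ` = rotation by 90 degrees in the plane of the first two coordinates (zero on the others),
`qq x = x 0 ^2 + x 1 ^2`, `RR` = reflection `x 1 ↦ - x 1`, `rotcs c s = 1 + s J + (1-c) J^2`.
-/

set_option autoImplicit false
open MeasureTheory
open scoped ENNReal ContDiff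

namespace Crest.Agent.MM

/-- the ambient space -/
abbrev EE (n : ℕ) := EuclideanSpace ℝ (Fin (n + 2))

section geom
variable {n : ℕ}

noncomputable def e0 : EE n := EuclideanSpace.single 0 1
noncomputable def e1 : EE n := EuclideanSpace.single 1 1

/-- rotation by 90 degrees in the plane of the first two coordinates, `0` on the other ones:
`(J x) 0 = - x 1`, `(J x) 1 = x 0`. -/
noncomputable def JJ : EE n →L[ℝ] EE n :=
  (EuclideanSpace.proj (1 : Fin (n + 2))).smulRight (-e0) +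
    (EuclideanSpace.proj (0 : Fin (n + 2))).smulRight e1

/-- squared norm of the in-plane part -/
def qq (x : EE n) : ℝ := x 0 ^ 2 + x 1 ^ 2

/-- reflection `x 1 ↦ - x 1` -/
noncomputable def RR : EE n →L[ℝ] EE n :=
  ContinuousLinearMap.id ℝ (EE n) - (2 : ℝ) • (EuclideanSpace.proj (1 : Fin (n + 2))).smulRight e1

/-- in-plane rotation with cosine `c` and sine `s` -/
noncomputable def rotcs (c s : ℝ) : EE n →L[ℝ] EE n :=
  ContinuousLinearMap.id ℝ (EE n) + s • JJ + (1 - c) • (JJ.comp JJ)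

/-- in-plane rotation by the angle `α` -/
noncomputable def rot (α : ℝ) : EE n →L[ℝ] EE n := rotcs (Real.cos α) (Real.sin α)

end geom

/-! ### the one-parameter family of balanced isosceles triangles (parameter `k = 4 / P`) -/

/-- `σ = s/2 + 1` -/
noncomputable def sg (s : ℝ) : ℝ := s / 2 + 1
/-- `γ(k) = k ^ σ` -/
noncomputable def gam (s k : ℝ) : ℝ := k ^ (sg s)
/-- `|x|^2` of the apex -/
noncomputable def om1 (s k : ℝ) : ℝ := (4 / k - 1) / (1 + gam s k / 2) ^ 2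
/-- `|y|^2 = |z|^2` of the two base points -/
noncomputable def om2 (s k : ℝ) : ℝ := 1 + (gam s k) ^ 2 / 4 * om1 s k
/-- `h(t) = t ^ (-s/2)`, so that `‖v‖ ^ (-s) = h (‖v‖^2)` -/
noncomputable def hh (s t : ℝ) : ℝ := t ^ (-(s / 2))
/-- `κ_Q = - h'(4) = (s/2) 4 ^ (-σ)` -/
noncomputable def kapQ (s : ℝ) : ℝ := s / 2 * (4 : ℝ) ^ (-(sg s))
/-- cost of the base triangle -/
noncomputable def cbase (s k : ℝ) : ℝ := 2 * hh s (4 / k) + hh s 4

/-- smallness conditions on the right end `k0` of the parameter interval `(k0/4, k0)` -/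
structure Small (s k0 : ℝ) : Prop where
  hs : 0 < s
  pos : 0 < k0
  le1 : k0 ≤ 1
  h1 : k0 ^ (s / 2) ≤ 1 / 64
  h2 : k0 ^ (s + 1) ≤ 1 / (50 * s)

/-- parameter interval -/
def II (k0 : ℝ) : Set ℝ := Set.Ioo (k0 / 4) k0
/-- range of `|x|^2` on the far shell -/
def OA (s k0 : ℝ) : Set ℝ := Set.Ioo (om1 s k0) (om1 s (k0 / 4))
/-- range of `|y|^2` on the near shell -/
def OS (s k0 : ℝ) : Set ℝ := Set.Ioo (om2 s (k0 / 4)) (om2 s k0)
/-- inverse of `om1` -/
noncomputable def kA (s k0 : ℝ) : ℝ → ℝ := Function.invFunOn (om1 s) (II k0)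
/-- inverse of `om2` -/
noncomputable def kS (s k0 : ℝ) : ℝ → ℝ := Function.invFunOn (om2 s) (II k0)

/-! ### potentials -/

/-- minus the slope of the potential on the near shell (monotone function on `ℝ`) -/
noncomputable def NN (s k0 w : ℝ) : ℝ :=
  if w ≤ om2 s (k0 / 4) then 2 * kapQ s
  else if om2 s k0 ≤ w then 3 * kapQ s
  else kapQ s * (2 + gam s (kS s k0 w))

/-- radial potential on the near shell (as a function of `|y|^2`) -/
noncomputable def US (s k0 w : ℝ) : ℝ :=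
  9 / 10 * hh s 4 - ∫ t in (om2 s (k0 / 2))..w, NN s k0 t

/-- radial potential on the far shell (as a function of `|x|^2`) -/
noncomputable def UA (s k0 w : ℝ) : ℝ :=
  cbase s (kA s k0 w) - 2 * US s k0 (om2 s (kA s k0 w))

section maps
variable {n : ℕ}

open Classical in
/-- the Kantorovich potential -/
noncomputable def uu (s k0 : ℝ) (x : EE n) : ℝ :=
  if ‖x‖ ^ 2 ∈ OS s k0 then US s k0 (‖x‖ ^ 2)
  else if ‖x‖ ^ 2 ∈ OA s k0 then UA s k0 (‖x‖ ^ 2) else 0

/-- shifted potential with values in `ℝ≥0∞` -/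
noncomputable def vv (s k0 : ℝ) (x : EE n) : ℝ≥0∞ := ENNReal.ofReal (uu s k0 x + 2 * hh s 4)

/-- the constant compensating the shift -/
noncomputable def CC (s : ℝ) : ℝ≥0∞ := ENNReal.ofReal (6 * hh s 4)

/-- union of the two shells -/
def KK (s k0 : ℝ) : Set (EE n) := {x | ‖x‖ ^ 2 ∈ OA s k0 ∨ ‖x‖ ^ 2 ∈ OS s k0}

/-- contact configurations: `x` apex in the far shell -/
def Tri (s k0 : ℝ) (x y z : EE n) : Prop :=
  ‖x‖ ^ 2 ∈ OA s k0 ∧ ‖x - y‖ ^ 2 = 4 / kA s k0 (‖x‖ ^ 2) ∧ ‖x - z‖ ^ 2 = 4 / kA s k0 (‖x‖ ^ 2) ∧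
    ‖y - z‖ ^ 2 = 4 ∧ gam s (kA s k0 (‖x‖ ^ 2)) • x + y + z = 0

noncomputable def gA (s k0 : ℝ) (x : EE n) : ℝ := gam s (kA s k0 (‖x‖ ^ 2)) / 2
noncomputable def gS (s k0 : ℝ) (y : EE n) : ℝ := gam s (kS s k0 (‖y‖ ^ 2)) / 2

noncomputable def YY (s k0 : ℝ) (x : EE n) : EE n :=
  -(gA s k0 x) • x + (Real.sqrt (qq x))⁻¹ • JJ x
noncomputable def ZZ (s k0 : ℝ) (x : EE n) : EE n :=
  -(gA s k0 x) • x - (Real.sqrt (qq x))⁻¹ • JJ x
/-- inverse of `YY` -/
noncomputable def WW (s k0 : ℝ) (y : EE n) : EE n :=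
  -(gS s k0 y)⁻¹ • (y + (qq y)⁻¹ • JJ (JJ y) + (Real.sqrt (qq y - 1) / qq y) • JJ y)
/-- inverse of `ZZ` -/
noncomputable def WZ (s k0 : ℝ) (y : EE n) : EE n := RR (WW s k0 (RR y))

def ΩA (s k0 : ℝ) : Set (EE n) := {x | ‖x‖ ^ 2 ∈ OA s k0 ∧ 0 < qq x}
def ΩS (s k0 : ℝ) : Set (EE n) := {y | ‖y‖ ^ 2 ∈ OS s k0 ∧ 1 < qq y}

open Classical in
/-- the second "potential" used for rigidity in dimension `≥ 3` -/
noncomputable def phi (s k0 : ℝ) (x : EE n) : ℝ :=
  if ‖x‖ ^ 2 ∈ OS s k0 then 2 * (‖x‖ ^ 2 - qq x)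
  else if ‖x‖ ^ 2 ∈ OA s k0 then -(gam s (kA s k0 (‖x‖ ^ 2))) ^ 2 * (‖x‖ ^ 2 - qq x) else 0

end maps

/-! ### half-density push-forward -/

section push
variable {E : Type*} [NormedAddCommGroup E] [NormedSpace ℝ E]

open Classical in
/-- push-forward of the half density `f` under the inverse of `W : Ω → E` -/
noncomputable def pushHalf (Ω : Set E) (W : E → E) (f : E → ℝ) (y : E) : ℝ :=
  if y ∈ Ω then f (W y) * Real.sqrt |(fderiv ℝ W y).det| else 0

end push

/-- the candidate optimal plan -/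
noncomputable def planOf {X : Type*} [MeasurableSpace X] (μA : Measure X) (Y Z : X → X) :
    Measure (X × X × X) :=
  μA.map (fun x => (x, Y x, Z x)) + μA.map (fun x => (Y x, Z x, x)) +
    μA.map (fun x => (Z x, x, Y x))

end Crest.Agent.MM
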