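import Crest.Agent.Lib_MM_Defs

/-! # MM-F1 : the real functions `gam`, `om1`, `om2`, `hh`, `kapQ`, `cbase` -/

set_option autoImplicit false
set_option linter.unusedVariables false
open Set
open scoped ContDiff

namespace Crest.Agent.MM

variable {s k k0 : ℝ}

theorem exists_small (hs : 0 < s) : ∃ k0, Small s k0 := by
  set a : ℝ := (1 / 64 : ℝ) ^ (2 / s) with ha
  set b : ℝ := (1 / (50 * s)) ^ (1 / (s + 1)) with hb
  have ha0 : 0 < a := Real.rpow_pos_of_pos (by norm_num) _
  have hb0 : 0 < b := Real.rpow_pos_of_pos (by positivity) _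
  refine ⟨min 1 (min a b), hs, lt_min one_pos (lt_min ha0 hb0), min_le_left _ _, ?_, ?_⟩
  · calc (min 1 (min a b)) ^ (s / 2) ≤ a ^ (s / 2) :=
          Real.rpow_le_rpow (lt_min one_pos (lt_min ha0 hb0)).le
            ((min_le_right _ _).trans (min_le_left _ _)) (by positivity)
      _ = 1 / 64 := by
          rw [ha, ← Real.rpow_mul (by norm_num)]
          have : 2 / s * (s / 2) = 1 := by field_simp
          rw [this, Real.rpow_one]
  · calc (min 1 (min a b)) ^ (s + 1) ≤ b ^ (s + 1) :=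
          Real.rpow_le_rpow (lt_min one_pos (lt_min ha0 hb0)).le
            ((min_le_right _ _).trans (min_le_right _ _)) (by positivity)
      _ = 1 / (50 * s) := by
          rw [hb, ← Real.rpow_mul (by positivity)]
          have : 1 / (s + 1) * (s + 1) = 1 := by field_simp
          rw [this, Real.rpow_one]

theorem sg_gt_one (hs : 0 < s) : 1 < sg s := by unfold sg; linarith
theorem gam_pos (hk : 0 < k) : 0 < gam s k := Real.rpow_pos_of_pos hk _
theorem gam_le_one (hs : 0 < s) (hk : 0 < k) (hk1 : k ≤ 1) : gam s k ≤ 1 :=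
  Real.rpow_le_one hk.le hk1 (by have := sg_gt_one hs; linarith)
theorem gam_strictMonoOn (hs : 0 < s) : StrictMonoOn (gam s) (Ioi 0) := by
  intro a ha b _ hab
  exact Real.rpow_lt_rpow (le_of_lt ha) hab (by have := sg_gt_one hs; linarith)
theorem om1_mul (hk : 0 < k) : om1 s k * (1 + gam s k / 2) ^ 2 = 4 / k - 1 := by
  have := gam_pos (s := s) hk
  unfold om1
  field_simp
theorem om1_ge (hs : 0 < s) (hk : 0 < k) (hk1 : k ≤ 1) : 4 / 3 ≤ om1 s k := by
  have h1 := gam_pos (s := s) hk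
  have h2 := gam_le_one hs hk hk1
  unfold om1
  rw [le_div_iff₀ (by positivity)]
  have h3 : 4 ≤ 4 / k := by rw [le_div_iff₀ hk]; linarith
  nlinarith
theorem om1_strictAntiOn (hs : 0 < s) : StrictAntiOn (om1 s) (Ioc 0 1) := by
  intro a ha b hb hab
  have g1 := gam_pos (s := s) ha.1
  have g2 := gam_strictMonoOn hs (mem_Ioi.2 ha.1) (mem_Ioi.2 hb.1) hab
  unfold om1
  have h3 : 4 / b < 4 / a := by
    apply div_lt_div_of_pos_left (by norm_num) ha.1 hab
  have h4 : 4 ≤ 4 / b := by rw [le_div_iff₀ hb.1]; linarith [hb.2]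
  apply div_lt_div₀ (by linarith) _ (by linarith) (by positivity)
  gcongr
theorem om2_gt_one (hs : 0 < s) (hk : 0 < k) (hk1 : k ≤ 1) : 1 < om2 s k := by
  have h1 := gam_pos (s := s) hk
  have h2 := om1_ge hs hk hk1
  unfold om2
  have : 0 < (gam s k) ^ 2 / 4 * om1 s k := by positivity
  linarith
theorem om2_le (hs : 0 < s) (hk : 0 < k) (hk1 : k ≤ 1) : om2 s k ≤ 1 + k ^ (s + 1) := by
  have h1 := gam_pos (s := s) hk
  have e : k ^ (s + 1) = (gam s k) ^ 2 / k := by
    unfold gam sg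
    rw [← Real.rpow_natCast, ← Real.rpow_mul hk.le, eq_div_iff hk.ne']
    nth_rewrite 2 [← Real.rpow_one k]
    rw [← Real.rpow_add hk]
    congr 1
    push_cast
    ring
  rw [e]
  unfold om2 om1
  have h3 : (4 / k - 1) / (1 + gam s k / 2) ^ 2 ≤ 4 / k := by
    rw [div_le_iff₀ (by positivity)]
    have : 0 < 4 / k := by positivity
    nlinarith
  have : (gam s k) ^ 2 / 4 * ((4 / k - 1) / (1 + gam s k / 2) ^ 2) ≤ (gam s k) ^ 2 / 4 * (4 / k) := by
    gcongr
  have e2 : (gam s k) ^ 2 / 4 * (4 / k) = (gam s k) ^ 2 / k := by field_simp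
  linarith
theorem gam_contDiffAt (hk : 0 < k) : ContDiffAt ℝ ∞ (gam s) k := by
  unfold gam
  exact Real.contDiffAt_rpow_const_of_ne hk.ne'

theorem om1_contDiffAt (hk : 0 < k) : ContDiffAt ℝ ∞ (om1 s) k := by
  have h1 := gam_contDiffAt (s := s) hk
  have h2 := gam_pos (s := s) hk
  unfold om1
  refine ContDiffAt.div ?_ ?_ (by positivity)
  · exact (contDiffAt_const.div contDiffAt_id hk.ne').sub contDiffAt_const
  · exact (contDiffAt_const.add (h1.div_const 2)).pow 2
theorem om2_contDiffAt (hk : 0 < k) : ContDiffAt ℝ ∞ (om2 s) k := by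
  have h1 := gam_contDiffAt (s := s) hk
  unfold om2
  exact contDiffAt_const.add (((h1.pow 2).div_const 4).mul (om1_contDiffAt hk))

theorem gam_hasDerivAt (hk : 0 < k) : HasDerivAt (gam s) (sg s * gam s k / k) k := by
  have := Real.hasDerivAt_rpow_const (x := k) (p := sg s) (Or.inl hk.ne')
  unfold gam
  rw [Real.rpow_sub_one hk.ne'] at this
  convert this using 1
  ring

theorem om1_hasDerivAt (hk : 0 < k) : HasDerivAt (om1 s)
    (((-4 / k ^ 2) * (1 + gam s k / 2) ^ 2 -
      (4 / k - 1) * ((1 + gam s k / 2) * (sg s * gam s k / k))) / ((1 + gam s k / 2) ^ 2) ^ 2) k := by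
  have h1 := gam_hasDerivAt (s := s) hk
  have h2 := gam_pos (s := s) hk
  have hN : HasDerivAt (fun k : ℝ => 4 / k - 1) (-4 / k ^ 2) k := by
    have := ((hasDerivAt_inv hk.ne').const_mul 4).sub_const 1
    have e1 : (fun k : ℝ => 4 / k - 1) = fun x => 4 * x⁻¹ - 1 := by
      funext x; rw [div_eq_mul_inv]
    have e2 : -4 / k ^ 2 = 4 * -(k ^ 2)⁻¹ := by ring
    rw [e1, e2]
    exact this
  have hD : HasDerivAt (fun k : ℝ => (1 + gam s k / 2) ^ 2)
      ((1 + gam s k / 2) * (sg s * gam s k / k)) k := by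
    have := ((h1.div_const 2).const_add 1).pow 2
    refine this.congr_deriv ?_
    push_cast
    ring
  exact hN.div hD (by positivity)

theorem om1_deriv_neg (hs : 0 < s) (hk : 0 < k) (hk1 : k ≤ 1) : deriv (om1 s) k < 0 := by
  rw [(om1_hasDerivAt hk).deriv]
  have h2 := gam_pos (s := s) hk
  have h3 := sg_gt_one hs
  have h4 : 4 ≤ 4 / k := by rw [le_div_iff₀ hk]; linarith
  apply div_neg_of_neg_of_pos _ (by positivity)
  have a1 : (-4 / k ^ 2) * (1 + gam s k / 2) ^ 2 < 0 := by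
    apply mul_neg_of_neg_of_pos _ (by positivity)
    apply div_neg_of_neg_of_pos (by norm_num) (by positivity)
  have a2 : 0 ≤ (4 / k - 1) * ((1 + gam s k / 2) * (sg s * gam s k / k)) := by
    apply mul_nonneg (by linarith)
    have : 0 < sg s := by linarith
    positivity
  linarith

theorem om2_hasDerivAt (hk : 0 < k) : HasDerivAt (om2 s)
    (gam s k * (sg s * gam s k / k) / 2 * om1 s k + (gam s k) ^ 2 / 4 *
    ((((-4 / k ^ 2) * (1 + gam s k / 2) ^ 2 -
      (4 / k - 1) * ((1 + gam s k / 2) * (sg s * gam s k / k))) / ((1 + gam s k / 2) ^ 2) ^ 2))) k := by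
  have h1 := gam_hasDerivAt (s := s) hk
  have h2 := om1_hasDerivAt (s := s) hk
  have := (((h1.pow 2).div_const 4).mul h2).const_add 1
  refine this.congr_deriv ?_
  simp only [Pi.pow_apply]
  push_cast
  ring

theorem om2_deriv_pos (hs : 0 < s) (hk : 0 < k) (hk1 : k ≤ 1) : 0 < deriv (om2 s) k := by
  rw [(om2_hasDerivAt hk).deriv]
  have h2 := gam_pos (s := s) hk
  have h2' := gam_le_one hs hk hk1
  have h3 := sg_gt_one hs
  set v := gam s k with hv
  set σ := sg s with hσ
  have e : v * (σ * v / k) / 2 * om1 s k + v ^ 2 / 4 *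
    ((((-4 / k ^ 2) * (1 + v / 2) ^ 2 -
      (4 / k - 1) * ((1 + v / 2) * (σ * v / k))) / ((1 + v / 2) ^ 2) ^ 2)) =
      v ^ 2 / (4 * k ^ 2 * (1 + v / 2) ^ 3) * (2 * σ * (4 - k) - 4 - 2 * v) := by
    unfold om1
    rw [← hv]
    field_simp
    ring
  rw [e]
  apply mul_pos (by positivity)
  nlinarith

theorem om2_strictMonoOn (hs : 0 < s) : StrictMonoOn (om2 s) (Ioc 0 1) := by
  apply strictMonoOn_of_deriv_pos (convex_Ioc 0 1)
  · intro x hx
    exact (om2_contDiffAt hx.1).continuousAt.continuousWithinAt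
  · intro x hx
    rw [interior_Ioc] at hx
    exact om2_deriv_pos hs hx.1 hx.2.le

theorem hh_pos {t : ℝ} (ht : 0 < t) : 0 < hh s t := Real.rpow_pos_of_pos ht _
theorem hh_antitoneOn (hs : 0 < s) : AntitoneOn (hh s) (Ioi 0) := by
  intro a ha b _ hab
  unfold hh
  exact Real.rpow_le_rpow_of_nonpos ha hab (by linarith)
theorem kapQ_eq : kapQ s = s / 8 * hh s 4 := by
  unfold kapQ hh sg
  have : -(s / 2 + 1) = -(s / 2) - 1 := by ring
  rw [this, Real.rpow_sub_one (by norm_num)]
  ring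
theorem kapQ_pos (hs : 0 < s) : 0 < kapQ s := by
  rw [kapQ_eq]
  have := hh_pos (s := s) (t := 4) (by norm_num)
  positivity
theorem kapP_eq (hk : 0 < k) : s / 2 * (4 / k) ^ (-(sg s)) = kapQ s * gam s k := by
  unfold kapQ gam
  rw [Real.div_rpow (by norm_num) hk.le, Real.rpow_neg hk.le, div_inv_eq_mul]
  ring
theorem hh_four_div (hk : 0 < k) : hh s (4 / k) = hh s 4 * k ^ (s / 2) := by
  unfold hh
  rw [Real.div_rpow (by norm_num) hk.le, Real.rpow_neg hk.le, div_inv_eq_mul]
theorem cbase_pos (hk : 0 < k) : 0 < cbase s k := by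
  unfold cbase
  have h1 := hh_pos (s := s) (t := 4) (by norm_num)
  have h2 := hh_pos (s := s) (t := 4 / k) (by positivity)
  positivity
theorem cbase_le (h : Small s k0) (hk : 0 < k) (hk0 : k ≤ k0) :
    cbase s k ≤ (1 + 1 / 32) * hh s 4 := by
  unfold cbase
  rw [hh_four_div hk]
  have h1 := hh_pos (s := s) (t := 4) (by norm_num)
  have h2 : k ^ (s / 2) ≤ 1 / 64 :=
    (Real.rpow_le_rpow hk.le hk0 (by have := h.hs; positivity)).trans h.h1
  nlinarith
theorem hh_far (hs : 0 < s) {t : ℝ} (ht0 : 0 < t) (ht : t ≤ 4 * (1 + 1 / (50 * s))) :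
    99 / 100 * hh s 4 ≤ hh s t := by
  have h1 := hh_pos (s := s) (t := 4) (by norm_num)
  have hδ : 0 < 1 / (50 * s) := by positivity
  refine le_trans ?_ (hh_antitoneOn hs (mem_Ioi.2 ht0) (mem_Ioi.2 (by positivity)) ht)
  unfold hh at *
  rw [Real.mul_rpow (by norm_num) (by positivity), mul_comm]
  apply mul_le_mul_of_nonneg_left _ h1.le
  -- (1+δ)^(-s/2) ≥ 1 - (s/2) δ
  have h2 : (1 + 1 / (50 * s)) ^ (-(s / 2)) = Real.exp (Real.log (1 + 1 / (50 * s)) * (-(s / 2))) :=
    Real.rpow_def_of_pos (by positivity) _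
  rw [h2]
  have h3 : Real.log (1 + 1 / (50 * s)) ≤ 1 / (50 * s) := by
    have := Real.log_le_sub_one_of_pos (x := 1 + 1 / (50 * s)) (by positivity)
    linarith
  have h4 : Real.log (1 + 1 / (50 * s)) * (-(s / 2)) + 1 ≤
      Real.exp (Real.log (1 + 1 / (50 * s)) * (-(s / 2))) := Real.add_one_le_exp _
  have h5 : 1 / (50 * s) * (s / 2) = 1 / 100 := by field_simp; norm_num
  have h6 : Real.log (1 + 1 / (50 * s)) * (s / 2) ≤ 1 / 100 := by
    rw [← h5]
    gcongr
  linarith
theorem small_pow_le (h : Small s k0) : k0 ^ (s + 1) ≤ 1 / 64 := by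
  refine le_trans ?_ h.h1
  exact Real.rpow_le_rpow_of_exponent_ge h.pos h.le1 (by have := h.hs; linarith)
theorem base_identity (hk : 0 < k) :
    2 * gam s k * (4 / k) + 4 =
      ((gam s k) ^ 2 + 2 * gam s k) * om1 s k + 2 * (gam s k + 2) * om2 s k := by
  have h1 := om1_mul (s := s) hk
  unfold om2
  have : 4 / k = om1 s k * (1 + gam s k / 2) ^ 2 + 1 := by linarith
  rw [this]
  ring
end Crest.Agent.MM
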