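import Crest.Agent.Lib_MM_Fam1

/-! # MM-F2 : the inverse functions `kA`, `kS` -/

set_option autoImplicit false
set_option linter.unusedVariables false
open Set
open scoped ContDiff

namespace Crest.Agent.MM

/-- smooth inverse function in dimension one -/
theorem contDiffAt_invFunOn {f : ℝ → ℝ} {I : Set ℝ} (hI : IsOpen I) (hinj : InjOn f I) {a : ℝ}
    (ha : a ∈ I) (hf : ContDiffAt ℝ ∞ f a) (hd : deriv f a ≠ 0) :
    ContDiffAt ℝ ∞ (Function.invFunOn f I) (f a) := by
  have hda : HasDerivAt f (deriv f a) a := (hf.differentiableAt (by simp)).hasDerivAt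
  have hf' := hda.hasFDerivAt_equiv hd
  have h1 := hf.to_localInverse hf' (by simp)
  refine h1.congr_of_eventuallyEq ?_
  have hs := hf.hasStrictFDerivAt' hf' (by simp)
  exact hs.localInverse_unique (g := Function.invFunOn f I)
    (by filter_upwards [hI.mem_nhds ha] with x hx using hinj.leftInvOn_invFunOn hx)

/-- measurability of `invFunOn` -/
theorem measurable_invFunOn {f : ℝ → ℝ} {I O : Set ℝ} (hO : MeasurableSet O)
    (hmaps : ∀ a ∈ I, f a ∈ O) (hc : ContinuousOn (Function.invFunOn f I) O) :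
    Measurable (Function.invFunOn f I) := by
  classical
  have e : Function.invFunOn f I =
      O.piecewise (Function.invFunOn f I) (fun _ => Classical.choice (inferInstance : Nonempty ℝ)) := by
    funext w
    by_cases hw : w ∈ O
    · rw [piecewise_eq_of_mem _ _ _ hw]
    · rw [piecewise_eq_of_notMem _ _ _ hw]
      apply Function.invFunOn_neg
      rintro ⟨a, ha, rfl⟩
      exact hw (hmaps a ha)
  rw [e]
  exact ContinuousOn.measurable_piecewise hc continuousOn_const hO

variable {s k k0 w : ℝ}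

theorem II_subset (h : Small s k0) : II k0 ⊆ Ioc 0 1 := by
  intro k hk
  have := h.pos
  exact ⟨by linarith [hk.1], by linarith [hk.2, h.le1]⟩
theorem half_mem_II (h : Small s k0) : k0 / 2 ∈ II k0 := by
  have := h.pos
  exact ⟨by linarith, by linarith⟩

theorem k0_mem (h : Small s k0) : k0 ∈ Ioc (0 : ℝ) 1 := ⟨h.pos, h.le1⟩
theorem k04_mem (h : Small s k0) : k0 / 4 ∈ Ioc (0 : ℝ) 1 := by
  have := h.pos
  exact ⟨by linarith, by linarith [h.le1]⟩

theorem om1_injOn (h : Small s k0) : InjOn (om1 s) (II k0) :=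
  ((om1_strictAntiOn h.hs).mono (II_subset h)).injOn
theorem om2_injOn (h : Small s k0) : InjOn (om2 s) (II k0) :=
  ((om2_strictMonoOn h.hs).mono (II_subset h)).injOn

theorem kA_om1 (h : Small s k0) (hk : k ∈ II k0) : kA s k0 (om1 s k) = k :=
  (om1_injOn h).leftInvOn_invFunOn hk
theorem om1_mem (h : Small s k0) (hk : k ∈ II k0) : om1 s k ∈ OA s k0 :=
  ⟨om1_strictAntiOn h.hs (II_subset h hk) (k0_mem h) hk.2,
    om1_strictAntiOn h.hs (k04_mem h) (II_subset h hk) hk.1⟩
theorem exists_om1 (h : Small s k0) (hw : w ∈ OA s k0) : ∃ k ∈ II k0, om1 s k = w := by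
  have hpos := h.pos
  have hc : ContinuousOn (om1 s) (Icc (k0 / 4) k0) := fun x hx =>
    (om1_contDiffAt (by linarith [hx.1])).continuousAt.continuousWithinAt
  exact intermediate_value_Ioo' (by linarith) hc hw
theorem kA_mem (h : Small s k0) (hw : w ∈ OA s k0) : kA s k0 w ∈ II k0 :=
  Function.invFunOn_mem (exists_om1 h hw)
theorem om1_kA (h : Small s k0) (hw : w ∈ OA s k0) : om1 s (kA s k0 w) = w :=
  Function.invFunOn_eq (exists_om1 h hw)
theorem contDiffOn_kA (h : Small s k0) : ContDiffOn ℝ ∞ (kA s k0) (OA s k0) := by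
  intro w hw
  have hk := kA_mem h hw
  have hk' := II_subset h hk
  have := contDiffAt_invFunOn isOpen_Ioo (om1_injOn h) hk (om1_contDiffAt hk'.1)
    (om1_deriv_neg h.hs hk'.1 hk'.2).ne
  rw [om1_kA h hw] at this
  exact this.contDiffWithinAt
theorem measurable_kA (h : Small s k0) : Measurable (kA s k0) :=
  measurable_invFunOn (O := OA s k0) measurableSet_Ioo (fun a ha => om1_mem h ha)
    (contDiffOn_kA h).continuousOn

theorem kS_om2 (h : Small s k0) (hk : k ∈ II k0) : kS s k0 (om2 s k) = k :=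
  (om2_injOn h).leftInvOn_invFunOn hk
theorem om2_mem (h : Small s k0) (hk : k ∈ II k0) : om2 s k ∈ OS s k0 :=
  ⟨om2_strictMonoOn h.hs (k04_mem h) (II_subset h hk) hk.1,
    om2_strictMonoOn h.hs (II_subset h hk) (k0_mem h) hk.2⟩
theorem exists_om2 (h : Small s k0) (hw : w ∈ OS s k0) : ∃ k ∈ II k0, om2 s k = w := by
  have hpos := h.pos
  have hc : ContinuousOn (om2 s) (Icc (k0 / 4) k0) := fun x hx =>
    (om2_contDiffAt (by linarith [hx.1])).continuousAt.continuousWithinAt
  exact intermediate_value_Ioo (by linarith) hc hw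
theorem kS_mem (h : Small s k0) (hw : w ∈ OS s k0) : kS s k0 w ∈ II k0 :=
  Function.invFunOn_mem (exists_om2 h hw)
theorem om2_kS (h : Small s k0) (hw : w ∈ OS s k0) : om2 s (kS s k0 w) = w :=
  Function.invFunOn_eq (exists_om2 h hw)
theorem contDiffOn_kS (h : Small s k0) : ContDiffOn ℝ ∞ (kS s k0) (OS s k0) := by
  intro w hw
  have hk := kS_mem h hw
  have hk' := II_subset h hk
  have := contDiffAt_invFunOn isOpen_Ioo (om2_injOn h) hk (om2_contDiffAt hk'.1)
    (om2_deriv_pos h.hs hk'.1 hk'.2).ne'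
  rw [om2_kS h hw] at this
  exact this.contDiffWithinAt
theorem measurable_kS (h : Small s k0) : Measurable (kS s k0) :=
  measurable_invFunOn (O := OS s k0) measurableSet_Ioo (fun a ha => om2_mem h ha)
    (contDiffOn_kS h).continuousOn
theorem kS_strictMonoOn (h : Small s k0) : StrictMonoOn (kS s k0) (OS s k0) := by
  intro a ha b hb hab
  by_contra hcon
  rw [not_lt] at hcon
  have := (om2_strictMonoOn h.hs).monotoneOn (II_subset h (kS_mem h hb)) (II_subset h (kS_mem h ha))
    hcon
  rw [om2_kS h ha, om2_kS h hb] at this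
  linarith

theorem OS_bounds (h : Small s k0) (hw : w ∈ OS s k0) :
    1 < w ∧ w ≤ 1 + 1 / 64 ∧ w ≤ 1 + 1 / (50 * s) := by
  have h1 := om2_gt_one h.hs (k04_mem h).1 (k04_mem h).2
  have h2 := om2_le h.hs h.pos h.le1
  have h3 := small_pow_le h
  have h4 := h.h2
  exact ⟨by linarith [hw.1], by linarith [hw.2], by linarith [hw.2]⟩
theorem OA_gt (h : Small s k0) (hw : w ∈ OA s k0) : 4 / 3 < w := by
  have := om1_ge h.hs h.pos h.le1
  linarith [hw.1]
theorem OS_length (h : Small s k0) : om2 s k0 - om2 s (k0 / 4) ≤ 1 / (50 * s) := by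
  have h1 := om2_gt_one h.hs (k04_mem h).1 (k04_mem h).2
  have h2 := om2_le h.hs h.pos h.le1
  have h4 := h.h2
  linarith
theorem not_mem_OS_of_mem_OA (h : Small s k0) (hw : w ∈ OA s k0) : w ∉ OS s k0 := by
  intro hw'
  have h1 := OA_gt h hw
  have h2 := (OS_bounds h hw').2.1
  linarith

end Crest.Agent.MM
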