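import Crest.Agent.Lib_MM_Defs

/-! # MM-L : multiplicative stability of the cost under small displacement of one point -/

set_option autoImplicit false
set_option linter.unusedVariables false
open Set MeasureTheory
open scoped ENNReal
open Crest.AnalysisR.OT

namespace Crest.Agent.MM

variable {E : Type*} [NormedAddCommGroup E]

/-- `‖p - q‖ ≥ ‖p' - q‖ - η ≥ (1 - η/2) ‖p' - q‖` -/
theorem pairCost_le_mul {s η : ℝ} (hs : 0 < s) (hη0 : 0 ≤ η) (hη : η < 2) {p p' q : E}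
    (hpp : ‖p - p'‖ ≤ η) (hq : 2 ≤ ‖p' - q‖) :
    pairCost s p q ≤ ENNReal.ofReal ((1 - η / 2) ^ (-s)) * pairCost s p' q := by
  have h1 : 0 < 1 - η / 2 := by linarith
  have h2 : (1 - η / 2) * ‖p' - q‖ ≤ ‖p - q‖ := by
    have : ‖p' - q‖ ≤ ‖p - q‖ + ‖p - p'‖ := by
      have := norm_sub_le_norm_sub_add_norm_sub p' p q
      rw [norm_sub_rev p' p] at this
      linarith
    nlinarith
  have h3 : 0 < ‖p' - q‖ := by linarith
  have h4 : 0 < ‖p - q‖ := lt_of_lt_of_le (by positivity) h2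
  unfold pairCost
  rw [ENNReal.ofReal_rpow_of_pos h4, ENNReal.ofReal_rpow_of_pos h3,
    ← ENNReal.ofReal_mul (by positivity), ← Real.mul_rpow h1.le h3.le]
  apply ENNReal.ofReal_le_ofReal
  exact Real.rpow_le_rpow_of_nonpos (by positivity) h2 (by linarith)

theorem one_le_lam {s η : ℝ} (hs : 0 < s) (hη0 : 0 ≤ η) (hη : η < 2) :
    1 ≤ ENNReal.ofReal ((1 - η / 2) ^ (-s)) := by
  rw [← ENNReal.ofReal_one]
  apply ENNReal.ofReal_le_ofReal
  exact Real.one_le_rpow_of_pos_of_le_one_of_nonpos (by linarith) (by linarith) (by linarith)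

theorem tripleCost_le_mul {s η : ℝ} (hs : 0 < s) (hη0 : 0 ≤ η) (hη : η < 2) {p p' q r : E}
    (hpp : ‖p - p'‖ ≤ η) (hq : 2 ≤ ‖p' - q‖) (hr : 2 ≤ ‖p' - r‖) :
    tripleCost s (p, q, r) ≤ ENNReal.ofReal ((1 - η / 2) ^ (-s)) * tripleCost s (p', q, r) := by
  unfold tripleCost
  simp only
  rw [mul_add, mul_add]
  refine add_le_add (add_le_add (pairCost_le_mul hs hη0 hη hpp hq)
    (pairCost_le_mul hs hη0 hη hpp hr)) ?_
  calc pairCost s q r = 1 * pairCost s q r := (one_mul _).symm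
    _ ≤ _ := by gcongr; exact one_le_lam hs hη0 hη

/-- continuity of `η ↦ (1 - η/2)^(-s)` at `0` -/
theorem exists_eta {s : ℝ} (hs : 0 < s) {M ε : ℝ≥0∞} (hM : M ≠ ⊤) (hε : 0 < ε) :
    ∃ η : ℝ, 0 < η ∧ η < 2 ∧ ENNReal.ofReal ((1 - η / 2) ^ (-s)) * M < M + ε := by
  have hcont : ContinuousAt (fun η : ℝ => ENNReal.ofReal ((1 - η / 2) ^ (-s)) * M) 0 := by
    have h1 : ContinuousAt (fun η : ℝ => (1 - η / 2) ^ (-s)) 0 := by
      apply ContinuousAt.rpow_const (by fun_prop)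
      left; norm_num
    have h2 : ContinuousAt (fun η : ℝ => ENNReal.ofReal ((1 - η / 2) ^ (-s))) 0 :=
      ENNReal.continuous_ofReal.continuousAt.comp h1
    exact ENNReal.Tendsto.mul_const h2 (Or.inr hM)
  have hval : ENNReal.ofReal ((1 - (0 : ℝ) / 2) ^ (-s)) * M = M := by
    simp
  have hlt : M < M + ε := ENNReal.lt_add_right hM hε.ne'
  have hev : ∀ᶠ η : ℝ in nhds 0, ENNReal.ofReal ((1 - η / 2) ^ (-s)) * M < M + ε := by
    have := hcont.tendsto
    rw [hval] at this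
    exact this.eventually (gt_mem_nhds hlt)
  have hev2 : ∀ᶠ η : ℝ in nhdsWithin 0 (Ioi 0), ENNReal.ofReal ((1 - η / 2) ^ (-s)) * M < M + ε :=
    hev.filter_mono nhdsWithin_le_nhds
  have hev3 : ∀ᶠ η : ℝ in nhdsWithin 0 (Ioi 0), η ∈ Ioo (0 : ℝ) 2 :=
    Ioo_mem_nhdsGT (by norm_num)
  obtain ⟨η, h1, h2⟩ := (hev2.and hev3).exists
  exact ⟨η, h2.1, h2.2, h1⟩

end Crest.Agent.MM
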