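import Crest.Agent.Lib_MM_Fam2
import Crest.Agent.Lib_MM_Main
import Crest.Agent.Lib_MM_J

/-! # MM-M1 : algebra of the maps `YY`, `ZZ`, `WW`, `WZ`, contact triangles, `phi`

With `g = gA x = γ/2`, `q = qq x`:  `Y x = -g x + J x/√q`, `‖Y x‖² = g²‖x‖² + 1 = om2 k`,
`qq (Y x) = g² q + 1`, `‖x - Y x‖² = (1+g)²‖x‖² + 1 = 4/k` (`om1_mul`), `Y x - Z x = 2 J x/√q`,
`γ x + Y x + Z x = 0`.  Use `norm_sq_comb`, `qq_comb` of `Lib_MM_J`. -/

set_option autoImplicit false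
open Set MeasureTheory
open scoped ENNReal RealInnerProductSpace

namespace Crest.Agent.MM

variable {n : ℕ} {s k0 : ℝ} {x y z : EE n}

/-- `a x + b J x + c J² x`. -/
noncomputable def comb (a b c : ℝ) (x : EE n) : EE n := a • x + b • JJ x + c • JJ (JJ x)

theorem JJ_comb (a b c : ℝ) (x : EE n) : JJ (comb a b c x) = comb 0 (a - c) b x := by
  simp only [comb, map_add, map_smul, JJ_JJ_JJ]
  module

theorem smul_comb (r a b c : ℝ) (x : EE n) : r • comb a b c x = comb (r * a) (r * b) (r * c) x := by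
  simp only [comb]
  module

theorem comb_add (a b c a' b' c' : ℝ) (x : EE n) :
    comb a b c x + comb a' b' c' x = comb (a + a') (b + b') (c + c') x := by
  simp only [comb]
  module

theorem comb_sub (a b c a' b' c' : ℝ) (x : EE n) :
    comb a b c x - comb a' b' c' x = comb (a - a') (b - b') (c - c') x := by
  simp only [comb]
  module

theorem sub_comb (a b c : ℝ) (x : EE n) : x - comb a b c x = comb (1 - a) (-b) (-c) x := by
  simp only [comb]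
  module

theorem comb_one (x : EE n) : comb 1 0 0 x = x := by
  simp [comb]

theorem norm_comb_sq (a b c : ℝ) (x : EE n) :
    ‖comb a b c x‖ ^ 2 = a ^ 2 * ‖x‖ ^ 2 + (b ^ 2 + c ^ 2 - 2 * a * c) * qq x := norm_sq_comb a b c x

theorem qq_comb' (a b c : ℝ) (x : EE n) :
    qq (comb a b c x) = ((a - c) ^ 2 + b ^ 2) * qq x := qq_comb a b c x

theorem YY_comb (x : EE n) : YY s k0 x = comb (-(gA s k0 x)) (Real.sqrt (qq x))⁻¹ 0 x := by
  simp [YY, comb]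

theorem ZZ_comb (x : EE n) : ZZ s k0 x = comb (-(gA s k0 x)) (-(Real.sqrt (qq x))⁻¹) 0 x := by
  simp [ZZ, comb, sub_eq_add_neg]

theorem WW_comb (y : EE n) : WW s k0 y =
    comb (-(gS s k0 y)⁻¹) (-(gS s k0 y)⁻¹ * (Real.sqrt (qq y - 1) / qq y))
      (-(gS s k0 y)⁻¹ * (qq y)⁻¹) y := by
  simp only [WW, comb]
  module

theorem inv_sqrt_sq_mul {q : ℝ} (hq : 0 < q) : (Real.sqrt q)⁻¹ ^ 2 * q = 1 := by
  rw [inv_pow, Real.sq_sqrt hq.le, inv_mul_cancel₀ hq.ne']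

theorem gA_pos (h : Small s k0) (hx : ‖x‖ ^ 2 ∈ OA s k0) : 0 < gA s k0 x := by
  have := gam_pos (s := s) (II_subset h (kA_mem h hx)).1
  unfold gA
  positivity

theorem gS_pos (h : Small s k0) (hy : ‖y‖ ^ 2 ∈ OS s k0) : 0 < gS s k0 y := by
  have := gam_pos (s := s) (II_subset h (kS_mem h hy)).1
  unfold gS
  positivity

theorem norm_YY_sq (h : Small s k0) (hx : x ∈ ΩA s k0) :
    ‖YY s k0 x‖ ^ 2 = om2 s (kA s k0 (‖x‖ ^ 2)) := by
  have h1 := inv_sqrt_sq_mul hx.2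
  have h2 := om1_kA h hx.1
  rw [YY_comb, norm_comb_sq, om2, h2, gA]
  linear_combination h1

theorem qq_YY (_h : Small s k0) (hx : x ∈ ΩA s k0) :
    qq (YY s k0 x) = (gA s k0 x) ^ 2 * qq x + 1 := by
  have h1 := inv_sqrt_sq_mul hx.2
  rw [YY_comb, qq_comb']
  linear_combination h1

theorem YY_mapsTo (h : Small s k0) : MapsTo (YY s k0 : EE n → EE n) (ΩA s k0) (ΩS s k0) := by
  intro x hx
  refine ⟨?_, ?_⟩
  · rw [norm_YY_sq h hx]
    exact om2_mem h (kA_mem h hx.1)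
  · rw [qq_YY h hx]
    have := gA_pos h hx.1
    have := hx.2
    have : 0 < (gA s k0 x) ^ 2 * qq x := by positivity
    linarith

theorem gS_YY (h : Small s k0) (hx : x ∈ ΩA s k0) : gS s k0 (YY s k0 x) = gA s k0 x := by
  rw [gS, norm_YY_sq h hx, kS_om2 h (kA_mem h hx.1), gA]

theorem norm_WW_sq (h : Small s k0) (hy : y ∈ ΩS s k0) :
    ‖WW s k0 y‖ ^ 2 = om1 s (kS s k0 (‖y‖ ^ 2)) := by
  have hg := gS_pos h hy.1
  have hQ : 0 < qq y := by linarith [hy.2]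
  have h2 := om2_kS h hy.1
  have h3 : Real.sqrt (qq y - 1) ^ 2 = qq y - 1 := Real.sq_sqrt (by linarith [hy.2])
  have h4 : ‖y‖ ^ 2 = 1 + (gS s k0 y) ^ 2 * om1 s (kS s k0 (‖y‖ ^ 2)) := by
    conv_lhs => rw [← h2]
    rw [om2, gS]
    ring
  rw [WW_comb, norm_comb_sq]
  set g := gS s k0 y
  set Q := qq y
  set r := Real.sqrt (Q - 1)
  set o := om1 s (kS s k0 (‖y‖ ^ 2))
  rw [h4]
  field_simp
  linear_combination h3

theorem qq_WW (h : Small s k0) (hy : y ∈ ΩS s k0) :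
    qq (WW s k0 y) = ((gS s k0 y)⁻¹) ^ 2 * (qq y - 1) := by
  have hg := gS_pos h hy.1
  have hQ : 0 < qq y := by linarith [hy.2]
  have h3 : Real.sqrt (qq y - 1) ^ 2 = qq y - 1 := Real.sq_sqrt (by linarith [hy.2])
  rw [WW_comb, qq_comb']
  set g := gS s k0 y
  set Q := qq y
  set r := Real.sqrt (Q - 1)
  field_simp
  linear_combination h3

theorem WW_mapsTo (h : Small s k0) : MapsTo (WW s k0 : EE n → EE n) (ΩS s k0) (ΩA s k0) := by
  intro y hy
  refine ⟨?_, ?_⟩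
  · rw [norm_WW_sq h hy]
    exact om1_mem h (kS_mem h hy.1)
  · rw [qq_WW h hy]
    have := gS_pos h hy.1
    have : 0 < qq y - 1 := by linarith [hy.2]
    positivity

theorem gA_WW (h : Small s k0) (hy : y ∈ ΩS s k0) : gA s k0 (WW s k0 y) = gS s k0 y := by
  rw [gA, norm_WW_sq h hy, kA_om1 h (kS_mem h hy.1), gS]

theorem comb_comb (A B C a b c : ℝ) (x : EE n) : comb A B C (comb a b c x) =
    comb (A * a) (A * b + B * (a - c) - C * b) (A * c + B * b + C * (a - c)) x := by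
  conv_lhs => rw [comb, JJ_comb, JJ_comb]
  simp only [comb]
  module

theorem comb_congr {a b c a' b' c' : ℝ} (ha : a = a') (hb : b = b') (hc : c = c') (x : EE n) :
    comb a b c x = comb a' b' c' x := by
  rw [ha, hb, hc]

theorem WW_YY (h : Small s k0) (hx : x ∈ ΩA s k0) : WW s k0 (YY s k0 x) = x := by
  have hg := gA_pos h hx.1
  have hq := hx.2
  have hsq0 : 0 < Real.sqrt (qq x) := Real.sqrt_pos.2 hq
  have hsq2 : Real.sqrt (qq x) ^ 2 = qq x := Real.sq_sqrt hq.le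
  have hQ : qq (YY s k0 x) = (gA s k0 x) ^ 2 * Real.sqrt (qq x) ^ 2 + 1 := by
    rw [qq_YY h hx, hsq2]
  have hr : Real.sqrt (qq (YY s k0 x) - 1) = gA s k0 x * Real.sqrt (qq x) := by
    rw [hQ, show (gA s k0 x) ^ 2 * Real.sqrt (qq x) ^ 2 + 1 - 1
      = (gA s k0 x * Real.sqrt (qq x)) ^ 2 by ring]
    exact Real.sqrt_sq (by positivity)
  rw [WW_comb, gS_YY h hx, hr, hQ, YY_comb, comb_comb]
  conv_rhs => rw [← comb_one x]
  set g := gA s k0 x
  set r := Real.sqrt (qq x)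
  apply comb_congr
  · field_simp
  · field_simp
    ring
  · field_simp
    ring

theorem YY_WW (h : Small s k0) (hy : y ∈ ΩS s k0) : YY s k0 (WW s k0 y) = y := by
  have hg := gS_pos h hy.1
  have hQ : 0 < qq y := by linarith [hy.2]
  have hQ1 : 0 < qq y - 1 := by linarith [hy.2]
  have hr0 : 0 < Real.sqrt (qq y - 1) := Real.sqrt_pos.2 hQ1
  have hr2 : Real.sqrt (qq y - 1) ^ 2 = qq y - 1 := Real.sq_sqrt hQ1.le
  have hq : Real.sqrt (qq (WW s k0 y)) = (gS s k0 y)⁻¹ * Real.sqrt (qq y - 1) := by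
    have e : ((gS s k0 y)⁻¹) ^ 2 * (qq y - 1) = ((gS s k0 y)⁻¹ * Real.sqrt (qq y - 1)) ^ 2 := by
      rw [mul_pow, hr2]
    rw [qq_WW h hy, e]
    exact Real.sqrt_sq (by positivity)
  rw [YY_comb, gA_WW h hy, hq, WW_comb, comb_comb]
  conv_rhs => rw [← comb_one y]
  have hQ' : qq y = Real.sqrt (qq y - 1) ^ 2 + 1 := by rw [hr2]; ring
  set g := gS s k0 y
  set r := Real.sqrt (qq y - 1)
  rw [hQ']
  have : 0 < r ^ 2 + 1 := by positivity
  apply comb_congr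
  · field_simp
  · field_simp
    ring
  · field_simp
    ring

theorem RR_mem_ΩA : RR x ∈ ΩA s k0 ↔ x ∈ ΩA s k0 := by
  simp only [ΩA, mem_ofPred_eq, norm_RR, qq_RR]

theorem RR_mem_ΩS : RR y ∈ ΩS s k0 ↔ y ∈ ΩS s k0 := by
  simp only [ΩS, mem_ofPred_eq, norm_RR, qq_RR]

theorem ZZ_eq (x : EE n) : ZZ s k0 x = RR (YY s k0 (RR x)) := by
  simp only [YY, ZZ, gA, norm_RR, qq_RR, map_add, map_smul, RR_RR, RR_JJ, smul_neg, sub_eq_add_neg]

theorem ZZ_mapsTo (h : Small s k0) : MapsTo (ZZ s k0 : EE n → EE n) (ΩA s k0) (ΩS s k0) := by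
  intro x hx
  rw [ZZ_eq, RR_mem_ΩS]
  exact YY_mapsTo h (RR_mem_ΩA.2 hx)

theorem WZ_mapsTo (h : Small s k0) : MapsTo (WZ s k0 : EE n → EE n) (ΩS s k0) (ΩA s k0) := by
  intro y hy
  rw [WZ, RR_mem_ΩA]
  exact WW_mapsTo h (RR_mem_ΩS.2 hy)

theorem WZ_ZZ (h : Small s k0) (hx : x ∈ ΩA s k0) : WZ s k0 (ZZ s k0 x) = x := by
  rw [WZ, ZZ_eq, RR_RR, WW_YY h (RR_mem_ΩA.2 hx), RR_RR]

theorem ZZ_WZ (h : Small s k0) (hy : y ∈ ΩS s k0) : ZZ s k0 (WZ s k0 y) = y := by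
  rw [WZ, ZZ_eq, RR_RR, YY_WW h (RR_mem_ΩS.2 hy), RR_RR]

theorem norm_YY_sub_ZZ_sq (hx : x ∈ ΩA s k0) : ‖YY s k0 x - ZZ s k0 x‖ ^ 2 = 4 := by
  have h1 := inv_sqrt_sq_mul hx.2
  rw [YY_comb, ZZ_comb, comb_sub, norm_comb_sq]
  linear_combination 4 * h1

theorem YY_ne_ZZ (hx : x ∈ ΩA s k0) : YY s k0 x ≠ ZZ s k0 x := by
  intro he
  have := norm_YY_sub_ZZ_sq (s := s) (k0 := k0) hx
  rw [he, sub_self, norm_zero] at this
  norm_num at this

theorem YY_injOn (h : Small s k0) : InjOn (YY s k0 : EE n → EE n) (ΩA s k0) := by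
  intro a ha b hb hab
  rw [← WW_YY h ha, hab, WW_YY h hb]

theorem ZZ_injOn (h : Small s k0) : InjOn (ZZ s k0 : EE n → EE n) (ΩA s k0) := by
  intro a ha b hb hab
  rw [← WZ_ZZ h ha, hab, WZ_ZZ h hb]

theorem Tri_YY_ZZ (h : Small s k0) (hx : x ∈ ΩA s k0) :
    Tri s k0 x (YY s k0 x) (ZZ s k0 x) := by
  have h1 := inv_sqrt_sq_mul hx.2
  have h2 := om1_kA h hx.1
  have hk := (II_subset h (kA_mem h hx.1)).1
  have h3 := om1_mul (s := s) hk
  rw [h2] at h3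
  refine ⟨hx.1, ?_, ?_, norm_YY_sub_ZZ_sq hx, ?_⟩
  · rw [YY_comb, sub_comb, norm_comb_sq, gA]
    linear_combination h1 + h3
  · rw [ZZ_comb, sub_comb, norm_comb_sq, gA]
    linear_combination h1 + h3
  · simp only [YY, ZZ, gA]
    module

theorem Tri_swap (ht : Tri s k0 x y z) : Tri s k0 x z y := by
  obtain ⟨h0, h1, h2, h3, h4⟩ := ht
  refine ⟨h0, h2, h1, by rw [norm_sub_rev]; exact h3, ?_⟩
  rw [← h4]
  abel

theorem two_le_of_sq {v : EE n} (hv : 4 ≤ ‖v‖ ^ 2) : 2 ≤ ‖v‖ := by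
  by_contra hcon
  rw [not_le] at hcon
  nlinarith [norm_nonneg v]

/-- all side lengths of a contact triangle are `≥ 2` -/
theorem Tri_dist (h : Small s k0) (ht : Tri s k0 x y z) :
    2 ≤ ‖x - y‖ ∧ 2 ≤ ‖x - z‖ ∧ 2 ≤ ‖y - z‖ := by
  obtain ⟨h0, h1, h2, h3, _⟩ := ht
  have hk := II_subset h (kA_mem h h0)
  have h4 : 4 ≤ 4 / kA s k0 (‖x‖ ^ 2) := by
    rw [le_div_iff₀ hk.1]
    linarith [hk.2]
  exact ⟨two_le_of_sq (by rw [h1]; exact h4), two_le_of_sq (by rw [h2]; exact h4),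
    two_le_of_sq (by rw [h3])⟩

/-- a contact triangle whose base `y - z` lies in the plane is `(x, Y x, Z x)` or `(x, Z x, Y x)`
(`e = (y - z)/2`, `tri_norms` gives `⟪x, e⟫ = 0`, then `planar`) -/
theorem Tri_planar (h : Small s k0) (ht : Tri s k0 x y z) (hq : 0 < qq x)
    (hpl : (y - z) + JJ (JJ (y - z)) = 0) :
    (y = YY s k0 x ∧ z = ZZ s k0 x) ∨ (y = ZZ s k0 x ∧ z = YY s k0 x) := by
  obtain ⟨h0, h1, h2, h3, h4⟩ := ht
  have hk := (II_subset h (kA_mem h h0)).1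
  obtain ⟨_, _, h5⟩ := tri_norms (s := s) hk (om1_kA h h0).symm (h1.trans h2.symm) h3 h4
  have he : JJ (JJ ((1 / 2 : ℝ) • (y - z))) = -((1 / 2 : ℝ) • (y - z)) := by
    rw [map_smul, map_smul, eq_neg_of_add_eq_zero_right hpl, smul_neg]
  have hex : ⟪(1 / 2 : ℝ) • (y - z), x⟫ = 0 := by
    rw [inner_smul_left, real_inner_comm, h5, mul_zero]
  have hn : ‖(1 / 2 : ℝ) • (y - z)‖ = 1 := by
    have : ‖y - z‖ = 2 := by
      have h6 : ‖y - z‖ ^ 2 = 2 ^ 2 := by rw [h3]; norm_num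
      exact (pow_left_inj₀ (norm_nonneg _) (by norm_num) (by norm_num)).1 h6
    rw [norm_smul, this]
    norm_num
  have hy : y = -(gA s k0 x) • x + (1 / 2 : ℝ) • (y - z) := by
    rw [gA]
    linear_combination (norm := module) (1 / 2 : ℝ) • h4
  have hz : z = -(gA s k0 x) • x - (1 / 2 : ℝ) • (y - z) := by
    rw [gA]
    linear_combination (norm := module) (1 / 2 : ℝ) • h4
  rcases planar _ x he hex hn hq with hc | hc
  · left
    rw [hc] at hy hz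
    exact ⟨hy, hz⟩
  · right
    rw [hc] at hy hz
    refine ⟨?_, ?_⟩
    · rw [hy, ZZ, sub_eq_add_neg]
    · rw [hz, YY, sub_neg_eq_add]

/-- with `v'' = v + J J v` (linear): `y'' + z'' = -γ x''`, parallelogram identity,
`norm_add_JJ_JJ_sq` -/
theorem phi_Tri (h : Small s k0) (ht : Tri s k0 x y z) :
    phi s k0 x + phi s k0 y + phi s k0 z = ‖(y - z) + JJ (JJ (y - z))‖ ^ 2 := by
  obtain ⟨h0, h1, h2, h3, h4⟩ := ht
  have hkm := kA_mem h h0
  have hk := (II_subset h hkm).1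
  obtain ⟨hy, hz, _⟩ := tri_norms (s := s) hk (om1_kA h h0).symm (h1.trans h2.symm) h3 h4
  have hyS : ‖y‖ ^ 2 ∈ OS s k0 := by rw [hy]; exact om2_mem h hkm
  have hzS : ‖z‖ ^ 2 ∈ OS s k0 := by rw [hz]; exact om2_mem h hkm
  rw [phi, if_neg (not_mem_OS_of_mem_OA h h0), if_pos h0, phi, if_pos hyS, phi, if_pos hzS,
    ← norm_add_JJ_JJ_sq, ← norm_add_JJ_JJ_sq, ← norm_add_JJ_JJ_sq]
  set γ := gam s (kA s k0 (‖x‖ ^ 2))
  have e1 : (y + JJ (JJ y)) + (z + JJ (JJ z)) = -(γ • (x + JJ (JJ x))) := by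
    have h5 : y + z = -(γ • x) := by
      linear_combination (norm := module) h4
    have h6 : JJ (JJ y) + JJ (JJ z) = -(γ • JJ (JJ x)) := by
      rw [← map_add, ← map_add, h5, map_neg, map_neg, map_smul, map_smul]
    rw [smul_add, neg_add, ← h5, ← h6]
    abel
  have e2 : (y - z) + JJ (JJ (y - z)) = (y + JJ (JJ y)) - (z + JJ (JJ z)) := by
    rw [map_sub, map_sub]
    abel
  have e3 := parallelogram_law_with_norm ℝ (y + JJ (JJ y)) (z + JJ (JJ z))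
  rw [e1, norm_neg, norm_smul, ← e2, Real.norm_eq_abs] at e3
  have e4 : |γ| * |γ| = γ ^ 2 := by rw [← abs_mul, ← sq, abs_sq]
  linear_combination -e3 + ‖x + JJ (JJ x)‖ ^ 2 * e4

theorem phi_YY_ZZ (h : Small s k0) (hx : x ∈ ΩA s k0) :
    phi s k0 x + phi s k0 (YY s k0 x) + phi s k0 (ZZ s k0 x) = 0 := by
  rw [phi_Tri h (Tri_YY_ZZ h hx), YY_comb, ZZ_comb, comb_sub, JJ_comb, JJ_comb, comb_add,
    norm_comb_sq]
  ring

theorem phi_bounded (h : Small s k0) : ∃ M : ℝ, ∀ x : EE n, |phi s k0 x| ≤ M := by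
  have hA : 0 < om1 s (k0 / 4) := by
    have := om1_ge h.hs (k04_mem h).1 (k04_mem h).2
    linarith
  have hS : 0 < om2 s k0 := by
    have := om2_gt_one h.hs h.pos h.le1
    linarith
  refine ⟨2 * om2 s k0 + om1 s (k0 / 4), fun x => ?_⟩
  have h1 := qq_nonneg x
  have h2 := qq_le_norm_sq x
  unfold phi
  split_ifs with hxS hxA
  · rw [abs_of_nonneg (by linarith)]
    linarith [hxS.2]
  · have hk := II_subset h (kA_mem h hxA)
    have g1 := gam_pos (s := s) hk.1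
    have g2 := gam_le_one h.hs hk.1 hk.2
    have g3 : (gam s (kA s k0 (‖x‖ ^ 2))) ^ 2 ≤ 1 := by nlinarith
    rw [neg_mul, abs_neg, abs_of_nonneg (mul_nonneg (by positivity) (by linarith))]
    have : (gam s (kA s k0 (‖x‖ ^ 2))) ^ 2 * (‖x‖ ^ 2 - qq x) ≤ 1 * (‖x‖ ^ 2 - qq x) :=
      mul_le_mul_of_nonneg_right g3 (by linarith)
    linarith [hxA.2]
  · rw [abs_zero]
    positivity

end Crest.Agent.MM
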