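import Crest.Agent.Lib_MM_Fam2
import Crest.Agent.Lib_MM_J

/-! # MM-M2 : regularity and equivariance of the maps `YY`, `WW` -/

set_option autoImplicit false
open Set MeasureTheory
open scoped ENNReal ContDiff

namespace Crest.Agent.MM

variable {n : ℕ} {s k0 : ℝ} {x y z : EE n}

theorem continuous_normsq : Continuous (fun x : EE n => ‖x‖ ^ 2) := by fun_prop

theorem contDiff_normsq : ContDiff ℝ ∞ (fun x : EE n => ‖x‖ ^ 2) := contDiff_norm_sq ℝ

theorem isOpen_ΩA : IsOpen (ΩA s k0 : Set (EE n)) := by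
  have h1 : IsOpen {x : EE n | ‖x‖ ^ 2 ∈ OA s k0} := isOpen_Ioo.preimage continuous_normsq
  have h2 : IsOpen {x : EE n | 0 < qq x} := isOpen_lt continuous_const continuous_qq
  exact h1.inter h2
theorem isOpen_ΩS : IsOpen (ΩS s k0 : Set (EE n)) := by
  have h1 : IsOpen {x : EE n | ‖x‖ ^ 2 ∈ OS s k0} := isOpen_Ioo.preimage continuous_normsq
  have h2 : IsOpen {x : EE n | 1 < qq x} := isOpen_lt continuous_const continuous_qq
  exact h1.inter h2
theorem disjoint_ΩA_ΩS (h : Small s k0) : Disjoint (ΩA s k0 : Set (EE n)) (ΩS s k0) := by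
  rw [Set.disjoint_left]
  intro x hx hx'
  exact not_mem_OS_of_mem_OA h hx.1 hx'.1

theorem contDiffOn_gA (h : Small s k0) : ContDiffOn ℝ ∞ (gA s k0 : EE n → ℝ) (ΩA s k0) := by
  intro x hx
  have hk := kA_mem h hx.1
  have hk' := II_subset h hk
  have h1 : ContDiffAt ℝ ∞ (kA s k0) (‖x‖ ^ 2) :=
    (contDiffOn_kA h).contDiffAt (isOpen_Ioo.mem_nhds hx.1)
  have h2 : ContDiffAt ℝ ∞ (fun x : EE n => kA s k0 (‖x‖ ^ 2)) x :=
    h1.comp x contDiff_normsq.contDiffAt
  have h3 : ContDiffAt ℝ ∞ (fun x : EE n => gam s (kA s k0 (‖x‖ ^ 2))) x :=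
    ContDiffAt.comp x (gam_contDiffAt hk'.1) h2
  exact (h3.div_const 2).contDiffWithinAt

theorem contDiffOn_gS (h : Small s k0) : ContDiffOn ℝ ∞ (gS s k0 : EE n → ℝ) (ΩS s k0) := by
  intro x hx
  have hk := kS_mem h hx.1
  have hk' := II_subset h hk
  have h1 : ContDiffAt ℝ ∞ (kS s k0) (‖x‖ ^ 2) :=
    (contDiffOn_kS h).contDiffAt (isOpen_Ioo.mem_nhds hx.1)
  have h2 : ContDiffAt ℝ ∞ (fun x : EE n => kS s k0 (‖x‖ ^ 2)) x :=
    h1.comp x contDiff_normsq.contDiffAt
  have h3 : ContDiffAt ℝ ∞ (fun x : EE n => gam s (kS s k0 (‖x‖ ^ 2))) x :=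
    ContDiffAt.comp x (gam_contDiffAt hk'.1) h2
  exact (h3.div_const 2).contDiffWithinAt

theorem gS_pos_of_mem (h : Small s k0) (hy : y ∈ ΩS s k0) : 0 < gS s k0 y := by
  have hk' := II_subset h (kS_mem h hy.1)
  have := gam_pos (s := s) hk'.1
  unfold gS
  linarith

theorem contDiffOn_YY (h : Small s k0) : ContDiffOn ℝ ∞ (YY s k0 : EE n → EE n) (ΩA s k0) := by
  intro x hx
  have hg := contDiffOn_gA h x hx
  have hq : ContDiffWithinAt ℝ ∞ (qq : EE n → ℝ) (ΩA s k0) x := contDiff_qq.contDiffWithinAt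
  have hsq : ContDiffWithinAt ℝ ∞ (fun x : EE n => Real.sqrt (qq x)) (ΩA s k0) x :=
    hq.sqrt hx.2.ne'
  have hinv : ContDiffWithinAt ℝ ∞ (fun x : EE n => (Real.sqrt (qq x))⁻¹) (ΩA s k0) x :=
    hsq.inv (Real.sqrt_pos.2 hx.2).ne'
  have hJ : ContDiffWithinAt ℝ ∞ (fun x : EE n => JJ x) (ΩA s k0) x :=
    JJ.contDiff.contDiffWithinAt
  exact (hg.neg.smul contDiffWithinAt_id).add (hinv.smul hJ)

theorem contDiffOn_WW (h : Small s k0) : ContDiffOn ℝ ∞ (WW s k0 : EE n → EE n) (ΩS s k0) := by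
  intro x hx
  have hg := contDiffOn_gS h x hx
  have hq : ContDiffWithinAt ℝ ∞ (qq : EE n → ℝ) (ΩS s k0) x := contDiff_qq.contDiffWithinAt
  have hq0 : qq x ≠ 0 := by linarith [hx.2] |> fun (h : 0 < qq x) => h.ne'
  have hsq : ContDiffWithinAt ℝ ∞ (fun x : EE n => Real.sqrt (qq x - 1)) (ΩS s k0) x :=
    (hq.sub contDiffWithinAt_const).sqrt (by linarith [hx.2] |> fun (h : 0 < qq x - 1) => h.ne')
  have hinv : ContDiffWithinAt ℝ ∞ (fun x : EE n => (qq x)⁻¹) (ΩS s k0) x := hq.inv hq0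
  have hJ : ContDiffWithinAt ℝ ∞ (fun x : EE n => JJ x) (ΩS s k0) x :=
    JJ.contDiff.contDiffWithinAt
  have hJJ : ContDiffWithinAt ℝ ∞ (fun x : EE n => JJ (JJ x)) (ΩS s k0) x :=
    (JJ.comp JJ).contDiff.contDiffWithinAt
  have hginv : ContDiffWithinAt ℝ ∞ (fun x : EE n => (gS s k0 x)⁻¹) (ΩS s k0) x :=
    hg.inv (gS_pos_of_mem h hx).ne'
  exact hginv.neg.smul ((contDiffWithinAt_id.add (hinv.smul hJJ)).add ((hsq.div hq hq0).smul hJ))

theorem measurable_qq : Measurable (qq : EE n → ℝ) := continuous_qq.measurable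

theorem measurable_gam : Measurable (gam s) := by
  unfold gam
  fun_prop

theorem measurable_gA (h : Small s k0) : Measurable (gA s k0 : EE n → ℝ) := by
  unfold gA
  exact ((measurable_gam.comp ((measurable_kA h).comp continuous_normsq.measurable))).div_const 2

theorem measurable_gS (h : Small s k0) : Measurable (gS s k0 : EE n → ℝ) := by
  unfold gS
  exact ((measurable_gam.comp ((measurable_kS h).comp continuous_normsq.measurable))).div_const 2

theorem measurable_YY (h : Small s k0) : Measurable (YY s k0 : EE n → EE n) := by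
  have hJ : Measurable (fun x : EE n => JJ x) := JJ.continuous.measurable
  exact ((measurable_gA h).neg.smul measurable_id).add
    ((measurable_qq.sqrt.inv).smul hJ)
theorem measurable_ZZ (h : Small s k0) : Measurable (ZZ s k0 : EE n → EE n) := by
  have hJ : Measurable (fun x : EE n => JJ x) := JJ.continuous.measurable
  exact ((measurable_gA h).neg.smul measurable_id).sub
    ((measurable_qq.sqrt.inv).smul hJ)
theorem measurable_WW (h : Small s k0) : Measurable (WW s k0 : EE n → EE n) := by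
  have hJ : Measurable (fun x : EE n => JJ x) := JJ.continuous.measurable
  have hJJ : Measurable (fun x : EE n => JJ (JJ x)) := (JJ.comp JJ).continuous.measurable
  exact (measurable_gS h).inv.neg.smul ((measurable_id.add (measurable_qq.inv.smul hJJ)).add
    ((((measurable_qq.sub_const 1).sqrt).div measurable_qq).smul hJ))
theorem measurable_WZ (h : Small s k0) : Measurable (WZ s k0 : EE n → EE n) :=
  RR.continuous.measurable.comp ((measurable_WW h).comp RR.continuous.measurable)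
theorem measurable_phi (h : Small s k0) : Measurable (phi s k0 : EE n → ℝ) := by
  classical
  have hN : Measurable (fun x : EE n => ‖x‖ ^ 2) := continuous_normsq.measurable
  unfold phi
  refine Measurable.ite (hN measurableSet_Ioo) ((hN.sub measurable_qq).const_mul 2) ?_
  refine Measurable.ite (hN measurableSet_Ioo) ?_ measurable_const
  exact (((measurable_gam.comp ((measurable_kA h).comp hN)).pow_const 2).neg).mul
    (hN.sub measurable_qq)

theorem rotcs_mem_ΩS {c t : ℝ} (hc : c ^ 2 + t ^ 2 = 1) :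
    rotcs c t y ∈ ΩS s k0 ↔ y ∈ ΩS s k0 := by
  unfold ΩS
  simp only [mem_ofPred_eq, norm_rotcs hc, qq_rotcs hc]
theorem rotcs_mem_ΩA {c t : ℝ} (hc : c ^ 2 + t ^ 2 = 1) :
    rotcs c t x ∈ ΩA s k0 ↔ x ∈ ΩA s k0 := by
  unfold ΩA
  simp only [mem_ofPred_eq, norm_rotcs hc, qq_rotcs hc]
theorem WW_rotcs {c t : ℝ} (hc : c ^ 2 + t ^ 2 = 1) (y : EE n) :
    WW s k0 (rotcs c t y) = rotcs c t (WW s k0 y) := by
  unfold WW gS
  simp only [norm_rotcs hc, qq_rotcs hc, map_smul, map_add, rotcs_JJ]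

end Crest.Agent.MM
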