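import Crest.Agent.Lib_MM_Push
import Crest.Agent.Lib_MM_Maps1
import Crest.Agent.Lib_MM_Maps2
import Crest.Agent.Lib_MM_Bump

/-! # MM-FIN (part 1) : the two half densities and the measures -/

set_option autoImplicit false
open Set MeasureTheory
open scoped ENNReal ContDiff

namespace Crest.Agent.MM

theorem map_withDensity_invariant {E : Type*} [MeasurableSpace E] (μ : Measure E) {L : E → E}
    (hL : MeasurePreserving L μ μ) {g : E → ℝ≥0∞} (hg : Measurable g)
    (hgL : ∀ x, g (L x) = g x) : (μ.withDensity g).map L = μ.withDensity g := by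
  ext B hB
  rw [Measure.map_apply hL.measurable hB, withDensity_apply _ (hL.measurable hB),
    withDensity_apply _ hB, ← lintegral_indicator (hL.measurable hB), ← lintegral_indicator hB,
    ← hL.lintegral_comp (hg.indicator hB)]
  congr 1
  ext x
  simp only [indicator, hgL]
  rfl

variable {n : ℕ} {s k0 : ℝ}

theorem exists_data (h : Small s k0) : ∃ f fY : EE n → ℝ,
    ContDiff ℝ ∞ f ∧ ContDiff ℝ ∞ fY ∧ (∀ x, 0 ≤ f x) ∧ (∀ x, 0 ≤ fY x) ∧
    HasCompactSupport f ∧ HasCompactSupport fY ∧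
    (∀ x, f x ≠ 0 → x ∈ ΩA s k0) ∧ (∀ y, fY y ≠ 0 → y ∈ ΩS s k0) ∧
    ∫⁻ x, ENNReal.ofReal (f x ^ 2) = 1 / 3 ∧
    (volume.withDensity fun x => ENNReal.ofReal (f x ^ 2)).map (YY s k0) =
      volume.withDensity (fun y => ENNReal.ofReal (fY y ^ 2)) ∧
    (volume.withDensity fun x => ENNReal.ofReal (f x ^ 2)).map (ZZ s k0) =
      volume.withDensity (fun y => ENNReal.ofReal (fY y ^ 2)) ∧
    ∀ α : ℝ, (volume.withDensity fun y => ENNReal.ofReal (fY y ^ 2)).map (rot α) =
      volume.withDensity (fun y => ENNReal.ofReal (fY y ^ 2)) := by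
  obtain ⟨f, hf, hf0, hfc, hfs, hfint, hfrot, hfR⟩ := exists_bump (n := n) h
  obtain ⟨P1, P2, P3, P4, P5⟩ := pushHalf_props (volume : Measure (EE n)) isOpen_ΩA isOpen_ΩS
    (contDiffOn_YY h) (contDiffOn_WW h) (YY_mapsTo h) (WW_mapsTo h)
    (fun x hx => WW_YY h hx) (fun y hy => YY_WW h hy) (measurable_YY h) hf hf0 hfc hfs
  set fY : EE n → ℝ := pushHalf (ΩS s k0) (WW s k0) f with hfY
  have hrotY : ∀ c t : ℝ, c ^ 2 + t ^ 2 = 1 → ∀ y, fY (rotcs c t y) = fY y := by
    intro c t hc y
    have hc' : c ^ 2 + (-t) ^ 2 = 1 := by rw [neg_sq]; exact hc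
    exact pushHalf_comp_symm isOpen_ΩS ((contDiffOn_WW h).differentiableOn (by simp))
      (rotcs c t) (rotcs c (-t)) (fun x => rotcs_rotcs_neg hc x) (fun x => rotcs_neg_rotcs hc x)
      (fun y => rotcs_mem_ΩS hc) (fun y _ => WW_rotcs hc y) (hfrot c t hc) y
  have hRY : ∀ y, fY (RR y) = fY y := by
    intro y
    obtain ⟨c, t, hc, hy⟩ := exists_rotcs_eq_RR y
    rw [← hy]
    exact hrotY c t hc y
  have hmf : Measurable fun x : EE n => ENNReal.ofReal (f x ^ 2) :=
    (hf.continuous.measurable.pow_const 2).ennreal_ofReal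
  have hmfY : Measurable fun x : EE n => ENNReal.ofReal (fY x ^ 2) :=
    (P1.continuous.measurable.pow_const 2).ennreal_ofReal
  refine ⟨f, fY, hf, P1, hf0, P2, hfc, P3, ?_, ?_, hfint, P5, ?_, ?_⟩
  · intro x hx
    exact hfs (subset_tsupport f hx)
  · intro y hy
    exact P4 (subset_tsupport fY hy)
  · have hZ : (ZZ s k0 : EE n → EE n) = RR ∘ (YY s k0) ∘ RR := by
      funext x
      exact ZZ_eq x
    have hRm : Measurable (RR : EE n → EE n) := RR.continuous.measurable
    rw [hZ, ← Measure.map_map hRm ((measurable_YY h).comp hRm),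
      ← Measure.map_map (measurable_YY h) hRm,
      map_withDensity_invariant volume measurePreserving_RR hmf (fun x => by rw [hfR]), P5,
      map_withDensity_invariant volume measurePreserving_RR hmfY (fun x => by rw [hRY])]
  · intro α
    exact map_withDensity_invariant volume (measurePreserving_rot α) hmfY
      (fun x => by
        have := hrotY (Real.cos α) (Real.sin α) (Real.cos_sq_add_sin_sq α) x
        rw [show rot α x = rotcs (Real.cos α) (Real.sin α) x from rfl, this])

end Crest.Agent.MM
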