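import Crest.Agent.Lib_MM_Defs

/-! # MM-NM : abstract parity lemma (no Monge minimiser) -/

set_option autoImplicit false
open MeasureTheory Set
open scoped ENNReal

namespace Crest.Agent.MM

/-- Proof: for measurable `B ⊆ KA`:  `μA B = μ B = μ (T ⁻¹' B) = 2 ν (T ⁻¹' B)`.
With `F₁ = {x | T (Y x) = x}`, `F₂ = {x | T (Z x) = x}` one gets `2 μA (B ∩ Fᵢ) ≤ μA B`
(use `ν = μA.map Y`, resp. `ν = μA.map Z`), so `B = KA ∩ Fᵢ` gives `μA (KA ∩ Fᵢ) = 0`; and
`μA KA ≤ 2 μA (KA ∩ F₁) + 2 μA (KA ∩ F₂)` by `hTS` and injectivity, so `μA KA = 0`. -/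
theorem no_monge {E : Type*} [NormedAddCommGroup E] [MeasurableSpace E] [BorelSpace E]
    [SecondCountableTopology E]
    (μA ν : Measure E) [IsFiniteMeasure μA] (hμA : μA ≠ 0) {Y Z T : E → E}
    (hY : Measurable Y) (hZ : Measurable Z) (hT : Measurable T)
    (hYν : μA.map Y = ν) (hZν : μA.map Z = ν) {KA : Set E} (hKA : MeasurableSet KA)
    (hA : ∀ᵐ x ∂μA, x ∈ KA) (hS : ∀ᵐ y ∂ν, y ∉ KA)
    (hYinj : InjOn Y KA) (hZinj : InjOn Z KA) (hYZ : ∀ x ∈ KA, Y x ≠ Z x)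
    (hTμ : (μA + (2 : ℝ≥0∞) • ν).map T = μA + (2 : ℝ≥0∞) • ν)
    (hTA : ∀ᵐ x ∂μA, T x ∉ KA)
    (hTS : ∀ᵐ p ∂ν, T p ∈ KA → (Y (T p) = p ∨ Z (T p) = p)) : False := by
  have hνKA : ν KA = 0 := by
    have := hS; rw [ae_iff] at this; simpa using this
  have hTKA : μA (T ⁻¹' KA) = 0 := by
    have := hTA; rw [ae_iff] at this
    have h2 : {a | ¬ T a ∉ KA} = T ⁻¹' KA := by ext a; simp
    rwa [h2] at this
  -- Fact 1
  have fact1 : ∀ B : Set E, MeasurableSet B → B ⊆ KA → μA B = 2 * ν (T ⁻¹' B) := by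
    intro B hB hBK
    have h1 : (μA + (2 : ℝ≥0∞) • ν) B = μA B := by
      rw [Measure.add_apply, Measure.smul_apply, measure_mono_null hBK hνKA]; simp
    have h2 : (μA + (2 : ℝ≥0∞) • ν) (T ⁻¹' B) = 2 * ν (T ⁻¹' B) := by
      rw [Measure.add_apply, Measure.smul_apply,
        measure_mono_null (preimage_mono hBK) hTKA]; simp
    rw [← h1, ← hTμ, Measure.map_apply hT hB, h2]
  -- general step
  have step : ∀ (Y' : E → E), Measurable Y' → μA.map Y' = ν → InjOn Y' KA →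
      μA (KA ∩ {x | T (Y' x) = x}) = 0 ∧
      ν (T ⁻¹' KA ∩ {p | Y' (T p) = p}) ≤ μA (KA ∩ {x | T (Y' x) = x}) := by
    intro Y' hY' hY'ν hinj
    have hF : MeasurableSet {x | T (Y' x) = x} := measurableSet_eq_fun (hT.comp hY') measurable_id
    have hP : MeasurableSet {p | Y' (T p) = p} := measurableSet_eq_fun (hY'.comp hT) measurable_id
    constructor
    · set a := μA (KA ∩ {x | T (Y' x) = x}) with ha
      have h1 : a = 2 * ν (T ⁻¹' (KA ∩ {x | T (Y' x) = x})) :=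
        fact1 _ (hKA.inter hF) inter_subset_left
      have h2 : a ≤ ν (T ⁻¹' (KA ∩ {x | T (Y' x) = x})) := by
        rw [← hY'ν, Measure.map_apply hY' (hT (hKA.inter hF))]
        refine measure_mono ?_
        rintro x ⟨hxK, hxF⟩
        have hxF' : T (Y' x) = x := hxF
        change T (Y' x) ∈ KA ∩ {x | T (Y' x) = x}
        rw [hxF']
        exact ⟨hxK, hxF⟩
      have h3 : a + a ≤ a + 0 := by
        rw [add_zero]
        calc a + a = 2 * a := (two_mul a).symm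
          _ ≤ 2 * ν (T ⁻¹' (KA ∩ {x | T (Y' x) = x})) := by gcongr
          _ = a := h1.symm
      have hfin : a ≠ ⊤ := measure_ne_top _ _
      exact le_antisymm ((ENNReal.add_le_add_iff_left hfin).mp h3) zero_le
    · rw [← hY'ν, Measure.map_apply hY' ((hT hKA).inter hP)]
      refine measure_mono_ae ?_
      filter_upwards [hA] with x hx hx2
      obtain ⟨h1, h2⟩ := hx2
      have h1' : T (Y' x) ∈ KA := h1
      have h2' : Y' (T (Y' x)) = Y' x := h2
      exact ⟨hx, hinj h1' hx h2'⟩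
  obtain ⟨hY0, hYle⟩ := step Y hY hYν hYinj
  obtain ⟨hZ0, hZle⟩ := step Z hZ hZν hZinj
  have hKA0 : μA KA = 0 := by
    rw [fact1 KA hKA subset_rfl]
    have : ν (T ⁻¹' KA) ≤ ν (T ⁻¹' KA ∩ {p | Y (T p) = p}) + ν (T ⁻¹' KA ∩ {p | Z (T p) = p}) := by
      refine le_trans (measure_mono_ae ?_) (measure_union_le _ _)
      filter_upwards [hTS] with p hp hpK
      rcases hp hpK with h | h
      · exact Or.inl ⟨hpK, h⟩
      · exact Or.inr ⟨hpK, h⟩
    have h0 : ν (T ⁻¹' KA) = 0 := by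
      refine le_antisymm (this.trans ?_) zero_le
      calc _ ≤ μA (KA ∩ {x | T (Y x) = x}) + μA (KA ∩ {x | T (Z x) = x}) := add_le_add hYle hZle
        _ = 0 := by rw [hY0, hZ0, add_zero]
    rw [h0, mul_zero]
  have hKAc : μA KAᶜ = 0 := by
    have := hA; rw [ae_iff] at this; exact this
  apply hμA
  rw [← Measure.measure_univ_eq_zero, ← union_compl_self KA]
  exact le_antisymm ((measure_union_le _ _).trans (by rw [hKA0, hKAc, add_zero])) zero_le

end Crest.Agent.MM
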