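import Crest.Agent.Lib_MM_Meas
import Crest.Agent.Lib_MM_Cert
import Crest.Agent.Lib_MM_Cert2
import Crest.Agent.Lib_MM_NM
import Crest.Agent.Lib_MM_AP
import Crest.Agent.Lib_MM_Dbl
import Crest.Agent.Lib_MM_Lam

/-! # MM-FIN (part 2) : optimality of `planOf`, no Monge minimiser, Monge approximation -/

set_option autoImplicit false
open Set MeasureTheory
open scoped ENNReal ContDiff
open Crest.AnalysisR.OT

namespace Crest.Agent.MM

variable {n : ℕ} {s k0 : ℝ}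

/-- the hypotheses on the pair of measures -/
structure Pair (s k0 : ℝ) (μA ν : Measure (EE n)) : Prop where
  small : Small s k0
  massA : μA univ = 1 / 3
  mapY : μA.map (YY s k0) = ν
  mapZ : μA.map (ZZ s k0) = ν
  aeA : ∀ᵐ x ∂μA, x ∈ ΩA s k0
  aeS : ∀ᵐ y ∂ν, y ∈ ΩS s k0
  rotν : ∀ α : ℝ, ν.map (rot α) = ν

variable {μA ν : Measure (EE n)}

theorem Pair.finA (P : Pair s k0 μA ν) : IsFiniteMeasure μA :=
  ⟨by rw [P.massA]; exact ENNReal.div_lt_top ENNReal.one_ne_top (by norm_num)⟩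

theorem Pair.massS (P : Pair s k0 μA ν) : ν univ = 1 / 3 := by
  rw [← P.mapY, Measure.map_apply (measurable_YY P.small) MeasurableSet.univ, preimage_univ,
    P.massA]

theorem Pair.finS (P : Pair s k0 μA ν) : IsFiniteMeasure ν :=
  ⟨by rw [P.massS]; exact ENNReal.div_lt_top ENNReal.one_ne_top (by norm_num)⟩

theorem Pair.mass (P : Pair s k0 μA ν) : (μA + (2 : ℝ≥0∞) • ν) univ = 1 := by
  rw [Measure.add_apply, Measure.smul_apply, P.massA, P.massS, smul_eq_mul]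
  have h3 : (3 : ℝ≥0∞) ≠ 0 := by norm_num
  have h3' : (3 : ℝ≥0∞) ≠ ⊤ := by norm_num
  rw [one_div, ← one_add_mul]
  norm_num
  exact ENNReal.mul_inv_cancel h3 h3'

theorem ΩA_subset_KK : (ΩA s k0 : Set (EE n)) ⊆ KK s k0 := fun _ hx => Or.inl hx.1
theorem ΩS_subset_KK : (ΩS s k0 : Set (EE n)) ⊆ KK s k0 := fun _ hx => Or.inr hx.1

theorem Pair.ae_iff (P : Pair s k0 μA ν) {p : EE n → Prop} :
    (∀ᵐ x ∂(μA + (2 : ℝ≥0∞) • ν), p x) ↔ (∀ᵐ x ∂μA, p x) ∧ ∀ᵐ x ∂ν, p x := by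
  rw [ae_add_measure_iff, Measure.ae_ennreal_smul_measure_iff (by norm_num)]

theorem Pair.ae_mem (P : Pair s k0 μA ν) :
    ∀ᵐ x ∂(μA + (2 : ℝ≥0∞) • ν), x ∈ ΩA s k0 ∪ ΩS s k0 := by
  rw [P.ae_iff]
  exact ⟨P.aeA.mono fun x hx => Or.inl hx, P.aeS.mono fun x hx => Or.inr hx⟩

theorem Pair.null_KK (P : Pair s k0 μA ν) : (μA + (2 : ℝ≥0∞) • ν) (KK s k0)ᶜ = 0 := by
  have := P.ae_mem
  rw [MeasureTheory.ae_iff] at this
  refine measure_mono_null ?_ this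
  intro x hx hx'
  rcases hx' with h | h
  · exact hx (ΩA_subset_KK h)
  · exact hx (ΩS_subset_KK h)

theorem lintegral_pair (P : Pair s k0 μA ν) (g : EE n → ℝ≥0∞) (hg : Measurable g) :
    ∫⁻ x, g x ∂(μA + (2 : ℝ≥0∞) • ν) =
      ∫⁻ x, (g x + g (YY s k0 x) + g (ZZ s k0 x)) ∂μA := by
  have hY := measurable_YY (n := n) P.small
  have hZ := measurable_ZZ (n := n) P.small
  have e1 : ∫⁻ x, (g x + g (YY s k0 x) + g (ZZ s k0 x)) ∂μA =
      ∫⁻ x, g x ∂μA + ∫⁻ x, g (YY s k0 x) ∂μA + ∫⁻ x, g (ZZ s k0 x) ∂μA := by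
    rw [lintegral_add_left (f := fun x => g x + g (YY s k0 x)) (hg.add (hg.comp hY)),
      lintegral_add_left hg]
  rw [lintegral_add_measure, lintegral_smul_measure, e1, two_smul, add_assoc]
  congr 2
  · rw [← P.mapY, lintegral_map hg hY]
  · rw [← P.mapZ, lintegral_map hg hZ]

/-- value of the plan -/
theorem plan_value (P : Pair s k0 μA ν) :
    ∫⁻ p, tripleCost s p ∂(planOf μA (YY s k0) (ZZ s k0)) + CC s * (μA + (2 : ℝ≥0∞) • ν) univ =
      3 * ∫⁻ x, vv s k0 x ∂(μA + (2 : ℝ≥0∞) • ν) := by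
  have hY := measurable_YY (n := n) P.small
  have hZ := measurable_ZZ (n := n) P.small
  rw [lintegral_planOf μA hY hZ _ (measurable_tripleCost s), lintegral_pair P _ (measurable_vv P.small)]
  have e1 : ∀ x : EE n, tripleCost s (YY s k0 x, ZZ s k0 x, x) =
      tripleCost s (x, YY s k0 x, ZZ s k0 x) := fun x => tripleCost_rot s _ _ _
  have e2 : ∀ x : EE n, tripleCost s (ZZ s k0 x, x, YY s k0 x) =
      tripleCost s (x, YY s k0 x, ZZ s k0 x) := fun x => by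
    rw [← tripleCost_rot s (ZZ s k0 x) x (YY s k0 x)]
  simp_rw [e1, e2]
  have e3 : ∫⁻ x, (vv s k0 x + vv s k0 (YY s k0 x) + vv s k0 (ZZ s k0 x)) ∂μA =
      ∫⁻ x, (tripleCost s (x, YY s k0 x, ZZ s k0 x) + CC s) ∂μA := by
    refine lintegral_congr_ae (P.aeA.mono fun x hx => ?_)
    exact cert_of_Tri P.small (Tri_YY_ZZ P.small hx)
  have hm : Measurable fun x : EE n => tripleCost s (x, YY s k0 x, ZZ s k0 x) :=
    (measurable_tripleCost s).comp (measurable_id.prodMk (hY.prodMk hZ))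
  rw [e3, lintegral_add_left hm, lintegral_const, P.mass, P.massA]
  have h3 : (3 : ℝ≥0∞) * (1 / 3) = 1 := by
    rw [one_div]; exact ENNReal.mul_inv_cancel (by norm_num) (by norm_num)
  rw [mul_add, mul_left_comm, h3]
  ring

theorem plan_finite (P : Pair s k0 μA ν) :
    ∫⁻ p, tripleCost s p ∂(planOf μA (YY s k0) (ZZ s k0)) < ⊤ := by
  have := P.finA
  have := P.finS
  have h := plan_value P
  have hfin : 3 * ∫⁻ x, vv s k0 x ∂(μA + (2 : ℝ≥0∞) • ν) < ⊤ := by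
    refine ENNReal.mul_lt_top (by norm_num) ?_
    calc ∫⁻ x, vv s k0 x ∂(μA + (2 : ℝ≥0∞) • ν)
        ≤ ∫⁻ _x, ENNReal.ofReal (3 * hh s 4) ∂(μA + (2 : ℝ≥0∞) • ν) :=
          lintegral_mono fun x => vv_le P.small x
      _ = ENNReal.ofReal (3 * hh s 4) * 1 := by rw [lintegral_const, P.mass]
      _ < ⊤ := by rw [mul_one]; exact ENNReal.ofReal_lt_top
  rw [← h] at hfin
  exact lt_of_le_of_lt le_self_add hfin

theorem vv_lintegral_ne_top (P : Pair s k0 μA ν) :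
    ∫⁻ x, vv s k0 x ∂(μA + (2 : ℝ≥0∞) • ν) ≠ ⊤ := by
  refine ne_of_lt ?_
  calc ∫⁻ x, vv s k0 x ∂(μA + (2 : ℝ≥0∞) • ν)
      ≤ ∫⁻ _x, ENNReal.ofReal (3 * hh s 4) ∂(μA + (2 : ℝ≥0∞) • ν) :=
        lintegral_mono fun x => vv_le P.small x
    _ = ENNReal.ofReal (3 * hh s 4) * 1 := by rw [lintegral_const, P.mass]
    _ < ⊤ := by rw [mul_one]; exact ENNReal.ofReal_lt_top

theorem Pair.fin (P : Pair s k0 μA ν) : IsFiniteMeasure (μA + (2 : ℝ≥0∞) • ν) :=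
  ⟨by rw [P.mass]; exact ENNReal.one_lt_top⟩

theorem plan_optimal (P : Pair s k0 μA ν) (π : Measure (EE n × EE n × EE n))
    (hπ : IsCoupling₃ (μA + (2 : ℝ≥0∞) • ν) π) :
    ∫⁻ p, tripleCost s p ∂(planOf μA (YY s k0) (ZZ s k0)) ≤ ∫⁻ p, tripleCost s p ∂π := by
  have := P.fin
  have h1 := cert_lower (μA + (2 : ℝ≥0∞) • ν) (tripleCost s) (vv s k0) (measurable_vv P.small)
    (CC s) (KK s k0) measurableSet_KK P.null_KK
    (fun x hx y hy z hz => cert_le P.small hx hy hz) π hπ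
  rw [← plan_value P] at h1
  have hC : CC s * (μA + (2 : ℝ≥0∞) • ν) univ ≠ ⊤ := by
    rw [P.mass, mul_one]; exact ENNReal.ofReal_ne_top
  exact (ENNReal.add_le_add_iff_right hC).1 h1

end Crest.Agent.MM
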