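import Crest.Agent.Lib_MM_Opt

/-! # MM-FIN (part 3) : no Monge minimiser, Monge approximation -/

set_option autoImplicit false
open Set MeasureTheory
open scoped ENNReal ContDiff
open Crest.AnalysisR.OT

namespace Crest.Agent.MM

variable {n : ℕ} {s k0 : ℝ} {μA ν : Measure (EE n)}

theorem integral_phi (P : Pair s k0 μA ν) : ∫ x, phi s k0 x ∂(μA + (2 : ℝ≥0∞) • ν) = 0 := by
  have := P.finA
  have := P.finS
  have hY := measurable_YY (n := n) P.small
  have hZ := measurable_ZZ (n := n) P.small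
  have hφ := measurable_phi (n := n) P.small
  obtain ⟨M, hM⟩ := phi_bounded (n := n) P.small
  have hint : ∀ (m : Measure (EE n)) [IsFiniteMeasure m] (g : EE n → EE n), Measurable g →
      Integrable (fun x => phi s k0 (g x)) m := by
    intro m _ g hg
    refine Integrable.of_bound (hφ.comp hg).aestronglyMeasurable M ?_
    exact Filter.Eventually.of_forall fun x => by rw [Real.norm_eq_abs]; exact hM _
  have i0 := hint μA id measurable_id
  have i0' := hint ν id measurable_id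
  have i1 := hint μA _ hY
  have i2 := hint μA _ hZ
  simp only [id] at i0 i0'
  have i0'' : Integrable (fun x => phi s k0 x) ((2 : ℝ≥0∞) • ν) := i0'.smul_measure (by norm_num)
  rw [integral_add_measure i0 i0'', integral_smul_measure]
  have e1 : ∫ x, phi s k0 x ∂ν = ∫ x, phi s k0 (YY s k0 x) ∂μA := by
    rw [← P.mapY, integral_map hY.aemeasurable hφ.aestronglyMeasurable]
  have e2 : ∫ x, phi s k0 x ∂ν = ∫ x, phi s k0 (ZZ s k0 x) ∂μA := by
    rw [← P.mapZ, integral_map hZ.aemeasurable hφ.aestronglyMeasurable]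
  have e3 : ∫ x, (phi s k0 x + phi s k0 (YY s k0 x) + phi s k0 (ZZ s k0 x)) ∂μA = 0 := by
    rw [integral_congr_ae (g := fun _ => (0 : ℝ)) (P.aeA.mono fun x hx => phi_YY_ZZ P.small hx)]
    simp
  rw [integral_add (f := fun x => phi s k0 x + phi s k0 (YY s k0 x)) (i0.add i1) i2,
    integral_add i0 i1] at e3
  have : ((2 : ℝ≥0∞).toReal) • ∫ x, phi s k0 x ∂ν =
      ∫ x, phi s k0 (YY s k0 x) ∂μA + ∫ x, phi s k0 (ZZ s k0 x) ∂μA := by
    rw [← e1, ← e2]; simp; ring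
  rw [this]
  linarith

theorem not_ΩA_of_OS (h : Small s k0) {x : EE n} (hx : ‖x‖ ^ 2 ∈ OS s k0) : x ∉ ΩA s k0 :=
  fun hx' => not_mem_OS_of_mem_OA h hx'.1 hx

theorem no_monge_min (P : Pair s k0 μA ν) (T₂ T₃ : EE n → EE n) (h₂ : Measurable T₂)
    (h₃ : Measurable T₃) (hT₂ : (μA + (2 : ℝ≥0∞) • ν).map T₂ = μA + (2 : ℝ≥0∞) • ν)
    (hT₃ : (μA + (2 : ℝ≥0∞) • ν).map T₃ = μA + (2 : ℝ≥0∞) • ν) :
    ∫⁻ p, tripleCost s p ∂(planOf μA (YY s k0) (ZZ s k0)) <
      ∫⁻ x, tripleCost s (x, T₂ x, T₃ x) ∂(μA + (2 : ℝ≥0∞) • ν) := by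
  by_contra hcon
  rw [not_lt] at hcon
  have := P.fin
  have := P.finA
  have hsm := P.small
  set μ := μA + (2 : ℝ≥0∞) • ν with hμ
  have hcost : ∫⁻ x, tripleCost s (x, T₂ x, T₃ x) ∂μ + CC s * μ univ ≤
      3 * ∫⁻ x, vv s k0 x ∂μ := by
    rw [← plan_value P]
    gcongr
  have hae := cert_monge_eq μ (tripleCost s) (measurable_tripleCost s) (vv s k0)
    (measurable_vv hsm) (vv_lintegral_ne_top P) (CC s) ENNReal.ofReal_ne_top (KK s k0)
    measurableSet_KK P.null_KK (fun x hx y hy z hz => cert_le hsm hx hy hz) T₂ T₃ h₂ h₃ hT₂ hT₃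
    hcost
  have htri : ∀ᵐ x ∂μ, Tri s k0 x (T₂ x) (T₃ x) ∨ Tri s k0 (T₂ x) x (T₃ x) ∨
      Tri s k0 (T₃ x) x (T₂ x) := hae.mono fun x hx => cert_eq hsm hx.1 hx.2.1 hx.2.2.1 hx.2.2.2
  have hnn : ∀ᵐ x ∂μ, 0 ≤ phi s k0 x + phi s k0 (T₂ x) + phi s k0 (T₃ x) := by
    refine htri.mono fun x hx => ?_
    rcases hx with h | h | h
    · rw [phi_Tri hsm h]; positivity
    · have := phi_Tri hsm h
      have h' : phi s k0 x + phi s k0 (T₂ x) + phi s k0 (T₃ x) =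
          phi s k0 (T₂ x) + phi s k0 x + phi s k0 (T₃ x) := by ring
      rw [h', this]; positivity
    · have := phi_Tri hsm h
      have h' : phi s k0 x + phi s k0 (T₂ x) + phi s k0 (T₃ x) =
          phi s k0 (T₃ x) + phi s k0 x + phi s k0 (T₂ x) := by ring
      rw [h', this]; positivity
  have hzero := moment_monge μ (phi s k0) (measurable_phi hsm) (phi_bounded hsm) (integral_phi P)
    T₂ T₃ h₂ h₃ hT₂ hT₃ hnn
  have hall : ∀ᵐ x ∂μ, (Tri s k0 x (T₂ x) (T₃ x) ∨ Tri s k0 (T₂ x) x (T₃ x) ∨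
      Tri s k0 (T₃ x) x (T₂ x)) ∧ phi s k0 x + phi s k0 (T₂ x) + phi s k0 (T₃ x) = 0 :=
    htri.and hzero
  rw [hμ, P.ae_iff] at hall
  have hμA0 : μA ≠ 0 := by
    intro h0
    have := P.massA
    rw [h0] at this
    simp at this
    exact absurd this.symm (by simp)
  refine no_monge μA ν hμA0 (measurable_YY hsm) (measurable_ZZ hsm) h₂ P.mapY P.mapZ
    (isOpen_ΩA.measurableSet) P.aeA
    (P.aeS.mono fun y hy => not_ΩA_of_OS hsm hy.1) (YY_injOn hsm) (ZZ_injOn hsm)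
    (fun x hx => YY_ne_ZZ hx) hT₂ ?_ ?_
  · filter_upwards [hall.1, P.aeA] with x hx hxA
    rcases hx.1 with h | h | h
    · exact not_ΩA_of_OS hsm (Tri_norms hsm h).2.2.1
    · exact absurd (Tri_norms hsm h).2.2.1 (not_mem_OS_of_mem_OA hsm hxA.1)
    · exact absurd (Tri_norms hsm h).2.2.1 (not_mem_OS_of_mem_OA hsm hxA.1)
  · filter_upwards [hall.2, P.aeS] with p hp hpS hT
    rcases hp.1 with h | h | h
    · exact absurd hpS.1 (not_mem_OS_of_mem_OA hsm h.1)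
    · have h1 := phi_Tri hsm h
      have h2 : ‖(p - T₃ p) + JJ (JJ (p - T₃ p))‖ ^ 2 = 0 := by
        rw [← h1]; linarith [hp.2]
      have h3 : (p - T₃ p) + JJ (JJ (p - T₃ p)) = 0 := by
        rw [← norm_eq_zero]; exact pow_eq_zero_iff (two_ne_zero) |>.1 h2
      rcases Tri_planar hsm h hT.2 h3 with h4 | h4
      · exact Or.inl h4.1.symm
      · exact Or.inr h4.1.symm
    · exact absurd hT (not_ΩA_of_OS hsm (Tri_norms hsm h).2.2.2)

theorem norm_le_two_of_ΩS (h : Small s k0) {y : EE n} (hy : y ∈ ΩS s k0) : ‖y‖ ≤ 2 := by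
  have h1 := (OS_bounds h hy.1).2.1
  nlinarith [norm_nonneg y]

theorem monge_approx (P : Pair s k0 μA ν) (ε : ℝ≥0∞) (hε : 0 < ε) :
    ∃ T₂ T₃ : EE n → EE n, Measurable T₂ ∧ Measurable T₃ ∧
      (μA + (2 : ℝ≥0∞) • ν).map T₂ = μA + (2 : ℝ≥0∞) • ν ∧
      (μA + (2 : ℝ≥0∞) • ν).map T₃ = μA + (2 : ℝ≥0∞) • ν ∧
      ∫⁻ x, tripleCost s (x, T₂ x, T₃ x) ∂(μA + (2 : ℝ≥0∞) • ν) <
        ∫⁻ p, tripleCost s p ∂(planOf μA (YY s k0) (ZZ s k0)) + ε := by
  have := P.finA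
  have := P.finS
  have hsm := P.small
  obtain ⟨η, hη0, hη2, hη⟩ := exists_eta hsm.hs (ne_of_lt (plan_finite P)) hε
  obtain ⟨N, hN⟩ := exists_nat_gt (4 * Real.pi / η)
  have hNpos : 0 < N := by
    have : (0 : ℝ) < N := lt_trans (by positivity) hN
    exact_mod_cast this
  have hq : ν {y | qq y = 0} = 0 := by
    have := P.aeS
    rw [MeasureTheory.ae_iff] at this
    refine measure_mono_null ?_ this
    intro y hy hy'
    have : (1 : ℝ) < qq y := hy'.2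
    rw [show qq y = 0 from hy] at this
    linarith
  obtain ⟨H, D, hH, hD, hD1, hD2, hDrot⟩ := doubling ν P.rotν hq N hNpos
  have hNR : (0 : ℝ) < N := by exact_mod_cast hNpos
  have hdisp : ∀ p ∈ ΩS s k0, D p ∈ ΩS s k0 ∧ ‖p - D p‖ ≤ η := by
    intro p hp
    obtain ⟨β, hβ, hDp⟩ := hDrot p
    constructor
    · rw [hDp]
      exact (rotcs_mem_ΩS (Real.cos_sq_add_sin_sq β)).2 hp
    · rw [hDp, norm_sub_rev]
      refine (norm_rot_sub_le β p).trans ?_
      have h1 := norm_le_two_of_ΩS hsm hp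
      have h2 : 2 * Real.pi / N * 2 ≤ η := by
        rw [div_lt_iff₀ hη0] at hN
        rw [div_mul_eq_mul_div, div_le_iff₀ hNR]
        nlinarith
      calc |β| * ‖p‖ ≤ 2 * Real.pi / N * 2 := by gcongr
        _ ≤ η := h2
  have key := ap_main μA ν (measurable_YY hsm) (measurable_ZZ hsm) (measurable_WW hsm)
    (measurable_WZ hsm) hD P.mapY P.mapZ (isOpen_ΩA.measurableSet) hH P.aeA
    (P.aeS.mono fun y hy => not_ΩA_of_OS hsm hy.1) (fun x hx => WW_YY hsm hx)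
    (fun x hx => WZ_ZZ hsm hx) hD1 hD2 (tripleCost s) (measurable_tripleCost s)
    (ENNReal.ofReal ((1 - η / 2) ^ (-s))) (one_le_lam hsm.hs hη0.le hη2) ?_ ?_
  · obtain ⟨m2, m3, p2, p3, hc⟩ := key
    exact ⟨_, _, m2, m3, p2, p3, lt_of_le_of_lt hc hη⟩
  · refine P.aeS.mono fun p hp => ?_
    obtain ⟨hDp, hd⟩ := hdisp p hp
    have hx := WW_mapsTo hsm hDp
    have ht := Tri_YY_ZZ hsm hx
    rw [YY_WW hsm hDp] at ht
    obtain ⟨d1, d2, d3⟩ := Tri_dist hsm ht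
    exact tripleCost_le_mul hsm.hs hη0.le hη2 hd d3 (by rw [norm_sub_rev]; exact d1)
  · refine P.aeS.mono fun p hp => ?_
    obtain ⟨hDp, hd⟩ := hdisp p hp
    have hx := WZ_mapsTo hsm hDp
    have ht := Tri_YY_ZZ hsm hx
    rw [ZZ_WZ hsm hDp] at ht
    obtain ⟨d1, d2, d3⟩ := Tri_dist hsm ht
    exact tripleCost_le_mul hsm.hs hη0.le hη2 hd (by rw [norm_sub_rev]; exact d2)
      (by rw [norm_sub_rev]; exact d3)

end Crest.Agent.MM
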