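import Crest.Agent.Lib_MM_Fam2

/-! # MM-U : the radial potentials `US`, `UA` -/

set_option autoImplicit false
set_option linter.unusedVariables false
open Set MeasureTheory
open scoped ContDiff

namespace Crest.Agent.MM

variable {s k k0 w w' : ℝ}

theorem NN_of_mem (h : Small s k0) (hw : w ∈ OS s k0) :
    NN s k0 w = kapQ s * (2 + gam s (kS s k0 w)) := by
  unfold NN
  rw [if_neg (not_le.2 hw.1), if_neg (not_le.2 hw.2)]

theorem gam_kS_bounds (h : Small s k0) (hw : w ∈ OS s k0) :
    0 < gam s (kS s k0 w) ∧ gam s (kS s k0 w) ≤ 1 := by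
  have hk := II_subset h (kS_mem h hw)
  exact ⟨gam_pos hk.1, gam_le_one h.hs hk.1 hk.2⟩

theorem NN_bounds' (h : Small s k0) (w : ℝ) : 2 * kapQ s ≤ NN s k0 w ∧ NN s k0 w ≤ 3 * kapQ s := by
  have hκ := kapQ_pos h.hs
  by_cases h1 : w ≤ om2 s (k0 / 4)
  · unfold NN; rw [if_pos h1]; constructor <;> linarith
  · by_cases h2 : om2 s k0 ≤ w
    · unfold NN; rw [if_neg h1, if_pos h2]; constructor <;> linarith
    · have hw : w ∈ OS s k0 := ⟨not_le.1 h1, not_le.1 h2⟩
      rw [NN_of_mem h hw]
      have := gam_kS_bounds h hw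
      constructor <;> nlinarith [this.1, this.2]

theorem NN_mono (h : Small s k0) : Monotone (NN s k0) := by
  intro a b hab
  have hκ := kapQ_pos h.hs
  by_cases h1 : a ≤ om2 s (k0 / 4)
  · have : NN s k0 a = 2 * kapQ s := by unfold NN; rw [if_pos h1]
    rw [this]; exact (NN_bounds' h b).1
  · by_cases h2 : om2 s k0 ≤ b
    · have h1' : ¬ b ≤ om2 s (k0 / 4) := by
        intro hb; exact h1 (hab.trans hb)
      have : NN s k0 b = 3 * kapQ s := by unfold NN; rw [if_neg h1', if_pos h2]
      rw [this]; exact (NN_bounds' h a).2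
    · have ha : a ∈ OS s k0 := ⟨not_le.1 h1, lt_of_le_of_lt hab (not_le.1 h2)⟩
      have hb : b ∈ OS s k0 := ⟨lt_of_lt_of_le (not_le.1 h1) hab, not_le.1 h2⟩
      rw [NN_of_mem h ha, NN_of_mem h hb]
      have h3 : kS s k0 a ≤ kS s k0 b := (kS_strictMonoOn h).monotoneOn ha hb hab
      have h4 : gam s (kS s k0 a) ≤ gam s (kS s k0 b) :=
        (gam_strictMonoOn h.hs).monotoneOn (mem_Ioi.2 (II_subset h (kS_mem h ha)).1)
          (mem_Ioi.2 (II_subset h (kS_mem h hb)).1) h3
      nlinarith

theorem NN_om2 (h : Small s k0) (hk : k ∈ II k0) :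
    NN s k0 (om2 s k) = kapQ s * (2 + gam s k) := by
  rw [NN_of_mem h (om2_mem h hk), kS_om2 h hk]

theorem NN_bounds (h : Small s k0) (w : ℝ) : 0 ≤ NN s k0 w ∧ NN s k0 w ≤ 3 * kapQ s := by
  have hκ := kapQ_pos h.hs
  have := NN_bounds' h w
  exact ⟨by linarith [this.1], this.2⟩

theorem NN_intervalIntegrable (h : Small s k0) (a b : ℝ) :
    IntervalIntegrable (NN s k0) volume a b := (NN_mono h).intervalIntegrable

theorem continuous_US (h : Small s k0) : Continuous (US s k0) := by
  unfold US
  exact continuous_const.sub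
    (intervalIntegral.continuous_primitive (fun a b => NN_intervalIntegrable h a b) _)

theorem US_sub (h : Small s k0) (w w' : ℝ) :
    US s k0 w - US s k0 w' = -∫ t in w'..w, NN s k0 t := by
  unfold US
  have := intervalIntegral.integral_add_adjacent_intervals
    (NN_intervalIntegrable h (om2 s (k0 / 2)) w') (NN_intervalIntegrable h w' w)
  linarith

/-- concavity: `-NN w'` is a supergradient at `w'` -/
theorem US_supergrad (h : Small s k0) (w w' : ℝ) :
    US s k0 w ≤ US s k0 w' - NN s k0 w' * (w - w') := by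
  have h1 := US_sub h w w'
  suffices h2 : NN s k0 w' * (w - w') ≤ ∫ t in w'..w, NN s k0 t by linarith
  rcases le_total w' w with hle | hle
  · have := intervalIntegral.integral_mono_on hle
      (intervalIntegrable_const (c := NN s k0 w')) (NN_intervalIntegrable h w' w)
      (fun x hx => NN_mono h hx.1)
    rw [intervalIntegral.integral_const, smul_eq_mul] at this
    linarith
  · have := intervalIntegral.integral_mono_on hle (NN_intervalIntegrable h w w')
      (intervalIntegrable_const (c := NN s k0 w')) (fun x hx => NN_mono h hx.2)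
    rw [intervalIntegral.integral_const, smul_eq_mul] at this
    rw [intervalIntegral.integral_symm]
    linarith

theorem US_bounds (h : Small s k0) (hw : w ∈ OS s k0) :
    89 / 100 * hh s 4 ≤ US s k0 w ∧ US s k0 w ≤ 91 / 100 * hh s 4 := by
  have hs := h.hs
  have h4 := hh_pos (s := s) (t := 4) (by norm_num)
  have hc := om2_mem h (half_mem_II h)
  have hlen := OS_length h
  have habs : |∫ t in (om2 s (k0 / 2))..w, NN s k0 t| ≤ 3 * kapQ s * |w - om2 s (k0 / 2)| := by
    have := intervalIntegral.norm_integral_le_of_norm_le_const (a := om2 s (k0 / 2)) (b := w)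
      (f := NN s k0) (C := 3 * kapQ s) (fun x _ => by
        rw [Real.norm_eq_abs, abs_of_nonneg (NN_bounds h x).1]; exact (NN_bounds h x).2)
    rwa [Real.norm_eq_abs] at this
  have hd : |w - om2 s (k0 / 2)| ≤ 1 / (50 * s) := by
    rw [abs_le]
    constructor <;> linarith [hw.1, hw.2, hc.1, hc.2]
  have hκ := kapQ_pos hs
  have h5 : 3 * kapQ s * |w - om2 s (k0 / 2)| ≤ 3 / 400 * hh s 4 := by
    calc 3 * kapQ s * |w - om2 s (k0 / 2)| ≤ 3 * kapQ s * (1 / (50 * s)) := by gcongr
      _ = 3 / 400 * hh s 4 := by rw [kapQ_eq]; field_simp; norm_num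
  have h6 := abs_le.1 (habs.trans h5)
  unfold US
  constructor <;> linarith [h6.1, h6.2]

theorem UA_bounds (h : Small s k0) (hw : w ∈ OA s k0) :
    -2 * hh s 4 ≤ UA s k0 w ∧ UA s k0 w ≤ -(7 / 10) * hh s 4 := by
  have h4 := hh_pos (s := s) (t := 4) (by norm_num)
  have hk := kA_mem h hw
  have hk' := II_subset h hk
  have h1 := US_bounds h (om2_mem h hk)
  have h2 := cbase_le h hk'.1 hk.2.le
  have h3 := cbase_pos (s := s) hk'.1
  unfold UA
  constructor <;> linarith [h1.1, h1.2]

theorem measurable_UA (h : Small s k0) : Measurable (UA s k0) := by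
  have hk := measurable_kA h
  have hg : Measurable (gam s) := by unfold gam; fun_prop
  have h1 : Measurable (om1 s) := by unfold om1; fun_prop
  have h2 : Measurable (om2 s) := by unfold om2; fun_prop
  have hc : Measurable (cbase s) := by unfold cbase hh; fun_prop
  unfold UA
  exact (hc.comp hk).sub (((continuous_US h).measurable.comp (h2.comp hk)).const_mul 2)

end Crest.Agent.MM
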