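import Crest.Agent.Lib_MM_Defs

/-! # MM-PUSH : push-forward of a smooth half-density under a diffeomorphism -/

set_option autoImplicit false
open MeasureTheory Set
open scoped ENNReal ContDiff

namespace Crest.Agent.MM

variable {E : Type*} [NormedAddCommGroup E] [NormedSpace ℝ E] [FiniteDimensional ℝ E]

/-- the determinant is a smooth function of the operator
(hint: `LinearMap.det_toMatrix`/`Matrix.det_apply`: a polynomial in continuous linear functionals) -/
theorem contDiff_det : ContDiff ℝ ∞ (fun A : E →L[ℝ] E => A.det) := by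
  classical
  let b := Module.finBasis ℝ E
  have h1 : ∀ A : E →L[ℝ] E, A.det = Matrix.det (LinearMap.toMatrix b b (A : E →ₗ[ℝ] E)) := by
    intro A
    rw [LinearMap.det_toMatrix]
  simp_rw [h1, Matrix.det_apply]
  refine ContDiff.sum fun σ _ => ?_
  refine ContDiff.const_smul _ ?_
  refine contDiff_prod fun i _ => ?_
  let φ : (E →L[ℝ] E) →ₗ[ℝ] ℝ :=
    { toFun := fun A => LinearMap.toMatrix b b (A : E →ₗ[ℝ] E) (σ i) i
      map_add' := by intro A B; simp
      map_smul' := by intro c A; simp }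
  exact (LinearMap.toContinuousLinearMap φ).contDiff

omit [FiniteDimensional ℝ E] in
lemma det_comp' (A B : E →L[ℝ] E) : (A.comp B).det = A.det * B.det := by
  simp [ContinuousLinearMap.det, LinearMap.det_comp]

omit [FiniteDimensional ℝ E] in
lemma det_fderiv_ne_zero {ΩA ΩS : Set E} {Y W : E → E} (hA : IsOpen ΩA) (hS : IsOpen ΩS)
    (hY : ContDiffOn ℝ ∞ Y ΩA) (hW : ContDiffOn ℝ ∞ W ΩS)
    (hWm : MapsTo W ΩS ΩA) (hYW : ∀ y ∈ ΩS, Y (W y) = y) {y : E} (hy : y ∈ ΩS) :
    (fderiv ℝ W y).det ≠ 0 := by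
  have hWd : DifferentiableAt ℝ W y :=
    (hW.contDiffAt (hS.mem_nhds hy)).differentiableAt (by simp)
  have hYd : DifferentiableAt ℝ Y (W y) :=
    (hY.contDiffAt (hA.mem_nhds (hWm hy))).differentiableAt (by simp)
  have h1 : HasFDerivAt (Y ∘ W) ((fderiv ℝ Y (W y)).comp (fderiv ℝ W y)) y :=
    hYd.hasFDerivAt.comp y hWd.hasFDerivAt
  have h2 : HasFDerivAt (Y ∘ W) (ContinuousLinearMap.id ℝ E) y := by
    refine (hasFDerivAt_id y).congr_of_eventuallyEq ?_
    filter_upwards [hS.mem_nhds hy] with z hz using hYW z hz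
  have h3 := h1.unique h2
  intro h0
  have h4 : ((fderiv ℝ Y (W y)).comp (fderiv ℝ W y)).det = 1 := by
    rw [h3]; simp [ContinuousLinearMap.det]
  rw [det_comp', h0, mul_zero] at h4
  exact zero_ne_one h4

/-- smoothness of the formula on `ΩS`. -/
lemma pushHalf_contDiffAt {ΩA ΩS : Set E} {Y W : E → E} (hA : IsOpen ΩA) (hS : IsOpen ΩS)
    (hY : ContDiffOn ℝ ∞ Y ΩA) (hW : ContDiffOn ℝ ∞ W ΩS)
    (hWm : MapsTo W ΩS ΩA) (hYW : ∀ y ∈ ΩS, Y (W y) = y)
    {f : E → ℝ} (hf : ContDiff ℝ ∞ f) {y : E} (hy : y ∈ ΩS) :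
    ContDiffAt ℝ ∞ (pushHalf ΩS W f) y := by
  have hWy : ContDiffAt ℝ ∞ W y := hW.contDiffAt (hS.mem_nhds hy)
  have h1 : ContDiffAt ℝ ∞ (fun z => f (W z)) y := hf.contDiffAt.comp y hWy
  have h2 : ContDiffAt ℝ ∞ (fun z => fderiv ℝ W z) y :=
    (hW.fderiv_of_isOpen hS (m := ∞) (by simp)).contDiffAt (hS.mem_nhds hy)
  have h3 : ContDiffAt ℝ ∞ (fun z => (fderiv ℝ W z).det) y :=
    (contDiff_det (E := E)).contDiffAt.comp y h2
  have hne := det_fderiv_ne_zero hA hS hY hW hWm hYW hy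
  have h4 : ContDiffAt ℝ ∞ (fun z => |(fderiv ℝ W z).det|) y := h3.abs hne
  have h5 : ContDiffAt ℝ ∞ (fun z => Real.sqrt |(fderiv ℝ W z).det|) y :=
    h4.sqrt (abs_ne_zero.mpr hne)
  refine (h1.mul h5).congr_of_eventuallyEq ?_
  filter_upwards [hS.mem_nhds hy] with z hz
  simp [pushHalf, hz]

lemma setLIntegral_inter_of_zero {α : Type*} [MeasurableSpace α] (μ : Measure α) {s t : Set α}
    (hs : MeasurableSet s) (ht : MeasurableSet t) (F : α → ℝ≥0∞) (h : ∀ x, x ∉ t → F x = 0) :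
    ∫⁻ x in s, F x ∂μ = ∫⁻ x in s ∩ t, F x ∂μ := by
  rw [← lintegral_indicator hs, ← lintegral_indicator (hs.inter ht)]
  congr 1; ext x
  by_cases hxs : x ∈ s
  · by_cases hx : x ∈ t
    · have hst : x ∈ s ∩ t := ⟨hxs, hx⟩
      rw [Set.indicator_of_mem hxs, Set.indicator_of_mem hst]
    · rw [Set.indicator_of_mem hxs, Set.indicator_of_notMem (fun h' => hx h'.2), h x hx]
  · rw [Set.indicator_of_notMem hxs, Set.indicator_of_notMem (fun h' => hxs h'.1)]

variable [MeasurableSpace E] [BorelSpace E]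

/-- Main lemma.  `Y : ΩA → ΩS` a diffeomorphism with inverse `W`, `f` a smooth nonnegative function
with compact support inside `ΩA`.  Then `pushHalf ΩS W f` is smooth, nonnegative, compactly supported
in `ΩS`, and `Y # (f^2 dx) = (pushHalf ΩS W f)^2 dx`.
(det (fderiv W y) ≠ 0 by the chain rule for `Y ∘ W = id`; `{pushHalf ≠ 0} ⊆ Y '' tsupport f`, compact;
change of variables: `lintegral_image_eq_lintegral_abs_det_fderiv_mul` for `W` on `ΩS ∩ B`.) -/
theorem pushHalf_props (μ : Measure E) [μ.IsAddHaarMeasure] {ΩA ΩS : Set E}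
    (hA : IsOpen ΩA) (hS : IsOpen ΩS) {Y W : E → E}
    (hY : ContDiffOn ℝ ∞ Y ΩA) (hW : ContDiffOn ℝ ∞ W ΩS)
    (hYm : MapsTo Y ΩA ΩS) (hWm : MapsTo W ΩS ΩA)
    (hWY : ∀ x ∈ ΩA, W (Y x) = x) (hYW : ∀ y ∈ ΩS, Y (W y) = y) (hYmeas : Measurable Y)
    {f : E → ℝ} (hf : ContDiff ℝ ∞ f) (hf0 : ∀ x, 0 ≤ f x) (hfc : HasCompactSupport f)
    (hfs : tsupport f ⊆ ΩA) :
    ContDiff ℝ ∞ (pushHalf ΩS W f) ∧ (∀ y, 0 ≤ pushHalf ΩS W f y) ∧
      HasCompactSupport (pushHalf ΩS W f) ∧ tsupport (pushHalf ΩS W f) ⊆ ΩS ∧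
      (μ.withDensity (fun x => ENNReal.ofReal (f x ^ 2))).map Y =
        μ.withDensity (fun y => ENNReal.ofReal (pushHalf ΩS W f y ^ 2)) := by
  set K : Set E := Y '' tsupport f with hK
  have hKc : IsCompact K := hfc.isCompact.image_of_continuousOn (hY.continuousOn.mono hfs)
  have hKS : K ⊆ ΩS := by
    rintro _ ⟨x, hx, rfl⟩; exact hYm (hfs hx)
  have hzero : ∀ y, y ∉ K → pushHalf ΩS W f y = 0 := by
    intro y hy
    by_cases hyS : y ∈ ΩS
    · have : f (W y) = 0 := by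
        by_contra hne
        exact hy ⟨W y, subset_tsupport f hne, hYW y hyS⟩
      simp [pushHalf, hyS, this]
    · simp [pushHalf, hyS]
  have hsupp : Function.support (pushHalf ΩS W f) ⊆ K := by
    intro y hy; by_contra h; exact hy (hzero y h)
  have hts : tsupport (pushHalf ΩS W f) ⊆ K := closure_minimal hsupp hKc.isClosed
  refine ⟨?_, ?_, ?_, hts.trans hKS, ?_⟩
  · rw [contDiff_iff_contDiffAt]
    intro y
    by_cases hyS : y ∈ ΩS
    · exact pushHalf_contDiffAt hA hS hY hW hWm hYW hf hyS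
    · have hyK : y ∉ K := fun h => hyS (hKS h)
      refine (contDiffAt_const (c := (0 : ℝ))).congr_of_eventuallyEq ?_
      filter_upwards [hKc.isClosed.isOpen_compl.mem_nhds hyK] with z hz using hzero z hz
  · intro y
    unfold pushHalf
    split_ifs
    · exact mul_nonneg (hf0 _) (Real.sqrt_nonneg _)
    · exact le_rfl
  · exact HasCompactSupport.of_support_subset_isCompact hKc hsupp
  · ext B hB
    rw [Measure.map_apply hYmeas hB, withDensity_apply _ (hYmeas hB), withDensity_apply _ hB]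
    have himg : W '' (B ∩ ΩS) = Y ⁻¹' B ∩ ΩA := by
      ext x
      constructor
      · rintro ⟨y, ⟨hyB, hyS⟩, rfl⟩
        exact ⟨by simpa [hYW y hyS] using hyB, hWm hyS⟩
      · rintro ⟨hxB, hxA⟩
        exact ⟨Y x, ⟨hxB, hYm hxA⟩, hWY x hxA⟩
    have hL : ∫⁻ x in Y ⁻¹' B, ENNReal.ofReal (f x ^ 2) ∂μ =
        ∫⁻ x in W '' (B ∩ ΩS), ENNReal.ofReal (f x ^ 2) ∂μ := by
      rw [himg]
      refine setLIntegral_inter_of_zero μ (hYmeas hB) hA.measurableSet _ fun x hx => ?_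
      have : f x = 0 := by
        by_contra hne
        exact hx (hfs (subset_tsupport f hne))
      simp [this]
    have hR : ∫⁻ y in B, ENNReal.ofReal (pushHalf ΩS W f y ^ 2) ∂μ =
        ∫⁻ y in B ∩ ΩS, ENNReal.ofReal |(fderiv ℝ W y).det| * ENNReal.ofReal (f (W y) ^ 2) ∂μ := by
      rw [setLIntegral_inter_of_zero μ hB hS.measurableSet _ (fun y hy => by simp [pushHalf, hy])]
      refine setLIntegral_congr_fun (hB.inter hS.measurableSet) fun y hy => ?_
      simp only [pushHalf, hy.2, if_true]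
      rw [mul_pow, Real.sq_sqrt (abs_nonneg _), mul_comm, ENNReal.ofReal_mul (abs_nonneg _)]
    rw [hL, hR]
    refine lintegral_image_eq_lintegral_abs_det_fderiv_mul μ (hB.inter hS.measurableSet)
      (fun y hy => ?_) ?_ _
    · exact ((hW.contDiffAt (hS.mem_nhds hy.2)).differentiableAt
        (by simp)).hasFDerivAt.hasFDerivWithinAt
    · intro y hy y' hy' h
      rw [← hYW y hy.2, ← hYW y' hy'.2, h]

omit [MeasurableSpace E] [BorelSpace E] [FiniteDimensional ℝ E] in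
/-- invariance of the pushed half density under a linear symmetry commuting with `W` -/
theorem pushHalf_comp_symm {ΩS : Set E} (hS : IsOpen ΩS) {W : E → E}
    (hW : DifferentiableOn ℝ W ΩS) (L L' : E →L[ℝ] E) (hLL' : ∀ x, L (L' x) = x)
    (hL'L : ∀ x, L' (L x) = x) (hL : ∀ y, L y ∈ ΩS ↔ y ∈ ΩS)
    (hWL : ∀ y ∈ ΩS, W (L y) = L (W y)) {f : E → ℝ} (hfL : ∀ x, f (L x) = f x) (y : E) :
    pushHalf ΩS W f (L y) = pushHalf ΩS W f y := by
  by_cases hy : y ∈ ΩS
  · have hLy : L y ∈ ΩS := (hL y).mpr hy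
    have hd1 : DifferentiableAt ℝ W y := (hW y hy).differentiableAt (hS.mem_nhds hy)
    have hd2 : DifferentiableAt ℝ W (L y) := (hW _ hLy).differentiableAt (hS.mem_nhds hLy)
    have h1 : HasFDerivAt (W ∘ L) ((fderiv ℝ W (L y)).comp L) y :=
      hd2.hasFDerivAt.comp y L.hasFDerivAt
    have h2 : HasFDerivAt (W ∘ L) (L.comp (fderiv ℝ W y)) y := by
      refine (L.hasFDerivAt.comp y hd1.hasFDerivAt).congr_of_eventuallyEq ?_
      filter_upwards [hS.mem_nhds hy] with z hz using hWL z hz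
    have h3 := h1.unique h2
    have h4 : (fderiv ℝ W (L y)).det * L.det = L.det * (fderiv ℝ W y).det := by
      rw [← det_comp', ← det_comp', h3]
    have h5 : L.det * L'.det = 1 := by
      rw [← det_comp']
      have : L.comp L' = ContinuousLinearMap.id ℝ E := by ext x; exact hLL' x
      rw [this]; simp [ContinuousLinearMap.det]
    have hLne : L.det ≠ 0 := left_ne_zero_of_mul_eq_one h5
    have h6 : (fderiv ℝ W (L y)).det = (fderiv ℝ W y).det := by
      rw [mul_comm] at h4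
      exact mul_left_cancel₀ hLne h4
    simp [pushHalf, hy, hLy, hWL y hy, hfL, h6]
  · have hLy : L y ∉ ΩS := fun h => hy ((hL y).mp h)
    simp [pushHalf, hy, hLy]

end Crest.Agent.MM
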