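import Mathlib
import Crest.Prelude.Def_ModularData

/-! Foundations for `Crest.OpAlg.LineCalculus` (used for S0112). -/

set_option autoImplicit false

namespace Crest.Agent.Lib_helper8_LineCalc

open Crest.OpAlg Crest.OpAlg.LineCalculus
open scoped BoundedContinuousFunction

variable {H : Type*} [NormedAddCommGroup H] [InnerProductSpace ℂ H] [CompleteSpace H]

/-- The calculus is norm contractive. -/
theorem norm_apply_le (D : LineCalculus H) (f : ℝ →ᵇ ℂ) : ‖D.apply f‖ ≤ ‖f‖ :=
  NonUnitalStarAlgHom.norm_apply_le D.apply f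

theorem norm_apply_apply_le (D : LineCalculus H) (f : ℝ →ᵇ ℂ) (x : H) :
    ‖D.apply f x‖ ≤ ‖f‖ * ‖x‖ :=
  (ContinuousLinearMap.le_opNorm _ _).trans
    (mul_le_mul_of_nonneg_right (norm_apply_le D f) (norm_nonneg _))

theorem continuous_apply (D : LineCalculus H) : Continuous D.apply :=
  AddMonoidHomClass.continuous_of_bound D.apply 1 (by simpa using norm_apply_le D)

@[simp] theorem character_apply (t u : ℝ) :
    character t u = Complex.exp (Complex.I * ((t * u : ℝ) : ℂ)) := rfl

theorem character_zero : character 0 = 1 := by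
  ext u; simp

theorem character_add (s t : ℝ) : character (s + t) = character s * character t := by
  ext u
  simp only [character_apply, BoundedContinuousFunction.coe_mul, Pi.mul_apply, ← Complex.exp_add]
  congr 1
  push_cast
  ring

theorem star_character (t : ℝ) : star (character t) = character (-t) := by
  ext u
  simp only [BoundedContinuousFunction.star_apply, character_apply]
  rw [Complex.star_def, ← Complex.exp_conj]
  congr 1
  simp

theorem norm_character_apply (t u : ℝ) : ‖character t u‖ = 1 := by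
  rw [character_apply, Complex.norm_exp]; simp

theorem wave_zero (D : LineCalculus H) : D.wave 0 = 1 := by
  rw [wave, character_zero, map_one]

theorem wave_add (D : LineCalculus H) (s t : ℝ) : D.wave (s + t) = D.wave s * D.wave t := by
  rw [wave, character_add, map_mul]; rfl

theorem star_wave (D : LineCalculus H) (t : ℝ) : star (D.wave t) = D.wave (-t) := by
  rw [wave, ← map_star, star_character]; rfl

theorem wave_neg_mul_wave (D : LineCalculus H) (t : ℝ) : D.wave (-t) * D.wave t = 1 := by
  rw [← wave_add, neg_add_cancel, wave_zero]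

theorem wave_mul_wave_neg (D : LineCalculus H) (t : ℝ) : D.wave t * D.wave (-t) = 1 := by
  rw [← wave_add, add_neg_cancel, wave_zero]

theorem wave_neg_wave (D : LineCalculus H) (t : ℝ) (x : H) : D.wave (-t) (D.wave t x) = x := by
  have := congrArg (fun A : H →L[ℂ] H => A x) (wave_neg_mul_wave D t)
  simpa using this

theorem wave_wave_neg (D : LineCalculus H) (t : ℝ) (x : H) : D.wave t (D.wave (-t) x) = x := by
  have := congrArg (fun A : H →L[ℂ] H => A x) (wave_mul_wave_neg D t)
  simpa using this

theorem inner_wave_wave (D : LineCalculus H) (t : ℝ) (x y : H) :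
    inner ℂ (D.wave t x) (D.wave t y) = inner ℂ x y := by
  rw [← ContinuousLinearMap.adjoint_inner_right, ← ContinuousLinearMap.star_eq_adjoint, star_wave,
    wave_neg_wave]

theorem norm_wave_apply (D : LineCalculus H) (t : ℝ) (x : H) : ‖D.wave t x‖ = ‖x‖ := by
  have h := inner_wave_wave D t x x
  rw [inner_self_eq_norm_sq_to_K, inner_self_eq_norm_sq_to_K] at h
  have h2 : ‖D.wave t x‖ ^ 2 = ‖x‖ ^ 2 := by exact_mod_cast h
  exact (pow_left_inj₀ (norm_nonneg _) (norm_nonneg _) two_ne_zero).1 h2

theorem norm_wave_le (D : LineCalculus H) (t : ℝ) : ‖D.wave t‖ ≤ 1 :=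
  ContinuousLinearMap.opNorm_le_bound _ zero_le_one (fun x => by rw [norm_wave_apply, one_mul])

theorem apply_mul_apply (D : LineCalculus H) (f g : ℝ →ᵇ ℂ) (x : H) :
    D.apply (f * g) x = D.apply f (D.apply g x) := by
  rw [map_mul]; rfl

theorem apply_comm (D : LineCalculus H) (f g : ℝ →ᵇ ℂ) (x : H) :
    D.apply f (D.apply g x) = D.apply g (D.apply f x) := by
  rw [← apply_mul_apply, ← apply_mul_apply, mul_comm]

theorem inner_apply_left (D : LineCalculus H) (f : ℝ →ᵇ ℂ) (x y : H) :
    inner ℂ (D.apply f x) y = inner ℂ x (D.apply (star f) y) := by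
  rw [map_star, ContinuousLinearMap.star_eq_adjoint, ContinuousLinearMap.adjoint_inner_right]

/-! ### strong continuity -/

theorem norm_character_sub_le (s t u : ℝ) : ‖character t u - character s u‖ ≤ |t - s| * |u| := by
  have h1 : character t u - character s u
      = character s u * (Complex.exp (Complex.I * (((t - s) * u : ℝ) : ℂ)) - 1) := by
    simp only [character_apply]
    rw [mul_sub, ← Complex.exp_add, mul_one]
    congr 2
    push_cast
    ring
  rw [h1, norm_mul, norm_character_apply, one_mul]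
  refine (Real.norm_exp_I_mul_ofReal_sub_one_le).trans ?_
  rw [Real.norm_eq_abs, abs_mul]

/-- Bounded support radius of a compactly supported function. -/
theorem exists_radius {f : ℝ → ℂ} (hf : HasCompactSupport f) :
    ∃ R : ℝ, 0 ≤ R ∧ ∀ u, f u ≠ 0 → |u| ≤ R := by
  obtain ⟨R, hR⟩ := hf.isCompact.isBounded.subset_closedBall (0 : ℝ)
  refine ⟨max R 0, le_max_right _ _, fun u hu => ?_⟩
  have := hR (subset_tsupport f hu)
  rw [mem_closedBall_zero_iff, Real.norm_eq_abs] at this
  exact this.trans (le_max_left _ _)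

theorem norm_character_mul_sub_le (f : ℝ →ᵇ ℂ) {R : ℝ} (hR : 0 ≤ R)
    (hf : ∀ u, f u ≠ 0 → |u| ≤ R) (s t : ℝ) :
    ‖character t * f - character s * f‖ ≤ |t - s| * R * ‖f‖ := by
  rw [BoundedContinuousFunction.norm_le (by positivity)]
  intro u
  simp only [BoundedContinuousFunction.coe_sub, BoundedContinuousFunction.coe_mul, Pi.sub_apply,
    Pi.mul_apply]
  rw [← sub_mul, norm_mul]
  by_cases hu : f u = 0
  · rw [hu]; simp; positivity
  · exact mul_le_mul ((norm_character_sub_le s t u).trans
      (mul_le_mul_of_nonneg_left (hf u hu) (abs_nonneg _))) (f.norm_coe_le_norm u)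
      (norm_nonneg _) (by positivity)

theorem continuous_character_mul (f : ℝ →ᵇ ℂ) (hf : HasCompactSupport (f : ℝ → ℂ)) :
    Continuous (fun t : ℝ => character t * f) := by
  obtain ⟨R, hR, hfR⟩ := exists_radius hf
  have hL : LipschitzWith (Real.toNNReal (R * ‖f‖)) (fun t : ℝ => character t * f) := by
    refine LipschitzWith.of_dist_le_mul (fun t s => ?_)
    rw [dist_eq_norm, Real.dist_eq, Real.coe_toNNReal _ (by positivity)]
    calc _ ≤ |t - s| * R * ‖f‖ := norm_character_mul_sub_le f hR hfR s t
      _ = _ := by ring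
  exact hL.continuous

theorem wave_apply_eq (D : LineCalculus H) (t : ℝ) (f : ℝ →ᵇ ℂ) (x : H) :
    D.wave t (D.apply f x) = D.apply (character t * f) x := by
  rw [apply_mul_apply]; rfl

/-- `t ↦ exp(itD) x` is continuous. -/
theorem continuous_wave_apply (D : LineCalculus H) (x : H) : Continuous (fun t : ℝ => D.wave t x) := by
  have key : ∀ n : ℕ, ∃ f : ℝ →ᵇ ℂ, HasCompactSupport (f : ℝ → ℂ) ∧
      ‖D.apply f x - x‖ < 1 / ((n : ℝ) + 1) := fun n => D.window x _ (by positivity)
  choose f hfc hfx using key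
  have hunif : TendstoUniformly (fun (n : ℕ) (t : ℝ) => D.wave t (D.apply (f n) x))
      (fun t => D.wave t x) Filter.atTop := by
    rw [Metric.tendstoUniformly_iff]
    intro ε hε
    have h0 : Filter.Tendsto (fun n : ℕ => 1 / ((n : ℝ) + 1)) Filter.atTop (nhds 0) :=
      tendsto_one_div_add_atTop_nhds_zero_nat
    filter_upwards [h0.eventually (gt_mem_nhds hε)] with n hn t
    rw [dist_eq_norm, ← map_sub, norm_wave_apply, norm_sub_rev]
    exact (hfx n).trans hn
  refine hunif.continuous (Filter.Frequently.of_forall (fun n => ?_))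
  simp only [wave_apply_eq]
  have h1 : Continuous (fun t : ℝ => D.apply (character t * f n)) :=
    (continuous_apply D).comp (continuous_character_mul (f n) (hfc n))
  exact h1.clm_apply continuous_const

theorem continuous_wave_apply₂ (D : LineCalculus H) {X : Type*} [TopologicalSpace X]
    {τ : X → ℝ} {y : X → H} (hτ : Continuous τ) (hy : Continuous y) :
    Continuous (fun p : X => D.wave (τ p) (y p)) := by
  rw [continuous_iff_continuousAt]
  intro p
  rw [ContinuousAt, Metric.tendsto_nhds]
  intro ε hε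
  have h1 : ∀ᶠ q in nhds p, dist (D.wave (τ q) (y p)) (D.wave (τ p) (y p)) < ε / 2 :=
    (((continuous_wave_apply D (y p)).comp hτ).continuousAt.tendsto).eventually
      (Metric.ball_mem_nhds _ (half_pos hε))
  have h2 : ∀ᶠ q in nhds p, dist (y q) (y p) < ε / 2 :=
    hy.continuousAt.tendsto.eventually (Metric.ball_mem_nhds _ (half_pos hε))
  filter_upwards [h1, h2] with q hq1 hq2
  calc dist (D.wave (τ q) (y q)) (D.wave (τ p) (y p))
      ≤ dist (D.wave (τ q) (y q)) (D.wave (τ q) (y p))
        + dist (D.wave (τ q) (y p)) (D.wave (τ p) (y p)) := dist_triangle _ _ _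
    _ < ε / 2 + ε / 2 := by
        refine add_lt_add ?_ hq1
        rw [dist_eq_norm, ← map_sub, norm_wave_apply, ← dist_eq_norm]
        exact hq2
    _ = ε := by ring

/-! ### spectral subspaces -/

theorem supportedIn_zero (D : LineCalculus H) (K : Set ℝ) : D.SupportedIn K 0 :=
  fun _ _ => map_zero _

theorem supportedIn_add {D : LineCalculus H} {K : Set ℝ} {x y : H} (hx : D.SupportedIn K x)
    (hy : D.SupportedIn K y) : D.SupportedIn K (x + y) :=
  fun f hf => by rw [map_add, hx f hf, hy f hf, add_zero]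

theorem supportedIn_smul {D : LineCalculus H} {K : Set ℝ} {x : H} (hx : D.SupportedIn K x)
    (c : ℂ) : D.SupportedIn K (c • x) :=
  fun f hf => by rw [map_smul, hx f hf, smul_zero]

theorem supportedIn_neg {D : LineCalculus H} {K : Set ℝ} {x : H} (hx : D.SupportedIn K x) :
    D.SupportedIn K (-x) :=
  fun f hf => by rw [map_neg, hx f hf, neg_zero]

theorem supportedIn_sub {D : LineCalculus H} {K : Set ℝ} {x y : H} (hx : D.SupportedIn K x)
    (hy : D.SupportedIn K y) : D.SupportedIn K (x - y) :=
  fun f hf => by rw [map_sub, hx f hf, hy f hf, sub_zero]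

theorem supportedIn_mono {D : LineCalculus H} {K K' : Set ℝ} {x : H} (hK : K ⊆ K')
    (hx : D.SupportedIn K x) : D.SupportedIn K' x :=
  fun f hf => hx f (fun u hu => hf u (hK hu))

theorem supportedIn_apply {D : LineCalculus H} {K : Set ℝ} {x : H} (hx : D.SupportedIn K x)
    (g : ℝ →ᵇ ℂ) : D.SupportedIn K (D.apply g x) :=
  fun f hf => by rw [apply_comm, hx f hf, map_zero]

theorem supportedIn_wave {D : LineCalculus H} {K : Set ℝ} {x : H} (hx : D.SupportedIn K x)
    (t : ℝ) : D.SupportedIn K (D.wave t x) :=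
  supportedIn_apply hx _

theorem isClosed_supportedIn (D : LineCalculus H) (K : Set ℝ) :
    IsClosed {x : H | D.SupportedIn K x} := by
  have : {x : H | D.SupportedIn K x}
      = ⋂ (f : ℝ →ᵇ ℂ) (_ : ∀ u ∈ K, f u = 0), {x : H | D.apply f x = 0} := by
    ext x; simp [LineCalculus.SupportedIn]
  rw [this]
  exact isClosed_iInter (fun f => isClosed_iInter (fun _ =>
    isClosed_eq (D.apply f).continuous continuous_const))

/-- If `f` vanishes off `K` then `f(D) x` is spectrally supported in `K`. -/
theorem supportedIn_apply_of_vanish (D : LineCalculus H) {K : Set ℝ} {f : ℝ →ᵇ ℂ}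
    (hf : ∀ u, u ∉ K → f u = 0) (x : H) : D.SupportedIn K (D.apply f x) := by
  intro g hg
  rw [← apply_mul_apply]
  have : g * f = 0 := by
    ext u
    by_cases hu : u ∈ K
    · simp [hg u hu]
    · simp [hf u hu]
  rw [this, map_zero]; rfl

theorem supportedIn_apply_congr {D : LineCalculus H} {K : Set ℝ} {x : H}
    (hx : D.SupportedIn K x) {f g : ℝ →ᵇ ℂ} (hfg : ∀ u ∈ K, f u = g u) :
    D.apply f x = D.apply g x := by
  have := hx (f - g) (fun u hu => by simp [hfg u hu])
  rw [map_sub, sub_apply, sub_eq_zero] at this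
  exact this

theorem supportedIn_apply_eq_self {D : LineCalculus H} {K : Set ℝ} {x : H}
    (hx : D.SupportedIn K x) {f : ℝ →ᵇ ℂ} (hf : ∀ u ∈ K, f u = 1) : D.apply f x = x := by
  have := supportedIn_apply_congr hx (f := f) (g := 1) (fun u hu => by simp [hf u hu])
  rw [this, map_one]; rfl

/-! ### Fourier smoothing -/

open MeasureTheory

open Classical in
/-- `ĝ(u) = ∫ g(t) e^{itu} dt` as a bounded continuous function. -/
noncomputable def ft (g : ℝ → ℂ) : ℝ →ᵇ ℂ :=
  if hg : Integrable g then
    BoundedContinuousFunction.ofNormedAddCommGroup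
      (fun u : ℝ => ∫ t, g t * character t u)
      (by
        refine continuous_of_dominated (bound := fun t => ‖g t‖) (fun u => ?_) (fun u => ?_)
          hg.norm (Filter.Eventually.of_forall (fun t => ?_))
        · refine hg.aestronglyMeasurable.mul (Continuous.aestronglyMeasurable ?_)
          simp only [character_apply]; fun_prop
        · exact Filter.Eventually.of_forall (fun t => by
            rw [norm_mul, norm_character_apply, mul_one])
        · simp only [character_apply]; fun_prop)
      (∫ t, ‖g t‖)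
      (fun u => (norm_integral_le_integral_norm _).trans (le_of_eq (by
        congr 1; ext t; rw [norm_mul, norm_character_apply, mul_one])))
  else 0

theorem ft_apply {g : ℝ → ℂ} (hg : Integrable g) (u : ℝ) :
    ft g u = ∫ t, g t * character t u := by
  rw [ft, dif_pos hg]; rfl

theorem norm_ft_le (g : ℝ → ℂ) : ‖ft g‖ ≤ ∫ t, ‖g t‖ := by
  by_cases hg : Integrable g
  · rw [BoundedContinuousFunction.norm_le (integral_nonneg (fun _ => norm_nonneg _))]
    intro u
    rw [ft_apply hg]
    exact (norm_integral_le_integral_norm _).trans (le_of_eq (by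
      congr 1; ext t; rw [norm_mul, norm_character_apply, mul_one]))
  · rw [ft, dif_neg hg, norm_zero]
    exact integral_nonneg (fun _ => norm_nonneg _)

theorem integrable_smul_wave (D : LineCalculus H) {g : ℝ → ℂ} (hg : Integrable g) (x : H) :
    Integrable (fun t => g t • D.wave t x) := by
  refine (hg.norm.mul_const ‖x‖).mono'
    (hg.aestronglyMeasurable.smul (continuous_wave_apply D x).aestronglyMeasurable)
    (Filter.Eventually.of_forall (fun t => ?_))
  rw [norm_smul, norm_wave_apply]

theorem norm_integral_smul_wave_le (D : LineCalculus H) (g : ℝ → ℂ) (x : H) :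
    ‖∫ t, g t • D.wave t x‖ ≤ (∫ t, ‖g t‖) * ‖x‖ := by
  refine (norm_integral_le_integral_norm _).trans (le_of_eq ?_)
  rw [← integral_mul_const]
  congr 1; ext t
  rw [norm_smul, norm_wave_apply]

/-- the calculus evaluated at a vector as a continuous linear map -/
noncomputable def applyAt (D : LineCalculus H) (x : H) : (ℝ →ᵇ ℂ) →L[ℂ] H :=
  LinearMap.mkContinuous
    { toFun := fun f => D.apply f x
      map_add' := fun f g => by rw [map_add]; rfl
      map_smul' := fun c f => by rw [map_smul]; rfl } ‖x‖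
    (fun f => by
      simpa [mul_comm] using norm_apply_apply_le D f x)

@[simp] theorem applyAt_apply (D : LineCalculus H) (x : H) (f : ℝ →ᵇ ℂ) :
    applyAt D x f = D.apply f x := rfl

theorem integral_character_mul {g : ℝ → ℂ} (hg : Integrable g) (f : ℝ →ᵇ ℂ)
    (hf : HasCompactSupport (f : ℝ → ℂ)) :
    Integrable (fun t => g t • (character t * f)) ∧
      ∫ t, g t • (character t * f) = ft g * f := by
  have hint : Integrable (fun t => g t • (character t * f)) := by
    refine (hg.norm.mul_const ‖f‖).mono'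
      (hg.aestronglyMeasurable.smul (continuous_character_mul f hf).aestronglyMeasurable)
      (Filter.Eventually.of_forall (fun t => ?_))
    rw [norm_smul]
    refine mul_le_mul_of_nonneg_left ?_ (norm_nonneg _)
    refine (norm_mul_le _ _).trans ?_
    have : ‖character t‖ ≤ 1 := by
      rw [BoundedContinuousFunction.norm_le zero_le_one]
      intro u; rw [norm_character_apply]
    nlinarith [norm_nonneg f]
  refine ⟨hint, ?_⟩
  ext u
  have h1 := ContinuousLinearMap.integral_comp_comm
    (BoundedContinuousFunction.evalCLM ℂ u : (ℝ →ᵇ ℂ) →L[ℂ] ℂ) hint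
  simp only [BoundedContinuousFunction.evalCLM_apply] at h1
  rw [← h1, BoundedContinuousFunction.coe_mul, Pi.mul_apply, ft_apply hg, ← integral_mul_const]
  congr 1; ext t
  simp [mul_assoc]

/-- **Fourier smoothing**: `∫ g(t) exp(itD) x dt = ĝ(D) x`. -/
theorem integral_smul_wave (D : LineCalculus H) {g : ℝ → ℂ} (hg : Integrable g) (x : H) :
    ∫ t, g t • D.wave t x = D.apply (ft g) x := by
  -- first on vectors `f(D) x`
  have step : ∀ (f : ℝ →ᵇ ℂ), HasCompactSupport (f : ℝ → ℂ) →
      ∫ t, g t • D.wave t (D.apply f x) = D.apply (ft g) (D.apply f x) := by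
    intro f hf
    obtain ⟨hint, heq⟩ := integral_character_mul hg f hf
    have h1 := ContinuousLinearMap.integral_comp_comm (applyAt D x) hint
    rw [heq] at h1
    simp only [applyAt_apply, map_smul] at h1
    rw [← apply_mul_apply, ← h1]
    congr 1; ext t
    rw [wave_apply_eq]
  refine eq_of_forall_dist_le (fun ε hε => ?_)
  set C : ℝ := (∫ t, ‖g t‖) + ‖ft g‖ with hC
  have hC0 : 0 ≤ C := add_nonneg (integral_nonneg (fun _ => norm_nonneg _)) (norm_nonneg _)
  obtain ⟨f, hfc, hfx⟩ := D.window x (ε / (C + 1)) (by positivity)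
  have e1 : (∫ t, g t • D.wave t x) - ∫ t, g t • D.wave t (D.apply f x)
      = ∫ t, g t • D.wave t (x - D.apply f x) := by
    rw [← integral_sub (integrable_smul_wave D hg _) (integrable_smul_wave D hg _)]
    congr 1; ext t
    rw [map_sub, smul_sub]
  rw [dist_eq_norm]
  have e2 : (∫ t, g t • D.wave t x) - D.apply (ft g) x
      = (∫ t, g t • D.wave t (x - D.apply f x)) - D.apply (ft g) (x - D.apply f x) := by
    rw [← e1, step f hfc, map_sub]; abel
  rw [e2]
  have hn : ‖x - D.apply f x‖ < ε / (C + 1) := by rw [norm_sub_rev]; exact hfx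
  calc ‖(∫ t, g t • D.wave t (x - D.apply f x)) - D.apply (ft g) (x - D.apply f x)‖
      ≤ ‖∫ t, g t • D.wave t (x - D.apply f x)‖ + ‖D.apply (ft g) (x - D.apply f x)‖ :=
        norm_sub_le _ _
    _ ≤ (∫ t, ‖g t‖) * ‖x - D.apply f x‖ + ‖ft g‖ * ‖x - D.apply f x‖ :=
        add_le_add (norm_integral_smul_wave_le D g _) (norm_apply_apply_le D _ _)
    _ = C * ‖x - D.apply f x‖ := by rw [hC]; ring
    _ ≤ C * (ε / (C + 1)) := mul_le_mul_of_nonneg_left hn.le hC0
    _ ≤ ε := by
        rw [mul_div_assoc', div_le_iff₀ (by positivity)]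
        nlinarith

/-! ### cut-offs of norm `≤ 1` -/

/-- the trapezoid: `1` on `[-Λ, Λ]`, `0` off `[-Λ-1, Λ+1]`. -/
noncomputable def cut (Λ : ℝ) : ℝ →ᵇ ℂ :=
  BoundedContinuousFunction.ofNormedAddCommGroup
    (fun u : ℝ => ((max 0 (min 1 (Λ + 1 - |u|)) : ℝ) : ℂ)) (by fun_prop) 1
    (fun u => by
      rw [Complex.norm_real, Real.norm_eq_abs, abs_of_nonneg (le_max_left _ _)]
      exact max_le zero_le_one (min_le_left _ _))

theorem cut_apply (Λ u : ℝ) : cut Λ u = ((max 0 (min 1 (Λ + 1 - |u|)) : ℝ) : ℂ) := rfl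

theorem norm_cut_le (Λ : ℝ) : ‖cut Λ‖ ≤ 1 := by
  rw [BoundedContinuousFunction.norm_le zero_le_one]
  intro u
  rw [cut_apply, Complex.norm_real, Real.norm_eq_abs, abs_of_nonneg (le_max_left _ _)]
  exact max_le zero_le_one (min_le_left _ _)

theorem cut_eq_one {Λ u : ℝ} (hu : |u| ≤ Λ) : cut Λ u = 1 := by
  rw [cut_apply, min_eq_left (by linarith), max_eq_right zero_le_one]; simp

theorem cut_eq_zero {Λ u : ℝ} (hu : Λ + 1 ≤ |u|) : cut Λ u = 0 := by
  rw [cut_apply, min_eq_right (by linarith), max_eq_left (by linarith)]; simp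

theorem hasCompactSupport_cut (Λ : ℝ) : HasCompactSupport (cut Λ : ℝ → ℂ) := by
  refine HasCompactSupport.intro (K := Set.Icc (-(Λ + 1)) (Λ + 1)) isCompact_Icc (fun u hu => ?_)
  refine cut_eq_zero ?_
  by_contra hcon
  push Not at hcon
  exact hu ⟨(abs_lt.1 hcon).1.le, (abs_lt.1 hcon).2.le⟩

theorem exists_cutoff (D : LineCalculus H) (x : H) (ε : ℝ) (hε : 0 < ε) :
    ∃ f : ℝ →ᵇ ℂ, HasCompactSupport (f : ℝ → ℂ) ∧ ‖f‖ ≤ 1 ∧ ‖D.apply f x - x‖ < ε := by
  obtain ⟨f, hfc, hfx⟩ := D.window x (ε / 2) (half_pos hε)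
  obtain ⟨R, _, hfR⟩ := exists_radius hfc
  refine ⟨cut R, hasCompactSupport_cut R, norm_cut_le R, ?_⟩
  have hmul : cut R * f = f := by
    ext u
    by_cases hu : f u = 0
    · simp [hu]
    · simp [cut_eq_one (hfR u hu)]
  have e : D.apply (cut R) x - x = D.apply (cut R) (x - D.apply f x) + (D.apply f x - x) := by
    rw [map_sub, ← apply_mul_apply, hmul]; abel
  rw [e]
  calc ‖D.apply (cut R) (x - D.apply f x) + (D.apply f x - x)‖
      ≤ ‖D.apply (cut R) (x - D.apply f x)‖ + ‖D.apply f x - x‖ := norm_add_le _ _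
    _ ≤ 1 * ‖x - D.apply f x‖ + ‖D.apply f x - x‖ := by
        gcongr
        exact (norm_apply_apply_le D _ _).trans
          (mul_le_mul_of_nonneg_right (norm_cut_le R) (norm_nonneg _))
    _ < ε := by rw [one_mul, norm_sub_rev]; linarith

end Crest.Agent.Lib_helper8_LineCalc
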