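import Crest.Agent.Lib_MR_Defs
import Crest.Agent.Lib_helper8_LineCalc

/-! # Package A (S0112): basic facts on a `LineCalculus` -/

set_option autoImplicit false
open Crest.OpAlg
open scoped InnerProductSpace

namespace Crest.Agent.MR

open Crest.Agent

variable {H : Type*} [NormedAddCommGroup H] [InnerProductSpace ℂ H] [CompleteSpace H]

/-- `NonUnitalStarAlgHom.norm_apply_le` (a ⋆-homomorphism of C⋆-algebras is contractive) -/
theorem norm_apply_le (D : LineCalculus H) (f : BoundedContinuousFunction ℝ ℂ) :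
    ‖D.apply f‖ ≤ ‖f‖ :=
  Lib_helper8_LineCalc.norm_apply_le D f

theorem apply_mul_apply (D : LineCalculus H) (f g : BoundedContinuousFunction ℝ ℂ) (x : H) :
    D.apply f (D.apply g x) = D.apply (f * g) x :=
  (Lib_helper8_LineCalc.apply_mul_apply D f g x).symm

theorem apply_comm (D : LineCalculus H) (f g : BoundedContinuousFunction ℝ ℂ) (x : H) :
    D.apply f (D.apply g x) = D.apply g (D.apply f x) :=
  Lib_helper8_LineCalc.apply_comm D f g x

/-- adjoint of `f(D)` is `(star f)(D)` -/
theorem inner_apply_left (D : LineCalculus H) (f : BoundedContinuousFunction ℝ ℂ) (x y : H) :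
    ⟪D.apply f x, y⟫_ℂ = ⟪x, D.apply (star f) y⟫_ℂ :=
  Lib_helper8_LineCalc.inner_apply_left D f x y

theorem wave_zero (D : LineCalculus H) : D.wave 0 = 1 :=
  Lib_helper8_LineCalc.wave_zero D

theorem wave_add (D : LineCalculus H) (s t : ℝ) : D.wave (s + t) = D.wave s * D.wave t :=
  Lib_helper8_LineCalc.wave_add D s t

theorem star_wave (D : LineCalculus H) (t : ℝ) : star (D.wave t) = D.wave (-t) :=
  Lib_helper8_LineCalc.star_wave D t

theorem wave_neg_wave (D : LineCalculus H) (t : ℝ) (x : H) : D.wave (-t) (D.wave t x) = x :=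
  Lib_helper8_LineCalc.wave_neg_wave D t x

theorem wave_wave_neg (D : LineCalculus H) (t : ℝ) (x : H) : D.wave t (D.wave (-t) x) = x :=
  Lib_helper8_LineCalc.wave_wave_neg D t x

theorem norm_wave_apply (D : LineCalculus H) (t : ℝ) (x : H) : ‖D.wave t x‖ = ‖x‖ :=
  Lib_helper8_LineCalc.norm_wave_apply D t x

theorem norm_wave_le (D : LineCalculus H) (t : ℝ) : ‖D.wave t‖ ≤ 1 :=
  Lib_helper8_LineCalc.norm_wave_le D t

theorem inner_wave_left (D : LineCalculus H) (t : ℝ) (x y : H) :
    ⟪D.wave t x, y⟫_ℂ = ⟪x, D.wave (-t) y⟫_ℂ := by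
  rw [← star_wave, ContinuousLinearMap.star_eq_adjoint, ContinuousLinearMap.adjoint_inner_right]

theorem inner_wave_wave (D : LineCalculus H) (t : ℝ) (x y : H) :
    ⟪D.wave t x, D.wave t y⟫_ℂ = ⟪x, y⟫_ℂ :=
  Lib_helper8_LineCalc.inner_wave_wave D t x y

theorem wave_apply_comm (D : LineCalculus H) (t : ℝ) (f : BoundedContinuousFunction ℝ ℂ) (x : H) :
    D.wave t (D.apply f x) = D.apply f (D.wave t x) :=
  apply_comm D _ f x

/-- cut-offs with sup norm `≤ 1`: take `χ_Λ` (`= 1` on `[-Λ, Λ]`, `0` outside `[-Λ-1, Λ+1]`) with `Λ` so large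
that `χ_Λ * f = f` for the `f` given by `D.window x (ε/2)`. -/
theorem exists_cutoff (D : LineCalculus H) (x : H) (ε : ℝ) (hε : 0 < ε) :
    ∃ f : BoundedContinuousFunction ℝ ℂ, HasCompactSupport (f : ℝ → ℂ) ∧ ‖f‖ ≤ 1 ∧
      ‖D.apply f x - x‖ < ε :=
  Lib_helper8_LineCalc.exists_cutoff D x ε hε

/-- for compactly supported `f`, `t ↦ character t * f` is norm continuous -/
theorem continuous_character_mul (f : BoundedContinuousFunction ℝ ℂ)
    (hf : HasCompactSupport (f : ℝ → ℂ)) :
    Continuous fun t : ℝ => LineCalculus.character t * f :=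
  Lib_helper8_LineCalc.continuous_character_mul f hf

/-- strong continuity of the unitary group (from `exists_cutoff`, `continuous_character_mul`) -/
theorem continuous_wave_apply (D : LineCalculus H) (x : H) : Continuous fun t : ℝ => D.wave t x :=
  Lib_helper8_LineCalc.continuous_wave_apply D x

/-- joint version: `t ↦ U_{θ t} (v t)` is continuous if `θ` and `v` are -/
theorem continuous_wave_comp (D : LineCalculus H) {θ : ℝ → ℝ} {v : ℝ → H} (hθ : Continuous θ)
    (hv : Continuous v) : Continuous fun t : ℝ => D.wave (θ t) (v t) :=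
  Lib_helper8_LineCalc.continuous_wave_apply₂ D hθ hv

theorem SupportedIn.zero (D : LineCalculus H) (K : Set ℝ) : D.SupportedIn K (0 : H) :=
  Lib_helper8_LineCalc.supportedIn_zero D K

theorem SupportedIn.add {D : LineCalculus H} {K : Set ℝ} {x y : H} (hx : D.SupportedIn K x)
    (hy : D.SupportedIn K y) : D.SupportedIn K (x + y) :=
  Lib_helper8_LineCalc.supportedIn_add hx hy

theorem SupportedIn.smul {D : LineCalculus H} {K : Set ℝ} {x : H} (c : ℂ) (hx : D.SupportedIn K x) :
    D.SupportedIn K (c • x) :=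
  Lib_helper8_LineCalc.supportedIn_smul hx c

theorem SupportedIn.wave {D : LineCalculus H} {K : Set ℝ} {x : H} (t : ℝ) (hx : D.SupportedIn K x) :
    D.SupportedIn K (D.wave t x) :=
  Lib_helper8_LineCalc.supportedIn_wave hx t

theorem SupportedIn.mono {D : LineCalculus H} {K K' : Set ℝ} {x : H} (h : K ⊆ K')
    (hx : D.SupportedIn K x) : D.SupportedIn K' x :=
  Lib_helper8_LineCalc.supportedIn_mono h hx

theorem SupportedIn.apply_eq {D : LineCalculus H} {K : Set ℝ} {x : H} (hx : D.SupportedIn K x)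
    {f g : BoundedContinuousFunction ℝ ℂ} (hfg : ∀ u ∈ K, f u = g u) :
    D.apply f x = D.apply g x :=
  Lib_helper8_LineCalc.supportedIn_apply_congr hx hfg

theorem supportedIn_apply (D : LineCalculus H) (K : Set ℝ) (f : BoundedContinuousFunction ℝ ℂ)
    (hf : ∀ u, u ∉ K → f u = 0) (x : H) : D.SupportedIn K (D.apply f x) :=
  Lib_helper8_LineCalc.supportedIn_apply_of_vanish D hf x

end Crest.Agent.MR
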