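import Crest.Agent.Lib_MR_Calc

/-! # Package F (S0112): `‖y⋆ ξ‖² ≤ e^β ‖y ξ‖²` if `y ∈ M` and `y ξ` has spectral support in `[α, β]`

Proof. `(y ξ, y⋆ ξ)` is in the range, hence in the closure `= {p | HalfExp p.1 (J p.2)}`: with `x = y ξ`, `x' = J (y⋆ ξ)`:
`f(D) x' = (f e)(D) x` for compactly supported `f` (`e u = exp (u/2)`, `f e` bounded).  On `[α, β]`, `f e = f g₀` with
`g₀ u = min (exp (u/2)) (exp (β/2))`, a bounded continuous function of norm `≤ exp (β/2)`, so
`‖f(D) x'‖ = ‖(f g₀)(D) x‖ ≤ ‖f‖ exp (β/2) ‖x‖`.  With the cut-offs of `exists_cutoff` (`‖f‖ ≤ 1`, `f(D) x' → x'`):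
`‖x'‖ ≤ exp (β/2) ‖x‖`; `J` is isometric. -/

set_option autoImplicit false
open Crest.OpAlg
open scoped InnerProductSpace

namespace Crest.Agent.MR

variable {H : Type*} [NormedAddCommGroup H] [InnerProductSpace ℂ H] [CompleteSpace H]

/-- the clamped half exponential `u ↦ exp (min u R / 2)` as a bounded continuous function. -/
noncomputable def expClamp (R : ℝ) : BoundedContinuousFunction ℝ ℂ :=
  BoundedContinuousFunction.ofNormedAddCommGroup
    (fun u : ℝ => ((Real.exp (min u R / 2) : ℝ) : ℂ)) (by fun_prop) (Real.exp (R / 2))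
    (fun u => by
      rw [Complex.norm_real, Real.norm_eq_abs, abs_of_pos (Real.exp_pos _)]
      exact Real.exp_le_exp.mpr (by linarith [min_le_right u R]))

theorem expClamp_apply (R u : ℝ) : expClamp R u = ((Real.exp (min u R / 2) : ℝ) : ℂ) := rfl

theorem expClamp_of_le {R u : ℝ} (h : u ≤ R) : expClamp R u = ((Real.exp (u / 2) : ℝ) : ℂ) := by
  rw [expClamp_apply, min_eq_left h]

theorem norm_expClamp_le (R : ℝ) : ‖expClamp R‖ ≤ Real.exp (R / 2) := by
  rw [BoundedContinuousFunction.norm_le (Real.exp_pos _).le]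
  intro u
  rw [expClamp_apply, Complex.norm_real, Real.norm_eq_abs, abs_of_pos (Real.exp_pos _)]
  exact Real.exp_le_exp.mpr (by linarith [min_le_right u R])

/-- elements of `M` give points of the graph of `J ∘ exp(D/2)`. -/
theorem halfExp_of_mem (S : ModularDatum H) (y : H →L[ℂ] H) (hy : y ∈ S.M) :
    S.D.HalfExp (y S.vac) (S.J ((star y) S.vac)) := by
  have hmem : ((y S.vac, (star y) S.vac) : H × H) ∈
      closure (Set.range fun a : S.M => ((a : H →L[ℂ] H) S.vac, star (a : H →L[ℂ] H) S.vac)) :=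
    subset_closure ⟨⟨y, hy⟩, rfl⟩
  rw [S.tomita] at hmem
  exact hmem

theorem star_vac_norm_sq_le (S : ModularDatum H) (y : H →L[ℂ] H) (hy : y ∈ S.M) (α β : ℝ)
    (hs : S.D.SupportedIn (Set.Icc α β) (y S.vac)) :
    ‖(star y) S.vac‖ ^ 2 ≤ Real.exp β * ‖y S.vac‖ ^ 2 := by
  have hH := halfExp_of_mem S y hy
  set x := y S.vac with hx
  set x' := S.J ((star y) S.vac) with hx'
  have hnorm : ‖x'‖ = ‖(star y) S.vac‖ := S.J.norm_map _
  have key : ‖x'‖ ≤ Real.exp (β / 2) * ‖x‖ := by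
    apply le_of_forall_pos_le_add
    intro ε hε
    obtain ⟨f, hfc, hf1, hfx⟩ := exists_cutoff S.D x' ε hε
    obtain ⟨R, hR0, hfR⟩ := Lib_helper8_LineCalc.exists_radius hfc
    set R' := max R β with hR'
    have h1 : S.D.apply f x' = S.D.apply (f * expClamp R') x := by
      apply hH
      intro u
      by_cases hu : f u = 0
      · simp [hu]
      · have : u ≤ R' := le_trans (le_trans (le_abs_self u) (hfR u hu)) (le_max_left _ _)
        simp [expClamp_of_le this]
    have h2 : S.D.apply (f * expClamp R') x = S.D.apply (f * expClamp β) x := by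
      apply SupportedIn.apply_eq hs
      intro u hu
      have h3 : u ≤ R' := le_trans hu.2 (le_max_right _ _)
      simp [expClamp_of_le h3, expClamp_of_le hu.2]
    have h3 : ‖S.D.apply f x'‖ ≤ Real.exp (β / 2) * ‖x‖ := by
      rw [h1, h2]
      calc ‖S.D.apply (f * expClamp β) x‖ ≤ ‖S.D.apply (f * expClamp β)‖ * ‖x‖ :=
            ContinuousLinearMap.le_opNorm _ _
        _ ≤ ‖f * expClamp β‖ * ‖x‖ := by gcongr; exact norm_apply_le _ _
        _ ≤ (‖f‖ * ‖expClamp β‖) * ‖x‖ := by gcongr; exact norm_mul_le _ _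
        _ ≤ (1 * Real.exp (β / 2)) * ‖x‖ := by
            gcongr
            exact norm_expClamp_le β
        _ = Real.exp (β / 2) * ‖x‖ := by rw [one_mul]
    calc ‖x'‖ = ‖S.D.apply f x' - (S.D.apply f x' - x')‖ := by congr 1; abel
      _ ≤ ‖S.D.apply f x'‖ + ‖S.D.apply f x' - x'‖ := norm_sub_le _ _
      _ ≤ Real.exp (β / 2) * ‖x‖ + ε := by linarith
  rw [← hnorm]
  calc ‖x'‖ ^ 2 ≤ (Real.exp (β / 2) * ‖x‖) ^ 2 := by gcongr
    _ = Real.exp β * ‖x‖ ^ 2 := by
        rw [mul_pow, ← Real.exp_nat_mul]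
        congr 2
        push_cast
        ring

end Crest.Agent.MR
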