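import Crest.Agent.Lib_MR_Calc
import Crest.Agent.Lib_MR_Tomita

/-! # Package B (S0112): the vacuum is invariant, `U_t ξ = ξ`

Proof. (1) `⟪ξ, p.2⟫ = ⟪p.1, ξ⟫` on the range `{(aξ, a⋆ξ)}`, hence on its closure `= {p | HalfExp p.1 (J p.2)}`.
(2) For `w : H` and compactly supported `f`, with `e(u) = exp(u/2)`: `HalfExp (f(D) w) ((f e)(D) w)`, so
`p = (f(D) w, J ((f e)(D) w))` is in the set; (1) and antiunitarity of `J` give
`⟪(f e)(D) w, J ξ⟫ = ⟪f(D) w, ξ⟫` for all `w`, i.e. `(f̄ e)(D) (J ξ) = f̄(D) ξ`.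
(3) `a = 1`: `HalfExp ξ (J ξ)`; with `F = f̄ e`, `G = f̄ e²`: `(f̄ e)(D) (J ξ) = (f̄ e²)(D) ξ`.
So `(g (exp - 1))(D) ξ = 0` for all compactly supported `g`.
(4) `|cut Λ (character t - 1)| ≤ C |cut Λ (exp - 1)|`, and pointwise domination of functions gives domination of
the vectors (`norm_apply_le_of_le`), so `(cut Λ)(D) (U_t ξ - ξ) = 0` for all `Λ`; conclude with `window`. -/

set_option autoImplicit false
open Crest.OpAlg
open scoped InnerProductSpace

namespace Crest.Agent.MR

variable {H : Type*} [NormedAddCommGroup H] [InnerProductSpace ℂ H] [CompleteSpace H]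

local notation "BCF" => BoundedContinuousFunction ℝ ℂ

/-- `‖f(D) x‖² = ⟪(f̄ f)(D) x, x⟫`. -/
theorem norm_sq_apply (D : LineCalculus H) (f : BCF) (x : H) :
    ((‖D.apply f x‖ ^ 2 : ℝ) : ℂ) = ⟪x, D.apply (star f * f) x⟫_ℂ := by
  rw [← apply_mul_apply, ← inner_apply_left, inner_self_eq_norm_sq_to_K]
  norm_cast

/-- pointwise domination of functions gives domination of the vectors. -/
theorem norm_apply_le_of_le (D : LineCalculus H) (F G : BCF) (C : ℝ) (hC : 0 ≤ C)
    (h : ∀ u, ‖F u‖ ≤ C * ‖G u‖) (x : H) : ‖D.apply F x‖ ≤ C * ‖D.apply G x‖ := by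
  -- the square root of the difference
  let k : BCF := BoundedContinuousFunction.ofNormedAddCommGroup
    (fun u : ℝ => ((Real.sqrt (C ^ 2 * ‖G u‖ ^ 2 - ‖F u‖ ^ 2) : ℝ) : ℂ))
    (by
      apply Complex.continuous_ofReal.comp
      apply Real.continuous_sqrt.comp
      have h1 : Continuous fun u => ‖G u‖ := G.continuous.norm
      have h2 : Continuous fun u => ‖F u‖ := F.continuous.norm
      fun_prop)
    (C * ‖G‖)
    (fun u => by
      rw [Complex.norm_real, Real.norm_eq_abs, abs_of_nonneg (Real.sqrt_nonneg _)]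
      rw [Real.sqrt_le_left (by positivity)]
      have h1 : ‖G u‖ ≤ ‖G‖ := G.norm_coe_le_norm u
      have h2 : C ^ 2 * ‖G u‖ ^ 2 ≤ (C * ‖G‖) ^ 2 := by
        rw [mul_pow]; gcongr
      nlinarith [sq_nonneg ‖F u‖])
  have hk : star k * k = (((C ^ 2 : ℝ) : ℂ)) • (star G * G) - star F * F := by
    ext u
    have h0 : 0 ≤ C ^ 2 * ‖G u‖ ^ 2 - ‖F u‖ ^ 2 := by
      have := h u
      have h2 : ‖F u‖ ^ 2 ≤ (C * ‖G u‖) ^ 2 := by gcongr
      rw [mul_pow] at h2
      linarith
    have h1 : (star k * k) u = ((C ^ 2 * ‖G u‖ ^ 2 - ‖F u‖ ^ 2 : ℝ) : ℂ) := by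
      show (starRingEnd ℂ) (((Real.sqrt (C ^ 2 * ‖G u‖ ^ 2 - ‖F u‖ ^ 2) : ℝ) : ℂ))
        * (((Real.sqrt (C ^ 2 * ‖G u‖ ^ 2 - ‖F u‖ ^ 2) : ℝ) : ℂ)) = _
      rw [Complex.conj_ofReal, ← Complex.ofReal_mul, Real.mul_self_sqrt h0]
    rw [h1]
    show _ = ((C ^ 2 : ℝ) : ℂ) * ((starRingEnd ℂ) (G u) * G u) - (starRingEnd ℂ) (F u) * F u
    rw [Complex.conj_mul', Complex.conj_mul']
    push_cast
    ring
  have h1 := norm_sq_apply D k x
  rw [hk, map_sub, map_smul] at h1
  simp only [sub_apply, smul_apply, inner_sub_right,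
    inner_smul_right] at h1
  rw [← norm_sq_apply, ← norm_sq_apply] at h1
  have h2 : ‖D.apply k x‖ ^ 2 = C ^ 2 * ‖D.apply G x‖ ^ 2 - ‖D.apply F x‖ ^ 2 := by
    exact_mod_cast h1
  have h3 : ‖D.apply F x‖ ^ 2 ≤ (C * ‖D.apply G x‖) ^ 2 := by
    rw [mul_pow]
    nlinarith [sq_nonneg ‖D.apply k x‖]
  exact (abs_le_of_sq_le_sq' h3 (by positivity)).2

/-- a conjugate-linear isometric equivalence conjugates inner products. -/
theorem inner_J_J (J : H ≃ₗᵢ⋆[ℂ] H) (x y : H) : ⟪J x, J y⟫_ℂ = ⟪y, x⟫_ℂ := by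
  have hI : J (Complex.I • y) = -(Complex.I • J y) := by
    rw [J.map_smulₛₗ]; simp
  rw [inner_eq_sum_norm_sq_div_four (J x) (J y), inner_eq_sum_norm_sq_div_four y x]
  have h1 : ‖J x + J y‖ = ‖y + x‖ := by rw [← map_add, J.norm_map, add_comm]
  have h2 : ‖J x - J y‖ = ‖y - x‖ := by rw [← map_sub, J.norm_map, norm_sub_rev]
  have h3 : ‖J x - (Complex.I : ℂ) • J y‖ = ‖y - (Complex.I : ℂ) • x‖ := by
    have : J x - (Complex.I : ℂ) • J y = J (x + Complex.I • y) := by
      rw [map_add, hI]; abel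
    rw [this, J.norm_map]
    have h4 : y - (Complex.I : ℂ) • x = (-Complex.I) • (x + Complex.I • y) := by
      rw [smul_add, smul_smul]; simp; abel
    rw [h4, norm_smul]; simp
  have h5 : ‖J x + (Complex.I : ℂ) • J y‖ = ‖y + (Complex.I : ℂ) • x‖ := by
    have : J x + (Complex.I : ℂ) • J y = J (x - Complex.I • y) := by
      rw [map_sub, hI]; abel
    rw [this, J.norm_map]
    have h4 : y + (Complex.I : ℂ) • x = (Complex.I) • (x - Complex.I • y) := by
      rw [smul_sub, smul_smul]; simp; abel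
    rw [h4, norm_smul]; simp
  simp only [RCLike.I_to_complex] at *
  rw [h1, h2, h3, h5]

/-- (1) the closed linear relation satisfied by the graph. -/
theorem inner_vac_of_halfExp (S : ModularDatum H) (p q : H) (h : S.D.HalfExp p (S.J q)) :
    ⟪S.vac, q⟫_ℂ = ⟪p, S.vac⟫_ℂ := by
  have hmem : ((p, q) : H × H) ∈ {r : H × H | S.D.HalfExp r.1 (S.J r.2)} := h
  rw [← S.tomita] at hmem
  have hclosed : IsClosed {r : H × H | ⟪S.vac, r.2⟫_ℂ = ⟪r.1, S.vac⟫_ℂ} := by
    apply isClosed_eq
    · exact continuous_const.inner continuous_snd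
    · exact continuous_fst.inner continuous_const
  have hsub : (Set.range fun a : S.M => ((a : H →L[ℂ] H) S.vac, star (a : H →L[ℂ] H) S.vac)) ⊆
      {r : H × H | ⟪S.vac, r.2⟫_ℂ = ⟪r.1, S.vac⟫_ℂ} := by
    rintro _ ⟨a, rfl⟩
    show ⟪S.vac, star (a : H →L[ℂ] H) S.vac⟫_ℂ = ⟪(a : H →L[ℂ] H) S.vac, S.vac⟫_ℂ
    rw [ContinuousLinearMap.star_eq_adjoint, ContinuousLinearMap.adjoint_inner_right]
  exact closure_minimal hsub hclosed hmem

theorem star_expClamp (R : ℝ) : star (expClamp R) = expClamp R := by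
  ext u
  show (starRingEnd ℂ) (expClamp R u) = expClamp R u
  rw [expClamp_apply, Complex.conj_ofReal]

/-- (2) -/
theorem apply_clamp_J_vac (S : ModularDatum H) (g : BCF) (R : ℝ) (hg : ∀ u, g u ≠ 0 → |u| ≤ R) :
    S.D.apply (g * expClamp R) (S.J S.vac) = S.D.apply g S.vac := by
  apply ext_inner_left ℂ
  intro w
  set f : BCF := star g with hf
  have hfz : ∀ u, f u ≠ 0 → |u| ≤ R := by
    intro u hu
    apply hg
    intro h0
    apply hu
    show (starRingEnd ℂ) (g u) = 0
    rw [h0, map_zero]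
  have hH : S.D.HalfExp (S.D.apply f w) (S.J (S.J (S.D.apply (f * expClamp R) w))) := by
    rw [S.J_J]
    intro F G hFG
    rw [apply_mul_apply, apply_mul_apply]
    congr 2
    ext u
    by_cases hu : f u = 0
    · simp [hu]
    · have : u ≤ R := le_trans (le_abs_self u) (hfz u hu)
      simp only [BoundedContinuousFunction.coe_mul, Pi.mul_apply, hFG u, expClamp_of_le this]
      ring
  have h1 := inner_vac_of_halfExp S _ _ hH
  have h2 : ⟪S.vac, S.J (S.D.apply (f * expClamp R) w)⟫_ℂ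
      = ⟪S.D.apply (f * expClamp R) w, S.J S.vac⟫_ℂ := by
    conv_lhs => rw [← S.J_J S.vac]
    exact inner_J_J S.J _ _
  rw [h2, inner_apply_left, inner_apply_left] at h1
  have h3 : star (f * expClamp R) = g * expClamp R := by
    rw [star_mul, star_expClamp, hf, star_star, mul_comm]
  rw [h3, hf, star_star] at h1
  exact h1

/-- (3) -/
theorem apply_clamp_sq_vac (S : ModularDatum H) (g : BCF) (R : ℝ) (hg : ∀ u, g u ≠ 0 → |u| ≤ R) :
    S.D.apply (g * expClamp R * expClamp R) S.vac = S.D.apply g S.vac := by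
  have hH := halfExp_of_mem S 1 (one_mem _)
  simp only [star_one, ContinuousLinearMap.one_apply] at hH
  rw [← apply_clamp_J_vac S g R hg]
  symm
  apply hH
  intro u
  by_cases hu : g u = 0
  · simp [hu]
  · have : u ≤ R := le_trans (le_abs_self u) (hg u hu)
    simp only [BoundedContinuousFunction.coe_mul, Pi.mul_apply, expClamp_of_le this]

theorem abs_le_exp_mul_abs_exp_sub_one {R u : ℝ} (hu : |u| ≤ R) :
    |u| ≤ Real.exp R * |Real.exp u - 1| := by
  have hR : 0 ≤ R := le_trans (abs_nonneg _) hu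
  have h1 : (1 : ℝ) ≤ Real.exp R := Real.one_le_exp hR
  rcases le_total 0 u with h | h
  · have h2 : u ≤ Real.exp u - 1 := by linarith [Real.add_one_le_exp u]
    rw [abs_of_nonneg h, abs_of_nonneg (le_trans h h2)]
    nlinarith
  · have h2 : Real.exp u ≤ 1 := Real.exp_le_one_iff.mpr h
    rw [abs_of_nonpos h, abs_of_nonpos (by linarith)]
    have h3 : -u + 1 ≤ Real.exp (-u) := Real.add_one_le_exp (-u)
    have h4 : Real.exp (-u) ≤ Real.exp R := Real.exp_le_exp.mpr (by
      have := neg_abs_le u; linarith [abs_of_nonpos h])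
    have h5 : Real.exp (-u) * Real.exp u = 1 := by rw [← Real.exp_add]; simp
    have h6 : 0 < Real.exp u := Real.exp_pos u
    -- exp R * (1 - exp u) ≥ exp(-u) (1 - exp u) = exp(-u) - 1 ≥ -u
    nlinarith

theorem wave_vac (S : ModularDatum H) (t : ℝ) : S.D.wave t S.vac = S.vac := by
  set z := S.D.wave t S.vac - S.vac with hz
  have hcut : ∀ Λ : ℝ, S.D.apply (Lib_helper8_LineCalc.cut Λ) z = 0 := by
    intro Λ
    set c := Lib_helper8_LineCalc.cut Λ with hc
    set R := Λ + 1 with hR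
    have hcR : ∀ u, c u ≠ 0 → |u| ≤ R := by
      intro u hu
      by_contra hcon
      exact hu (Lib_helper8_LineCalc.cut_eq_zero (not_le.mp hcon).le)
    have hG : S.D.apply (c * (expClamp R * expClamp R - 1)) S.vac = 0 := by
      have := apply_clamp_sq_vac S c R hcR
      rw [mul_sub, mul_one, map_sub, sub_apply, ← mul_assoc, this, sub_self]
    have hdom := norm_apply_le_of_le S.D (c * (LineCalculus.character t - 1))
      (c * (expClamp R * expClamp R - 1)) (|t| * Real.exp R) (by positivity) (by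
        intro u
        by_cases hu : c u = 0
        · simp [hu]
        · have huR := hcR u hu
          have hle : u ≤ R := le_trans (le_abs_self u) huR
          simp only [BoundedContinuousFunction.coe_mul, BoundedContinuousFunction.coe_sub,
            BoundedContinuousFunction.coe_one, Pi.mul_apply, Pi.sub_apply, Pi.one_apply,
            expClamp_of_le hle, norm_mul]
          have h1 : ‖LineCalculus.character t u - 1‖ ≤ |t| * |u| := by
            have := Lib_helper8_LineCalc.norm_character_sub_le 0 t u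
            rw [Lib_helper8_LineCalc.character_zero] at this
            simpa using this
          have h2 : ‖((Real.exp (u / 2) : ℝ) : ℂ) * ((Real.exp (u / 2) : ℝ) : ℂ) - 1‖
              = |Real.exp u - 1| := by
            rw [← Complex.ofReal_mul, ← Real.exp_add, add_halves, ← Complex.ofReal_one,
              ← Complex.ofReal_sub, Complex.norm_real, Real.norm_eq_abs]
          rw [h2]
          have h3 := abs_le_exp_mul_abs_exp_sub_one huR
          calc ‖c u‖ * ‖LineCalculus.character t u - 1‖ ≤ ‖c u‖ * (|t| * |u|) := by gcongr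
            _ ≤ ‖c u‖ * (|t| * (Real.exp R * |Real.exp u - 1|)) := by gcongr
            _ = |t| * Real.exp R * (‖c u‖ * |Real.exp u - 1|) := by ring) S.vac
    rw [hG, norm_zero, mul_zero] at hdom
    have h0 : S.D.apply (c * (LineCalculus.character t - 1)) S.vac = 0 :=
      norm_le_zero_iff.mp hdom
    rw [← apply_mul_apply, map_sub, map_one, sub_apply, ContinuousLinearMap.one_apply] at h0
    exact h0
  have hz0 : z = 0 := by
    rw [← norm_le_zero_iff]
    apply le_of_forall_pos_le_add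
    intro ε hε
    obtain ⟨f, hfc, hfx⟩ := S.D.window z ε hε
    obtain ⟨R, _, hfR⟩ := Lib_helper8_LineCalc.exists_radius hfc
    have hmul : f * Lib_helper8_LineCalc.cut R = f := by
      ext u
      by_cases hu : f u = 0
      · simp [hu]
      · simp [Lib_helper8_LineCalc.cut_eq_one (hfR u hu)]
    have h1 : S.D.apply f z = 0 := by
      rw [← hmul, ← apply_mul_apply, hcut R, map_zero]
    rw [h1, zero_sub, norm_neg] at hfx
    linarith
  exact sub_eq_zero.mp hz0

theorem flow_vac (S : ModularDatum H) (t : ℝ) (a : H →L[ℂ] H) :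
    S.flow t a S.vac = S.D.wave t (a S.vac) := by
  show (S.D.wave t * a * S.D.wave (-t)) S.vac = _
  rw [ContinuousLinearMap.mul_apply, ContinuousLinearMap.mul_apply, wave_vac]

end Crest.Agent.MR
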