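import Mathlib
import Crest.Agent.Lib_helper8_LineCalc

/-! Fourier smoothing `a ↦ ∫ g(t) σ_t(a) dt` for modular data (used for S0112, package E). -/

set_option autoImplicit false
open MeasureTheory Real FourierTransform
open scoped SchwartzMap ContDiff
open Crest.OpAlg Crest.OpAlg.LineCalculus Crest.Agent.Lib_helper8_LineCalc

namespace Crest.Agent.Lib_helper8_Smooth


theorem exists_kernel : ∃ (κ : ℝ → ℂ) (F : ℝ → ℝ), Integrable κ ∧ (∀ u, 0 ≤ F u ∧ F u ≤ 1) ∧
    (∀ u, |u| ≤ 1 → F u = 1) ∧ (∀ u, 2 ≤ |u| → F u = 0) ∧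
    ∀ u, ∫ t, κ t * Complex.exp (Complex.I * ((2 * π * t * u : ℝ) : ℂ)) = (F u : ℂ) := by
  let B : ContDiffBump (0 : ℝ) := ⟨1, 2, one_pos, one_lt_two⟩
  have hBs : ContDiff ℝ ∞ (fun u : ℝ => ((B u : ℝ) : ℂ)) :=
    Complex.ofRealCLM.contDiff.comp B.contDiff
  have hBc : HasCompactSupport (fun u : ℝ => ((B u : ℝ) : ℂ)) := by
    have := B.hasCompactSupport
    exact this.comp_left (g := fun x : ℝ => (x : ℂ)) (by simp)
  let Fs : 𝓢(ℝ, ℂ) := hBc.toSchwartzMap hBs
  refine ⟨((𝓕 Fs : 𝓢(ℝ, ℂ)) : ℝ → ℂ), B, (𝓕 Fs).integrable, fun u => ⟨B.nonneg, B.le_one⟩,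
    fun u hu => ?_, fun u hu => ?_,
    fun u => ?_⟩
  · refine B.one_of_mem_closedBall ?_
    simpa [mem_closedBall_zero_iff] using hu
  · refine B.zero_of_le_dist ?_
    simpa [dist_zero_right] using hu
  · have h1 : 𝓕⁻ (𝓕 (Fs : ℝ → ℂ)) = Fs :=
      Fs.continuous.fourierInv_fourier_eq Fs.integrable (𝓕 Fs).integrable
    have h2 := congrFun h1 u
    rw [Real.fourierInv_eq'] at h2
    have h3 : (Fs : ℝ → ℂ) u = ((B u : ℝ) : ℂ) := rfl
    rw [h3] at h2
    rw [← h2]
    congr 1; ext t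
    rw [smul_eq_mul, mul_comm, SchwartzMap.fourier_coe]
    congr 2
    simp
    ring



/-- rescaled and modulated kernel -/
noncomputable def sker (κ : ℝ → ℂ) (s r : ℝ) (t : ℝ) : ℂ :=
  ((r / (2 * π) : ℝ) : ℂ) * κ (r / (2 * π) * t) * Complex.exp (-(Complex.I * ((t * s : ℝ) : ℂ)))

theorem norm_sker (κ : ℝ → ℂ) (s : ℝ) {r : ℝ} (hr : 0 < r) (t : ℝ) :
    ‖sker κ s r t‖ = r / (2 * π) * ‖κ (r / (2 * π) * t)‖ := by
  have hc : 0 < r / (2 * π) := by positivity
  rw [sker, norm_mul, norm_mul, Complex.norm_real, Real.norm_eq_abs, abs_of_pos hc,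
    Complex.norm_exp]
  simp

theorem integrable_sker {κ : ℝ → ℂ} (hκ : Integrable κ) (s : ℝ) {r : ℝ} (hr : 0 < r) :
    Integrable (sker κ s r) := by
  have hc : 0 < r / (2 * π) := by positivity
  have h1 : Integrable (fun t => κ (r / (2 * π) * t)) := hκ.comp_mul_left' hc.ne'
  refine ((h1.norm.const_mul (r / (2 * π)))).mono' ?_ (Filter.Eventually.of_forall (fun t => ?_))
  · refine (h1.aestronglyMeasurable.const_mul _).mul (Continuous.aestronglyMeasurable ?_)
    fun_prop
  · rw [norm_sker κ s hr]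

theorem integral_norm_sker (κ : ℝ → ℂ) (s : ℝ) {r : ℝ} (hr : 0 < r) :
    ∫ t, ‖sker κ s r t‖ = ∫ t, ‖κ t‖ := by
  have hc : 0 < r / (2 * π) := by positivity
  simp_rw [norm_sker κ s hr]
  rw [integral_const_mul, Measure.integral_comp_mul_left (fun x => ‖κ x‖), abs_of_pos (inv_pos.2 hc),
    smul_eq_mul, ← mul_assoc, mul_inv_cancel₀ hc.ne', one_mul]

theorem integral_sker_character (κ : ℝ → ℂ) (s : ℝ) {r : ℝ} (hr : 0 < r) (u : ℝ) :
    ∫ t, sker κ s r t * character t u
      = ∫ t, κ t * Complex.exp (Complex.I * ((2 * π * t * ((u - s) / r) : ℝ) : ℂ)) := by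
  have hc : 0 < r / (2 * π) := by positivity
  have h := Measure.integral_comp_mul_left
    (fun t => κ t * Complex.exp (Complex.I * ((2 * π * t * ((u - s) / r) : ℝ) : ℂ))) (r / (2 * π))
  rw [abs_of_pos (inv_pos.2 hc)] at h
  have h' : ∫ t, κ t * Complex.exp (Complex.I * ((2 * π * t * ((u - s) / r) : ℝ) : ℂ))
      = (r / (2 * π)) • ∫ t, κ (r / (2 * π) * t) *
        Complex.exp (Complex.I * ((2 * π * (r / (2 * π) * t) * ((u - s) / r) : ℝ) : ℂ)) := by
    rw [h, smul_smul, mul_inv_cancel₀ hc.ne', one_smul]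
  rw [h', ← integral_smul]
  congr 1; ext t
  rw [sker, character_apply, Complex.real_smul, mul_assoc, mul_assoc, ← Complex.exp_add]
  congr 3
  have : 2 * π * (r / (2 * π) * t) * ((u - s) / r) = t * (u - s) := by
    field_simp
  rw [this]
  push_cast
  ring



variable {H : Type*} [NormedAddCommGroup H] [InnerProductSpace ℂ H] [CompleteSpace H]

theorem flow_apply (S : ModularDatum H) (t : ℝ) (a : H →L[ℂ] H) (x : H) :
    S.flow t a x = S.D.wave t (a (S.D.wave (-t) x)) := rfl

theorem continuous_flow_apply (S : ModularDatum H) (a : H →L[ℂ] H) (x : H) :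
    Continuous (fun t : ℝ => S.flow t a x) := by
  simp only [flow_apply]
  exact continuous_wave_apply₂ S.D continuous_id
    (a.continuous.comp ((continuous_wave_apply S.D x).comp continuous_neg))

theorem norm_flow_apply_le (S : ModularDatum H) (t : ℝ) (a : H →L[ℂ] H) (x : H) :
    ‖S.flow t a x‖ ≤ ‖a‖ * ‖x‖ := by
  rw [flow_apply, norm_wave_apply]
  refine (a.le_opNorm _).trans ?_
  rw [norm_wave_apply]

theorem integrable_smul_flow (S : ModularDatum H) {g : ℝ → ℂ} (hg : Integrable g)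
    (a : H →L[ℂ] H) (x : H) : Integrable (fun t => g t • S.flow t a x) := by
  refine (hg.norm.mul_const (‖a‖ * ‖x‖)).mono'
    (hg.aestronglyMeasurable.smul (continuous_flow_apply S a x).aestronglyMeasurable)
    (Filter.Eventually.of_forall (fun t => ?_))
  rw [norm_smul]
  exact mul_le_mul_of_nonneg_left (norm_flow_apply_le S t a x) (norm_nonneg _)

/-- `σ_g(a) = ∫ g(t) σ_t(a) dt` (strong integral). -/
noncomputable def smoothOp (S : ModularDatum H) (g : ℝ → ℂ) (hg : Integrable g)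
    (a : H →L[ℂ] H) : H →L[ℂ] H :=
  LinearMap.mkContinuous
    { toFun := fun x => ∫ t, g t • S.flow t a x
      map_add' := fun x y => by
        rw [← integral_add (integrable_smul_flow S hg a x) (integrable_smul_flow S hg a y)]
        congr 1; ext t
        rw [map_add, smul_add]
      map_smul' := fun c x => by
        rw [RingHom.id_apply, ← integral_smul]
        congr 1; ext t
        rw [map_smul, smul_comm] }
    ((∫ t, ‖g t‖) * ‖a‖)
    (fun x => by
      refine (norm_integral_le_integral_norm _).trans ?_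
      rw [mul_assoc, ← integral_mul_const]
      refine integral_mono (integrable_smul_flow S hg a x).norm (hg.norm.mul_const _) (fun t => ?_)
      simp only [norm_smul]
      exact mul_le_mul_of_nonneg_left (norm_flow_apply_le S t a x) (norm_nonneg _))

theorem smoothOp_apply (S : ModularDatum H) (g : ℝ → ℂ) (hg : Integrable g)
    (a : H →L[ℂ] H) (x : H) : smoothOp S g hg a x = ∫ t, g t • S.flow t a x := rfl

theorem norm_smoothOp_le (S : ModularDatum H) (g : ℝ → ℂ) (hg : Integrable g)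
    (a : H →L[ℂ] H) : ‖smoothOp S g hg a‖ ≤ (∫ t, ‖g t‖) * ‖a‖ :=
  LinearMap.mkContinuous_norm_le _
    (mul_nonneg (integral_nonneg (fun _ => norm_nonneg _)) (norm_nonneg _)) _

theorem smoothOp_mem (S : ModularDatum H) (g : ℝ → ℂ) (hg : Integrable g)
    {a : H →L[ℂ] H} (ha : a ∈ S.M) : smoothOp S g hg a ∈ S.M := by
  rw [← S.M.commutant_commutant, VonNeumannAlgebra.mem_commutant_iff]
  intro c hc
  rw [VonNeumannAlgebra.mem_commutant_iff] at hc
  ext x
  simp only [mul_apply_eq_comp, smoothOp_apply]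
  rw [← ContinuousLinearMap.integral_comp_comm c (integrable_smul_flow S hg a x)]
  congr 1; ext t
  rw [map_smul]
  congr 1
  have h := hc _ (S.flow_mem t a ha)
  have h2 := congrArg (fun A : H →L[ℂ] H => A x) h
  exact h2.symm

end Crest.Agent.Lib_helper8_Smooth
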