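import Crest.Agent.Lib_MR_Calc
import Crest.Agent.Lib_MR_Vac
import Crest.Agent.Lib_helper8_Smooth

/-! # Package E (S0112): Fourier smoothing `a ↦ ∫ κ(t) σ_t(a) dt`

Let `F` be a smooth bump, `F = 1` on `[-1, 1]`, `F = 0` outside `[-2, 2]`, `0 ≤ F ≤ 1`; `κ := 𝓕 F` is Schwartz,
hence integrable, and `F u = ∫ t, κ t exp (2 π i t u)` (Fourier inversion).  `Csm := ∫ ‖κ‖ + 1`.
For `a`, `s`, `r > 0` let `g t = (r / 2π) κ (r t / 2π) exp (- i t s)` and `b x := ∫ t, g t • S.flow t a x`.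
* `b ∈ S.M`: commutes with the commutant, double commutant.
* `∫ t, g t • U_t x = G(D) x`, `G u = F ((u - s) / r)` (`Lib_helper8_LineCalc.integral_smul_wave`).
* `b ξ = G(D) (a ξ)` by `flow_vac`; `G(D) x = x` if `x` is supported in `[s - r, s + r]`; `‖G‖ ≤ 1`. -/

set_option autoImplicit false
open Crest.OpAlg MeasureTheory
open scoped InnerProductSpace

namespace Crest.Agent.MR

open Crest.Agent Crest.Agent.Lib_helper8_Smooth

variable {H : Type*} [NormedAddCommGroup H] [InnerProductSpace ℂ H] [CompleteSpace H]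

/-- The constant does not depend on anything. -/
theorem smoothing : ∃ Csm : ℝ, 0 < Csm ∧ ∀ (S : ModularDatum H) (s r : ℝ), 0 < r →
    ∀ a : H →L[ℂ] H, a ∈ S.M →
    ∃ b : H →L[ℂ] H, b ∈ S.M ∧ ‖b‖ ≤ Csm * ‖a‖ ∧
      S.D.SupportedIn (Set.Icc (s - 2 * r) (s + 2 * r)) (b S.vac) ∧
      ∀ x : H, S.D.SupportedIn (Set.Icc (s - r) (s + r)) x → ‖b S.vac - x‖ ≤ ‖a S.vac - x‖ := by
  obtain ⟨κ, F, hκ, hF01, hF1, hF0, hFT⟩ := exists_kernel
  have hI0 : 0 ≤ ∫ t, ‖κ t‖ := integral_nonneg (fun _ => norm_nonneg _)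
  refine ⟨(∫ t, ‖κ t‖) + 1, by linarith, fun S s r hr a ha => ?_⟩
  have hg : Integrable (sker κ s r) := integrable_sker hκ s hr
  set G := Lib_helper8_LineCalc.ft (sker κ s r) with hG
  have hGu : ∀ u, G u = (F ((u - s) / r) : ℂ) := fun u => by
    rw [hG, Lib_helper8_LineCalc.ft_apply hg, integral_sker_character κ s hr, hFT]
  have hGn : ‖G‖ ≤ 1 := by
    rw [BoundedContinuousFunction.norm_le zero_le_one]
    intro u
    rw [hGu, Complex.norm_real, Real.norm_eq_abs, abs_of_nonneg (hF01 _).1]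
    exact (hF01 _).2
  have hvac : smoothOp S (sker κ s r) hg a S.vac = S.D.apply G (a S.vac) := by
    rw [smoothOp_apply, hG, ← Lib_helper8_LineCalc.integral_smul_wave S.D hg]
    congr 1; ext t
    rw [flow_vac]
  refine ⟨smoothOp S (sker κ s r) hg a, smoothOp_mem S _ hg ha, ?_, ?_, fun x hx => ?_⟩
  · refine (norm_smoothOp_le S _ hg a).trans ?_
    rw [integral_norm_sker κ s hr]
    exact mul_le_mul_of_nonneg_right (by linarith) (norm_nonneg _)
  · rw [hvac]
    refine supportedIn_apply S.D _ G (fun u hu => ?_) _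
    rw [hGu, hF0, Complex.ofReal_zero]
    rw [abs_div, abs_of_pos hr, le_div_iff₀ hr]
    by_contra hcon
    push Not at hcon
    exact hu ⟨by linarith [(abs_lt.1 hcon).1], by linarith [(abs_lt.1 hcon).2]⟩
  · have hx1 : S.D.apply G x = x := by
      refine Lib_helper8_LineCalc.supportedIn_apply_eq_self hx (fun u hu => ?_)
      rw [hGu, hF1, Complex.ofReal_one]
      rw [abs_div, abs_of_pos hr, div_le_one hr, abs_le]
      exact ⟨by linarith [hu.1], by linarith [hu.2]⟩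
    rw [hvac]
    nth_rewrite 1 [← hx1]
    rw [← map_sub]
    refine ((S.D.apply G).le_opNorm _).trans ?_
    calc ‖S.D.apply G‖ * ‖a S.vac - x‖ ≤ 1 * ‖a S.vac - x‖ :=
          mul_le_mul_of_nonneg_right ((norm_apply_le S.D G).trans hGn) (norm_nonneg _)
      _ = _ := one_mul _

end Crest.Agent.MR
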