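import Crest.Agent.Lib_MR_Defs

/-! # Package G (S0112): truncation `v = y (1 + ε y⋆y)⁻¹`

`w = y⋆ y ≥ 0`, `1 + ε w` is invertible in `B(H)`, its inverse commutes with the commutant of `M`, hence lies in `M`.
For `u = (1 + ε w)⁻¹ x`: `‖x‖² = ‖u‖² + 2 ε ⟪w u, u⟫ + ε² ‖w u‖² ≥ 4 ε ⟪w u, u⟫ = 4 ε ‖y u‖²`   (*).
So `‖v x‖ = ‖y u‖ ≤ ‖x‖ / (2 √ε)`.  And `y ξ - v ξ = ε y (1 + ε w)⁻¹ (w ξ)`, so by (*) with `x = w ξ`:
`‖y ξ - v ξ‖ ≤ ε ‖w ξ‖ / (2 √ε) = (√ε / 2) ‖w ξ‖`. -/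

set_option autoImplicit false
open Crest.OpAlg
open scoped InnerProductSpace

namespace Crest.Agent.MR

variable {H : Type*} [NormedAddCommGroup H] [InnerProductSpace ℂ H] [CompleteSpace H]

theorem trunc_inner_self (u : H) : ⟪u, u⟫_ℂ = ((‖u‖ ^ 2 : ℝ) : ℂ) := by
  rw [inner_self_eq_norm_sq_to_K]
  norm_cast

theorem trunc_inner_w (y : H →L[ℂ] H) (u : H) :
    ⟪(star y * y) u, u⟫_ℂ = ((‖y u‖ ^ 2 : ℝ) : ℂ) := by
  rw [ContinuousLinearMap.mul_apply, ContinuousLinearMap.star_eq_adjoint,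
    ContinuousLinearMap.adjoint_inner_left, trunc_inner_self]

/-- the key inequality (*) -/
theorem trunc_key (y : H →L[ℂ] H) (ε : ℝ) (hε : 0 < ε) (u : H) :
    4 * ε * ‖y u‖ ^ 2 ≤ ‖u + (ε : ℂ) • (star y * y) u‖ ^ 2 := by
  set w := (star y * y) u with hw
  have h1 : ‖u + (ε : ℂ) • w‖ ^ 2 = ‖u‖ ^ 2 + 2 * (ε * ‖y u‖ ^ 2) + ε ^ 2 * ‖w‖ ^ 2 := by
    rw [@norm_add_sq ℂ, norm_smul, inner_smul_right]
    have h2 : ⟪u, w⟫_ℂ = ((‖y u‖ ^ 2 : ℝ) : ℂ) := by
      rw [← inner_conj_symm, hw, trunc_inner_w, Complex.conj_ofReal]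
    rw [h2]
    have h3 : RCLike.re ((ε : ℂ) * ((‖y u‖ ^ 2 : ℝ) : ℂ)) = ε * ‖y u‖ ^ 2 := by
      rw [← Complex.ofReal_mul]
      exact Complex.ofReal_re _
    rw [h3, Complex.norm_real, Real.norm_of_nonneg hε.le]
    ring
  have h4 : ‖y u‖ ^ 2 ≤ ‖w‖ * ‖u‖ := by
    have h5 := norm_inner_le_norm (𝕜 := ℂ) w u
    rw [hw, trunc_inner_w, Complex.norm_real, Real.norm_of_nonneg (by positivity)] at h5
    exact h5
  rw [h1]
  nlinarith [sq_nonneg (‖u‖ - ε * ‖w‖), norm_nonneg u, norm_nonneg w]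

theorem trunc_isUnit (y : H →L[ℂ] H) (ε : ℝ) (hε : 0 < ε) :
    IsUnit ((1 : H →L[ℂ] H) + (ε : ℂ) • (star y * y)) := by
  refine ContinuousLinearMap.isUnit_of_forall_le_norm_inner_map _ (c := 1) one_pos fun x => ?_
  have h1 : ⟪((1 : H →L[ℂ] H) + (ε : ℂ) • (star y * y)) x, x⟫_ℂ =
      ((‖x‖ ^ 2 + ε * ‖y x‖ ^ 2 : ℝ) : ℂ) := by
    rw [ContinuousLinearMap.add_apply, ContinuousLinearMap.one_apply,
      ContinuousLinearMap.smul_apply, inner_add_left, inner_smul_left, trunc_inner_w,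
      trunc_inner_self, Complex.conj_ofReal]
    push_cast
    ring
  rw [h1, Complex.norm_real, Real.norm_of_nonneg (by positivity)]
  have : 0 ≤ ε * ‖y x‖ ^ 2 := by positivity
  simp only [NNReal.coe_one, mul_one]
  linarith

theorem truncation (S : ModularDatum H) (y : H →L[ℂ] H) (hy : y ∈ S.M) (ε : ℝ) (hε : 0 < ε) :
    ∃ v : H →L[ℂ] H, v ∈ S.M ∧ ‖v‖ ≤ 1 / (2 * Real.sqrt ε) ∧
      ‖v S.vac - y S.vac‖ ≤ Real.sqrt ε / 2 * ‖(star y * y) S.vac‖ := by
  set a : H →L[ℂ] H := (1 : H →L[ℂ] H) + (ε : ℂ) • (star y * y) with ha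
  obtain ⟨un, hun⟩ := trunc_isUnit y ε hε
  set b : H →L[ℂ] H := ((un⁻¹ : (H →L[ℂ] H)ˣ) : H →L[ℂ] H) with hb
  have hab : a * b = 1 := by rw [ha, ← hun, hb]; exact un.mul_inv
  have hba : b * a = 1 := by rw [ha, ← hun, hb]; exact un.inv_mul
  have haM : a ∈ S.M :=
    add_mem (one_mem _) (S.M.toStarSubalgebra.smul_mem (mul_mem (star_mem hy) hy) _)
  have hbM : b ∈ S.M := by
    rw [← S.M.commutant_commutant, VonNeumannAlgebra.mem_commutant_iff]
    intro g hg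
    rw [VonNeumannAlgebra.mem_commutant_iff] at hg
    have h1 : a * g = g * a := hg a haM
    calc g * b = (b * a) * (g * b) := by rw [hba, one_mul]
      _ = b * (a * g) * b := by simp only [mul_assoc]
      _ = b * (g * a) * b := by rw [h1]
      _ = b * g * (a * b) := by simp only [mul_assoc]
      _ = b * g := by rw [hab, mul_one]
  have hsq : 0 < Real.sqrt ε := Real.sqrt_pos.mpr hε
  have hss : Real.sqrt ε * Real.sqrt ε = ε := Real.mul_self_sqrt hε.le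
  have hbound : ∀ x : H, ‖(y * b) x‖ ≤ 1 / (2 * Real.sqrt ε) * ‖x‖ := by
    intro x
    have h1 := trunc_key y ε hε (b x)
    have h2 : b x + (ε : ℂ) • (star y * y) (b x) = x := by
      have : (a * b) x = x := by rw [hab]; rfl
      rw [ContinuousLinearMap.mul_apply, ha, ContinuousLinearMap.add_apply,
        ContinuousLinearMap.one_apply, ContinuousLinearMap.smul_apply] at this
      exact this
    rw [h2] at h1
    rw [ContinuousLinearMap.mul_apply]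
    have h3 : (2 * Real.sqrt ε * ‖y (b x)‖) ^ 2 ≤ ‖x‖ ^ 2 := by
      calc (2 * Real.sqrt ε * ‖y (b x)‖) ^ 2 = 4 * (Real.sqrt ε * Real.sqrt ε) * ‖y (b x)‖ ^ 2 := by ring
        _ = 4 * ε * ‖y (b x)‖ ^ 2 := by rw [hss]
        _ ≤ ‖x‖ ^ 2 := h1
    have h4 : 2 * Real.sqrt ε * ‖y (b x)‖ ≤ ‖x‖ :=
      le_of_sq_le_sq h3 (norm_nonneg x) |> fun h => h
    rw [div_mul_eq_mul_div, one_mul, le_div_iff₀ (by positivity)]
    linarith
  refine ⟨y * b, mul_mem hy hbM, ContinuousLinearMap.opNorm_le_bound _ (by positivity) hbound, ?_⟩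
  have h5 : (y * b) S.vac - y S.vac = -((ε : ℂ) • (y * b) ((star y * y) S.vac)) := by
    have h6 : b S.vac + (ε : ℂ) • b ((star y * y) S.vac) = S.vac := by
      have : (b * a) S.vac = S.vac := by rw [hba]; rfl
      rw [ContinuousLinearMap.mul_apply, ha, ContinuousLinearMap.add_apply,
        ContinuousLinearMap.one_apply, ContinuousLinearMap.smul_apply, map_add, map_smul] at this
      exact this
    have h7 : y S.vac = y (b S.vac) + (ε : ℂ) • y (b ((star y * y) S.vac)) := by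
      conv_lhs => rw [← h6]
      rw [map_add, map_smul]
    rw [ContinuousLinearMap.mul_apply, ContinuousLinearMap.mul_apply y b, h7]
    abel
  rw [h5, norm_neg, norm_smul, Complex.norm_real, Real.norm_of_nonneg hε.le]
  have h8 := hbound ((star y * y) S.vac)
  calc ε * ‖(y * b) ((star y * y) S.vac)‖
      ≤ ε * (1 / (2 * Real.sqrt ε) * ‖(star y * y) S.vac‖) := mul_le_mul_of_nonneg_left h8 hε.le
    _ = Real.sqrt ε / 2 * ‖(star y * y) S.vac‖ := by
        have : ε * (1 / (2 * Real.sqrt ε)) = Real.sqrt ε / 2 := by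
          rw [mul_one_div, div_eq_div_iff (by positivity) (by positivity)]
          nlinarith
        rw [← mul_assoc, this]

end Crest.Agent.MR
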