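import Crest.Agent.Lib_MR_Iter
import Crest.Agent.Lib_MR_Smooth
import Crest.Agent.Lib_MR_Trunc

/-! # Package J (S0112): the statement for a single `n`, with uniform constants -/

set_option autoImplicit false
open Crest.OpAlg
open scoped InnerProductSpace

namespace Crest.Agent.MR

variable {H : Type*} [NormedAddCommGroup H] [InnerProductSpace ℂ H] [CompleteSpace H]

theorem norm_T_wave_le (S : ModularDatum H) (T : H →L[ℂ] H) (x : H) (t : ℝ) :
    ‖T (S.D.wave t x)‖ ≤ ‖T‖ * ‖x‖ := by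
  have := T.le_opNorm (S.D.wave t x)
  rwa [norm_wave_apply] at this

theorem bc_normsq (S : ModularDatum H) (T : H →L[ℂ] H) (x : H) :
    BC (fun τ : ℝ => ‖T (S.D.wave τ x)‖ ^ 2) := by
  refine ⟨?_, (‖T‖ * ‖x‖) ^ 2, fun t => ?_⟩
  · exact ((T.continuous.comp (continuous_wave_apply S.D x)).norm).pow 2
  · rw [abs_of_nonneg (by positivity)]
    exact pow_le_pow_left₀ (norm_nonneg _) (norm_T_wave_le S T x t) 2

theorem N2_le (S : ModularDatum H) (ω : Ultrafilter ℕ) (hω : (ω : Filter ℕ) ≤ Filter.atTop)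
    (T : H →L[ℂ] H) (x : H) : N2 S ω T x ≤ ‖T‖ ^ 2 * ‖x‖ ^ 2 := by
  have h := um_mono ω (bc_normsq S T x) (BC.const ((‖T‖ * ‖x‖) ^ 2))
    (fun t => pow_le_pow_left₀ (norm_nonneg _) (norm_T_wave_le S T x t) 2)
  rw [um_const ω hω] at h
  unfold N2
  calc _ ≤ (‖T‖ * ‖x‖) ^ 2 := h
    _ = _ := by ring

/-- perturbation of the vector -/
theorem N2_perturb (S : ModularDatum H) (ω : Ultrafilter ℕ) (hω : (ω : Filter ℕ) ≤ Filter.atTop)
    (T : H →L[ℂ] H) (x h : H) (e : ℝ) (hh : ‖h‖ = 1) (hxe : ‖x - h‖ ≤ e) :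
    N2 S ω T h - 3 * ‖T‖ ^ 2 * e ≤ N2 S ω T x := by
  have he0 : 0 ≤ e := (norm_nonneg _).trans hxe
  have key : ∀ t : ℝ, ‖T (S.D.wave t h)‖ ^ 2 + (-(3 * ‖T‖ ^ 2 * e)) ≤ ‖T (S.D.wave t x)‖ ^ 2 := by
    intro t
    set A := ‖T (S.D.wave t h)‖ with hA
    set B := ‖T (S.D.wave t x)‖ with hB
    have hA1 : A ≤ ‖T‖ := by
      have := norm_T_wave_le S T h t
      rwa [hh, mul_one] at this
    have hAB : A - B ≤ ‖T‖ * e := by
      have h1 : A - B ≤ ‖T (S.D.wave t h) - T (S.D.wave t x)‖ := norm_sub_norm_le _ _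
      have h2 : T (S.D.wave t h) - T (S.D.wave t x) = T (S.D.wave t (h - x)) := by
        simp [map_sub]
      rw [h2] at h1
      have h3 := norm_T_wave_le S T (h - x) t
      rw [norm_sub_rev] at h3
      exact h1.trans (h3.trans (mul_le_mul_of_nonneg_left hxe (norm_nonneg _)))
    have hA0 : 0 ≤ A := norm_nonneg _
    have hB0 : 0 ≤ B := norm_nonneg _
    have hT0 : 0 ≤ ‖T‖ := norm_nonneg _
    by_cases hBA : A ≤ B
    · have : A ^ 2 ≤ B ^ 2 := pow_le_pow_left₀ hA0 hBA 2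
      have : 0 ≤ 3 * ‖T‖ ^ 2 * e := by positivity
      linarith
    · have hBA' : B ≤ A := (not_le.1 hBA).le
      have h4 : A ^ 2 - B ^ 2 = (A - B) * (A + B) := by ring
      have h5 : (A - B) * (A + B) ≤ (‖T‖ * e) * (2 * ‖T‖) :=
        mul_le_mul hAB (by linarith) (by linarith) (by positivity)
      have h6 : 0 ≤ ‖T‖ ^ 2 * e := by positivity
      nlinarith
  have hm := um_mono ω ((bc_normsq S T h).add (BC.const (-(3 * ‖T‖ ^ 2 * e)))) (bc_normsq S T x) key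
  rw [um_add ω (bc_normsq S T h) (BC.const _), um_const ω hω] at hm
  unfold N2
  linarith

theorem Pf_le_sqrt_Qf (S : ModularDatum H) (y : H →L[ℂ] H) :
    Pf S y ≤ ‖(star y * y) S.vac‖ := by
  unfold Pf
  have h1 : ⟪S.vac, (star y * y) S.vac⟫_ℂ = ⟪y S.vac, y S.vac⟫_ℂ := by
    have e : (star y * y) S.vac = (star y) (y S.vac) := rfl
    rw [e, ContinuousLinearMap.star_eq_adjoint, ContinuousLinearMap.adjoint_inner_right]
  have h2 : ‖⟪S.vac, (star y * y) S.vac⟫_ℂ‖ ≤ ‖S.vac‖ * ‖(star y * y) S.vac‖ := norm_inner_le_norm _ _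
  rw [h1, S.norm_vac, one_mul, inner_self_eq_norm_sq_to_K] at h2
  simpa using h2

set_option maxHeartbeats 1000000 in
theorem core (S : ModularDatum H) (herg : S.Ergodic) (ω : Ultrafilter ℕ)
    (hω : (ω : Filter ℕ) ≤ Filter.atTop) (T : H →L[ℂ] H) (s c : ℝ) (hc : 0 < c) :
    ∃ C η : ℝ, 0 < η ∧ ∀ δ : ℝ, 0 < δ → δ ≤ 1 → ∀ h : H, ‖h‖ = 1 →
      S.D.SupportedIn (Set.Icc (s - δ) (s + δ)) h →
      c ≤ ultraMean ω (fun t : ℝ => ‖T (S.D.wave t h)‖ ^ 2) →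
      ∃ v : H →L[ℂ] H, v ∈ S.M ∧ ‖v‖ ≤ C ∧ η ≤ ‖T (v S.vac)‖ ∧
        S.D.SupportedIn (Set.Icc (s - 4 * δ) (s + 4 * δ)) (v S.vac) := by
  obtain ⟨Csm, hCsm, hsm⟩ := smoothing (H := H)
  set τ := ‖T‖ with hτ
  have hτ0 : 0 ≤ τ := norm_nonneg _
  set E0 := Real.exp (s + 2) with hE0
  have hE0pos : 0 < E0 := Real.exp_pos _
  set K1 := 8 * (1 + 2 * E0) + 1 with hK1
  have hK1pos : 0 < K1 := by positivity
  set lam := c / (4 * K1) with hlam
  have hlampos : 0 < lam := by positivity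
  set g := Real.sqrt (c / 8) with hg
  have hgpos : 0 < g := Real.sqrt_pos.2 (by positivity)
  have hg2 : g ^ 2 = c / 8 := Real.sq_sqrt (by positivity)
  set r2 := g * lam / (τ ^ 3 + 1) with hr2
  have hr2pos : 0 < r2 := by positivity
  refine ⟨Csm * (1 / (2 * r2)), g / 2, by positivity, ?_⟩
  intro δ hδ hδ1 h hh hsupp hmean
  -- step a: approximate `h` by `a ξ`
  set e1 := min (2 / 5) (c / (6 * (τ ^ 2 + 1))) with he1
  have he1pos : 0 < e1 := lt_min (by norm_num) (by positivity)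
  have he1a : e1 ≤ 2 / 5 := min_le_left _ _
  have he1b : 3 * τ ^ 2 * e1 ≤ c / 2 := by
    have h1 : e1 ≤ c / (6 * (τ ^ 2 + 1)) := min_le_right _ _
    have h2 : 3 * τ ^ 2 * e1 ≤ 3 * τ ^ 2 * (c / (6 * (τ ^ 2 + 1))) :=
      mul_le_mul_of_nonneg_left h1 (by positivity)
    have h3 : 3 * τ ^ 2 * (c / (6 * (τ ^ 2 + 1))) = c / 2 * (τ ^ 2 / (τ ^ 2 + 1)) := by
      field_simp; ring
    have h4 : τ ^ 2 / (τ ^ 2 + 1) ≤ 1 := by
      rw [div_le_one (by positivity)]; linarith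
    have h5 : c / 2 * (τ ^ 2 / (τ ^ 2 + 1)) ≤ c / 2 * 1 :=
      mul_le_mul_of_nonneg_left h4 (by positivity)
    linarith
  obtain ⟨_, ⟨a, rfl⟩, ha⟩ := S.cyclic.exists_dist_lt h he1pos
  have ha' : ‖(a : H →L[ℂ] H) S.vac - h‖ ≤ e1 := by
    rw [dist_comm, dist_eq_norm] at ha; exact ha.le
  -- step b: smooth
  obtain ⟨b, hbM, -, hbs, hbx⟩ := hsm S s δ hδ (a : H →L[ℂ] H) a.2
  have hbh : ‖b S.vac - h‖ ≤ e1 := (hbx h hsupp).trans ha'
  have hbnorm : ‖b S.vac‖ ≤ 7 / 5 := by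
    have : ‖b S.vac‖ ≤ ‖b S.vac - h‖ + ‖h‖ := by
      simpa using norm_add_le (b S.vac - h) h
    rw [hh] at this; linarith
  have hPb : Pf S b ^ 2 ≤ 4 := by
    unfold Pf
    have h1 : ‖b S.vac‖ ^ 2 ≤ (7 / 5) ^ 2 := pow_le_pow_left₀ (norm_nonneg _) hbnorm 2
    have h2 : (‖b S.vac‖ ^ 2) ^ 2 ≤ ((7 / 5 : ℝ) ^ 2) ^ 2 := pow_le_pow_left₀ (by positivity) h1 2
    norm_num at h2 ⊢
    linarith
  -- step c
  have hNb : c / 2 ≤ N2 S ω T (b S.vac) := by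
    have h1 := N2_perturb S ω hω T (b S.vac) h e1 hh hbh
    have h2 : c ≤ N2 S ω T h := hmean
    linarith
  -- step d
  obtain ⟨y, hyM, hys, hy⟩ := exists_flat S herg ω hω T (s - 2 * δ) (s + 2 * δ) b hbM hbs lam 1
    hlampos.le one_pos
  have hexp : Real.exp (s + 2 * δ) ≤ E0 := Real.exp_le_exp.2 (by linarith)
  have hbound : lam * (2 * (1 + 2 * Real.exp (s + 2 * δ)) * Pf S b ^ 2 + 1) ≤ c / 4 := by
    have h1 : 2 * (1 + 2 * Real.exp (s + 2 * δ)) * Pf S b ^ 2 + 1 ≤ K1 := by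
      have h2 : 2 * (1 + 2 * Real.exp (s + 2 * δ)) ≤ 2 * (1 + 2 * E0) := by linarith
      have h3 : 2 * (1 + 2 * Real.exp (s + 2 * δ)) * Pf S b ^ 2 ≤ 2 * (1 + 2 * E0) * 4 :=
        mul_le_mul h2 hPb (by positivity) (by positivity)
      rw [hK1]; linarith
    have h4 : lam * (2 * (1 + 2 * Real.exp (s + 2 * δ)) * Pf S b ^ 2 + 1) ≤ lam * K1 :=
      mul_le_mul_of_nonneg_left h1 hlampos.le
    have h5 : lam * K1 = c / 4 := by rw [hlam]; field_simp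
    linarith
  have hy1 : c / 4 ≤ N2 S ω T (y S.vac) - lam * Qf S y := by linarith
  -- step e
  set q := ‖(star y * y) S.vac‖ with hq
  have hq0 : 0 ≤ q := norm_nonneg _
  have hQ : Qf S y = q ^ 2 := rfl
  have hNy : N2 S ω T (y S.vac) ≤ τ ^ 2 * q := by
    have h1 := N2_le S ω hω T (y S.vac)
    have h2 : ‖y S.vac‖ ^ 2 ≤ q := Pf_le_sqrt_Qf S y
    exact h1.trans (mul_le_mul_of_nonneg_left h2 (by positivity))
  have hqle : lam * q ≤ τ ^ 2 := by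
    by_contra hcon
    have hcon' : τ ^ 2 < lam * q := not_le.1 hcon
    have : τ ^ 2 * q ≤ lam * q * q := mul_le_mul_of_nonneg_right hcon'.le hq0
    rw [hQ] at hy1
    nlinarith
  have hNy' : c / 4 ≤ N2 S ω T (y S.vac) := by
    have : 0 ≤ lam * Qf S y := by rw [hQ]; positivity
    linarith
  -- step f
  obtain ⟨v', hv'M, hv'n, hv'e⟩ := truncation S y hyM (r2 ^ 2) (by positivity)
  rw [Real.sqrt_sq hr2pos.le] at hv'n hv'e
  -- step g
  obtain ⟨v, hvM, hvn, hvs, hvx⟩ := hsm S s (2 * δ) (by positivity) v' hv'M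
  have hvy : ‖v S.vac - y S.vac‖ ≤ r2 / 2 * q := (hvx (y S.vac) hys).trans hv'e
  -- step h
  obtain ⟨t, ht⟩ := um_exists_ge ω hω (bc_normsq S T (y S.vac)) (c / 8) (by positivity)
  have ht' : g ^ 2 ≤ ‖T (S.D.wave t (y S.vac))‖ ^ 2 := by
    have : N2 S ω T (y S.vac) - c / 8 ≤ ‖T (S.D.wave t (y S.vac))‖ ^ 2 := ht
    rw [hg2]; linarith
  have ht'' : g ≤ ‖T (S.D.wave t (y S.vac))‖ := by
    exact (pow_le_pow_iff_left₀ hgpos.le (norm_nonneg _) (by norm_num)).1 ht'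
  refine ⟨S.flow t v, S.flow_mem t v hvM, ?_, ?_, ?_⟩
  · have h1 : ‖S.flow t v‖ ≤ ‖v‖ := by
      unfold ModularDatum.flow
      calc ‖S.D.wave t * v * S.D.wave (-t)‖ ≤ ‖S.D.wave t * v‖ * ‖S.D.wave (-t)‖ := norm_mul_le _ _
        _ ≤ (‖S.D.wave t‖ * ‖v‖) * ‖S.D.wave (-t)‖ :=
            mul_le_mul_of_nonneg_right (norm_mul_le _ _) (norm_nonneg _)
        _ ≤ (1 * ‖v‖) * 1 := by
            apply mul_le_mul _ (norm_wave_le _ _) (norm_nonneg _) (by positivity)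
            exact mul_le_mul_of_nonneg_right (norm_wave_le _ _) (norm_nonneg _)
        _ = ‖v‖ := by ring
    exact h1.trans (hvn.trans (mul_le_mul_of_nonneg_left hv'n hCsm.le))
  · rw [flow_vac]
    have h1 : ‖T (S.D.wave t (y S.vac))‖ - ‖T (S.D.wave t (v S.vac))‖
        ≤ ‖T (S.D.wave t (y S.vac)) - T (S.D.wave t (v S.vac))‖ := norm_sub_norm_le _ _
    have h2 : T (S.D.wave t (y S.vac)) - T (S.D.wave t (v S.vac))
        = T (S.D.wave t (y S.vac - v S.vac)) := by simp [map_sub]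
    rw [h2] at h1
    have h3 := norm_T_wave_le S T (y S.vac - v S.vac) t
    rw [norm_sub_rev] at h3
    have h4 : τ * ‖v S.vac - y S.vac‖ ≤ g / 2 := by
      have h5 : τ * ‖v S.vac - y S.vac‖ ≤ τ * (r2 / 2 * q) := mul_le_mul_of_nonneg_left hvy hτ0
      have h6 : τ * (r2 / 2 * q) = g / 2 * (τ * (lam * q) / (τ ^ 3 + 1)) := by
        rw [hr2]; field_simp
      have h7 : τ * (lam * q) / (τ ^ 3 + 1) ≤ 1 := by
        rw [div_le_one (by positivity)]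
        have h9 : τ * (lam * q) ≤ τ * τ ^ 2 := mul_le_mul_of_nonneg_left hqle hτ0
        have h10 : τ * τ ^ 2 = τ ^ 3 := by ring
        linarith
      have h8 : g / 2 * (τ * (lam * q) / (τ ^ 3 + 1)) ≤ g / 2 * 1 :=
        mul_le_mul_of_nonneg_left h7 (by positivity)
      linarith
    linarith
  · rw [flow_vac]
    have : (Set.Icc (s - 2 * (2 * δ)) (s + 2 * (2 * δ))) = Set.Icc (s - 4 * δ) (s + 4 * δ) := by
      congr 1 <;> ring
    rw [this] at hvs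
    exact SupportedIn.wave t hvs

end Crest.Agent.MR
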