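import Mathlib
import Crest.Prelude.Def_ModularData

/-! # Bounded recovery (S0112): shared definitions

`U_t = S.D.wave t`, `σ_t(a) = S.flow t a = U_t a U_{-t}`, `ξ = S.vac`, `m = ultraMean ω`. -/

set_option autoImplicit false
open Crest.OpAlg
open scoped InnerProductSpace

namespace Crest.Agent.MR

variable {H : Type*} [NormedAddCommGroup H] [InnerProductSpace ℂ H] [CompleteSpace H]

/-- bounded continuous real functions on the line: the class on which the mean is used -/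
def BC (f : ℝ → ℝ) : Prop := Continuous f ∧ ∃ C : ℝ, ∀ t, |f t| ≤ C

/-- `N(x)² = m_τ ‖T U_τ x‖²` -/
noncomputable def N2 (S : ModularDatum H) (ω : Ultrafilter ℕ) (T : H →L[ℂ] H) (x : H) : ℝ :=
  ultraMean ω (fun τ : ℝ => ‖T (S.D.wave τ x)‖ ^ 2)

/-- `P(y) = ‖y ξ‖² = φ(y* y)` -/
noncomputable def Pf (S : ModularDatum H) (y : H →L[ℂ] H) : ℝ := ‖y S.vac‖ ^ 2

/-- `Q(y) = ‖y* y ξ‖² = φ((y* y)²)` -/
noncomputable def Qf (S : ModularDatum H) (y : H →L[ℂ] H) : ℝ := ‖(star y * y) S.vac‖ ^ 2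

end Crest.Agent.MR
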