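import Crest.Agent.Lib_MR_Defs

/-! # Package C (S0112): `ultraMean ω` is an invariant mean on bounded continuous functions

For `BC f` with `|f| ≤ C` the sequence `windowMean f k` lies in `[-C, C]`, so it converges along the
ultrafilter (`IsCompact.ultrafilter_le_nhds`), and `limUnder` is that limit (`Filter.Tendsto.limUnder_eq`).
`windowMean f k = (2k)⁻¹ ∫ t in (-k)..k, f t` (`MeasureTheory.setAverage_eq`, `Real.volume_Icc`,
`MeasureTheory.integral_Icc_eq_integral_Ioc`, `intervalIntegral.integral_of_le`).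
`hω : ω ≤ atTop` is needed for `um_const` (`k = 0` gives `0`) and for `um_shift`
(`|windowMean f(·+τ) k - windowMean f k| ≤ 2 |τ| C / (2 k) → 0`). -/

set_option autoImplicit false
open Crest.OpAlg

namespace Crest.Agent.MR

theorem BC.const (c : ℝ) : BC (fun _ => c) :=
  ⟨continuous_const, |c|, fun _ => le_rfl⟩

theorem BC.add {f g : ℝ → ℝ} (hf : BC f) (hg : BC g) : BC (fun t => f t + g t) := by
  obtain ⟨hfc, C, hC⟩ := hf
  obtain ⟨hgc, D, hD⟩ := hg
  exact ⟨hfc.add hgc, C + D, fun t => (abs_add_le _ _).trans (add_le_add (hC t) (hD t))⟩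

theorem BC.const_mul {f : ℝ → ℝ} (c : ℝ) (hf : BC f) : BC (fun t => c * f t) := by
  obtain ⟨hfc, C, hC⟩ := hf
  refine ⟨continuous_const.mul hfc, |c| * C, fun t => ?_⟩
  rw [abs_mul]
  exact mul_le_mul_of_nonneg_left (hC t) (abs_nonneg c)

theorem BC.shift {f : ℝ → ℝ} (hf : BC f) (τ : ℝ) : BC (fun t => f (t + τ)) := by
  obtain ⟨hfc, C, hC⟩ := hf
  exact ⟨hfc.comp (continuous_id.add continuous_const), C, fun t => hC _⟩

theorem BC.neg_arg {f : ℝ → ℝ} (hf : BC f) : BC (fun t => f (-t)) := by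
  obtain ⟨hfc, C, hC⟩ := hf
  exact ⟨hfc.comp continuous_neg, C, fun t => hC _⟩

/-- the window mean as an interval integral -/
theorem wm_eq (f : ℝ → ℝ) (k : ℕ) :
    windowMean f k = (2 * (k : ℝ))⁻¹ * ∫ t in (-(k : ℝ))..(k : ℝ), f t := by
  have hk : -(k : ℝ) ≤ (k : ℝ) := by
    have : (0 : ℝ) ≤ (k : ℝ) := Nat.cast_nonneg k
    linarith
  unfold windowMean
  rw [MeasureTheory.setAverage_eq, Real.volume_real_Icc_of_le hk,
    MeasureTheory.integral_Icc_eq_integral_Ioc, ← intervalIntegral.integral_of_le hk, smul_eq_mul]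
  congr 2
  ring

theorem wm_abs_le {f : ℝ → ℝ} {C : ℝ} (hC : ∀ t, |f t| ≤ C) (k : ℕ) : |windowMean f k| ≤ C := by
  have hC0 : 0 ≤ C := (abs_nonneg _).trans (hC 0)
  rw [wm_eq]
  have h1 : ‖∫ t in (-(k : ℝ))..(k : ℝ), f t‖ ≤ C * |(k : ℝ) - (-(k : ℝ))| :=
    intervalIntegral.norm_integral_le_of_norm_le_const (fun t _ => hC t)
  have hk0 : (0 : ℝ) ≤ (k : ℝ) := Nat.cast_nonneg k
  rw [Real.norm_eq_abs, abs_of_nonneg (by linarith : (0 : ℝ) ≤ (k : ℝ) - (-(k : ℝ)))] at h1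
  rw [abs_mul, abs_of_nonneg (by positivity : (0 : ℝ) ≤ (2 * (k : ℝ))⁻¹)]
  rcases hk0.eq_or_lt with h0 | hpos
  · rw [← h0]; simpa using hC0
  · calc (2 * (k : ℝ))⁻¹ * |∫ t in (-(k : ℝ))..(k : ℝ), f t|
        ≤ (2 * (k : ℝ))⁻¹ * (C * ((k : ℝ) - (-(k : ℝ)))) :=
          mul_le_mul_of_nonneg_left h1 (by positivity)
      _ = C := by field_simp; ring

/-- the basic fact -/
theorem um_tendsto (ω : Ultrafilter ℕ) {f : ℝ → ℝ} (hf : BC f) :
    Filter.Tendsto (windowMean f) (ω : Filter ℕ) (nhds (ultraMean ω f)) := by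
  obtain ⟨-, C, hC⟩ := hf
  have hmem : ∀ k, windowMean f k ∈ Set.Icc (-C) C := fun k => abs_le.mp (wm_abs_le hC k)
  have hle : ((ω.map (windowMean f) : Ultrafilter ℝ) : Filter ℝ) ≤ Filter.principal (Set.Icc (-C) C) := by
    rw [Filter.le_principal_iff, Ultrafilter.coe_map, Filter.mem_map]
    exact Filter.univ_mem' hmem
  obtain ⟨x, -, hx⟩ := isCompact_Icc.ultrafilter_le_nhds _ hle
  have ht : Filter.Tendsto (windowMean f) (ω : Filter ℕ) (nhds x) := by
    rw [Filter.Tendsto, ← Ultrafilter.coe_map]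
    exact hx
  have : ultraMean ω f = x := ht.limUnder_eq
  rw [this]
  exact ht

theorem um_eq_of_tendsto (ω : Ultrafilter ℕ) {f : ℝ → ℝ} {x : ℝ}
    (h : Filter.Tendsto (windowMean f) (ω : Filter ℕ) (nhds x)) : ultraMean ω f = x :=
  h.limUnder_eq

theorem um_const (ω : Ultrafilter ℕ) (hω : (ω : Filter ℕ) ≤ Filter.atTop) (c : ℝ) :
    ultraMean ω (fun _ => c) = c := by
  apply um_eq_of_tendsto
  have hev : ∀ᶠ k : ℕ in (ω : Filter ℕ), c = windowMean (fun _ => c) k := by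
    apply hω
    filter_upwards [Filter.eventually_ge_atTop 1] with k hk
    have hk' : (0 : ℝ) < (k : ℝ) := by exact_mod_cast hk
    rw [wm_eq, intervalIntegral.integral_const, smul_eq_mul]
    field_simp
    ring
  exact tendsto_const_nhds.congr' hev

theorem um_add (ω : Ultrafilter ℕ) {f g : ℝ → ℝ} (hf : BC f) (hg : BC g) :
    ultraMean ω (fun t => f t + g t) = ultraMean ω f + ultraMean ω g := by
  apply um_eq_of_tendsto
  have h := (um_tendsto ω hf).add (um_tendsto ω hg)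
  refine h.congr fun k => ?_
  rw [wm_eq, wm_eq, wm_eq, intervalIntegral.integral_add (hf.1.intervalIntegrable _ _)
    (hg.1.intervalIntegrable _ _)]
  ring

theorem um_const_mul (ω : Ultrafilter ℕ) (c : ℝ) {f : ℝ → ℝ} (hf : BC f) :
    ultraMean ω (fun t => c * f t) = c * ultraMean ω f := by
  apply um_eq_of_tendsto
  have h := (um_tendsto ω hf).const_mul c
  refine h.congr fun k => ?_
  rw [wm_eq, wm_eq, intervalIntegral.integral_const_mul]
  ring

theorem um_mono (ω : Ultrafilter ℕ) {f g : ℝ → ℝ} (hf : BC f) (hg : BC g) (h : ∀ t, f t ≤ g t) :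
    ultraMean ω f ≤ ultraMean ω g := by
  refine le_of_tendsto_of_tendsto' (um_tendsto ω hf) (um_tendsto ω hg) fun k => ?_
  rw [wm_eq, wm_eq]
  have hk : -(k : ℝ) ≤ (k : ℝ) := by
    have : (0 : ℝ) ≤ (k : ℝ) := Nat.cast_nonneg k
    linarith
  exact mul_le_mul_of_nonneg_left
    (intervalIntegral.integral_mono_on hk (hf.1.intervalIntegrable _ _)
      (hg.1.intervalIntegrable _ _) (fun t _ => h t)) (by positivity)

theorem um_shift (ω : Ultrafilter ℕ) (hω : (ω : Filter ℕ) ≤ Filter.atTop) {f : ℝ → ℝ} (hf : BC f)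
    (τ : ℝ) : ultraMean ω (fun t => f (t + τ)) = ultraMean ω f := by
  apply um_eq_of_tendsto
  obtain ⟨hfc, C, hC⟩ := hf
  have hbound : ∀ k : ℕ, |windowMean (fun t => f (t + τ)) k - windowMean f k| ≤
      (C * |τ|) * ((k : ℝ))⁻¹ := by
    intro k
    rw [wm_eq, wm_eq, intervalIntegral.integral_comp_add_right, ← mul_sub,
      intervalIntegral.integral_interval_sub_interval_comm (hfc.intervalIntegrable _ _)
        (hfc.intervalIntegrable _ _) (hfc.intervalIntegrable _ _)]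
    have h1 : ‖∫ t in (-(k : ℝ) + τ)..(-(k : ℝ)), f t‖ ≤ C * |(-(k : ℝ)) - (-(k : ℝ) + τ)| :=
      intervalIntegral.norm_integral_le_of_norm_le_const (fun t _ => hC t)
    have h2 : ‖∫ t in ((k : ℝ) + τ)..(k : ℝ), f t‖ ≤ C * |(k : ℝ) - ((k : ℝ) + τ)| :=
      intervalIntegral.norm_integral_le_of_norm_le_const (fun t _ => hC t)
    have e1 : |(-(k : ℝ)) - (-(k : ℝ) + τ)| = |τ| := by
      rw [show (-(k : ℝ)) - (-(k : ℝ) + τ) = -τ by ring, abs_neg]
    have e2 : |(k : ℝ) - ((k : ℝ) + τ)| = |τ| := by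
      rw [show (k : ℝ) - ((k : ℝ) + τ) = -τ by ring, abs_neg]
    rw [e1, Real.norm_eq_abs] at h1
    rw [e2, Real.norm_eq_abs] at h2
    rw [abs_mul, abs_of_nonneg (by positivity : (0 : ℝ) ≤ (2 * (k : ℝ))⁻¹)]
    have h3 := abs_sub (∫ t in (-(k : ℝ) + τ)..(-(k : ℝ)), f t) (∫ t in ((k : ℝ) + τ)..(k : ℝ), f t)
    calc (2 * (k : ℝ))⁻¹ * |(∫ t in (-(k : ℝ) + τ)..(-(k : ℝ)), f t) -
          ∫ t in ((k : ℝ) + τ)..(k : ℝ), f t|
        ≤ (2 * (k : ℝ))⁻¹ * (C * |τ| + C * |τ|) :=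
          mul_le_mul_of_nonneg_left (by linarith) (by positivity)
      _ = (C * |τ|) * ((k : ℝ))⁻¹ := by
          rw [mul_inv]; ring
  have hz : Filter.Tendsto (fun k : ℕ => (C * |τ|) * ((k : ℝ))⁻¹) (ω : Filter ℕ) (nhds 0) := by
    have : Filter.Tendsto (fun k : ℕ => (C * |τ|) * ((k : ℝ))⁻¹) Filter.atTop
        (nhds ((C * |τ|) * 0)) := tendsto_inv_atTop_nhds_zero_nat.const_mul _
    rw [mul_zero] at this
    exact this.mono_left hω
  have hd : Filter.Tendsto (fun k : ℕ => windowMean (fun t => f (t + τ)) k - windowMean f k)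
      (ω : Filter ℕ) (nhds 0) := squeeze_zero_norm (fun k => hbound k) hz
  have := hd.add (um_tendsto ω (⟨hfc, C, hC⟩ : BC f))
  simpa using this

theorem um_neg_arg (ω : Ultrafilter ℕ) {f : ℝ → ℝ} (hf : BC f) :
    ultraMean ω (fun t => f (-t)) = ultraMean ω f := by
  apply um_eq_of_tendsto
  refine (um_tendsto ω hf).congr fun k => ?_
  rw [wm_eq, wm_eq, intervalIntegral.integral_comp_neg, neg_neg]

theorem um_exists_le (ω : Ultrafilter ℕ) (hω : (ω : Filter ℕ) ≤ Filter.atTop) {f : ℝ → ℝ} (hf : BC f)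
    (ε : ℝ) (hε : 0 < ε) : ∃ t, f t ≤ ultraMean ω f + ε := by
  by_contra hcon
  push Not at hcon
  have h := um_mono ω (BC.const (ultraMean ω f + ε)) hf (fun t => (hcon t).le)
  rw [um_const ω hω] at h
  linarith

theorem um_exists_ge (ω : Ultrafilter ℕ) (hω : (ω : Filter ℕ) ≤ Filter.atTop) {f : ℝ → ℝ} (hf : BC f)
    (ε : ℝ) (hε : 0 < ε) : ∃ t, ultraMean ω f - ε ≤ f t := by
  by_contra hcon
  push Not at hcon
  have h := um_mono ω hf (BC.const (ultraMean ω f - ε)) (fun t => (hcon t).le)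
  rw [um_const ω hω] at h
  linarith

end Crest.Agent.MR
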