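import Crest.Agent.Lib_MR_Calc
import Crest.Agent.Lib_MR_Vac
import Crest.Agent.Lib_MR_Mean

/-! # Package D (S0112): ergodicity gives `m_t ⟪w, σ_t(X) x⟫ = φ(X) ⟪w, x⟫`

Proof. Complex mean `mC F = ↑(m (re ∘ F)) + ↑(m (im ∘ F)) * I`, complex linear on bounded continuous `F`.
`B v w := mC (t ↦ ⟪σ_t(X) v, w⟫)` is conjugate linear in `v`, linear in `w`, bounded by `‖X‖ ‖v‖ ‖w‖`
(`LinearMap.mkContinuous₂`), `E := InnerProductSpace.continuousLinearMapOfBilin B`,
`⟪E v, w⟫ = B v w`.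
* `E ∈ S.M`: `E` commutes with every `a'` in the commutant (each `σ_t(X) ∈ S.M` does, `S.flow_mem`), and
  `S.M` is its own double commutant (`VonNeumannAlgebra.commutant_commutant`, `mem_commutant_iff`).
* `S.flow τ E = E` by `um_shift` (`σ_τ σ_t = σ_{τ+t}`).
* `herg` gives `E = c • 1`, and `c = ⟪ξ, E ξ⟫ = φ(X)` because `σ_t(X) ξ = U_t X ξ`, `U_{-t} ξ = ξ`. -/

set_option autoImplicit false
open Crest.OpAlg
open scoped InnerProductSpace

namespace Crest.Agent.MR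

variable {H : Type*} [NormedAddCommGroup H] [InnerProductSpace ℂ H] [CompleteSpace H]

theorem flow_apply (S : ModularDatum H) (t : ℝ) (X : H →L[ℂ] H) (x : H) :
    S.flow t X x = S.D.wave t (X (S.D.wave (-t) x)) := rfl

theorem continuous_flow_apply (S : ModularDatum H) (X : H →L[ℂ] H) (x : H) :
    Continuous fun t : ℝ => S.flow t X x := by
  have h1 : Continuous fun t : ℝ => X (S.D.wave (-t) x) :=
    X.continuous.comp ((continuous_wave_apply S.D x).comp continuous_neg)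
  exact continuous_wave_comp S.D continuous_id h1

theorem norm_flow_apply_le (S : ModularDatum H) (X : H →L[ℂ] H) (t : ℝ) (x : H) :
    ‖S.flow t X x‖ ≤ ‖X‖ * ‖x‖ := by
  rw [flow_apply, norm_wave_apply]
  calc ‖X (S.D.wave (-t) x)‖ ≤ ‖X‖ * ‖S.D.wave (-t) x‖ := X.le_opNorm _
    _ = ‖X‖ * ‖x‖ := by rw [norm_wave_apply]

/-- complex bounded continuous functions -/
def BCc (F : ℝ → ℂ) : Prop := Continuous F ∧ ∃ C : ℝ, ∀ t, ‖F t‖ ≤ C

theorem BCc.re {F : ℝ → ℂ} (h : BCc F) : BC (fun t => (F t).re) := by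
  obtain ⟨hc, C, hC⟩ := h
  exact ⟨Complex.continuous_re.comp hc, C, fun t => (Complex.abs_re_le_norm _).trans (hC t)⟩

theorem BCc.im {F : ℝ → ℂ} (h : BCc F) : BC (fun t => (F t).im) := by
  obtain ⟨hc, C, hC⟩ := h
  exact ⟨Complex.continuous_im.comp hc, C, fun t => (Complex.abs_im_le_norm _).trans (hC t)⟩

theorem bcc_inner_flow (S : ModularDatum H) (X : H →L[ℂ] H) (v w : H) :
    BCc (fun t : ℝ => ⟪S.flow t X v, w⟫_ℂ) := by
  refine ⟨(continuous_flow_apply S X v).inner continuous_const, ‖X‖ * ‖v‖ * ‖w‖, fun t => ?_⟩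
  calc ‖⟪S.flow t X v, w⟫_ℂ‖ ≤ ‖S.flow t X v‖ * ‖w‖ := norm_inner_le_norm _ _
    _ ≤ ‖X‖ * ‖v‖ * ‖w‖ := by gcongr; exact norm_flow_apply_le S X t v

theorem bc_re_inner_flow (S : ModularDatum H) (X : H →L[ℂ] H) (w x : H) :
    BC (fun t : ℝ => (⟪w, S.flow t X x⟫_ℂ).re) := by
  have h := (bcc_inner_flow S X x w).re
  have e : (fun t : ℝ => (⟪w, S.flow t X x⟫_ℂ).re) = fun t : ℝ => (⟪S.flow t X x, w⟫_ℂ).re := by
    funext t
    rw [← inner_conj_symm, Complex.conj_re]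
  rw [e]; exact h

/-- the complex mean -/
noncomputable def mC (ω : Ultrafilter ℕ) (F : ℝ → ℂ) : ℂ :=
  ⟨ultraMean ω (fun t => (F t).re), ultraMean ω (fun t => (F t).im)⟩

theorem um_lin (ω : Ultrafilter ℕ) (a b : ℝ) {f g : ℝ → ℝ} (hf : BC f) (hg : BC g) :
    ultraMean ω (fun t => a * f t + b * g t) = a * ultraMean ω f + b * ultraMean ω g := by
  rw [um_add ω (hf.const_mul a) (hg.const_mul b), um_const_mul ω a hf, um_const_mul ω b hg]

theorem mC_add (ω : Ultrafilter ℕ) {F G : ℝ → ℂ} (hF : BCc F) (hG : BCc G) :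
    mC ω (fun t => F t + G t) = mC ω F + mC ω G := by
  apply Complex.ext
  · simp only [mC, Complex.add_re]
    exact um_add ω hF.re hG.re
  · simp only [mC, Complex.add_im]
    exact um_add ω hF.im hG.im

theorem mC_const_mul (ω : Ultrafilter ℕ) (c : ℂ) {F : ℝ → ℂ} (hF : BCc F) :
    mC ω (fun t => c * F t) = c * mC ω F := by
  apply Complex.ext
  · simp only [mC, Complex.mul_re]
    have := um_lin ω c.re (-c.im) hF.re hF.im
    simp only [neg_mul, ← sub_eq_add_neg] at this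
    exact this
  · simp only [mC, Complex.mul_im]
    have := um_lin ω c.re c.im hF.im hF.re
    exact this

theorem mC_const (ω : Ultrafilter ℕ) (hω : (ω : Filter ℕ) ≤ Filter.atTop) (c : ℂ) :
    mC ω (fun _ => c) = c := by
  apply Complex.ext
  · simp only [mC]; exact um_const ω hω c.re
  · simp only [mC]; exact um_const ω hω c.im

theorem mC_shift (ω : Ultrafilter ℕ) (hω : (ω : Filter ℕ) ≤ Filter.atTop) {F : ℝ → ℂ} (hF : BCc F)
    (τ : ℝ) : mC ω (fun t => F (t + τ)) = mC ω F := by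
  apply Complex.ext
  · simp only [mC]; exact um_shift ω hω hF.re τ
  · simp only [mC]; exact um_shift ω hω hF.im τ

theorem abs_um_le (ω : Ultrafilter ℕ) (hω : (ω : Filter ℕ) ≤ Filter.atTop) {f : ℝ → ℝ} (hf : BC f)
    {C : ℝ} (hC : ∀ t, |f t| ≤ C) : |ultraMean ω f| ≤ C := by
  rw [abs_le]
  constructor
  · have := um_mono ω (BC.const (-C)) hf (fun t => (abs_le.1 (hC t)).1)
    rwa [um_const ω hω] at this
  · have := um_mono ω hf (BC.const C) (fun t => (abs_le.1 (hC t)).2)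
    rwa [um_const ω hω] at this

theorem norm_mC_le (ω : Ultrafilter ℕ) (hω : (ω : Filter ℕ) ≤ Filter.atTop) {F : ℝ → ℂ} (hF : BCc F)
    {C : ℝ} (hC : ∀ t, ‖F t‖ ≤ C) : ‖mC ω F‖ ≤ 2 * C := by
  have h1 : |ultraMean ω (fun t => (F t).re)| ≤ C :=
    abs_um_le ω hω hF.re (fun t => (Complex.abs_re_le_norm _).trans (hC t))
  have h2 : |ultraMean ω (fun t => (F t).im)| ≤ C :=
    abs_um_le ω hω hF.im (fun t => (Complex.abs_im_le_norm _).trans (hC t))
  calc ‖mC ω F‖ ≤ |(mC ω F).re| + |(mC ω F).im| := Complex.norm_le_abs_re_add_abs_im _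
    _ ≤ C + C := add_le_add h1 h2
    _ = 2 * C := by ring

/-- the sesquilinear form `B v w = mC (t ↦ ⟪σ_t(X) v, w⟫)` -/
noncomputable def ergForm (S : ModularDatum H) (ω : Ultrafilter ℕ)
    (hω : (ω : Filter ℕ) ≤ Filter.atTop) (X : H →L[ℂ] H) : H →L⋆[ℂ] H →L[ℂ] ℂ :=
  LinearMap.mkContinuous₂
    (LinearMap.mk₂'ₛₗ (starRingEnd ℂ) (RingHom.id ℂ)
      (fun v w => mC ω (fun t : ℝ => ⟪S.flow t X v, w⟫_ℂ))
      (fun v₁ v₂ w => by
        simp only [map_add, inner_add_left]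
        exact mC_add ω (bcc_inner_flow S X v₁ w) (bcc_inner_flow S X v₂ w))
      (fun c v w => by
        simp only [map_smul, inner_smul_left, smul_eq_mul]
        exact mC_const_mul ω _ (bcc_inner_flow S X v w))
      (fun v w₁ w₂ => by
        simp only [inner_add_right]
        exact mC_add ω (bcc_inner_flow S X v w₁) (bcc_inner_flow S X v w₂))
      (fun c v w => by
        simp only [inner_smul_right, smul_eq_mul, RingHom.id_apply]
        exact mC_const_mul ω _ (bcc_inner_flow S X v w)))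
    (2 * ‖X‖)
    (fun v w => by
      simp only [LinearMap.mk₂'ₛₗ_apply]
      have := norm_mC_le ω hω (bcc_inner_flow S X v w) (C := ‖X‖ * ‖v‖ * ‖w‖) (fun t => by
        calc ‖⟪S.flow t X v, w⟫_ℂ‖ ≤ ‖S.flow t X v‖ * ‖w‖ := norm_inner_le_norm _ _
          _ ≤ ‖X‖ * ‖v‖ * ‖w‖ := by gcongr; exact norm_flow_apply_le S X t v)
      calc _ ≤ 2 * (‖X‖ * ‖v‖ * ‖w‖) := this
        _ = 2 * ‖X‖ * ‖v‖ * ‖w‖ := by ring)

/-- the mean operator `E = m_t σ_t(X)` -/
noncomputable def ergOp (S : ModularDatum H) (ω : Ultrafilter ℕ)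
    (hω : (ω : Filter ℕ) ≤ Filter.atTop) (X : H →L[ℂ] H) : H →L[ℂ] H :=
  InnerProductSpace.continuousLinearMapOfBilin (ergForm S ω hω X)

theorem inner_ergOp (S : ModularDatum H) (ω : Ultrafilter ℕ)
    (hω : (ω : Filter ℕ) ≤ Filter.atTop) (X : H →L[ℂ] H) (v w : H) :
    ⟪ergOp S ω hω X v, w⟫_ℂ = mC ω (fun t : ℝ => ⟪S.flow t X v, w⟫_ℂ) := by
  rw [ergOp, InnerProductSpace.continuousLinearMapOfBilin_apply]
  rfl

theorem ergOp_mem (S : ModularDatum H) (ω : Ultrafilter ℕ)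
    (hω : (ω : Filter ℕ) ≤ Filter.atTop) (X : H →L[ℂ] H) (hX : X ∈ S.M) :
    ergOp S ω hω X ∈ S.M := by
  rw [← VonNeumannAlgebra.commutant_commutant S.M, VonNeumannAlgebra.mem_commutant_iff]
  intro g hg
  rw [VonNeumannAlgebra.mem_commutant_iff] at hg
  ext v
  refine ext_inner_right ℂ fun w => ?_
  simp only [ContinuousLinearMap.mul_apply]
  rw [← ContinuousLinearMap.adjoint_inner_right g, inner_ergOp, inner_ergOp]
  congr 1
  funext t
  rw [ContinuousLinearMap.adjoint_inner_right]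
  have h := hg (S.flow t X) (S.flow_mem t X hX)
  have h2 := congrArg (fun A : H →L[ℂ] H => A v) h
  simp only [ContinuousLinearMap.mul_apply] at h2
  rw [h2]

theorem flow_flow_apply (S : ModularDatum H) (τ t : ℝ) (X : H →L[ℂ] H) (v : H) :
    S.D.wave τ (S.flow t X (S.D.wave (-τ) v)) = S.flow (t + τ) X v := by
  simp only [flow_apply]
  have e1 : S.D.wave (t + τ) = S.D.wave τ * S.D.wave t := by rw [add_comm, wave_add]
  have e2 : S.D.wave (-(t + τ)) = S.D.wave (-t) * S.D.wave (-τ) := by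
    rw [neg_add, wave_add]
  rw [e1, e2]
  simp only [ContinuousLinearMap.mul_apply]

theorem flow_ergOp (S : ModularDatum H) (ω : Ultrafilter ℕ)
    (hω : (ω : Filter ℕ) ≤ Filter.atTop) (X : H →L[ℂ] H) (τ : ℝ) :
    S.flow τ (ergOp S ω hω X) = ergOp S ω hω X := by
  ext v
  refine ext_inner_right ℂ fun w => ?_
  rw [flow_apply, inner_wave_left, inner_ergOp, inner_ergOp]
  have e : (fun t : ℝ => ⟪S.flow t X (S.D.wave (-τ) v), S.D.wave (-τ) w⟫_ℂ)
      = fun t : ℝ => (fun s : ℝ => ⟪S.flow s X v, w⟫_ℂ) (t + τ) := by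
    funext t
    simp only
    rw [← flow_flow_apply, inner_wave_left]
  rw [e]
  exact mC_shift ω hω (bcc_inner_flow S X v w) τ

theorem erg_mean (S : ModularDatum H) (herg : S.Ergodic) (ω : Ultrafilter ℕ)
    (hω : (ω : Filter ℕ) ≤ Filter.atTop) (X : H →L[ℂ] H) (hX : X ∈ S.M) (w x : H) :
    ultraMean ω (fun t : ℝ => (⟪w, S.flow t X x⟫_ℂ).re)
      = (⟪S.vac, X S.vac⟫_ℂ * ⟪w, x⟫_ℂ).re := by
  obtain ⟨c, hc⟩ := herg (ergOp S ω hω X) (ergOp_mem S ω hω X hX) (flow_ergOp S ω hω X)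
  -- identify c
  have h1 : ⟪ergOp S ω hω X S.vac, S.vac⟫_ℂ = ⟪X S.vac, S.vac⟫_ℂ := by
    rw [inner_ergOp]
    have e : (fun t : ℝ => ⟪S.flow t X S.vac, S.vac⟫_ℂ) = fun _ => ⟪X S.vac, S.vac⟫_ℂ := by
      funext t
      rw [flow_vac, inner_wave_left, wave_vac]
    rw [e, mC_const ω hω]
  have h2 : (starRingEnd ℂ) c = ⟪X S.vac, S.vac⟫_ℂ := by
    rw [← h1, hc]
    simp only [ContinuousLinearMap.smul_apply, ContinuousLinearMap.one_apply, inner_smul_left]
    rw [inner_self_eq_norm_sq_to_K, S.norm_vac]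
    simp
  have h3 : (⟪ergOp S ω hω X x, w⟫_ℂ).re = ultraMean ω (fun t : ℝ => (⟪S.flow t X x, w⟫_ℂ).re) := by
    rw [inner_ergOp]; rfl
  have e : (fun t : ℝ => (⟪w, S.flow t X x⟫_ℂ).re) = fun t : ℝ => (⟪S.flow t X x, w⟫_ℂ).re := by
    funext t
    rw [← inner_conj_symm, Complex.conj_re]
  rw [e, ← h3, hc]
  simp only [ContinuousLinearMap.smul_apply, ContinuousLinearMap.one_apply, inner_smul_left]
  rw [h2, ← inner_conj_symm S.vac, ← inner_conj_symm w x, ← map_mul, Complex.conj_re]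

end Crest.Agent.MR
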