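import Crest.Agent.Lib_MR_Step

/-! # Package I (S0112): iteration of the step

`R` steps with `ρ² = 1/R`, `κ = 2 (1 + 2 e^β) P(b)`, `a_k = (R - k) κ / R`, potential
`Ψ_k = N2(y_k ξ) - lam (Q(y_k) + a_k P(y_k))`, `y_0 = 0`.  `step` with `a' = a_{k+1}` gives
`Ψ_{k+1} ≥ Ψ_k + N2(b ξ)/R - lam (Q(b)/R² + ε' + a_{k+1} P(b)/R)`, so
`Ψ_R ≥ N2(b ξ) - lam (Q(b)/R + R ε' + κ P(b))`.  Take `R ≥ 2 Q(b)/ε`, `ε' = ε/(2R)`. -/

set_option autoImplicit false
open Crest.OpAlg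
open scoped InnerProductSpace

namespace Crest.Agent.MR

variable {H : Type*} [NormedAddCommGroup H] [InnerProductSpace ℂ H] [CompleteSpace H]

theorem exists_flat (S : ModularDatum H) (herg : S.Ergodic) (ω : Ultrafilter ℕ)
    (hω : (ω : Filter ℕ) ≤ Filter.atTop) (T : H →L[ℂ] H) (α β : ℝ)
    (b : H →L[ℂ] H) (hb : b ∈ S.M) (hbs : S.D.SupportedIn (Set.Icc α β) (b S.vac))
    (lam ε : ℝ) (hlam : 0 ≤ lam) (hε : 0 < ε) :
    ∃ y : H →L[ℂ] H, y ∈ S.M ∧ S.D.SupportedIn (Set.Icc α β) (y S.vac) ∧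
      N2 S ω T (b S.vac) - lam * (2 * (1 + 2 * Real.exp β) * Pf S b ^ 2 + ε)
        ≤ N2 S ω T (y S.vac) - lam * Qf S y := by
  set κ := 2 * (1 + 2 * Real.exp β) * Pf S b with hκ
  have hPb : 0 ≤ Pf S b := by unfold Pf; positivity
  have hQb : 0 ≤ Qf S b := by unfold Qf; positivity
  have hκ0 : 0 ≤ κ := by have := Real.exp_pos β; positivity
  set Nb := N2 S ω T (b S.vac) with hNb
  obtain ⟨R, hR⟩ := exists_nat_gt (2 * Qf S b / ε + 1)
  have hRpos : (0 : ℝ) < (R : ℝ) := by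
    have : 0 ≤ 2 * Qf S b / ε := by positivity
    linarith
  have hRQ : Qf S b / (R : ℝ) ≤ ε / 2 := by
    rw [div_le_iff₀ hRpos]
    have h1 : 2 * Qf S b / ε < (R : ℝ) := by linarith
    rw [div_lt_iff₀ hε] at h1
    linarith
  set ρ := (Real.sqrt (R : ℝ))⁻¹ with hρ
  have hρ2 : ρ ^ 2 = 1 / (R : ℝ) := by
    rw [hρ, inv_pow, Real.sq_sqrt hRpos.le, one_div]
  have hρ4 : ρ ^ 4 = 1 / (R : ℝ) ^ 2 := by
    have : ρ ^ 4 = (ρ ^ 2) ^ 2 := by ring
    rw [this, hρ2]; ring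
  set ε' := ε / (2 * (R : ℝ)) with hε'
  have hε'pos : 0 < ε' := by positivity
  have main : ∀ k : ℕ, k ≤ R → ∃ y : H →L[ℂ] H, y ∈ S.M ∧
      S.D.SupportedIn (Set.Icc α β) (y S.vac) ∧
      (k : ℝ) * (Nb / (R : ℝ) - lam * (Qf S b / (R : ℝ) ^ 2 + ε' + κ * Pf S b / (R : ℝ)))
        ≤ N2 S ω T (y S.vac) - lam * (Qf S y + (((R : ℝ) - (k : ℝ)) * κ / (R : ℝ)) * Pf S y) := by
    intro k
    induction k with
    | zero =>
      intro _
      refine ⟨0, S.M.zero_mem, ?_, ?_⟩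
      · simpa using SupportedIn.zero S.D (Set.Icc α β)
      · have h1 : N2 S ω T ((0 : H →L[ℂ] H) S.vac) = 0 := by
          unfold N2
          simpa using um_const ω hω 0
        have h2 : Qf S (0 : H →L[ℂ] H) = 0 := by simp [Qf]
        have h3 : Pf S (0 : H →L[ℂ] H) = 0 := by simp [Pf]
        rw [h1, h2, h3]; simp
    | succ k ih =>
      intro hk
      obtain ⟨y, hyM, hys, hy⟩ := ih (by omega)
      have hkR : ((k : ℝ) + 1) ≤ (R : ℝ) := by exact_mod_cast hk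
      set a' := ((R : ℝ) - ((k : ℝ) + 1)) * κ / (R : ℝ) with ha'
      have ha'0 : 0 ≤ a' := by
        have : 0 ≤ (R : ℝ) - ((k : ℝ) + 1) := by linarith
        positivity
      have ha'κ : a' ≤ κ := by
        rw [ha', div_le_iff₀ hRpos]
        have : (R : ℝ) - ((k : ℝ) + 1) ≤ (R : ℝ) := by
          have : (0 : ℝ) ≤ (k : ℝ) := Nat.cast_nonneg k
          linarith
        nlinarith
      obtain ⟨y', hy'M, hy's, hy'⟩ := step S herg ω hω T α β b hb hbs y hyM hys ρ lam a' ε'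
        hlam ha'0 hε'pos
      refine ⟨y', hy'M, hy's, ?_⟩
      push_cast
      refine le_trans ?_ hy'
      rw [hρ2, hρ4]
      have hPy : 0 ≤ Pf S y := by unfold Pf; positivity
      have e1 : ((R : ℝ) - (k : ℝ)) * κ / (R : ℝ) = 1 / (R : ℝ) * κ + a' := by
        rw [ha']; field_simp; ring
      rw [e1] at hy
      have e2 : a' * (1 / (R : ℝ) * Pf S b) ≤ κ * Pf S b / (R : ℝ) := by
        have : a' * (1 / (R : ℝ) * Pf S b) = a' * (Pf S b / (R : ℝ)) := by ring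
        rw [this, mul_div_assoc]
        exact mul_le_mul_of_nonneg_right ha'κ (by positivity)
      have e3 : lam * (a' * (1 / (R : ℝ) * Pf S b)) ≤ lam * (κ * Pf S b / (R : ℝ)) :=
        mul_le_mul_of_nonneg_left e2 hlam
      have e4 : 1 / (R : ℝ) * Nb = Nb / (R : ℝ) := by ring
      have e5 : 1 / (R : ℝ) ^ 2 * Qf S b = Qf S b / (R : ℝ) ^ 2 := by ring
      rw [e4, e5]
      nlinarith [hy, e3]
  obtain ⟨y, hyM, hys, hy⟩ := main R le_rfl
  refine ⟨y, hyM, hys, ?_⟩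
  have e1 : ((R : ℝ) - (R : ℝ)) * κ / (R : ℝ) * Pf S y = 0 := by simp
  rw [e1, add_zero] at hy
  refine le_trans ?_ hy
  have e2 : (R : ℝ) * (Nb / (R : ℝ) - lam * (Qf S b / (R : ℝ) ^ 2 + ε' + κ * Pf S b / (R : ℝ)))
      = Nb - lam * (Qf S b / (R : ℝ) + ε / 2 + κ * Pf S b) := by
    rw [hε']; field_simp
  rw [e2]
  have e3 : κ * Pf S b = 2 * (1 + 2 * Real.exp β) * Pf S b ^ 2 := by rw [hκ]; ring
  rw [e3]
  have e4 : Qf S b / (R : ℝ) + ε / 2 + 2 * (1 + 2 * Real.exp β) * Pf S b ^ 2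
      ≤ 2 * (1 + 2 * Real.exp β) * Pf S b ^ 2 + ε := by linarith
  have := mul_le_mul_of_nonneg_left e4 hlam
  linarith

end Crest.Agent.MR
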