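import Crest.Agent.Lib_MR_Calc
import Crest.Agent.Lib_MR_Vac
import Crest.Agent.Lib_MR_Mean
import Crest.Agent.Lib_MR_Erg
import Crest.Agent.Lib_MR_Tomita

/-! # Package H (S0112): one step of the sequential random-sign construction

`c_t = ρ σ_t(b)`.  For every `t`, averaging over the sign `σ = ±1` (parallelogram law):
* `avg N2((y + σ c_t) ξ) = N2(y ξ) + ρ² N2(b ξ)`   (pointwise in `τ`, `um_add`, `um_shift`);
* `avg P(y + σ c_t) = P(y) + ρ² P(b)`;
* `avg Q(y + σ c_t) = ‖(y⋆y + c⋆c) ξ‖² + ‖(y⋆c + c⋆y) ξ‖² ≤ Q(y) + ρ⁴ Q(b) + F(t)`,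
  `F(t) = 2 ρ² Re ⟪y⋆y ξ, σ_t(b⋆b) ξ⟫ + 2 ρ² ‖y⋆ U_t b ξ‖² + 2 ρ² ‖b⋆ U_{-t} y ξ‖²`.
By `erg_mean` (and `um_neg_arg`): `m(F) = 2 ρ² (P(b) P(y) + ‖y⋆ξ‖² P(b) + ‖b⋆ξ‖² P(y)) ≤ 2 ρ² (1 + 2 e^β) P(b) P(y)`
(`star_vac_norm_sq_le`).  Choose `t` with `F(t) ≤ m(F) + ε` (`um_exists_le`) and then the better sign. -/

set_option autoImplicit false
open Crest.OpAlg
open scoped InnerProductSpace

namespace Crest.Agent.MR

variable {H : Type*} [NormedAddCommGroup H] [InnerProductSpace ℂ H] [CompleteSpace H]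

/-! ### algebraic preliminaries -/

theorem st_mul_apply (a c : H →L[ℂ] H) (x : H) : (a * c) x = a (c x) := rfl

theorem st_inner_star_left (a : H →L[ℂ] H) (x y : H) : ⟪(star a) x, y⟫_ℂ = ⟪x, a y⟫_ℂ := by
  rw [ContinuousLinearMap.star_eq_adjoint, ContinuousLinearMap.adjoint_inner_left]

theorem st_inner_star_right (a : H →L[ℂ] H) (x y : H) : ⟪x, (star a) y⟫_ℂ = ⟪a x, y⟫_ℂ := by
  rw [ContinuousLinearMap.star_eq_adjoint, ContinuousLinearMap.adjoint_inner_right]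

theorem st_star_flow (S : ModularDatum H) (t : ℝ) (a : H →L[ℂ] H) :
    star (S.flow t a) = S.flow t (star a) := by
  unfold ModularDatum.flow
  rw [star_mul, star_mul, star_wave, star_wave, neg_neg, mul_assoc]

theorem st_flow_apply (S : ModularDatum H) (t : ℝ) (a : H →L[ℂ] H) (x : H) :
    S.flow t a x = S.D.wave t (a (S.D.wave (-t) x)) := rfl

theorem st_re_inner_self (x : H) : (⟪x, x⟫_ℂ).re = ‖x‖ ^ 2 := by
  rw [inner_self_eq_norm_sq_to_K]; norm_cast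

theorem st_inner_self (x : H) : ⟪x, x⟫_ℂ = ((‖x‖ ^ 2 : ℝ) : ℂ) := by
  rw [inner_self_eq_norm_sq_to_K]; norm_cast

theorem st_par (u v : H) : ‖u + v‖ ^ 2 + ‖u - v‖ ^ 2 = 2 * ‖u‖ ^ 2 + 2 * ‖v‖ ^ 2 := by
  have := parallelogram_law_with_norm ℂ u v
  nlinarith [this]

theorem st_norm_add_sq_le (u v : H) : ‖u + v‖ ^ 2 ≤ 2 * ‖u‖ ^ 2 + 2 * ‖v‖ ^ 2 := by
  have := st_par u v
  have h2 : 0 ≤ ‖u - v‖ ^ 2 := by positivity
  linarith

theorem st_bc_normsq (S : ModularDatum H) (T : H →L[ℂ] H) (x : H) :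
    BC (fun τ : ℝ => ‖T (S.D.wave τ x)‖ ^ 2) := by
  refine ⟨?_, (‖T‖ * ‖x‖) ^ 2, fun t => ?_⟩
  · exact ((T.continuous.comp (continuous_wave_apply S.D x)).norm).pow 2
  · rw [abs_of_nonneg (by positivity)]
    have := T.le_opNorm (S.D.wave t x)
    rw [norm_wave_apply] at this
    exact pow_le_pow_left₀ (norm_nonneg _) this 2

/-! ### the three parallelogram identities -/

theorem st_par_N (S : ModularDatum H) (ω : Ultrafilter ℕ) (T : H →L[ℂ] H) (u v : H) :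
    N2 S ω T (u + v) + N2 S ω T (u - v) = 2 * N2 S ω T u + 2 * N2 S ω T v := by
  unfold N2
  rw [← um_add ω (st_bc_normsq S T _) (st_bc_normsq S T _),
    ← um_const_mul ω 2 (st_bc_normsq S T u), ← um_const_mul ω 2 (st_bc_normsq S T v),
    ← um_add ω ((st_bc_normsq S T u).const_mul 2) ((st_bc_normsq S T v).const_mul 2)]
  congr 1
  funext τ
  rw [map_add, map_add, map_sub, map_sub]
  exact st_par _ _

theorem st_N_smul (S : ModularDatum H) (ω : Ultrafilter ℕ) (T : H →L[ℂ] H) (ρ : ℝ) (u : H) :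
    N2 S ω T ((ρ : ℂ) • u) = ρ ^ 2 * N2 S ω T u := by
  unfold N2
  rw [← um_const_mul ω (ρ ^ 2) (st_bc_normsq S T u)]
  congr 1
  funext τ
  rw [map_smul, map_smul, norm_smul, mul_pow]
  simp

theorem st_N_wave (S : ModularDatum H) (ω : Ultrafilter ℕ) (hω : (ω : Filter ℕ) ≤ Filter.atTop)
    (T : H →L[ℂ] H) (t : ℝ) (u : H) : N2 S ω T (S.D.wave t u) = N2 S ω T u := by
  unfold N2
  rw [← um_shift ω hω (st_bc_normsq S T u) t]
  congr 1
  funext τ
  rw [wave_add]; rfl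

theorem st_par_P (S : ModularDatum H) (y c : H →L[ℂ] H) :
    Pf S (y + c) + Pf S (y - c) = 2 * Pf S y + 2 * Pf S c := by
  unfold Pf
  rw [ContinuousLinearMap.add_apply, ContinuousLinearMap.sub_apply]
  exact st_par _ _

theorem st_par_Q (S : ModularDatum H) (y c : H →L[ℂ] H) :
    Qf S (y + c) + Qf S (y - c)
      = 2 * ‖(star y * y) S.vac + (star c * c) S.vac‖ ^ 2
        + 2 * ‖(star y) (c S.vac) + (star c) (y S.vac)‖ ^ 2 := by
  unfold Qf
  have e1 : (star (y + c) * (y + c)) S.vac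
      = ((star y * y) S.vac + (star c * c) S.vac) + ((star y) (c S.vac) + (star c) (y S.vac)) := by
    rw [star_add]
    simp only [st_mul_apply, ContinuousLinearMap.add_apply, map_add]
    abel
  have e2 : (star (y - c) * (y - c)) S.vac
      = ((star y * y) S.vac + (star c * c) S.vac) - ((star y) (c S.vac) + (star c) (y S.vac)) := by
    rw [star_sub]
    simp only [st_mul_apply, ContinuousLinearMap.sub_apply, map_sub]
    abel
  rw [e1, e2]
  exact st_par _ _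

/-! ### the three means -/

theorem st_normsq_eq (S : ModularDatum H) (a : H →L[ℂ] H) (v : H) (t : ℝ) :
    ‖(star a) (S.D.wave (-t) v)‖ ^ 2 = (⟪v, S.flow t (a * star a) v⟫_ℂ).re := by
  rw [st_flow_apply, st_mul_apply, ← st_re_inner_self, st_inner_star_left]
  have := inner_wave_left S.D (-t) v (a ((star a) (S.D.wave (-t) v)))
  rw [neg_neg] at this
  rw [this]

theorem st_bc_gen (S : ModularDatum H) (a : H →L[ℂ] H) (v : H) :
    BC (fun t : ℝ => ‖(star a) (S.D.wave (-t) v)‖ ^ 2) := by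
  simp only [st_normsq_eq]
  exact bc_re_inner_flow S _ v v

theorem st_mean_gen (S : ModularDatum H) (herg : S.Ergodic) (ω : Ultrafilter ℕ)
    (hω : (ω : Filter ℕ) ≤ Filter.atTop) (a : H →L[ℂ] H) (ha : a ∈ S.M) (v : H) :
    ultraMean ω (fun t : ℝ => ‖(star a) (S.D.wave (-t) v)‖ ^ 2)
      = ‖(star a) S.vac‖ ^ 2 * ‖v‖ ^ 2 := by
  simp only [st_normsq_eq]
  rw [erg_mean S herg ω hω (a * star a) (mul_mem ha (star_mem ha)) v v, st_mul_apply,
    ← st_inner_star_left, st_inner_self, st_inner_self]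
  norm_cast

theorem st_bc_gen' (S : ModularDatum H) (a : H →L[ℂ] H) (v : H) :
    BC (fun t : ℝ => ‖(star a) (S.D.wave t v)‖ ^ 2) := by
  have := (st_bc_gen S a v).neg_arg
  simpa only [neg_neg] using this

theorem st_mean_gen' (S : ModularDatum H) (herg : S.Ergodic) (ω : Ultrafilter ℕ)
    (hω : (ω : Filter ℕ) ≤ Filter.atTop) (a : H →L[ℂ] H) (ha : a ∈ S.M) (v : H) :
    ultraMean ω (fun t : ℝ => ‖(star a) (S.D.wave t v)‖ ^ 2)
      = ‖(star a) S.vac‖ ^ 2 * ‖v‖ ^ 2 := by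
  have := um_neg_arg ω (st_bc_gen S a v)
  simp only [neg_neg] at this
  rw [this, st_mean_gen S herg ω hω a ha v]

theorem st_bc_one (S : ModularDatum H) (b : H →L[ℂ] H) (w : H) :
    BC (fun t : ℝ => (⟪w, S.D.wave t ((star b * b) S.vac)⟫_ℂ).re) := by
  simp only [← flow_vac]
  exact bc_re_inner_flow S _ w S.vac

theorem st_mean_one (S : ModularDatum H) (herg : S.Ergodic) (ω : Ultrafilter ℕ)
    (hω : (ω : Filter ℕ) ≤ Filter.atTop) (b y : H →L[ℂ] H) (hb : b ∈ S.M) :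
    ultraMean ω (fun t : ℝ => (⟪(star y * y) S.vac, S.D.wave t ((star b * b) S.vac)⟫_ℂ).re)
      = Pf S b * Pf S y := by
  simp only [← flow_vac]
  rw [erg_mean S herg ω hω (star b * b) (mul_mem (star_mem hb) hb), st_mul_apply, st_mul_apply,
    st_inner_star_right, st_inner_star_left, st_inner_self, st_inner_self]
  unfold Pf
  norm_cast

set_option maxHeartbeats 1000000 in
theorem step (S : ModularDatum H) (herg : S.Ergodic) (ω : Ultrafilter ℕ)
    (hω : (ω : Filter ℕ) ≤ Filter.atTop) (T : H →L[ℂ] H) (α β : ℝ)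
    (b : H →L[ℂ] H) (hb : b ∈ S.M) (hbs : S.D.SupportedIn (Set.Icc α β) (b S.vac))
    (y : H →L[ℂ] H) (hy : y ∈ S.M) (hys : S.D.SupportedIn (Set.Icc α β) (y S.vac))
    (ρ lam a' ε : ℝ) (hlam : 0 ≤ lam) (ha' : 0 ≤ a') (hε : 0 < ε) :
    ∃ y' : H →L[ℂ] H, y' ∈ S.M ∧ S.D.SupportedIn (Set.Icc α β) (y' S.vac) ∧
      N2 S ω T (y S.vac) + ρ ^ 2 * N2 S ω T (b S.vac)
        - lam * (Qf S y + ρ ^ 4 * Qf S b + ρ ^ 2 * (2 * (1 + 2 * Real.exp β) * Pf S b) * Pf S y + ε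
            + a' * (Pf S y + ρ ^ 2 * Pf S b))
      ≤ N2 S ω T (y' S.vac) - lam * (Qf S y' + a' * Pf S y') := by
  set x := b S.vac with hx
  set z := (star b * b) S.vac with hz
  set yv := y S.vac with hyv
  set zy := (star y * y) S.vac with hzy
  -- the function `F`
  set F1 : ℝ → ℝ := fun t => (⟪zy, S.D.wave t z⟫_ℂ).re with hF1
  set F2 : ℝ → ℝ := fun t => ‖(star y) (S.D.wave t x)‖ ^ 2 with hF2
  set F3 : ℝ → ℝ := fun t => ‖(star b) (S.D.wave (-t) yv)‖ ^ 2 with hF3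
  have bc1 : BC F1 := st_bc_one S b zy
  have bc2 : BC F2 := st_bc_gen' S y x
  have bc3 : BC F3 := st_bc_gen S b yv
  have m1 : ultraMean ω F1 = Pf S b * Pf S y := st_mean_one S herg ω hω b y hb
  have m2 : ultraMean ω F2 = ‖(star y) S.vac‖ ^ 2 * Pf S b := st_mean_gen' S herg ω hω y hy x
  have m3 : ultraMean ω F3 = ‖(star b) S.vac‖ ^ 2 * Pf S y := st_mean_gen S herg ω hω b hb yv
  set F : ℝ → ℝ := fun t => (2 * ρ ^ 2) * F1 t + ((2 * ρ ^ 2) * F2 t + (2 * ρ ^ 2) * F3 t) with hF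
  have bcF : BC F := (bc1.const_mul _).add ((bc2.const_mul _).add (bc3.const_mul _))
  have mF : ultraMean ω F = (2 * ρ ^ 2) * (Pf S b * Pf S y)
      + ((2 * ρ ^ 2) * (‖(star y) S.vac‖ ^ 2 * Pf S b)
        + (2 * ρ ^ 2) * (‖(star b) S.vac‖ ^ 2 * Pf S y)) := by
    rw [hF, um_add ω (bc1.const_mul _) ((bc2.const_mul _).add (bc3.const_mul _)),
      um_add ω (bc2.const_mul _) (bc3.const_mul _), um_const_mul ω _ bc1, um_const_mul ω _ bc2,
      um_const_mul ω _ bc3, m1, m2, m3]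
  have hPb : 0 ≤ Pf S b := by unfold Pf; positivity
  have hPy : 0 ≤ Pf S y := by unfold Pf; positivity
  have tb : ‖(star b) S.vac‖ ^ 2 ≤ Real.exp β * Pf S b := star_vac_norm_sq_le S b hb α β hbs
  have ty : ‖(star y) S.vac‖ ^ 2 ≤ Real.exp β * Pf S y := star_vac_norm_sq_le S y hy α β hys
  have mF' : ultraMean ω F ≤ ρ ^ 2 * (2 * (1 + 2 * Real.exp β) * Pf S b) * Pf S y := by
    rw [mF]
    have h1 : ‖(star y) S.vac‖ ^ 2 * Pf S b ≤ Real.exp β * Pf S y * Pf S b :=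
      mul_le_mul_of_nonneg_right ty hPb
    have h2 : ‖(star b) S.vac‖ ^ 2 * Pf S y ≤ Real.exp β * Pf S b * Pf S y :=
      mul_le_mul_of_nonneg_right tb hPy
    have hρ : 0 ≤ 2 * ρ ^ 2 := by positivity
    have h3 := mul_le_mul_of_nonneg_left h1 hρ
    have h4 := mul_le_mul_of_nonneg_left h2 hρ
    nlinarith [h3, h4]
  obtain ⟨t, ht⟩ := um_exists_le ω hω bcF ε hε
  -- the increment
  set c : H →L[ℂ] H := (ρ : ℂ) • S.flow t b with hc
  have hcM : c ∈ S.M := S.M.toStarSubalgebra.smul_mem (S.flow_mem t b hb) _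
  have hcv : c S.vac = (ρ : ℂ) • S.D.wave t x := by
    rw [hc, ContinuousLinearMap.smul_apply, flow_vac]
  have hsc : star c = (ρ : ℂ) • S.flow t (star b) := by
    rw [hc, star_smul, st_star_flow]
    simp
  have hcc : (star c * c) S.vac = ((ρ ^ 2 : ℝ) : ℂ) • S.D.wave t z := by
    rw [st_mul_apply, hcv, hsc, ContinuousLinearMap.smul_apply, map_smul, st_flow_apply,
      wave_neg_wave, smul_smul, hz, st_mul_apply]
    congr 1
    push_cast; ring
  have hyc : (star y) (c S.vac) = (ρ : ℂ) • (star y) (S.D.wave t x) := by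
    rw [hcv, map_smul]
  have hcy : (star c) yv = (ρ : ℂ) • S.D.wave t ((star b) (S.D.wave (-t) yv)) := by
    rw [hsc, ContinuousLinearMap.smul_apply, st_flow_apply]
  have hcs : S.D.SupportedIn (Set.Icc α β) (c S.vac) := by
    rw [hcv]; exact SupportedIn.smul _ (SupportedIn.wave t hbs)
  have hPc : Pf S c = ρ ^ 2 * Pf S b := by
    unfold Pf
    rw [hcv, norm_smul, norm_wave_apply, mul_pow, Complex.norm_real, Real.norm_eq_abs, sq_abs]
  have hNc : N2 S ω T (c S.vac) = ρ ^ 2 * N2 S ω T x := by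
    rw [hcv, st_N_smul, st_N_wave S ω hω]
  -- bound of the `Q` average
  have hA : ‖zy + (star c * c) S.vac‖ ^ 2 = Qf S y + (2 * ρ ^ 2) * F1 t + ρ ^ 4 * Qf S b := by
    rw [hcc, norm_add_sq (𝕜 := ℂ), inner_smul_right, norm_smul, norm_wave_apply, mul_pow]
    have e1 : RCLike.re (((ρ ^ 2 : ℝ) : ℂ) * ⟪zy, S.D.wave t z⟫_ℂ) = ρ ^ 2 * F1 t := by
      show (((ρ ^ 2 : ℝ) : ℂ) * ⟪zy, S.D.wave t z⟫_ℂ).re = ρ ^ 2 * F1 t
      rw [Complex.re_ofReal_mul]
    rw [e1]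
    have e2 : ‖((ρ ^ 2 : ℝ) : ℂ)‖ ^ 2 = ρ ^ 4 := by
      rw [Complex.norm_real, Real.norm_eq_abs, sq_abs]; ring
    rw [e2]
    unfold Qf
    ring
  have hB : ‖(star y) (c S.vac) + (star c) yv‖ ^ 2 ≤ (2 * ρ ^ 2) * F2 t + (2 * ρ ^ 2) * F3 t := by
    refine (st_norm_add_sq_le _ _).trans ?_
    rw [hyc, hcy, norm_smul, norm_smul, norm_wave_apply, mul_pow, mul_pow]
    have e : ‖(ρ : ℂ)‖ ^ 2 = ρ ^ 2 := by
      rw [Complex.norm_real, Real.norm_eq_abs, sq_abs]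
    rw [e]
    simp only [hF2, hF3]
    linarith
  have hQsum : Qf S (y + c) + Qf S (y - c)
      ≤ 2 * (Qf S y + ρ ^ 4 * Qf S b + ρ ^ 2 * (2 * (1 + 2 * Real.exp β) * Pf S b) * Pf S y + ε) := by
    rw [st_par_Q]
    have hFt : F t = (2 * ρ ^ 2) * F1 t + ((2 * ρ ^ 2) * F2 t + (2 * ρ ^ 2) * F3 t) := rfl
    have h1 : ‖(star y * y) S.vac + (star c * c) S.vac‖ ^ 2
        = Qf S y + (2 * ρ ^ 2) * F1 t + ρ ^ 4 * Qf S b := hA
    have h2 : ‖(star y) (c S.vac) + (star c) (y S.vac)‖ ^ 2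
        ≤ (2 * ρ ^ 2) * F2 t + (2 * ρ ^ 2) * F3 t := hB
    rw [h1]
    linarith
  have hPsum := st_par_P S y c
  have hNsum : N2 S ω T ((y + c) S.vac) + N2 S ω T ((y - c) S.vac)
      = 2 * N2 S ω T yv + 2 * (ρ ^ 2 * N2 S ω T x) := by
    rw [ContinuousLinearMap.add_apply, ContinuousLinearMap.sub_apply, st_par_N, hNc]
  -- choose the sign
  set L := N2 S ω T yv + ρ ^ 2 * N2 S ω T x
        - lam * (Qf S y + ρ ^ 4 * Qf S b + ρ ^ 2 * (2 * (1 + 2 * Real.exp β) * Pf S b) * Pf S y + ε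
            + a' * (Pf S y + ρ ^ 2 * Pf S b)) with hL
  have hsum : 2 * L ≤ (N2 S ω T ((y + c) S.vac) - lam * (Qf S (y + c) + a' * Pf S (y + c)))
      + (N2 S ω T ((y - c) S.vac) - lam * (Qf S (y - c) + a' * Pf S (y - c))) := by
    have h1 := mul_le_mul_of_nonneg_left hQsum hlam
    rw [hPc] at hPsum
    have h2 : a' * (Pf S (y + c) + Pf S (y - c)) = a' * (2 * Pf S y + 2 * (ρ ^ 2 * Pf S b)) := by
      rw [hPsum]
    have h3 : lam * (a' * (Pf S (y + c) + Pf S (y - c)))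
        = lam * (a' * (2 * Pf S y + 2 * (ρ ^ 2 * Pf S b))) := by rw [h2]
    rw [hL]
    nlinarith [h1, h3, hNsum]
  by_cases hplus : L ≤ N2 S ω T ((y + c) S.vac) - lam * (Qf S (y + c) + a' * Pf S (y + c))
  · refine ⟨y + c, add_mem hy hcM, ?_, hplus⟩
    rw [ContinuousLinearMap.add_apply]
    exact SupportedIn.add hys hcs
  · refine ⟨y - c, sub_mem hy hcM, ?_, by linarith [not_le.1 hplus]⟩
    rw [ContinuousLinearMap.sub_apply, sub_eq_add_neg, ← neg_one_smul ℂ (c S.vac)]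
    exact SupportedIn.add hys (SupportedIn.smul _ hcs)

end Crest.Agent.MR
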