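import Crest.Agent.Lib_OT_Defs

/-!
# P7 : gradient bound (B)

u = φ₁ - φ₀ - κ.  Fix a unit vector e (the d vectors of the standard orthonormal basis; |v|² = Σ_e <v,e>²), δ = h/r₀ <= 1,
Kδ = image of K under the homothety x ↦ x₀ + (1-δ)(x - x₀).  For x in Kδ: x ± h e in K.
At a good point x, with D(x) = φ₀(x+he) - 2φ₀(x) + φ₀(x-he) >= 0:
  h <T₁x - T₀x, e> <= [u(x+he) - u(x)] + D(x),   h <T₀x - T₁x, e> <= [u(x-he) - u(x)] + D(x).
-/

set_option autoImplicit false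
open MeasureTheory
open scoped ENNReal NNReal

namespace Crest.Agent.OT

variable {d : ℕ}

/-- real arithmetic core of the pointwise estimate -/
private lemma grad_arith {h RY t up u0 um D : ℝ} (hh : 0 < h) (_hRY : 0 ≤ RY)
    (ht : |t| ≤ 2 * RY) (hD : 0 ≤ D)
    (h1 : h * t ≤ (up - u0) + D) (h2 : -(h * t) ≤ (um - u0) + D) :
    t ^ 2 ≤ 4 / h ^ 2 * (up ^ 2 + 2 * u0 ^ 2 + um ^ 2) + 4 * RY / h * D := by
  have hab := abs_le.mp ht
  have key : (h * t) ^ 2 ≤ 4 * (up ^ 2 + 2 * u0 ^ 2 + um ^ 2) + 4 * RY * h * D := by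
    rcases le_total 0 t with h0 | h0
    · have hs0 : 0 ≤ h * t := mul_nonneg hh.le h0
      have hs1 : h * t ≤ 2 * RY * h := by nlinarith [hab.2]
      have e1 : (h * t) * (h * t) ≤ (h * t) * ((up - u0) + D) :=
        mul_le_mul_of_nonneg_left h1 hs0
      have e2 : (h * t) * D ≤ 2 * RY * h * D := mul_le_mul_of_nonneg_right hs1 hD
      nlinarith [sq_nonneg (h * t - (up - u0)), sq_nonneg (up + u0), sq_nonneg um, sq_nonneg u0,
        sq_nonneg up]
    · have hs0 : 0 ≤ -(h * t) := by nlinarith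
      have hs1 : -(h * t) ≤ 2 * RY * h := by nlinarith [hab.1]
      have e1 : (-(h * t)) * (-(h * t)) ≤ (-(h * t)) * ((um - u0) + D) :=
        mul_le_mul_of_nonneg_left h2 hs0
      have e2 : (-(h * t)) * D ≤ 2 * RY * h * D := mul_le_mul_of_nonneg_right hs1 hD
      nlinarith [sq_nonneg (-(h * t) - (um - u0)), sq_nonneg (um + u0), sq_nonneg um, sq_nonneg u0,
        sq_nonneg up]
  have hh2 : 0 < h ^ 2 := by positivity
  have : t ^ 2 = (h * t) ^ 2 / h ^ 2 := by field_simp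
  rw [this, div_le_iff₀ hh2]
  have e3 : (4 / h ^ 2 * (up ^ 2 + 2 * u0 ^ 2 + um ^ 2) + 4 * RY / h * D) * h ^ 2
      = 4 * (up ^ 2 + 2 * u0 ^ 2 + um ^ 2) + 4 * RY * h * D := by
    field_simp
  rw [e3]
  exact key

/-- translation + monotonicity for nonnegative integrands -/
private lemma grad_shift_le {S K : Set (Eu d)} (hK : MeasurableSet K)
    (w : Eu d) (hSK : ∀ x ∈ S, x + w ∈ K) (hS : MeasurableSet S) (F : Eu d → ℝ) (hF : ∀ x ∈ K, 0 ≤ F x)
    (hFi : IntegrableOn F K) :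
    ∫ x in S, F (x + w) ≤ ∫ x in K, F x := by
  have hI : Integrable (K.indicator F) := (integrable_indicator_iff hK).mpr hFi
  have hI' : Integrable (fun x => K.indicator F (x + w)) := hI.comp_add_right w
  have h0 : ∀ x, 0 ≤ K.indicator F x := by
    intro x
    by_cases hx : x ∈ K
    · simpa [Set.indicator_of_mem hx] using hF x hx
    · simp [Set.indicator_of_notMem hx]
  calc ∫ x in S, F (x + w) = ∫ x in S, K.indicator F (x + w) := by
        apply setIntegral_congr_fun hS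
        intro x hx
        simp only [Set.indicator_of_mem (hSK x hx)]
    _ ≤ ∫ x, K.indicator F (x + w) :=
        setIntegral_le_integral hI' (Filter.Eventually.of_forall fun x => h0 _)
    _ = ∫ x, K.indicator F x := integral_add_right_eq_self _ w
    _ = ∫ x in K, F x := integral_indicator hK


private lemma grad_cont {RY : ℝ} (hRY : 0 ≤ RY) (φ : Eu d → ℝ)
    (hφ : ∀ x x', |φ x - φ x'| ≤ RY * ‖x - x'‖) : Continuous φ := by
  have : LipschitzWith ⟨RY, hRY⟩ φ := by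
    apply LipschitzWith.of_dist_le_mul
    intro x y
    rw [Real.dist_eq, dist_eq_norm]
    exact hφ x y
  exact this.continuous

/-- linearity bookkeeping -/
private lemma grad_lin {α : Type*} [MeasurableSpace α] (μ : Measure α) [IsFiniteMeasure μ]
    (f1 f2 f3 f4 f5 : α → ℝ) (h1 : Integrable f1 μ) (h2 : Integrable f2 μ) (h3 : Integrable f3 μ)
    (h4 : Integrable f4 μ) (h5 : Integrable f5 μ) (a b c : ℝ) :
    Integrable (fun x => a * (f1 x + 2 * f2 x + f3 x) + b * (f4 x + f5 x - c)) μ ∧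
    ∫ x, (a * (f1 x + 2 * f2 x + f3 x) + b * (f4 x + f5 x - c)) ∂μ
      = a * ((∫ x, f1 x ∂μ) + 2 * (∫ x, f2 x ∂μ) + ∫ x, f3 x ∂μ)
        + b * ((∫ x, f4 x ∂μ) + (∫ x, f5 x ∂μ) - c * μ.real Set.univ) := by
  have i1 : Integrable (fun x => f1 x + 2 * f2 x + f3 x) μ := (h1.add (h2.const_mul 2)).add h3
  have i2 : Integrable (fun x => f4 x + f5 x - c) μ := (h4.add h5).sub (integrable_const c)
  refine ⟨(i1.const_mul a).add (i2.const_mul b), ?_⟩
  have j1 : Integrable (fun x => f1 x + 2 * f2 x) μ := h1.add (h2.const_mul 2)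
  have j2 : Integrable (fun x => f4 x + f5 x) μ := h4.add h5
  have e1 : ∫ x, (f1 x + 2 * f2 x + f3 x) ∂μ
      = (∫ x, f1 x ∂μ) + 2 * (∫ x, f2 x ∂μ) + ∫ x, f3 x ∂μ := by
    rw [integral_add j1 h3, integral_add h1 (h2.const_mul 2), integral_const_mul]
  have e2 : ∫ x, (f4 x + f5 x - c) ∂μ
      = (∫ x, f4 x ∂μ) + (∫ x, f5 x ∂μ) - c * μ.real Set.univ := by
    rw [integral_sub j2 (integrable_const c), integral_add h4 h5, integral_const]
    simp [mul_comm]
  rw [integral_add (i1.const_mul a) (i2.const_mul b), integral_const_mul, integral_const_mul,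
    e1, e2]

private lemma grad_dir_core {K S : Set (Eu d)} (hKc : IsCompact K) (hS : MeasurableSet S)
    (hSK : S ⊆ K) {RY : ℝ} (hRY : 0 ≤ RY) (φ₀ φ₁ : Eu d → ℝ)
    (hφ₀ : ∀ x x', |φ₀ x - φ₀ x'| ≤ RY * ‖x - x'‖) (hφ₁ : ∀ x x', |φ₁ x - φ₁ x'| ≤ RY * ‖x - x'‖)
    (T₀ T₁ : Eu d → Eu d) (hT₀m : Measurable T₀) (hT₁m : Measurable T₁)
    (hT₀ : ∀ᵐ x ∂(volume.restrict K), ‖T₀ x‖ ≤ RY ∧ ∀ z, φ₀ x + inner ℝ (z - x) (T₀ x) ≤ φ₀ z)
    (hT₁ : ∀ᵐ x ∂(volume.restrict K), ‖T₁ x‖ ≤ RY ∧ ∀ z, φ₁ x + inner ℝ (z - x) (T₁ x) ≤ φ₁ z)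
    (κ : ℝ) {h : ℝ} (hh : 0 < h) (i : Fin d)
    (hp : ∀ x ∈ S, x + h • EuclideanSpace.single i (1 : ℝ) ∈ K)
    (hm : ∀ x ∈ S, x + -(h • EuclideanSpace.single i (1 : ℝ)) ∈ K) :
    IntegrableOn (fun x => (T₁ x i - T₀ x i) ^ 2) K ∧
    ∫ x in K, (T₁ x i - T₀ x i) ^ 2 ≤ 16 / h ^ 2 * (∫ x in K, (φ₁ x - φ₀ x - κ) ^ 2)
       + 12 * RY ^ 2 * ((volume K).toReal - (volume S).toReal) := by
  set w : Eu d := h • EuclideanSpace.single i (1 : ℝ) with hw
  have hwn : ‖w‖ = h := by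
    rw [hw, norm_smul, Real.norm_eq_abs, abs_of_pos hh]
    simp
  have hKm : MeasurableSet K := hKc.measurableSet
  have hKfin : volume K ≠ ∞ := hKc.measure_lt_top.ne
  have hc₀ : Continuous φ₀ := grad_cont hRY φ₀ hφ₀
  have hc₁ : Continuous φ₁ := grad_cont hRY φ₁ hφ₁
  set F : Eu d → ℝ := fun x => (φ₁ x - φ₀ x - κ) ^ 2 with hF
  have hFc : Continuous F := by fun_prop
  set G : Eu d → ℝ := fun x => φ₀ (x + w) - φ₀ x with hG
  have hGc : Continuous G := by fun_prop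
  set c : ℝ := RY * h with hc
  have hGb : ∀ x, |G x| ≤ c := by
    intro x
    have := hφ₀ (x + w) x
    simpa [hG, hwn, hc] using this
  set A2 : Eu d → ℝ := fun x => (T₁ x i - T₀ x i) ^ 2 with hA2
  have hA2m : Measurable A2 := by
    have m1 : Measurable fun x => T₁ x i :=
      (EuclideanSpace.proj i : Eu d →L[ℝ] ℝ).continuous.measurable.comp hT₁m
    have m0 : Measurable fun x => T₀ x i :=
      (EuclideanSpace.proj i : Eu d →L[ℝ] ℝ).continuous.measurable.comp hT₀m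
    exact (m1.sub m0).pow_const 2
  have hcoord : ∀ᵐ x ∂(volume.restrict K), |T₁ x i - T₀ x i| ≤ 2 * RY := by
    filter_upwards [hT₀, hT₁] with x h0 h1
    have e1 : |T₁ x i - T₀ x i| = ‖(T₁ x - T₀ x) i‖ := by simp [Real.norm_eq_abs]
    rw [e1]
    calc ‖(T₁ x - T₀ x) i‖ ≤ ‖T₁ x - T₀ x‖ := PiLp.norm_apply_le _ i
      _ ≤ ‖T₁ x‖ + ‖T₀ x‖ := norm_sub_le _ _
      _ ≤ 2 * RY := by linarith [h0.1, h1.1]
  have hA2b : ∀ᵐ x ∂(volume.restrict K), ‖A2 x‖ ≤ 4 * RY ^ 2 := by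
    filter_upwards [hcoord] with x hx
    have : A2 x = |T₁ x i - T₀ x i| ^ 2 := by simp [hA2]
    rw [Real.norm_eq_abs, abs_of_nonneg (by positivity), this]
    nlinarith [abs_nonneg (T₁ x i - T₀ x i)]
  have hA2i : IntegrableOn A2 K :=
    Measure.integrableOn_of_bounded hKfin hA2m.aestronglyMeasurable hA2b
  refine ⟨hA2i, ?_⟩
  -- split
  have hsplit : ∫ x in K, A2 x = (∫ x in S, A2 x) + ∫ x in K \ S, A2 x := by
    rw [setIntegral_sdiff hS hA2i hSK]; ring
  -- outer part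
  have hout : ∫ x in K \ S, A2 x ≤ 4 * RY ^ 2 * ((volume K).toReal - (volume S).toReal) := by
    have hfin : volume (K \ S) < ∞ := lt_of_le_of_lt (measure_mono Set.sdiff_subset) hKc.measure_lt_top
    have h1 := norm_setIntegral_le_of_norm_le_const_ae (f := A2) hfin
      (ae_restrict_of_ae_restrict_of_subset Set.sdiff_subset hA2b)
    have h2 : volume.real (K \ S) = (volume K).toReal - (volume S).toReal :=
      measureReal_sdiff hSK hS hKfin
    rw [h2] at h1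
    exact (le_abs_self _).trans h1
  -- inner part
  have hin : ∀ v : Eu d, inner ℝ w v = h * v i := by
    intro v
    rw [hw, inner_smul_left, EuclideanSpace.inner_single_left]
    simp
  set f1 : Eu d → ℝ := fun x => F (x + w) with hf1
  set f3 : Eu d → ℝ := fun x => F (x + -w) with hf3
  set f4 : Eu d → ℝ := fun x => G x + c with hf4
  set f5 : Eu d → ℝ := fun x => c - G (x + -w) with hf5
  have ci : ∀ f : Eu d → ℝ, Continuous f → IntegrableOn f K := fun f hf =>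
    hf.continuousOn.integrableOn_compact hKc
  have i1 : IntegrableOn f1 S := (ci f1 (by fun_prop)).mono_set hSK
  have i2 : IntegrableOn F S := (ci F hFc).mono_set hSK
  have i3 : IntegrableOn f3 S := (ci f3 (by fun_prop)).mono_set hSK
  have i4 : IntegrableOn f4 S := (ci f4 (by fun_prop)).mono_set hSK
  have i5 : IntegrableOn f5 S := (ci f5 (by fun_prop)).mono_set hSK
  have : IsFiniteMeasure (volume.restrict S) :=
    ⟨by rw [Measure.restrict_apply_univ]; exact lt_of_le_of_lt (measure_mono hSK) hKc.measure_lt_top⟩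
  obtain ⟨hBi, hBe⟩ := grad_lin (volume.restrict S) f1 F f3 f4 f5 i1 i2 i3 i4 i5
    (4 / h ^ 2) (4 * RY / h) (2 * c)
  have hpt : ∀ᵐ x ∂(volume.restrict S),
      A2 x ≤ 4 / h ^ 2 * (f1 x + 2 * F x + f3 x) + 4 * RY / h * (f4 x + f5 x - 2 * c) := by
    filter_upwards [ae_restrict_of_ae_restrict_of_subset hSK hT₀,
      ae_restrict_of_ae_restrict_of_subset hSK hT₁,
      ae_restrict_of_ae_restrict_of_subset hSK hcoord] with x h0 h1 hx
    have a1 := h1.2 (x + w)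
    have a2 := h0.2 (x + -w)
    have a3 := h0.2 (x + w)
    have a4 := h1.2 (x + -w)
    have s1 : x + w - x = w := by abel
    have s2 : x + -w - x = -w := by abel
    rw [s1, hin] at a1 a3
    rw [s2, inner_neg_left, hin] at a2 a4
    have s3 : x + -w + w = x := by abel
    have hD : f4 x + f5 x - 2 * c = φ₀ (x + w) - 2 * φ₀ x + φ₀ (x + -w) := by
      simp only [hf4, hf5, hG, s3]; ring
    rw [hD]
    have := grad_arith (h := h) (RY := RY) (t := T₁ x i - T₀ x i)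
      (up := φ₁ (x + w) - φ₀ (x + w) - κ) (u0 := φ₁ x - φ₀ x - κ)
      (um := φ₁ (x + -w) - φ₀ (x + -w) - κ) (D := φ₀ (x + w) - 2 * φ₀ x + φ₀ (x + -w))
      hh hRY hx (by linarith) (by linarith) (by linarith)
    exact this
  have hinner : ∫ x in S, A2 x ≤ ∫ x in S,
      (4 / h ^ 2 * (f1 x + 2 * F x + f3 x) + 4 * RY / h * (f4 x + f5 x - 2 * c)) :=
    integral_mono_ae (hA2i.mono_set hSK) hBi hpt
  rw [hBe] at hinner
  have hF0 : ∀ x ∈ K, 0 ≤ F x := fun x _ => sq_nonneg _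
  have J1 : ∫ x in S, f1 x ≤ ∫ x in K, F x := grad_shift_le hKm w hp hS F hF0 (ci F hFc)
  have J3 : ∫ x in S, f3 x ≤ ∫ x in K, F x := grad_shift_le hKm (-w) hm hS F hF0 (ci F hFc)
  have J2 : ∫ x in S, F x ≤ ∫ x in K, F x :=
    setIntegral_mono_set (ci F hFc) (Filter.Eventually.of_forall fun x => sq_nonneg _)
      (Filter.Eventually.of_forall hSK)
  have J4 : ∫ x in S, f4 x ≤ ∫ x in K, f4 x :=
    setIntegral_mono_set (ci f4 (by fun_prop))
      (Filter.Eventually.of_forall fun x => by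
        have := abs_le.mp (hGb x)
        simp only [hf4, Pi.zero_apply]; linarith [this.1])
      (Filter.Eventually.of_forall hSK)
  have J5 : ∫ x in S, f5 x ≤ ∫ x in K, (c - G x) :=
    grad_shift_le hKm (-w) hm hS (fun y => c - G y)
      (fun x _ => by have := abs_le.mp (hGb x); linarith [this.2]) (ci _ (by fun_prop))
  have J6 : (∫ x in K, f4 x) + ∫ x in K, (c - G x) = 2 * c * (volume K).toReal := by
    rw [← integral_add (ci f4 (by fun_prop)) (ci (fun y => c - G y) (by fun_prop))]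
    have : ∀ x, f4 x + (c - G x) = 2 * c := by intro x; simp only [hf4]; ring
    simp only [this]
    rw [setIntegral_const]
    simp [Measure.real, mul_comm]
  have hVS : (volume.restrict S).real Set.univ = (volume S).toReal := by
    simp [Measure.real]
  rw [hVS] at hinner
  have p1 : 0 ≤ 4 / h ^ 2 := by positivity
  have p2 : 0 ≤ 4 * RY / h := by positivity
  have q1 : 4 / h ^ 2 * ((∫ x in S, f1 x) + 2 * (∫ x in S, F x) + ∫ x in S, f3 x)
      ≤ 4 / h ^ 2 * (4 * ∫ x in K, F x) := mul_le_mul_of_nonneg_left (by linarith) p1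
  have q2 : 4 * RY / h * ((∫ x in S, f4 x) + (∫ x in S, f5 x) - 2 * c * (volume S).toReal)
      ≤ 4 * RY / h * (2 * c * (volume K).toReal - 2 * c * (volume S).toReal) :=
    mul_le_mul_of_nonneg_left (by linarith) p2
  have q3 : 4 * RY / h * (2 * c * (volume K).toReal - 2 * c * (volume S).toReal)
      = 8 * RY ^ 2 * ((volume K).toReal - (volume S).toReal) := by
    rw [hc]; field_simp; ring
  have q4 : 4 / h ^ 2 * (4 * ∫ x in K, F x) = 16 / h ^ 2 * ∫ x in K, F x := by ring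
  rw [hsplit]
  linarith


theorem grad_bound {K : Set (Eu d)} (hKc : IsCompact K) (hKv : Convex ℝ K)
    (x₀ : Eu d) {r₀ : ℝ} (hr₀ : 0 < r₀) (hball : Metric.closedBall x₀ r₀ ⊆ K)
    {RY : ℝ} (hRY : 0 ≤ RY) (φ₀ φ₁ : Eu d → ℝ)
    (hφ₀ : ∀ x x', |φ₀ x - φ₀ x'| ≤ RY * ‖x - x'‖) (hφ₁ : ∀ x x', |φ₁ x - φ₁ x'| ≤ RY * ‖x - x'‖)
    (T₀ T₁ : Eu d → Eu d) (hT₀m : Measurable T₀) (hT₁m : Measurable T₁)
    (hT₀ : ∀ᵐ x ∂(volume.restrict K), ‖T₀ x‖ ≤ RY ∧ ∀ z, φ₀ x + inner ℝ (z - x) (T₀ x) ≤ φ₀ z)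
    (hT₁ : ∀ᵐ x ∂(volume.restrict K), ‖T₁ x‖ ≤ RY ∧ ∀ z, φ₁ x + inner ℝ (z - x) (T₁ x) ≤ φ₁ z)
    (κ : ℝ) {h : ℝ} (hh : 0 < h) (hhr : h ≤ r₀) :
    ∫ x in K, ‖T₁ x - T₀ x‖ ^ 2
      ≤ d * (64 * (∫ x in K, (φ₁ x - φ₀ x - κ) ^ 2) / h ^ 2
          + 20 * d * RY ^ 2 * (h / r₀) * (volume K).toReal) := by
  set δ : ℝ := h / r₀ with hδ
  have hδ0 : 0 < δ := div_pos hh hr₀
  have hδ1 : δ ≤ 1 := (div_le_one hr₀).mpr hhr
  have hδr : δ * r₀ = h := by rw [hδ]; field_simp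
  set S : Set (Eu d) := AffineMap.homothety x₀ (1 - δ) '' K with hS
  have hScomp : IsCompact S :=
    hKc.image (AffineMap.homothety x₀ (1 - δ)).continuous_of_finiteDimensional
  have hmem : ∀ x ∈ S, ∀ v : Eu d, ‖v‖ ≤ r₀ → x + δ • v ∈ K := by
    rintro x ⟨k, hk, rfl⟩ v hv
    have hb : x₀ + v ∈ K := hball (by simp [Metric.mem_closedBall, dist_eq_norm, hv])
    have := hKv hk hb (by linarith : 0 ≤ 1 - δ) hδ0.le (by ring)
    convert this using 1
    simp only [AffineMap.homothety_apply, vsub_eq_sub, vadd_eq_add]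
    module
  have hSK : S ⊆ K := by
    intro x hx
    simpa using hmem x hx 0 (by simpa using hr₀.le)
  have hvol : (volume S).toReal = (1 - δ) ^ d * (volume K).toReal := by
    rw [hS, Measure.addHaar_image_homothety, ENNReal.toReal_mul, finrank_euclideanSpace_fin,
      abs_of_nonneg (pow_nonneg (by linarith) d), ENNReal.toReal_ofReal (pow_nonneg (by linarith) d)]
  have hV0 : 0 ≤ (volume K).toReal := ENNReal.toReal_nonneg
  have hbern : 1 + (d : ℝ) * (-δ) ≤ (1 + -δ) ^ d := one_add_mul_le_pow (by linarith) d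
  have hdef : (volume K).toReal - (volume S).toReal ≤ d * δ * (volume K).toReal := by
    rw [hvol]
    have : 1 - (1 - δ) ^ d ≤ d * δ := by
      have e : (1 + -δ) = 1 - δ := by ring
      rw [e] at hbern; linarith
    nlinarith
  set U : ℝ := ∫ x in K, (φ₁ x - φ₀ x - κ) ^ 2 with hU
  have hU0 : 0 ≤ U := integral_nonneg fun x => sq_nonneg _
  have hdir : ∀ i : Fin d, IntegrableOn (fun x => (T₁ x i - T₀ x i) ^ 2) K ∧
      ∫ x in K, (T₁ x i - T₀ x i) ^ 2 ≤ 64 * U / h ^ 2 + 20 * d * RY ^ 2 * δ * (volume K).toReal := by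
    intro i
    have hn : ‖EuclideanSpace.single i (1 : ℝ)‖ = 1 := by simp
    have hp : ∀ x ∈ S, x + h • EuclideanSpace.single i (1 : ℝ) ∈ K := by
      intro x hx
      have := hmem x hx (r₀ • EuclideanSpace.single i (1 : ℝ))
        (by rw [norm_smul, hn, Real.norm_eq_abs, abs_of_pos hr₀, mul_one])
      rwa [smul_smul, hδr] at this
    have hm : ∀ x ∈ S, x + -(h • EuclideanSpace.single i (1 : ℝ)) ∈ K := by
      intro x hx
      have := hmem x hx (-(r₀ • EuclideanSpace.single i (1 : ℝ)))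
        (by rw [norm_neg, norm_smul, hn, Real.norm_eq_abs, abs_of_pos hr₀, mul_one])
      rwa [smul_neg, smul_smul, hδr] at this
    obtain ⟨hi, hle⟩ := grad_dir_core hKc hScomp.measurableSet hSK hRY φ₀ φ₁ hφ₀ hφ₁ T₀ T₁ hT₀m hT₁m
      hT₀ hT₁ κ hh i hp hm
    refine ⟨hi, hle.trans ?_⟩
    have hh2 : 0 < h ^ 2 := by positivity
    have a1 : 16 / h ^ 2 * U ≤ 64 * U / h ^ 2 := by
      rw [div_mul_eq_mul_div]
      apply div_le_div_of_nonneg_right _ hh2.le
      linarith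
    have a2 : 12 * RY ^ 2 * ((volume K).toReal - (volume S).toReal)
        ≤ 12 * RY ^ 2 * (d * δ * (volume K).toReal) :=
      mul_le_mul_of_nonneg_left hdef (by positivity)
    have a3 : 0 ≤ RY ^ 2 * (d * δ * (volume K).toReal) := by positivity
    nlinarith
  have hsum : ∫ x in K, ‖T₁ x - T₀ x‖ ^ 2 = ∑ i : Fin d, ∫ x in K, (T₁ x i - T₀ x i) ^ 2 := by
    rw [← integral_finsetSum _ (fun i _ => (hdir i).1)]
    congr 1
    ext x
    rw [EuclideanSpace.real_norm_sq_eq]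
    simp
  rw [hsum]
  calc ∑ i : Fin d, ∫ x in K, (T₁ x i - T₀ x i) ^ 2
      ≤ ∑ _i : Fin d, (64 * U / h ^ 2 + 20 * d * RY ^ 2 * δ * (volume K).toReal) :=
        Finset.sum_le_sum fun i _ => (hdir i).2
    _ = d * (64 * U / h ^ 2 + 20 * d * RY ^ 2 * δ * (volume K).toReal) := by
        rw [Finset.sum_const, Finset.card_univ, Fintype.card_fin, nsmul_eq_mul]

end Crest.Agent.OT
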