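import Crest.Agent.Lib_OT_Cells
import Crest.Agent.Lib_OT_Grad

/-!
# P9a : approximation of a potential by a max of finitely many of its tangent planes
-/

set_option autoImplicit false
open MeasureTheory
open scoped ENNReal NNReal

namespace Crest.Agent.OT

variable {d : ℕ}

/-- dropping the null cells -/
lemma disc_drop {Ω : Type} [Fintype Ω] [Nonempty Ω] {K : Set (Eu d)} (hK : MeasurableSet K)
    (hKpos : volume K ≠ 0) (Y : Ω → Eu d) (b : Ω → ℝ) :
    ∃ (I : Type) (_ : Fintype I) (_ : Nonempty I) (ι : I → Ω), Function.Injective ι ∧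
      (∀ i, 0 < volume (cell K (fun i => Y (ι i)) (fun i => b (ι i)) i)) ∧
      ∀ᵐ x ∂(volume.restrict K), pot (fun i => Y (ι i)) (fun i => b (ι i)) x = pot Y b x := by
  classical
  set P : Ω → Prop := fun ω => 0 < volume (cell K Y b ω) with hP
  have hne : Nonempty {ω // P ω} := by
    by_contra hcon
    apply hKpos
    rw [← iUnion_cell K Y b]
    refine measure_iUnion_null fun ω => ?_
    by_contra h0
    exact hcon ⟨⟨ω, pos_iff_ne_zero.mpr h0⟩⟩
  refine ⟨{ω // P ω}, inferInstance, hne, Subtype.val, Subtype.val_injective, ?_, ?_⟩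
  · rintro ⟨ω, hω⟩
    refine lt_of_lt_of_le hω (measure_mono ?_)
    intro x hx
    exact ⟨hx.1, fun ω' => hx.2 ω'.val⟩
  · have hnull : volume (⋃ ω : {ω // ¬ P ω}, cell K Y b ω.val) = 0 := by
      refine measure_iUnion_null fun ω => ?_
      have := ω.2
      simp only [hP, not_lt, nonpos_iff_eq_zero] at this
      exact this
    have hae : ∀ᵐ x ∂(volume.restrict K), x ∉ ⋃ ω : {ω // ¬ P ω}, cell K Y b ω.val :=
      ae_restrict_of_ae (measure_eq_zero_iff_ae_notMem.mp hnull)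
    filter_upwards [hae, ae_restrict_mem hK] with x hx hxK
    apply le_antisymm
    · rw [pot_le_iff]
      intro i
      exact aff_le_pot Y b i.val x
    · obtain ⟨ω, hω⟩ := exists_pot_eq Y b x
      have hxc : x ∈ cell K Y b ω := mem_cell_iff_pot.mpr ⟨hxK, hω⟩
      have hPω : P ω := by
        by_contra h
        exact hx (Set.mem_iUnion.mpr ⟨⟨ω, h⟩, hxc⟩)
      rw [hω]
      exact aff_le_pot (fun i : {ω // P ω} => Y i.val) (fun i => b i.val) ⟨ω, hPω⟩ x

/-- finitely many tangent planes approximate `φ` uniformly on the good points -/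
lemma disc_core {K : Set (Eu d)} (hKc : IsCompact K)
    (hKi : (interior K).Nonempty) {RY : ℝ} (hRY : 0 ≤ RY) (φ : Eu d → ℝ)
    (hφ : ∀ x x', |φ x - φ x'| ≤ RY * ‖x - x'‖) (T : Eu d → Eu d)
    (hT : ∀ᵐ x ∂(volume.restrict K), ‖T x‖ ≤ RY ∧ ∀ z, φ x + inner ℝ (z - x) (T x) ≤ φ z)
    {ε : ℝ} (hε : 0 < ε) :
    ∃ (I : Type) (_ : Fintype I) (_ : Nonempty I) (y : I → Eu d) (a : I → ℝ),
      Function.Injective y ∧ (∀ i, 0 < volume (cell K y a i)) ∧ (∀ i, ‖y i‖ ≤ RY) ∧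
      (∀ᵐ x ∂(volume.restrict K), |pot y a x - φ x| ≤ ε) := by
  classical
  have hKm : MeasurableSet K := hKc.measurableSet
  have hKpos : volume K ≠ 0 :=
    (lt_of_lt_of_le (isOpen_interior.measure_pos volume hKi)
      (measure_mono interior_subset)).ne'
  set G : Set (Eu d) := {x | x ∈ K ∧ ‖T x‖ ≤ RY ∧ ∀ z, φ x + inner ℝ (z - x) (T x) ≤ φ z} with hG
  have hGae : ∀ᵐ x ∂(volume.restrict K), x ∈ G := by
    filter_upwards [hT, ae_restrict_mem hKm] with x hx hxK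
    exact ⟨hxK, hx.1, hx.2⟩
  have hGne : G.Nonempty := by
    have : (ae (volume.restrict K)).NeBot := by
      rw [ae_neBot, Ne, Measure.restrict_eq_zero]
      exact hKpos
    exact hGae.exists
  set δ : ℝ := ε / (2 * RY + 1) with hδ
  have hδpos : 0 < δ := by positivity
  have h2δ : 2 * RY * δ ≤ ε := by
    rw [hδ, mul_div_assoc', div_le_iff₀ (by positivity)]
    nlinarith
  have hGtb : TotallyBounded G := hKc.totallyBounded.subset (fun x hx => hx.1)
  obtain ⟨t, htG, htfin, hcov⟩ := Metric.finite_approx_of_totallyBounded hGtb δ hδpos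
  set S : Finset (Eu d) := htfin.toFinset.image T with hS
  have hch : ∀ y ∈ S, ∃ x ∈ t, T x = y := by
    intro y hy
    obtain ⟨x, hx, rfl⟩ := Finset.mem_image.mp hy
    exact ⟨x, htfin.mem_toFinset.mp hx, rfl⟩
  choose! xs hxs using hch
  have hSne : Nonempty {y // y ∈ S} := by
    obtain ⟨x, hx⟩ := hGne
    obtain ⟨xk, hxk, _⟩ := Set.mem_iUnion₂.mp (hcov hx)
    exact ⟨⟨T xk, Finset.mem_image.mpr ⟨xk, htfin.mem_toFinset.mpr hxk, rfl⟩⟩⟩
  set Y : {y // y ∈ S} → Eu d := Subtype.val with hY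
  set b : {y // y ∈ S} → ℝ := fun i => inner ℝ (xs i.val) i.val - φ (xs i.val) with hb
  -- upper bound
  have hup : ∀ x, pot Y b x ≤ φ x := by
    intro x
    rw [pot_le_iff]
    intro i
    obtain ⟨h1, h2⟩ := hxs i.val i.2
    have h3 := (htG h1).2.2 x
    rw [h2] at h3
    simp only [aff, hY, hb]
    rw [inner_sub_left] at h3
    linarith
  -- lower bound
  have hlow : ∀ xk ∈ t, ∀ x, φ xk + inner ℝ (x - xk) (T xk) ≤ pot Y b x := by
    intro xk hxk x
    have hyS : T xk ∈ S := Finset.mem_image.mpr ⟨xk, htfin.mem_toFinset.mpr hxk, rfl⟩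
    refine le_trans ?_ (aff_le_pot Y b ⟨T xk, hyS⟩ x)
    have h3 := (htG hxk).2.2 (xs (T xk))
    simp only [aff, hY, hb]
    rw [inner_sub_left] at h3 ⊢
    linarith
  have hclose : ∀ x ∈ G, |pot Y b x - φ x| ≤ ε := by
    intro x hx
    obtain ⟨xk, hxk, hdist⟩ := Set.mem_iUnion₂.mp (hcov hx)
    rw [Metric.mem_ball, dist_eq_norm] at hdist
    have h1 := hlow xk hxk x
    have h2 := hφ x xk
    have h3 : |inner ℝ (x - xk) (T xk)| ≤ ‖x - xk‖ * ‖T xk‖ := abs_real_inner_le_norm _ _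
    have h4 : ‖x - xk‖ * ‖T xk‖ ≤ δ * RY :=
      mul_le_mul hdist.le (htG hxk).2.1 (norm_nonneg _) hδpos.le
    have h5 : RY * ‖x - xk‖ ≤ RY * δ := mul_le_mul_of_nonneg_left hdist.le hRY
    have h6 := hup x
    rw [abs_le] at h2 h3 ⊢
    constructor <;> nlinarith
  obtain ⟨I, iF, iN, ι, hι, hpos, hpot⟩ := disc_drop hKm hKpos Y b
  refine ⟨I, iF, iN, fun i => Y (ι i), fun i => b (ι i), ?_, hpos, ?_, ?_⟩
  · exact Subtype.val_injective.comp hι
  · intro i
    obtain ⟨h1, h2⟩ := hxs (ι i).val (ι i).2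
    have := (htG h1).2.1
    rw [h2] at this
    exact this
  · filter_upwards [hpot, hGae] with x h1 h2
    rw [h1]
    exact hclose x h2

/-- the cost of replacing `T` by the sites of the cells -/
lemma disc_cost {I : Type} [Fintype I] [Nonempty I] {K : Set (Eu d)} (hKc : IsCompact K)
    (hKv : Convex ℝ K) (x₀ : Eu d) {r₀ : ℝ} (hr₀ : 0 < r₀) (hball : Metric.closedBall x₀ r₀ ⊆ K)
    {RY : ℝ} (hRY : 0 ≤ RY) (φ : Eu d → ℝ)
    (hφ : ∀ x x', |φ x - φ x'| ≤ RY * ‖x - x'‖) (T : Eu d → Eu d) (hTm : Measurable T)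
    (hT : ∀ᵐ x ∂(volume.restrict K), ‖T x‖ ≤ RY ∧ ∀ z, φ x + inner ℝ (z - x) (T x) ≤ φ z)
    (y : I → Eu d) (a : I → ℝ) (hy : Function.Injective y) (hyR : ∀ i, ‖y i‖ ≤ RY)
    {ε : ℝ} (hclose : ∀ᵐ x ∂(volume.restrict K), |pot y a x - φ x| ≤ ε)
    {h : ℝ} (hh : 0 < h) (hhr : h ≤ r₀) :
    ∑ i, ∫ x in cell K y a i, ‖y i - T x‖ ^ 2
      ≤ d * (64 * (ε ^ 2 * (volume K).toReal) / h ^ 2
          + 20 * d * RY ^ 2 * (h / r₀) * (volume K).toReal) := by
  classical
  have hKm : MeasurableSet K := hKc.measurableSet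
  set Tδ : Eu d → Eu d := fun x => ∑ i, (cell K y a i).indicator (fun _ => y i) x with hTδdef
  have hTδm : Measurable Tδ :=
    Finset.measurable_sum _ (fun i _ => measurable_const.indicator (measurableSet_cell hKm y a i))
  have huniq := ae_existsUnique_cell K y hy a
  have hTδ_eq : ∀ᵐ x ∂(volume.restrict K), ∀ i, x ∈ cell K y a i → Tδ x = y i := by
    filter_upwards [huniq, ae_restrict_mem hKm] with x hx hxK i hi
    obtain ⟨ω, hω, hu⟩ := hx hxK
    have hiω : i = ω := hu i hi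
    subst hiω
    simp only [hTδdef]
    rw [Finset.sum_eq_single i]
    · exact Set.indicator_of_mem hi _
    · intro j _ hj
      exact Set.indicator_of_notMem (fun hjm => hj (hu j hjm)) _
    · simp
  have hTδ : ∀ᵐ x ∂(volume.restrict K),
      ‖Tδ x‖ ≤ RY ∧ ∀ z, pot y a x + inner ℝ (z - x) (Tδ x) ≤ pot y a z := by
    filter_upwards [hTδ_eq, ae_restrict_mem hKm] with x hx hxK
    obtain ⟨i, hi⟩ : ∃ i, x ∈ cell K y a i := by
      rw [← iUnion_cell K y a] at hxK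
      exact Set.mem_iUnion.mp hxK
    rw [hx i hi]
    exact ⟨hyR i, pot_subgradient hi⟩
  have key := grad_bound hKc hKv x₀ hr₀ hball hRY φ (pot y a) hφ (pot_lipschitz y a hyR) T Tδ
    hTm hTδm hT hTδ 0 hh hhr
  have hint : IntegrableOn (fun x => ‖Tδ x - T x‖ ^ 2) K := by
    refine Measure.integrableOn_of_bounded (M := (2 * RY) ^ 2) hKc.measure_lt_top.ne
      ((hTδm.sub hTm).norm.pow_const 2).aestronglyMeasurable ?_
    filter_upwards [hT, hTδ] with x h1 h2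
    rw [Real.norm_eq_abs, abs_pow, abs_norm]
    refine pow_le_pow_left₀ (norm_nonneg _) ?_ 2
    calc ‖Tδ x - T x‖ ≤ ‖Tδ x‖ + ‖T x‖ := norm_sub_le _ _
      _ ≤ 2 * RY := by linarith [h1.1, h2.1]
  have hsum : ∑ i, ∫ x in cell K y a i, ‖y i - T x‖ ^ 2 = ∫ x in K, ‖Tδ x - T x‖ ^ 2 := by
    rw [← sum_integral_cell hKm y hy a _ hint]
    refine Finset.sum_congr rfl (fun i _ => ?_)
    refine setIntegral_congr_ae (measurableSet_cell hKm y a i) ?_
    have := (ae_restrict_iff' hKm).mp hTδ_eq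
    filter_upwards [this] with x hx hxi
    rw [hx hxi.1 i hxi]
  have hsq : ∫ x in K, (pot y a x - φ x - 0) ^ 2 ≤ ε ^ 2 * (volume K).toReal := by
    have := norm_setIntegral_le_of_norm_le_const_ae (μ := volume) (s := K)
      (f := fun x => (pot y a x - φ x - 0) ^ 2) (C := ε ^ 2) hKc.measure_lt_top (by
        filter_upwards [hclose] with x hx
        rw [Real.norm_eq_abs, abs_pow, sub_zero]
        exact pow_le_pow_left₀ (abs_nonneg _) hx 2)
    exact (le_abs_self _).trans this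
  rw [hsum]
  refine key.trans ?_
  gcongr

theorem exists_discretisation {K : Set (Eu d)} (hKc : IsCompact K) (hKv : Convex ℝ K)
    (hKi : (interior K).Nonempty) {RY : ℝ} (hRY : 0 ≤ RY) (φ : Eu d → ℝ)
    (hφ : ∀ x x', |φ x - φ x'| ≤ RY * ‖x - x'‖) (T : Eu d → Eu d) (hTm : Measurable T)
    (hT : ∀ᵐ x ∂(volume.restrict K), ‖T x‖ ≤ RY ∧ ∀ z, φ x + inner ℝ (z - x) (T x) ≤ φ z)
    {γ : ℝ} (hγ : 0 < γ) :
    ∃ (I : Type) (_ : Fintype I) (_ : Nonempty I) (y : I → Eu d) (a : I → ℝ),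
      Function.Injective y ∧ (∀ i, 0 < volume (cell K y a i)) ∧
      (∀ᵐ x ∂(volume.restrict K), |pot y a x - φ x| ≤ γ) ∧
      ∑ i, ∫ x in cell K y a i, ‖y i - T x‖ ^ 2 ≤ γ := by
  obtain ⟨x₀, hx₀⟩ := hKi
  obtain ⟨r₀, hr₀, hball⟩ := Metric.nhds_basis_closedBall.mem_iff.mp (mem_interior_iff_mem_nhds.mp hx₀)
  set V : ℝ := (volume K).toReal with hV
  have hV0 : 0 ≤ V := ENNReal.toReal_nonneg
  set c₁ : ℝ := 20 * d ^ 2 * RY ^ 2 * V / r₀ with hc₁
  have hc₁0 : 0 ≤ c₁ := by positivity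
  set h : ℝ := min r₀ (γ / (2 * (c₁ + 1))) with hh
  have hhpos : 0 < h := lt_min hr₀ (by positivity)
  have hhr : h ≤ r₀ := min_le_left _ _
  have hh1 : c₁ * h ≤ γ / 2 := by
    have h1 : h ≤ γ / (2 * (c₁ + 1)) := min_le_right _ _
    have h2 : c₁ * h ≤ c₁ * (γ / (2 * (c₁ + 1))) := mul_le_mul_of_nonneg_left h1 hc₁0
    have h3 : c₁ * (γ / (2 * (c₁ + 1))) ≤ γ / 2 := by
      rw [mul_div_assoc', div_le_div_iff₀ (by positivity) (by norm_num)]
      nlinarith
    linarith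
  set ε : ℝ := min γ (min 1 (γ * h ^ 2 / (128 * d * V + 1))) with hε
  have hεpos : 0 < ε := lt_min hγ (lt_min one_pos (by positivity))
  have hεγ : ε ≤ γ := min_le_left _ _
  have hε1 : ε ≤ 1 := (min_le_right _ _).trans (min_le_left _ _)
  have hε2 : ε ≤ γ * h ^ 2 / (128 * d * V + 1) := (min_le_right _ _).trans (min_le_right _ _)
  obtain ⟨I, iF, iN, y, a, hy, hpos, hyR, hclose⟩ := disc_core hKc ⟨x₀, hx₀⟩ hRY φ hφ T hT hεpos
  refine ⟨I, iF, iN, y, a, hy, hpos, ?_, ?_⟩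
  · filter_upwards [hclose] with x hx
    exact hx.trans hεγ
  · refine (disc_cost hKc hKv x₀ hr₀ hball hRY φ hφ T hTm hT y a hy hyR hclose hhpos hhr).trans ?_
    have e1 : (d : ℝ) * (20 * d * RY ^ 2 * (h / r₀) * V) = c₁ * h := by
      rw [hc₁]; field_simp
    have e2 : (d : ℝ) * (64 * (ε ^ 2 * V) / h ^ 2) ≤ γ / 2 := by
      have h1 : ε ^ 2 ≤ ε := by nlinarith
      have h2 : ε ^ 2 ≤ γ * h ^ 2 / (128 * d * V + 1) := h1.trans hε2
      have h3 : ε ^ 2 * (128 * d * V + 1) ≤ γ * h ^ 2 := (le_div_iff₀ (by positivity)).mp h2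
      rw [mul_div_assoc', div_le_div_iff₀ (by positivity) (by norm_num)]
      nlinarith [sq_nonneg ε]
    rw [mul_add, e1]
    linarith

end Crest.Agent.OT
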