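import Crest.Agent.Lib_OT_Defs
import Crest.Prelude.Def_QuadraticTransport

/-!
# P9b : discrete gluing of couplings via Radon-Nikodym derivatives

ρ = uniformProbOn K.  λ_i := (ρ.restrict (A i)).map T₀ <= μ, f_i := λ_i.rnDeriv μ (μ.withDensity f_i = λ_i), Σ_i λ_i = μ ==> Σ_i f_i = 1 μ-a.e.
Same for g_j (B j, T₁, ν).   P i j := |K| * (∫⁻ f_i(p.1) g_j(p.2) dπ).toReal.
Marginals: Σ_j P i j = |K| ∫ f_i(p.1) dπ = |K| ∫ f_i dμ = |K| ρ(A i) = |A i|  (Σ_j g_j(p.2) = 1 π-a.e. by ae_of_ae_map).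
Cost: |y_i - z_j|² <= 3(|y_i - p.1|² + |p.1 - p.2|² + |p.2 - z_j|²);
Σ_ij ∫ f_i g_j |p.1-p.2|² dπ = quadCost π;  Σ_ij ∫ f_i(p.1) g_j(p.2) |y_i - p.1|² dπ = Σ_i ∫ f_i(y)|y_i - y|² dμ = Σ_i ∫ |y_i - y|² dλ_i = Σ_i ∫_{A i} |y_i - T₀ x|² dρ.
quadCost π is finite: μ, ν live on the ball of radius RY.   Do everything in ENNReal, convert at the end.
-/

set_option autoImplicit false
open MeasureTheory
open scoped ENNReal NNReal
open Crest.AnalysisR.OT

namespace Crest.Agent.OT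

variable {d : ℕ}

lemma glue_withDensity_sum {Z : Type*} [MeasurableSpace Z] (μ : Measure Z) {I : Type} [Fintype I]
    (f : I → Z → ℝ≥0∞) (hf : ∀ i, Measurable (f i)) :
    μ.withDensity (fun u => ∑ i, f i u) = ∑ i, μ.withDensity (f i) := by
  ext s hs
  rw [withDensity_apply _ hs, lintegral_finsetSum _ (fun i _ => hf i), Measure.finsetSum_apply]
  apply Finset.sum_congr rfl
  intro i _
  rw [withDensity_apply _ hs]

lemma glue_density {X Z : Type*} [MeasurableSpace X] [MeasurableSpace Z] {ρ : Measure X}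
    [IsFiniteMeasure ρ] {T : X → Z} (hT : Measurable T) {I : Type} [Fintype I] (A : I → Set X)
    (hsum : ∑ i, ρ.restrict (A i) = ρ) :
    ∃ f : I → Z → ℝ≥0∞, (∀ i, Measurable (f i)) ∧
      (∀ i, (ρ.map T).withDensity (f i) = (ρ.restrict (A i)).map T) ∧
      ∀ᵐ u ∂(ρ.map T), ∑ i, f i u = 1 := by
  refine ⟨fun i => ((ρ.restrict (A i)).map T).rnDeriv (ρ.map T),
    fun i => Measure.measurable_rnDeriv _ _, ?_, ?_⟩
  · intro i
    exact Measure.withDensity_rnDeriv_eq _ _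
      (Measure.absolutelyContinuous_of_le (Measure.map_mono Measure.restrict_le_self hT))
  · have h1 : ∀ i, (ρ.map T).withDensity (((ρ.restrict (A i)).map T).rnDeriv (ρ.map T))
        = (ρ.restrict (A i)).map T := fun i => Measure.withDensity_rnDeriv_eq _ _
      (Measure.absolutelyContinuous_of_le (Measure.map_mono Measure.restrict_le_self hT))
    have h2 : (ρ.map T).withDensity
        (fun u => ∑ i, ((ρ.restrict (A i)).map T).rnDeriv (ρ.map T) u) = ρ.map T := by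
      rw [glue_withDensity_sum _ _ (fun i => Measure.measurable_rnDeriv _ _)]
      simp_rw [h1]
      rw [← Measure.map_finset_sum hT.aemeasurable, hsum]
    have hm : Measurable (fun u => ∑ i, ((ρ.restrict (A i)).map T).rnDeriv (ρ.map T) u) :=
      Finset.measurable_sum _ (fun i _ => Measure.measurable_rnDeriv _ _)
    have h3 : ∫⁻ u, ∑ i, ((ρ.restrict (A i)).map T).rnDeriv (ρ.map T) u ∂(ρ.map T) ≠ ∞ := by
      have : ∫⁻ u, ∑ i, ((ρ.restrict (A i)).map T).rnDeriv (ρ.map T) u ∂(ρ.map T)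
          = (ρ.map T) Set.univ := by
        conv_rhs => rw [← h2]
        rw [withDensity_apply _ MeasurableSet.univ, Measure.restrict_univ]
      rw [this]
      exact measure_ne_top _ _
    have h4 := (withDensity_eq_iff hm.aemeasurable (aemeasurable_const (b := (1 : ℝ≥0∞))) h3).1
      (by rw [h2]; exact (withDensity_one).symm)
    exact h4

lemma glue_core {Z : Type*} [MeasurableSpace Z] {μ ν : Measure Z} {π : Measure (Z × Z)}
    (hπ1 : π.map Prod.fst = μ) (hπ2 : π.map Prod.snd = ν) {I J : Type} [Fintype I] [Fintype J]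
    (f : I → Z → ℝ≥0∞) (g : J → Z → ℝ≥0∞) (hf : ∀ i, Measurable (f i)) (hg : ∀ j, Measurable (g j))
    (hf1 : ∀ᵐ u ∂μ, ∑ i, f i u = 1) (hg1 : ∀ᵐ u ∂ν, ∑ j, g j u = 1) :
    (∀ i, ∀ F : Z → ℝ≥0∞, Measurable F →
        ∑ j, ∫⁻ p, f i p.1 * g j p.2 * F p.1 ∂π = ∫⁻ u, f i u * F u ∂μ) ∧
    (∀ j, ∀ F : Z → ℝ≥0∞, Measurable F →
        ∑ i, ∫⁻ p, f i p.1 * g j p.2 * F p.2 ∂π = ∫⁻ u, g j u * F u ∂ν) ∧
    (∀ H : Z × Z → ℝ≥0∞, Measurable H →
        ∑ i, ∑ j, ∫⁻ p, f i p.1 * g j p.2 * H p ∂π = ∫⁻ p, H p ∂π) := by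
  have hf1' : ∀ᵐ p ∂π, ∑ i, f i p.1 = 1 :=
    ae_of_ae_map measurable_fst.aemeasurable (by rw [hπ1]; exact hf1)
  have hg1' : ∀ᵐ p ∂π, ∑ j, g j p.2 = 1 :=
    ae_of_ae_map measurable_snd.aemeasurable (by rw [hπ2]; exact hg1)
  have hfm : ∀ i, Measurable (fun p : Z × Z => f i p.1) := fun i => (hf i).comp measurable_fst
  have hgm : ∀ j, Measurable (fun p : Z × Z => g j p.2) := fun j => (hg j).comp measurable_snd
  refine ⟨?_, ?_, ?_⟩
  · intro i F hF
    have hFm : Measurable (fun p : Z × Z => F p.1) := hF.comp measurable_fst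
    have hm : ∀ j, Measurable (fun p : Z × Z => f i p.1 * g j p.2 * F p.1) :=
      fun j => ((hfm i).mul (hgm j)).mul hFm
    have hm2 : Measurable (fun u => f i u * F u) := (hf i).mul hF
    rw [← lintegral_finsetSum _ (fun j _ => hm j), ← hπ1, lintegral_map hm2 measurable_fst]
    apply lintegral_congr_ae
    filter_upwards [hg1'] with p hp
    calc ∑ j, f i p.1 * g j p.2 * F p.1 = f i p.1 * (∑ j, g j p.2) * F p.1 := by
          rw [Finset.mul_sum, Finset.sum_mul]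
      _ = f i p.1 * F p.1 := by rw [hp, mul_one]
  · intro j F hF
    have hFm : Measurable (fun p : Z × Z => F p.2) := hF.comp measurable_snd
    have hm : ∀ i, Measurable (fun p : Z × Z => f i p.1 * g j p.2 * F p.2) :=
      fun i => ((hfm i).mul (hgm j)).mul hFm
    have hm2 : Measurable (fun u => g j u * F u) := (hg j).mul hF
    rw [← lintegral_finsetSum _ (fun i _ => hm i), ← hπ2, lintegral_map hm2 measurable_snd]
    apply lintegral_congr_ae
    filter_upwards [hf1'] with p hp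
    calc ∑ i, f i p.1 * g j p.2 * F p.2 = (∑ i, f i p.1) * g j p.2 * F p.2 := by
          rw [Finset.sum_mul, Finset.sum_mul]
      _ = g j p.2 * F p.2 := by rw [hp, one_mul]
  · intro H hH
    have hm : ∀ i j, Measurable (fun p : Z × Z => f i p.1 * g j p.2 * H p) :=
      fun i j => ((hfm i).mul (hgm j)).mul hH
    have e1 : ∀ i, ∑ j, ∫⁻ p, f i p.1 * g j p.2 * H p ∂π
        = ∫⁻ p, ∑ j, f i p.1 * g j p.2 * H p ∂π := fun i =>
      (lintegral_finsetSum _ (fun j _ => hm i j)).symm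
    simp_rw [e1]
    have hm' : ∀ i, Measurable (fun p : Z × Z => ∑ j, f i p.1 * g j p.2 * H p) :=
      fun i => Finset.measurable_sum _ (fun j _ => hm i j)
    rw [← lintegral_finsetSum _ (fun i _ => hm' i)]
    apply lintegral_congr_ae
    filter_upwards [hf1', hg1'] with p hp1 hp2
    calc ∑ i, ∑ j, f i p.1 * g j p.2 * H p = (∑ i, f i p.1) * (∑ j, g j p.2) * H p := by
          rw [Finset.sum_mul_sum, Finset.sum_mul]
          apply Finset.sum_congr rfl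
          intro i _
          rw [Finset.sum_mul]
      _ = H p := by rw [hp1, hp2, one_mul, one_mul]

lemma glue_enorm_sq {E : Type*} [NormedAddCommGroup E] (a b c e : E) :
    ‖a - e‖ₑ ^ 2 ≤ 3 * (‖a - b‖ₑ ^ 2 + ‖b - c‖ₑ ^ 2 + ‖c - e‖ₑ ^ 2) := by
  have h : ‖a - e‖ ^ 2 ≤ 3 * (‖a - b‖ ^ 2 + ‖b - c‖ ^ 2 + ‖c - e‖ ^ 2) := by
    have h1 : ‖a - e‖ ≤ ‖a - b‖ + ‖b - c‖ + ‖c - e‖ := by
      calc ‖a - e‖ = ‖(a - b) + (b - c) + (c - e)‖ := by congr 1; abel
        _ ≤ _ := norm_add₃_le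
    have := pow_le_pow_left₀ (norm_nonneg _) h1 2
    nlinarith [sq_nonneg (‖a - b‖ - ‖b - c‖), sq_nonneg (‖b - c‖ - ‖c - e‖),
      sq_nonneg (‖a - b‖ - ‖c - e‖)]
  have h2 := ENNReal.ofReal_le_ofReal h
  rw [ENNReal.ofReal_mul (by norm_num), ENNReal.ofReal_add (by positivity) (by positivity),
    ENNReal.ofReal_add (by positivity) (by positivity)] at h2
  simp only [ENNReal.ofReal_pow (norm_nonneg _), ofReal_norm] at h2
  simpa using h2

lemma glue_sum_restrict {d : ℕ} {K : Set (Eu d)} {I : Type} [Fintype I] (A : I → Set (Eu d))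
    (hAm : ∀ i, MeasurableSet (A i)) (hAK : ∀ i, A i ⊆ K)
    (hAd : ∀ i i', i ≠ i' → volume (A i ∩ A i') = 0) (hAu : volume (K \ ⋃ i, A i) = 0) :
    ∑ i, (uniformProbOn K).restrict (A i) = uniformProbOn K := by
  unfold uniformProbOn
  have h1 : ∀ i, ((volume K)⁻¹ • (volume : Measure (Eu d)).restrict K).restrict (A i)
      = (volume K)⁻¹ • (volume : Measure (Eu d)).restrict (A i) := by
    intro i
    rw [Measure.restrict_smul, Measure.restrict_restrict (hAm i), Set.inter_eq_left.2 (hAK i)]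
  simp_rw [h1]
  rw [← Finset.smul_sum, ← Measure.sum_fintype, ← Measure.restrict_iUnion_ae
    (fun i i' hii => hAd i i' hii) (fun i => (hAm i).nullMeasurableSet)]
  congr 1
  apply Measure.restrict_congr_set
  have hsub : (⋃ i, A i) ⊆ K := Set.iUnion_subset hAK
  exact (ae_eq_set.2 ⟨by rw [Set.sdiff_eq_empty.2 hsub]; exact measure_empty, hAu⟩)


lemma glue_lintegral_sq {d : ℕ} {S : Set (Eu d)} (hSfin : volume S ≠ ⊤) {F : Eu d → Eu d}
    (hF : Measurable F) {M : ℝ} (hb : ∀ᵐ x ∂(volume.restrict S), ‖F x‖ ≤ M) :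
    ∫⁻ x in S, ‖F x‖ₑ ^ 2 = ENNReal.ofReal (∫ x in S, ‖F x‖ ^ 2) := by
  have hint : IntegrableOn (fun x => ‖F x‖ ^ 2) S := by
    refine Measure.integrableOn_of_bounded (M := M ^ 2) hSfin
      (hF.norm.pow_const 2).aestronglyMeasurable ?_
    filter_upwards [hb] with x hx
    rw [Real.norm_eq_abs, abs_of_nonneg (by positivity)]
    exact pow_le_pow_left₀ (norm_nonneg _) hx 2
  rw [ofReal_integral_eq_lintegral_ofReal hint (Filter.Eventually.of_forall fun x => by positivity)]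
  apply lintegral_congr
  intro x
  rw [ENNReal.ofReal_pow (norm_nonneg _), ofReal_norm]

lemma glue_quadCost_ne_top {d : ℕ} {K : Set (Eu d)} {RY : ℝ}
    {μ ν : Measure (Eu d)} [IsProbabilityMeasure μ]
    {T₀ T₁ : Eu d → Eu d} (hT₀m : Measurable T₀) (hT₁m : Measurable T₁)
    (hT₀ : (uniformProbOn K).map T₀ = μ) (hT₁ : (uniformProbOn K).map T₁ = ν)
    (hT₀b : ∀ᵐ x ∂(volume.restrict K), ‖T₀ x‖ ≤ RY) (hT₁b : ∀ᵐ x ∂(volume.restrict K), ‖T₁ x‖ ≤ RY)
    {π : Measure (Eu d × Eu d)} (hπ : IsPairCoupling μ ν π) : quadCost π ≠ ⊤ := by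
  have hms : MeasurableSet {u : Eu d | ‖u‖ ≤ RY} := measurableSet_le measurable_norm measurable_const
  have h0 : ∀ᵐ u ∂μ, ‖u‖ ≤ RY := by
    rw [← hT₀, ae_map_iff hT₀m.aemeasurable hms]
    exact Measure.ae_smul_measure hT₀b _
  have h1 : ∀ᵐ u ∂ν, ‖u‖ ≤ RY := by
    rw [← hT₁, ae_map_iff hT₁m.aemeasurable hms]
    exact Measure.ae_smul_measure hT₁b _
  have h0' : ∀ᵐ p ∂π, ‖p.1‖ ≤ RY :=
    ae_of_ae_map measurable_fst.aemeasurable (by rw [hπ.1]; exact h0)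
  have h1' : ∀ᵐ p ∂π, ‖p.2‖ ≤ RY :=
    ae_of_ae_map measurable_snd.aemeasurable (by rw [hπ.2]; exact h1)
  have hπu : π Set.univ = 1 := by
    have : (π.map Prod.fst) Set.univ = π Set.univ := by
      rw [Measure.map_apply measurable_fst MeasurableSet.univ, Set.preimage_univ]
    rw [← this, hπ.1]
    exact measure_univ
  have hle : quadCost π ≤ ∫⁻ _p, ENNReal.ofReal ((2 * RY) ^ 2) ∂π := by
    unfold quadCost
    apply lintegral_mono_ae
    filter_upwards [h0', h1'] with p hp0 hp1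
    rw [← ofReal_norm, ← ENNReal.ofReal_pow (norm_nonneg _)]
    apply ENNReal.ofReal_le_ofReal
    apply pow_le_pow_left₀ (norm_nonneg _)
    have := norm_sub_le p.1 p.2
    linarith
  rw [lintegral_const, hπu, mul_one] at hle
  exact (hle.trans_lt ENNReal.ofReal_lt_top).ne

theorem exists_discrete_coupling {K : Set (Eu d)} (hKc : IsCompact K) (hKpos : 0 < volume K)
    {RY : ℝ}
    {μ ν : Measure (Eu d)} [IsProbabilityMeasure μ] [IsProbabilityMeasure ν]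
    {T₀ T₁ : Eu d → Eu d} (hT₀m : Measurable T₀) (hT₁m : Measurable T₁)
    (hT₀ : (uniformProbOn K).map T₀ = μ) (hT₁ : (uniformProbOn K).map T₁ = ν)
    (hT₀b : ∀ᵐ x ∂(volume.restrict K), ‖T₀ x‖ ≤ RY) (hT₁b : ∀ᵐ x ∂(volume.restrict K), ‖T₁ x‖ ≤ RY)
    {π : Measure (Eu d × Eu d)} (hπ : IsPairCoupling μ ν π)
    {I J : Type} [Fintype I] [Fintype J] (y : I → Eu d) (z : J → Eu d)
    (A : I → Set (Eu d)) (B : J → Set (Eu d)) (hAm : ∀ i, MeasurableSet (A i))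
    (hBm : ∀ j, MeasurableSet (B j)) (hAK : ∀ i, A i ⊆ K) (hBK : ∀ j, B j ⊆ K)
    (hAd : ∀ i i', i ≠ i' → volume (A i ∩ A i') = 0) (hBd : ∀ j j', j ≠ j' → volume (B j ∩ B j') = 0)
    (hAu : volume (K \ ⋃ i, A i) = 0) (hBu : volume (K \ ⋃ j, B j) = 0) :
    ∃ P : I → J → ℝ, (∀ i j, 0 ≤ P i j) ∧ (∀ i, ∑ j, P i j = (volume (A i)).toReal) ∧
      (∀ j, ∑ i, P i j = (volume (B j)).toReal) ∧
      ∑ i, ∑ j, P i j * ‖y i - z j‖ ^ 2 ≤
        3 * ((volume K).toReal * (quadCost π).toReal + (∑ i, ∫ x in A i, ‖y i - T₀ x‖ ^ 2)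
          + ∑ j, ∫ x in B j, ‖z j - T₁ x‖ ^ 2) := by
  classical
  have hVtop : volume K ≠ ⊤ := hKc.measure_lt_top.ne
  have hV0 : volume K ≠ 0 := hKpos.ne'
  set V := (volume K).toReal with hV
  have hVpos : 0 < V := ENNReal.toReal_pos hV0 hVtop
  have hfin : IsFiniteMeasure (uniformProbOn K) := by
    constructor
    unfold uniformProbOn
    rw [Measure.smul_apply, Measure.restrict_apply MeasurableSet.univ, Set.univ_inter, smul_eq_mul,
      ENNReal.inv_mul_cancel hV0 hVtop]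
    exact ENNReal.one_lt_top
  obtain ⟨f, hfm, hfd, hf1⟩ := glue_density hT₀m A (glue_sum_restrict A hAm hAK hAd hAu)
  obtain ⟨g, hgm, hgd, hg1⟩ := glue_density hT₁m B (glue_sum_restrict B hBm hBK hBd hBu)
  rw [hT₀] at hfd hf1
  rw [hT₁] at hgd hg1
  obtain ⟨c1, c2, c3⟩ := glue_core hπ.1 hπ.2 f g hfm hgm hf1 hg1
  have trA : ∀ i (F : Eu d → ℝ≥0∞), Measurable F →
      ∫⁻ u, f i u * F u ∂μ = (volume K)⁻¹ * ∫⁻ x in A i, F (T₀ x) := by
    intro i F hF
    have e : ∫⁻ u, f i u * F u ∂μ = ∫⁻ u, F u ∂(μ.withDensity (f i)) :=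
      (lintegral_withDensity_eq_lintegral_mul μ (hfm i) hF).symm
    rw [e, hfd i, lintegral_map hF hT₀m]
    unfold uniformProbOn
    rw [Measure.restrict_smul, lintegral_smul_measure, Measure.restrict_restrict (hAm i),
      Set.inter_eq_left.2 (hAK i), smul_eq_mul]
  have trB : ∀ j (F : Eu d → ℝ≥0∞), Measurable F →
      ∫⁻ u, g j u * F u ∂ν = (volume K)⁻¹ * ∫⁻ x in B j, F (T₁ x) := by
    intro j F hF
    have e : ∫⁻ u, g j u * F u ∂ν = ∫⁻ u, F u ∂(ν.withDensity (g j)) :=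
      (lintegral_withDensity_eq_lintegral_mul ν (hgm j) hF).symm
    rw [e, hgd j, lintegral_map hF hT₁m]
    unfold uniformProbOn
    rw [Measure.restrict_smul, lintegral_smul_measure, Measure.restrict_restrict (hBm j),
      Set.inter_eq_left.2 (hBK j), smul_eq_mul]
  set Q : I → J → ℝ≥0∞ := fun i j => ∫⁻ p, f i p.1 * g j p.2 ∂π with hQ
  have hQ1 : ∀ i, ∑ j, Q i j = (volume K)⁻¹ * volume (A i) := by
    intro i
    have := c1 i (fun _ => 1) measurable_const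
    rw [trA i _ measurable_const] at this
    simpa [hQ] using this
  have hQ2 : ∀ j, ∑ i, Q i j = (volume K)⁻¹ * volume (B j) := by
    intro j
    have := c2 j (fun _ => 1) measurable_const
    rw [trB j _ measurable_const] at this
    simpa [hQ] using this
  have hAfin : ∀ i, volume (A i) ≠ ⊤ := fun i =>
    ((measure_mono (hAK i)).trans_lt hKc.measure_lt_top).ne
  have hBfin : ∀ j, volume (B j) ≠ ⊤ := fun j =>
    ((measure_mono (hBK j)).trans_lt hKc.measure_lt_top).ne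
  have hinvtop : (volume K)⁻¹ ≠ ⊤ := ENNReal.inv_ne_top.2 hV0
  have hQfin : ∀ i j, Q i j ≠ ⊤ := by
    intro i j
    have h1 : Q i j ≤ ∑ j, Q i j := Finset.single_le_sum (f := fun j => Q i j)
      (fun _ _ => zero_le) (Finset.mem_univ j)
    rw [hQ1 i] at h1
    exact (h1.trans_lt (ENNReal.mul_lt_top hinvtop.lt_top (hAfin i).lt_top)).ne
  have hinvreal : ((volume K)⁻¹).toReal = V⁻¹ := by rw [ENNReal.toReal_inv]
  refine ⟨fun i j => V * (Q i j).toReal, fun i j => by positivity, ?_, ?_, ?_⟩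
  · intro i
    rw [← Finset.mul_sum, ← ENNReal.toReal_sum (fun j _ => hQfin i j), hQ1 i, ENNReal.toReal_mul,
      hinvreal, ← mul_assoc, mul_inv_cancel₀ hVpos.ne', one_mul]
  · intro j
    rw [← Finset.mul_sum, ← ENNReal.toReal_sum (fun i _ => hQfin i j), hQ2 j, ENNReal.toReal_mul,
      hinvreal, ← mul_assoc, mul_inv_cancel₀ hVpos.ne', one_mul]
  · -- the cost
    have hfm' : ∀ i, Measurable (fun p : Eu d × Eu d => f i p.1) :=
      fun i => (hfm i).comp measurable_fst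
    have hgm' : ∀ j, Measurable (fun p : Eu d × Eu d => g j p.2) :=
      fun j => (hgm j).comp measurable_snd
    have hfg : ∀ i j, Measurable (fun p : Eu d × Eu d => f i p.1 * g j p.2) :=
      fun i j => (hfm' i).mul (hgm' j)
    have hF : ∀ i, Measurable (fun u : Eu d => ‖y i - u‖ₑ ^ 2) :=
      fun i => (measurable_const.sub measurable_id).enorm.pow_const 2
    have hG : ∀ j, Measurable (fun u : Eu d => ‖u - z j‖ₑ ^ 2) :=
      fun j => (measurable_id.sub measurable_const).enorm.pow_const 2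
    have hH : Measurable (fun p : Eu d × Eu d => ‖p.1 - p.2‖ₑ ^ 2) :=
      (measurable_fst.sub measurable_snd).enorm.pow_const 2
    have m1 : ∀ i j, Measurable (fun p : Eu d × Eu d => f i p.1 * g j p.2 * ‖y i - p.1‖ₑ ^ 2) :=
      fun i j => (hfg i j).mul ((hF i).comp measurable_fst)
    have m2 : ∀ i j, Measurable (fun p : Eu d × Eu d => f i p.1 * g j p.2 * ‖p.1 - p.2‖ₑ ^ 2) :=
      fun i j => (hfg i j).mul hH
    have m3 : ∀ i j, Measurable (fun p : Eu d × Eu d => f i p.1 * g j p.2 * ‖p.2 - z j‖ₑ ^ 2) :=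
      fun i j => (hfg i j).mul ((hG j).comp measurable_snd)
    have hpt : ∀ i j, Q i j * ‖y i - z j‖ₑ ^ 2 ≤
        3 * ((∫⁻ p, f i p.1 * g j p.2 * ‖y i - p.1‖ₑ ^ 2 ∂π)
          + (∫⁻ p, f i p.1 * g j p.2 * ‖p.1 - p.2‖ₑ ^ 2 ∂π)
          + ∫⁻ p, f i p.1 * g j p.2 * ‖p.2 - z j‖ₑ ^ 2 ∂π) := by
      intro i j
      have m12 : Measurable (fun p : Eu d × Eu d => f i p.1 * g j p.2 * ‖y i - p.1‖ₑ ^ 2
          + f i p.1 * g j p.2 * ‖p.1 - p.2‖ₑ ^ 2) := (m1 i j).add (m2 i j)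
      have m123 : Measurable (fun p : Eu d × Eu d => f i p.1 * g j p.2 * ‖y i - p.1‖ₑ ^ 2
          + f i p.1 * g j p.2 * ‖p.1 - p.2‖ₑ ^ 2 + f i p.1 * g j p.2 * ‖p.2 - z j‖ₑ ^ 2) :=
        m12.add (m3 i j)
      rw [← lintegral_add_left (m1 i j), ← lintegral_add_left m12, ← lintegral_const_mul _ m123]
      have eQ : Q i j * ‖y i - z j‖ₑ ^ 2 = ∫⁻ p, f i p.1 * g j p.2 * ‖y i - z j‖ₑ ^ 2 ∂π :=
        (lintegral_mul_const _ (hfg i j)).symm
      rw [eQ]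
      apply lintegral_mono
      intro p
      calc f i p.1 * g j p.2 * ‖y i - z j‖ₑ ^ 2
          ≤ f i p.1 * g j p.2 * (3 * (‖y i - p.1‖ₑ ^ 2 + ‖p.1 - p.2‖ₑ ^ 2 + ‖p.2 - z j‖ₑ ^ 2)) := by
            gcongr
            exact glue_enorm_sq _ _ _ _
        _ = 3 * (f i p.1 * g j p.2 * ‖y i - p.1‖ₑ ^ 2 + f i p.1 * g j p.2 * ‖p.1 - p.2‖ₑ ^ 2
              + f i p.1 * g j p.2 * ‖p.2 - z j‖ₑ ^ 2) := by ring
    have hcost : ∑ i, ∑ j, Q i j * ‖y i - z j‖ₑ ^ 2 ≤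
        3 * ((∑ i, (volume K)⁻¹ * ∫⁻ x in A i, ‖y i - T₀ x‖ₑ ^ 2) + quadCost π
          + ∑ j, (volume K)⁻¹ * ∫⁻ x in B j, ‖T₁ x - z j‖ₑ ^ 2) := by
      calc ∑ i, ∑ j, Q i j * ‖y i - z j‖ₑ ^ 2
          ≤ ∑ i, ∑ j, 3 * ((∫⁻ p, f i p.1 * g j p.2 * ‖y i - p.1‖ₑ ^ 2 ∂π)
          + (∫⁻ p, f i p.1 * g j p.2 * ‖p.1 - p.2‖ₑ ^ 2 ∂π)
          + ∫⁻ p, f i p.1 * g j p.2 * ‖p.2 - z j‖ₑ ^ 2 ∂π) :=
            Finset.sum_le_sum fun i _ => Finset.sum_le_sum fun j _ => hpt i j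
        _ = 3 * ((∑ i, ∑ j, ∫⁻ p, f i p.1 * g j p.2 * ‖y i - p.1‖ₑ ^ 2 ∂π)
          + (∑ i, ∑ j, ∫⁻ p, f i p.1 * g j p.2 * ‖p.1 - p.2‖ₑ ^ 2 ∂π)
          + ∑ j, ∑ i, ∫⁻ p, f i p.1 * g j p.2 * ‖p.2 - z j‖ₑ ^ 2 ∂π) := by
            rw [Finset.sum_comm (f := fun j i => ∫⁻ p, f i p.1 * g j p.2 * ‖p.2 - z j‖ₑ ^ 2 ∂π)]
            simp only [← Finset.mul_sum, Finset.sum_add_distrib]
        _ = _ := by
            congr 2
            · congr 1
              · apply Finset.sum_congr rfl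
                intro i _
                rw [c1 i _ (hF i), trA i _ (hF i)]
              · exact c3 _ hH
            · apply Finset.sum_congr rfl
              intro j _
              rw [c2 j _ (hG j), trB j _ (hG j)]
    have hq : quadCost π ≠ ⊤ := glue_quadCost_ne_top hT₀m hT₁m hT₀ hT₁ hT₀b hT₁b hπ
    have hA' : ∀ i, ∫⁻ x in A i, ‖y i - T₀ x‖ₑ ^ 2
        = ENNReal.ofReal (∫ x in A i, ‖y i - T₀ x‖ ^ 2) := by
      intro i
      refine glue_lintegral_sq (M := ‖y i‖ + RY) (hAfin i) (measurable_const.sub hT₀m) ?_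
      filter_upwards [ae_restrict_of_ae_restrict_of_subset (hAK i) hT₀b] with x hx
      exact (norm_sub_le _ _).trans (by linarith)
    have hB' : ∀ j, ∫⁻ x in B j, ‖T₁ x - z j‖ₑ ^ 2
        = ENNReal.ofReal (∫ x in B j, ‖z j - T₁ x‖ ^ 2) := by
      intro j
      have e : ∀ x, ‖z j - T₁ x‖ = ‖T₁ x - z j‖ := fun x => norm_sub_rev _ _
      simp_rw [e]
      refine glue_lintegral_sq (M := RY + ‖z j‖) (hBfin j) (hT₁m.sub measurable_const) ?_
      filter_upwards [ae_restrict_of_ae_restrict_of_subset (hBK j) hT₁b] with x hx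
      exact (norm_sub_le _ _).trans (by linarith)
    simp_rw [hA', hB'] at hcost
    have ha0 : ∀ i, 0 ≤ ∫ x in A i, ‖y i - T₀ x‖ ^ 2 := fun i =>
      integral_nonneg fun x => by positivity
    have hb0 : ∀ j, 0 ≤ ∫ x in B j, ‖z j - T₁ x‖ ^ 2 := fun j =>
      integral_nonneg fun x => by positivity
    have hS1 : (∑ i, (volume K)⁻¹ * ENNReal.ofReal (∫ x in A i, ‖y i - T₀ x‖ ^ 2)) ≠ ⊤ :=
      (ENNReal.sum_lt_top.2 fun i _ => ENNReal.mul_lt_top hinvtop.lt_top ENNReal.ofReal_lt_top).ne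
    have hS2 : (∑ j, (volume K)⁻¹ * ENNReal.ofReal (∫ x in B j, ‖z j - T₁ x‖ ^ 2)) ≠ ⊤ :=
      (ENNReal.sum_lt_top.2 fun j _ => ENNReal.mul_lt_top hinvtop.lt_top ENNReal.ofReal_lt_top).ne
    have hRtop : 3 * ((∑ i, (volume K)⁻¹ * ENNReal.ofReal (∫ x in A i, ‖y i - T₀ x‖ ^ 2))
        + quadCost π + ∑ j, (volume K)⁻¹ * ENNReal.ofReal (∫ x in B j, ‖z j - T₁ x‖ ^ 2)) ≠ ⊤ :=
      ENNReal.mul_ne_top (by norm_num) (ENNReal.add_ne_top.2 ⟨ENNReal.add_ne_top.2 ⟨hS1, hq⟩, hS2⟩)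
    have hreal := ENNReal.toReal_mono hRtop hcost
    have hL : (∑ i, ∑ j, Q i j * ‖y i - z j‖ₑ ^ 2).toReal
        = ∑ i, ∑ j, (Q i j).toReal * ‖y i - z j‖ ^ 2 := by
      rw [ENNReal.toReal_sum (fun i _ => (ENNReal.sum_lt_top.2 fun j _ =>
        ENNReal.mul_lt_top (hQfin i j).lt_top (by simp)).ne)]
      apply Finset.sum_congr rfl
      intro i _
      rw [ENNReal.toReal_sum (fun j _ => (ENNReal.mul_lt_top (hQfin i j).lt_top (by simp)).ne)]
      apply Finset.sum_congr rfl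
      intro j _
      rw [ENNReal.toReal_mul, ENNReal.toReal_pow, toReal_enorm]
    have hRr : (3 * ((∑ i, (volume K)⁻¹ * ENNReal.ofReal (∫ x in A i, ‖y i - T₀ x‖ ^ 2))
        + quadCost π + ∑ j, (volume K)⁻¹ * ENNReal.ofReal (∫ x in B j, ‖z j - T₁ x‖ ^ 2))).toReal
        = 3 * (V⁻¹ * (∑ i, ∫ x in A i, ‖y i - T₀ x‖ ^ 2) + (quadCost π).toReal
          + V⁻¹ * ∑ j, ∫ x in B j, ‖z j - T₁ x‖ ^ 2) := by
      rw [ENNReal.toReal_mul, ENNReal.toReal_add (ENNReal.add_ne_top.2 ⟨hS1, hq⟩) hS2,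
        ENNReal.toReal_add hS1 hq,
        ENNReal.toReal_sum (fun i _ => (ENNReal.mul_lt_top hinvtop.lt_top ENNReal.ofReal_lt_top).ne),
        ENNReal.toReal_sum (fun j _ => (ENNReal.mul_lt_top hinvtop.lt_top ENNReal.ofReal_lt_top).ne)]
      simp only [ENNReal.toReal_mul, hinvreal, ENNReal.toReal_ofReal (ha0 _),
        ENNReal.toReal_ofReal (hb0 _), ← Finset.mul_sum]
      norm_num
    rw [hL, hRr] at hreal
    have e1 : ∑ i, ∑ j, V * (Q i j).toReal * ‖y i - z j‖ ^ 2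
        = V * ∑ i, ∑ j, (Q i j).toReal * ‖y i - z j‖ ^ 2 := by
      simp only [Finset.mul_sum, mul_assoc]
    rw [e1]
    calc V * ∑ i, ∑ j, (Q i j).toReal * ‖y i - z j‖ ^ 2
        ≤ V * (3 * (V⁻¹ * (∑ i, ∫ x in A i, ‖y i - T₀ x‖ ^ 2) + (quadCost π).toReal
          + V⁻¹ * ∑ j, ∫ x in B j, ‖z j - T₁ x‖ ^ 2)) := mul_le_mul_of_nonneg_left hreal hVpos.le
      _ = _ := by
        field_simp
        ring

end Crest.Agent.OT
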