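import Crest.Agent.Lib_OT_Defs

/-!
# P8b : Rockafellar potential from cyclical monotonicity (pure combinatorics + sup)

step a b := <b - a, T a>.   Walk value of a list (recursive).  (i) nodup closed walks have value <= 0: apply hcyc with
the permutation `finRotate` transported along the (injective) enumeration of the list.  (ii) arbitrary closed walks in G have
value <= 0: strong induction on the length, cutting at a repeated point (value is additive under cutting).
(iii) fix x₀ in G, φ(z) := sup over walks x₀ -> x₁ -> ... -> x_m in G of value + <z - x_m, T x_m>.  Bounded above: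
each term at z is <= (term at x₀) + RY |z - x₀| and the term at x₀ is <= 0 by (ii).
RY-Lipschitz as a sup of RY-Lipschitz functions; appending x to the walk gives φ z >= φ x + <z - x, T x> for x in G.
-/

set_option autoImplicit false
open MeasureTheory
open scoped ENNReal NNReal

namespace Crest.Agent.OT

variable {d : ℕ}

/-- value of the walk `a -> l₀ -> l₁ -> ...`. -/
noncomputable def rock_val (T : Eu d → Eu d) : Eu d → List (Eu d) → ℝ
  | _, [] => 0
  | a, b :: l => inner ℝ (b - a) (T a) + rock_val T b l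

theorem rock_val_append (T : Eu d → Eu d) (a b : Eu d) (l₁ l₂ : List (Eu d)) :
    rock_val T a (l₁ ++ b :: l₂) = rock_val T a (l₁ ++ [b]) + rock_val T b l₂ := by
  induction l₁ generalizing a with
  | nil => simp [rock_val]
  | cons c l ih => simp [rock_val, ih, add_assoc]

theorem rock_perm {G : Set (Eu d)} {T : Eu d → Eu d}
    (hcyc : ∀ (s : Finset (Eu d)) (σ : Equiv.Perm (Eu d)), (↑s ⊆ G) → (∀ x, x ∉ s → σ x = x) →
        ∑ x ∈ s, inner ℝ (σ x - x) (T x) ≤ 0)
    {n : ℕ} (x : Fin n → Eu d) (hx : Function.Injective x) (hG : ∀ i, x i ∈ G)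
    (e : Equiv.Perm (Fin n)) :
    ∑ i, inner ℝ (x (e i) - x i) (T (x i)) ≤ 0 := by
  have := hcyc (Finset.univ.map ⟨x, hx⟩) (e.viaEmbedding ⟨x, hx⟩) ?_ ?_
  · rw [Finset.sum_map] at this
    have h2 : ∀ i, (e.viaEmbedding ⟨x, hx⟩) (x i) = x (e i) :=
      fun i => Equiv.Perm.viaEmbedding_apply e ⟨x, hx⟩ i
    simpa [h2] using this
  · intro z hz
    simp only [Finset.coe_map, Function.Embedding.coeFn_mk, Finset.coe_univ, Set.image_univ,
      Set.mem_range] at hz
    obtain ⟨i, rfl⟩ := hz
    exact hG i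
  · intro z hz
    apply Equiv.Perm.viaEmbedding_apply_of_notMem
    simpa using hz

theorem rock_val_eq_sum (T : Eu d → Eu d) (a c : Eu d) (l : List (Eu d)) :
    rock_val T a (l ++ [c])
      = ∑ i : Fin l.length, inner ℝ (l.get i - (a :: l).get i.castSucc) (T ((a :: l).get i.castSucc))
        + inner ℝ (c - (a :: l).get (Fin.last l.length)) (T ((a :: l).get (Fin.last l.length))) := by
  induction l generalizing a with
  | nil => simp [rock_val]
  | cons b l ih =>
    have h1 : rock_val T a ((b :: l) ++ [c]) = inner ℝ (b - a) (T a) + rock_val T b (l ++ [c]) := rfl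
    rw [h1, ih b]
    have h2 : (b :: l).length = l.length + 1 := rfl
    rw [show (∑ i : Fin (b :: l).length, inner ℝ ((b :: l).get i - (a :: b :: l).get i.castSucc)
          (T ((a :: b :: l).get i.castSucc)))
        = ∑ i : Fin (l.length + 1), inner ℝ ((b :: l).get i - (a :: b :: l).get i.castSucc)
          (T ((a :: b :: l).get i.castSucc)) from rfl]
    rw [Fin.sum_univ_succ]
    simp only [add_assoc]
    rfl

theorem rock_cyc_nodup {G : Set (Eu d)} {T : Eu d → Eu d}
    (hcyc : ∀ (s : Finset (Eu d)) (σ : Equiv.Perm (Eu d)), (↑s ⊆ G) → (∀ x, x ∉ s → σ x = x) →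
        ∑ x ∈ s, inner ℝ (σ x - x) (T x) ≤ 0)
    (a : Eu d) (l : List (Eu d)) (hnd : (a :: l).Nodup) (hG : ∀ x ∈ a :: l, x ∈ G) :
    rock_val T a (l ++ [a]) ≤ 0 := by
  have hinj : Function.Injective ((a :: l).get : Fin (l.length + 1) → Eu d) :=
    List.nodup_iff_injective_get.1 hnd
  have h0 := rock_perm hcyc ((a :: l).get : Fin (l.length + 1) → Eu d) hinj
    (fun i => hG _ (List.get_mem _ _)) (finRotate (l.length + 1))
  have h : ∑ i : Fin (l.length + 1), inner ℝ ((a :: l).get ((finRotate (l.length + 1)) i)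
      - (a :: l).get i) (T ((a :: l).get i)) ≤ 0 := h0
  rw [Fin.sum_univ_castSucc] at h
  rw [rock_val_eq_sum]
  have h1 : ∀ i : Fin l.length, (a :: l).get (finRotate (l.length + 1) i.castSucc) = l.get i := by
    intro i
    rw [finRotate_apply, Fin.coeSucc_eq_succ]
    rfl
  have h2 : (a :: l).get (finRotate (l.length + 1) (Fin.last l.length)) = a := by
    rw [finRotate_last]
    rfl
  simp only [h1, h2] at h
  exact h

theorem rock_decomp {α : Type*} {l : List α} (h : ¬ l.Nodup) :
    ∃ (b : α) (l₁ l₂ l₃ : List α), l = l₁ ++ b :: l₂ ++ b :: l₃ := by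
  induction l with
  | nil => exact absurd List.nodup_nil h
  | cons a l ih =>
    by_cases ha : a ∈ l
    · obtain ⟨s, t, rfl⟩ := List.append_of_mem ha
      exact ⟨a, [], s, t, by simp⟩
    · have hl : ¬ l.Nodup := fun hl => h (List.nodup_cons.2 ⟨ha, hl⟩)
      obtain ⟨b, l₁, l₂, l₃, rfl⟩ := ih hl
      exact ⟨b, a :: l₁, l₂, l₃, by simp⟩

theorem rock_cyc {G : Set (Eu d)} {T : Eu d → Eu d}
    (hcyc : ∀ (s : Finset (Eu d)) (σ : Equiv.Perm (Eu d)), (↑s ⊆ G) → (∀ x, x ∉ s → σ x = x) →
        ∑ x ∈ s, inner ℝ (σ x - x) (T x) ≤ 0) (n : ℕ) :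
    ∀ (a : Eu d) (l : List (Eu d)), l.length = n → (∀ x ∈ a :: l, x ∈ G) →
      rock_val T a (l ++ [a]) ≤ 0 := by
  induction n using Nat.strong_induction_on with
  | _ n ih =>
    intro a l hlen hG
    by_cases hnd : (a :: l).Nodup
    · exact rock_cyc_nodup hcyc a l hnd hG
    · obtain ⟨b, l₁, l₂, l₃, hdec⟩ := rock_decomp hnd
      cases l₁ with
      | nil =>
        simp only [List.nil_append, List.cons_append, List.cons.injEq] at hdec
        obtain ⟨rfl, rfl⟩ := hdec
        have e1 : l₂ ++ a :: l₃ ++ [a] = l₂ ++ a :: (l₃ ++ [a]) := by simp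
        rw [e1, rock_val_append T a a l₂]
        have hl : (l₂ ++ a :: l₃).length = l₂.length + l₃.length + 1 := by
          simp; ring
        have i1 := ih l₂.length (by omega) a l₂ rfl (by
          intro x hx
          apply hG
          simp only [List.mem_cons, List.mem_append] at hx ⊢
          tauto)
        have i2 := ih l₃.length (by omega) a l₃ rfl (by
          intro x hx
          apply hG
          simp only [List.mem_cons, List.mem_append] at hx ⊢
          tauto)
        linarith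
      | cons c l₁ =>
        simp only [List.cons_append, List.cons.injEq] at hdec
        obtain ⟨rfl, rfl⟩ := hdec
        have e1 : l₁ ++ b :: l₂ ++ b :: l₃ ++ [a] = l₁ ++ b :: (l₂ ++ b :: (l₃ ++ [a])) := by simp
        rw [e1, rock_val_append T a b l₁, rock_val_append T b b l₂]
        have hl : (l₁ ++ b :: l₂ ++ b :: l₃).length = l₁.length + l₂.length + l₃.length + 2 := by
          simp; ring
        have i1 := ih l₂.length (by omega) b l₂ rfl (by
          intro x hx
          apply hG
          simp only [List.mem_cons, List.mem_append] at hx ⊢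
          tauto)
        have i2 := ih (l₁ ++ b :: l₃).length (by simp; omega) a (l₁ ++ b :: l₃) rfl (by
          intro x hx
          apply hG
          simp only [List.mem_cons, List.mem_append] at hx ⊢
          tauto)
        have e2 : l₁ ++ b :: l₃ ++ [a] = l₁ ++ b :: (l₃ ++ [a]) := by simp
        rw [e2, rock_val_append T a b l₁] at i2
        linarith

theorem rock_val_lip {G : Set (Eu d)} {T : Eu d → Eu d} {RY : ℝ} (hTY : ∀ x ∈ G, ‖T x‖ ≤ RY)
    (a : Eu d) (l : List (Eu d)) (hG : ∀ x ∈ a :: l, x ∈ G) (z z' : Eu d) :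
    rock_val T a (l ++ [z]) ≤ rock_val T a (l ++ [z']) + RY * ‖z - z'‖ := by
  induction l generalizing a with
  | nil =>
    simp only [List.nil_append, rock_val, add_zero]
    have h1 : inner ℝ (z - a) (T a) = inner ℝ (z' - a) (T a) + inner ℝ (z - z') (T a) := by
      rw [← inner_add_left]; congr 1; abel
    have h2 : inner ℝ (z - z') (T a) ≤ ‖z - z'‖ * ‖T a‖ := real_inner_le_norm _ _
    have h3 : ‖z - z'‖ * ‖T a‖ ≤ ‖z - z'‖ * RY :=
      mul_le_mul_of_nonneg_left (hTY a (hG a (by simp))) (norm_nonneg _)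
    rw [h1]
    linarith
  | cons b l ih =>
    have := ih b (fun x hx => hG x (List.mem_cons_of_mem _ hx))
    simp only [List.cons_append, rock_val]
    linarith

theorem rockafellar {G : Set (Eu d)} (hG : G.Nonempty) {T : Eu d → Eu d} {RY : ℝ}
    (hTY : ∀ x ∈ G, ‖T x‖ ≤ RY)
    (hcyc : ∀ (s : Finset (Eu d)) (σ : Equiv.Perm (Eu d)), (↑s ⊆ G) → (∀ x, x ∉ s → σ x = x) →
        ∑ x ∈ s, inner ℝ (σ x - x) (T x) ≤ 0) :
    ∃ φ : Eu d → ℝ, (∀ x x', |φ x - φ x'| ≤ RY * ‖x - x'‖) ∧
      ∀ x ∈ G, ∀ z, φ x + inner ℝ (z - x) (T x) ≤ φ z := by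
  obtain ⟨x₀, hx₀⟩ := hG
  let W := {l : List (Eu d) // ∀ x ∈ l, x ∈ G}
  have : Nonempty W := ⟨⟨[], by simp⟩⟩
  let φ : Eu d → ℝ := fun z => ⨆ l : W, rock_val T x₀ (l.1 ++ [z])
  have hmem : ∀ l : W, ∀ x ∈ x₀ :: l.1, x ∈ G := by
    intro l x hx
    rcases List.mem_cons.1 hx with rfl | h
    · exact hx₀
    · exact l.2 x h
  have hbdd : ∀ z, BddAbove (Set.range fun l : W => rock_val T x₀ (l.1 ++ [z])) := by
    intro z
    refine ⟨RY * ‖z - x₀‖, ?_⟩
    rintro _ ⟨l, rfl⟩
    have h1 := rock_val_lip hTY x₀ l.1 (hmem l) z x₀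
    have h2 := rock_cyc hcyc l.1.length x₀ l.1 rfl (hmem l)
    dsimp only
    linarith
  have hlip : ∀ z z', φ z ≤ φ z' + RY * ‖z - z'‖ := by
    intro z z'
    apply ciSup_le
    intro l
    have h1 := rock_val_lip hTY x₀ l.1 (hmem l) z z'
    have h2 : rock_val T x₀ (l.1 ++ [z']) ≤ φ z' := le_ciSup (hbdd z') l
    linarith
  refine ⟨φ, ?_, ?_⟩
  · intro x x'
    rw [abs_le]
    have h1 := hlip x x'
    have h2 := hlip x' x
    rw [norm_sub_rev] at h2
    constructor <;> linarith
  · intro x hx z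
    have : φ x ≤ φ z - inner ℝ (z - x) (T x) := by
      apply ciSup_le
      intro l
      have hl' : ∀ y ∈ l.1 ++ [x], y ∈ G := by
        intro y hy
        rcases List.mem_append.1 hy with h | h
        · exact l.2 y h
        · rw [List.mem_singleton.1 h]; exact hx
      have h2 : rock_val T x₀ ((l.1 ++ [x]) ++ [z]) ≤ φ z := le_ciSup (hbdd z) (⟨l.1 ++ [x], hl'⟩ : W)
      have e1 : (l.1 ++ [x]) ++ [z] = l.1 ++ x :: [z] := by simp
      rw [e1, rock_val_append T x₀ x l.1 [z]] at h2
      simp only [rock_val, add_zero] at h2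
      linarith
    linarith

end Crest.Agent.OT
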