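import Crest.Agent.Lib_OT_Defs
import Crest.Prelude.Def_QuadraticTransport

/-!
# P8a : an optimal MAP is cyclically monotone on a set of full measure (swap small balls by translations)
-/

set_option autoImplicit false
open MeasureTheory
open scoped ENNReal NNReal
open Crest.AnalysisR.OT

namespace Crest.Agent.OT

variable {d : ℕ}

section swapmap

open Metric

/-- the piecewise translation permuting the balls `closedBall x r`, `x ∈ s`, according to `σ⁻¹`. -/
noncomputable def swapMap (s : Finset (Eu d)) (σ : Equiv.Perm (Eu d)) (r : ℝ) (z : Eu d) : Eu d :=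
  z + ∑ x ∈ s, (closedBall x r).indicator (fun _ => σ.symm x - x) z

lemma swap_measurable (s : Finset (Eu d)) (σ : Equiv.Perm (Eu d)) (r : ℝ) :
    Measurable (swapMap s σ r) := by
  unfold swapMap
  refine measurable_id.add (Finset.measurable_sum _ fun x _ => ?_)
  exact measurable_const.indicator measurableSet_closedBall

lemma swap_on {s : Finset (Eu d)} (σ : Equiv.Perm (Eu d)) {r : ℝ}
    (hdisj : (s : Set (Eu d)).PairwiseDisjoint (fun x => closedBall x r))
    {x : Eu d} (hx : x ∈ s) {z : Eu d} (hz : z ∈ closedBall x r) :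
    swapMap s σ r z = z + (σ.symm x - x) := by
  unfold swapMap
  rw [Finset.sum_eq_single x]
  · rw [Set.indicator_of_mem hz]
  · intro y hy hyx
    apply Set.indicator_of_notMem
    intro hzy
    exact Set.disjoint_left.1 (hdisj (Finset.mem_coe.2 hy) (Finset.mem_coe.2 hx) hyx) hzy hz
  · intro h; exact absurd hx h

lemma swap_off {s : Finset (Eu d)} (σ : Equiv.Perm (Eu d)) {r : ℝ}
    {z : Eu d} (hz : z ∉ ⋃ x ∈ s, closedBall x r) :
    swapMap s σ r z = z := by
  unfold swapMap
  rw [Finset.sum_eq_zero, add_zero]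
  intro y hy
  apply Set.indicator_of_notMem
  intro hzy
  exact hz (Set.mem_biUnion hy hzy)

/-- decomposition of a lower integral over `K` -/
lemma swap_lintegral_decomp {K : Set (Eu d)} {s : Finset (Eu d)} {r : ℝ}
    (hdisj : (s : Set (Eu d)).PairwiseDisjoint (fun x => closedBall x r))
    (hsub : ∀ x ∈ s, closedBall x r ⊆ K) (F : Eu d → ℝ≥0∞) :
    ∫⁻ z in K, F z = (∫⁻ z in K \ ⋃ x ∈ s, closedBall x r, F z)
      + ∑ x ∈ s, ∫⁻ z in closedBall x r, F z := by
  have hU : MeasurableSet (⋃ x ∈ s, closedBall x r) :=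
    Finset.measurableSet_biUnion _ fun x _ => measurableSet_closedBall
  rw [← lintegral_inter_add_sdiff F K hU, add_comm]
  congr 1
  rw [Set.inter_eq_right.2 (Set.iUnion₂_subset hsub)]
  exact lintegral_biUnion_finset hdisj (fun x _ => measurableSet_closedBall) F

/-- change of variables for the swap map -/
lemma swap_lintegral_comp {K : Set (Eu d)} (hK : MeasurableSet K) {s : Finset (Eu d)}
    (σ : Equiv.Perm (Eu d)) {r : ℝ} (hσ : ∀ x, x ∉ s → σ x = x)
    (hdisj : (s : Set (Eu d)).PairwiseDisjoint (fun x => closedBall x r))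
    (hsub : ∀ x ∈ s, closedBall x r ⊆ K) (Ψ : Eu d → Eu d → ℝ≥0∞)
    (hΨ : Measurable (Function.uncurry Ψ)) :
    ∫⁻ z in K, Ψ z (swapMap s σ r z) = (∫⁻ z in K \ ⋃ x ∈ s, closedBall x r, Ψ z z)
      + ∑ x ∈ s, ∫⁻ z in closedBall x r, Ψ (z + (σ x - x)) z := by
  have hU : MeasurableSet (⋃ x ∈ s, closedBall x r) :=
    Finset.measurableSet_biUnion _ fun x _ => measurableSet_closedBall
  rw [swap_lintegral_decomp hdisj hsub]
  congr 1
  · refine setLIntegral_congr_fun (hK.diff hU) fun z hz => ?_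
    rw [swap_off σ hz.2]
  · have h1 : ∀ x ∈ s, ∫⁻ z in closedBall x r, Ψ z (swapMap s σ r z)
        = ∫⁻ z in closedBall x r, Ψ z (z + (σ.symm x - x)) := by
      intro x hx
      refine setLIntegral_congr_fun measurableSet_closedBall fun z hz => ?_
      rw [swap_on σ hdisj hx hz]
    rw [Finset.sum_congr rfl h1]
    rw [← Equiv.Perm.sum_comp σ s (fun x => ∫⁻ z in closedBall x r, Ψ z (z + (σ.symm x - x)))
      (by intro a ha; by_contra h; exact ha (hσ a h))]
    refine Finset.sum_congr rfl fun x _ => ?_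
    simp only [Equiv.symm_apply_apply]
    have hmp := measurePreserving_add_right (volume : Measure (Eu d)) (x - σ x)
    have hpre : (fun z => z + (x - σ x)) ⁻¹' closedBall x r = closedBall (σ x) r := by
      ext z
      simp only [Set.mem_preimage, mem_closedBall, dist_eq_norm]
      congr! 2
      abel
    have hm : Measurable fun z => Ψ (z + (σ x - x)) z :=
      hΨ.comp ((measurable_id.add_const _).prodMk measurable_id)
    rw [← hmp.setLIntegral_comp_preimage measurableSet_closedBall hm, hpre]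
    refine lintegral_congr fun z => ?_
    congr 1
    abel

/-- the swap map preserves the restriction of the volume to `K` -/
lemma swap_map_restrict {K : Set (Eu d)} (hK : MeasurableSet K) {s : Finset (Eu d)}
    (σ : Equiv.Perm (Eu d)) {r : ℝ} (hσ : ∀ x, x ∉ s → σ x = x)
    (hdisj : (s : Set (Eu d)).PairwiseDisjoint (fun x => closedBall x r))
    (hsub : ∀ x ∈ s, closedBall x r ⊆ K) :
    (volume.restrict K).map (swapMap s σ r) = volume.restrict K := by
  ext A hA
  rw [Measure.map_apply (swap_measurable s σ r) hA]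
  have h1 : (volume.restrict K) (swapMap s σ r ⁻¹' A)
      = ∫⁻ z in K, A.indicator (fun _ => (1 : ℝ≥0∞)) (swapMap s σ r z) := by
    rw [← lintegral_indicator_one (hA.preimage (swap_measurable s σ r))]
    rfl
  have h2 : (volume.restrict K) A = ∫⁻ z in K, A.indicator (fun _ => (1 : ℝ≥0∞)) z := by
    rw [← lintegral_indicator_one hA]
    rfl
  rw [h1, h2, swap_lintegral_comp hK σ hσ hdisj hsub
    (fun _ w => A.indicator (fun _ => (1 : ℝ≥0∞)) w)
    ((measurable_const.indicator hA).comp measurable_snd), swap_lintegral_decomp hdisj hsub]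

/-- optimality against the swapped map, in `ℝ≥0∞` -/
lemma swap_lintegral_ineq {K : Set (Eu d)} (hK : MeasurableSet K) (hK0 : volume K ≠ 0)
    (hKtop : volume K ≠ ∞) {μ : Measure (Eu d)} {T : Eu d → Eu d}
    (hT : IsOptimalMap (uniformProbOn K) μ T) (hfin : ∫⁻ z in K, ‖z - T z‖ₑ ^ 2 ≠ ∞)
    {s : Finset (Eu d)} (σ : Equiv.Perm (Eu d)) {r : ℝ} (hσ : ∀ x, x ∉ s → σ x = x)
    (hdisj : (s : Set (Eu d)).PairwiseDisjoint (fun x => closedBall x r))
    (hsub : ∀ x ∈ s, closedBall x r ⊆ K) :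
    ∑ x ∈ s, ∫⁻ z in closedBall x r, ‖z - T z‖ₑ ^ 2
      ≤ ∑ x ∈ s, ∫⁻ z in closedBall x r, ‖z + (σ x - x) - T z‖ₑ ^ 2 := by
  obtain ⟨hTm, hTmap, hTopt⟩ := hT
  have hθ := swap_measurable s σ r
  have hSm : Measurable (T ∘ swapMap s σ r) := hTm.comp hθ
  have hSmap : (uniformProbOn K).map (T ∘ swapMap s σ r) = μ := by
    rw [← hTmap, ← Measure.map_map hTm hθ]
    congr 1
    unfold uniformProbOn
    rw [Measure.map_smul, swap_map_restrict hK σ hσ hdisj hsub]
  have h := hTopt _ hSm hSmap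
  unfold uniformProbOn at h
  rw [lintegral_smul_measure, lintegral_smul_measure] at h
  have hc0 : (volume K)⁻¹ ≠ 0 := ENNReal.inv_ne_zero.2 hKtop
  have hctop : (volume K)⁻¹ ≠ ∞ := ENNReal.inv_ne_top.2 hK0
  simp only [smul_eq_mul] at h
  rw [ENNReal.mul_le_mul_iff_right hc0 hctop] at h
  have hΨ : Measurable (Function.uncurry fun (z w : Eu d) => ‖z - T w‖ₑ ^ 2) :=
    ((measurable_fst.sub (hTm.comp measurable_snd)).enorm).pow_const 2
  have h2 := swap_lintegral_comp hK σ hσ hdisj hsub (fun z w => ‖z - T w‖ₑ ^ 2) hΨ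
  simp only [Function.comp] at h
  rw [h2, swap_lintegral_decomp hdisj hsub] at h
  refine (ENNReal.add_le_add_iff_left ?_).1 h
  exact ne_top_of_le_ne_top hfin (lintegral_mono_set Set.sdiff_subset)

/-- bounded measurable functions are integrable on closed balls -/
lemma swap_integrableOn_ball {F : Type*} [NormedAddCommGroup F] [MeasurableSpace F] [BorelSpace F]
    [SecondCountableTopology F] {f : Eu d → F}
    (hf : Measurable f) (x : Eu d) (r : ℝ) {M : ℝ} (hM : ∀ z ∈ closedBall x r, ‖f z‖ ≤ M) :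
    IntegrableOn f (closedBall x r) := by
  refine Measure.integrableOn_of_bounded (M := M) measure_closedBall_lt_top.ne
    hf.aestronglyMeasurable ?_
  exact (ae_restrict_iff' measurableSet_closedBall).2 (Filter.Eventually.of_forall hM)

lemma swap_lintegral_eq {W : Eu d → Eu d} (hW : Measurable W) (x : Eu d) (r : ℝ) {M : ℝ}
    (hM : ∀ z ∈ closedBall x r, ‖W z‖ ≤ M) (v : Eu d) :
    (∫⁻ z in closedBall x r, ‖W z + v‖ₑ ^ 2
      = ENNReal.ofReal (∫ z in closedBall x r, ‖W z + v‖ ^ 2)) ∧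
    ∫ z in closedBall x r, ‖W z + v‖ ^ 2 = (∫ z in closedBall x r, ‖W z‖ ^ 2)
          + (2 * inner ℝ (∫ z in closedBall x r, W z) v
            + (volume (closedBall x r)).toReal * ‖v‖ ^ 2) := by
  have hWi : IntegrableOn W (closedBall x r) := swap_integrableOn_ball hW x r hM
  have hM0 : ∀ z ∈ closedBall x r, 0 ≤ M := fun z hz => (norm_nonneg _).trans (hM z hz)
  have hW2 : IntegrableOn (fun z => ‖W z‖ ^ 2) (closedBall x r) := by
    refine swap_integrableOn_ball (hW.norm.pow_const 2) x r (M := M ^ 2) fun z hz => ?_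
    rw [Real.norm_of_nonneg (by positivity)]
    exact pow_le_pow_left₀ (norm_nonneg _) (hM z hz) 2
  have hin : IntegrableOn (fun z => inner ℝ v (W z)) (closedBall x r) := hWi.const_inner v
  have hc : IntegrableOn (fun _ : Eu d => ‖v‖ ^ 2) (closedBall x r) :=
    integrableOn_const measure_closedBall_lt_top.ne
  have hexp : ∀ z, ‖W z + v‖ ^ 2 = ‖W z‖ ^ 2 + (2 * inner ℝ v (W z) + ‖v‖ ^ 2) := by
    intro z
    rw [norm_add_sq_real, real_inner_comm]
    ring
  have hint : IntegrableOn (fun z => ‖W z + v‖ ^ 2) (closedBall x r) := by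
    simp only [hexp]
    exact hW2.add ((hin.const_mul 2).add hc)
  have h1 : ∫⁻ z in closedBall x r, ‖W z + v‖ₑ ^ 2
      = ∫⁻ z in closedBall x r, ENNReal.ofReal (‖W z + v‖ ^ 2) := by
    refine lintegral_congr fun z => ?_
    rw [ENNReal.ofReal_pow (norm_nonneg _), ofReal_norm]
  constructor
  · rw [h1, ← ofReal_integral_eq_lintegral_ofReal hint
      (Filter.Eventually.of_forall fun z => by positivity)]
  · simp only [hexp]
    have hs : IntegrableOn (fun z => 2 * inner ℝ v (W z) + ‖v‖ ^ 2) (closedBall x r) :=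
      (hin.const_mul 2).add hc
    rw [integral_add hW2 hs, integral_add (hin.const_mul 2) hc,
      integral_const_mul, integral_inner hWi, setIntegral_const, real_inner_comm]
    simp [Measure.real]

/-- the swap inequality for averages over small balls -/
lemma swap_average_ineq {K : Set (Eu d)} (hK : MeasurableSet K) (hK0 : volume K ≠ 0)
    (hKtop : volume K ≠ ∞) {R : ℝ} (hKb : ∀ z ∈ K, ‖z‖ ≤ R) {μ : Measure (Eu d)} {T : Eu d → Eu d}
    (hT : IsOptimalMap (uniformProbOn K) μ T) {C : ℝ} (hTb : ∀ z, ‖T z‖ ≤ C)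
    {s : Finset (Eu d)} (σ : Equiv.Perm (Eu d)) {r : ℝ} (hr : 0 < r) (hσ : ∀ x, x ∉ s → σ x = x)
    (hdisj : (s : Set (Eu d)).PairwiseDisjoint (fun x => closedBall x r))
    (hsub : ∀ x ∈ s, closedBall x r ⊆ K) :
    0 ≤ ∑ x ∈ s, (2 * inner ℝ (⨍ z in closedBall x r, (z - T z)) (σ x - x) + ‖σ x - x‖ ^ 2) := by
  have hW : Measurable fun z : Eu d => z - T z := measurable_id.sub hT.1
  have hWb : ∀ z ∈ K, ‖z - T z‖ ≤ R + C := fun z hz =>
    (norm_sub_le _ _).trans (add_le_add (hKb z hz) (hTb z))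
  have hfin : ∫⁻ z in K, ‖z - T z‖ₑ ^ 2 ≠ ∞ := by
    have h1 : ∫⁻ z in K, ‖z - T z‖ₑ ^ 2 ≤ ∫⁻ _ in K, ENNReal.ofReal ((R + C) ^ 2) := by
      refine setLIntegral_mono' hK fun z hz => ?_
      rw [← ofReal_norm, ← ENNReal.ofReal_pow (norm_nonneg _)]
      exact ENNReal.ofReal_le_ofReal (pow_le_pow_left₀ (norm_nonneg _) (hWb z hz) 2)
    rw [setLIntegral_const] at h1
    exact ne_top_of_le_ne_top (ENNReal.mul_ne_top ENNReal.ofReal_ne_top hKtop) h1
  have h := swap_lintegral_ineq hK hK0 hKtop hT hfin σ hσ hdisj hsub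
  have hL : ∀ x ∈ s, ∫⁻ z in closedBall x r, ‖z - T z‖ₑ ^ 2
      = ENNReal.ofReal (∫ z in closedBall x r, ‖z - T z‖ ^ 2) := by
    intro x hx
    have := (swap_lintegral_eq hW x r (fun z hz => hWb z (hsub x hx hz)) 0).1
    simpa using this
  have hRr : ∀ x ∈ s, ∫⁻ z in closedBall x r, ‖z + (σ x - x) - T z‖ₑ ^ 2
      = ENNReal.ofReal (∫ z in closedBall x r, ‖z - T z + (σ x - x)‖ ^ 2) := by
    intro x hx
    rw [← (swap_lintegral_eq hW x r (fun z hz => hWb z (hsub x hx hz)) (σ x - x)).1]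
    refine lintegral_congr fun z => ?_
    congr 2
    abel
  rw [Finset.sum_congr rfl hL, Finset.sum_congr rfl hRr,
    ← ENNReal.ofReal_sum_of_nonneg (fun x _ => integral_nonneg fun z => by positivity),
    ← ENNReal.ofReal_sum_of_nonneg (fun x _ => integral_nonneg fun z => by positivity),
    ENNReal.ofReal_le_ofReal_iff
      (Finset.sum_nonneg fun x _ => integral_nonneg fun z => by positivity)] at h
  set b : ℝ := (volume (closedBall (0 : Eu d) r)).toReal with hb
  have hbx : ∀ x : Eu d, (volume (closedBall x r)).toReal = b := fun x => by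
    rw [hb, Measure.addHaar_closedBall_center]
  have hbpos : 0 < b :=
    ENNReal.toReal_pos (measure_closedBall_pos _ _ hr).ne' measure_closedBall_lt_top.ne
  have hE : ∀ x ∈ s, ∫ z in closedBall x r, ‖z - T z + (σ x - x)‖ ^ 2
      = (∫ z in closedBall x r, ‖z - T z‖ ^ 2)
        + b * (2 * inner ℝ (⨍ z in closedBall x r, (z - T z)) (σ x - x) + ‖σ x - x‖ ^ 2) := by
    intro x hx
    rw [(swap_lintegral_eq hW x r (fun z hz => hWb z (hsub x hx hz)) (σ x - x)).2, hbx,
      setAverage_eq, Measure.real, hbx, real_inner_smul_left]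
    field_simp
  rw [Finset.sum_congr rfl hE, Finset.sum_add_distrib, ← Finset.mul_sum] at h
  have h' : 0 ≤ b * ∑ x ∈ s,
      (2 * inner ℝ (⨍ z in closedBall x r, (z - T z)) (σ x - x) + ‖σ x - x‖ ^ 2) := by
    linarith
  exact nonneg_of_mul_nonneg_right h' hbpos

/-- small balls around finitely many interior points are disjoint and contained in `K` -/
lemma swap_eventually_balls {K : Set (Eu d)} (s : Finset (Eu d)) (hs : ∀ x ∈ s, x ∈ interior K) :
    ∀ᶠ r in nhdsWithin (0 : ℝ) (Set.Ioi 0), 0 < r ∧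
      (s : Set (Eu d)).PairwiseDisjoint (fun x => closedBall x r) ∧
      ∀ x ∈ s, closedBall x r ⊆ K := by
  have h0 : ∀ᶠ r in nhdsWithin (0 : ℝ) (Set.Ioi 0), 0 < r := self_mem_nhdsWithin
  have h1 : ∀ᶠ r in nhdsWithin (0 : ℝ) (Set.Ioi 0), ∀ x ∈ s, closedBall x r ⊆ K := by
    rw [Filter.eventually_all_finset]
    intro x hx
    obtain ⟨ε, hε, hsub⟩ := Metric.nhds_basis_closedBall.mem_iff.1 (mem_interior_iff_mem_nhds.1 (hs x hx))
    filter_upwards [Ioo_mem_nhdsGT hε] with r hr
    exact (closedBall_subset_closedBall hr.2.le).trans hsub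
  have h2 : ∀ᶠ r in nhdsWithin (0 : ℝ) (Set.Ioi 0), ∀ x ∈ s, ∀ y ∈ s, x ≠ y →
      Disjoint (closedBall x r) (closedBall y r) := by
    rw [Filter.eventually_all_finset]
    intro x _
    rw [Filter.eventually_all_finset]
    intro y _
    by_cases hxy : x = y
    · exact Filter.Eventually.of_forall fun r h => absurd hxy h
    · have hpos : 0 < dist x y / 2 := by
        have := dist_pos.2 hxy
        positivity
      filter_upwards [Ioo_mem_nhdsGT hpos] with r hr _
      apply closedBall_disjoint_closedBall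
      linarith [hr.2]
  filter_upwards [h0, h1, h2] with r hr0 hr1 hr2
  exact ⟨hr0, fun x hx y hy hxy => hr2 x hx y hy hxy, hr1⟩

end swapmap

/-- The set of good points of an optimal map. -/
theorem exists_cycMon_set {K : Set (Eu d)} (hKc : IsCompact K) (hKv : Convex ℝ K)
    (hKi : (interior K).Nonempty) {Y : Set (Eu d)} (hYc : IsCompact Y)
    {μ : Measure (Eu d)} (hμ : IsProbabilityOn Y μ) {T : Eu d → Eu d}
    (hT : IsOptimalMap (uniformProbOn K) μ T) :
    ∃ G : Set (Eu d), G ⊆ K ∧ volume (K \ G) = 0 ∧ (∀ x ∈ G, T x ∈ Y) ∧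
      ∀ (s : Finset (Eu d)) (σ : Equiv.Perm (Eu d)), (↑s ⊆ G) → (∀ x, x ∉ s → σ x = x) →
        ∑ x ∈ s, inner ℝ (σ x - x) (T x) ≤ 0 := by
  have hKm : MeasurableSet K := hKc.measurableSet
  have hYm : MeasurableSet Y := hYc.measurableSet
  have hKtop : volume K ≠ ∞ := hKc.measure_lt_top.ne
  have hK0 : volume K ≠ 0 := (Measure.measure_pos_of_nonempty_interior _ hKi).ne'
  obtain ⟨R, hR⟩ := hKc.isBounded.exists_norm_le
  obtain ⟨C₀, hC₀⟩ := hYc.isBounded.exists_norm_le
  obtain ⟨hTm, hTmap, hTopt⟩ := hT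
  have hc0 : (volume K)⁻¹ ≠ 0 := ENNReal.inv_ne_zero.2 hKtop
  -- `T x ∈ Y` for a.e. `x ∈ K`
  have hnull : volume (K ∩ T ⁻¹' Yᶜ) = 0 := by
    have h1 : (uniformProbOn K) (T ⁻¹' Yᶜ) = 0 := by
      rw [← Measure.map_apply hTm hYm.compl, hTmap]
      exact hμ.2
    unfold uniformProbOn at h1
    rw [Measure.smul_apply, smul_eq_mul, mul_eq_zero,
      Measure.restrict_apply (hTm hYm.compl)] at h1
    rcases h1 with h1 | h1
    · exact absurd h1 hc0
    · rwa [Set.inter_comm]
  -- the truncated map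
  set D : Set (Eu d) := K ∩ T ⁻¹' Y with hD
  have hDm : MeasurableSet D := hKm.inter (hTm hYm)
  set T' : Eu d → Eu d := D.indicator T with hT'
  have hT'm : Measurable T' := hTm.indicator hDm
  have hT'b : ∀ z, ‖T' z‖ ≤ max C₀ 0 := by
    intro z
    by_cases hz : z ∈ D
    · rw [hT', Set.indicator_of_mem hz]
      exact (hC₀ _ hz.2).trans (le_max_left _ _)
    · rw [hT', Set.indicator_of_notMem hz, norm_zero]
      exact le_max_right _ _
  have hae : T' =ᵐ[uniformProbOn K] T := by
    have h1 : ∀ᵐ z ∂(volume.restrict K), T' z = T z := by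
      rw [ae_restrict_iff' hKm]
      have h2 : ∀ᵐ z ∂(volume : Measure (Eu d)), z ∉ K ∩ T ⁻¹' Yᶜ := measure_eq_zero_iff_ae_notMem.1 hnull
      filter_upwards [h2] with z hz hzK
      have hzD : z ∈ D := ⟨hzK, by
        by_contra h
        exact hz ⟨hzK, h⟩⟩
      rw [hT', Set.indicator_of_mem hzD]
    unfold uniformProbOn
    exact Measure.ae_smul_measure h1 _
  have hT'opt : IsOptimalMap (uniformProbOn K) μ T' := by
    refine ⟨hT'm, ?_, fun S hS hSmap => ?_⟩
    · rw [Measure.map_congr hae, hTmap]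
    · refine le_trans (le_of_eq ?_) (hTopt S hS hSmap)
      refine lintegral_congr_ae ?_
      filter_upwards [hae] with z hz
      rw [hz]
  -- Lebesgue points
  set W : Eu d → Eu d := fun z => z - T' z with hW
  have hT'int : Integrable T' := by
    rw [hT', integrable_indicator_iff hDm]
    refine Measure.integrableOn_of_bounded (M := C₀)
      (ne_top_of_le_ne_top hKtop (measure_mono Set.inter_subset_left)) hTm.aestronglyMeasurable ?_
    exact (ae_restrict_iff' hDm).2 (Filter.Eventually.of_forall fun z hz => hC₀ _ hz.2)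
  have hWloc : LocallyIntegrable W := continuous_id.locallyIntegrable.sub hT'int.locallyIntegrable
  have hleb := IsUnifLocDoublingMeasure.ae_tendsto_average (μ := (volume : Measure (Eu d))) hWloc 1
  set L : Set (Eu d) := {x | Filter.Tendsto (fun r : ℝ => ⨍ z in Metric.closedBall x r, W z)
    (nhdsWithin 0 (Set.Ioi 0)) (nhds (W x))} with hL
  have hLae : ∀ᵐ x ∂(volume : Measure (Eu d)), x ∈ L := by
    filter_upwards [hleb] with x hx
    refine hx (fun _ => x) (fun r => r) Filter.tendsto_id ?_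
    filter_upwards [self_mem_nhdsWithin] with r hr
    exact Metric.mem_closedBall_self (by simpa using (le_of_lt hr))
  refine ⟨interior K ∩ T ⁻¹' Y ∩ L, fun x hx => interior_subset hx.1.1, ?_, fun x hx => hx.1.2, ?_⟩
  · have hsub : K \ (interior K ∩ T ⁻¹' Y ∩ L) ⊆ frontier K ∪ (K ∩ T ⁻¹' Yᶜ) ∪ Lᶜ := by
      intro x hx
      by_cases h1 : x ∈ interior K
      · by_cases h2 : T x ∈ Y
        · right
          intro h3
          exact hx.2 ⟨⟨h1, h2⟩, h3⟩
        · left; right
          exact ⟨hx.1, h2⟩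
      · left; left
        exact ⟨subset_closure hx.1, h1⟩
    refine measure_mono_null hsub ?_
    rw [measure_union_null_iff, measure_union_null_iff]
    exact ⟨⟨hKv.addHaar_frontier _, hnull⟩, hLae⟩
  · intro s σ hsG hσ
    have hev := swap_eventually_balls (K := K) s (fun x hx => (hsG hx).1.1)
    have hlim : Filter.Tendsto (fun r : ℝ => ∑ x ∈ s,
        (2 * inner ℝ (⨍ z in Metric.closedBall x r, (z - T' z)) (σ x - x) + ‖σ x - x‖ ^ 2))
        (nhdsWithin 0 (Set.Ioi 0))
        (nhds (∑ x ∈ s, (2 * inner ℝ (W x) (σ x - x) + ‖σ x - x‖ ^ 2))) := by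
      refine tendsto_finsetSum _ fun x hx => ?_
      have hxL : x ∈ L := (hsG hx).2
      exact ((hxL.inner tendsto_const_nhds).const_mul 2).add tendsto_const_nhds
    have hge : 0 ≤ ∑ x ∈ s, (2 * inner ℝ (W x) (σ x - x) + ‖σ x - x‖ ^ 2) := by
      refine ge_of_tendsto hlim ?_
      filter_upwards [hev] with r hr
      exact swap_average_ineq hKm hK0 hKtop hR hT'opt hT'b σ hr.1 hσ hr.2.1 hr.2.2
    have hterm : ∀ x ∈ s, 2 * inner ℝ (W x) (σ x - x) + ‖σ x - x‖ ^ 2
        = (‖σ x‖ ^ 2 - ‖x‖ ^ 2) - 2 * inner ℝ (σ x - x) (T x) := by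
      intro x hx
      have hxD : x ∈ D := ⟨interior_subset (hsG hx).1.1, (hsG hx).1.2⟩
      have h1 : W x = x - T x := by
        rw [hW]
        simp only [hT', Set.indicator_of_mem hxD]
      have h2 : ‖σ x‖ ^ 2 = ‖x‖ ^ 2 + 2 * inner ℝ x (σ x - x) + ‖σ x - x‖ ^ 2 := by
        rw [← norm_add_sq_real]
        congr 2
        abel
      rw [h1, h2, inner_sub_left, real_inner_comm (T x)]
      ring
    rw [Finset.sum_congr rfl hterm, Finset.sum_sub_distrib, Finset.sum_sub_distrib,
      Equiv.Perm.sum_comp σ s (fun x => ‖x‖ ^ 2) (by intro a ha; by_contra h; exact ha (hσ a h)),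
      ← Finset.mul_sum] at hge
    linarith

end Crest.Agent.OT
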