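import Crest.Agent.Lib_OT_Path
import Crest.Agent.Lib_OT_Disc
import Crest.Agent.Lib_OT_Glue
import Crest.Agent.Lib_OT_Swap
import Crest.Agent.Lib_OT_Rock

/-!
# P9c : assembly of S0109 (real-valued core)
-/

set_option autoImplicit false
open MeasureTheory Filter Topology
open scoped ENNReal NNReal
open Crest.AnalysisR.OT

namespace Crest.Agent.OT

variable {d : ℕ}

lemma asm_volume_pos {K : Set (Eu d)} (hKi : (interior K).Nonempty) : 0 < volume K :=
  (isOpen_interior.measure_pos volume hKi).trans_le (measure_mono interior_subset)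

/-- Brenier-type potential of an optimal map. -/
theorem asm_exists_potential {K : Set (Eu d)} (hKc : IsCompact K) (hKv : Convex ℝ K)
    (hKi : (interior K).Nonempty) {Y : Set (Eu d)} (hYc : IsCompact Y) {RY : ℝ}
    (hRY : ∀ y ∈ Y, ‖y‖ ≤ RY) {μ : Measure (Eu d)} (hμ : IsProbabilityOn Y μ) {T : Eu d → Eu d}
    (hT : IsOptimalMap (uniformProbOn K) μ T) :
    ∃ φ : Eu d → ℝ, (∀ x x', |φ x - φ x'| ≤ RY * ‖x - x'‖) ∧
      ∀ᵐ x ∂(volume.restrict K), ‖T x‖ ≤ RY ∧ ∀ z, φ x + inner ℝ (z - x) (T x) ≤ φ z := by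
  obtain ⟨G, hGK, hG0, hGY, hcyc⟩ := exists_cycMon_set hKc hKv hKi hYc hμ hT
  have hGne : G.Nonempty := by
    by_contra hne
    rw [Set.not_nonempty_iff_eq_empty] at hne
    rw [hne, Set.sdiff_empty] at hG0
    exact (asm_volume_pos hKi).ne' hG0
  obtain ⟨φ, hφ1, hφ2⟩ := rockafellar hGne (fun x hx => hRY _ (hGY x hx)) hcyc
  refine ⟨φ, hφ1, ?_⟩
  rw [ae_restrict_iff' hKc.measurableSet]
  have h0 : ∀ᵐ x ∂(volume : Measure (Eu d)), x ∉ K \ G := measure_eq_zero_iff_ae_notMem.1 hG0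
  filter_upwards [h0] with x hx hxK
  have hxG : x ∈ G := by
    by_contra h
    exact hx ⟨hxK, h⟩
  exact ⟨hRY _ (hGY x hxG), hφ2 x hxG⟩

lemma asm_lip_continuous {φ : Eu d → ℝ} {RY : ℝ} (hφ : ∀ x x', |φ x - φ x'| ≤ RY * ‖x - x'‖) :
    Continuous φ := by
  have hRY : ∀ x x', |φ x - φ x'| ≤ |RY| * ‖x - x'‖ := fun x x' =>
    (hφ x x').trans (mul_le_mul_of_nonneg_right (le_abs_self _) (norm_nonneg _))
  have : LipschitzWith (Real.toNNReal |RY|) φ := by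
    apply LipschitzWith.of_dist_le_mul
    intro x x'
    rw [Real.dist_eq, dist_eq_norm, Real.coe_toNNReal _ (abs_nonneg _)]
    exact hRY x x'
  exact this.continuous

/-- the estimate with parameter `γ`. -/
theorem asm_bound_gamma {K : Set (Eu d)} (hKc : IsCompact K) (hKv : Convex ℝ K)
    (hKi : (interior K).Nonempty) (x₀ : Eu d) {r₀ R : ℝ} (hr₀ : 0 < r₀)
    (hball : Metric.closedBall x₀ r₀ ⊆ K) (hR : 0 < R) (hKR : ∀ x ∈ K, ‖x - x₀‖ ≤ R)
    {Y : Set (Eu d)} (hYc : IsCompact Y) {RY : ℝ} (hRY0 : 0 ≤ RY) (hRY : ∀ y ∈ Y, ‖y‖ ≤ RY)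
    {μ ν : Measure (Eu d)} (hμ : IsProbabilityOn Y μ) (hν : IsProbabilityOn Y ν)
    {T₀ T₁ : Eu d → Eu d} (hT₀ : IsOptimalMap (uniformProbOn K) μ T₀)
    (hT₁ : IsOptimalMap (uniformProbOn K) ν T₁)
    {π : Measure (Eu d × Eu d)} (hπ : IsPairCoupling μ ν π) {h : ℝ} (hh : 0 < h) (hhr : h ≤ r₀)
    {γ : ℝ} (hγ : 0 < γ) :
    ∫ x in K, ‖T₁ x - T₀ x‖ ^ 2
      ≤ d * (64 * (2 * (momC * R ^ 2 * (3 * ((volume K).toReal * (quadCost π).toReal + γ + γ)))
            + 8 * γ ^ 2 * (volume K).toReal) / h ^ 2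
          + 20 * d * RY ^ 2 * (h / r₀) * (volume K).toReal) := by
  have := hμ.1
  have := hν.1
  obtain ⟨φ₀, hφ₀L, hφ₀⟩ := asm_exists_potential hKc hKv hKi hYc hRY hμ hT₀
  obtain ⟨φ₁, hφ₁L, hφ₁⟩ := asm_exists_potential hKc hKv hKi hYc hRY hν hT₁
  obtain ⟨I, _, _, y, a, hy, hapos, hapot, hacost⟩ :=
    exists_discretisation hKc hKv hKi hRY0 φ₀ hφ₀L T₀ hT₀.1 hφ₀ hγ
  obtain ⟨J, _, _, z, c, hz, hcpos, hcpot, hccost⟩ :=
    exists_discretisation hKc hKv hKi hRY0 φ₁ hφ₁L T₁ hT₁.1 hφ₁ hγ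
  obtain ⟨P, hP0, hPμ, hPν, hPcost⟩ := exists_discrete_coupling (RY := RY) hKc (asm_volume_pos hKi)
    hT₀.1 hT₁.1 hT₀.2.1 hT₁.2.1 (hφ₀.mono fun x hx => hx.1) (hφ₁.mono fun x hx => hx.1) hπ y z
    (cell K y a) (cell K z c) (measurableSet_cell hKc.measurableSet y a)
    (measurableSet_cell hKc.measurableSet z c) (cell_subset K y a) (cell_subset K z c)
    (fun i i' hii => cell_aedisjoint K y hy a hii) (fun j j' hjj => cell_aedisjoint K z hz c hjj)
    (by rw [iUnion_cell]; simp) (by rw [iUnion_cell]; simp)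
  obtain ⟨κ, hκ⟩ := potential_stability_discrete hKc hKv hKi x₀ hR hKR y hy z hz a c P hP0 hPμ hPν
    hapos hcpos
  have hVfin : volume K ≠ ⊤ := hKc.measure_lt_top.ne
  -- bound on the L² distance of the potentials
  have hc0 : Continuous φ₀ := asm_lip_continuous hφ₀L
  have hc1 : Continuous φ₁ := asm_lip_continuous hφ₁L
  have hcy : Continuous (pot y a) := continuous_pot y a
  have hcz : Continuous (pot z c) := continuous_pot z c
  have hint1 : IntegrableOn (fun x => (φ₁ x - φ₀ x - κ) ^ 2) K :=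
    (by fun_prop : Continuous fun x => (φ₁ x - φ₀ x - κ) ^ 2).continuousOn.integrableOn_compact hKc
  have hint2 : IntegrableOn (fun x => (pot z c x - pot y a x - κ) ^ 2) K :=
    (by fun_prop : Continuous fun x => (pot z c x - pot y a x - κ) ^ 2).continuousOn.integrableOn_compact
      hKc
  have hint3 : IntegrableOn (fun x => 2 * (pot z c x - pot y a x - κ) ^ 2 + 8 * γ ^ 2) K :=
    (hint2.const_mul 2).add (integrableOn_const hVfin)
  have hL2 : ∫ x in K, (φ₁ x - φ₀ x - κ) ^ 2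
      ≤ 2 * (momC * R ^ 2 * (3 * ((volume K).toReal * (quadCost π).toReal + γ + γ)))
            + 8 * γ ^ 2 * (volume K).toReal := by
    have h1 : ∫ x in K, (φ₁ x - φ₀ x - κ) ^ 2
        ≤ ∫ x in K, (2 * (pot z c x - pot y a x - κ) ^ 2 + 8 * γ ^ 2) := by
      apply integral_mono_ae hint1 hint3
      filter_upwards [hapot, hcpot] with x hxa hxc
      have e : φ₁ x - φ₀ x - κ = (pot z c x - pot y a x - κ)
          + ((pot y a x - φ₀ x) - (pot z c x - φ₁ x)) := by ring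
      have hb : |(pot y a x - φ₀ x) - (pot z c x - φ₁ x)| ≤ 2 * γ := by
        have := abs_sub (pot y a x - φ₀ x) (pot z c x - φ₁ x)
        linarith
      have hb2 : ((pot y a x - φ₀ x) - (pot z c x - φ₁ x)) ^ 2 ≤ (2 * γ) ^ 2 := by
        rw [← sq_abs]
        exact pow_le_pow_left₀ (abs_nonneg _) hb 2
      show (φ₁ x - φ₀ x - κ) ^ 2 ≤ 2 * (pot z c x - pot y a x - κ) ^ 2 + 8 * γ ^ 2
      rw [e]
      nlinarith [sq_nonneg ((pot z c x - pot y a x - κ)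
          - ((pot y a x - φ₀ x) - (pot z c x - φ₁ x)))]
    have h2 : ∫ x in K, (2 * (pot z c x - pot y a x - κ) ^ 2 + 8 * γ ^ 2)
        = 2 * (∫ x in K, (pot z c x - pot y a x - κ) ^ 2) + 8 * γ ^ 2 * (volume K).toReal := by
      rw [integral_add (hint2.const_mul 2) (integrableOn_const hVfin), integral_const_mul,
        setIntegral_const]
      simp [Measure.real, mul_comm]
    have h3 : ∑ i, ∑ j, P i j * ‖y i - z j‖ ^ 2
        ≤ 3 * ((volume K).toReal * (quadCost π).toReal + γ + γ) := by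
      refine hPcost.trans ?_
      gcongr
    have h4 : momC * R ^ 2 * ∑ i, ∑ j, P i j * ‖y i - z j‖ ^ 2
        ≤ momC * R ^ 2 * (3 * ((volume K).toReal * (quadCost π).toReal + γ + γ)) :=
      mul_le_mul_of_nonneg_left h3 (mul_nonneg momC_nonneg (sq_nonneg R))
    rw [h2] at h1
    linarith
  have hG := grad_bound hKc hKv x₀ hr₀ hball hRY0 φ₀ φ₁ hφ₀L hφ₁L T₀ T₁ hT₀.1 hT₁.1 hφ₀ hφ₁ κ hh hhr
  refine hG.trans ?_
  have hh2 : 0 < h ^ 2 := by positivity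
  gcongr

/-- the estimate after `γ → 0`. -/
theorem asm_bound {K : Set (Eu d)} (hKc : IsCompact K) (hKv : Convex ℝ K)
    (hKi : (interior K).Nonempty) (x₀ : Eu d) {r₀ R : ℝ} (hr₀ : 0 < r₀)
    (hball : Metric.closedBall x₀ r₀ ⊆ K) (hR : 0 < R) (hKR : ∀ x ∈ K, ‖x - x₀‖ ≤ R)
    {Y : Set (Eu d)} (hYc : IsCompact Y) {RY : ℝ} (hRY0 : 0 ≤ RY) (hRY : ∀ y ∈ Y, ‖y‖ ≤ RY)
    {μ ν : Measure (Eu d)} (hμ : IsProbabilityOn Y μ) (hν : IsProbabilityOn Y ν)
    {T₀ T₁ : Eu d → Eu d} (hT₀ : IsOptimalMap (uniformProbOn K) μ T₀)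
    (hT₁ : IsOptimalMap (uniformProbOn K) ν T₁)
    {π : Measure (Eu d × Eu d)} (hπ : IsPairCoupling μ ν π) {h : ℝ} (hh : 0 < h) (hhr : h ≤ r₀) :
    ∫ x in K, ‖T₁ x - T₀ x‖ ^ 2
      ≤ d * (384 * momC * R ^ 2 * ((volume K).toReal * (quadCost π).toReal) / h ^ 2
          + 20 * d * RY ^ 2 * (h / r₀) * (volume K).toReal) := by
  set V := (volume K).toReal with hV
  set q := (quadCost π).toReal with hq
  let f : ℝ → ℝ := fun γ => d * (64 * (2 * (momC * R ^ 2 * (3 * (V * q + γ + γ)))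
            + 8 * γ ^ 2 * V) / h ^ 2 + 20 * d * RY ^ 2 * (h / r₀) * V)
  have hf : Continuous f := by fun_prop
  have hf0 : f 0 = d * (384 * momC * R ^ 2 * (V * q) / h ^ 2 + 20 * d * RY ^ 2 * (h / r₀) * V) := by
    simp only [f]
    ring
  have ht : Tendsto f (𝓝[>] 0) (𝓝 (f 0)) := hf.continuousAt.tendsto.mono_left nhdsWithin_le_nhds
  rw [← hf0]
  refine ge_of_tendsto ht ?_
  filter_upwards [self_mem_nhdsWithin] with γ hγ
  exact asm_bound_gamma hKc hKv hKi x₀ hr₀ hball hR hKR hYc hRY0 hRY hμ hν hT₀ hT₁ hπ hh hhr hγ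

/-- a.e. bound of an optimal map. -/
lemma asm_ae_bound {K : Set (Eu d)} (hKc : IsCompact K)
    {Y : Set (Eu d)} (hYc : IsCompact Y) {RY : ℝ}
    (hRY : ∀ y ∈ Y, ‖y‖ ≤ RY) {μ : Measure (Eu d)} (hμ : IsProbabilityOn Y μ) {T : Eu d → Eu d}
    (hT : IsOptimalMap (uniformProbOn K) μ T) :
    ∀ᵐ x ∂(volume.restrict K), ‖T x‖ ≤ RY := by
  have h1 : (uniformProbOn K) (T ⁻¹' Yᶜ) = 0 := by
    rw [← Measure.map_apply hT.1 hYc.measurableSet.compl, hT.2.1]
    exact hμ.2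
  have h2 : (volume.restrict K) (T ⁻¹' Yᶜ) = 0 := by
    unfold uniformProbOn at h1
    rw [Measure.smul_apply, smul_eq_mul, mul_eq_zero] at h1
    rcases h1 with h1 | h1
    · exact absurd (ENNReal.inv_eq_zero.1 h1) hKc.measure_lt_top.ne
    · exact h1
  have h3 : ∀ᵐ x ∂(volume.restrict K), x ∉ T ⁻¹' Yᶜ := measure_eq_zero_iff_ae_notMem.1 h2
  filter_upwards [h3] with x hx
  apply hRY
  by_contra hc
  exact hx hc

lemma asm_integrable {K : Set (Eu d)} (hKc : IsCompact K) {RY : ℝ} {T₀ T₁ : Eu d → Eu d}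
    (hT₀m : Measurable T₀) (hT₁m : Measurable T₁)
    (hT₀ : ∀ᵐ x ∂(volume.restrict K), ‖T₀ x‖ ≤ RY) (hT₁ : ∀ᵐ x ∂(volume.restrict K), ‖T₁ x‖ ≤ RY) :
    IntegrableOn (fun x => ‖T₁ x - T₀ x‖ ^ 2) K ∧
      ∀ᵐ x ∂(volume.restrict K), ‖T₁ x - T₀ x‖ ^ 2 ≤ 4 * RY ^ 2 := by
  have hb : ∀ᵐ x ∂(volume.restrict K), ‖T₁ x - T₀ x‖ ^ 2 ≤ 4 * RY ^ 2 := by
    filter_upwards [hT₀, hT₁] with x h0 h1
    have h2 : ‖T₁ x - T₀ x‖ ≤ 2 * RY := by
      have := norm_sub_le (T₁ x) (T₀ x)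
      linarith
    calc ‖T₁ x - T₀ x‖ ^ 2 ≤ (2 * RY) ^ 2 := pow_le_pow_left₀ (norm_nonneg _) h2 2
      _ = 4 * RY ^ 2 := by ring
  refine ⟨?_, hb⟩
  refine Measure.integrableOn_of_bounded (M := 4 * RY ^ 2) hKc.measure_lt_top.ne
    ((hT₁m.sub hT₀m).norm.pow_const 2).aestronglyMeasurable ?_
  filter_upwards [hb] with x hx
  rw [Real.norm_eq_abs, abs_of_nonneg (by positivity)]
  exact hx

lemma asm_lintegral_eq {K : Set (Eu d)} (hKc : IsCompact K) (hKi : (interior K).Nonempty)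
    {T₀ T₁ : Eu d → Eu d} (hint : IntegrableOn (fun x => ‖T₁ x - T₀ x‖ ^ 2) K) :
    ∫⁻ x, ‖T₀ x - T₁ x‖ₑ ^ 2 ∂(uniformProbOn K)
      = ENNReal.ofReal ((∫ x in K, ‖T₁ x - T₀ x‖ ^ 2) / (volume K).toReal) := by
  have hVpos : 0 < (volume K).toReal :=
    ENNReal.toReal_pos (asm_volume_pos hKi).ne' hKc.measure_lt_top.ne
  unfold uniformProbOn
  rw [lintegral_smul_measure, smul_eq_mul, div_eq_inv_mul,
    ENNReal.ofReal_mul (inv_nonneg.2 hVpos.le), ENNReal.ofReal_inv_of_pos hVpos,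
    ENNReal.ofReal_toReal hKc.measure_lt_top.ne,
    ofReal_integral_eq_lintegral_ofReal hint (Eventually.of_forall fun x => by positivity)]
  congr 1
  apply lintegral_congr
  intro x
  rw [ENNReal.ofReal_pow (norm_nonneg _), ofReal_norm, ← enorm_neg, neg_sub]

theorem asm_final (K : Set (Eu d)) (hKc : IsCompact K) (hKv : Convex ℝ K)
    (hKi : (interior K).Nonempty) (Y : Set (Eu d)) (hYc : IsCompact Y) :
    ∃ C : ℝ≥0, ∀ μ ν : Measure (Eu d), IsProbabilityOn Y μ → IsProbabilityOn Y ν →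
      ∀ Tμ Tν : Eu d → Eu d,
        IsOptimalMap (uniformProbOn K) μ Tμ → IsOptimalMap (uniformProbOn K) ν Tν →
        ∀ π : Measure (Eu d × Eu d), IsPairCoupling μ ν π →
          ∫⁻ x, ‖Tμ x - Tν x‖ₑ ^ 2 ∂(uniformProbOn K) ≤ C * quadCost π ^ (1 / 3 : ℝ) := by
  obtain ⟨x₀, hx₀⟩ := hKi
  obtain ⟨r₀, hr₀, hball⟩ := Metric.nhds_basis_closedBall.mem_iff.1 (mem_interior_iff_mem_nhds.1 hx₀)
  have hKi : (interior K).Nonempty := ⟨x₀, hx₀⟩
  obtain ⟨R₁, hR₁⟩ := hKc.isBounded.subset_closedBall x₀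
  set R := max R₁ 1 with hRdef
  have hR : 0 < R := lt_of_lt_of_le one_pos (le_max_right _ _)
  have hKR : ∀ x ∈ K, ‖x - x₀‖ ≤ R := fun x hx => by
    have := hR₁ hx
    rw [Metric.mem_closedBall, dist_eq_norm] at this
    exact this.trans (le_max_left _ _)
  obtain ⟨RY₁, hRY₁⟩ := hYc.isBounded.exists_norm_le
  set RY := max RY₁ 0 with hRYdef
  have hRY0 : 0 ≤ RY := le_max_right _ _
  have hRY : ∀ y ∈ Y, ‖y‖ ≤ RY := fun y hy => (hRY₁ y hy).trans (le_max_left _ _)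
  set V := (volume K).toReal with hV
  have hVpos : 0 < V := ENNReal.toReal_pos (asm_volume_pos hKi).ne' hKc.measure_lt_top.ne
  set C₁ : ℝ := d * (384 * momC * R ^ 2 / r₀ ^ 2 + 20 * d * RY ^ 2) with hC₁
  set C₂ : ℝ := 4 * RY ^ 2 with hC₂
  have hC₁0 : 0 ≤ C₁ := by
    have := momC_nonneg
    positivity
  have hC₂0 : 0 ≤ C₂ := by positivity
  refine ⟨(C₁ + C₂).toNNReal, ?_⟩
  intro μ ν hμ hν T₀ T₁ hT₀ hT₁ π hπ
  have hb₀ := asm_ae_bound hKc hYc hRY hμ hT₀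
  have hb₁ := asm_ae_bound hKc hYc hRY hν hT₁
  obtain ⟨hint, hbd⟩ := asm_integrable hKc hT₀.1 hT₁.1 hb₀ hb₁
  rw [asm_lintegral_eq hKc hKi hint]
  set A := ∫ x in K, ‖T₁ x - T₀ x‖ ^ 2 with hA
  have hA0 : 0 ≤ A := integral_nonneg fun x => by positivity
  have hAtriv : A ≤ C₂ * V := by
    have h1 : A ≤ ∫ x in K, C₂ := integral_mono_ae hint (integrableOn_const hKc.measure_lt_top.ne) hbd
    rw [setIntegral_const] at h1
    simpa [Measure.real, mul_comm, hV] using h1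
  have hcoe : ((C₁ + C₂).toNNReal : ℝ≥0∞) = ENNReal.ofReal (C₁ + C₂) := rfl
  rw [hcoe]
  have key := fun {h : ℝ} (hh : 0 < h) (hhr : h ≤ r₀) =>
    asm_bound hKc hKv hKi x₀ hr₀ hball hR hKR hYc hRY0 hRY hμ hν hT₀ hT₁ hπ hh hhr
  rcases lt_or_ge 1 (quadCost π) with hq | hq
  · -- trivial bound
    have h1 : (1 : ℝ≥0∞) ≤ quadCost π ^ (1 / 3 : ℝ) := ENNReal.one_le_rpow hq.le (by norm_num)
    calc ENNReal.ofReal (A / V) ≤ ENNReal.ofReal (C₁ + C₂) := by
          apply ENNReal.ofReal_le_ofReal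
          rw [div_le_iff₀ hVpos]
          nlinarith
      _ = ENNReal.ofReal (C₁ + C₂) * 1 := (mul_one _).symm
      _ ≤ ENNReal.ofReal (C₁ + C₂) * quadCost π ^ (1 / 3 : ℝ) := by gcongr
  · have hqfin : quadCost π ≠ ⊤ := (hq.trans_lt ENNReal.one_lt_top).ne
    set t := (quadCost π).toReal with ht
    have hqt : quadCost π = ENNReal.ofReal t := (ENNReal.ofReal_toReal hqfin).symm
    have ht0 : 0 ≤ t := ENNReal.toReal_nonneg
    have ht1 : t ≤ 1 := by
      have := ENNReal.toReal_mono ENNReal.one_ne_top hq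
      simpa using this
    rw [hqt, ENNReal.ofReal_rpow_of_nonneg ht0 (by norm_num), ← ENNReal.ofReal_mul (by positivity)]
    apply ENNReal.ofReal_le_ofReal
    rw [div_le_iff₀ hVpos]
    rcases ht0.eq_or_lt with ht00 | htpos
    · -- t = 0
      have hA_le : A ≤ 0 := by
        let f : ℝ → ℝ := fun h => d * (20 * d * RY ^ 2 * (h / r₀) * V)
        have hf : Continuous f := by fun_prop
        have hf0 : f 0 = 0 := by simp [f]
        have htd : Tendsto f (𝓝[>] 0) (𝓝 0) := by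
          have := (hf.continuousAt (x := 0)).tendsto.mono_left
            (nhdsWithin_le_nhds (s := Set.Ioi (0 : ℝ)))
          rwa [hf0] at this
        refine ge_of_tendsto htd ?_
        have hmem : Set.Ioc (0 : ℝ) r₀ ∈ 𝓝[>] (0 : ℝ) := Ioc_mem_nhdsGT hr₀
        filter_upwards [hmem] with h hh
        have := key hh.1 hh.2
        rw [← ht00] at this
        simpa [f] using this
      have : 0 ≤ (C₁ + C₂) * t ^ (1 / 3 : ℝ) * V := by positivity
      linarith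
    · set u := t ^ (1 / 3 : ℝ) with hu
      have hupos : 0 < u := Real.rpow_pos_of_pos htpos _
      have hu3 : u ^ 3 = t := by
        rw [hu, ← Real.rpow_natCast, ← Real.rpow_mul ht0]
        norm_num
      have hu1 : u ≤ 1 := Real.rpow_le_one ht0 ht1 (by norm_num)
      have hh : 0 < r₀ * u := by positivity
      have hhr : r₀ * u ≤ r₀ := by nlinarith
      have := key hh hhr
      rw [← hu3] at this
      have e : (d : ℝ) * (384 * momC * R ^ 2 * ((volume K).toReal * u ^ 3) / (r₀ * u) ^ 2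
          + 20 * d * RY ^ 2 * (r₀ * u / r₀) * (volume K).toReal) = C₁ * u * V := by
        rw [hC₁, hV]
        field_simp
      rw [e] at this
      have h2 : 0 ≤ C₂ * u * V := by positivity
      nlinarith

end Crest.Agent.OT
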