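import Crest.Agent.Lib_OT_Defs

/-!
# P2 : Laguerre cells, max-affine potentials, weak/strong duality for fractional assignments
-/

set_option autoImplicit false
open MeasureTheory
open scoped ENNReal NNReal

namespace Crest.Agent.OT

variable {d : ℕ}

section P2
variable {Ω : Type*}

lemma continuous_aff (Y : Ω → Eu d) (b : Ω → ℝ) (ω : Ω) : Continuous (aff Y b ω) := by
  unfold aff; fun_prop

lemma aff_add_inner (Y : Ω → Eu d) (b : Ω → ℝ) (ω : Ω) (x z : Eu d) :
    aff Y b ω z = aff Y b ω x + inner ℝ (z - x) (Y ω) := by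
  unfold aff; rw [inner_sub_left]; ring

lemma cell_subset (K : Set (Eu d)) (Y : Ω → Eu d) (b : Ω → ℝ) (ω : Ω) : cell K Y b ω ⊆ K :=
  fun _ hx => hx.1

lemma hyperplane_null (v : Eu d) (hv : v ≠ 0) (c : ℝ) :
    volume {x : Eu d | inner ℝ x v = c} = 0 := by
  by_cases h : ∃ x₁ : Eu d, inner ℝ x₁ v = c
  · obtain ⟨x₁, hx₁⟩ := h
    have hker : volume ((LinearMap.ker (innerₛₗ ℝ v) : Submodule ℝ (Eu d)) : Set (Eu d)) = 0 := by
      apply Measure.addHaar_submodule
      intro htop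
      have h1 : v ∈ LinearMap.ker (innerₛₗ ℝ v) := by rw [htop]; trivial
      have h2 : inner ℝ v v = 0 := by simpa using h1
      exact hv (inner_self_eq_zero.mp h2)
    have hset : {x : Eu d | inner ℝ x v = c}
        = (fun x => x + (-x₁)) ⁻¹' ((LinearMap.ker (innerₛₗ ℝ v) : Submodule ℝ (Eu d)) : Set (Eu d)) := by
      ext x
      simp only [Set.mem_ofPred_eq, Set.mem_preimage, SetLike.mem_coe, LinearMap.mem_ker,
        innerₛₗ_apply_apply]
      rw [inner_add_right, inner_neg_right, real_inner_comm x v, real_inner_comm x₁ v, hx₁]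
      constructor
      · intro h; rw [h]; ring
      · intro h; linarith
    rw [hset, measure_preimage_add_right]; exact hker
  · have : {x : Eu d | inner ℝ x v = c} = ∅ := by
      ext x; simp only [Set.mem_ofPred_eq, Set.mem_empty_iff_false, iff_false]
      intro hx; exact h ⟨x, hx⟩
    rw [this]; simp

lemma aff_eq_null (Y : Ω → Eu d) (hY : Function.Injective Y) (b : Ω → ℝ) {ω ω' : Ω} (h : ω ≠ ω') :
    volume {x : Eu d | aff Y b ω x = aff Y b ω' x} = 0 := by
  have hv : Y ω - Y ω' ≠ 0 := sub_ne_zero.mpr (fun e => h (hY e))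
  have := hyperplane_null (Y ω - Y ω') hv (b ω - b ω')
  convert this using 2
  ext x
  simp only [aff, Set.mem_ofPred_eq, inner_sub_right]
  constructor <;> intro h <;> linarith

lemma cell_midpoint {K : Set (Eu d)} (hK : Convex ℝ K) (Y : Ω → Eu d) (a b : Ω → ℝ) (ω : Ω)
    {x x' : Eu d} (hx : x ∈ cell K Y a ω) (hx' : x' ∈ cell K Y b ω) :
    (1 / 2 : ℝ) • (x + x') ∈ cell K Y (fun ω => (a ω + b ω) / 2) ω := by
  have key : ∀ ω', aff Y (fun ω => (a ω + b ω) / 2) ω' ((1 / 2 : ℝ) • (x + x'))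
      = (aff Y a ω' x + aff Y b ω' x') / 2 := by
    intro ω'
    simp only [aff, inner_smul_left, inner_add_left]
    simp; ring
  refine ⟨?_, ?_⟩
  · have := hK hx.1 hx'.1 (by norm_num : (0:ℝ) ≤ 1/2) (by norm_num : (0:ℝ) ≤ 1/2) (by norm_num)
    rwa [← smul_add] at this
  · intro ω'
    rw [key, key]
    have h1 := hx.2 ω'
    have h2 := hx'.2 ω'
    linarith

lemma cell_aedisjoint (K : Set (Eu d)) (Y : Ω → Eu d) (hY : Function.Injective Y) (b : Ω → ℝ)
    {ω ω' : Ω} (h : ω ≠ ω') : volume (cell K Y b ω ∩ cell K Y b ω') = 0 := by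
  refine measure_mono_null ?_ (aff_eq_null Y hY b h)
  intro x hx
  exact le_antisymm (hx.2.2 ω) (hx.1.2 ω')

variable [Fintype Ω]

lemma measurableSet_cell {K : Set (Eu d)} (hK : MeasurableSet K) (Y : Ω → Eu d) (b : Ω → ℝ) (ω : Ω) :
    MeasurableSet (cell K Y b ω) := by
  have : cell K Y b ω = K ∩ ⋂ ω', {x | aff Y b ω' x ≤ aff Y b ω x} := by
    ext x; simp [cell]
  rw [this]
  refine hK.inter (MeasurableSet.iInter fun ω' => ?_)
  exact (isClosed_le (continuous_aff Y b ω') (continuous_aff Y b ω)).measurableSet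

/-- for distinct sites, a.e. point sees pairwise distinct affine values -/
lemma ae_injective_aff (Y : Ω → Eu d) (hY : Function.Injective Y) (b : Ω → ℝ) :
    ∀ᵐ x : Eu d, Function.Injective (fun ω => aff Y b ω x) := by
  have h : ∀ᵐ x : Eu d, ∀ ω ω' : Ω, ω ≠ ω' → aff Y b ω x ≠ aff Y b ω' x := by
    rw [ae_all_iff]; intro ω
    rw [ae_all_iff]; intro ω'
    by_cases hne : ω = ω'
    · exact Filter.Eventually.of_forall fun x h => absurd hne h
    · have := aff_eq_null Y hY b hne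
      filter_upwards [measure_eq_zero_iff_ae_notMem.mp this] with x hx _
      exact hx
  filter_upwards [h] with x hx ω ω' he
  by_contra hne
  exact hx ω ω' hne he

lemma iUnion_cell [Nonempty Ω] (K : Set (Eu d)) (Y : Ω → Eu d) (b : Ω → ℝ) :
    ⋃ ω, cell K Y b ω = K := by
  ext x
  simp only [Set.mem_iUnion]
  constructor
  · rintro ⟨ω, hx⟩; exact hx.1
  · intro hx
    obtain ⟨ω, hω⟩ := Finite.exists_max (fun ω => aff Y b ω x)
    exact ⟨ω, hx, hω⟩

lemma aff_le_pot [Nonempty Ω] (Y : Ω → Eu d) (b : Ω → ℝ) (ω : Ω) (x : Eu d) :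
    aff Y b ω x ≤ pot Y b x :=
  Finset.le_sup' (fun ω => aff Y b ω x) (Finset.mem_univ ω)

lemma pot_le_iff [Nonempty Ω] (Y : Ω → Eu d) (b : Ω → ℝ) (x : Eu d) (c : ℝ) :
    pot Y b x ≤ c ↔ ∀ ω, aff Y b ω x ≤ c := by
  unfold pot; simp [Finset.sup'_le_iff]

lemma exists_pot_eq [Nonempty Ω] (Y : Ω → Eu d) (b : Ω → ℝ) (x : Eu d) :
    ∃ ω, pot Y b x = aff Y b ω x := by
  obtain ⟨ω, _, hω⟩ := Finset.exists_mem_eq_sup' (Finset.univ_nonempty (α := Ω))
    (fun ω => aff Y b ω x)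
  exact ⟨ω, hω⟩

lemma pot_eq_of_mem_cell [Nonempty Ω] {K : Set (Eu d)} {Y : Ω → Eu d} {b : Ω → ℝ} {ω : Ω} {x : Eu d}
    (hx : x ∈ cell K Y b ω) : pot Y b x = aff Y b ω x :=
  le_antisymm ((pot_le_iff Y b x _).mpr hx.2) (aff_le_pot Y b ω x)

lemma mem_cell_iff_pot [Nonempty Ω] {K : Set (Eu d)} {Y : Ω → Eu d} {b : Ω → ℝ} {ω : Ω} {x : Eu d} :
    x ∈ cell K Y b ω ↔ x ∈ K ∧ pot Y b x = aff Y b ω x := by
  constructor
  · intro hx; exact ⟨hx.1, pot_eq_of_mem_cell hx⟩
  · rintro ⟨hK, h⟩; exact ⟨hK, fun ω' => h ▸ aff_le_pot Y b ω' x⟩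

lemma continuous_pot [Nonempty Ω] (Y : Ω → Eu d) (b : Ω → ℝ) : Continuous (pot Y b) := by
  unfold pot
  exact Continuous.finset_sup'_apply _ (fun ω _ => continuous_aff Y b ω)

lemma pot_abs_sub_le_of_aff [Nonempty Ω] (Y Y' : Ω → Eu d) (b b' : Ω → ℝ) (x x' : Eu d) {δ : ℝ}
    (h : ∀ ω, |aff Y b ω x - aff Y' b' ω x'| ≤ δ) : |pot Y b x - pot Y' b' x'| ≤ δ := by
  rw [abs_sub_le_iff]
  constructor
  · have : pot Y b x ≤ pot Y' b' x' + δ := by
      rw [pot_le_iff]; intro ω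
      have h1 := (abs_sub_le_iff.mp (h ω)).1
      have h2 := aff_le_pot Y' b' ω x'
      linarith
    linarith
  · have : pot Y' b' x' ≤ pot Y b x + δ := by
      rw [pot_le_iff]; intro ω
      have h1 := (abs_sub_le_iff.mp (h ω)).2
      have h2 := aff_le_pot Y b ω x
      linarith
    linarith

lemma pot_lipschitz [Nonempty Ω] (Y : Ω → Eu d) (b : Ω → ℝ) {RY : ℝ} (hY : ∀ ω, ‖Y ω‖ ≤ RY)
    (x x' : Eu d) : |pot Y b x - pot Y b x'| ≤ RY * ‖x - x'‖ := by
  apply pot_abs_sub_le_of_aff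
  intro ω
  have : aff Y b ω x - aff Y b ω x' = inner ℝ (x - x') (Y ω) := by
    simp only [aff, inner_sub_left]; ring
  rw [this]
  calc |inner ℝ (x - x') (Y ω)| ≤ ‖x - x'‖ * ‖Y ω‖ := abs_real_inner_le_norm _ _
    _ ≤ ‖x - x'‖ * RY := by gcongr; exact hY ω
    _ = RY * ‖x - x'‖ := by ring

lemma pot_sub_le [Nonempty Ω] (Y : Ω → Eu d) (b b' : Ω → ℝ) {δ : ℝ} (h : ∀ ω, |b ω - b' ω| ≤ δ)
    (x : Eu d) : |pot Y b x - pot Y b' x| ≤ δ := by
  apply pot_abs_sub_le_of_aff
  intro ω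
  have : aff Y b ω x - aff Y b' ω x = -(b ω - b' ω) := by simp only [aff]; ring
  rw [this, abs_neg]; exact h ω

lemma pot_add_const [Nonempty Ω] (Y : Ω → Eu d) (b : Ω → ℝ) (t : ℝ) (x : Eu d) :
    pot Y (fun ω => b ω + t) x = pot Y b x - t := by
  apply le_antisymm
  · rw [pot_le_iff]; intro ω
    have := aff_le_pot Y b ω x
    simp only [aff] at this ⊢; linarith
  · have : pot Y b x ≤ pot Y (fun ω => b ω + t) x + t := by
      rw [pot_le_iff]; intro ω
      have := aff_le_pot Y (fun ω => b ω + t) ω x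
      simp only [aff] at this ⊢; linarith
    linarith

omit [Fintype Ω] in
lemma cell_add_const (K : Set (Eu d)) (Y : Ω → Eu d) (b : Ω → ℝ) (t : ℝ) (ω : Ω) :
    cell K Y (fun ω => b ω + t) ω = cell K Y b ω := by
  ext x
  simp only [cell, aff, Set.mem_ofPred_eq]
  constructor
  · rintro ⟨h1, h2⟩; exact ⟨h1, fun ω' => by have := h2 ω'; linarith⟩
  · rintro ⟨h1, h2⟩; exact ⟨h1, fun ω' => by have := h2 ω'; linarith⟩

/-- the subgradient inequality of `pot` at a point of a cell -/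
lemma pot_subgradient [Nonempty Ω] {K : Set (Eu d)} {Y : Ω → Eu d} {b : Ω → ℝ} {ω : Ω} {x : Eu d}
    (hx : x ∈ cell K Y b ω) (z : Eu d) : pot Y b x + inner ℝ (z - x) (Y ω) ≤ pot Y b z := by
  rw [pot_eq_of_mem_cell hx, ← aff_add_inner]
  exact aff_le_pot Y b ω z

/-- splitting an integral over `K` into the cells (distinct sites) -/
lemma sum_integral_cell [Nonempty Ω] {K : Set (Eu d)} (hK : MeasurableSet K) (Y : Ω → Eu d)
    (hY : Function.Injective Y) (b : Ω → ℝ) {F : Type*} [NormedAddCommGroup F] [NormedSpace ℝ F]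
    (f : Eu d → F) (hf : IntegrableOn f K) :
    ∑ ω, ∫ x in cell K Y b ω, f x = ∫ x in K, f x := by
  have h := integral_iUnion_ae (μ := (volume : Measure (Eu d))) (f := f) (s := fun ω => cell K Y b ω)
    (fun ω => (measurableSet_cell hK Y b ω).nullMeasurableSet)
    (fun ω ω' hne => cell_aedisjoint K Y hY b hne)
    (by rw [iUnion_cell]; exact hf)
  rw [iUnion_cell, tsum_fintype] at h
  exact h.symm

/-- for a.e. `x ∈ K` exactly one cell contains `x`. -/
lemma ae_existsUnique_cell [Nonempty Ω] (K : Set (Eu d)) (Y : Ω → Eu d)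
    (hY : Function.Injective Y) (b : Ω → ℝ) :
    ∀ᵐ x ∂(volume.restrict K), x ∈ K → ∃ ω, x ∈ cell K Y b ω ∧ ∀ ω', x ∈ cell K Y b ω' → ω' = ω := by
  filter_upwards [ae_restrict_of_ae (ae_injective_aff Y hY b)] with x hinj hxK
  obtain ⟨ω, hω⟩ := Finite.exists_max (fun ω => aff Y b ω x)
  refine ⟨ω, ⟨hxK, hω⟩, fun ω' hω' => hinj (le_antisymm (hω ω') (hω'.2 ω))⟩

lemma setIntegral_indicator_mul {K C : Set (Eu d)} (hC : MeasurableSet C) (hCK : C ⊆ K)
    (σ : Eu d → ℝ) : ∫ x in K, C.indicator (fun _ => (1 : ℝ)) x * σ x = ∫ x in C, σ x := by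
  have : (fun x => C.indicator (fun _ => (1 : ℝ)) x * σ x) = C.indicator σ := by
    ext x; by_cases hx : x ∈ C <;> simp [hx]
  rw [this, setIntegral_indicator hC, Set.inter_eq_self_of_subset_right hCK]

/-- the indicator functions of the cells form an assignment -/
lemma isAssign_cell [Nonempty Ω] {K : Set (Eu d)} (hK : MeasurableSet K) (Y : Ω → Eu d)
    (hY : Function.Injective Y) (b : Ω → ℝ) (σ : Eu d → ℝ) (p : Ω → ℝ)
    (hp : ∀ ω, ∫ x in cell K Y b ω, σ x = p ω) :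
    IsAssign K σ p (fun ω => (cell K Y b ω).indicator (fun _ => (1 : ℝ))) where
  meas ω := measurable_const.indicator (measurableSet_cell hK Y b ω)
  nonneg ω x := Set.indicator_nonneg (fun _ _ => zero_le_one) x
  le_one ω x := Set.indicator_le_self' (fun _ _ => zero_le_one) x |>.trans le_rfl
  sum_one := by
    filter_upwards [ae_existsUnique_cell K Y hY b, ae_restrict_mem hK] with x hx hxK
    obtain ⟨ω, hω, huniq⟩ := hx hxK
    rw [Finset.sum_eq_single ω]
    · simp [hω]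
    · intro ω' _ hne
      have : x ∉ cell K Y b ω' := fun h => hne (huniq ω' h)
      simp [this]
    · intro h; exact absurd (Finset.mem_univ ω) h
  mass ω := by
    rw [setIntegral_indicator_mul (measurableSet_cell hK Y b ω) (cell_subset K Y b ω), hp]

lemma moment_cell {K : Set (Eu d)} (hK : MeasurableSet K) (Y : Ω → Eu d) (b : Ω → ℝ) (σ : Eu d → ℝ)
    (ω : Ω) : moment K σ ((cell K Y b ω).indicator (fun _ => (1 : ℝ)))
      = ∫ x in cell K Y b ω, σ x • x := by
  unfold moment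
  have : (fun x => ((cell K Y b ω).indicator (fun _ => (1 : ℝ)) x * σ x) • x)
      = (cell K Y b ω).indicator (fun x => σ x • x) := by
    ext1 x; by_cases hx : x ∈ cell K Y b ω <;> simp [hx]
  rw [this, setIntegral_indicator (measurableSet_cell hK Y b ω),
    Set.inter_eq_self_of_subset_right (cell_subset K Y b ω)]

/-- bounded measurable real functions are integrable on compact sets -/
lemma integrableOn_of_bdd {K : Set (Eu d)} (hK : IsCompact K) {F : Type*} [NormedAddCommGroup F]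
    {f : Eu d → F} (hf : AEStronglyMeasurable f volume) {M : ℝ}
    (hM : ∀ x ∈ K, ‖f x‖ ≤ M) : IntegrableOn f K :=
  Measure.integrableOn_of_bounded hK.measure_lt_top.ne hf
    ((ae_restrict_iff' hK.measurableSet).mpr (Filter.Eventually.of_forall hM))

lemma assign_integrable {K : Set (Eu d)} (hK : IsCompact K) {σ : Eu d → ℝ}
    (hσm : Measurable σ) (hσ : ∀ x ∈ K, 0 ≤ σ x ∧ σ x ≤ 2) {p : Ω → ℝ} {w : Ω → Eu d → ℝ}
    (hw : IsAssign K σ p w) (ω : Ω) {f : Eu d → ℝ} (hf : Continuous f) :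
    IntegrableOn (fun x => w ω x * σ x * f x) K := by
  obtain ⟨M, hM⟩ := hK.exists_bound_of_continuousOn hf.continuousOn
  refine integrableOn_of_bdd hK (M := 2 * M)
    (((hw.meas ω).mul hσm).mul hf.measurable).aestronglyMeasurable ?_
  intro x hx
  have h1 := hw.nonneg ω x
  have h2 := hw.le_one ω x
  have h3 := hσ x hx
  have h4 := hM x hx
  rw [norm_mul, norm_mul, Real.norm_of_nonneg h1, Real.norm_of_nonneg h3.1]
  have : w ω x * σ x ≤ 2 := by nlinarith
  have h5 : 0 ≤ w ω x * σ x := mul_nonneg h1 h3.1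
  exact mul_le_mul this h4 (norm_nonneg _) (by norm_num)

lemma inner_moment {K : Set (Eu d)} (hK : IsCompact K) {σ : Eu d → ℝ}
    (hσm : Measurable σ) (hσ : ∀ x ∈ K, 0 ≤ σ x ∧ σ x ≤ 2) {p : Ω → ℝ} {w : Ω → Eu d → ℝ}
    (hw : IsAssign K σ p w) (ω : Ω) (v : Eu d) :
    inner ℝ (moment K σ (w ω)) v = ∫ x in K, w ω x * σ x * inner ℝ x v := by
  unfold moment
  have hint : IntegrableOn (fun x => (w ω x * σ x) • x) K := by
    obtain ⟨M, hM⟩ := hK.exists_bound_of_continuousOn (f := fun x : Eu d => x) continuousOn_id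
    refine integrableOn_of_bdd hK (M := 2 * M)
      (((hw.meas ω).mul hσm).smul measurable_id).aestronglyMeasurable ?_
    intro x hx
    have h1 := hw.nonneg ω x
    have h2 := hw.le_one ω x
    have h3 := hσ x hx
    have h4 := hM x hx
    rw [norm_smul, norm_mul, Real.norm_of_nonneg h1, Real.norm_of_nonneg h3.1]
    have : w ω x * σ x ≤ 2 := by nlinarith
    exact mul_le_mul this h4 (norm_nonneg _) (by norm_num)
  rw [real_inner_comm, ← integral_inner hint]
  congr 1; ext x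
  rw [inner_smul_right, real_inner_comm]

lemma sum_assign_pot [Nonempty Ω] {K : Set (Eu d)} (hK : IsCompact K) {σ : Eu d → ℝ}
    (hσm : Measurable σ) (hσ : ∀ x ∈ K, 0 ≤ σ x ∧ σ x ≤ 2) {p : Ω → ℝ} {w : Ω → Eu d → ℝ}
    (hw : IsAssign K σ p w) (Y : Ω → Eu d) (b : Ω → ℝ) :
    ∑ ω, ∫ x in K, w ω x * σ x * (pot Y b x + b ω) = dualVal K σ p Y b := by
  unfold dualVal
  have h1 : ∀ ω, ∫ x in K, w ω x * σ x * (pot Y b x + b ω)
      = (∫ x in K, w ω x * σ x * pot Y b x) + p ω * b ω := by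
    intro ω
    have e : (fun x => w ω x * σ x * (pot Y b x + b ω))
        = fun x => w ω x * σ x * pot Y b x + w ω x * σ x * b ω := by ext x; ring
    rw [e, integral_add (assign_integrable hK hσm hσ hw ω (continuous_pot Y b))
      (assign_integrable hK hσm hσ hw ω continuous_const), integral_mul_const, hw.mass ω]
  simp_rw [h1]
  rw [Finset.sum_add_distrib]
  congr 1
  rw [← integral_finsetSum _ (fun ω _ => assign_integrable hK hσm hσ hw ω (continuous_pot Y b))]
  apply integral_congr_ae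
  filter_upwards [hw.sum_one] with x hx
  rw [← Finset.sum_mul, ← Finset.sum_mul, hx]; ring

/-- weak duality -/
theorem weak_duality [Nonempty Ω] {K : Set (Eu d)} (hK : IsCompact K) {σ : Eu d → ℝ}
    (hσm : Measurable σ) (hσ : ∀ x ∈ K, 0 ≤ σ x ∧ σ x ≤ 2) {p : Ω → ℝ} {w : Ω → Eu d → ℝ}
    (hw : IsAssign K σ p w) (Y : Ω → Eu d) (b : Ω → ℝ) :
    ∑ ω, inner ℝ (moment K σ (w ω)) (Y ω) ≤ dualVal K σ p Y b := by
  rw [← sum_assign_pot hK hσm hσ hw Y b]
  apply Finset.sum_le_sum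
  intro ω _
  rw [inner_moment hK hσm hσ hw]
  apply setIntegral_mono_on (assign_integrable hK hσm hσ hw ω (by fun_prop))
    (assign_integrable hK hσm hσ hw ω (f := fun x => pot Y b x + b ω)
      ((continuous_pot Y b).add continuous_const)) hK.measurableSet
  intro x hx
  apply mul_le_mul_of_nonneg_left _ (mul_nonneg (hw.nonneg ω x) (hσ x hx).1)
  have := aff_le_pot Y b ω x
  simp only [aff] at this
  show inner ℝ x (Y ω) ≤ pot Y b x + b ω
  linarith

/-- strong duality for an assignment concentrated on the cells of `b` (sites need not be distinct) -/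
theorem duality_eq [Nonempty Ω] {K : Set (Eu d)} (hK : IsCompact K) {σ : Eu d → ℝ}
    (hσm : Measurable σ) (hσ : ∀ x ∈ K, 0 ≤ σ x ∧ σ x ≤ 2) {p : Ω → ℝ} {w : Ω → Eu d → ℝ}
    (hw : IsAssign K σ p w) (Y : Ω → Eu d) (b : Ω → ℝ)
    (hsupp : ∀ ω, ∀ᵐ x ∂(volume.restrict K), w ω x ≠ 0 → x ∈ cell K Y b ω) :
    ∑ ω, inner ℝ (moment K σ (w ω)) (Y ω) = dualVal K σ p Y b := by
  rw [← sum_assign_pot hK hσm hσ hw Y b]
  apply Finset.sum_congr rfl
  intro ω _
  rw [inner_moment hK hσm hσ hw]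
  apply integral_congr_ae
  filter_upwards [hsupp ω] with x hx
  by_cases h0 : w ω x = 0
  · simp [h0]
  · have := pot_eq_of_mem_cell (hx h0)
    rw [this]; simp only [aff]; ring

lemma norm_moment_le {K : Set (Eu d)} (hK : IsCompact K) {σ : Eu d → ℝ}
    (hσm : Measurable σ) (hσ : ∀ x ∈ K, 0 ≤ σ x ∧ σ x ≤ 2) {p : Ω → ℝ} {w : Ω → Eu d → ℝ}
    (hw : IsAssign K σ p w) {R' : ℝ} (hR' : ∀ x ∈ K, ‖x‖ ≤ R') (ω : Ω) :
    ‖moment K σ (w ω)‖ ≤ R' * p ω := by
  unfold moment
  have hint := assign_integrable hK hσm hσ hw ω (f := fun _ => R') continuous_const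
  calc ‖∫ x in K, (w ω x * σ x) • x‖ ≤ ∫ x in K, ‖(w ω x * σ x) • x‖ := norm_integral_le_integral_norm _
    _ ≤ ∫ x in K, w ω x * σ x * R' := by
        apply integral_mono_of_nonneg (Filter.Eventually.of_forall fun x => norm_nonneg _) hint
        filter_upwards [ae_restrict_mem hK.measurableSet] with x hx
        have h5 : 0 ≤ w ω x * σ x := mul_nonneg (hw.nonneg ω x) (hσ x hx).1
        rw [norm_smul, Real.norm_of_nonneg h5]
        exact mul_le_mul_of_nonneg_left (hR' x hx) h5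
    _ = R' * p ω := by rw [integral_mul_const, hw.mass ω]; ring

end P2

end Crest.Agent.OT
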