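import Mathlib

/-!
# OT project (S0109 / S0110): shared definitions

`Eu d` = Euclidean space, `pot Y b` = max-affine potential `x ↦ max_ω (⟪x, Y ω⟫ - b ω)`,
`cell K Y b ω` = Laguerre cell of the site `Y ω` inside `K`.
-/

set_option autoImplicit false
open MeasureTheory

namespace Crest.Agent.OT

/-- Euclidean space of dimension `d`. -/
abbrev Eu (d : ℕ) := EuclideanSpace ℝ (Fin d)

variable {d : ℕ} {Ω : Type*}

/-- the affine function with slope `Y ω` and height `b ω`. -/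
noncomputable def aff (Y : Ω → Eu d) (b : Ω → ℝ) (ω : Ω) (x : Eu d) : ℝ :=
  inner ℝ x (Y ω) - b ω

/-- max-affine potential. -/
noncomputable def pot [Fintype Ω] [Nonempty Ω] (Y : Ω → Eu d) (b : Ω → ℝ) (x : Eu d) : ℝ :=
  Finset.univ.sup' Finset.univ_nonempty (fun ω => aff Y b ω x)

/-- Laguerre (power) cell of the site `ω` in `K`. -/
def cell (K : Set (Eu d)) (Y : Ω → Eu d) (b : Ω → ℝ) (ω : Ω) : Set (Eu d) :=
  {x | x ∈ K ∧ ∀ ω', aff Y b ω' x ≤ aff Y b ω x}

/-- A fractional assignment of the source `σ dx` on `K` to labels `ω` with masses `p ω`. -/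
structure IsAssign [Fintype Ω] (K : Set (Eu d)) (σ : Eu d → ℝ) (p : Ω → ℝ)
    (w : Ω → Eu d → ℝ) : Prop where
  meas : ∀ ω, Measurable (w ω)
  nonneg : ∀ ω x, 0 ≤ w ω x
  le_one : ∀ ω x, w ω x ≤ 1
  sum_one : ∀ᵐ x ∂(volume.restrict K), ∑ ω, w ω x = 1
  mass : ∀ ω, ∫ x in K, w ω x * σ x = p ω

/-- first moment of the piece `w σ dx` of the source. -/
noncomputable def moment (K : Set (Eu d)) (σ : Eu d → ℝ) (w : Eu d → ℝ) : Eu d :=
  ∫ x in K, (w x * σ x) • x

/-- dual functional `Ψ_σ(b) = ∫_K pot Y b σ + ∑ p b`. -/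
noncomputable def dualVal [Fintype Ω] [Nonempty Ω] (K : Set (Eu d)) (σ : Eu d → ℝ) (p : Ω → ℝ)
    (Y : Ω → Eu d) (b : Ω → ℝ) : ℝ :=
  (∫ x in K, pot Y b x * σ x) + ∑ ω, p ω * b ω

/-- the constant of the key lemma (moment stability). Downstream only uses `0 ≤ momC`. -/
noncomputable def momC : ℝ := 2000

lemma momC_nonneg : 0 ≤ momC := by norm_num [momC]

end Crest.Agent.OT
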