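import Crest.Agent.Lib_OT_PL1

/-!
# P1b : Prékopa–Leindler on Euclidean space

Abstract midpoint PL property of a measure, stability under products and under
measure preserving affine equivalences; `Fin n → ℝ` by induction; `EuclideanSpace ℝ (Fin n)`.
-/

set_option autoImplicit false
open MeasureTheory Set
open scoped ENNReal NNReal

namespace Crest.Agent.OTPL

/-! ## The abstract property, products and transfer -/

/-- The midpoint Prékopa–Leindler property of a measure on a real vector space. -/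
def PLProp (E : Type*) [AddCommGroup E] [Module ℝ E] [MeasurableSpace E] (μ : Measure E) : Prop :=
  ∀ f g h : E → ℝ≥0∞, Measurable f → Measurable g → Measurable h →
    (∀ x y, f x * g y ≤ h ((1 / 2 : ℝ) • (x + y)) ^ 2) →
    (∫⁻ x, f x ∂μ) * ∫⁻ x, g x ∂μ ≤ (∫⁻ x, h x ∂μ) ^ 2

lemma plProp_real : PLProp ℝ volume := by
  intro f g h hf hg hh H
  exact pl1 f g h hf hg hh (by simpa using H)

lemma PLProp.prod {E E' : Type*} [AddCommGroup E] [Module ℝ E] [MeasurableSpace E]
    [AddCommGroup E'] [Module ℝ E'] [MeasurableSpace E']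
    {μ : Measure E} {ν : Measure E'} [SFinite μ] [SFinite ν]
    (h1 : PLProp E μ) (h2 : PLProp E' ν) : PLProp (E × E') (μ.prod ν) := by
  intro f g h hf hg hh H
  rw [lintegral_prod _ hf.aemeasurable, lintegral_prod _ hg.aemeasurable,
    lintegral_prod _ hh.aemeasurable]
  refine h1 (fun x => ∫⁻ y, f (x, y) ∂ν) (fun x => ∫⁻ y, g (x, y) ∂ν)
    (fun x => ∫⁻ y, h (x, y) ∂ν) hf.lintegral_prod_right' hg.lintegral_prod_right'
    hh.lintegral_prod_right' ?_
  intro x x'
  refine h2 (fun y => f (x, y)) (fun y => g (x', y)) (fun y => h ((1 / 2 : ℝ) • (x + x'), y))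
    (hf.comp measurable_prodMk_left) (hg.comp measurable_prodMk_left)
    (hh.comp measurable_prodMk_left) ?_
  intro y y'
  simpa using H (x, y) (x', y')

lemma PLProp.of_equiv {E E' : Type*} [AddCommGroup E] [Module ℝ E] [MeasurableSpace E]
    [AddCommGroup E'] [Module ℝ E'] [MeasurableSpace E']
    {μ : Measure E} {ν : Measure E'} (e : E ≃ᵐ E')
    (he : ∀ x y, e ((1 / 2 : ℝ) • (x + y)) = (1 / 2 : ℝ) • (e x + e y))
    (hmp : MeasurePreserving e μ ν) (h2 : PLProp E' ν) : PLProp E μ := by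
  intro f g h hf hg hh H
  have ef := hmp.lintegral_comp (f := fun z => f (e.symm z)) (hf.comp e.symm.measurable)
  have eg := hmp.lintegral_comp (f := fun z => g (e.symm z)) (hg.comp e.symm.measurable)
  have eh := hmp.lintegral_comp (f := fun z => h (e.symm z)) (hh.comp e.symm.measurable)
  simp only [MeasurableEquiv.symm_apply_apply] at ef eg eh
  rw [ef, eg, eh]
  refine h2 _ _ _ (hf.comp e.symm.measurable) (hg.comp e.symm.measurable)
    (hh.comp e.symm.measurable) ?_
  intro x y
  have := H (e.symm x) (e.symm y)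
  have e3 : e.symm ((1 / 2 : ℝ) • (x + y)) = (1 / 2 : ℝ) • (e.symm x + e.symm y) := by
    apply e.injective
    rw [he]
    simp
  rw [e3]
  exact this

lemma plProp_pi : ∀ n : ℕ, PLProp (Fin n → ℝ) volume
  | 0 => by
    intro f g h hf hg hh H
    have hv : (volume : Measure (Fin 0 → ℝ)) = Measure.dirac 0 := Measure.volume_pi_eq_dirac 0
    rw [hv, lintegral_dirac' _ hf, lintegral_dirac' _ hg, lintegral_dirac' _ hh]
    simpa using H 0 0
  | n + 1 => by
    refine PLProp.of_equiv (MeasurableEquiv.piFinSuccAbove (fun _ => ℝ) 0) ?_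
      (volume_preserving_piFinSuccAbove (fun _ => ℝ) 0)
      (PLProp.prod plProp_real (plProp_pi n))
    intro x y
    rfl

lemma plProp_euclidean (n : ℕ) : PLProp (EuclideanSpace ℝ (Fin n)) volume := by
  refine PLProp.of_equiv (MeasurableEquiv.toLp 2 (Fin n → ℝ)).symm ?_
    (EuclideanSpace.volume_preserving_symm_measurableEquiv_toLp (Fin n)) (plProp_pi n)
  intro x y
  rfl

/-- **Prékopa–Leindler inequality**, midpoint form, on `EuclideanSpace ℝ (Fin n)`. -/
theorem prekopa_leindler_mid {n : ℕ} (f g h : EuclideanSpace ℝ (Fin n) → ℝ≥0∞)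
    (hf : Measurable f) (hg : Measurable g) (hh : Measurable h)
    (H : ∀ x y, f x * g y ≤ h ((1 / 2 : ℝ) • (x + y)) ^ 2) :
    (∫⁻ x, f x) * ∫⁻ x, g x ≤ (∫⁻ x, h x) ^ 2 :=
  plProp_euclidean n f g h hf hg hh H

end Crest.Agent.OTPL

namespace Crest.Agent.OT

variable {d : ℕ}

theorem prekopa_leindler (f g h : Eu d → ℝ≥0∞) (hf : Measurable f) (hg : Measurable g)
    (hh : Measurable h) (H : ∀ x y, f x * g y ≤ h ((1 / 2 : ℝ) • (x + y)) ^ 2) :
    (∫⁻ x, f x) * (∫⁻ x, g x) ≤ (∫⁻ x, h x) ^ 2 :=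
  Crest.Agent.OTPL.prekopa_leindler_mid f g h hf hg hh H

end Crest.Agent.OT
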