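import Crest.Agent.Lib_OT_Cells
import Crest.Agent.Lib_OT_PL

/-!
# P3a : transport-entropy type inequality for two families of Laguerre cells (via Prekopa-Leindler)
-/

set_option autoImplicit false
open MeasureTheory
open scoped ENNReal NNReal

namespace Crest.Agent.OT

variable {d : ℕ}

/-- Gaussian weight -/
noncomputable def gw (κ : ℝ) (x₀ x : Eu d) : ℝ := Real.exp (-(κ * ‖x - x₀‖ ^ 2 / 2))

/-! ### general tools -/

/-- Jensen for `exp` with a weight, by the tangent line. -/
lemma ent_jensen_exp {X : Type*} [MeasurableSpace X] (μ : Measure X) (w φ : X → ℝ)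
    (hw0 : ∀ᵐ x ∂μ, 0 ≤ w x) (hw : Integrable w μ)
    (hφw : Integrable (fun x => φ x * w x) μ)
    (hew : Integrable (fun x => Real.exp (φ x) * w x) μ) {m : ℝ} (hm : 0 < m)
    (hmass : ∫ x, w x ∂μ = m) :
    m * Real.exp ((∫ x, φ x * w x ∂μ) / m) ≤ ∫ x, Real.exp (φ x) * w x ∂μ := by
  set t0 := (∫ x, φ x * w x ∂μ) / m with ht0
  have hint : Integrable (fun x => Real.exp t0 * (φ x * w x - t0 * w x + w x)) μ :=
    ((hφw.sub (hw.const_mul t0)).add hw).const_mul _
  have h1 : ∫ x, Real.exp t0 * (φ x * w x - t0 * w x + w x) ∂μ = m * Real.exp t0 := by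
    have hsub : Integrable (fun x => φ x * w x - t0 * w x) μ := hφw.sub (hw.const_mul t0)
    rw [integral_const_mul, integral_add hsub hw,
      integral_sub hφw (hw.const_mul t0), integral_const_mul, hmass]
    have : (∫ x, φ x * w x ∂μ) = t0 * m := by
      rw [ht0]; field_simp
    rw [this]; ring
  rw [← h1]
  refine integral_mono_ae hint hew ?_
  filter_upwards [hw0] with x hx
  have h2 : φ x - t0 + 1 ≤ Real.exp (φ x - t0) := Real.add_one_le_exp _
  have h3 : Real.exp (φ x) = Real.exp t0 * Real.exp (φ x - t0) := by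
    rw [← Real.exp_add]; congr 1; ring
  rw [h3]
  have h4 : Real.exp t0 * (φ x - t0 + 1) ≤ Real.exp t0 * Real.exp (φ x - t0) :=
    mul_le_mul_of_nonneg_left h2 (Real.exp_pos _).le
  calc Real.exp t0 * (φ x * w x - t0 * w x + w x)
      = Real.exp t0 * (φ x - t0 + 1) * w x := by ring
    _ ≤ Real.exp t0 * Real.exp (φ x - t0) * w x := mul_le_mul_of_nonneg_right h4 hx

/-- Prékopa–Leindler for real set integrals. -/
lemma ent_pl_sets {A B D : Set (Eu d)} (hA : MeasurableSet A) (hB : MeasurableSet B)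
    (hD : MeasurableSet D) (u v w : Eu d → ℝ) (hu : Measurable u) (hv : Measurable v)
    (hw : Measurable w) (hu0 : ∀ x, 0 ≤ u x) (hv0 : ∀ x, 0 ≤ v x) (hw0 : ∀ x, 0 ≤ w x)
    (hui : IntegrableOn u A) (hvi : IntegrableOn v B) (hwi : IntegrableOn w D)
    (H : ∀ x ∈ A, ∀ x' ∈ B, (1 / 2 : ℝ) • (x + x') ∈ D ∧
      u x * v x' ≤ w ((1 / 2 : ℝ) • (x + x')) ^ 2) :
    (∫ x in A, u x) * (∫ x in B, v x) ≤ (∫ x in D, w x) ^ 2 := by
  have key := prekopa_leindler (A.indicator fun x => ENNReal.ofReal (u x))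
    (B.indicator fun x => ENNReal.ofReal (v x)) (D.indicator fun x => ENNReal.ofReal (w x))
    (hu.ennreal_ofReal.indicator hA) (hv.ennreal_ofReal.indicator hB)
    (hw.ennreal_ofReal.indicator hD) (by
      intro x y
      by_cases hx : x ∈ A
      · by_cases hy : y ∈ B
        · obtain ⟨h1, h2⟩ := H x hx y hy
          rw [Set.indicator_of_mem hx, Set.indicator_of_mem hy, Set.indicator_of_mem h1,
            ← ENNReal.ofReal_mul (hu0 x), ← ENNReal.ofReal_pow (hw0 _)]
          exact ENNReal.ofReal_le_ofReal h2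
        · rw [Set.indicator_of_notMem hy]; simp
      · rw [Set.indicator_of_notMem hx]; simp)
  rw [lintegral_indicator hA, lintegral_indicator hB, lintegral_indicator hD,
    ← ofReal_integral_eq_lintegral_ofReal hui (Filter.Eventually.of_forall hu0),
    ← ofReal_integral_eq_lintegral_ofReal hvi (Filter.Eventually.of_forall hv0),
    ← ofReal_integral_eq_lintegral_ofReal hwi (Filter.Eventually.of_forall hw0),
    ← ENNReal.ofReal_mul (integral_nonneg hu0), ← ENNReal.ofReal_pow (integral_nonneg hw0)] at key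
  exact (ENNReal.ofReal_le_ofReal_iff (by positivity)).mp key

/-- bounded measurable times continuous is integrable on a compact set -/
lemma ent_integrableOn_mul {K : Set (Eu d)} (hK : IsCompact K) {r c : Eu d → ℝ}
    (hr : Measurable r) {M : ℝ} (hrM : ∀ x ∈ K, |r x| ≤ M) (hc : Continuous c) :
    IntegrableOn (fun x => r x * c x) K := by
  have hci : IntegrableOn c K := hc.continuousOn.integrableOn_compact hK
  refine Integrable.bdd_mul (c := M) hci hr.aestronglyMeasurable ?_
  filter_upwards [ae_restrict_mem hK.measurableSet] with x hx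
  simpa using hrM x hx

/-! ### the Gaussian weight -/

lemma gw_pos (κ : ℝ) (x₀ x : Eu d) : 0 < gw κ x₀ x := Real.exp_pos _

lemma continuous_gw (κ : ℝ) (x₀ : Eu d) : Continuous (gw κ x₀) := by
  unfold gw
  fun_prop

lemma gw_mul_gw (κ : ℝ) (x₀ x x' : Eu d) :
    gw κ x₀ x * gw κ x₀ x' =
      gw κ x₀ ((1 / 2 : ℝ) • (x + x')) ^ 2 * Real.exp (-(κ * ‖x - x'‖ ^ 2 / 4)) := by
  unfold gw
  rw [← Real.exp_add, ← Real.exp_nat_mul, ← Real.exp_add]
  congr 1
  have h := parallelogram_law_with_norm ℝ (x - x₀) (x' - x₀)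
  have e1 : x - x₀ + (x' - x₀) = (2 : ℝ) • ((1 / 2 : ℝ) • (x + x') - x₀) := by
    rw [smul_sub, smul_smul, two_smul]
    norm_num
    abel
  have e2 : x - x₀ - (x' - x₀) = x - x' := by abel
  rw [e1, e2, norm_smul] at h
  simp only [Real.norm_eq_abs, abs_two] at h
  push_cast
  linear_combination (κ / 4) * h

/-! ### the inequality for one cell -/

lemma ent_percell {K A B D : Set (Eu d)} (hKc : IsCompact K)
    (hA : MeasurableSet A) (hB : MeasurableSet B) (hD : MeasurableSet D)
    (hAK : A ⊆ K) (hBK : B ⊆ K) (hDK : D ⊆ K)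
    (hmid : ∀ x ∈ A, ∀ x' ∈ B, (1 / 2 : ℝ) • (x + x') ∈ D)
    (x₀ : Eu d) {κ : ℝ} (hκ : 0 < κ)
    (g : Eu d → ℝ) (hgm : Measurable g) {g₀ g₁ : ℝ} (hg₀ : 0 < g₀)
    (hg : ∀ x ∈ K, g₀ ≤ g x ∧ g x ≤ g₁)
    {m : ℝ} (hm : 0 < m)
    (hmA : ∫ x in A, gw κ x₀ x = m)
    (hmB : ∫ x in B, g x * gw κ x₀ x = m)
    (q : Eu d → ℝ) (hqc : Continuous q) {L : ℝ}
    (hq : ∀ x ∈ K, ∀ x' ∈ K, |q x - q x'| ≤ L * ‖x - x'‖) (lam : ℝ) :
    m + (1 / 2) * (lam * ((∫ x in A, q x * gw κ x₀ x) - ∫ x in B, q x * (g x * gw κ x₀ x))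
        - lam ^ 2 * L ^ 2 / κ * m - ∫ x in B, Real.log (g x) * (g x * gw κ x₀ x))
      ≤ ∫ x in D, gw κ x₀ x := by
  set s := gw κ x₀ with hs
  have hsc : Continuous s := continuous_gw κ x₀
  have hspos : ∀ x, 0 < s x := gw_pos κ x₀
  set c := lam ^ 2 * L ^ 2 / κ with hc
  set α : Eu d → ℝ := fun x => lam * q x - c with hα
  set β : Eu d → ℝ := fun x => -(lam * q x) with hβ
  have hαc : Continuous α := (continuous_const.mul hqc).sub continuous_const
  have hβc : Continuous β := (continuous_const.mul hqc).neg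
  have hgpos : ∀ x ∈ K, 0 < g x := fun x hx => lt_of_lt_of_le hg₀ (hg x hx).1
  have hgabs : ∀ x ∈ K, |g x| ≤ g₁ := fun x hx => by
    rw [abs_of_pos (hgpos x hx)]; exact (hg x hx).2
  have hlogabs : ∀ x ∈ K, |Real.log (g x)| ≤ |Real.log g₀| + |Real.log g₁| := by
    intro x hx
    have h1 : Real.log g₀ ≤ Real.log (g x) := Real.log_le_log hg₀ (hg x hx).1
    have h2 : Real.log (g x) ≤ Real.log g₁ := Real.log_le_log (hgpos x hx) (hg x hx).2
    rw [abs_le]
    constructor
    · have := neg_abs_le (Real.log g₀)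
      have := abs_nonneg (Real.log g₁)
      linarith
    · have := le_abs_self (Real.log g₁)
      have := abs_nonneg (Real.log g₀)
      linarith
  -- integrability on `K`
  have i_s : IntegrableOn s K := hsc.continuousOn.integrableOn_compact hKc
  have i_gs : IntegrableOn (fun x => g x * s x) K := ent_integrableOn_mul hKc hgm hgabs hsc
  have i_qs : IntegrableOn (fun x => q x * s x) K :=
    (hqc.mul hsc).continuousOn.integrableOn_compact hKc
  have i_qgs : IntegrableOn (fun x => q x * (g x * s x)) K := by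
    have e : (fun x => q x * (g x * s x)) = fun x => g x * (q x * s x) := by
      funext x; ring
    rw [e]
    exact ent_integrableOn_mul hKc hgm hgabs (hqc.mul hsc)
  have i_lgs : IntegrableOn (fun x => Real.log (g x) * (g x * s x)) K := by
    have e : (fun x => Real.log (g x) * (g x * s x)) = fun x => (Real.log (g x) * g x) * s x := by
      funext x; ring
    rw [e]
    refine ent_integrableOn_mul hKc ((Real.measurable_log.comp hgm).mul hgm)
      (M := (|Real.log g₀| + |Real.log g₁|) * g₁) ?_ hsc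
    intro x hx
    rw [abs_mul]
    exact mul_le_mul (hlogabs x hx) (hgabs x hx) (abs_nonneg _) (by positivity)
  have i_eαs : IntegrableOn (fun x => Real.exp (α x) * s x) K :=
    ((Real.continuous_exp.comp hαc).mul hsc).continuousOn.integrableOn_compact hKc
  have i_eβs : IntegrableOn (fun x => Real.exp (β x) * s x) K :=
    ((Real.continuous_exp.comp hβc).mul hsc).continuousOn.integrableOn_compact hKc
  have i_αs : IntegrableOn (fun x => α x * s x) K :=
    (hαc.mul hsc).continuousOn.integrableOn_compact hKc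
  -- Prékopa–Leindler
  have PL : (∫ x in A, Real.exp (α x) * s x) * (∫ x in B, Real.exp (β x) * s x)
      ≤ (∫ x in D, s x) ^ 2 := by
    refine ent_pl_sets hA hB hD _ _ _ ((Real.continuous_exp.comp hαc).mul hsc).measurable
      ((Real.continuous_exp.comp hβc).mul hsc).measurable hsc.measurable
      (fun x => (mul_pos (Real.exp_pos _) (hspos x)).le)
      (fun x => (mul_pos (Real.exp_pos _) (hspos x)).le) (fun x => (hspos x).le)
      (i_eαs.mono_set hAK) (i_eβs.mono_set hBK) (i_s.mono_set hDK) ?_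
    intro x hx x' hx'
    refine ⟨hmid x hx x' hx', ?_⟩
    have e1 : Real.exp (α x) * s x * (Real.exp (β x') * s x')
        = s ((1 / 2 : ℝ) • (x + x')) ^ 2
          * Real.exp (α x + β x' - κ * ‖x - x'‖ ^ 2 / 4) := by
      have := gw_mul_gw κ x₀ x x'
      calc Real.exp (α x) * s x * (Real.exp (β x') * s x')
          = Real.exp (α x) * Real.exp (β x') * (s x * s x') := by ring
        _ = Real.exp (α x) * Real.exp (β x') * (s ((1 / 2 : ℝ) • (x + x')) ^ 2
              * Real.exp (-(κ * ‖x - x'‖ ^ 2 / 4))) := by rw [hs, this]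
        _ = s ((1 / 2 : ℝ) • (x + x')) ^ 2 * (Real.exp (α x) * Real.exp (β x')
              * Real.exp (-(κ * ‖x - x'‖ ^ 2 / 4))) := by ring
        _ = _ := by
            rw [← Real.exp_add, ← Real.exp_add]
            congr 2
    rw [e1]
    have e2 : α x + β x' - κ * ‖x - x'‖ ^ 2 / 4 ≤ 0 := by
      set t := ‖x - x'‖ with ht
      have h1 : lam * (q x - q x') ≤ |lam| * (L * t) := by
        calc lam * (q x - q x') ≤ |lam * (q x - q x')| := le_abs_self _
          _ = |lam| * |q x - q x'| := abs_mul _ _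
          _ ≤ |lam| * (L * t) :=
            mul_le_mul_of_nonneg_left (hq x (hAK hx) x' (hBK hx')) (abs_nonneg _)
      have h2 : |lam| * (L * t) ≤ c + κ * t ^ 2 / 4 := by
        have h3 : c = (|lam| * L) ^ 2 / κ := by
          rw [hc, mul_pow, sq_abs]
        rw [h3, div_add' _ _ _ hκ.ne', le_div_iff₀ hκ]
        nlinarith [sq_nonneg (|lam| * L - κ * t / 2)]
      simp only [hα, hβ]
      linarith
    calc s ((1 / 2 : ℝ) • (x + x')) ^ 2 * Real.exp (α x + β x' - κ * ‖x - x'‖ ^ 2 / 4)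
        ≤ s ((1 / 2 : ℝ) • (x + x')) ^ 2 * 1 := by
          apply mul_le_mul_of_nonneg_left _ (sq_nonneg _)
          exact Real.exp_le_one_iff.mpr e2
      _ = _ := mul_one _
  -- Jensen on `A`
  have JA := ent_jensen_exp (volume.restrict A) s α
    (Filter.Eventually.of_forall fun x => (hspos x).le) (i_s.mono_set hAK) (i_αs.mono_set hAK)
    (i_eαs.mono_set hAK) hm hmA
  -- Jensen on `B`
  have i_φ : IntegrableOn (fun x => (β x - Real.log (g x)) * (g x * s x)) K := by
    have e : (fun x => (β x - Real.log (g x)) * (g x * s x))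
        = fun x => (-lam) * (q x * (g x * s x)) - Real.log (g x) * (g x * s x) := by
      funext x; simp only [hβ]; ring
    rw [e]
    exact (i_qgs.const_mul _).sub i_lgs
  have eqB : Set.EqOn (fun x => Real.exp (β x) * s x)
      (fun x => Real.exp (β x - Real.log (g x)) * (g x * s x)) B := by
    intro x hx
    have hgx := hgpos x (hBK hx)
    simp only
    rw [Real.exp_sub, Real.exp_log hgx]
    field_simp
  have JB := ent_jensen_exp (volume.restrict B) (fun x => g x * s x)
    (fun x => β x - Real.log (g x))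
    (by
      filter_upwards [ae_restrict_mem hB] with x hx
      exact (mul_pos (hgpos x (hBK hx)) (hspos x)).le)
    (i_gs.mono_set hBK) (i_φ.mono_set hBK)
    ((i_eβs.mono_set hBK).congr_fun eqB hB) hm hmB
  rw [← setIntegral_congr_fun hB eqB] at JB
  -- values of the exponents
  have vA : ∫ x in A, α x * s x = lam * (∫ x in A, q x * s x) - c * m := by
    have e : (fun x => α x * s x) = fun x => lam * (q x * s x) - c * s x := by
      funext x; simp only [hα]; ring
    rw [e, integral_sub ((i_qs.mono_set hAK).const_mul _) ((i_s.mono_set hAK).const_mul _),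
      integral_const_mul, integral_const_mul, hmA]
  have vB : ∫ x in B, (β x - Real.log (g x)) * (g x * s x)
      = -lam * (∫ x in B, q x * (g x * s x)) - ∫ x in B, Real.log (g x) * (g x * s x) := by
    have e : (fun x => (β x - Real.log (g x)) * (g x * s x))
        = fun x => (-lam) * (q x * (g x * s x)) - Real.log (g x) * (g x * s x) := by
      funext x; simp only [hβ]; ring
    rw [e, integral_sub ((i_qgs.mono_set hBK).const_mul _) (i_lgs.mono_set hBK),
      integral_const_mul]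
  set tA := (∫ x in A, α x * s x) / m with htA
  set tB := (∫ x in B, (β x - Real.log (g x)) * (g x * s x)) / m with htB
  have hID : 0 ≤ ∫ x in D, s x := integral_nonneg fun x => (hspos x).le
  have h1 : (m * Real.exp ((tA + tB) / 2)) ^ 2 ≤ (∫ x in D, s x) ^ 2 := by
    calc (m * Real.exp ((tA + tB) / 2)) ^ 2
        = (m * Real.exp tA) * (m * Real.exp tB) := by
          rw [mul_pow, ← Real.exp_nat_mul]
          have : ((2 : ℕ) : ℝ) * ((tA + tB) / 2) = tA + tB := by push_cast; ring
          rw [this, Real.exp_add]; ring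
      _ ≤ (∫ x in A, Real.exp (α x) * s x) * (∫ x in B, Real.exp (β x) * s x) :=
          mul_le_mul JA JB (by positivity) (le_trans (by positivity) JA)
      _ ≤ _ := PL
  have h2 : m * Real.exp ((tA + tB) / 2) ≤ ∫ x in D, s x :=
    (pow_le_pow_iff_left₀ (by positivity) hID (by norm_num)).mp h1
  have h3 : m * ((tA + tB) / 2 + 1) ≤ m * Real.exp ((tA + tB) / 2) :=
    mul_le_mul_of_nonneg_left (Real.add_one_le_exp _) hm.le
  have h4 : m * tA = lam * (∫ x in A, q x * s x) - c * m := by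
    rw [htA, ← vA]; field_simp
  have h5 : m * tB = -lam * (∫ x in B, q x * (g x * s x))
      - ∫ x in B, Real.log (g x) * (g x * s x) := by
    rw [htB, ← vB]; field_simp
  nlinarith [h2, h3, h4, h5]

theorem cell_transport_ineq {Ω : Type} [Fintype Ω] [Nonempty Ω] {K : Set (Eu d)} (hKc : IsCompact K)
    (hKv : Convex ℝ K) (x₀ : Eu d) {κ : ℝ} (hκ : 0 < κ)
    (Y : Ω → Eu d) (hY : Function.Injective Y) (a b : Ω → ℝ)
    (g : Eu d → ℝ) (hgm : Measurable g) {g₀ g₁ : ℝ} (hg₀ : 0 < g₀)
    (hg : ∀ x ∈ K, g₀ ≤ g x ∧ g x ≤ g₁)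
    (m : Ω → ℝ) (hm : ∀ ω, 0 < m ω)
    (hA : ∀ ω, ∫ x in cell K Y a ω, gw κ x₀ x = m ω)
    (hB : ∀ ω, ∫ x in cell K Y b ω, g x * gw κ x₀ x = m ω)
    (q : Ω → Eu d → ℝ) (hqc : ∀ ω, Continuous (q ω)) {L : ℝ} (hL : 0 < L)
    (hq : ∀ ω, ∀ x ∈ K, ∀ x' ∈ K, |q ω x - q ω x'| ≤ L * ‖x - x'‖) :
    ∑ ω, κ / (4 * L ^ 2) * ((∫ x in cell K Y a ω, q ω x * gw κ x₀ x)
        - ∫ x in cell K Y b ω, q ω x * (g x * gw κ x₀ x)) ^ 2 / m ω
      ≤ ∫ x in K, (g x - 1) ^ 2 * gw κ x₀ x := by
  classical
  set s := gw κ x₀ with hs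
  have hsc : Continuous s := continuous_gw κ x₀
  have hspos : ∀ x, 0 < s x := gw_pos κ x₀
  have hKm : MeasurableSet K := hKc.measurableSet
  have hgpos : ∀ x ∈ K, 0 < g x := fun x hx => lt_of_lt_of_le hg₀ (hg x hx).1
  have hgabs : ∀ x ∈ K, |g x| ≤ g₁ := fun x hx => by
    rw [abs_of_pos (hgpos x hx)]; exact (hg x hx).2
  have hlogabs : ∀ x ∈ K, |Real.log (g x)| ≤ |Real.log g₀| + |Real.log g₁| := by
    intro x hx
    have h1 : Real.log g₀ ≤ Real.log (g x) := Real.log_le_log hg₀ (hg x hx).1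
    have h2 : Real.log (g x) ≤ Real.log g₁ := Real.log_le_log (hgpos x hx) (hg x hx).2
    rw [abs_le]
    constructor
    · have := neg_abs_le (Real.log g₀)
      have := abs_nonneg (Real.log g₁)
      linarith
    · have := le_abs_self (Real.log g₁)
      have := abs_nonneg (Real.log g₀)
      linarith
  have i_s : IntegrableOn s K := hsc.continuousOn.integrableOn_compact hKc
  have i_gs : IntegrableOn (fun x => g x * s x) K := ent_integrableOn_mul hKc hgm hgabs hsc
  have i_lgs : IntegrableOn (fun x => Real.log (g x) * (g x * s x)) K := by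
    have e : (fun x => Real.log (g x) * (g x * s x)) = fun x => (Real.log (g x) * g x) * s x := by
      funext x; ring
    rw [e]
    refine ent_integrableOn_mul hKc ((Real.measurable_log.comp hgm).mul hgm)
      (M := (|Real.log g₀| + |Real.log g₁|) * g₁) ?_ hsc
    intro x hx
    rw [abs_mul]
    exact mul_le_mul (hlogabs x hx) (hgabs x hx) (abs_nonneg _) (by positivity)
  have i_sq : IntegrableOn (fun x => (g x - 1) ^ 2 * s x) K := by
    refine ent_integrableOn_mul hKc ((hgm.sub_const 1).pow_const 2) (M := (g₁ + 1) ^ 2) ?_ hsc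
    intro x hx
    rw [abs_pow]
    have h1 : |g x - 1| ≤ g₁ + 1 := by
      calc |g x - 1| ≤ |g x| + |(1 : ℝ)| := abs_sub _ _
        _ ≤ g₁ + 1 := by rw [abs_one]; linarith [hgabs x hx]
    exact pow_le_pow_left₀ (abs_nonneg _) h1 2
  set ab : Ω → ℝ := fun ω => (a ω + b ω) / 2 with hab
  set δ : Ω → ℝ := fun ω => (∫ x in cell K Y a ω, q ω x * s x)
    - ∫ x in cell K Y b ω, q ω x * (g x * s x) with hδ
  set lam : Ω → ℝ := fun ω => κ * δ ω / (2 * L ^ 2 * m ω) with hlam
  have per : ∀ ω, m ω + (1 / 2) * (lam ω * δ ω - lam ω ^ 2 * L ^ 2 / κ * m ω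
      - ∫ x in cell K Y b ω, Real.log (g x) * (g x * s x)) ≤ ∫ x in cell K Y ab ω, s x :=
    fun ω => ent_percell hKc (measurableSet_cell hKm Y a ω) (measurableSet_cell hKm Y b ω)
      (measurableSet_cell hKm Y ab ω) (cell_subset K Y a ω) (cell_subset K Y b ω)
      (cell_subset K Y ab ω) (fun x hx x' hx' => cell_midpoint hKv Y a b ω hx hx') x₀ hκ g hgm
      hg₀ hg (hm ω) (hA ω) (hB ω) (q ω) (hqc ω) (hq ω) (lam ω)
  have sD : ∑ ω, ∫ x in cell K Y ab ω, s x = ∫ x in K, s x :=
    sum_integral_cell hKm Y hY ab s i_s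
  have sA : ∑ ω, m ω = ∫ x in K, s x := by
    rw [← sum_integral_cell hKm Y hY a s i_s]
    exact Finset.sum_congr rfl (fun ω _ => (hA ω).symm)
  have sB : ∑ ω, m ω = ∫ x in K, g x * s x := by
    rw [← sum_integral_cell hKm Y hY b _ i_gs]
    exact Finset.sum_congr rfl (fun ω _ => (hB ω).symm)
  have sL : ∑ ω, ∫ x in cell K Y b ω, Real.log (g x) * (g x * s x)
      = ∫ x in K, Real.log (g x) * (g x * s x) := sum_integral_cell hKm Y hY b _ i_lgs
  have hsum := Finset.sum_le_sum (fun ω (_ : ω ∈ Finset.univ) => per ω)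
  rw [Finset.sum_add_distrib, ← Finset.mul_sum, sD, sA, Finset.sum_sub_distrib, sL] at hsum
  have h0 : ∑ ω, (lam ω * δ ω - lam ω ^ 2 * L ^ 2 / κ * m ω)
      ≤ ∫ x in K, Real.log (g x) * (g x * s x) := by linarith
  have h1 : ∀ ω, κ / (4 * L ^ 2) * δ ω ^ 2 / m ω
      = lam ω * δ ω - lam ω ^ 2 * L ^ 2 / κ * m ω := by
    intro ω
    have := (hm ω).ne'
    simp only [hlam]
    field_simp
    ring
  have h2 : ∫ x in K, Real.log (g x) * (g x * s x)
      ≤ ∫ x in K, ((g x - 1) ^ 2 * s x + (g x * s x - s x)) := by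
    refine setIntegral_mono_on i_lgs (i_sq.add (i_gs.sub i_s)) hKm ?_
    intro x hx
    have h3 : Real.log (g x) ≤ g x - 1 := Real.log_le_sub_one_of_pos (hgpos x hx)
    have h4 : 0 ≤ g x * s x := (mul_pos (hgpos x hx) (hspos x)).le
    calc Real.log (g x) * (g x * s x) ≤ (g x - 1) * (g x * s x) :=
          mul_le_mul_of_nonneg_right h3 h4
      _ = _ := by ring
  have h3 : ∫ x in K, ((g x - 1) ^ 2 * s x + (g x * s x - s x))
      = ∫ x in K, (g x - 1) ^ 2 * s x := by
    have i_d : IntegrableOn (fun x => g x * s x - s x) K := i_gs.sub i_s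
    rw [integral_add i_sq i_d, integral_sub i_gs i_s, ← sB, ← sA]
    ring
  calc ∑ ω, κ / (4 * L ^ 2) * δ ω ^ 2 / m ω
      = ∑ ω, (lam ω * δ ω - lam ω ^ 2 * L ^ 2 / κ * m ω) :=
        Finset.sum_congr rfl (fun ω _ => h1 ω)
    _ ≤ _ := h0
    _ ≤ _ := h2
    _ = _ := h3

end Crest.Agent.OT
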