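import Crest.Agent.Lib_OT_Cells

/-!
# P4 : existence of heights with prescribed cell masses (semi-discrete OT)

Minimise Ψ(b) = dualVal K σ p Y b = ∫_K pot Y b σ + Σ p b.  Ψ is Lipschitz (pot_sub_le), invariant under adding a
constant to b (hsum), and coercive on {b ω₀ = 0}.  So a global minimiser exists.
At a minimiser b, for t > 0, lowering the height of ω by t:
0 <= Ψ(b - t e_ω) - Ψ(b) <= t ∫_{D_t} σ - t p_ω,   D_t = {x ∈ K : aff ω' <= aff ω + t for all ω'},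
so p_ω <= ∫_{D_t} σ; the D_t decrease (t ↓ 0) to cell K Y b ω.  Hence p_ω <= ∫_{cell b ω} σ for all ω; the sum of the
right sides is ∫_K σ = Σ p  ==> equality.
-/

set_option autoImplicit false
open MeasureTheory
open scoped ENNReal NNReal

namespace Crest.Agent.OT

variable {d : ℕ}

section Exist
variable {Ω : Type} [Fintype Ω] [Nonempty Ω]

lemma exist_int_sigma {K : Set (Eu d)} (hKc : IsCompact K) {σ : Eu d → ℝ} (hσm : Measurable σ)
    (hσ : ∀ x ∈ K, 1 / 2 ≤ σ x ∧ σ x ≤ 2) : IntegrableOn σ K := by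
  refine integrableOn_of_bdd hKc hσm.aestronglyMeasurable (M := 2) ?_
  intro x hx
  rw [Real.norm_eq_abs, abs_of_nonneg (by linarith [(hσ x hx).1])]
  exact (hσ x hx).2

lemma exist_int_mul {K : Set (Eu d)} (hKc : IsCompact K) {σ : Eu d → ℝ} (hσm : Measurable σ)
    (hσ : ∀ x ∈ K, 1 / 2 ≤ σ x ∧ σ x ≤ 2) {c : Eu d → ℝ} (hc : Continuous c) :
    IntegrableOn (fun x => c x * σ x) K := by
  have hci : IntegrableOn c K := hc.continuousOn.integrableOn_compact hKc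
  refine Integrable.mul_bdd (c := 2) hci hσm.aestronglyMeasurable ?_
  filter_upwards [ae_restrict_mem hKc.measurableSet] with x hx
  rw [Real.norm_eq_abs, abs_of_nonneg (by linarith [(hσ x hx).1])]
  exact (hσ x hx).2

lemma exist_dualVal_add_const {K : Set (Eu d)} (hKc : IsCompact K) {σ : Eu d → ℝ}
    (hσm : Measurable σ) (hσ : ∀ x ∈ K, 1 / 2 ≤ σ x ∧ σ x ≤ 2) (Y : Ω → Eu d) (p : Ω → ℝ)
    (hsum : ∑ ω, p ω = ∫ x in K, σ x) (b : Ω → ℝ) (t : ℝ) :
    dualVal K σ p Y (fun ω => b ω + t) = dualVal K σ p Y b := by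
  unfold dualVal
  have e1 : (fun x => pot Y (fun ω => b ω + t) x * σ x)
      = fun x => pot Y b x * σ x - t * σ x := by
    funext x; rw [pot_add_const]; ring
  rw [e1, integral_sub (exist_int_mul hKc hσm hσ (continuous_pot Y b))
    ((exist_int_sigma hKc hσm hσ).const_mul t), integral_const_mul, ← hsum]
  simp only [mul_add, Finset.sum_add_distrib, ← Finset.sum_mul]
  ring

lemma exist_dualVal_lip {K : Set (Eu d)} (hKc : IsCompact K) {σ : Eu d → ℝ}
    (hσm : Measurable σ) (hσ : ∀ x ∈ K, 1 / 2 ≤ σ x ∧ σ x ≤ 2) (Y : Ω → Eu d) (p : Ω → ℝ)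
    (hp : ∀ ω, 0 < p ω) (b b' : Ω → ℝ) {δ : ℝ} (h : ∀ ω, |b ω - b' ω| ≤ δ) :
    |dualVal K σ p Y b - dualVal K σ p Y b'| ≤ (2 * volume.real K + ∑ ω, p ω) * δ := by
  unfold dualVal
  have e1 : (∫ x in K, pot Y b x * σ x) - ∫ x in K, pot Y b' x * σ x
      = ∫ x in K, (pot Y b x - pot Y b' x) * σ x := by
    rw [← integral_sub (exist_int_mul hKc hσm hσ (continuous_pot Y b))
      (exist_int_mul hKc hσm hσ (continuous_pot Y b'))]
    congr 1
    funext x; ring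
  have e2 : |∫ x in K, (pot Y b x - pot Y b' x) * σ x| ≤ δ * 2 * volume.real K := by
    rw [← Real.norm_eq_abs]
    refine norm_setIntegral_le_of_norm_le_const hKc.measure_lt_top ?_
    intro x hx
    rw [Real.norm_eq_abs, abs_mul]
    have h1 := pot_sub_le Y b b' h x
    have h2 : |σ x| ≤ 2 := by
      rw [abs_of_nonneg (by linarith [(hσ x hx).1])]
      exact (hσ x hx).2
    exact mul_le_mul h1 h2 (abs_nonneg _) (le_trans (abs_nonneg _) h1)
  have e3 : |∑ ω, p ω * b ω - ∑ ω, p ω * b' ω| ≤ (∑ ω, p ω) * δ := by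
    rw [← Finset.sum_sub_distrib, Finset.sum_mul]
    refine (Finset.abs_sum_le_sum_abs _ _).trans (Finset.sum_le_sum fun ω _ => ?_)
    rw [← mul_sub, abs_mul, abs_of_pos (hp ω)]
    exact mul_le_mul_of_nonneg_left (h ω) (hp ω).le
  calc |(∫ x in K, pot Y b x * σ x) + ∑ ω, p ω * b ω
        - ((∫ x in K, pot Y b' x * σ x) + ∑ ω, p ω * b' ω)|
      = |(∫ x in K, (pot Y b x - pot Y b' x) * σ x)
          + (∑ ω, p ω * b ω - ∑ ω, p ω * b' ω)| := by
        rw [← e1]; congr 1; ring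
    _ ≤ |∫ x in K, (pot Y b x - pot Y b' x) * σ x|
          + |∑ ω, p ω * b ω - ∑ ω, p ω * b' ω| := abs_add_le _ _
    _ ≤ δ * 2 * volume.real K + (∑ ω, p ω) * δ := add_le_add e2 e3
    _ = _ := by ring

lemma exist_continuous_dualVal {K : Set (Eu d)} (hKc : IsCompact K) {σ : Eu d → ℝ}
    (hσm : Measurable σ) (hσ : ∀ x ∈ K, 1 / 2 ≤ σ x ∧ σ x ≤ 2) (Y : Ω → Eu d) (p : Ω → ℝ)
    (hp : ∀ ω, 0 < p ω) : Continuous (fun b : Ω → ℝ => dualVal K σ p Y b) := by
  have hC : 0 ≤ 2 * volume.real K + ∑ ω, p ω := by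
    have : 0 ≤ ∑ ω, p ω := Finset.sum_nonneg fun ω _ => (hp ω).le
    positivity
  refine (LipschitzWith.of_dist_le_mul (K := Real.toNNReal (2 * volume.real K + ∑ ω, p ω))
    ?_).continuous
  intro b b'
  rw [Real.coe_toNNReal _ hC, Real.dist_eq]
  refine exist_dualVal_lip hKc hσm hσ Y p hp b b' ?_
  intro ω
  rw [← Real.dist_eq]
  exact dist_le_pi_dist b b' ω

lemma exist_coercive {K : Set (Eu d)} (hKc : IsCompact K) {σ : Eu d → ℝ}
    (hσm : Measurable σ) (hσ : ∀ x ∈ K, 1 / 2 ≤ σ x ∧ σ x ≤ 2) (Y : Ω → Eu d) (p : Ω → ℝ)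
    (hp : ∀ ω, 0 < p ω) (hsum : ∑ ω, p ω = ∫ x in K, σ x) (ω₀ : Ω) :
    ∃ c pm : ℝ, 0 < pm ∧ ∀ b : Ω → ℝ, b ω₀ = 0 → ∀ ω, c + pm * |b ω| ≤ dualVal K σ p Y b := by
  obtain ⟨ωI, hωI⟩ := Finite.exists_min (fun ω => ∫ x in K, inner ℝ x (Y ω) * σ x)
  obtain ⟨ωp, hωp⟩ := Finite.exists_min p
  refine ⟨∫ x in K, inner ℝ x (Y ωI) * σ x, p ωp, hp ωp, ?_⟩
  intro b hb0 ω
  obtain ⟨ωm, hωm⟩ := Finite.exists_min b
  set μ := b ωm with hμ
  have hμ0 : μ ≤ 0 := hb0 ▸ hωm ω₀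
  have hic : Continuous (fun x : Eu d => inner ℝ x (Y ωm)) := by fun_prop
  have h1 : (∫ x in K, inner ℝ x (Y ωm) * σ x) - μ * ∫ x in K, σ x
      ≤ ∫ x in K, pot Y b x * σ x := by
    rw [← integral_const_mul, ← integral_sub (exist_int_mul hKc hσm hσ hic)
      ((exist_int_sigma hKc hσm hσ).const_mul μ)]
    refine setIntegral_mono_on ((exist_int_mul hKc hσm hσ hic).sub
      ((exist_int_sigma hKc hσm hσ).const_mul μ))
      (exist_int_mul hKc hσm hσ (continuous_pot Y b)) hKc.measurableSet ?_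
    intro x hx
    have h2 := aff_le_pot Y b ωm x
    have h3 : 0 ≤ σ x := by linarith [(hσ x hx).1]
    calc inner ℝ x (Y ωm) * σ x - μ * σ x = aff Y b ωm x * σ x := by
          simp only [aff]; ring
      _ ≤ _ := mul_le_mul_of_nonneg_right h2 h3
  have hterm : ∀ ω', 0 ≤ p ω' * (b ω' - μ) := fun ω' =>
    mul_nonneg (hp ω').le (sub_nonneg.mpr (hωm ω'))
  have h2 : p ωp * |b ω| ≤ ∑ ω', p ω' * (b ω' - μ) := by
    rcases le_or_gt 0 (b ω) with hpos | hneg
    · calc p ωp * |b ω| = p ωp * b ω := by rw [abs_of_nonneg hpos]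
        _ ≤ p ω * (b ω - μ) :=
          mul_le_mul (hωp ω) (by linarith) hpos (hp ω).le
        _ ≤ _ := Finset.single_le_sum (f := fun ω' => p ω' * (b ω' - μ))
            (fun ω' _ => hterm ω') (Finset.mem_univ ω)
    · calc p ωp * |b ω| = p ωp * (-b ω) := by rw [abs_of_neg hneg]
        _ ≤ p ω₀ * (b ω₀ - μ) :=
          mul_le_mul (hωp ω₀) (by rw [hb0]; linarith [hωm ω]) (by linarith) (hp ω₀).le
        _ ≤ _ := Finset.single_le_sum (f := fun ω' => p ω' * (b ω' - μ))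
            (fun ω' _ => hterm ω') (Finset.mem_univ ω₀)
  have h3 : ∑ ω', p ω' * (b ω' - μ) = ∑ ω', p ω' * b ω' - μ * ∫ x in K, σ x := by
    rw [← hsum]
    simp only [mul_sub, Finset.sum_sub_distrib, ← Finset.sum_mul]
    ring
  unfold dualVal
  have := hωI ωm
  linarith

lemma exist_minimiser {K : Set (Eu d)} (hKc : IsCompact K) {σ : Eu d → ℝ}
    (hσm : Measurable σ) (hσ : ∀ x ∈ K, 1 / 2 ≤ σ x ∧ σ x ≤ 2) (Y : Ω → Eu d) (p : Ω → ℝ)
    (hp : ∀ ω, 0 < p ω) (hsum : ∑ ω, p ω = ∫ x in K, σ x) :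
    ∃ b : Ω → ℝ, ∀ b' : Ω → ℝ, dualVal K σ p Y b ≤ dualVal K σ p Y b' := by
  obtain ⟨ω₀⟩ := ‹Nonempty Ω›
  obtain ⟨c, pm, hpm, hco⟩ := exist_coercive hKc hσm hσ Y p hp hsum ω₀
  set M : ℝ := |(dualVal K σ p Y 0 - c) / pm| with hM
  have hM0 : 0 ≤ M := abs_nonneg _
  obtain ⟨b, hbM, hbmin⟩ := (isCompact_closedBall (0 : Ω → ℝ) M).exists_isMinOn
    ⟨0, by simp [hM0]⟩ (exist_continuous_dualVal hKc hσm hσ Y p hp).continuousOn
  refine ⟨b, fun b' => ?_⟩
  set b'' : Ω → ℝ := fun ω => b' ω + (-b' ω₀) with hb''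
  have e : dualVal K σ p Y b'' = dualVal K σ p Y b' :=
    exist_dualVal_add_const hKc hσm hσ Y p hsum b' _
  rw [← e]
  by_cases hcase : ∀ ω, |b'' ω| ≤ M
  · apply hbmin
    rw [mem_closedBall_zero_iff, pi_norm_le_iff_of_nonneg hM0]
    intro ω
    rw [Real.norm_eq_abs]
    exact hcase ω
  · push Not at hcase
    obtain ⟨ω, hω⟩ := hcase
    have h1 := hco b'' (by simp [hb'']) ω
    have h2 : dualVal K σ p Y b ≤ dualVal K σ p Y 0 := hbmin (by simp [hM0])
    have h3 : (dualVal K σ p Y 0 - c) / pm ≤ M := le_abs_self _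
    have h4 : dualVal K σ p Y 0 - c ≤ M * pm := (div_le_iff₀ hpm).mp h3
    nlinarith

/-- enlarged cell -/
def existD (K : Set (Eu d)) (Y : Ω → Eu d) (b : Ω → ℝ) (ω : Ω) (t : ℝ) : Set (Eu d) :=
  {x | x ∈ K ∧ ∀ ω', aff Y b ω' x ≤ aff Y b ω x + t}

omit [Nonempty Ω] in
lemma exist_measurableSet_D {K : Set (Eu d)} (hK : MeasurableSet K) (Y : Ω → Eu d) (b : Ω → ℝ)
    (ω : Ω) (t : ℝ) : MeasurableSet (existD K Y b ω t) := by
  have : existD K Y b ω t = K ∩ ⋂ ω', {x | aff Y b ω' x ≤ aff Y b ω x + t} := by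
    ext x; simp [existD]
  rw [this]
  refine hK.inter (MeasurableSet.iInter fun ω' => ?_)
  exact measurableSet_le (continuous_aff Y b ω').measurable
    ((continuous_aff Y b ω).measurable.add_const t)

lemma exist_variation [DecidableEq Ω] {K : Set (Eu d)} (hKc : IsCompact K) {σ : Eu d → ℝ}
    (hσm : Measurable σ) (hσ : ∀ x ∈ K, 1 / 2 ≤ σ x ∧ σ x ≤ 2) (Y : Ω → Eu d) (p : Ω → ℝ)
    (b : Ω → ℝ) (ω : Ω) {t : ℝ} (ht : 0 < t) :
    dualVal K σ p Y (fun ω' => b ω' - (if ω' = ω then t else 0))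
      ≤ dualVal K σ p Y b + t * ((∫ x in existD K Y b ω t, σ x) - p ω) := by
  set bt : Ω → ℝ := fun ω' => b ω' - (if ω' = ω then t else 0) with hbt
  set D := existD K Y b ω t with hD
  have hDm : MeasurableSet D := exist_measurableSet_D hKc.measurableSet Y b ω t
  have hDK : D ⊆ K := fun x hx => hx.1
  have haff_ne : ∀ ω', ω' ≠ ω → ∀ x, aff Y bt ω' x = aff Y b ω' x := by
    intro ω' hne x
    simp [aff, hbt, hne]
  have haff_eq : ∀ x, aff Y bt ω x = aff Y b ω x + t := by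
    intro x
    simp only [aff, hbt, if_true]; ring
  have haff_le : ∀ ω' x, aff Y b ω' x ≤ aff Y bt ω' x := by
    intro ω' x
    by_cases h : ω' = ω
    · subst h; rw [haff_eq]; linarith
    · rw [haff_ne ω' h]
  have hpt : ∀ x ∈ K, pot Y bt x ≤ pot Y b x + t * D.indicator (fun _ => (1 : ℝ)) x := by
    intro x hx
    obtain ⟨ω', hω'⟩ := exists_pot_eq Y bt x
    by_cases h : ω' = ω
    · subst h
      have hxD : x ∈ D := by
        refine ⟨hx, fun ω'' => ?_⟩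
        calc aff Y b ω'' x ≤ aff Y bt ω'' x := haff_le ω'' x
          _ ≤ pot Y bt x := aff_le_pot Y bt ω'' x
          _ = aff Y b ω' x + t := by rw [hω', haff_eq]
      rw [Set.indicator_of_mem hxD, hω', haff_eq]
      have := aff_le_pot Y b ω' x
      linarith
    · rw [hω', haff_ne ω' h]
      have h1 := aff_le_pot Y b ω' x
      have h2 : 0 ≤ t * D.indicator (fun _ => (1 : ℝ)) x :=
        mul_nonneg ht.le (Set.indicator_nonneg (fun _ _ => zero_le_one) x)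
      linarith
  have i1 := exist_int_mul hKc hσm hσ (continuous_pot Y bt)
  have i2 := exist_int_mul hKc hσm hσ (continuous_pot Y b)
  have i3 : IntegrableOn (fun x => D.indicator (fun _ => (1 : ℝ)) x * σ x) K := by
    have e : (fun x => D.indicator (fun _ => (1 : ℝ)) x * σ x) = D.indicator σ := by
      ext x; by_cases hx : x ∈ D <;> simp [hx]
    rw [e]
    exact (exist_int_sigma hKc hσm hσ).indicator hDm
  have h1 : ∫ x in K, pot Y bt x * σ x
      ≤ (∫ x in K, pot Y b x * σ x) + t * ∫ x in D, σ x := by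
    rw [← setIntegral_indicator_mul hDm hDK σ, ← integral_const_mul, ← integral_add i2
      (i3.const_mul t)]
    refine setIntegral_mono_on i1 (i2.add (i3.const_mul t)) hKc.measurableSet ?_
    intro x hx
    have h3 : 0 ≤ σ x := by linarith [(hσ x hx).1]
    calc pot Y bt x * σ x ≤ (pot Y b x + t * D.indicator (fun _ => (1 : ℝ)) x) * σ x :=
          mul_le_mul_of_nonneg_right (hpt x hx) h3
      _ = _ := by ring
  have h2 : ∑ ω', p ω' * bt ω' = ∑ ω', p ω' * b ω' - t * p ω := by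
    simp only [hbt, mul_sub, Finset.sum_sub_distrib, mul_ite, mul_zero, Finset.sum_ite_eq',
      Finset.mem_univ, if_true]
    ring
  unfold dualVal
  rw [h2]
  linarith

omit [Nonempty Ω] [Fintype Ω] in
lemma exist_iInter_D (K : Set (Eu d)) (Y : Ω → Eu d) (b : Ω → ℝ) (ω : Ω) :
    ⋂ n : ℕ, existD K Y b ω (1 / ((n : ℝ) + 1)) = cell K Y b ω := by
  ext x
  simp only [Set.mem_iInter, existD, cell, Set.mem_ofPred_eq]
  constructor
  · intro h
    refine ⟨(h 0).1, fun ω' => ?_⟩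
    refine le_of_forall_pos_le_add fun ε hε => ?_
    obtain ⟨n, hn⟩ := exists_nat_one_div_lt hε
    exact ((h n).2 ω').trans (by linarith)
  · rintro ⟨h1, h2⟩ n
    refine ⟨h1, fun ω' => (h2 ω').trans ?_⟩
    have : (0 : ℝ) < 1 / ((n : ℝ) + 1) := Nat.one_div_pos_of_nat
    linarith

end Exist

theorem exists_heights {Ω : Type} [Fintype Ω] [Nonempty Ω] {K : Set (Eu d)} (hKc : IsCompact K)
    (σ : Eu d → ℝ) (hσm : Measurable σ) (hσ : ∀ x ∈ K, 1 / 2 ≤ σ x ∧ σ x ≤ 2)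
    (Y : Ω → Eu d) (hY : Function.Injective Y) (p : Ω → ℝ) (hp : ∀ ω, 0 < p ω)
    (hsum : ∑ ω, p ω = ∫ x in K, σ x) :
    ∃ b : Ω → ℝ, ∀ ω, ∫ x in cell K Y b ω, σ x = p ω := by
  classical
  obtain ⟨b, hb⟩ := exist_minimiser hKc hσm hσ Y p hp hsum
  refine ⟨b, ?_⟩
  have hσi := exist_int_sigma hKc hσm hσ
  have hstep : ∀ ω, ∀ t : ℝ, 0 < t → p ω ≤ ∫ x in existD K Y b ω t, σ x := by
    intro ω t ht
    have h1 := exist_variation hKc hσm hσ Y p b ω ht
    have h2 := hb (fun ω' => b ω' - (if ω' = ω then t else 0))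
    have h3 : 0 ≤ t * ((∫ x in existD K Y b ω t, σ x) - p ω) := by linarith
    have h4 := nonneg_of_mul_nonneg_right h3 ht
    linarith
  have hle : ∀ ω, p ω ≤ ∫ x in cell K Y b ω, σ x := by
    intro ω
    have hanti : Antitone (fun n : ℕ => existD K Y b ω (1 / ((n : ℝ) + 1))) := by
      intro n k hnk x hx
      refine ⟨hx.1, fun ω' => (hx.2 ω').trans ?_⟩
      have : 1 / ((k : ℝ) + 1) ≤ 1 / ((n : ℝ) + 1) := Nat.one_div_le_one_div hnk
      linarith
    have hlim := tendsto_setIntegral_of_antitone (μ := volume) (f := σ)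
      (fun n : ℕ => exist_measurableSet_D hKc.measurableSet Y b ω (1 / ((n : ℝ) + 1))) hanti
      ⟨0, hσi.mono_set (fun x hx => hx.1)⟩
    rw [exist_iInter_D] at hlim
    exact ge_of_tendsto' hlim (fun n => hstep ω _ Nat.one_div_pos_of_nat)
  have htot : ∑ ω, p ω = ∑ ω, ∫ x in cell K Y b ω, σ x := by
    rw [sum_integral_cell hKc.measurableSet Y hY b σ hσi, hsum]
  intro ω
  exact ((Finset.sum_eq_sum_iff_of_le (fun ω _ => hle ω)).mp htot ω (Finset.mem_univ ω)).symm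

end Crest.Agent.OT
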