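import Crest.Agent.Lib_OT_Ent

/-!
# P3b : KEY LEMMA (moment stability), from cell_transport_ineq

Notation: κ = 1/(64 R²), s = gw κ x₀ (values in [e^{-1/128}, 1] on K), A_ω = cell K Y a ω (|A_ω| = p_ω),
B_ω = cell K Y b ω (∫_{B_ω} τ = p_ω), m_ω = ∫_{A_ω} s, θ_ω = m_ω / ∫_{B_ω} τ s  in [e^{-1/128}, e^{1/128}],
Θ(x) = sup over ω of (indicator of B_ω) * θ_ω  (measurable, in [θmin, θmax] on K, = θ_ω a.e. on B_ω),
g = Θ τ.  Then ∫_{B_ω} g s = m_ω.   X := ∫_K (g-1)² s.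
(1) q = 1/s (same for all ω), Lipschitz on K with L0 = κ R e^{1/128}:
    δ_ω = ∫_{A_ω} 1 - ∫_{B_ω} θ_ω τ = p_ω (1-θ_ω).   So Σ κ p_ω² (1-θ_ω)²/(4 L0² m_ω) <= X; as m_ω <= p_ω:
    Σ p_ω (1-θ_ω)² <= 4 L0² X / κ = 4 κ R² e^{1/64} X = (e^{1/64}/16) X.
(2) (g-1)² <= 2 Θ² (τ-1)² + 2 (Θ-1)², s <= 1, |B_ω| <= 2 p_ω (τ >= 1/2):
    X <= 2 θmax² ∫_K (τ-1)² + 4 Σ p_ω (θ_ω-1)² <= 2 θmax² ∫_K(τ-1)² + (e^{1/64}/4) X   ==> X <= 3 ∫_K (τ-1)².
(3) q_ω(x) = <x - x₀, v_ω>/s(x), v_ω unit vector in the direction of N_ω := M1'_ω - θ_ω Mτ'_ω,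
    M1'_ω = ∫_{A_ω} (x-x₀), Mτ'_ω = ∫_{B_ω} τ (x-x₀);  Lipschitz on K with L1 = (1+κR²) e^{1/128}:
    δ_ω = |N_ω|, so Σ |N_ω|²/p_ω <= Σ |N_ω|²/m_ω <= 4 L1² X/κ = 256 L1² R² X.
(4) M1_ω - Mτ_ω = M1'_ω - Mτ'_ω (same masses) = N_ω + (θ_ω - 1) Mτ'_ω, |Mτ'_ω| <= R p_ω:
    Σ |M1_ω - Mτ_ω|²/p_ω <= 2 Σ|N_ω|²/p_ω + 2 R² Σ p_ω (θ_ω-1)² <= (512 L1² + 1) R² X <= 2000 R² ∫_K(τ-1)².
If the numerics do not fit, enlarge momC in Lib_OT_Defs (nobody uses its value) and tell helper9.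
-/

set_option autoImplicit false
open MeasureTheory
open scoped ENNReal NNReal

namespace Crest.Agent.OT

variable {d : ℕ}

/-- inverse Gaussian weight -/
noncomputable def igw (κ : ℝ) (x₀ x : Eu d) : ℝ := Real.exp (κ * ‖x - x₀‖ ^ 2 / 2)

lemma mom_igw_mul_gw (κ : ℝ) (x₀ x : Eu d) : igw κ x₀ x * gw κ x₀ x = 1 := by
  unfold igw gw
  rw [← Real.exp_add, add_neg_cancel, Real.exp_zero]

lemma mom_continuous_gw (κ : ℝ) (x₀ : Eu d) : Continuous (gw κ x₀) := by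
  unfold gw; fun_prop

lemma mom_continuous_igw (κ : ℝ) (x₀ : Eu d) : Continuous (igw κ x₀) := by
  unfold igw; fun_prop

lemma mom_gw_pos (κ : ℝ) (x₀ x : Eu d) : 0 < gw κ x₀ x := Real.exp_pos _

lemma mom_igw_pos (κ : ℝ) (x₀ x : Eu d) : 0 < igw κ x₀ x := Real.exp_pos _

lemma mom_gw_le_one {κ : ℝ} (hκ : 0 ≤ κ) (x₀ x : Eu d) : gw κ x₀ x ≤ 1 := by
  unfold gw
  rw [Real.exp_le_one_iff]
  have : 0 ≤ κ * ‖x - x₀‖ ^ 2 / 2 := by positivity
  linarith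

lemma mom_half_le {κ R : ℝ} (hκ : 0 ≤ κ) {x₀ x : Eu d} (h : ‖x - x₀‖ ≤ R) :
    κ * ‖x - x₀‖ ^ 2 / 2 ≤ κ * R ^ 2 / 2 := by
  have h0 := norm_nonneg (x - x₀)
  have : ‖x - x₀‖ ^ 2 ≤ R ^ 2 := by nlinarith
  have := mul_le_mul_of_nonneg_left this hκ
  linarith

lemma mom_gw_ge {κ R : ℝ} (hκ : 0 ≤ κ) {x₀ x : Eu d} (h : ‖x - x₀‖ ≤ R) :
    Real.exp (-(κ * R ^ 2 / 2)) ≤ gw κ x₀ x := by
  unfold gw
  rw [Real.exp_le_exp]
  have := mom_half_le hκ h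
  linarith

lemma mom_igw_le {κ R : ℝ} (hκ : 0 ≤ κ) {x₀ x : Eu d} (h : ‖x - x₀‖ ≤ R) :
    igw κ x₀ x ≤ Real.exp (κ * R ^ 2 / 2) := by
  unfold igw
  rw [Real.exp_le_exp]
  exact mom_half_le hκ h

lemma mom_exp_lip {u v c : ℝ} (hu : u ≤ c) (hv : v ≤ c) :
    |Real.exp u - Real.exp v| ≤ Real.exp c * |u - v| := by
  wlog h : v ≤ u generalizing u v
  · rw [abs_sub_comm, abs_sub_comm u v]; exact this hv hu (le_of_not_ge h)
  have h1 : Real.exp u - Real.exp v = Real.exp u * (1 - Real.exp (v - u)) := by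
    rw [mul_sub, mul_one, ← Real.exp_add]; ring_nf
  have h2 : 1 - Real.exp (v - u) ≤ u - v := by
    have := Real.add_one_le_exp (v - u); linarith
  have h3 : 0 ≤ 1 - Real.exp (v - u) := by
    have : Real.exp (v - u) ≤ 1 := Real.exp_le_one_iff.mpr (by linarith)
    linarith
  rw [h1, abs_of_nonneg (mul_nonneg (Real.exp_pos _).le h3), abs_of_nonneg (by linarith)]
  exact mul_le_mul (Real.exp_le_exp.mpr hu) h2 h3 (Real.exp_pos _).le

lemma mom_igw_lip {κ R : ℝ} (hκ : 0 ≤ κ) {x₀ x x' : Eu d} (h : ‖x - x₀‖ ≤ R)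
    (h' : ‖x' - x₀‖ ≤ R) :
    |igw κ x₀ x - igw κ x₀ x'| ≤ κ * R * Real.exp (κ * R ^ 2 / 2) * ‖x - x'‖ := by
  unfold igw
  refine (mom_exp_lip (mom_half_le hκ h) (mom_half_le hκ h')).trans ?_
  have h0 := norm_nonneg (x - x₀)
  have h0' := norm_nonneg (x' - x₀)
  have h1 : |‖x - x₀‖ - ‖x' - x₀‖| ≤ ‖x - x'‖ := by
    have := abs_norm_sub_norm_le (x - x₀) (x' - x₀)
    simpa using this
  have h2 : κ * ‖x - x₀‖ ^ 2 / 2 - κ * ‖x' - x₀‖ ^ 2 / 2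
      = κ / 2 * ((‖x - x₀‖ + ‖x' - x₀‖) * (‖x - x₀‖ - ‖x' - x₀‖)) := by ring
  have h3 : |κ * ‖x - x₀‖ ^ 2 / 2 - κ * ‖x' - x₀‖ ^ 2 / 2| ≤ κ * R * ‖x - x'‖ := by
    rw [h2, abs_mul, abs_mul, abs_of_nonneg (by positivity : 0 ≤ κ / 2),
      abs_of_nonneg (by positivity : 0 ≤ ‖x - x₀‖ + ‖x' - x₀‖)]
    have h4 : (‖x - x₀‖ + ‖x' - x₀‖) * |‖x - x₀‖ - ‖x' - x₀‖| ≤ (2 * R) * ‖x - x'‖ :=
      mul_le_mul (by linarith) h1 (abs_nonneg _) (by linarith)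
    have := mul_le_mul_of_nonneg_left h4 (by positivity : 0 ≤ κ / 2)
    linarith
  have := mul_le_mul_of_nonneg_left h3 (Real.exp_pos (κ * R ^ 2 / 2)).le
  linarith

lemma mom_q_lip {κ R : ℝ} (hκ : 0 ≤ κ) {x₀ x x' v : Eu d} (hv : ‖v‖ ≤ 1) (h : ‖x - x₀‖ ≤ R)
    (h' : ‖x' - x₀‖ ≤ R) :
    |inner ℝ (x - x₀) v * igw κ x₀ x - inner ℝ (x' - x₀) v * igw κ x₀ x'|
      ≤ (1 + κ * R ^ 2) * Real.exp (κ * R ^ 2 / 2) * ‖x - x'‖ := by
  have hR : 0 ≤ R := (norm_nonneg _).trans h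
  have e : inner ℝ (x - x₀) v * igw κ x₀ x - inner ℝ (x' - x₀) v * igw κ x₀ x'
      = inner ℝ (x - x') v * igw κ x₀ x + inner ℝ (x' - x₀) v * (igw κ x₀ x - igw κ x₀ x') := by
    have : x - x₀ = (x - x') + (x' - x₀) := by abel
    rw [this, inner_add_left]; ring
  rw [e]
  refine (abs_add_le _ _).trans ?_
  rw [abs_mul, abs_mul]
  have i1 : |inner ℝ (x - x') v| ≤ ‖x - x'‖ := by
    refine (abs_real_inner_le_norm _ _).trans ?_
    have := mul_le_mul_of_nonneg_left hv (norm_nonneg (x - x'))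
    linarith
  have i2 : |inner ℝ (x' - x₀) v| ≤ R := by
    refine (abs_real_inner_le_norm _ _).trans ?_
    have := mul_le_mul h' hv (norm_nonneg _) hR
    linarith
  have i3 : |igw κ x₀ x| ≤ Real.exp (κ * R ^ 2 / 2) := by
    rw [abs_of_pos (mom_igw_pos _ _ _)]; exact mom_igw_le hκ h
  have i4 := mom_igw_lip hκ h h'
  have j1 := mul_le_mul i1 i3 (abs_nonneg _) (norm_nonneg _)
  have j2 := mul_le_mul i2 i4 (abs_nonneg _) hR
  calc _ ≤ ‖x - x'‖ * Real.exp (κ * R ^ 2 / 2)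
        + R * (κ * R * Real.exp (κ * R ^ 2 / 2) * ‖x - x'‖) := add_le_add j1 j2
    _ = _ := by ring

lemma mom_Theta_ae {Ω : Type} [Fintype Ω] {K : Set (Eu d)} (hK : MeasurableSet K) (Y : Ω → Eu d)
    (hY : Function.Injective Y) (b : Ω → ℝ) (θ : Ω → ℝ) (ω : Ω) :
    ∀ᵐ x ∂(volume.restrict (cell K Y b ω)),
      ∑ ω', (cell K Y b ω').indicator (fun _ => θ ω') x = θ ω := by
  rw [ae_restrict_iff' (measurableSet_cell hK Y b ω)]
  filter_upwards [ae_injective_aff Y hY b] with x hinj hx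
  rw [Finset.sum_eq_single ω]
  · simp [hx]
  · intro ω' _ hne
    have : x ∉ cell K Y b ω' := fun h => hne (hinj (le_antisymm (hx.2 ω') (h.2 ω)))
    simp [this]
  · intro h; exact absurd (Finset.mem_univ ω) h

theorem moment_stability {Ω : Type} [Fintype Ω] [Nonempty Ω] {K : Set (Eu d)} (hKc : IsCompact K)
    (hKv : Convex ℝ K) (x₀ : Eu d) {R : ℝ} (hR : 0 < R) (hKR : ∀ x ∈ K, ‖x - x₀‖ ≤ R)
    (Y : Ω → Eu d) (hY : Function.Injective Y) (a b : Ω → ℝ)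
    (τ : Eu d → ℝ) (hτm : Measurable τ) (hτ : ∀ x ∈ K, 1 / 2 ≤ τ x ∧ τ x ≤ 2)
    (p : Ω → ℝ) (hp : ∀ ω, 0 < p ω)
    (hA : ∀ ω, (volume (cell K Y a ω)).toReal = p ω)
    (hB : ∀ ω, ∫ x in cell K Y b ω, τ x = p ω) :
    ∑ ω, ‖(∫ x in cell K Y a ω, x) - ∫ x in cell K Y b ω, τ x • x‖ ^ 2 / p ω
      ≤ momC * R ^ 2 * ∫ x in K, (τ x - 1) ^ 2 := by
  classical
  have hKm : MeasurableSet K := hKc.measurableSet
  have hAm : ∀ ω, MeasurableSet (cell K Y a ω) := fun ω => measurableSet_cell hKm Y a ω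
  have hBm : ∀ ω, MeasurableSet (cell K Y b ω) := fun ω => measurableSet_cell hKm Y b ω
  have hAK : ∀ ω, cell K Y a ω ⊆ K := fun ω => cell_subset K Y a ω
  have hBK : ∀ ω, cell K Y b ω ⊆ K := fun ω => cell_subset K Y b ω
  obtain ⟨κ, hκdef⟩ : ∃ κ : ℝ, κ = 1 / (64 * R ^ 2) := ⟨_, rfl⟩
  have hκ : 0 < κ := by rw [hκdef]; positivity
  have hκR : κ * R ^ 2 = 1 / 64 := by rw [hκdef]; field_simp
  have hκR2 : κ * R ^ 2 / 2 = 1 / 128 := by rw [hκR]; norm_num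
  obtain ⟨E, hE⟩ : ∃ E : ℝ, E = Real.exp (1 / 128) := ⟨_, rfl⟩
  have hE1 : 1 ≤ E := by rw [hE]; exact Real.one_le_exp (by norm_num)
  have hE0 : 0 < E := by linarith
  have hE2 : E ^ 2 ≤ 64 / 63 := by
    have h1 : E ^ 2 = Real.exp (1 / 64) := by
      rw [hE, sq, ← Real.exp_add]; norm_num
    have h2 := Real.add_one_le_exp (-(1 / 64) : ℝ)
    have h3 : Real.exp (1 / 64) * Real.exp (-(1 / 64)) = 1 := by
      rw [← Real.exp_add]; simp
    rw [h1]; nlinarith [Real.exp_pos (1 / 64 : ℝ)]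
  have hEinv : Real.exp (-(1 / 128)) = E⁻¹ := by rw [Real.exp_neg, hE]
  have hs1 : ∀ x, gw κ x₀ x ≤ 1 := mom_gw_le_one hκ.le x₀
  have hs0 : ∀ x, 0 < gw κ x₀ x := mom_gw_pos κ x₀
  have hsE : ∀ x ∈ K, E⁻¹ ≤ gw κ x₀ x := by
    intro x hx
    have := mom_gw_ge hκ.le (hKR x hx)
    rwa [hκR2, hEinv] at this
  have hsm : Measurable (gw κ x₀) := (mom_continuous_gw κ x₀).measurable
  -- integrability
  have hint_s : IntegrableOn (gw κ x₀) K :=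
    (mom_continuous_gw κ x₀).continuousOn.integrableOn_compact hKc
  have hint_c : ∀ c : ℝ, IntegrableOn (fun _ : Eu d => c) K := fun c =>
    integrableOn_const hKc.measure_lt_top.ne
  have hint_τ : IntegrableOn τ K :=
    integrableOn_of_bdd hKc hτm.aestronglyMeasurable (M := 2) (by
      intro x hx; rw [Real.norm_eq_abs, abs_le]; constructor <;> linarith [(hτ x hx).1, (hτ x hx).2])
  have hint_τs : IntegrableOn (fun x => τ x * gw κ x₀ x) K :=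
    integrableOn_of_bdd hKc (hτm.mul hsm).aestronglyMeasurable (M := 2) (by
      intro x hx
      have h1 := hτ x hx
      rw [Real.norm_eq_abs, abs_of_nonneg (mul_nonneg (by linarith) (hs0 x).le)]
      nlinarith [hs1 x, hs0 x])
  -- masses
  have hvolA : ∀ ω, ∫ _ in cell K Y a ω, (1 : ℝ) = p ω := by
    intro ω; rw [setIntegral_const, measureReal_def, hA ω]; simp
  obtain ⟨m, hm⟩ : ∃ m : Ω → ℝ, m = fun ω => ∫ x in cell K Y a ω, gw κ x₀ x := ⟨_, rfl⟩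
  obtain ⟨n, hn⟩ : ∃ n : Ω → ℝ, n = fun ω => ∫ x in cell K Y b ω, τ x * gw κ x₀ x := ⟨_, rfl⟩
  have hm_le : ∀ ω, m ω ≤ p ω := by
    intro ω
    rw [← hvolA ω, hm]
    exact setIntegral_mono_on (hint_s.mono_set (hAK ω)) ((hint_c 1).mono_set (hAK ω)) (hAm ω)
      (fun x _ => hs1 x)
  have hm_ge : ∀ ω, E⁻¹ * p ω ≤ m ω := by
    intro ω
    rw [← hvolA ω, hm, ← integral_const_mul]
    exact setIntegral_mono_on (((hint_c 1).mono_set (hAK ω)).const_mul _)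
      (hint_s.mono_set (hAK ω)) (hAm ω) (fun x hx => by simpa using hsE x hx.1)
  have hn_le : ∀ ω, n ω ≤ p ω := by
    intro ω
    rw [← hB ω, hn]
    exact setIntegral_mono_on (hint_τs.mono_set (hBK ω)) (hint_τ.mono_set (hBK ω)) (hBm ω)
      (fun x hx => by nlinarith [hs1 x, (hτ x hx.1).1])
  have hn_ge : ∀ ω, E⁻¹ * p ω ≤ n ω := by
    intro ω
    rw [← hB ω, hn, ← integral_const_mul]
    exact setIntegral_mono_on ((hint_τ.mono_set (hBK ω)).const_mul _)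
      (hint_τs.mono_set (hBK ω)) (hBm ω) (fun x hx => by
        have := mul_le_mul_of_nonneg_left (hsE x hx.1) (by linarith [(hτ x hx.1).1] : 0 ≤ τ x)
        linarith)
  have hEi0 : 0 < E⁻¹ := inv_pos.mpr hE0
  have hm0 : ∀ ω, 0 < m ω := fun ω => lt_of_lt_of_le (mul_pos hEi0 (hp ω)) (hm_ge ω)
  have hn0 : ∀ ω, 0 < n ω := fun ω => lt_of_lt_of_le (mul_pos hEi0 (hp ω)) (hn_ge ω)
  obtain ⟨θ, hθ⟩ : ∃ θ : Ω → ℝ, θ = fun ω => m ω / n ω := ⟨_, rfl⟩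
  have hθn : ∀ ω, θ ω * n ω = m ω := by
    intro ω; rw [hθ]; exact div_mul_cancel₀ _ (hn0 ω).ne'
  have hθ0 : ∀ ω, 0 < θ ω := by intro ω; rw [hθ]; exact div_pos (hm0 ω) (hn0 ω)
  have hθhi : ∀ ω, θ ω ≤ E := by
    intro ω
    rw [hθ]; show m ω / n ω ≤ E
    rw [div_le_iff₀ (hn0 ω)]
    have h1 := mul_le_mul_of_nonneg_left (hn_ge ω) hE0.le
    rw [← mul_assoc, mul_inv_cancel₀ hE0.ne', one_mul] at h1
    linarith [hm_le ω]
  have hθlo : ∀ ω, E⁻¹ ≤ θ ω := by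
    intro ω
    rw [hθ]; show E⁻¹ ≤ m ω / n ω
    rw [le_div_iff₀ (hn0 ω)]
    have h1 := mul_le_mul_of_nonneg_left (hn_le ω) hEi0.le
    linarith [hm_ge ω]
  -- the density g
  obtain ⟨Θ, hΘ⟩ : ∃ Θ : Eu d → ℝ,
      Θ = fun x => ∑ ω, (cell K Y b ω).indicator (fun _ => θ ω) x := ⟨_, rfl⟩
  obtain ⟨g, hg⟩ : ∃ g : Eu d → ℝ, g = fun x => Θ x * τ x := ⟨_, rfl⟩
  have hΘm : Measurable Θ := by
    rw [hΘ]
    exact Finset.measurable_sum _ (fun ω _ => measurable_const.indicator (hBm ω))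
  have hgm : Measurable g := by rw [hg]; exact hΘm.mul hτm
  have hΘae : ∀ ω, ∀ᵐ x ∂(volume.restrict (cell K Y b ω)), Θ x = θ ω := by
    intro ω; rw [hΘ]; exact mom_Theta_ae hKm Y hY b θ ω
  have hgae : ∀ ω, ∀ᵐ x ∂(volume.restrict (cell K Y b ω)), g x = θ ω * τ x := by
    intro ω
    filter_upwards [hΘae ω] with x hx
    rw [hg]; show Θ x * τ x = _
    rw [hx]
  have hΘlo : ∀ x ∈ K, E⁻¹ ≤ Θ x := by
    intro x hx
    have : x ∈ ⋃ ω, cell K Y b ω := by rw [iUnion_cell]; exact hx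
    obtain ⟨ω, hω⟩ := Set.mem_iUnion.mp this
    calc E⁻¹ ≤ θ ω := hθlo ω
      _ = (cell K Y b ω).indicator (fun _ => θ ω) x := by simp [hω]
      _ ≤ Θ x := by
        rw [hΘ]
        exact Finset.single_le_sum (f := fun ω => (cell K Y b ω).indicator (fun _ => θ ω) x)
          (fun ω' _ => Set.indicator_nonneg (fun _ _ => (hθ0 ω').le) x) (Finset.mem_univ ω)
  have hΘhi : ∀ x, Θ x ≤ ∑ ω, θ ω := by
    intro x; rw [hΘ]
    exact Finset.sum_le_sum (fun ω _ => Set.indicator_le_self' (fun _ _ => (hθ0 ω).le) x)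
  have hgb : ∀ x ∈ K, E⁻¹ * (1 / 2) ≤ g x ∧ g x ≤ (∑ ω, θ ω) * 2 := by
    intro x hx
    have h1 := hτ x hx
    have h2 := hΘlo x hx
    have h3 := hΘhi x
    rw [hg]
    constructor
    · exact mul_le_mul h2 h1.1 (by norm_num) (by linarith)
    · exact mul_le_mul h3 h1.2 (by linarith) (by linarith)
  have hBg : ∀ ω, ∫ x in cell K Y b ω, g x * gw κ x₀ x = m ω := by
    intro ω
    have : ∫ x in cell K Y b ω, g x * gw κ x₀ x
        = ∫ x in cell K Y b ω, θ ω * (τ x * gw κ x₀ x) := by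
      apply integral_congr_ae
      filter_upwards [hgae ω] with x hx
      rw [hx]; ring
    rw [this, integral_const_mul, ← hθn ω, hn]
  obtain ⟨X, hX⟩ : ∃ X : ℝ, X = ∫ x in K, (g x - 1) ^ 2 * gw κ x₀ x := ⟨_, rfl⟩
  have key : ∀ (q : Ω → Eu d → ℝ) (_ : ∀ ω, Continuous (q ω)) (L : ℝ) (_ : 0 < L)
      (_ : ∀ ω, ∀ x ∈ K, ∀ x' ∈ K, |q ω x - q ω x'| ≤ L * ‖x - x'‖),
      ∑ ω, κ / (4 * L ^ 2) * ((∫ x in cell K Y a ω, q ω x * gw κ x₀ x)
        - ∫ x in cell K Y b ω, q ω x * (g x * gw κ x₀ x)) ^ 2 / m ω ≤ X := by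
    intro q hqc L hL hq
    rw [hX]
    exact cell_transport_ineq hKc hKv x₀ hκ Y hY a b g hgm (g₀ := E⁻¹ * (1 / 2))
      (g₁ := (∑ ω, θ ω) * 2) (by positivity) hgb m hm0 (fun ω => by rw [hm]) hBg q hqc hL hq
  -- Step 1
  obtain ⟨S1, hS1⟩ : ∃ S1 : ℝ, S1 = ∑ ω, p ω * (θ ω - 1) ^ 2 := ⟨_, rfl⟩
  have step1 : S1 ≤ E ^ 2 / 16 * X := by
    have hL0 : 0 < κ * R * E := by positivity
    have h := key (fun _ => igw κ x₀) (fun _ => mom_continuous_igw κ x₀) (κ * R * E) hL0 (by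
      intro _ x hx x' hx'
      have := mom_igw_lip hκ.le (hKR x hx) (hKR x' hx')
      rwa [hκR2, ← hE] at this)
    have e1 : ∀ ω, ∫ x in cell K Y a ω, igw κ x₀ x * gw κ x₀ x = p ω := by
      intro ω; simp_rw [mom_igw_mul_gw]; exact hvolA ω
    have e2 : ∀ ω, ∫ x in cell K Y b ω, igw κ x₀ x * (g x * gw κ x₀ x) = θ ω * p ω := by
      intro ω
      have : ∫ x in cell K Y b ω, igw κ x₀ x * (g x * gw κ x₀ x)
          = ∫ x in cell K Y b ω, θ ω * τ x := by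
        apply integral_congr_ae
        filter_upwards [hgae ω] with x hx
        rw [← hx]
        calc igw κ x₀ x * (g x * gw κ x₀ x) = g x * (igw κ x₀ x * gw κ x₀ x) := by ring
          _ = g x := by rw [mom_igw_mul_gw, mul_one]
      rw [this, integral_const_mul, hB ω]
    simp_rw [e1, e2] at h
    have hc : κ / (4 * (κ * R * E) ^ 2) = 16 / E ^ 2 := by
      have h1 : 4 * (κ * R * E) ^ 2 = κ * (4 * (κ * R ^ 2) * E ^ 2) := by ring
      rw [h1, hκR]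
      field_simp
      norm_num
    rw [hc] at h
    have h2 : ∑ ω, 16 / E ^ 2 * (p ω * (θ ω - 1) ^ 2) ≤ X := by
      refine le_trans (Finset.sum_le_sum fun ω _ => ?_) h
      have h3 : p ω * (θ ω - 1) ^ 2 ≤ (p ω - θ ω * p ω) ^ 2 / m ω := by
        rw [le_div_iff₀ (hm0 ω)]
        have : (p ω - θ ω * p ω) ^ 2 = p ω * (θ ω - 1) ^ 2 * p ω := by ring
        rw [this]
        exact mul_le_mul_of_nonneg_left (hm_le ω) (by have := hp ω; positivity)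
      have := mul_le_mul_of_nonneg_left h3 (by positivity : 0 ≤ 16 / E ^ 2)
      rw [mul_div_assoc]; exact this
    rw [← Finset.mul_sum, ← hS1] at h2
    have hE2pos : 0 < E ^ 2 := by positivity
    rw [div_mul_eq_mul_div, div_le_iff₀ hE2pos] at h2
    linarith
  -- Step 2
  obtain ⟨I, hI⟩ : ∃ I : ℝ, I = ∫ x in K, (τ x - 1) ^ 2 := ⟨_, rfl⟩
  have hint_τ1 : IntegrableOn (fun x => (τ x - 1) ^ 2) K :=
    integrableOn_of_bdd hKc ((hτm.sub_const 1).pow_const 2).aestronglyMeasurable (M := 1) (by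
      intro x hx
      have h1 := hτ x hx
      rw [Real.norm_eq_abs, abs_of_nonneg (sq_nonneg _)]; nlinarith)
  have hint_X : IntegrableOn (fun x => (g x - 1) ^ 2 * gw κ x₀ x) K :=
    integrableOn_of_bdd hKc (((hgm.sub_const 1).pow_const 2).mul hsm).aestronglyMeasurable
      (M := ((∑ ω, θ ω) * 2 + 1) ^ 2) (by
      intro x hx
      have h1 := hgb x hx
      have h0 : 0 ≤ E⁻¹ * (1 / 2) := by positivity
      rw [Real.norm_eq_abs, abs_of_nonneg (mul_nonneg (sq_nonneg _) (hs0 x).le)]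
      have h2 : (g x - 1) ^ 2 ≤ ((∑ ω, θ ω) * 2 + 1) ^ 2 := by
        apply sq_le_sq' <;> linarith
      nlinarith [hs1 x, hs0 x, sq_nonneg (g x - 1)])
  have hvolB : ∀ ω, ∫ _ in cell K Y b ω, (1 : ℝ) ≤ 2 * p ω := by
    intro ω
    rw [← hB ω, ← integral_const_mul]
    exact setIntegral_mono_on ((hint_c 1).mono_set (hBK ω))
      ((hint_τ.mono_set (hBK ω)).const_mul _) (hBm ω) (fun x hx => by linarith [(hτ x hx.1).1])
  have step2 : X ≤ 2 * E ^ 2 * I + 4 * S1 := by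
    rw [hX, ← sum_integral_cell hKm Y hY b _ hint_X, hI,
      ← sum_integral_cell hKm Y hY b _ hint_τ1, hS1, Finset.mul_sum, Finset.mul_sum,
      ← Finset.sum_add_distrib]
    refine Finset.sum_le_sum fun ω _ => ?_
    have hae : (fun x => (g x - 1) ^ 2 * gw κ x₀ x)
        =ᵐ[volume.restrict (cell K Y b ω)] fun x => (θ ω * τ x - 1) ^ 2 * gw κ x₀ x := by
      filter_upwards [hgae ω] with x hx
      rw [hx]
    rw [integral_congr_ae hae]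
    have hb : ∫ x in cell K Y b ω, (θ ω * τ x - 1) ^ 2 * gw κ x₀ x
        ≤ ∫ x in cell K Y b ω, (2 * θ ω ^ 2 * (τ x - 1) ^ 2 + 2 * (θ ω - 1) ^ 2 * 1) := by
      apply setIntegral_mono_on ((hint_X.mono_set (hBK ω)).congr hae)
        (((hint_τ1.mono_set (hBK ω)).const_mul _).add
          (((hint_c 1).mono_set (hBK ω)).const_mul _)) (hBm ω)
      intro x hx
      have h1 : (θ ω * τ x - 1) ^ 2 ≤ 2 * θ ω ^ 2 * (τ x - 1) ^ 2 + 2 * (θ ω - 1) ^ 2 := by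
        nlinarith [sq_nonneg (θ ω * (τ x - 1) - (θ ω - 1))]
      have h2 := mul_le_mul_of_nonneg_left (hs1 x) (sq_nonneg (θ ω * τ x - 1))
      show (θ ω * τ x - 1) ^ 2 * gw κ x₀ x
        ≤ 2 * θ ω ^ 2 * (τ x - 1) ^ 2 + 2 * (θ ω - 1) ^ 2 * 1
      linarith
    rw [integral_add ((hint_τ1.mono_set (hBK ω)).const_mul _)
      (((hint_c 1).mono_set (hBK ω)).const_mul _), integral_const_mul, integral_const_mul] at hb
    have h1 : 0 ≤ ∫ x in cell K Y b ω, (τ x - 1) ^ 2 := integral_nonneg fun x => sq_nonneg _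
    have h2 : θ ω ^ 2 ≤ E ^ 2 := pow_le_pow_left₀ (hθ0 ω).le (hθhi ω) 2
    have h3 := mul_le_mul_of_nonneg_right h2 h1
    have h4 := mul_le_mul_of_nonneg_left (hvolB ω) (sq_nonneg (θ ω - 1))
    nlinarith
  -- Step 3
  obtain ⟨M1, hM1⟩ : ∃ M1 : Ω → Eu d, M1 = fun ω => ∫ x in cell K Y a ω, (x - x₀) := ⟨_, rfl⟩
  obtain ⟨Mt, hMt⟩ : ∃ Mt : Ω → Eu d,
      Mt = fun ω => ∫ x in cell K Y b ω, τ x • (x - x₀) := ⟨_, rfl⟩
  obtain ⟨N, hN⟩ : ∃ N : Ω → Eu d, N = fun ω => M1 ω - θ ω • Mt ω := ⟨_, rfl⟩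
  obtain ⟨v, hv⟩ : ∃ v : Ω → Eu d, v = fun ω => (‖N ω‖)⁻¹ • N ω := ⟨_, rfl⟩
  have hv1 : ∀ ω, ‖v ω‖ ≤ 1 := by
    intro ω; rw [hv]; show ‖(‖N ω‖)⁻¹ • N ω‖ ≤ 1
    rw [norm_smul, norm_inv, norm_norm]
    by_cases h : ‖N ω‖ = 0
    · rw [h]; simp
    · rw [inv_mul_cancel₀ h]
  have hNv : ∀ ω, inner ℝ (N ω) (v ω) = ‖N ω‖ := by
    intro ω; rw [hv]; show inner ℝ (N ω) ((‖N ω‖)⁻¹ • N ω) = ‖N ω‖
    rw [real_inner_smul_right, real_inner_self_eq_norm_sq]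
    by_cases h : ‖N ω‖ = 0
    · rw [h]; simp
    · field_simp
  have hint_x0 : IntegrableOn (fun x : Eu d => x - x₀) K :=
    (continuous_id.sub continuous_const).continuousOn.integrableOn_compact hKc
  have hint_τx0 : IntegrableOn (fun x : Eu d => τ x • (x - x₀)) K :=
    integrableOn_of_bdd hKc (hτm.smul (measurable_id.sub_const x₀)).aestronglyMeasurable
      (M := 2 * R) (by
      intro x hx
      have h1 := hτ x hx
      rw [norm_smul, Real.norm_eq_abs, abs_of_nonneg (by linarith)]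
      exact mul_le_mul h1.2 (hKR x hx) (norm_nonneg _) (by norm_num))
  obtain ⟨S3, hS3⟩ : ∃ S3 : ℝ, S3 = ∑ ω, ‖N ω‖ ^ 2 / p ω := ⟨_, rfl⟩
  have step3 : S3 ≤ 256 * (65 / 64) ^ 2 * E ^ 2 * R ^ 2 * X := by
    have hL1 : 0 < (1 + κ * R ^ 2) * E := by positivity
    have h := key (fun ω x => inner ℝ (x - x₀) (v ω) * igw κ x₀ x) (fun ω => by
        have := mom_continuous_igw κ x₀
        fun_prop) ((1 + κ * R ^ 2) * E) hL1 (by
      intro ω x hx x' hx'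
      have := mom_q_lip hκ.le (hv1 ω) (hKR x hx) (hKR x' hx')
      rwa [hκR2, ← hE] at this)
    have e1 : ∀ ω, ∫ x in cell K Y a ω, inner ℝ (x - x₀) (v ω) * igw κ x₀ x * gw κ x₀ x
        = inner ℝ (M1 ω) (v ω) := by
      intro ω
      rw [hM1, real_inner_comm, ← integral_inner (hint_x0.mono_set (hAK ω))]
      apply integral_congr_ae
      filter_upwards with x
      rw [mul_assoc, mom_igw_mul_gw, mul_one, real_inner_comm]
    have e2 : ∀ ω, ∫ x in cell K Y b ω,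
        inner ℝ (x - x₀) (v ω) * igw κ x₀ x * (g x * gw κ x₀ x)
        = θ ω * inner ℝ (Mt ω) (v ω) := by
      intro ω
      rw [hMt, real_inner_comm, ← integral_inner (hint_τx0.mono_set (hBK ω)),
        ← integral_const_mul]
      apply integral_congr_ae
      filter_upwards [hgae ω] with x hx
      rw [hx, real_inner_smul_right, real_inner_comm]
      calc inner ℝ (v ω) (x - x₀) * igw κ x₀ x * (θ ω * τ x * gw κ x₀ x)
          = θ ω * (τ x * inner ℝ (v ω) (x - x₀)) * (igw κ x₀ x * gw κ x₀ x) := by ring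
        _ = θ ω * (τ x * inner ℝ (v ω) (x - x₀)) := by rw [mom_igw_mul_gw, mul_one]
    simp_rw [e1, e2] at h
    have e3 : ∀ ω, inner ℝ (M1 ω) (v ω) - θ ω * inner ℝ (Mt ω) (v ω) = ‖N ω‖ := by
      intro ω
      rw [← hNv ω, hN]; show _ = inner ℝ (M1 ω - θ ω • Mt ω) (v ω)
      rw [inner_sub_left, real_inner_smul_left]
    simp_rw [e3] at h
    have hc0 : 0 < 256 * (65 / 64) ^ 2 * E ^ 2 * R ^ 2 := by positivity
    have hc : κ / (4 * ((1 + κ * R ^ 2) * E) ^ 2) = 1 / (256 * (65 / 64) ^ 2 * E ^ 2 * R ^ 2) := by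
      rw [hκR, hκdef]
      field_simp
      ring
    rw [hc] at h
    have h2 : ∑ ω, 1 / (256 * (65 / 64) ^ 2 * E ^ 2 * R ^ 2) * (‖N ω‖ ^ 2 / p ω) ≤ X := by
      refine le_trans (Finset.sum_le_sum fun ω _ => ?_) h
      have h3 : ‖N ω‖ ^ 2 / p ω ≤ ‖N ω‖ ^ 2 / m ω :=
        div_le_div_of_nonneg_left (sq_nonneg _) (hm0 ω) (hm_le ω)
      have := mul_le_mul_of_nonneg_left h3 (one_div_pos.mpr hc0).le
      rw [mul_div_assoc]; exact this
    rw [← Finset.mul_sum, ← hS3, one_div_mul_eq_div, div_le_iff₀ hc0] at h2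
    linarith
  -- Step 4
  have hdiff : ∀ ω, (∫ x in cell K Y a ω, x) - ∫ x in cell K Y b ω, τ x • x
      = N ω + (θ ω - 1) • Mt ω := by
    intro ω
    have a1 : ∫ x in cell K Y a ω, x = M1 ω + p ω • x₀ := by
      have h1 : ∫ x in cell K Y a ω, x = ∫ x in cell K Y a ω, ((x - x₀) + x₀) := by
        apply integral_congr_ae
        filter_upwards with x
        simp
      rw [h1, integral_add (hint_x0.mono_set (hAK ω))
        (integrableOn_const (hKc.measure_lt_top.ne) |>.mono_set (hAK ω)),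
        setIntegral_const, measureReal_def, hA ω, hM1]
    have a2 : ∫ x in cell K Y b ω, τ x • x = Mt ω + p ω • x₀ := by
      have h1 : ∫ x in cell K Y b ω, τ x • x
          = ∫ x in cell K Y b ω, (τ x • (x - x₀) + τ x • x₀) := by
        apply integral_congr_ae
        filter_upwards with x
        rw [← smul_add]; simp
      rw [h1, integral_add (hint_τx0.mono_set (hBK ω))
        ((hint_τ.mono_set (hBK ω)).smul_const x₀), integral_smul_const, hB ω, hMt]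
    rw [a1, a2, hN]; show _ = M1 ω - θ ω • Mt ω + (θ ω - 1) • Mt ω
    rw [sub_smul, one_smul]; abel
  have hMtn : ∀ ω, ‖Mt ω‖ ≤ R * p ω := by
    intro ω
    rw [hMt, ← hB ω, ← integral_const_mul]
    refine (norm_integral_le_integral_norm _).trans ?_
    apply setIntegral_mono_on (hint_τx0.mono_set (hBK ω)).norm
      ((hint_τ.mono_set (hBK ω)).const_mul _) (hBm ω)
    intro x hx
    rw [norm_smul, Real.norm_eq_abs, abs_of_nonneg (by linarith [(hτ x hx.1).1])]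
    have := mul_le_mul_of_nonneg_left (hKR x hx.1) (by linarith [(hτ x hx.1).1] : 0 ≤ τ x)
    linarith
  have hfin : ∑ ω, ‖(∫ x in cell K Y a ω, x) - ∫ x in cell K Y b ω, τ x • x‖ ^ 2 / p ω
      ≤ 2 * S3 + 2 * R ^ 2 * S1 := by
    rw [hS3, hS1, Finset.mul_sum, Finset.mul_sum, ← Finset.sum_add_distrib]
    refine Finset.sum_le_sum fun ω _ => ?_
    rw [hdiff ω, div_le_iff₀ (hp ω)]
    have h1 : ‖N ω + (θ ω - 1) • Mt ω‖ ≤ ‖N ω‖ + |θ ω - 1| * (R * p ω) := by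
      refine (norm_add_le _ _).trans ?_
      rw [norm_smul, Real.norm_eq_abs]
      have := mul_le_mul_of_nonneg_left (hMtn ω) (abs_nonneg (θ ω - 1))
      linarith
    have h2 : ‖N ω + (θ ω - 1) • Mt ω‖ ^ 2
        ≤ 2 * ‖N ω‖ ^ 2 + 2 * (θ ω - 1) ^ 2 * (R * p ω) ^ 2 := by
      have h3 : ‖N ω + (θ ω - 1) • Mt ω‖ ^ 2 ≤ (‖N ω‖ + |θ ω - 1| * (R * p ω)) ^ 2 :=
        pow_le_pow_left₀ (norm_nonneg _) h1 2
      have h4 : |θ ω - 1| ^ 2 = (θ ω - 1) ^ 2 := sq_abs _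
      have h5 : (‖N ω‖ + |θ ω - 1| * (R * p ω)) ^ 2
          ≤ 2 * ‖N ω‖ ^ 2 + 2 * |θ ω - 1| ^ 2 * (R * p ω) ^ 2 := by
        nlinarith [sq_nonneg (‖N ω‖ - |θ ω - 1| * (R * p ω))]
      rw [h4] at h5
      linarith
    have h5 : (2 * (‖N ω‖ ^ 2 / p ω) + 2 * R ^ 2 * (p ω * (θ ω - 1) ^ 2)) * p ω
        = 2 * ‖N ω‖ ^ 2 + 2 * (θ ω - 1) ^ 2 * (R * p ω) ^ 2 := by
      have := (hp ω).ne'
      field_simp
    rw [h5]; exact h2
  -- numerics
  have hX0 : 0 ≤ X := by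
    rw [hX]; exact integral_nonneg fun x => mul_nonneg (sq_nonneg _) (hs0 x).le
  have hI0 : 0 ≤ I := by rw [hI]; exact integral_nonneg fun x => sq_nonneg _
  have n1 := mul_le_mul_of_nonneg_right hE2 hX0
  have n2 := mul_le_mul_of_nonneg_right hE2 hI0
  have hXI : X ≤ 128 / 47 * I := by linarith
  have n3 : E ^ 2 * X ≤ 64 / 63 * (128 / 47) * I := by linarith
  have n4 := mul_le_mul_of_nonneg_left n3 (sq_nonneg R)
  rw [← hI]
  unfold momC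
  have n5 : 0 ≤ R ^ 2 * I := mul_nonneg (sq_nonneg R) hI0
  nlinarith

end Crest.Agent.OT
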