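import Crest.Agent.Lib_OT_Defs

/-!
# P1a : one-dimensional Prékopa–Leindler inequality (midpoint form), `ℝ≥0∞`-valued

1D Brunn–Minkowski (compact inner approximation), layer cake, normalisation, truncation.
-/

set_option autoImplicit false
open MeasureTheory Set
open scoped ENNReal NNReal

namespace Crest.Agent.OTPL

/-! ## One-dimensional Brunn–Minkowski -/

/-- compact case, sum form -/
lemma bm1_compact {A B S : Set ℝ} (hA : IsCompact A) (hB : IsCompact B)
    (hAn : A.Nonempty) (hBn : B.Nonempty)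
    (hS : ∀ a ∈ A, ∀ b ∈ B, a + b ∈ S) :
    volume A + volume B ≤ volume S := by
  set a := sSup A with ha
  set b := sInf B with hb
  have haA : a ∈ A := hA.sSup_mem hAn
  have hbB : b ∈ B := hB.sInf_mem hBn
  have hAle : ∀ x ∈ A, x ≤ a := fun x hx => le_csSup hA.bddAbove hx
  have hBge : ∀ y ∈ B, b ≤ y := fun y hy => csInf_le hB.bddBelow hy
  -- split S at c = a + b
  have h1 : volume A ≤ volume (S ∩ Iic (a + b)) := by
    have : (fun x => x + b) '' A ⊆ S ∩ Iic (a + b) := by
      rintro _ ⟨x, hx, rfl⟩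
      exact ⟨hS x hx b hbB, by simpa using hAle x hx⟩
    calc volume A = volume ((fun x => x + b) '' A) := by
          simp
      _ ≤ _ := measure_mono this
  have h2 : volume B ≤ volume (S \ Iic (a + b)) := by
    have : ((fun y => a + y) '' B) \ {a + b} ⊆ S \ Iic (a + b) := by
      rintro _ ⟨⟨y, hy, rfl⟩, hne⟩
      refine ⟨hS a haA y hy, ?_⟩
      simp only [mem_Iic, not_le]
      have h1 : b ≤ y := hBge y hy
      have h2 : y ≠ b := by
        intro h; apply hne; simp [h]
      have : b < y := lt_of_le_of_ne h1 (Ne.symm h2)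
      linarith
    calc volume B = volume ((fun y => a + y) '' B) := by
          simp
      _ = volume (((fun y => a + y) '' B) \ {a + b}) := by
          rw [measure_sdiff_null (by simp)]
      _ ≤ _ := measure_mono this
  calc volume A + volume B ≤ volume (S ∩ Iic (a + b)) + volume (S \ Iic (a + b)) :=
        add_le_add h1 h2
    _ = volume S := measure_inter_add_sdiff S measurableSet_Iic

/-- measurable case, sum form -/
lemma bm1_sum {A B S : Set ℝ} (hA : MeasurableSet A) (hB : MeasurableSet B)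
    (hAn : A.Nonempty) (hBn : B.Nonempty)
    (hS : ∀ a ∈ A, ∀ b ∈ B, a + b ∈ S) :
    volume A + volume B ≤ volume S := by
  obtain ⟨a0, ha0⟩ := hAn
  obtain ⟨b0, hb0⟩ := hBn
  rw [hA.measure_eq_iSup_isCompact, hB.measure_eq_iSup_isCompact]
  simp only [iSup_and']
  refine ENNReal.biSup_add_biSup_le' ⟨{a0}, by simpa using ha0, isCompact_singleton⟩
    ⟨{b0}, by simpa using hb0, isCompact_singleton⟩ ?_
  rintro K ⟨hKA, hK⟩ L ⟨hLB, hL⟩
  have hK' : IsCompact (K ∪ {a0}) := hK.union isCompact_singleton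
  have hL' : IsCompact (L ∪ {b0}) := hL.union isCompact_singleton
  have hKA' : K ∪ {a0} ⊆ A := union_subset hKA (by simpa using ha0)
  have hLB' : L ∪ {b0} ⊆ B := union_subset hLB (by simpa using hb0)
  calc volume K + volume L ≤ volume (K ∪ {a0}) + volume (L ∪ {b0}) :=
        add_le_add (measure_mono subset_union_left) (measure_mono subset_union_left)
    _ ≤ volume S := bm1_compact hK' hL' ⟨a0, by simp⟩ ⟨b0, by simp⟩
        (fun a ha b hb => hS a (hKA' ha) b (hLB' hb))

/-- measurable case, midpoint form -/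
lemma bm1_mid {A B C : Set ℝ} (hA : MeasurableSet A) (hB : MeasurableSet B)
    (hAn : A.Nonempty) (hBn : B.Nonempty)
    (hC : ∀ a ∈ A, ∀ b ∈ B, (1 / 2 : ℝ) * (a + b) ∈ C) :
    volume A + volume B ≤ 2 * volume C := by
  have h := bm1_sum (S := (fun z : ℝ => (1 / 2 : ℝ) * z) ⁻¹' C) hA hB hAn hBn hC
  rw [Real.volume_preimage_mul_left (by norm_num)] at h
  simpa using h

/-! ## Layer cake for finite `ℝ≥0∞`-valued functions -/

lemma layercake {α : Type*} [MeasurableSpace α] (μ : Measure α) (f : α → ℝ≥0∞)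
    (hf : Measurable f) (hfin : ∀ x, f x ≠ ∞) :
    ∫⁻ x, f x ∂μ = ∫⁻ t in Ioi (0 : ℝ), μ {x | ENNReal.ofReal t < f x} := by
  have h := lintegral_eq_lintegral_meas_lt μ (f := fun x => (f x).toReal)
    (Filter.Eventually.of_forall fun x => ENNReal.toReal_nonneg) hf.ennreal_toReal.aemeasurable
  simp only [ENNReal.ofReal_toReal (hfin _)] at h
  rw [h]
  refine setLIntegral_congr_fun measurableSet_Ioi (fun t ht => ?_)
  congr 1
  ext x
  simp only [mem_ofPred_eq]
  rw [ENNReal.ofReal_lt_iff_lt_toReal (le_of_lt ht) (hfin x)]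

lemma measurable_meas_lt {α : Type*} [MeasurableSpace α] (μ : Measure α) (f : α → ℝ≥0∞) :
    Measurable (fun t : ℝ => μ {x | ENNReal.ofReal t < f x}) := by
  apply Antitone.measurable
  intro s t hst
  apply measure_mono
  intro x hx
  exact lt_of_le_of_lt (ENNReal.ofReal_le_ofReal hst) hx

/-! ## One-dimensional Prékopa–Leindler -/

/-- normalised version: `sup f = sup g = 1`. -/
lemma pl1_norm (f g h : ℝ → ℝ≥0∞) (hf : Measurable f) (hg : Measurable g) (hh : Measurable h)
    (f1 : ∀ x, f x ≤ 1) (g1 : ∀ x, g x ≤ 1)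
    (fs : ∀ t : ℝ≥0∞, t < 1 → ∃ x, t < f x) (gs : ∀ t : ℝ≥0∞, t < 1 → ∃ x, t < g x)
    (H : ∀ x y, f x * g y ≤ h ((1 / 2 : ℝ) * (x + y)) ^ 2) :
    (∫⁻ x, f x) + ∫⁻ x, g x ≤ 2 * ∫⁻ x, h x := by
  have hh' : Measurable (fun x => min (h x) 1) := hh.min measurable_const
  have e1 := layercake volume f hf (fun x => ne_top_of_le_ne_top ENNReal.one_ne_top (f1 x))
  have e2 := layercake volume g hg (fun x => ne_top_of_le_ne_top ENNReal.one_ne_top (g1 x))
  have e3 := layercake volume (fun x => min (h x) 1) hh'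
    (fun x => ne_top_of_le_ne_top ENNReal.one_ne_top (min_le_right _ _))
  calc (∫⁻ x, f x) + ∫⁻ x, g x
      = ∫⁻ t in Ioi (0 : ℝ), (volume {x | ENNReal.ofReal t < f x}
          + volume {x | ENNReal.ofReal t < g x}) := by
        rw [e1, e2, lintegral_add_left (measurable_meas_lt volume f)]
    _ ≤ ∫⁻ t in Ioi (0 : ℝ), 2 * volume {x | ENNReal.ofReal t < min (h x) 1} := by
        refine setLIntegral_mono' measurableSet_Ioi (fun t ht => ?_)
        by_cases ht1 : ENNReal.ofReal t < 1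
        · refine bm1_mid (measurableSet_lt measurable_const hf)
            (measurableSet_lt measurable_const hg) (fs _ ht1) (gs _ ht1) ?_
          intro a ha b hb
          simp only [mem_ofPred_eq] at ha hb ⊢
          refine lt_min ?_ ht1
          have h1 : ENNReal.ofReal t * ENNReal.ofReal t < f a * g b :=
            ENNReal.mul_lt_mul ha hb
          have h2 := lt_of_lt_of_le h1 (H a b)
          rw [← sq] at h2
          by_contra hc
          exact absurd (pow_le_pow_left' (not_lt.mp hc) 2) (not_le.mpr h2)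
        · have hA : {x | ENNReal.ofReal t < f x} = ∅ := by
            ext x
            simp only [mem_ofPred_eq, mem_empty_iff_false, iff_false, not_lt]
            exact (f1 x).trans (not_lt.mp ht1)
          have hB : {x | ENNReal.ofReal t < g x} = ∅ := by
            ext x
            simp only [mem_ofPred_eq, mem_empty_iff_false, iff_false, not_lt]
            exact (g1 x).trans (not_lt.mp ht1)
          rw [hA, hB]
          simp
    _ = 2 * ∫⁻ x, min (h x) 1 := by
        rw [e3, lintegral_const_mul _ (measurable_meas_lt volume _)]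
    _ ≤ 2 * ∫⁻ x, h x := by
        gcongr
        exact min_le_left _ _

lemma amgm_ennreal (x y z : ℝ≥0∞) (h : x + y ≤ 2 * z) : x * y ≤ z ^ 2 := by
  by_cases hz : z = ∞
  · simp [hz]
  have h2z : 2 * z ≠ ∞ := ENNReal.mul_ne_top (by simp) hz
  have hx : x ≠ ∞ := ne_top_of_le_ne_top h2z (le_trans le_self_add h)
  have hy : y ≠ ∞ := ne_top_of_le_ne_top h2z (le_trans le_add_self h)
  lift x to ℝ≥0 using hx
  lift y to ℝ≥0 using hy
  lift z to ℝ≥0 using hz
  norm_cast at h ⊢
  have h' : (x : ℝ) + y ≤ 2 * z := by exact_mod_cast h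
  have : (x : ℝ) * y ≤ (z : ℝ) ^ 2 := by
    nlinarith [sq_nonneg ((x : ℝ) - y), x.coe_nonneg, y.coe_nonneg, z.coe_nonneg]
  exact_mod_cast this

/-- version with truncation levels -/
lemma pl1_levels (f g h : ℝ → ℝ≥0∞) (hf : Measurable f) (hg : Measurable g) (hh : Measurable h)
    (F G : ℝ≥0∞) (hF0 : F ≠ 0) (hFt : F ≠ ∞) (hG0 : G ≠ 0) (hGt : G ≠ ∞)
    (fs : ∀ t : ℝ≥0∞, t < F → ∃ x, t < f x) (gs : ∀ t : ℝ≥0∞, t < G → ∃ x, t < g x)
    (H : ∀ x y, f x * g y ≤ h ((1 / 2 : ℝ) * (x + y)) ^ 2) :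
    (∫⁻ x, min (f x) F) * ∫⁻ x, min (g x) G ≤ (∫⁻ x, h x) ^ 2 := by
  obtain ⟨s, hs⟩ : ∃ s : ℝ≥0∞, s ^ 2 = F * G := by
    refine ⟨(F * G) ^ (1 / 2 : ℝ), ?_⟩
    rw [← ENNReal.rpow_natCast, ← ENNReal.rpow_mul]
    norm_num
  have hs0 : s ≠ 0 := by
    rintro rfl
    have : F * G = 0 := by rw [← hs]; simp
    rcases mul_eq_zero.mp this with h | h
    · exact hF0 h
    · exact hG0 h
  have hst : s ≠ ∞ := by
    rintro rfl
    have : F * G = ∞ := by rw [← hs]; simp
    exact ENNReal.mul_ne_top hFt hGt this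
  have hfm : Measurable (fun x => min (f x) F) := hf.min measurable_const
  have hgm : Measurable (fun x => min (g x) G) := hg.min measurable_const
  have key := pl1_norm (fun x => min (f x) F * F⁻¹) (fun x => min (g x) G * G⁻¹)
    (fun x => h x * s⁻¹) (hfm.mul_const _) (hgm.mul_const _) (hh.mul_const _)
    (fun x => by
      calc min (f x) F * F⁻¹ ≤ F * F⁻¹ := by gcongr; exact min_le_right _ _
        _ = 1 := ENNReal.mul_inv_cancel hF0 hFt)
    (fun x => by
      calc min (g x) G * G⁻¹ ≤ G * G⁻¹ := by gcongr; exact min_le_right _ _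
        _ = 1 := ENNReal.mul_inv_cancel hG0 hGt)
    (fun t ht => by
      have h1 : t * F < F := by
        calc t * F < 1 * F := by
              exact (ENNReal.mul_lt_mul_iff_left hF0 hFt).mpr ht
          _ = F := one_mul _
      obtain ⟨x, hx⟩ := fs _ h1
      refine ⟨x, ?_⟩
      rw [← div_eq_mul_inv, ENNReal.lt_div_iff_mul_lt (Or.inl hF0) (Or.inl hFt)]
      exact lt_min hx h1)
    (fun t ht => by
      have h1 : t * G < G := by
        calc t * G < 1 * G := by
              exact (ENNReal.mul_lt_mul_iff_left hG0 hGt).mpr ht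
          _ = G := one_mul _
      obtain ⟨x, hx⟩ := gs _ h1
      refine ⟨x, ?_⟩
      rw [← div_eq_mul_inv, ENNReal.lt_div_iff_mul_lt (Or.inl hG0) (Or.inl hGt)]
      exact lt_min hx h1)
    (fun x y => by
      calc min (f x) F * F⁻¹ * (min (g y) G * G⁻¹)
          = (min (f x) F * min (g y) G) * (F⁻¹ * G⁻¹) := by ring
        _ ≤ (f x * g y) * (F⁻¹ * G⁻¹) := by
            gcongr
            · exact min_le_left _ _
            · exact min_le_left _ _
        _ ≤ h ((1 / 2 : ℝ) * (x + y)) ^ 2 * (F⁻¹ * G⁻¹) := by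
            gcongr
            exact H x y
        _ = (h ((1 / 2 : ℝ) * (x + y)) * s⁻¹) ^ 2 := by
            rw [mul_pow, ← ENNReal.inv_pow, hs,
              ENNReal.mul_inv (Or.inl hF0) (Or.inl hFt)])
  rw [lintegral_mul_const _ hfm, lintegral_mul_const _ hgm, lintegral_mul_const _ hh] at key
  rw [← mul_assoc] at key
  have key2 := amgm_ennreal _ _ _ (by rw [mul_assoc] at key; exact key)
  set a := ∫⁻ x, min (f x) F
  set b := ∫⁻ x, min (g x) G
  set c := ∫⁻ x, h x
  calc a * b = (a * F⁻¹ * (b * G⁻¹)) * (F * G) := by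
        have e1 : F⁻¹ * F = 1 := ENNReal.inv_mul_cancel hF0 hFt
        have e2 : G⁻¹ * G = 1 := ENNReal.inv_mul_cancel hG0 hGt
        calc a * b = a * b * ((F⁻¹ * F) * (G⁻¹ * G)) := by rw [e1, e2]; simp
          _ = _ := by ring
    _ ≤ (c * s⁻¹) ^ 2 * (F * G) := by gcongr
    _ = c ^ 2 := by
        rw [← hs, mul_pow, mul_assoc, ← mul_pow, ENNReal.inv_mul_cancel hs0 hst]
        simp

lemma iSup_min_nat (a : ℝ≥0∞) : ⨆ N : ℕ, min a ((N : ℝ≥0∞) + 1) = a := by
  refine le_antisymm (iSup_le fun N => min_le_left _ _) ?_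
  refine le_of_forall_lt fun c hc => ?_
  obtain ⟨N, hN⟩ := ENNReal.exists_nat_gt (ne_top_of_lt hc)
  refine lt_of_lt_of_le ?_ (le_iSup _ N)
  exact lt_min hc (lt_of_lt_of_le hN le_self_add)

lemma lintegral_eq_iSup_min {α : Type*} [MeasurableSpace α] (μ : Measure α) (f : α → ℝ≥0∞)
    (hf : Measurable f) :
    ∫⁻ x, f x ∂μ = ⨆ N : ℕ, ∫⁻ x, min (f x) ((N : ℝ≥0∞) + 1) ∂μ := by
  rw [← lintegral_iSup (fun N => hf.min measurable_const)]
  · simp only [iSup_min_nat]
  · intro N M hNM x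
    dsimp only
    gcongr

/-- **Prékopa–Leindler on `ℝ`**, midpoint form. -/
theorem pl1 (f g h : ℝ → ℝ≥0∞) (hf : Measurable f) (hg : Measurable g) (hh : Measurable h)
    (H : ∀ x y, f x * g y ≤ h ((1 / 2 : ℝ) * (x + y)) ^ 2) :
    (∫⁻ x, f x) * ∫⁻ x, g x ≤ (∫⁻ x, h x) ^ 2 := by
  by_cases hF : (⨆ x, f x) = 0
  · have : ∀ x, f x = 0 := fun x => le_antisymm (hF ▸ le_iSup f x) (zero_le)
    simp [this]
  by_cases hG : (⨆ x, g x) = 0
  · have : ∀ x, g x = 0 := fun x => le_antisymm (hG ▸ le_iSup g x) (zero_le)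
    simp [this]
  rw [lintegral_eq_iSup_min volume f hf, lintegral_eq_iSup_min volume g hg,
    ENNReal.iSup_mul]
  refine iSup_le fun N => ?_
  rw [ENNReal.mul_iSup]
  refine iSup_le fun M => ?_
  have key := pl1_levels f g h hf hg hh (min (⨆ x, f x) ((N : ℝ≥0∞) + 1))
    (min (⨆ x, g x) ((M : ℝ≥0∞) + 1))
    (by
      intro h0
      rcases min_eq_iff.mp h0 with ⟨h1, _⟩ | ⟨h1, _⟩
      · exact hF h1
      · simp at h1)
    (ne_top_of_le_ne_top (by simp) (min_le_right _ _))
    (by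
      intro h0
      rcases min_eq_iff.mp h0 with ⟨h1, _⟩ | ⟨h1, _⟩
      · exact hG h1
      · simp at h1)
    (ne_top_of_le_ne_top (by simp) (min_le_right _ _))
    (fun t ht => lt_iSup_iff.mp (lt_of_lt_of_le ht (min_le_left _ _)))
    (fun t ht => lt_iSup_iff.mp (lt_of_lt_of_le ht (min_le_left _ _)))
    H
  have e1 : ∀ x, min (f x) (min (⨆ x, f x) ((N : ℝ≥0∞) + 1)) = min (f x) ((N : ℝ≥0∞) + 1) := by
    intro x
    rw [← min_assoc, min_eq_left (le_iSup f x)]
  have e2 : ∀ x, min (g x) (min (⨆ x, g x) ((M : ℝ≥0∞) + 1)) = min (g x) ((M : ℝ≥0∞) + 1) := by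
    intro x
    rw [← min_assoc, min_eq_left (le_iSup g x)]
  simp only [e1, e2] at key
  exact key

end Crest.Agent.OTPL

namespace Crest.Agent.OT

theorem prekopa_leindler_real (f g h : ℝ → ℝ≥0∞) (hf : Measurable f) (hg : Measurable g)
    (hh : Measurable h) (H : ∀ x y, f x * g y ≤ h ((x + y) / 2) ^ 2) :
    (∫⁻ x, f x) * (∫⁻ x, g x) ≤ (∫⁻ x, h x) ^ 2 := by
  refine Crest.Agent.OTPL.pl1 f g h hf hg hh (fun x y => ?_)
  have e : (1 / 2 : ℝ) * (x + y) = (x + y) / 2 := by ring
  rw [e]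
  exact H x y

end Crest.Agent.OT
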