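import Crest.Agent.Lib_OT_Cells

/-!
# P5 : stability of the potential under perturbation of the source density

Direct quantitative proof (no compactness, no duality).  Put `e j = c' j - c j`, `δ = γ / card J`.
If there were a threshold `t` with `P = {j | e j ≤ t}` nonempty, `Pᶜ` nonempty and no `e j` in `(t, t + δ]`, then the
cells of `c'` with label in `P` cover `E = {x ∈ K | ∃ j ∈ P, ∀ i ∉ P, aff i x - δ ≤ aff j x}`, which is larger than the union
of the `c`-cells with labels in `P` by a set `U` (depending only on `P, δ`) of positive volume; comparing masses gives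
`|U| ≤ s B |K|`, impossible for small `s`.  Hence the values of `e` have no gap of length `δ`, so `osc e ≤ γ`.
-/

set_option autoImplicit false
open MeasureTheory
open scoped ENNReal NNReal

namespace Crest.Agent.OT

variable {d : ℕ}

/-- a finite family of reals without gaps of length `δ` has oscillation at most `card * δ` -/
lemma uniq_gap {J : Type} [Fintype J] (e : J → ℝ) {δ : ℝ} (hδ : 0 ≤ δ)
    (h : ∀ t, (∃ j, e j ≤ t) → (∃ j, t < e j) → ∃ j, t < e j ∧ e j ≤ t + δ) (i j : J) :
    e j - e i ≤ Fintype.card J * δ := by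
  classical
  have claim : ∀ n : ℕ, (∀ j, e j ≤ e i + n * δ) ∨
      n + 1 ≤ (Finset.univ.filter (fun j => e j ≤ e i + n * δ)).card := by
    intro n
    induction n with
    | zero =>
      right
      have : i ∈ Finset.univ.filter (fun j => e j ≤ e i + (0 : ℕ) * δ) := by simp
      exact Finset.card_pos.2 ⟨i, this⟩
    | succ n ih =>
      rcases ih with ih | ih
      · left
        intro j
        have := ih j
        push_cast
        nlinarith
      · by_cases hall : ∀ j, e j ≤ e i + n * δ
        · left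
          intro j
          have := hall j
          push_cast
          nlinarith
        · right
          push Not at hall
          obtain ⟨j', hj'⟩ := hall
          obtain ⟨k, hk1, hk2⟩ := h (e i + n * δ) ⟨i, by nlinarith [Nat.cast_nonneg (α := ℝ) n]⟩ ⟨j', hj'⟩
          have hsub : insert k (Finset.univ.filter (fun j => e j ≤ e i + n * δ))
              ⊆ Finset.univ.filter (fun j => e j ≤ e i + (n + 1 : ℕ) * δ) := by
            intro l hl
            rw [Finset.mem_insert] at hl
            simp only [Finset.mem_filter, Finset.mem_univ, true_and]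
            push_cast
            rcases hl with rfl | hl
            · linarith
            · simp only [Finset.mem_filter, Finset.mem_univ, true_and] at hl
              linarith
          have hk : k ∉ Finset.univ.filter (fun j => e j ≤ e i + n * δ) := by
            simp only [Finset.mem_filter, Finset.mem_univ, true_and, not_le]
            exact hk1
          have := Finset.card_le_card hsub
          rw [Finset.card_insert_of_notMem hk] at this
          omega
  rcases claim (Fintype.card J) with h1 | h1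
  · linarith [h1 j]
  · have := Finset.card_le_univ (Finset.univ.filter (fun j => e j ≤ e i + (Fintype.card J : ℕ) * δ))
    omega

/-- a cell of positive volume contains an interior point of `K` where its affine function is
strictly the largest -/
lemma uniq_strict_point {J : Type} [Fintype J] {K : Set (Eu d)} (hKv : Convex ℝ K)
    (z : J → Eu d) (hz : Function.Injective z) (c : J → ℝ) (j : J)
    (hpos : 0 < volume (cell K z c j)) :
    ∃ x ∈ interior K, ∀ i, i ≠ j → aff z c i x < aff z c j x := by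
  by_contra hcon
  push Not at hcon
  have hgood : ∀ᵐ x : Eu d, x ∉ frontier K ∧ Function.Injective (fun ω => aff z c ω x) := by
    have h1 : ∀ᵐ x : Eu d, x ∉ frontier K :=
      measure_eq_zero_iff_ae_notMem.1 (hKv.addHaar_frontier volume)
    filter_upwards [h1, ae_injective_aff z hz c] with x h1 h2 using ⟨h1, h2⟩
  have hsub : cell K z c j
      ⊆ {x | ¬ (x ∉ frontier K ∧ Function.Injective (fun ω => aff z c ω x))} := by
    intro x hx hg
    have hxi : x ∈ interior K := by
      by_contra h
      exact hg.1 ⟨subset_closure hx.1, h⟩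
    obtain ⟨i, hij, hi⟩ := hcon x hxi
    exact hij (hg.2 (le_antisymm (hx.2 i) hi))
  exact hpos.ne' (measure_mono_null hsub (ae_iff.1 hgood))

/-- the transition set between the cells with labels in `P` and the other cells -/
lemma uniq_transition {J : Type} [Fintype J] {K : Set (Eu d)}
    (hKv : Convex ℝ K) (z : J → Eu d) (hz : Function.Injective z) (c : J → ℝ)
    (hpos : ∀ j, 0 < volume (cell K z c j)) (P : Finset J) (hP : ∃ j, j ∈ P) (hPc : ∃ i, i ∉ P)
    {δ : ℝ} (hδ : 0 < δ) :
    ∃ U : Set (Eu d), MeasurableSet U ∧ U ⊆ K ∧ 0 < volume U ∧ ∀ x ∈ U,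
      (∃ i, i ∉ P ∧ ∀ k, aff z c k x ≤ aff z c i x) ∧
      (∃ j, j ∈ P ∧ ∀ i, i ∉ P → aff z c i x - δ ≤ aff z c j x) := by
  classical
  obtain ⟨j₀, hj₀⟩ := hP
  obtain ⟨i₀, hi₀⟩ := hPc
  have : Nonempty {j // j ∈ P} := ⟨⟨j₀, hj₀⟩⟩
  have : Nonempty {j // j ∉ P} := ⟨⟨i₀, hi₀⟩⟩
  set hm : Eu d → ℝ := pot (fun j : {j // j ∈ P} => z j) (fun j => c j) with hhm
  set hp : Eu d → ℝ := pot (fun j : {j // j ∉ P} => z j) (fun j => c j) with hhp
  have hm_ge : ∀ j (hj : j ∈ P) x, aff z c j x ≤ hm x := fun j hj x =>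
    aff_le_pot (fun j : {j // j ∈ P} => z j) (fun j => c j) ⟨j, hj⟩ x
  have hp_ge : ∀ j (hj : j ∉ P) x, aff z c j x ≤ hp x := fun j hj x =>
    aff_le_pot (fun j : {j // j ∉ P} => z j) (fun j => c j) ⟨j, hj⟩ x
  have hm_eq : ∀ x, ∃ j, j ∈ P ∧ hm x = aff z c j x := fun x => by
    obtain ⟨j, hj⟩ := exists_pot_eq (fun j : {j // j ∈ P} => z j) (fun j => c j) x
    exact ⟨j.1, j.2, hj⟩
  have hp_eq : ∀ x, ∃ j, j ∉ P ∧ hp x = aff z c j x := fun x => by
    obtain ⟨j, hj⟩ := exists_pot_eq (fun j : {j // j ∉ P} => z j) (fun j => c j) x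
    exact ⟨j.1, j.2, hj⟩
  have hcont : Continuous fun x => hp x - hm x :=
    (continuous_pot _ _).sub (continuous_pot _ _)
  -- points on both sides
  obtain ⟨xp, hxp, hxp'⟩ := uniq_strict_point hKv z hz c i₀ (hpos i₀)
  obtain ⟨xm, hxm, hxm'⟩ := uniq_strict_point hKv z hz c j₀ (hpos j₀)
  have hfp : 0 < hp xp - hm xp := by
    obtain ⟨j, hj, hje⟩ := hm_eq xp
    have h1 := hxp' j (fun h => hi₀ (h ▸ hj))
    have h2 := hp_ge i₀ hi₀ xp
    linarith
  have hfm : hp xm - hm xm < 0 := by
    obtain ⟨j, hj, hje⟩ := hp_eq xm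
    have h1 := hxm' j (fun h => hj (h ▸ hj₀))
    have h2 := hm_ge j₀ hj₀ xm
    linarith
  have hpre : IsPreconnected (interior K) := hKv.interior.isPreconnected
  have hval : min (δ / 2) (hp xp - hm xp) ∈ Set.Icc (hp xm - hm xm) (hp xp - hm xp) :=
    ⟨le_of_lt (lt_of_lt_of_le hfm (le_min (by positivity) hfp.le)), min_le_right _ _⟩
  obtain ⟨y, hy, hye⟩ := hpre.intermediate_value hxm hxp hcont.continuousOn hval
  have hy0 : 0 < hp y - hm y := by
    simp only at hye
    rw [hye]
    exact lt_min (by positivity) hfp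
  have hy1 : hp y - hm y < δ := by
    simp only at hye
    rw [hye]
    exact lt_of_le_of_lt (min_le_left _ _) (by linarith)
  have hUo : IsOpen (interior K ∩ (fun x => hp x - hm x) ⁻¹' Set.Ioo 0 δ) :=
    isOpen_interior.inter (isOpen_Ioo.preimage hcont)
  refine ⟨interior K ∩ (fun x => hp x - hm x) ⁻¹' Set.Ioo 0 δ, hUo.measurableSet,
    fun x hx => interior_subset hx.1, hUo.measure_pos volume ⟨y, hy, hy0, hy1⟩, ?_⟩
  rintro x ⟨_, hx0, hx1⟩
  simp only at hx0 hx1
  constructor
  · obtain ⟨i, hi, hie⟩ := hp_eq x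
    refine ⟨i, hi, fun k => ?_⟩
    by_cases hk : k ∈ P
    · have := hm_ge k hk x
      linarith
    · have := hp_ge k hk x
      linarith
  · obtain ⟨j, hj, hje⟩ := hm_eq x
    refine ⟨j, hj, fun i hi => ?_⟩
    have := hp_ge i hi x
    linarith

lemma uniq_sum_real_cell {J : Type} [Fintype J] [Nonempty J] {K : Set (Eu d)} (hKc : IsCompact K)
    (z : J → Eu d) (hz : Function.Injective z) (b : J → ℝ) :
    ∑ j, volume.real (cell K z b j) = volume.real K := by
  have h := sum_integral_cell hKc.measurableSet z hz b (fun _ => (1 : ℝ))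
    (integrableOn_const hKc.measure_lt_top.ne)
  simpa using h

/-- mass comparison: a gap in `c' - c` forces the transition set to be small -/
lemma uniq_volume_ineq {J : Type} [Fintype J] [Nonempty J] {K : Set (Eu d)} (hKc : IsCompact K)
    (z : J → Eu d) (hz : Function.Injective z) (c c' : J → ℝ)
    (η : Eu d → ℝ) (hηm : Measurable η) {B : ℝ} (hηB : ∀ x ∈ K, |η x| ≤ B) {s : ℝ} (hs : 0 < s)
    (hB : 0 ≤ B)
    (hmass : ∀ j, ∫ x in cell K z c' j, (1 + s * η x) = (volume (cell K z c j)).toReal)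
    (P : Finset J) {δ t : ℝ} (hδ : 0 ≤ δ) (hP : ∀ j, j ∈ P → c' j - c j ≤ t)
    (hPc : ∀ i, i ∉ P → t + δ < c' i - c i)
    {U : Set (Eu d)} (hUm : MeasurableSet U) (hUK : U ⊆ K)
    (hU : ∀ x ∈ U, (∃ i, i ∉ P ∧ ∀ k, aff z c k x ≤ aff z c i x) ∧
      (∃ j, j ∈ P ∧ ∀ i, i ∉ P → aff z c i x - δ ≤ aff z c j x)) :
    volume.real U ≤ s * B * volume.real K := by
  classical
  have hKm := hKc.measurableSet
  have hKfin : volume K ≠ ∞ := hKc.measure_lt_top.ne
  have hfin : ∀ S : Set (Eu d), S ⊆ K → volume S ≠ ∞ := fun S hS =>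
    ne_top_of_le_ne_top hKfin (measure_mono hS)
  set E : Set (Eu d) := {x | x ∈ K ∧ ∃ j, j ∈ P ∧ ∀ i, i ∉ P → aff z c i x - δ ≤ aff z c j x} with hE
  -- (b)
  have hb : ∀ j, volume.real (cell K z c' j)
      ≤ volume.real (cell K z c j) + s * B * volume.real (cell K z c' j) := by
    intro j
    have hcm := measurableSet_cell hKm z c' j
    have hcfin := hfin _ (cell_subset K z c' j)
    have hηi : IntegrableOn η K := integrableOn_of_bdd hKc hηm.aestronglyMeasurable
      (fun x hx => by simpa using hηB x hx)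
    have hi1 : IntegrableOn (fun x => 1 + s * η x) (cell K z c' j) :=
      ((integrableOn_const hKfin).add (hηi.const_mul s)).mono_set (cell_subset K z c' j)
    have hi2 : IntegrableOn (fun _ : Eu d => 1 - s * B) (cell K z c' j) := integrableOn_const hcfin
    have h1 : ∫ _ in cell K z c' j, (1 - s * B) ≤ ∫ x in cell K z c' j, (1 + s * η x) := by
      refine setIntegral_mono_on hi2 hi1 hcm fun x hx => ?_
      have := (abs_le.1 (hηB x hx.1)).1
      nlinarith
    rw [hmass j, setIntegral_const, smul_eq_mul] at h1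
    have : (volume (cell K z c j)).toReal = volume.real (cell K z c j) := rfl
    rw [this] at h1
    linarith
  -- (c)
  have hc : volume.real E ≤ ∑ j ∈ P, volume.real (cell K z c' j) := by
    have hsub : E ⊆ ⋃ j ∈ P, cell K z c' j := by
      rintro x ⟨hxK, j, hj, hji⟩
      have hx' : x ∈ ⋃ ω, cell K z c' ω := by rw [iUnion_cell]; exact hxK
      obtain ⟨k, hk⟩ := Set.mem_iUnion.1 hx'
      by_cases hkP : k ∈ P
      · exact Set.mem_biUnion hkP hk
      · exfalso
        have h1 := hk.2 j
        have h2 := hji k hkP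
        have h3 := hPc k hkP
        have h4 := hP j hj
        unfold aff at h1 h2
        linarith
    refine le_trans (measureReal_mono hsub ?_) (measureReal_biUnion_finset_le _ _)
    exact hfin _ (Set.iUnion₂_subset fun j _ => cell_subset K z c' j)
  -- (d)
  have hd : volume.real U + volume.real (K \ E) ≤ ∑ i ∈ Pᶜ, volume.real (cell K z c i) := by
    have hdisj : Disjoint U (K \ E) := by
      rw [Set.disjoint_left]
      intro x hxU hxE
      exact hxE.2 ⟨hUK hxU, (hU x hxU).2⟩
    rw [← measureReal_union' hdisj hUm (hfin _ hUK) (hfin _ Set.sdiff_subset)]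
    have hsub : U ∪ (K \ E) ⊆ ⋃ i ∈ Pᶜ, cell K z c i := by
      rintro x (hx | hx)
      · obtain ⟨i, hi, hik⟩ := (hU x hx).1
        exact Set.mem_biUnion (Finset.mem_compl.2 hi) ⟨hUK hx, hik⟩
      · have hx' : x ∈ ⋃ ω, cell K z c ω := by rw [iUnion_cell]; exact hx.1
        obtain ⟨k, hk⟩ := Set.mem_iUnion.1 hx'
        by_cases hkP : k ∈ P
        · exfalso
          refine hx.2 ⟨hx.1, k, hkP, fun i _ => ?_⟩
          have := hk.2 i
          linarith
        · exact Set.mem_biUnion (Finset.mem_compl.2 hkP) hk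
    refine le_trans (measureReal_mono hsub ?_) (measureReal_biUnion_finset_le _ _)
    exact hfin _ (Set.iUnion₂_subset fun j _ => cell_subset K z c j)
  -- (e)
  have he : volume.real K ≤ volume.real E + volume.real (K \ E) := by
    refine le_trans (measureReal_mono ?_ ?_) (measureReal_union_le _ _)
    · intro x hx
      by_cases h : x ∈ E
      · exact Or.inl h
      · exact Or.inr ⟨hx, h⟩
    · exact hfin _ (Set.union_subset (fun x hx => hx.1) Set.sdiff_subset)
  have hsum1 := uniq_sum_real_cell hKc z hz c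
  have hsum2 := uniq_sum_real_cell hKc z hz c'
  rw [← Finset.sum_add_sum_compl P] at hsum1
  have h3 : ∑ j ∈ P, volume.real (cell K z c' j)
      ≤ ∑ j ∈ P, volume.real (cell K z c j) + s * B * volume.real K := by
    calc ∑ j ∈ P, volume.real (cell K z c' j)
        ≤ ∑ j ∈ P, (volume.real (cell K z c j) + s * B * volume.real (cell K z c' j)) :=
          Finset.sum_le_sum fun j _ => hb j
      _ = ∑ j ∈ P, volume.real (cell K z c j) + s * B * ∑ j ∈ P, volume.real (cell K z c' j) := by
          rw [Finset.sum_add_distrib, Finset.mul_sum]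
      _ ≤ _ := by
          have h4 : ∑ j ∈ P, volume.real (cell K z c' j) ≤ volume.real K := by
            rw [← hsum2]
            exact Finset.sum_le_sum_of_subset_of_nonneg (Finset.subset_univ _)
              fun _ _ _ => measureReal_nonneg
          have h5 : 0 ≤ s * B := by positivity
          nlinarith
  linarith

theorem pot_stability {J : Type} [Fintype J] [Nonempty J] {K : Set (Eu d)} (hKc : IsCompact K)
    (hKv : Convex ℝ K) (hKi : (interior K).Nonempty)
    (z : J → Eu d) (hz : Function.Injective z) (c : J → ℝ)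
    (hpos : ∀ j, 0 < volume (cell K z c j))
    (η : Eu d → ℝ) (hηm : Measurable η) {B : ℝ} (hηB : ∀ x ∈ K, |η x| ≤ B) (hη0 : ∫ x in K, η x = 0)
    {γ : ℝ} (hγ : 0 < γ) :
    ∃ s₁ : ℝ, 0 < s₁ ∧ ∀ s : ℝ, 0 < s → s ≤ s₁ → ∀ c' : J → ℝ,
      (∀ j, ∫ x in cell K z c' j, (1 + s * η x) = (volume (cell K z c j)).toReal) →
      ∃ κ : ℝ, ∀ x ∈ K, |pot z c' x - pot z c x - κ| ≤ γ := by
  classical
  have hB : 0 ≤ B := by
    obtain ⟨x, hx⟩ := hKi
    exact (abs_nonneg _).trans (hηB x (interior_subset hx))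
  have hcard : (0 : ℝ) < Fintype.card J := by exact_mod_cast Fintype.card_pos
  set δ : ℝ := γ / Fintype.card J with hδdef
  have hδ : 0 < δ := by positivity
  have hKfin : volume K ≠ ∞ := hKc.measure_lt_top.ne
  -- uniform lower bound for the transition sets
  have hex : ∀ P : Finset J, ∃ m : ℝ, 0 < m ∧ ((∃ j, j ∈ P) → (∃ i, i ∉ P) →
      ∃ U : Set (Eu d), MeasurableSet U ∧ U ⊆ K ∧ m ≤ volume.real U ∧ ∀ x ∈ U,
      (∃ i, i ∉ P ∧ ∀ k, aff z c k x ≤ aff z c i x) ∧
      (∃ j, j ∈ P ∧ ∀ i, i ∉ P → aff z c i x - δ ≤ aff z c j x)) := by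
    intro P
    by_cases h : (∃ j, j ∈ P) ∧ (∃ i, i ∉ P)
    · obtain ⟨U, hUm, hUK, hUpos, hU⟩ := uniq_transition hKv z hz c hpos P h.1 h.2 hδ
      refine ⟨volume.real U, ?_, fun _ _ => ⟨U, hUm, hUK, le_rfl, hU⟩⟩
      exact ENNReal.toReal_pos hUpos.ne' (ne_top_of_le_ne_top hKfin (measure_mono hUK))
    · exact ⟨1, one_pos, fun h1 h2 => absurd ⟨h1, h2⟩ h⟩
  choose m hm0 hm using hex
  obtain ⟨P₀, _, hP₀⟩ := Finset.exists_min_image (Finset.univ : Finset (Finset J)) m
    Finset.univ_nonempty
  set m₀ : ℝ := m P₀ with hm₀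
  have hm₀pos : 0 < m₀ := hm0 P₀
  have hden : 0 < 2 * (B + 1) * (volume.real K + 1) := by
    have : 0 ≤ volume.real K := measureReal_nonneg
    positivity
  refine ⟨m₀ / (2 * (B + 1) * (volume.real K + 1)), by positivity, ?_⟩
  intro s hs hs1 c' hmass
  have hsmall : s * B * volume.real K < m₀ := by
    have hv : 0 ≤ volume.real K := measureReal_nonneg
    have h1 : s * (2 * (B + 1) * (volume.real K + 1)) ≤ m₀ := by
      rwa [le_div_iff₀ hden] at hs1
    nlinarith [mul_nonneg hs.le hB, mul_nonneg hs.le hv, mul_nonneg (mul_nonneg hs.le hB) hv]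
  have hgap : ∀ t, (∃ j, c' j - c j ≤ t) → (∃ j, t < c' j - c j) →
      ∃ j, t < c' j - c j ∧ c' j - c j ≤ t + δ := by
    intro t h1 h2
    by_contra hcon
    push Not at hcon
    set P : Finset J := Finset.univ.filter (fun j => c' j - c j ≤ t) with hP
    have hPmem : ∀ j, j ∈ P ↔ c' j - c j ≤ t := fun j => by simp [hP]
    obtain ⟨j₁, hj₁⟩ := h1
    obtain ⟨j₂, hj₂⟩ := h2
    obtain ⟨U, hUm, hUK, hUge, hU⟩ := hm P ⟨j₁, (hPmem j₁).2 hj₁⟩
      ⟨j₂, fun h => absurd ((hPmem j₂).1 h) (not_le.2 hj₂)⟩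
    have hineq := uniq_volume_ineq hKc z hz c c' η hηm hηB hs hB hmass P (t := t) hδ.le
      (fun j hj => (hPmem j).1 hj)
      (fun i hi => hcon i (not_le.1 fun h => hi ((hPmem i).2 h))) hUm hUK hU
    have := hP₀ P (Finset.mem_univ _)
    linarith
  have hosc := uniq_gap (fun j => c' j - c j) hδ.le hgap
  have hcδ : (Fintype.card J : ℝ) * δ = γ := by
    rw [hδdef]
    field_simp
  obtain ⟨j₀⟩ := ‹Nonempty J›
  refine ⟨-(c' j₀ - c j₀), fun x _ => ?_⟩
  have h1 := pot_add_const z c' (-(c' j₀ - c j₀)) x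
  have h2 := pot_sub_le z (fun ω => c' ω + -(c' j₀ - c j₀)) c (δ := γ) (fun ω => by
    rw [abs_le]
    have h3 := hosc j₀ ω
    have h4 := hosc ω j₀
    rw [hcδ] at h3 h4
    constructor <;> linarith) x
  rw [h1] at h2
  have : pot z c' x - pot z c x - -(c' j₀ - c j₀) = pot z c' x - -(c' j₀ - c j₀) - pot z c x := by
    ring
  rw [this]
  exact h2

end Crest.Agent.OT
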