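import Crest.Agent.Lib_OT_Moment
import Crest.Agent.Lib_OT_Exist
import Crest.Agent.Lib_OT_Unique

/-!
# P6 : Lipschitz stability of discrete potentials (path / mixed difference argument)
See OT_proof.md.
-/

set_option autoImplicit false
open MeasureTheory
open scoped ENNReal NNReal

namespace Crest.Agent.OT

variable {d : ℕ}

section Path
variable {Ω : Type} [Fintype Ω]

/-- value of an assignment at the sites `Y`. -/
noncomputable def aval (K : Set (Eu d)) (σ : Eu d → ℝ) (w : Ω → Eu d → ℝ) (Y : Ω → Eu d) : ℝ :=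
  ∑ ω, inner ℝ (moment K σ (w ω)) (Y ω)

/-- the cell assignment. -/
noncomputable def cellW (K : Set (Eu d)) (Y : Ω → Eu d) (b : Ω → ℝ) : Ω → Eu d → ℝ :=
  fun ω => (cell K Y b ω).indicator (fun _ => (1 : ℝ))

lemma aval_sub (K : Set (Eu d)) (σ : Eu d → ℝ) (w : Ω → Eu d → ℝ) (Y Y' : Ω → Eu d) :
    aval K σ w Y - aval K σ w Y' = ∑ ω, inner ℝ (moment K σ (w ω)) (Y ω - Y' ω) := by
  unfold aval
  rw [← Finset.sum_sub_distrib]
  exact Finset.sum_congr rfl fun ω _ => by rw [inner_sub_right]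

lemma aval_lip {K : Set (Eu d)} (hK : IsCompact K) {σ : Eu d → ℝ}
    (hσm : Measurable σ) (hσ : ∀ x ∈ K, 0 ≤ σ x ∧ σ x ≤ 2) {p : Ω → ℝ} {w : Ω → Eu d → ℝ}
    (hw : IsAssign K σ p w) {R' : ℝ} (hR' : ∀ x ∈ K, ‖x‖ ≤ R') (Y Y' : Ω → Eu d) :
    |aval K σ w Y - aval K σ w Y'| ≤ R' * ∑ ω, p ω * ‖Y ω - Y' ω‖ := by
  rw [aval_sub, Finset.mul_sum]
  refine (Finset.abs_sum_le_sum_abs _ _).trans (Finset.sum_le_sum fun ω _ => ?_)
  calc |inner ℝ (moment K σ (w ω)) (Y ω - Y' ω)| ≤ ‖moment K σ (w ω)‖ * ‖Y ω - Y' ω‖ :=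
        abs_real_inner_le_norm _ _
    _ ≤ (R' * p ω) * ‖Y ω - Y' ω‖ := by
        gcongr; exact norm_moment_le hK hσm hσ hw hR' ω
    _ = R' * (p ω * ‖Y ω - Y' ω‖) := by ring

variable [Nonempty Ω]

lemma opt_cell {K : Set (Eu d)} (hK : IsCompact K) {σ : Eu d → ℝ}
    (hσm : Measurable σ) (hσ : ∀ x ∈ K, 0 ≤ σ x ∧ σ x ≤ 2) {p : Ω → ℝ} (Y : Ω → Eu d)
    (hY : Function.Injective Y) (b : Ω → ℝ) (hp : ∀ ω, ∫ x in cell K Y b ω, σ x = p ω)
    {w' : Ω → Eu d → ℝ} (hw' : IsAssign K σ p w') :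
    aval K σ w' Y ≤ aval K σ (cellW K Y b) Y := by
  have h1 := weak_duality hK hσm hσ hw' Y b
  have h2 := duality_eq hK hσm hσ (isAssign_cell hK.measurableSet Y hY b σ p hp) Y b
    (fun ω => Filter.Eventually.of_forall fun x hx => by
      by_contra hne
      exact hx (Set.indicator_of_notMem hne _))
  unfold aval cellW
  rw [h2]; exact h1

lemma moment_diff_le {K : Set (Eu d)} (hKc : IsCompact K)
    (hKv : Convex ℝ K) (x₀ : Eu d) {R : ℝ} (hR : 0 < R) (hKR : ∀ x ∈ K, ‖x - x₀‖ ≤ R)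
    (Y : Ω → Eu d) (hY : Function.Injective Y) (a b : Ω → ℝ)
    (τ : Eu d → ℝ) (hτm : Measurable τ) (hτ : ∀ x ∈ K, 1 / 2 ≤ τ x ∧ τ x ≤ 2)
    (p : Ω → ℝ) (hp : ∀ ω, 0 < p ω)
    (hA : ∀ ω, ∫ x in cell K Y a ω, (fun _ => (1 : ℝ)) x = p ω)
    (hB : ∀ ω, ∫ x in cell K Y b ω, τ x = p ω) (D : Ω → Eu d) :
    ∑ ω, inner ℝ (moment K τ (cellW K Y b ω) - moment K (fun _ => 1) (cellW K Y a ω)) (D ω)
      ≤ Real.sqrt (momC * R ^ 2 * ∫ x in K, (τ x - 1) ^ 2) * Real.sqrt (∑ ω, p ω * ‖D ω‖ ^ 2) := by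
  have hA' : ∀ ω, (volume (cell K Y a ω)).toReal = p ω := by
    intro ω
    rw [← hA ω]
    simp [Measure.real]
  have key := moment_stability hKc hKv x₀ hR hKR Y hY a b τ hτm hτ p hp hA' hB
  set ΔM : Ω → Eu d := fun ω => moment K τ (cellW K Y b ω) - moment K (fun _ => 1) (cellW K Y a ω)
    with hΔM
  have hnorm : ∀ ω, ‖ΔM ω‖ = ‖(∫ x in cell K Y a ω, x) - ∫ x in cell K Y b ω, τ x • x‖ := by
    intro ω
    simp only [hΔM, cellW]
    rw [moment_cell hKc.measurableSet, moment_cell hKc.measurableSet, norm_sub_rev]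
    simp
  calc ∑ ω, inner ℝ (ΔM ω) (D ω)
      ≤ ∑ ω, (‖ΔM ω‖ / Real.sqrt (p ω)) * (Real.sqrt (p ω) * ‖D ω‖) := by
        refine Finset.sum_le_sum fun ω _ => ?_
        have hs : 0 < Real.sqrt (p ω) := Real.sqrt_pos.mpr (hp ω)
        calc inner ℝ (ΔM ω) (D ω) ≤ ‖ΔM ω‖ * ‖D ω‖ := real_inner_le_norm _ _
          _ = _ := by field_simp
    _ ≤ Real.sqrt (∑ ω, (‖ΔM ω‖ / Real.sqrt (p ω)) ^ 2)
          * Real.sqrt (∑ ω, (Real.sqrt (p ω) * ‖D ω‖) ^ 2) := Real.sum_mul_le_sqrt_mul_sqrt _ _ _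
    _ ≤ _ := by
        have e1 : ∑ ω, (‖ΔM ω‖ / Real.sqrt (p ω)) ^ 2
            = ∑ ω, ‖(∫ x in cell K Y a ω, x) - ∫ x in cell K Y b ω, τ x • x‖ ^ 2 / p ω := by
          refine Finset.sum_congr rfl fun ω _ => ?_
          rw [div_pow, Real.sq_sqrt (hp ω).le, hnorm]
        have e2 : ∑ ω, (Real.sqrt (p ω) * ‖D ω‖) ^ 2 = ∑ ω, p ω * ‖D ω‖ ^ 2 := by
          refine Finset.sum_congr rfl fun ω _ => ?_
          rw [mul_pow, Real.sq_sqrt (hp ω).le]
        rw [e1, e2]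
        gcongr

/-- interpolated sites -/
noncomputable def Yt (Y0 Y1 : Ω → Eu d) (t : ℝ) : Ω → Eu d := fun ω => Y0 ω + t • (Y1 ω - Y0 ω)

omit [Fintype Ω] [Nonempty Ω] in
lemma Yt_zero (Y0 Y1 : Ω → Eu d) : Yt Y0 Y1 0 = Y0 := by ext1 ω; simp [Yt]

omit [Fintype Ω] [Nonempty Ω] in
lemma Yt_one (Y0 Y1 : Ω → Eu d) : Yt Y0 Y1 1 = Y1 := by ext1 ω; simp [Yt]

omit [Fintype Ω] [Nonempty Ω] in
lemma Yt_sub (Y0 Y1 : Ω → Eu d) (t t' : ℝ) (ω : Ω) :
    Yt Y0 Y1 t ω - Yt Y0 Y1 t' ω = (t - t') • (Y1 ω - Y0 ω) := by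
  simp only [Yt]; module

omit [Nonempty Ω] in
lemma bad_finite (Y0 Y1 : Ω → Eu d) (hsep : ∀ ω ω', ω ≠ ω' → Y0 ω ≠ Y0 ω' ∨ Y1 ω ≠ Y1 ω') :
    {t : ℝ | ¬ Function.Injective (Yt Y0 Y1 t)}.Finite := by
  have hsub : {t : ℝ | ¬ Function.Injective (Yt Y0 Y1 t)} ⊆
      ⋃ q : {q : Ω × Ω // q.1 ≠ q.2}, {t : ℝ | Yt Y0 Y1 t q.1.1 = Yt Y0 Y1 t q.1.2} := by
    intro t ht
    simp only [Set.mem_ofPred_eq, Function.Injective, not_forall] at ht
    obtain ⟨ω, ω', he, hne⟩ := ht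
    exact Set.mem_iUnion.mpr ⟨⟨(ω, ω'), hne⟩, he⟩
  refine Set.Finite.subset (Set.finite_iUnion fun q => ?_) hsub
  apply Set.Subsingleton.finite
  intro t₁ h₁ t₂ h₂
  obtain ⟨⟨ω, ω'⟩, hne⟩ := q
  simp only [Set.mem_ofPred_eq, Yt] at h₁ h₂
  by_contra ht
  have hB : (t₁ - t₂) • ((Y1 ω - Y0 ω) - (Y1 ω' - Y0 ω')) = 0 := by
    have : (t₁ - t₂) • ((Y1 ω - Y0 ω) - (Y1 ω' - Y0 ω'))
        = ((Y0 ω + t₁ • (Y1 ω - Y0 ω)) - (Y0 ω' + t₁ • (Y1 ω' - Y0 ω')))
          - ((Y0 ω + t₂ • (Y1 ω - Y0 ω)) - (Y0 ω' + t₂ • (Y1 ω' - Y0 ω'))) := by module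
    rw [this, h₁, h₂]; simp
  have hB' : (Y1 ω - Y0 ω) - (Y1 ω' - Y0 ω') = 0 :=
    (smul_eq_zero.mp hB).resolve_left (sub_ne_zero.mpr ht)
  have hB'' : Y1 ω - Y0 ω = Y1 ω' - Y0 ω' := sub_eq_zero.mp hB'
  rw [hB''] at h₁
  have hA : Y0 ω = Y0 ω' := add_right_cancel h₁
  have hC : Y1 ω = Y1 ω' := by
    rw [hA] at hB''; exact sub_left_injective hB''
  rcases hsep ω ω' hne with h | h
  · exact h hA
  · exact h hC

lemma exists_theta {Bad : Set ℝ} (hBad : Bad.Finite) {N : ℕ} (hN : 0 < N) :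
    ∃ θ : ℝ, θ ∈ Set.Ioo (0 : ℝ) 1 ∧ ∀ k : ℕ, k < N → ((k : ℝ) + θ) / N ∉ Bad := by
  have hfin : (⋃ k ∈ Finset.range N, (fun θ : ℝ => ((k : ℝ) + θ) / N) ⁻¹' Bad).Finite := by
    refine Set.Finite.biUnion (Finset.finite_toSet _) fun k _ => ?_
    apply Set.Finite.preimage _ hBad
    intro a _ b _ hab
    have hN' : (N : ℝ) ≠ 0 := by positivity
    have hab' : ((k : ℝ) + a) / N = ((k : ℝ) + b) / N := hab
    field_simp at hab'
    linarith
  obtain ⟨θ, hθ, hθ'⟩ := (Set.Ioo_infinite (zero_lt_one (α := ℝ))).exists_notMem_finite hfin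
  refine ⟨θ, hθ, fun k hk hmem => hθ' ?_⟩
  simp only [Set.mem_iUnion]
  exact ⟨k, Finset.mem_coe.mpr (Finset.mem_range.mpr hk), hmem⟩

omit [Nonempty Ω] in
lemma aval_Yt_lip {K : Set (Eu d)} (hK : IsCompact K) {σ : Eu d → ℝ}
    (hσm : Measurable σ) (hσ : ∀ x ∈ K, 0 ≤ σ x ∧ σ x ≤ 2) {p : Ω → ℝ} {w : Ω → Eu d → ℝ}
    (hw : IsAssign K σ p w) {R' : ℝ} (hR' : ∀ x ∈ K, ‖x‖ ≤ R') (Y0 Y1 : Ω → Eu d) (t t' : ℝ) :
    |aval K σ w (Yt Y0 Y1 t) - aval K σ w (Yt Y0 Y1 t')|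
      ≤ |t - t'| * (R' * ∑ ω, p ω * ‖Y1 ω - Y0 ω‖) := by
  refine (aval_lip hK hσm hσ hw hR' _ _).trans (le_of_eq ?_)
  simp_rw [Yt_sub, norm_smul, Real.norm_eq_abs]
  rw [Finset.mul_sum, Finset.mul_sum, Finset.mul_sum]
  exact Finset.sum_congr rfl fun ω _ => by ring

lemma path_core_N {K : Set (Eu d)} (hKc : IsCompact K)
    (hKv : Convex ℝ K) (x₀ : Eu d) {R : ℝ} (hR : 0 < R) (hKR : ∀ x ∈ K, ‖x - x₀‖ ≤ R)
    {R' : ℝ} (hR' : ∀ x ∈ K, ‖x‖ ≤ R')
    (p : Ω → ℝ) (hp : ∀ ω, 0 < p ω) (Y0 Y1 : Ω → Eu d)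
    (hsep : ∀ ω ω', ω ≠ ω' → Y0 ω ≠ Y0 ω' ∨ Y1 ω ≠ Y1 ω')
    (τ : Eu d → ℝ) (hτm : Measurable τ) (hτ : ∀ x ∈ K, 1 / 2 ≤ τ x ∧ τ x ≤ 2)
    (hsum1 : ∑ ω, p ω = ∫ x in K, (fun _ => (1 : ℝ)) x) (hsumτ : ∑ ω, p ω = ∫ x in K, τ x)
    (w0 w1 : Ω → Eu d → ℝ) (hw0 : IsAssign K (fun _ => 1) p w0) (hw1 : IsAssign K τ p w1)
    (bA bC : Ω → ℝ) {N : ℕ} (hN : 0 < N) :
    (aval K τ w1 Y1 - dualVal K (fun _ => 1) p Y1 bC)
        - (dualVal K τ p Y0 bA - aval K (fun _ => 1) w0 Y0)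
      ≤ Real.sqrt (momC * R ^ 2 * ∫ x in K, (τ x - 1) ^ 2)
          * Real.sqrt (∑ ω, p ω * ‖Y1 ω - Y0 ω‖ ^ 2)
        + 6 * (R' * ∑ ω, p ω * ‖Y1 ω - Y0 ω‖) / N := by
  classical
  have hNpos : (0 : ℝ) < N := by exact_mod_cast hN
  set one : Eu d → ℝ := fun _ => (1 : ℝ) with hone
  have h1m : Measurable one := measurable_const
  have h1b : ∀ x ∈ K, 0 ≤ one x ∧ one x ≤ 2 := fun x _ => by simp [hone]
  have h1b' : ∀ x ∈ K, 1 / 2 ≤ one x ∧ one x ≤ 2 := fun x _ => by simp only [hone]; norm_num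
  have hτb : ∀ x ∈ K, 0 ≤ τ x ∧ τ x ≤ 2 := fun x hx => ⟨by linarith [(hτ x hx).1], (hτ x hx).2⟩
  obtain ⟨θ, hθ, hgood⟩ := exists_theta (bad_finite Y0 Y1 hsep) hN
  set t : ℕ → ℝ := fun k => ((k : ℝ) + θ) / N with ht
  set Yk : ℕ → Ω → Eu d := fun k => Yt Y0 Y1 (t k) with hYk
  have hinj : ∀ k, k < N → Function.Injective (Yk k) := by
    intro k hk
    have := hgood k hk
    simpa using this
  have ex1 : ∀ k, ∃ b : Ω → ℝ, k < N → ∀ ω, ∫ x in cell K (Yk k) b ω, one x = p ω := by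
    intro k
    by_cases hk : k < N
    · obtain ⟨b, hb⟩ := exists_heights hKc one h1m h1b' (Yk k) (hinj k hk) p hp hsum1
      exact ⟨b, fun _ => hb⟩
    · exact ⟨0, fun h => absurd h hk⟩
  have exτ : ∀ k, ∃ b : Ω → ℝ, k < N → ∀ ω, ∫ x in cell K (Yk k) b ω, τ x = p ω := by
    intro k
    by_cases hk : k < N
    · obtain ⟨b, hb⟩ := exists_heights hKc τ hτm hτ (Yk k) (hinj k hk) p hp hsumτ
      exact ⟨b, fun _ => hb⟩
    · exact ⟨0, fun h => absurd h hk⟩
  choose b1 hb1 using ex1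
  choose bt hbt using exτ
  set W1 : ℕ → Ω → Eu d → ℝ := fun k => cellW K (Yk k) (b1 k) with hW1
  set Wt : ℕ → Ω → Eu d → ℝ := fun k => cellW K (Yk k) (bt k) with hWt
  have aW1 : ∀ k, k < N → IsAssign K one p (W1 k) := fun k hk =>
    isAssign_cell hKc.measurableSet (Yk k) (hinj k hk) (b1 k) one p (hb1 k hk)
  have aWt : ∀ k, k < N → IsAssign K τ p (Wt k) := fun k hk =>
    isAssign_cell hKc.measurableSet (Yk k) (hinj k hk) (bt k) τ p (hbt k hk)
  set S1 : ℝ := R' * ∑ ω, p ω * ‖Y1 ω - Y0 ω‖ with hS1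
  set c : ℝ := Real.sqrt (momC * R ^ 2 * ∫ x in K, (τ x - 1) ^ 2)
          * Real.sqrt (∑ ω, p ω * ‖Y1 ω - Y0 ω‖ ^ 2) with hc
  set D : Ω → Eu d := fun ω => (1 / (N : ℝ)) • (Y1 ω - Y0 ω) with hD
  have hstepY : ∀ k ω, Yk (k + 1) ω - Yk k ω = D ω := by
    intro k ω
    simp only [hYk, Yt_sub, hD, ht]
    congr 1
    push_cast
    field_simp
    ring
  have aval_step : ∀ (σ : Eu d → ℝ) (w : Ω → Eu d → ℝ) (k : ℕ),
      aval K σ w (Yk (k + 1)) - aval K σ w (Yk k) = ∑ ω, inner ℝ (moment K σ (w ω)) (D ω) := by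
    intro σ w k
    rw [aval_sub]
    exact Finset.sum_congr rfl fun ω _ => by rw [hstepY]
  set F1 : ℕ → ℝ := fun k => aval K one (W1 k) (Yk k) with hF1
  set Ft : ℕ → ℝ := fun k => aval K τ (Wt k) (Yk k) with hFt
  set m : ℕ → ℝ := fun k => ∑ ω, inner ℝ (moment K one (W1 k ω)) (D ω) with hm
  have hsqrtD : Real.sqrt (∑ ω, p ω * ‖D ω‖ ^ 2)
      = Real.sqrt (∑ ω, p ω * ‖Y1 ω - Y0 ω‖ ^ 2) / N := by
    have : ∑ ω, p ω * ‖D ω‖ ^ 2 = (1 / (N : ℝ)) ^ 2 * ∑ ω, p ω * ‖Y1 ω - Y0 ω‖ ^ 2 := by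
      rw [Finset.mul_sum]
      refine Finset.sum_congr rfl fun ω _ => ?_
      simp only [hD, norm_smul, Real.norm_eq_abs, mul_pow, sq_abs]; ring
    rw [this, Real.sqrt_mul (sq_nonneg _), Real.sqrt_sq (by positivity)]
    ring
  have step : ∀ k, k + 1 < N →
      (Ft (k + 1) - F1 (k + 1)) - m (k + 1) ≤ (Ft k - F1 k) - m k + c / N := by
    intro k hk
    have hk' : k < N := by omega
    have hA : aval K τ (Wt (k + 1)) (Yk k) ≤ Ft k :=
      opt_cell hKc hτm hτb (Yk k) (hinj k hk') (bt k) (hbt k hk') (aWt (k + 1) hk)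
    have hB : aval K one (W1 k) (Yk (k + 1)) ≤ F1 (k + 1) :=
      opt_cell hKc h1m h1b (Yk (k + 1)) (hinj (k + 1) hk) (b1 (k + 1)) (hb1 (k + 1) hk) (aW1 k hk')
    have e1 := aval_step τ (Wt (k + 1)) k
    have e2 := aval_step one (W1 k) k
    have hP3 := moment_diff_le hKc hKv x₀ hR hKR (Yk (k + 1)) (hinj (k + 1) hk) (b1 (k + 1))
      (bt (k + 1)) τ hτm hτ p hp (hb1 (k + 1) hk) (hbt (k + 1) hk) D
    rw [hsqrtD] at hP3
    have e3 : ∑ ω, inner ℝ (moment K τ (cellW K (Yk (k + 1)) (bt (k + 1)) ω)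
          - moment K (fun _ => 1) (cellW K (Yk (k + 1)) (b1 (k + 1)) ω)) (D ω)
        = (∑ ω, inner ℝ (moment K τ (Wt (k + 1) ω)) (D ω)) - m (k + 1) := by
      rw [hm, ← Finset.sum_sub_distrib]
      exact Finset.sum_congr rfl fun ω _ => by rw [inner_sub_left]
    rw [e3] at hP3
    have hcN : Real.sqrt (momC * R ^ 2 * ∫ x in K, (τ x - 1) ^ 2)
        * (Real.sqrt (∑ ω, p ω * ‖Y1 ω - Y0 ω‖ ^ 2) / N) = c / N := by rw [hc]; ring
    rw [hcN] at hP3
    have e1' : Ft (k + 1) - aval K τ (Wt (k + 1)) (Yk k)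
        = ∑ ω, inner ℝ (moment K τ (Wt (k + 1) ω)) (D ω) := e1
    have e2' : aval K one (W1 k) (Yk (k + 1)) - F1 k = m k := e2
    linarith
  have hc0 : 0 ≤ c := by rw [hc]; positivity
  have induct : ∀ k, k < N → (Ft k - F1 k) - m k ≤ (Ft 0 - F1 0) - m 0 + k * (c / N) := by
    intro k
    induction k with
    | zero => intro _; simp
    | succ k ih =>
      intro hk
      have h1 := ih (by omega)
      have h2 := step k hk
      push_cast
      linarith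
  have hlast : N - 1 < N := by omega
  have hfin := induct (N - 1) hlast
  have hkc : ((N - 1 : ℕ) : ℝ) * (c / N) ≤ c := by
    have : ((N - 1 : ℕ) : ℝ) ≤ N := by exact_mod_cast Nat.sub_le N 1
    calc ((N - 1 : ℕ) : ℝ) * (c / N) ≤ (N : ℝ) * (c / N) := by gcongr
      _ = c := by field_simp
  have hS1nn : 0 ≤ S1 := by
    by_cases hKe : K.Nonempty
    · obtain ⟨x, hx⟩ := hKe
      have : 0 ≤ R' := (norm_nonneg x).trans (hR' x hx)
      rw [hS1]
      exact mul_nonneg this (Finset.sum_nonneg fun ω _ => mul_nonneg (hp ω).le (norm_nonneg _))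
    · exfalso
      rw [Set.not_nonempty_iff_eq_empty] at hKe
      have : ∑ ω, p ω = 0 := by rw [hsum1, hKe]; simp
      have hpos : 0 < ∑ ω, p ω := Finset.sum_pos (fun ω _ => hp ω) Finset.univ_nonempty
      linarith
  -- bounds on m
  have hmb : ∀ k, k < N → |m k| ≤ S1 / N := by
    intro k hk
    have h := aval_Yt_lip hKc h1m h1b (aW1 k hk) hR' Y0 Y1 (t (k + 1)) (t k)
    have e := aval_step one (W1 k) k
    have e' : aval K one (W1 k) (Yt Y0 Y1 (t (k + 1))) - aval K one (W1 k) (Yt Y0 Y1 (t k)) = m k := e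
    rw [e'] at h
    have ht' : |t (k + 1) - t k| = 1 / N := by
      have : t (k + 1) - t k = 1 / N := by
        simp only [ht]; push_cast; field_simp; ring
      rw [this, abs_of_pos (by positivity)]
    rw [ht'] at h
    calc |m k| ≤ 1 / N * S1 := h
      _ = S1 / N := by ring
  have ht0 : |t 0 - 0| ≤ 1 / N := by
    have : t 0 - 0 = θ / N := by simp [ht]
    rw [this, abs_of_nonneg (div_nonneg hθ.1.le hNpos.le)]
    gcongr; exact hθ.2.le
  have htl : |1 - t (N - 1)| ≤ 1 / N := by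
    have hcast : ((N - 1 : ℕ) : ℝ) = N - 1 := by
      rw [Nat.cast_sub (by omega)]; simp
    have : 1 - t (N - 1) = (1 - θ) / N := by
      simp only [ht, hcast]; field_simp; ring
    rw [this, abs_of_nonneg (div_nonneg (by linarith [hθ.2]) hNpos.le)]
    gcongr; linarith [hθ.1]
  have lipN : ∀ {σ : Eu d → ℝ} {w : Ω → Eu d → ℝ}, Measurable σ → (∀ x ∈ K, 0 ≤ σ x ∧ σ x ≤ 2) →
      IsAssign K σ p w → |aval K σ w Y1 - aval K σ w (Yk (N - 1))| ≤ S1 / N := by
    intro σ w hσm hσ hw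
    have h := aval_Yt_lip hKc hσm hσ hw hR' Y0 Y1 1 (t (N - 1))
    rw [Yt_one] at h
    calc _ ≤ |1 - t (N - 1)| * S1 := h
      _ ≤ 1 / N * S1 := by gcongr
      _ = S1 / N := by ring
  have lip0 : ∀ {σ : Eu d → ℝ} {w : Ω → Eu d → ℝ}, Measurable σ → (∀ x ∈ K, 0 ≤ σ x ∧ σ x ≤ 2) →
      IsAssign K σ p w → |aval K σ w (Yk 0) - aval K σ w Y0| ≤ S1 / N := by
    intro σ w hσm hσ hw
    have h := aval_Yt_lip hKc hσm hσ hw hR' Y0 Y1 (t 0) 0
    rw [Yt_zero] at h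
    calc _ ≤ |t 0 - 0| * S1 := h
      _ ≤ 1 / N * S1 := by gcongr
      _ = S1 / N := by ring
  -- endpoint facts
  have f1 : aval K τ w1 Y1 - S1 / N ≤ Ft (N - 1) := by
    have h1 : aval K τ w1 (Yk (N - 1)) ≤ Ft (N - 1) :=
      opt_cell hKc hτm hτb (Yk (N - 1)) (hinj _ hlast) (bt (N - 1)) (hbt _ hlast) hw1
    have h2 := (abs_le.mp (lipN hτm hτb hw1)).2
    linarith
  have f2 : F1 (N - 1) ≤ dualVal K one p Y1 bC + S1 / N := by
    have h1 : aval K one (W1 (N - 1)) Y1 ≤ dualVal K one p Y1 bC :=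
      weak_duality hKc h1m h1b (aW1 _ hlast) Y1 bC
    have h2 := (abs_le.mp (lipN h1m h1b (aW1 _ hlast))).1
    have : F1 (N - 1) = aval K one (W1 (N - 1)) (Yk (N - 1)) := rfl
    linarith
  have f3 : Ft 0 ≤ dualVal K τ p Y0 bA + S1 / N := by
    have h1 : aval K τ (Wt 0) Y0 ≤ dualVal K τ p Y0 bA :=
      weak_duality hKc hτm hτb (aWt _ hN) Y0 bA
    have h2 := (abs_le.mp (lip0 hτm hτb (aWt _ hN))).2
    have : Ft 0 = aval K τ (Wt 0) (Yk 0) := rfl
    linarith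
  have f4 : aval K one w0 Y0 - S1 / N ≤ F1 0 := by
    have h1 : aval K one w0 (Yk 0) ≤ F1 0 :=
      opt_cell hKc h1m h1b (Yk 0) (hinj _ hN) (b1 0) (hb1 _ hN) hw0
    have h2 := (abs_le.mp (lip0 h1m h1b hw0)).1
    linarith
  have m1 := (abs_le.mp (hmb (N - 1) hlast)).2
  have m0 := (abs_le.mp (hmb 0 hN)).1
  have : 6 * S1 / N = 6 * (S1 / N) := by ring
  rw [this]
  linarith

lemma path_core {K : Set (Eu d)} (hKc : IsCompact K)
    (hKv : Convex ℝ K) (x₀ : Eu d) {R : ℝ} (hR : 0 < R) (hKR : ∀ x ∈ K, ‖x - x₀‖ ≤ R)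
    (p : Ω → ℝ) (hp : ∀ ω, 0 < p ω) (Y0 Y1 : Ω → Eu d)
    (hsep : ∀ ω ω', ω ≠ ω' → Y0 ω ≠ Y0 ω' ∨ Y1 ω ≠ Y1 ω')
    (τ : Eu d → ℝ) (hτm : Measurable τ) (hτ : ∀ x ∈ K, 1 / 2 ≤ τ x ∧ τ x ≤ 2)
    (hsum1 : ∑ ω, p ω = ∫ x in K, (fun _ => (1 : ℝ)) x) (hsumτ : ∑ ω, p ω = ∫ x in K, τ x)
    (w0 w1 : Ω → Eu d → ℝ) (hw0 : IsAssign K (fun _ => 1) p w0) (hw1 : IsAssign K τ p w1)
    (bA bC : Ω → ℝ) :
    (aval K τ w1 Y1 - dualVal K (fun _ => 1) p Y1 bC)
        - (dualVal K τ p Y0 bA - aval K (fun _ => 1) w0 Y0)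
      ≤ Real.sqrt (momC * R ^ 2 * ∫ x in K, (τ x - 1) ^ 2)
          * Real.sqrt (∑ ω, p ω * ‖Y1 ω - Y0 ω‖ ^ 2) := by
  obtain ⟨R', hR'⟩ := hKc.exists_bound_of_continuousOn (f := fun x : Eu d => x) continuousOn_id
  apply le_of_forall_pos_le_add
  intro ε hε
  set S : ℝ := 6 * (R' * ∑ ω, p ω * ‖Y1 ω - Y0 ω‖) with hS
  obtain ⟨N, hN⟩ := exists_nat_gt (max (S / ε) 0)
  have hN0 : (0 : ℝ) < N := lt_of_le_of_lt (le_max_right _ _) hN
  have hN' : 0 < N := by exact_mod_cast hN0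
  have h := path_core_N hKc hKv x₀ hR hKR hR' p hp Y0 Y1 hsep τ hτm hτ hsum1 hsumτ w0 w1 hw0 hw1
    bA bC hN'
  have h2 : S / N ≤ ε := by
    have : S / ε < N := lt_of_le_of_lt (le_max_left _ _) hN
    rw [div_lt_iff₀ hε] at this
    rw [div_le_iff₀ hN0]; linarith
  linarith

end Path

section Split
variable {Ω A : Type} [Fintype Ω] [Fintype A] [Nonempty Ω] [Nonempty A]

lemma pot_comp (π : Ω → A) (hπ : Function.Surjective π) (Z : A → Eu d) (h : A → ℝ) (x : Eu d) :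
    pot (Z ∘ π) (h ∘ π) x = pot Z h x := by
  apply le_antisymm
  · rw [pot_le_iff]; intro ω; exact aff_le_pot Z h (π ω) x
  · rw [pot_le_iff]; intro α
    obtain ⟨ω, rfl⟩ := hπ α
    exact aff_le_pot (Z ∘ π) (h ∘ π) ω x

omit [Fintype Ω] [Fintype A] [Nonempty Ω] [Nonempty A] in
lemma cell_comp (K : Set (Eu d)) (π : Ω → A) (hπ : Function.Surjective π) (Z : A → Eu d) (h : A → ℝ)
    (ω : Ω) : cell K (Z ∘ π) (h ∘ π) ω = cell K Z h (π ω) := by
  ext x
  constructor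
  · rintro ⟨h1, h2⟩
    refine ⟨h1, fun α => ?_⟩
    obtain ⟨ω', rfl⟩ := hπ α
    exact h2 ω'
  · rintro ⟨h1, h2⟩
    exact ⟨h1, fun ω' => h2 (π ω')⟩

/-- splitting the cells of `(Z, h)` proportionally among the labels of each fibre -/
noncomputable def splitW (K : Set (Eu d)) (π : Ω → A) (Z : A → Eu d) (h : A → ℝ) (p : Ω → ℝ)
    (M : A → ℝ) : Ω → Eu d → ℝ :=
  fun ω x => (cell K Z h (π ω)).indicator (fun _ => (1 : ℝ)) x * (p ω / M (π ω))

omit [Nonempty Ω] in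
lemma isAssign_split [DecidableEq A] {K : Set (Eu d)} (hK : IsCompact K) (π : Ω → A)
    (Z : A → Eu d) (hZ : Function.Injective Z) (h : A → ℝ) (σ : Eu d → ℝ)
    (p : Ω → ℝ) (hp : ∀ ω, 0 < p ω) (M : A → ℝ) (hM : ∀ α, 0 < M α)
    (hmass : ∀ α, ∫ x in cell K Z h α, σ x = M α)
    (hfib : ∀ α, ∑ ω with π ω = α, p ω = M α) :
    IsAssign K σ p (splitW K π Z h p M) where
  meas ω := (measurable_const.indicator (measurableSet_cell hK.measurableSet Z h (π ω))).mul_const _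
  nonneg ω x := mul_nonneg (Set.indicator_nonneg (fun _ _ => zero_le_one) x)
    (div_nonneg (hp ω).le (hM _).le)
  le_one ω x := by
    have h1 : (cell K Z h (π ω)).indicator (fun _ => (1 : ℝ)) x ≤ 1 :=
      Set.indicator_le_self' (fun _ _ => zero_le_one) x
    have h0 : 0 ≤ (cell K Z h (π ω)).indicator (fun _ => (1 : ℝ)) x :=
      Set.indicator_nonneg (fun _ _ => zero_le_one) x
    have h2 : p ω / M (π ω) ≤ 1 := by
      rw [div_le_one (hM _), ← hfib (π ω)]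
      exact Finset.single_le_sum (f := p) (fun ω' _ => (hp ω').le)
        (Finset.mem_filter.mpr ⟨Finset.mem_univ ω, rfl⟩)
    have h3 : 0 ≤ p ω / M (π ω) := div_nonneg (hp ω).le (hM _).le
    calc _ ≤ 1 * 1 := mul_le_mul h1 h2 h3 zero_le_one
      _ = 1 := one_mul 1
  sum_one := by
    filter_upwards [(isAssign_cell hK.measurableSet Z hZ h σ M hmass).sum_one] with x hx
    rw [← hx, ← Finset.sum_fiberwise Finset.univ π]
    refine Finset.sum_congr rfl fun α _ => ?_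
    have : ∀ ω ∈ Finset.univ.filter (fun ω => π ω = α), splitW K π Z h p M ω x
        = (cell K Z h α).indicator (fun _ => (1 : ℝ)) x / M α * p ω := by
      intro ω hω
      have hα : π ω = α := (Finset.mem_filter.mp hω).2
      simp only [splitW, hα]; ring
    rw [Finset.sum_congr rfl this, ← Finset.mul_sum, hfib α]
    have := (hM α).ne'
    field_simp
  mass ω := by
    have : (fun x => splitW K π Z h p M ω x * σ x)
        = fun x => ((cell K Z h (π ω)).indicator (fun _ => (1 : ℝ)) x * σ x) * (p ω / M (π ω)) := by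
      ext x; simp only [splitW]; ring
    rw [this, integral_mul_const,
      setIntegral_indicator_mul (measurableSet_cell hK.measurableSet Z h (π ω)) (cell_subset K Z h _),
      hmass]
    have := (hM (π ω)).ne'
    field_simp

lemma dualVal_comp [DecidableEq A] (K : Set (Eu d)) (π : Ω → A) (hπ : Function.Surjective π)
    (Z : A → Eu d) (h : A → ℝ) (σ : Eu d → ℝ) (p : Ω → ℝ) (M : A → ℝ)
    (hfib : ∀ α, ∑ ω with π ω = α, p ω = M α) :
    dualVal K σ p (Z ∘ π) (h ∘ π) = dualVal K σ M Z h := by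
  unfold dualVal
  congr 1
  · simp_rw [pot_comp π hπ Z h]
  · rw [← Finset.sum_fiberwise Finset.univ π]
    refine Finset.sum_congr rfl fun α _ => ?_
    rw [← hfib α, Finset.sum_mul]
    refine Finset.sum_congr rfl fun ω hω => ?_
    have hα : π ω = α := (Finset.mem_filter.mp hω).2
    simp [hα]

lemma aval_split [DecidableEq A] {K : Set (Eu d)} (hK : IsCompact K) (π : Ω → A)
    (hπ : Function.Surjective π)
    (Z : A → Eu d) (hZ : Function.Injective Z) (h : A → ℝ) {σ : Eu d → ℝ}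
    (hσm : Measurable σ) (hσ : ∀ x ∈ K, 0 ≤ σ x ∧ σ x ≤ 2)
    (p : Ω → ℝ) (hp : ∀ ω, 0 < p ω) (M : A → ℝ) (hM : ∀ α, 0 < M α)
    (hmass : ∀ α, ∫ x in cell K Z h α, σ x = M α)
    (hfib : ∀ α, ∑ ω with π ω = α, p ω = M α) :
    aval K σ (splitW K π Z h p M) (Z ∘ π) = dualVal K σ M Z h := by
  rw [← dualVal_comp K π hπ Z h σ p M hfib]
  refine duality_eq hK hσm hσ (isAssign_split hK π Z hZ h σ p hp M hM hmass hfib) _ _ ?_
  intro ω
  refine Filter.Eventually.of_forall fun x hx => ?_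
  rw [cell_comp K π hπ]
  by_contra hne
  apply hx
  simp [splitW, hne]

end Split

section Final
variable {I J : Type} [Fintype I] [Fintype J]

lemma sum_labels (P : I → J → ℝ) [inst : Fintype {q : I × J // 0 < P q.1 q.2}] (G : I × J → ℝ)
    (hG : ∀ q : I × J, ¬ 0 < P q.1 q.2 → G q = 0) :
    ∑ ω : {q : I × J // 0 < P q.1 q.2}, G ω.1 = ∑ i, ∑ j, G (i, j) := by
  classical
  have h := Finset.sum_subtype (p := fun q : I × J => 0 < P q.1 q.2) (F := inst)
    (Finset.univ.filter fun q : I × J => 0 < P q.1 q.2) (fun q => by simp) G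
  rw [← h, Finset.sum_filter_of_ne, Fintype.sum_prod_type]
  intro q _ hq
  by_contra hne
  exact hq (hG q hne)

lemma dualVal_sub [Nonempty J] {K : Set (Eu d)} (hK : IsCompact K) (M : J → ℝ) (Z : J → Eu d)
    (h : J → ℝ) (η : Eu d → ℝ) (hηm : Measurable η) {B : ℝ} (hηB : ∀ x ∈ K, |η x| ≤ B) (s : ℝ) :
    dualVal K (fun x => 1 + s * η x) M Z h - dualVal K (fun _ => 1) M Z h
      = s * ∫ x in K, pot Z h x * η x := by
  unfold dualVal
  obtain ⟨Mp, hMp⟩ := hK.exists_bound_of_continuousOn (continuous_pot Z h).continuousOn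
  have hB0 : ∀ x ∈ K, 0 ≤ B := fun x hx => (abs_nonneg _).trans (hηB x hx)
  have i1 : IntegrableOn (fun x => pot Z h x * (1 : ℝ)) K := by
    simpa using (continuous_pot Z h).continuousOn.integrableOn_compact hK
  have i2 : IntegrableOn (fun x => pot Z h x * η x) K := by
    refine integrableOn_of_bdd hK (M := Mp * B)
      ((continuous_pot Z h).measurable.mul hηm).aestronglyMeasurable ?_
    intro x hx
    rw [norm_mul]
    exact mul_le_mul (hMp x hx) (hηB x hx) (norm_nonneg _) ((norm_nonneg _).trans (hMp x hx))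
  have e : (fun x => pot Z h x * (1 + s * η x))
      = fun x => pot Z h x * (1 : ℝ) + s * (pot Z h x * η x) := by ext x; ring
  rw [e, integral_add i1 (i2.const_mul s), integral_const_mul]
  ring

lemma stage2 [Nonempty I] [Nonempty J]
    {K : Set (Eu d)} (hKc : IsCompact K) (hKv : Convex ℝ K)
    (x₀ : Eu d) {R : ℝ} (hR : 0 < R) (hKR : ∀ x ∈ K, ‖x - x₀‖ ≤ R)
    (y : I → Eu d) (hy : Function.Injective y) (z : J → Eu d) (hz : Function.Injective z)
    (a : I → ℝ) (c : J → ℝ) (P : I → J → ℝ) (hP : ∀ i j, 0 ≤ P i j)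
    (hμ : ∀ i, ∑ j, P i j = (volume (cell K y a i)).toReal)
    (hν : ∀ j, ∑ i, P i j = (volume (cell K z c j)).toReal)
    (hμpos : ∀ i, 0 < volume (cell K y a i)) (hνpos : ∀ j, 0 < volume (cell K z c j))
    (η : Eu d → ℝ) (hηm : Measurable η) {B : ℝ} (hηB : ∀ x ∈ K, |η x| ≤ B)
    (hη0 : ∫ x in K, η x = 0) {s : ℝ} (hs : 0 < s) (hsB : s * B ≤ 1 / 2) (c' : J → ℝ)
    (hc' : ∀ j, ∫ x in cell K z c' j, (1 + s * η x) = (volume (cell K z c j)).toReal) :
    (∫ x in K, pot z c' x * η x) - ∫ x in K, pot y a x * η x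
      ≤ Real.sqrt (momC * R ^ 2 * ∫ x in K, η x ^ 2)
          * Real.sqrt (∑ i, ∑ j, P i j * ‖y i - z j‖ ^ 2) := by
  classical
  set Ω := {q : I × J // 0 < P q.1 q.2} with hΩ
  set p : Ω → ℝ := fun ω => P ω.1.1 ω.1.2 with hp_def
  have hp : ∀ ω, 0 < p ω := fun ω => ω.2
  set π₁ : Ω → I := fun ω => ω.1.1 with hπ₁
  set π₂ : Ω → J := fun ω => ω.1.2 with hπ₂
  set M₁ : I → ℝ := fun i => (volume (cell K y a i)).toReal with hM₁
  set M₂ : J → ℝ := fun j => (volume (cell K z c j)).toReal with hM₂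
  have hfinI : ∀ i, volume (cell K y a i) ≠ ⊤ := fun i =>
    (measure_mono (cell_subset K y a i)).trans_lt hKc.measure_lt_top |>.ne
  have hfinJ : ∀ j, volume (cell K z c j) ≠ ⊤ := fun j =>
    (measure_mono (cell_subset K z c j)).trans_lt hKc.measure_lt_top |>.ne
  have hM₁pos : ∀ i, 0 < M₁ i := fun i => ENNReal.toReal_pos (hμpos i).ne' (hfinI i)
  have hM₂pos : ∀ j, 0 < M₂ j := fun j => ENNReal.toReal_pos (hνpos j).ne' (hfinJ j)
  have hsurj₁ : Function.Surjective π₁ := by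
    intro i
    by_contra hne
    push Not at hne
    have : ∑ j, P i j ≤ 0 := Finset.sum_nonpos fun j _ => by
      by_contra hpos
      push Not at hpos
      exact hne ⟨(i, j), hpos⟩ rfl
    have h2 := hM₁pos i
    rw [hM₁] at h2
    simp only at h2
    rw [← hμ i] at h2
    linarith
  have hsurj₂ : Function.Surjective π₂ := by
    intro j
    by_contra hne
    push Not at hne
    have : ∑ i, P i j ≤ 0 := Finset.sum_nonpos fun i _ => by
      by_contra hpos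
      push Not at hpos
      exact hne ⟨(i, j), hpos⟩ rfl
    have h2 := hM₂pos j
    rw [hM₂] at h2
    simp only at h2
    rw [← hν j] at h2
    linarith
  have : Nonempty Ω := by
    obtain ⟨ω, _⟩ := hsurj₁ (Classical.arbitrary I)
    exact ⟨ω⟩
  have hzero : ∀ q : I × J, ¬ 0 < P q.1 q.2 → P q.1 q.2 = 0 := fun q hq =>
    le_antisymm (not_lt.mp hq) (hP _ _)
  have hfib₁ : ∀ i, ∑ ω with π₁ ω = i, p ω = M₁ i := by
    intro i
    rw [Finset.sum_filter]
    have := sum_labels P (fun q => if q.1 = i then P q.1 q.2 else 0)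
      (fun q hq => by simp [hzero q hq])
    rw [show (∑ ω : Ω, if π₁ ω = i then p ω else 0)
      = ∑ ω : {q : I × J // 0 < P q.1 q.2}, (fun q : I × J => if q.1 = i then P q.1 q.2 else 0) ω.1
      from rfl, this]
    simp only
    rw [Finset.sum_eq_single i]
    · simp [hM₁, hμ i]
    · intro i' _ hne; simp [hne]
    · intro h; exact absurd (Finset.mem_univ i) h
  have hfib₂ : ∀ j, ∑ ω with π₂ ω = j, p ω = M₂ j := by
    intro j
    rw [Finset.sum_filter]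
    have := sum_labels P (fun q => if q.2 = j then P q.1 q.2 else 0)
      (fun q hq => by simp [hzero q hq])
    rw [show (∑ ω : Ω, if π₂ ω = j then p ω else 0)
      = ∑ ω : {q : I × J // 0 < P q.1 q.2}, (fun q : I × J => if q.2 = j then P q.1 q.2 else 0) ω.1
      from rfl, this]
    simp only
    rw [Finset.sum_comm, Finset.sum_eq_single j]
    · simp [hM₂, hν j]
    · intro j' _ hne; simp [hne]
    · intro h; exact absurd (Finset.mem_univ j) h
  set τ : Eu d → ℝ := fun x => 1 + s * η x with hτdef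
  have hτm : Measurable τ := measurable_const.add (hηm.const_mul s)
  have hτ : ∀ x ∈ K, 1 / 2 ≤ τ x ∧ τ x ≤ 2 := by
    intro x hx
    have h1 := abs_le.mp (hηB x hx)
    have h2 : s * η x ≤ s * B := by gcongr; exact h1.2
    have h3 : -(s * B) ≤ s * η x := by
      have : s * (-B) ≤ s * η x := by gcongr; exact h1.1
      linarith
    simp only [hτdef]
    constructor <;> linarith
  have hτb : ∀ x ∈ K, 0 ≤ τ x ∧ τ x ≤ 2 := fun x hx => ⟨by linarith [(hτ x hx).1], (hτ x hx).2⟩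
  have h1b : ∀ x ∈ K, 0 ≤ (fun _ : Eu d => (1 : ℝ)) x ∧ (fun _ : Eu d => (1 : ℝ)) x ≤ 2 :=
    fun x _ => by norm_num
  have hmass₁ : ∀ i, ∫ x in cell K y a i, (fun _ : Eu d => (1 : ℝ)) x = M₁ i := by
    intro i; simp [hM₁, Measure.real]
  have hsump : ∑ ω, p ω = ∑ i, M₁ i := by
    rw [← Finset.sum_fiberwise Finset.univ π₁]
    exact Finset.sum_congr rfl fun i _ => hfib₁ i
  have hint1 : IntegrableOn (fun _ : Eu d => (1 : ℝ)) K :=
    integrableOn_const hKc.measure_lt_top.ne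
  have hsum1 : ∑ ω, p ω = ∫ x in K, (fun _ : Eu d => (1 : ℝ)) x := by
    rw [hsump, ← sum_integral_cell hKc.measurableSet y hy a _ hint1]
    exact Finset.sum_congr rfl fun i _ => (hmass₁ i).symm
  have hintη : IntegrableOn η K :=
    integrableOn_of_bdd hKc hηm.aestronglyMeasurable (fun x hx => by
      rw [Real.norm_eq_abs]; exact hηB x hx)
  have hsumτ : ∑ ω, p ω = ∫ x in K, τ x := by
    rw [hsum1]
    simp only [hτdef]
    rw [integral_add hint1 (hintη.const_mul s), integral_const_mul, hη0]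
    simp
  have hsep : ∀ ω ω' : Ω, ω ≠ ω' → (y ∘ π₁) ω ≠ (y ∘ π₁) ω' ∨ (z ∘ π₂) ω ≠ (z ∘ π₂) ω' := by
    intro ω ω' hne
    by_contra hcon
    push Not at hcon
    apply hne
    have e1 : ω.1.1 = ω'.1.1 := hy hcon.1
    have e2 : ω.1.2 = ω'.1.2 := hz hcon.2
    exact Subtype.ext (Prod.ext e1 e2)
  have core := path_core hKc hKv x₀ hR hKR p hp (y ∘ π₁) (z ∘ π₂) hsep τ hτm hτ hsum1 hsumτ
    (splitW K π₁ y a p M₁) (splitW K π₂ z c' p M₂)
    (isAssign_split hKc π₁ y hy a _ p hp M₁ hM₁pos hmass₁ hfib₁)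
    (isAssign_split hKc π₂ z hz c' τ p hp M₂ hM₂pos hc' hfib₂)
    (a ∘ π₁) (c' ∘ π₂)
  rw [aval_split hKc π₂ hsurj₂ z hz c' hτm hτb p hp M₂ hM₂pos hc' hfib₂,
    aval_split hKc π₁ hsurj₁ y hy a measurable_const h1b p hp M₁ hM₁pos hmass₁ hfib₁,
    dualVal_comp K π₂ hsurj₂ z c' _ p M₂ hfib₂, dualVal_comp K π₁ hsurj₁ y a _ p M₁ hfib₁,
    dualVal_sub hKc M₂ z c' η hηm hηB s, dualVal_sub hKc M₁ y a η hηm hηB s] at core
  have e1 : ∫ x in K, (τ x - 1) ^ 2 = s ^ 2 * ∫ x in K, η x ^ 2 := by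
    rw [← integral_const_mul]
    congr 1; ext x; simp only [hτdef]; ring
  have e2 : Real.sqrt (momC * R ^ 2 * ∫ x in K, (τ x - 1) ^ 2)
      = s * Real.sqrt (momC * R ^ 2 * ∫ x in K, η x ^ 2) := by
    rw [e1, show momC * R ^ 2 * (s ^ 2 * ∫ x in K, η x ^ 2)
      = s ^ 2 * (momC * R ^ 2 * ∫ x in K, η x ^ 2) by ring, Real.sqrt_mul (sq_nonneg s),
      Real.sqrt_sq hs.le]
  have e3 : ∑ ω, p ω * ‖(z ∘ π₂) ω - (y ∘ π₁) ω‖ ^ 2 = ∑ i, ∑ j, P i j * ‖y i - z j‖ ^ 2 := by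
    have := sum_labels P (fun q => P q.1 q.2 * ‖y q.1 - z q.2‖ ^ 2)
      (fun q hq => by simp [hzero q hq])
    rw [← this]
    refine Finset.sum_congr rfl fun ω _ => ?_
    simp only [hp_def, Function.comp, hπ₁, hπ₂]
    rw [norm_sub_rev]
  rw [e2, e3] at core
  have core' : s * ((∫ x in K, pot z c' x * η x) - ∫ x in K, pot y a x * η x)
      ≤ s * (Real.sqrt (momC * R ^ 2 * ∫ x in K, η x ^ 2)
          * Real.sqrt (∑ i, ∑ j, P i j * ‖y i - z j‖ ^ 2)) := by linarith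
  exact le_of_mul_le_mul_left core' hs

/-- P6 : Lipschitz stability of discrete potentials -/
theorem potential_stability_discrete {I J : Type} [Fintype I] [Fintype J] [Nonempty I] [Nonempty J]
    {K : Set (Eu d)} (hKc : IsCompact K) (hKv : Convex ℝ K) (hKi : (interior K).Nonempty)
    (x₀ : Eu d) {R : ℝ} (hR : 0 < R) (hKR : ∀ x ∈ K, ‖x - x₀‖ ≤ R)
    (y : I → Eu d) (hy : Function.Injective y) (z : J → Eu d) (hz : Function.Injective z)
    (a : I → ℝ) (c : J → ℝ) (P : I → J → ℝ) (hP : ∀ i j, 0 ≤ P i j)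
    (hμ : ∀ i, ∑ j, P i j = (volume (cell K y a i)).toReal)
    (hν : ∀ j, ∑ i, P i j = (volume (cell K z c j)).toReal)
    (hμpos : ∀ i, 0 < volume (cell K y a i)) (hνpos : ∀ j, 0 < volume (cell K z c j)) :
    ∃ κ : ℝ, ∫ x in K, (pot z c x - pot y a x - κ) ^ 2
      ≤ momC * R ^ 2 * ∑ i, ∑ j, P i j * ‖y i - z j‖ ^ 2 := by
  classical
  have hVpos : 0 < (volume K).toReal := by
    refine ENNReal.toReal_pos ?_ hKc.measure_lt_top.ne
    exact ((isOpen_interior.measure_pos volume hKi).trans_le (measure_mono interior_subset)).ne'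
  set V : ℝ := (volume K).toReal with hV
  set u : Eu d → ℝ := fun x => pot z c x - pot y a x with hu
  have huc : Continuous u := (continuous_pot z c).sub (continuous_pot y a)
  set κ : ℝ := (∫ x in K, u x) / V with hκ
  set η : Eu d → ℝ := fun x => u x - κ with hη
  have hηc : Continuous η := huc.sub continuous_const
  have hηm : Measurable η := hηc.measurable
  obtain ⟨B₀, hB₀⟩ := hKc.exists_bound_of_continuousOn hηc.continuousOn
  set B : ℝ := max B₀ 1 with hB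
  have hBpos : 0 < B := lt_of_lt_of_le zero_lt_one (le_max_right _ _)
  have hηB : ∀ x ∈ K, |η x| ≤ B := fun x hx => by
    have := hB₀ x hx
    rw [Real.norm_eq_abs] at this
    exact this.trans (le_max_left _ _)
  have hintu : IntegrableOn u K := huc.continuousOn.integrableOn_compact hKc
  have hintη : IntegrableOn η K := hηc.continuousOn.integrableOn_compact hKc
  have hintc : ∀ t : ℝ, IntegrableOn (fun _ : Eu d => t) K := fun t =>
    integrableOn_const hKc.measure_lt_top.ne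
  have hη0 : ∫ x in K, η x = 0 := by
    simp only [hη]
    rw [integral_sub hintu (hintc κ)]
    simp only [integral_const, MeasurableSet.univ, measureReal_restrict_apply, Set.univ_inter,
      smul_eq_mul]
    rw [hκ]
    have : volume.real K = V := rfl
    rw [this]
    field_simp
    ring
  refine ⟨κ, ?_⟩
  set Q : ℝ := ∫ x in K, η x ^ 2 with hQ
  have hQ0 : 0 ≤ Q := integral_nonneg fun x => sq_nonneg _
  set S : ℝ := ∑ i, ∑ j, P i j * ‖y i - z j‖ ^ 2 with hS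
  have hS0 : 0 ≤ S := Finset.sum_nonneg fun i _ => Finset.sum_nonneg fun j _ =>
    mul_nonneg (hP i j) (sq_nonneg _)
  set A : ℝ := Real.sqrt (momC * R ^ 2 * Q) * Real.sqrt S with hA
  set N1 : ℝ := ∫ x in K, |η x| with hN1
  have hN10 : 0 ≤ N1 := integral_nonneg fun x => abs_nonneg _
  have hint_pη : ∀ {L : Type} [Fintype L] [Nonempty L] (Z : L → Eu d) (h : L → ℝ),
      IntegrableOn (fun x => pot Z h x * η x) K := fun Z h =>
    ((continuous_pot Z h).mul hηc).continuousOn.integrableOn_compact hKc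
  -- main inequality
  have main : (∫ x in K, pot z c x * η x) - ∫ x in K, pot y a x * η x ≤ A := by
    apply le_of_forall_pos_le_add
    intro ε hε
    set γ : ℝ := ε / (N1 + 1) with hγ
    have hγpos : 0 < γ := by positivity
    obtain ⟨s₁, hs₁, hstab⟩ := pot_stability hKc hKv hKi z hz c hνpos η hηm hηB hη0 hγpos
    set s : ℝ := min s₁ (1 / (2 * B)) with hs
    have hspos : 0 < s := lt_min hs₁ (by positivity)
    have hsB : s * B ≤ 1 / 2 := by
      calc s * B ≤ 1 / (2 * B) * B := by gcongr; exact min_le_right _ _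
        _ = 1 / 2 := by field_simp
    -- heights for the perturbed source
    have hτ : ∀ x ∈ K, 1 / 2 ≤ 1 + s * η x ∧ 1 + s * η x ≤ 2 := by
      intro x hx
      have h1 := abs_le.mp (hηB x hx)
      have h2 : s * η x ≤ s * B := by gcongr; exact h1.2
      have h3 : -(s * B) ≤ s * η x := by
        have : s * (-B) ≤ s * η x := by gcongr; exact h1.1
        linarith
      constructor <;> linarith
    have hfinJ : ∀ j, volume (cell K z c j) ≠ ⊤ := fun j =>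
      (measure_mono (cell_subset K z c j)).trans_lt hKc.measure_lt_top |>.ne
    have hsum : ∑ j, (volume (cell K z c j)).toReal = ∫ x in K, (1 + s * η x) := by
      rw [integral_add (hintc 1) (hintη.const_mul s), integral_const_mul, hη0,
        ← sum_integral_cell hKc.measurableSet z hz c _ (hintc 1)]
      simp [Measure.real]
    obtain ⟨c', hc'⟩ := exists_heights hKc (fun x => 1 + s * η x)
      (measurable_const.add (hηm.const_mul s)) hτ z hz
      (fun j => (volume (cell K z c j)).toReal)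
      (fun j => ENNReal.toReal_pos (hνpos j).ne' (hfinJ j)) hsum
    have h2 := stage2 hKc hKv x₀ hR hKR y hy z hz a c P hP hμ hν hμpos hνpos η hηm hηB hη0 hspos hsB
      c' hc'
    obtain ⟨κ', hκ'⟩ := hstab s hspos (min_le_left _ _) c' hc'
    -- compare pot z c' and pot z c
    have h3 : (∫ x in K, pot z c x * η x) - γ * N1 ≤ ∫ x in K, pot z c' x * η x := by
      have e : (∫ x in K, pot z c' x * η x) - ∫ x in K, pot z c x * η x
          = ∫ x in K, (pot z c' x - pot z c x - κ') * η x := by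
        have : (fun x => (pot z c' x - pot z c x - κ') * η x)
            = fun x => pot z c' x * η x - pot z c x * η x - κ' * η x := by ext x; ring
        have i12 : IntegrableOn (fun x => pot z c' x * η x - pot z c x * η x) K :=
          (hint_pη z c').sub (hint_pη z c)
        rw [this, integral_sub i12 (hintη.const_mul κ'),
          integral_sub (hint_pη z c') (hint_pη z c), integral_const_mul, hη0]
        ring
      have hlow : -(γ * N1) ≤ ∫ x in K, (pot z c' x - pot z c x - κ') * η x := by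
        rw [hN1, ← integral_const_mul, ← integral_neg]
        have i3 : IntegrableOn (fun x => (pot z c' x - pot z c x - κ') * η x) K :=
          ((((continuous_pot z c').sub (continuous_pot z c)).sub continuous_const).mul
            hηc).continuousOn.integrableOn_compact hKc
        have i4 : IntegrableOn (fun x => -(γ * |η x|)) K := (hintη.abs.const_mul γ).neg
        apply setIntegral_mono_on i4 i3 hKc.measurableSet
        intro x hx
        have h1 := hκ' x hx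
        have h2 : |(pot z c' x - pot z c x - κ') * η x| ≤ γ * |η x| := by
          rw [abs_mul]; gcongr
        linarith [(abs_le.mp h2).1]
      linarith
    have h4 : γ * N1 ≤ ε := by
      rw [hγ]
      have : N1 / (N1 + 1) ≤ 1 := by rw [div_le_one (by positivity)]; linarith
      calc ε / (N1 + 1) * N1 = ε * (N1 / (N1 + 1)) := by ring
        _ ≤ ε * 1 := by gcongr
        _ = ε := mul_one ε
    linarith
  -- `∫ u η = Q`
  have hQeq : (∫ x in K, pot z c x * η x) - ∫ x in K, pot y a x * η x = Q := by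
    rw [← integral_sub (hint_pη z c) (hint_pη y a)]
    have : (fun x => pot z c x * η x - pot y a x * η x) = fun x => η x ^ 2 + κ * η x := by
      ext x; simp only [hη, hu]; ring
    have i5 : IntegrableOn (fun x => η x ^ 2) K :=
      (hηc.pow 2).continuousOn.integrableOn_compact hKc
    rw [this, integral_add i5 (hintη.const_mul κ), integral_const_mul, hη0]
    ring
  rw [hQeq] at main
  show Q ≤ momC * R ^ 2 * S
  have ha0 : 0 ≤ momC * R ^ 2 := mul_nonneg momC_nonneg (sq_nonneg R)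
  have hsq : Q ^ 2 ≤ (momC * R ^ 2 * Q) * S := by
    calc Q ^ 2 ≤ A ^ 2 := pow_le_pow_left₀ hQ0 main 2
      _ = (momC * R ^ 2 * Q) * S := by
        rw [hA, mul_pow, Real.sq_sqrt (mul_nonneg ha0 hQ0), Real.sq_sqrt hS0]
  rcases hQ0.eq_or_lt with h0 | hpos
  · rw [← h0]; exact mul_nonneg ha0 hS0
  · have : Q * Q ≤ Q * (momC * R ^ 2 * S) := by nlinarith
    exact le_of_mul_le_mul_left this hpos

end Final

end Crest.Agent.OT
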