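import Crest.Agent.Lib_SN_Win

/-!
# S0047 (Snaky): certificates and their checker
-/

set_option autoImplicit false

namespace Crest.Agent.SN

open Crest.CombinatoricsR.PolyominoGame

/-! ## monotonicity of `WinO` -/

theorem WinO.of_copy {M : Finset Cell} (h : ContainsCopy (↑M : Set Cell)) (n : ℕ) (C : Finset Cell) :
    WinO n M C := by
  cases n with
  | zero => exact h
  | succ n => exact Or.inl h

theorem WinO.mono : ∀ (n n' : ℕ) (M M' C C' : Finset Cell), WinO n M C → n ≤ n' → M ⊆ M' →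
    C ⊆ C' → Disjoint M' C → WinO n' M' C' := by
  classical
  intro n
  induction n with
  | zero =>
    intro n' M M' C C' h _ hM _ _
    exact WinO.of_copy (ContainsCopy.mono (Finset.coe_subset.mpr hM) h) n' C'
  | succ n ih =>
    intro n' M M' C C' h hn hM hC hd
    rcases h with h | ⟨m, hmC, hmM, hr⟩
    · exact WinO.of_copy (ContainsCopy.mono (Finset.coe_subset.mpr hM) h) n' C'
    · obtain ⟨n'', rfl⟩ : ∃ n'', n' = n'' + 1 := ⟨n' - 1, by omega⟩
      refine Or.inr ⟨m, hC hmC, fun hm => (Finset.disjoint_left.mp hd hm) hmC, fun r hr' => ?_⟩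
      have hr'' : r ∉ insert m M := fun h => hr' (Finset.insert_subset_insert m hM h)
      obtain ⟨C2, h1, h2, h3⟩ := hr r hr''
      refine ⟨C2, h1.trans (Finset.erase_subset_erase m hC), h2, ?_⟩
      refine ih n'' (insert m M) (insert m M') C2 C2 h3 (by omega)
        (Finset.insert_subset_insert m hM) (Finset.Subset.refl _) ?_
      rw [Finset.disjoint_insert_left]
      refine ⟨fun hm => (Finset.notMem_erase m C) (h1 hm), ?_⟩
      exact Finset.disjoint_of_subset_right (h1.trans (Finset.erase_subset _ _)) hd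

/-! ## coding of cells and of finite sets of cells -/

/-- width of the window. -/
def W : ℕ := 32

theorem W_pos : 0 < W := by decide

/-- the cell with code `c`. -/
def dec (c : ℕ) : Cell := (((c % W : ℕ) : ℤ), ((c / W : ℕ) : ℤ))

theorem dec_injective : Function.Injective dec := by
  intro a b h
  have h1 : a % W = b % W := by
    have : ((a % W : ℕ) : ℤ) = ((b % W : ℕ) : ℤ) := congrArg Prod.fst h
    exact_mod_cast this
  have h2 : a / W = b / W := by
    have : ((a / W : ℕ) : ℤ) = ((b / W : ℕ) : ℤ) := congrArg Prod.snd h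
    exact_mod_cast this
  rw [← Nat.mod_add_div a W, ← Nat.mod_add_div b W, h1, h2]

theorem dec_add (c dx dy : ℕ) (h : c % W + dx < W) :
    dec (c + (dx + W * dy)) = (((c % W : ℕ) : ℤ) + dx, ((c / W : ℕ) : ℤ) + dy) := by
  have e : c + (dx + W * dy) = (c % W + dx) + W * (c / W + dy) := by
    conv_lhs => rw [← Nat.mod_add_div c W]
    ring
  have h1 : (c + (dx + W * dy)) % W = c % W + dx := by
    rw [e, Nat.add_mul_mod_self_left, Nat.mod_eq_of_lt h]
  have h2 : (c + (dx + W * dy)) / W = c / W + dy := by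
    rw [e, Nat.add_mul_div_left _ _ W_pos, Nat.div_eq_of_lt h, zero_add]
  unfold dec
  rw [h1, h2]
  push_cast
  rfl

/-- the set of cells coded by a bit mask. -/
def S (a : ℕ) : Finset Cell := ((Finset.range (a + 1)).filter (fun i => a.testBit i = true)).image dec

theorem mem_S {a : ℕ} {x : Cell} : x ∈ S a ↔ ∃ c, a.testBit c = true ∧ dec c = x := by
  unfold S
  rw [Finset.mem_image]
  constructor
  · rintro ⟨c, hc, rfl⟩
    exact ⟨c, (Finset.mem_filter.mp hc).2, rfl⟩
  · rintro ⟨c, hc, rfl⟩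
    refine ⟨c, Finset.mem_filter.mpr ⟨?_, hc⟩, rfl⟩
    rw [Finset.mem_range]
    by_contra hlt
    have h1 : a < 2 ^ c := lt_of_lt_of_le (by omega : a < c) (Nat.lt_two_pow_self).le
    rw [Nat.testBit_lt_two_pow h1] at hc
    exact Bool.false_ne_true hc

theorem dec_mem_S {a c : ℕ} : dec c ∈ S a ↔ a.testBit c = true := by
  rw [mem_S]
  constructor
  · rintro ⟨c', h, h'⟩
    rwa [← dec_injective h']
  · intro h
    exact ⟨c, h, rfl⟩

theorem S_zero : S 0 = ∅ := by
  ext x
  simp [mem_S]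

theorem S_lor (a b : ℕ) : S (a ||| b) = S a ∪ S b := by
  ext x
  simp only [mem_S, Finset.mem_union, Nat.testBit_lor, Bool.or_eq_true]
  constructor
  · rintro ⟨c, h | h, rfl⟩
    · exact Or.inl ⟨c, h, rfl⟩
    · exact Or.inr ⟨c, h, rfl⟩
  · rintro (⟨c, h, rfl⟩ | ⟨c, h, rfl⟩)
    · exact ⟨c, Or.inl h, rfl⟩
    · exact ⟨c, Or.inr h, rfl⟩

theorem S_land (a b : ℕ) : S (a &&& b) = S a ∩ S b := by
  ext x
  simp only [mem_S, Finset.mem_inter, Nat.testBit_land, Bool.and_eq_true]
  constructor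
  · rintro ⟨c, ⟨h1, h2⟩, rfl⟩
    exact ⟨⟨c, h1, rfl⟩, ⟨c, h2, rfl⟩⟩
  · rintro ⟨⟨c, h1, rfl⟩, ⟨c', h2, h3⟩⟩
    rw [dec_injective h3] at h2
    exact ⟨c, ⟨h1, h2⟩, rfl⟩

theorem S_two_pow (m : ℕ) : S (2 ^ m) = {dec m} := by
  ext x
  simp only [mem_S, Finset.mem_singleton, Nat.testBit_two_pow, decide_eq_true_eq]
  constructor
  · rintro ⟨c, rfl, rfl⟩; rfl
  · rintro rfl; exact ⟨m, rfl, rfl⟩

theorem S_insert (M m : ℕ) : S (M ||| 2 ^ m) = insert (dec m) (S M) := by
  rw [S_lor, S_two_pow, Finset.union_comm]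
  rfl

theorem S_subset {a b : ℕ} (h : a &&& b = a) : S a ⊆ S b := by
  rw [← h, S_land]
  exact Finset.inter_subset_right

theorem S_disjoint {a b : ℕ} (h : a &&& b = 0) : Disjoint (S a) (S b) := by
  rw [Finset.disjoint_iff_inter_eq_empty, ← S_land, h, S_zero]

/-! ## leaves -/

/-- the eight placements, as offsets from the lower left corner of the bounding box. -/
def offs : ℕ → List (ℕ × ℕ)
  | 0 => [(0,0),(1,0),(2,0),(3,0),(3,1),(4,1)]
  | 1 => [(4,0),(3,0),(2,0),(1,0),(1,1),(0,1)]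
  | 2 => [(0,1),(1,1),(2,1),(3,1),(3,0),(4,0)]
  | 3 => [(4,1),(3,1),(2,1),(1,1),(1,0),(0,0)]
  | 4 => [(0,0),(0,1),(0,2),(0,3),(1,3),(1,4)]
  | 5 => [(1,0),(1,1),(1,2),(1,3),(0,3),(0,4)]
  | 6 => [(0,4),(0,3),(0,2),(0,1),(1,1),(1,0)]
  | 7 => [(1,4),(1,3),(1,2),(1,1),(0,1),(0,0)]
  | _ => []

theorem copy_of1 (X : Set Cell) (cx cy : ℤ) (l : List (ℕ × ℕ))
    (H : ∀ d ∈ l, (cx + (d.1 : ℤ), cy + (d.2 : ℤ)) ∈ X) (a b ε1 ε2 : ℤ)
    (h1 : ε1 = 1 ∨ ε1 = -1) (h2 : ε2 = 1 ∨ ε2 = -1)
    (hdec : ∀ p ∈ snaky, ∃ d ∈ l, a + ε1 * p.1 = (d.1 : ℤ) ∧ b + ε2 * p.2 = (d.2 : ℤ)) :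
    ContainsCopy X := by
  refine ⟨(cx + a, cy + b), ε1, ε2, h1, h2, Or.inl fun p hp => ?_⟩
  obtain ⟨d, hd, e1, e2⟩ := hdec p hp
  have := H d hd
  rw [← e1, ← e2] at this
  convert this using 2 <;> ring

theorem copy_of2 (X : Set Cell) (cx cy : ℤ) (l : List (ℕ × ℕ))
    (H : ∀ d ∈ l, (cx + (d.1 : ℤ), cy + (d.2 : ℤ)) ∈ X) (a b ε1 ε2 : ℤ)
    (h1 : ε1 = 1 ∨ ε1 = -1) (h2 : ε2 = 1 ∨ ε2 = -1)
    (hdec : ∀ p ∈ snaky, ∃ d ∈ l, a + ε1 * p.2 = (d.1 : ℤ) ∧ b + ε2 * p.1 = (d.2 : ℤ)) :
    ContainsCopy X := by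
  refine ⟨(cx + a, cy + b), ε1, ε2, h1, h2, Or.inr fun p hp => ?_⟩
  obtain ⟨d, hd, e1, e2⟩ := hdec p hp
  have := H d hd
  rw [← e1, ← e2] at this
  convert this using 2 <;> ring

theorem copy_of_offs (X : Set Cell) (cx cy : ℤ) (o : ℕ) (ho : o < 8)
    (H : ∀ d ∈ offs o, (cx + (d.1 : ℤ), cy + (d.2 : ℤ)) ∈ X) : ContainsCopy X := by
  interval_cases o
  · exact copy_of1 X cx cy _ H 0 0 1 1 (Or.inl rfl) (Or.inl rfl) (by decide)
  · exact copy_of1 X cx cy _ H 4 0 (-1) 1 (Or.inr rfl) (Or.inl rfl) (by decide)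
  · exact copy_of1 X cx cy _ H 0 1 1 (-1) (Or.inl rfl) (Or.inr rfl) (by decide)
  · exact copy_of1 X cx cy _ H 4 1 (-1) (-1) (Or.inr rfl) (Or.inr rfl) (by decide)
  · exact copy_of2 X cx cy _ H 0 0 1 1 (Or.inl rfl) (Or.inl rfl) (by decide)
  · exact copy_of2 X cx cy _ H 1 0 (-1) 1 (Or.inr rfl) (Or.inl rfl) (by decide)
  · exact copy_of2 X cx cy _ H 0 4 1 (-1) (Or.inl rfl) (Or.inr rfl) (by decide)
  · exact copy_of2 X cx cy _ H 1 4 (-1) (-1) (Or.inr rfl) (Or.inr rfl) (by decide)

/-- mask of a placement anchored at code `0`. -/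
def pm (o : ℕ) : ℕ := (offs o).foldr (fun (d : ℕ × ℕ) (a : ℕ) => 2 ^ (d.1 + W * d.2) ||| a) 0

theorem testBit_foldr (l : List (ℕ × ℕ)) (d : ℕ × ℕ) (hd : d ∈ l) :
    (l.foldr (fun (d : ℕ × ℕ) (a : ℕ) => 2 ^ (d.1 + W * d.2) ||| a) 0).testBit
      (d.1 + W * d.2) = true := by
  induction l with
  | nil => simp at hd
  | cons e l ih =>
    rw [List.foldr_cons, Nat.testBit_lor]
    rcases List.mem_cons.mp hd with rfl | h
    · simp
    · rw [ih h, Bool.or_true]

/-- leaf test. -/
def leafOK (M c o : ℕ) : Bool :=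
  ((M >>> c) &&& pm o == pm o) && (decide (c % W + 4 < W) && decide (o < 8))

theorem leafOK_sound {M c o : ℕ} (h : leafOK M c o = true) : ContainsCopy (↑(S M) : Set Cell) := by
  unfold leafOK at h
  simp only [Bool.and_eq_true, beq_iff_eq, decide_eq_true_eq] at h
  obtain ⟨h1, h2, h3⟩ := h
  apply copy_of_offs _ ((c % W : ℕ) : ℤ) ((c / W : ℕ) : ℤ) o h3
  intro d hd
  have hd4 : d.1 ≤ 4 := by
    interval_cases o <;> simp only [offs, List.mem_cons, List.not_mem_nil, or_false] at hd <;>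
      rcases hd with rfl | rfl | rfl | rfl | rfl | rfl <;> simp
  rw [← dec_add c d.1 d.2 (by omega), Finset.mem_coe, dec_mem_S]
  have h4 := testBit_foldr (offs o) d hd
  change (pm o).testBit (d.1 + W * d.2) = true at h4
  rw [← h1, Nat.testBit_land, Nat.testBit_shiftRight, Bool.and_eq_true] at h4
  exact h4.1

/-! ## certificates -/

/-- certificates: `leaf c o` (a placement is complete), `ref i` (an already proved position, looked
up in the environment), `move m t` (Maker claims `m`; `t` handles the replies),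
`branch a b` (alternatives: a reply is answered inside an alternative not using that cell). -/
inductive Cert : Type
  | leaf (c o : ℕ) : Cert
  | ref (i : ℕ) : Cert
  | move (m : ℕ) (t : Cert) : Cert
  | branch (a b : Cert) : Cert

/-- an already proved position: Maker stones, usable cells, number of claims. -/
structure Pos where
  M : ℕ
  C : ℕ
  n : ℕ

def Pos.Valid (e : Pos) : Prop := WinO e.n (S e.M) (S e.C)

/-- evaluate `x` first (for kernel evaluation). -/
def force {α : Type} (x : ℕ) (k : ℕ → α) : α :=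
  match x with
  | 0 => k 0
  | y + 1 => k (y + 1)

theorem force_eq {α : Type} (x : ℕ) (k : ℕ → α) : force x k = k x := by
  cases x <;> rfl

/-- the checker, in continuation passing style; the continuation receives the mask of the cells
used by the certificate and the mask of the replies which it does not handle. -/
def chk (env : List Pos) : Cert → ℕ → ℕ → (ℕ → ℕ → Bool) → Bool
  | .leaf c o, M, _, k => leafOK M c o && k 0 0
  | .ref i, M, n, k =>
    match env[i]? with
    | none => false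
    | some e => (e.M &&& M == e.M) && ((M &&& e.C == 0) && (decide (e.n ≤ n) && k e.C e.C))
  | .move m t, M, n, k =>
    match n with
    | 0 => false
    | n' + 1 => !(M.testBit m) && force (M ||| 2 ^ m) fun M' =>
        chk env t M' n' fun c u => (u == 0) && (!(c.testBit m) && force (c ||| 2 ^ m) fun c' => k c' c')
  | .branch a b, M, n, k =>
    chk env a M n fun c1 u1 => chk env b M n fun c2 u2 =>
      force (c1 ||| c2) fun c => force (u1 &&& u2) fun u => k c u

/-- what a certificate proves. -/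
def Good (M n c u : ℕ) : Prop :=
  ∀ r, r ∉ S u → ∃ C2, C2 ⊆ S c ∧ r ∉ C2 ∧ WinO n (S M) C2

theorem chk_sound (env : List Pos) (henv : ∀ e ∈ env, e.Valid) :
    ∀ (t : Cert) (M n : ℕ) (k : ℕ → ℕ → Bool), chk env t M n k = true →
      ∃ c u, k c u = true ∧ Good M n c u := by
  classical
  intro t
  induction t with
  | leaf c o =>
    intro M n k h
    simp only [chk, Bool.and_eq_true] at h
    refine ⟨0, 0, h.2, fun r _ => ⟨∅, Finset.empty_subset _, Finset.notMem_empty r, ?_⟩⟩
    exact WinO.of_copy (leafOK_sound h.1) n ∅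
  | ref i =>
    intro M n k h
    simp only [chk] at h
    cases he : env[i]? with
    | none => rw [he] at h; exact absurd h Bool.false_ne_true
    | some e =>
      rw [he] at h
      simp only [Bool.and_eq_true, beq_iff_eq, decide_eq_true_eq] at h
      obtain ⟨h1, h2, h3, h4⟩ := h
      refine ⟨e.C, e.C, h4, fun r hr => ⟨S e.C, Finset.Subset.refl _, hr, ?_⟩⟩
      have hv : e.Valid := henv e (List.mem_of_getElem? he)
      exact WinO.mono e.n n (S e.M) (S M) (S e.C) (S e.C) hv h3 (S_subset h1)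
        (Finset.Subset.refl _) (S_disjoint h2)
  | move m t ih =>
    intro M n k h
    cases n with
    | zero => simp only [chk] at h; exact absurd h Bool.false_ne_true
    | succ n =>
      simp only [chk, force_eq, Bool.and_eq_true, Bool.not_eq_true'] at h
      obtain ⟨hm, h⟩ := h
      obtain ⟨c, u, hk, hg⟩ := ih _ _ _ h
      simp only [Bool.and_eq_true, beq_iff_eq, Bool.not_eq_true'] at hk
      obtain ⟨hu, hc, hk⟩ := hk
      subst hu
      refine ⟨_, _, hk, fun r hr => ⟨S (c ||| 2 ^ m), Finset.Subset.refl _, hr, ?_⟩⟩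
      refine Or.inr ⟨dec m, ?_, ?_, fun r' _ => ?_⟩
      · rw [S_insert]; exact Finset.mem_insert_self _ _
      · rw [dec_mem_S, hm]; exact Bool.false_ne_true
      · obtain ⟨C2, h1, h2, h3⟩ := hg r' (by rw [S_zero]; exact Finset.notMem_empty r')
        refine ⟨C2, ?_, h2, ?_⟩
        · intro x hx
          rw [Finset.mem_erase, S_insert]
          refine ⟨?_, Finset.mem_insert_of_mem (h1 hx)⟩
          rintro rfl
          have := h1 hx
          rw [dec_mem_S, hc] at this
          exact Bool.false_ne_true this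
        · rwa [S_insert] at h3
  | branch a b iha ihb =>
    intro M n k h
    simp only [chk] at h
    obtain ⟨c1, u1, h, hg1⟩ := iha _ _ _ h
    obtain ⟨c2, u2, h, hg2⟩ := ihb _ _ _ h
    simp only [force_eq] at h
    refine ⟨_, _, h, fun r hr => ?_⟩
    rw [S_land, Finset.mem_inter, not_and_or] at hr
    rcases hr with hr | hr
    · obtain ⟨C2, h1, h2, h3⟩ := hg1 r hr
      exact ⟨C2, h1.trans (by rw [S_lor]; exact Finset.subset_union_left), h2, h3⟩
    · obtain ⟨C2, h1, h2, h3⟩ := hg2 r hr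
      exact ⟨C2, h1.trans (by rw [S_lor]; exact Finset.subset_union_right), h2, h3⟩

/-- a checked certificate proves a position. -/
theorem pos_of_chk (env : List Pos) (henv : ∀ e ∈ env, e.Valid) (t : Cert) (e : Pos)
    (h : chk env t e.M e.n (fun c _ => c &&& e.C == c) = true) : e.Valid := by
  classical
  obtain ⟨c, u, hk, hg⟩ := chk_sound env henv t _ _ _ h
  obtain ⟨r, hr⟩ := Infinite.exists_notMem_finset (S u ∪ S e.M)
  rw [Finset.mem_union, not_or] at hr
  obtain ⟨C2, h1, _, h3⟩ := hg r hr.1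
  rw [beq_iff_eq] at hk
  -- enlarge the set of usable cells
  have hmono : ∀ (n : ℕ) (M C C' : Finset Cell), WinO n M C → C ⊆ C' → WinO n M C' := by
    intro n
    induction n with
    | zero => intro M C C' h _; exact h
    | succ n ih =>
      intro M C C' h hC
      rcases h with h | ⟨m, hmC, hmM, hr⟩
      · exact Or.inl h
      · refine Or.inr ⟨m, hC hmC, hmM, fun r hr' => ?_⟩
        obtain ⟨C2, h1, h2, h3⟩ := hr r hr'
        exact ⟨C2, h1.trans (Finset.erase_subset_erase m hC), h2, h3⟩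
  exact hmono _ _ _ _ h3 (h1.trans (S_subset hk))

/-- the statement of S0047 from a proved root position. -/
theorem final_of_pos (e : Pos) (hM : e.M = 0) (hn : e.n ≤ 21) (h : e.Valid) :
    ∃ σ : List (ℤ × ℤ) → ℤ × ℤ, ∀ b : ℕ → ℤ × ℤ,
      (∀ k : ℕ, k < 20 →
        (∀ j : ℕ, j ≤ k → b k ≠ makerClaim σ b j) ∧
        (∀ j : ℕ, j < k → b k ≠ b j)) →
      (∀ k : ℕ, k ≤ 20 →
        (∀ j : ℕ, j < k → makerClaim σ b k ≠ makerClaim σ b j) ∧
        (∀ j : ℕ, j < k → makerClaim σ b k ≠ b j)) ∧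
      ContainsCopy {c | ∃ j : ℕ, j ≤ 20 ∧ c = makerClaim σ b j} := by
  unfold Pos.Valid at h
  rw [hM, S_zero] at h
  exact final (S e.C) (WinO.mono e.n 21 ∅ ∅ (S e.C) (S e.C) h hn (Finset.Subset.refl _)
    (Finset.Subset.refl _) (Finset.disjoint_empty_left _))

theorem forall_nil : ∀ e ∈ ([] : List Pos), e.Valid := by
  intro e he
  simp at he

theorem forall_cons {e : Pos} {l : List Pos} (h : e.Valid) (hl : ∀ e ∈ l, e.Valid) :
    ∀ e' ∈ e :: l, e'.Valid := by
  intro e' he
  rcases List.mem_cons.mp he with rfl | he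
  · exact h
  · exact hl e' he

end Crest.Agent.SN
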