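import Crest.Agent.Lib_SN_Check

/-!
# S0047 (Snaky): symmetric images of proved positions
-/

set_option autoImplicit false

namespace Crest.Agent.SN

open Crest.CombinatoricsR.PolyominoGame

/-- affine signed coordinate permutation. -/
def aff (s : Bool) (e1 e2 a b : ℤ) (p : Cell) : Cell :=
  if s then (a + e1 * p.2, b + e2 * p.1) else (a + e1 * p.1, b + e2 * p.2)

theorem sign_mul {e ε : ℤ} (h : e = 1 ∨ e = -1) (h' : ε = 1 ∨ ε = -1) :
    e * ε = 1 ∨ e * ε = -1 := by
  rcases h with rfl | rfl <;> rcases h' with rfl | rfl <;> simp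

theorem aff_bijective (s : Bool) {e1 e2 : ℤ} (a b : ℤ) (h1 : e1 = 1 ∨ e1 = -1)
    (h2 : e2 = 1 ∨ e2 = -1) : Function.Bijective (aff s e1 e2 a b) := by
  have q1 : e1 * e1 = 1 := by rcases h1 with rfl | rfl <;> simp
  have q2 : e2 * e2 = 1 := by rcases h2 with rfl | rfl <;> simp
  rw [Function.bijective_iff_has_inverse]
  cases s with
  | false =>
    refine ⟨fun q => (e1 * (q.1 - a), e2 * (q.2 - b)), fun p => ?_, fun q => ?_⟩
    · apply Prod.ext
      · show e1 * (a + e1 * p.1 - a) = p.1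
        linear_combination p.1 * q1
      · show e2 * (b + e2 * p.2 - b) = p.2
        linear_combination p.2 * q2
    · apply Prod.ext
      · show a + e1 * (e1 * (q.1 - a)) = q.1
        linear_combination (q.1 - a) * q1
      · show b + e2 * (e2 * (q.2 - b)) = q.2
        linear_combination (q.2 - b) * q2
  | true =>
    refine ⟨fun q => (e2 * (q.2 - b), e1 * (q.1 - a)), fun p => ?_, fun q => ?_⟩
    · apply Prod.ext
      · show e2 * (b + e2 * p.1 - b) = p.1
        linear_combination p.1 * q2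
      · show e1 * (a + e1 * p.2 - a) = p.2
        linear_combination p.2 * q1
    · apply Prod.ext
      · show a + e1 * (e1 * (q.1 - a)) = q.1
        linear_combination (q.1 - a) * q1
      · show b + e2 * (e2 * (q.2 - b)) = q.2
        linear_combination (q.2 - b) * q2

theorem ContainsCopy.aff {X : Set Cell} (s : Bool) {e1 e2 : ℤ} (a b : ℤ) (h1 : e1 = 1 ∨ e1 = -1)
    (h2 : e2 = 1 ∨ e2 = -1) (hX : ContainsCopy X) : ContainsCopy (SN.aff s e1 e2 a b '' X) := by
  obtain ⟨t, ε1, ε2, g1, g2, h3⟩ := hX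
  cases s with
  | false =>
    refine ⟨(a + e1 * t.1, b + e2 * t.2), e1 * ε1, e2 * ε2, sign_mul h1 g1, sign_mul h2 g2, ?_⟩
    rcases h3 with h3 | h3
    · refine Or.inl fun p hp => ⟨_, h3 p hp, ?_⟩
      apply Prod.ext
      · show a + e1 * (t.1 + ε1 * p.1) = a + e1 * t.1 + e1 * ε1 * p.1
        ring
      · show b + e2 * (t.2 + ε2 * p.2) = b + e2 * t.2 + e2 * ε2 * p.2
        ring
    · refine Or.inr fun p hp => ⟨_, h3 p hp, ?_⟩
      apply Prod.ext
      · show a + e1 * (t.1 + ε1 * p.2) = a + e1 * t.1 + e1 * ε1 * p.2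
        ring
      · show b + e2 * (t.2 + ε2 * p.1) = b + e2 * t.2 + e2 * ε2 * p.1
        ring
  | true =>
    refine ⟨(a + e1 * t.2, b + e2 * t.1), e1 * ε2, e2 * ε1, sign_mul h1 g2, sign_mul h2 g1, ?_⟩
    rcases h3 with h3 | h3
    · refine Or.inr fun p hp => ⟨_, h3 p hp, ?_⟩
      apply Prod.ext
      · show a + e1 * (t.2 + ε2 * p.2) = a + e1 * t.2 + e1 * ε2 * p.2
        ring
      · show b + e2 * (t.1 + ε1 * p.1) = b + e2 * t.1 + e2 * ε1 * p.1
        ring
    · refine Or.inl fun p hp => ⟨_, h3 p hp, ?_⟩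
      apply Prod.ext
      · show a + e1 * (t.2 + ε2 * p.1) = a + e1 * t.2 + e1 * ε2 * p.1
        ring
      · show b + e2 * (t.1 + ε1 * p.2) = b + e2 * t.1 + e2 * ε1 * p.2
        ring

/-- transport of `WinO` along a symmetry of the game. -/
theorem WinO.image (φ : Cell → Cell) (hφ : Function.Bijective φ)
    (hc : ∀ X : Set Cell, ContainsCopy X → ContainsCopy (φ '' X)) :
    ∀ (n : ℕ) (M C : Finset Cell), WinO n M C → WinO n (M.image φ) (C.image φ) := by
  classical
  intro n
  induction n with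
  | zero =>
    intro M C h
    have := hc _ h
    rwa [← Finset.coe_image] at this
  | succ n ih =>
    intro M C h
    rcases h with h | ⟨m, hmC, hmM, hr⟩
    · refine Or.inl ?_
      have := hc _ h
      rwa [← Finset.coe_image] at this
    · refine Or.inr ⟨φ m, Finset.mem_image_of_mem φ hmC, ?_, fun r hr' => ?_⟩
      · intro hm
        obtain ⟨m', hm', e⟩ := Finset.mem_image.mp hm
        rw [hφ.1 e] at hm'
        exact hmM hm'
      · obtain ⟨r0, rfl⟩ := hφ.2 r
        rw [← Finset.image_insert] at hr'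
        have hr0 : r0 ∉ insert m M := fun h => hr' (Finset.mem_image_of_mem φ h)
        obtain ⟨C2, h1, h2, h3⟩ := hr r0 hr0
        refine ⟨C2.image φ, ?_, ?_, ?_⟩
        · intro x hx
          obtain ⟨x0, hx0, rfl⟩ := Finset.mem_image.mp hx
          have := h1 hx0
          rw [Finset.mem_erase] at this ⊢
          exact ⟨fun e => this.1 (hφ.1 e), Finset.mem_image_of_mem φ this.2⟩
        · intro hx
          obtain ⟨x0, hx0, e⟩ := Finset.mem_image.mp hx
          rw [hφ.1 e] at hx0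
          exact h2 hx0
        · rw [← Finset.image_insert]
          exact ih _ _ h3

/-! ## masks -/

/-- image of a mask under a map of codes. -/
def mapMask (f : ℕ → ℕ) (a : ℕ) : ℕ :=
  (List.range 1024).foldr (fun i acc => if a.testBit i = true then 2 ^ (f i) ||| acc else acc) 0

theorem testBit_foldr_map (f : ℕ → ℕ) (a : ℕ) (l : List ℕ) (c : ℕ) :
    (l.foldr (fun i acc => if a.testBit i = true then 2 ^ (f i) ||| acc else acc) 0).testBit c = true
      ↔ ∃ i ∈ l, a.testBit i = true ∧ f i = c := by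
  induction l with
  | nil => simp
  | cons j l ih =>
    rw [List.foldr_cons]
    by_cases hj : a.testBit j = true
    · rw [if_pos hj, Nat.testBit_lor, Bool.or_eq_true, ih, Nat.testBit_two_pow, decide_eq_true_eq]
      constructor
      · rintro (h | ⟨i, hi, h⟩)
        · exact ⟨j, List.mem_cons_self, hj, h⟩
        · exact ⟨i, List.mem_cons_of_mem _ hi, h⟩
      · rintro ⟨i, hi, h1, h2⟩
        rcases List.mem_cons.mp hi with rfl | hi
        · exact Or.inl h2
        · exact Or.inr ⟨i, hi, h1, h2⟩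
    · rw [if_neg hj, ih]
      constructor
      · rintro ⟨i, hi, h⟩
        exact ⟨i, List.mem_cons_of_mem _ hi, h⟩
      · rintro ⟨i, hi, h1, h2⟩
        rcases List.mem_cons.mp hi with rfl | hi
        · exact absurd h1 hj
        · exact ⟨i, hi, h1, h2⟩

/-- code of a cell (meaningful for `0 ≤ x < W`, `0 ≤ y`). -/
def enc (q : Cell) : ℕ := q.1.toNat + W * q.2.toNat

/-- the cell lies in the window. -/
def inWin (q : Cell) : Bool := decide (0 ≤ q.1) && (decide (q.1 < (W : ℤ)) && decide (0 ≤ q.2))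

theorem dec_enc {q : Cell} (h : inWin q = true) : dec (enc q) = q := by
  unfold inWin at h
  simp only [Bool.and_eq_true, decide_eq_true_eq] at h
  obtain ⟨h1, h2, h3⟩ := h
  have hlt : q.1.toNat < W := by
    have : ((q.1.toNat : ℕ) : ℤ) < (W : ℤ) := by rw [Int.toNat_of_nonneg h1]; exact h2
    exact_mod_cast this
  have := dec_add 0 q.1.toNat q.2.toNat (by simpa using hlt)
  unfold enc
  rw [zero_add] at this
  rw [this]
  apply Prod.ext
  · simp [Int.toNat_of_nonneg h1]
  · simp [Int.toNat_of_nonneg h3]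

/-- all cells of the mask stay in the window under `φ`. -/
def okMask (φ : Cell → Cell) (a : ℕ) : Bool :=
  decide (a < 2 ^ 1024) && (List.range 1024).all (fun i => !(a.testBit i) || inWin (φ (dec i)))

theorem S_mapMask (φ : Cell → Cell) (a : ℕ) (h : okMask φ a = true) :
    S (mapMask (fun i => enc (φ (dec i))) a) = (S a).image φ := by
  classical
  unfold okMask at h
  rw [Bool.and_eq_true, decide_eq_true_eq, List.all_eq_true] at h
  obtain ⟨hlt, hall⟩ := h
  have hi : ∀ i, a.testBit i = true → i < 1024 := by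
    intro i hi
    by_contra hcon
    have : a < 2 ^ i := lt_of_lt_of_le hlt (Nat.pow_le_pow_right (by norm_num) (by omega))
    rw [Nat.testBit_lt_two_pow this] at hi
    exact Bool.false_ne_true hi
  have hgood : ∀ i, a.testBit i = true → dec (enc (φ (dec i))) = φ (dec i) := by
    intro i h1
    have := hall i (List.mem_range.mpr (hi i h1))
    rw [h1] at this
    exact dec_enc (by simpa using this)
  ext x
  rw [mem_S, Finset.mem_image]
  constructor
  · rintro ⟨c, hc, rfl⟩
    obtain ⟨i, _, h1, rfl⟩ := (testBit_foldr_map _ a _ c).mp hc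
    exact ⟨dec i, dec_mem_S.mpr h1, (hgood i h1).symm⟩
  · rintro ⟨y, hy, rfl⟩
    obtain ⟨i, h1, rfl⟩ := mem_S.mp hy
    exact ⟨enc (φ (dec i)), (testBit_foldr_map _ a _ _).mpr ⟨i, List.mem_range.mpr (hi i h1), h1, rfl⟩,
      hgood i h1⟩

/-- the eight symmetries about the centre `(14, 16)` of the window. -/
def sym : ℕ → Cell → Cell
  | 0 => aff false 1 1 0 0
  | 1 => aff false (-1) 1 28 0
  | 2 => aff false 1 (-1) 0 32
  | 3 => aff false (-1) (-1) 28 32
  | 4 => aff true 1 1 (-2) 2
  | 5 => aff true (-1) 1 30 2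
  | 6 => aff true 1 (-1) (-2) 30
  | _ => aff true (-1) (-1) 30 30

theorem sym_spec (g : ℕ) : Function.Bijective (sym g) ∧
    ∀ X : Set Cell, ContainsCopy X → ContainsCopy (sym g '' X) := by
  have p1 : (1 : ℤ) = 1 ∨ (1 : ℤ) = -1 := Or.inl rfl
  have m1 : (-1 : ℤ) = 1 ∨ (-1 : ℤ) = -1 := Or.inr rfl
  match g with
  | 0 => exact ⟨aff_bijective _ _ _ p1 p1, fun X h => ContainsCopy.aff _ _ _ p1 p1 h⟩
  | 1 => exact ⟨aff_bijective _ _ _ m1 p1, fun X h => ContainsCopy.aff _ _ _ m1 p1 h⟩
  | 2 => exact ⟨aff_bijective _ _ _ p1 m1, fun X h => ContainsCopy.aff _ _ _ p1 m1 h⟩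
  | 3 => exact ⟨aff_bijective _ _ _ m1 m1, fun X h => ContainsCopy.aff _ _ _ m1 m1 h⟩
  | 4 => exact ⟨aff_bijective _ _ _ p1 p1, fun X h => ContainsCopy.aff _ _ _ p1 p1 h⟩
  | 5 => exact ⟨aff_bijective _ _ _ m1 p1, fun X h => ContainsCopy.aff _ _ _ m1 p1 h⟩
  | 6 => exact ⟨aff_bijective _ _ _ p1 m1, fun X h => ContainsCopy.aff _ _ _ p1 m1 h⟩
  | (n + 7) => exact ⟨aff_bijective _ _ _ m1 m1, fun X h => ContainsCopy.aff _ _ _ m1 m1 h⟩

attribute [irreducible] mapMask okMask

theorem Pos.valid_mk (M C n : ℕ) : (Pos.mk M C n).Valid ↔ WinO n (S M) (S C) := Iff.rfl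

/-- image of a position under a symmetry. -/
def Pos.map (g : ℕ) (e : Pos) : Pos :=
  ⟨mapMask (fun i => enc (sym g (dec i))) e.M, mapMask (fun i => enc (sym g (dec i))) e.C, e.n⟩

theorem Pos.Valid.map {e : Pos} (h : e.Valid) (g : ℕ) (hM : okMask (sym g) e.M = true)
    (hC : okMask (sym g) e.C = true) : (e.map g).Valid := by
  have h1 : WinO e.n ((S e.M).image (sym g)) ((S e.C).image (sym g)) :=
    WinO.image (sym g) (sym_spec g).1 (sym_spec g).2 _ _ _ h
  rw [← S_mapMask _ _ hM, ← S_mapMask _ _ hC] at h1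
  unfold Pos.map
  exact (Pos.valid_mk _ _ _).mpr h1

end Crest.Agent.SN
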