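import Crest.Prelude.Def_PolyominoGame

/-!
# S0047 (Snaky): semantic layer

`WinO n M C` : Maker (to move, owning the cells `M`) wins with at most `n` more claims, using only
cells of `C`, provided no Breaker stone lies in `C`.
-/

set_option autoImplicit false

namespace Crest.Agent.SN

open Crest.CombinatoricsR.PolyominoGame

abbrev Cell := ℤ × ℤ

/-- Maker to move wins within `n` further claims, all taken in `C`. -/
def WinO : ℕ → Finset Cell → Finset Cell → Prop
  | 0, M, _ => ContainsCopy (↑M : Set Cell)
  | n + 1, M, C => ContainsCopy (↑M : Set Cell) ∨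
      ∃ m ∈ C, m ∉ M ∧ ∀ r, r ∉ insert m M →
        ∃ C2, C2 ⊆ C.erase m ∧ r ∉ C2 ∧ WinO n (insert m M) C2

theorem ContainsCopy.mono {X Y : Set Cell} (h : X ⊆ Y) (hX : ContainsCopy X) : ContainsCopy Y := by
  obtain ⟨t, e1, e2, h1, h2, h3⟩ := hX
  refine ⟨t, e1, e2, h1, h2, ?_⟩
  rcases h3 with h3 | h3
  · exact Or.inl fun p hp => h (h3 p hp)
  · exact Or.inr fun p hp => h (h3 p hp)

theorem makerClaim_zero (σ : List Cell → Cell) (b : ℕ → Cell) : makerClaim σ b 0 = σ [] := rfl

theorem makerClaim_succ (σ : List Cell → Cell) (b : ℕ → Cell) (k : ℕ) :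
    makerClaim σ b (k + 1) = makerClaim (fun l => σ (b 0 :: l)) (fun i => b (i + 1)) k := by
  unfold makerClaim
  rw [List.range_succ_eq_map, List.map_cons, List.map_map]
  rfl

/-- padding: fresh claims for ever. -/
theorem exists_padding (F : Finset Cell) : ∃ σ : List Cell → Cell, ∀ b : ℕ → Cell, ∀ k : ℕ,
    makerClaim σ b k ∉ F ∧ (∀ j, j < k → makerClaim σ b k ≠ makerClaim σ b j) ∧
      (∀ j, j < k → makerClaim σ b k ≠ b j) := by
  classical
  set K : ℤ := 1 + ∑ c ∈ F, |c.1| with hK
  refine ⟨fun l => (K + l.length + (l.map (fun c : Cell => |c.1|)).sum, 0), fun b => ?_⟩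
  set g : ℕ → ℤ := fun k => (((List.range k).map b).map (fun c : Cell => |c.1|)).sum with hg
  have hg0 : g 0 = 0 := by simp [hg]
  have hgs : ∀ k, g (k + 1) = g k + |(b k).1| := by
    intro k
    simp [hg, List.range_succ]
  have hgnn : ∀ k, 0 ≤ g k := by
    intro k
    induction k with
    | zero => rw [hg0]
    | succ k ih => rw [hgs]; positivity
  have hmc : ∀ k, makerClaim (fun l : List Cell => ((K + l.length +
      (l.map (fun c : Cell => |c.1|)).sum, 0) : Cell)) b k = (K + k + g k, 0) := by
    intro k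
    simp [makerClaim, hg]
  have hmono : StrictMono (fun k : ℕ => K + k + g k) := by
    apply strictMono_nat_of_lt_succ
    intro k
    have := abs_nonneg (b k).1
    simp only [hgs]
    push_cast
    linarith
  have hKpos : 1 ≤ K := by
    have : 0 ≤ ∑ c ∈ F, |c.1| := Finset.sum_nonneg fun c _ => abs_nonneg _
    linarith
  intro k
  rw [hmc]
  refine ⟨?_, ?_, ?_⟩
  · intro hmem
    have h1 : |(K + k + g k : ℤ)| ≤ ∑ c ∈ F, |c.1| :=
      Finset.single_le_sum (f := fun c : Cell => |c.1|) (fun c _ => abs_nonneg _) hmem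
    have h2 := le_abs_self (K + k + g k : ℤ)
    have h3 := hgnn k
    have h4 : (0 : ℤ) ≤ k := Int.natCast_nonneg k
    linarith
  · intro j hj
    rw [hmc]
    intro h
    have h1 := congrArg Prod.fst h
    exact absurd h1 (ne_of_gt (hmono hj))
  · intro j hj h
    have h1 : K + k + g k = (b j).1 := congrArg Prod.fst h
    have h2 : K + (j + 1 : ℕ) + g (j + 1) ≤ K + k + g k := hmono.monotone hj
    rw [hgs] at h2
    have h3 := le_abs_self (b j).1
    have h4 := hgnn j
    push_cast at h2
    have h5 : (0 : ℤ) ≤ j := Int.natCast_nonneg j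
    linarith

theorem WinO.strategy : ∀ (n : ℕ) (M C B : Finset Cell), WinO n M C → Disjoint B C →
    ∃ σ : List Cell → Cell, ∀ b : ℕ → Cell,
      (∀ k, k + 1 < n → b k ∉ M ∧ ∀ j, j ≤ k → b k ≠ makerClaim σ b j) →
      (∀ k, k < n → makerClaim σ b k ∉ M ∧ makerClaim σ b k ∉ B ∧
        (∀ j, j < k → makerClaim σ b k ≠ makerClaim σ b j) ∧
        (∀ j, j < k → makerClaim σ b k ≠ b j)) ∧
      ContainsCopy ((↑M : Set Cell) ∪ {c | ∃ j, j < n ∧ c = makerClaim σ b j}) := by
  classical
  intro n
  induction n with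
  | zero =>
    intro M C B h _
    exact ⟨fun _ => (0, 0), fun b _ => ⟨fun k hk => absurd hk (Nat.not_lt_zero k),
      ContainsCopy.mono Set.subset_union_left h⟩⟩
  | succ n ih =>
    intro M C B h hB
    rcases h with h | ⟨m, hmC, hmM, hr⟩
    · obtain ⟨σ, hσ⟩ := exists_padding (M ∪ B)
      refine ⟨σ, fun b _ => ⟨fun k _ => ?_, ContainsCopy.mono Set.subset_union_left h⟩⟩
      obtain ⟨h1, h2, h3⟩ := hσ b k
      rw [Finset.mem_union, not_or] at h1
      exact ⟨h1.1, h1.2, h2, h3⟩
    · choose! C2 hC2sub hC2r hC2win using hr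
      have hdis : ∀ r, r ∉ insert m M → Disjoint (insert r B) (C2 r) := by
        intro r hr
        rw [Finset.disjoint_insert_left]
        refine ⟨hC2r r hr, ?_⟩
        exact Finset.disjoint_of_subset_right
          ((hC2sub r hr).trans (Finset.erase_subset _ _)) hB
      have hex : ∀ r, ∃ σ : List Cell → Cell, r ∉ insert m M → ∀ b : ℕ → Cell,
          (∀ k, k + 1 < n → b k ∉ insert m M ∧ ∀ j, j ≤ k → b k ≠ makerClaim σ b j) →
          (∀ k, k < n → makerClaim σ b k ∉ insert m M ∧ makerClaim σ b k ∉ insert r B ∧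
            (∀ j, j < k → makerClaim σ b k ≠ makerClaim σ b j) ∧
            (∀ j, j < k → makerClaim σ b k ≠ b j)) ∧
          ContainsCopy ((↑(insert m M) : Set Cell) ∪ {c | ∃ j, j < n ∧ c = makerClaim σ b j}) := by
        intro r
        by_cases hr : r ∉ insert m M
        · obtain ⟨σ, hσ⟩ := ih (insert m M) (C2 r) (insert r B) (hC2win r hr) (hdis r hr)
          exact ⟨σ, fun _ => hσ⟩
        · exact ⟨fun _ => (0, 0), fun h => absurd h hr⟩
      choose τ hτ using hex
      let σ : List Cell → Cell := fun l => match l with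
        | [] => m
        | r :: l' => τ r l'
      have hσ0 : ∀ b, makerClaim σ b 0 = m := fun b => rfl
      have hσs : ∀ b k, makerClaim σ b (k + 1) = makerClaim (τ (b 0)) (fun i => b (i + 1)) k := by
        intro b k
        rw [makerClaim_succ]
      have hmB : m ∉ B := fun hm => (Finset.disjoint_left.mp hB hm) hmC
      refine ⟨σ, fun b hb => ?_⟩
      -- a legal first reply (the real one if it matters, a fresh one otherwise)
      rcases Nat.eq_zero_or_pos n with hn | hn
      · subst hn
        obtain ⟨r, hr⟩ := Infinite.exists_notMem_finset (insert m M)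
        have hw : ContainsCopy (↑(insert m M) : Set Cell) := hC2win r hr
        refine ⟨fun k hk => ?_, ?_⟩
        · have hk0 : k = 0 := by omega
          subst hk0
          rw [hσ0]
          exact ⟨hmM, hmB, fun j hj => absurd hj (Nat.not_lt_zero j),
            fun j hj => absurd hj (Nat.not_lt_zero j)⟩
        · refine ContainsCopy.mono ?_ hw
          intro c hc
          rw [Finset.coe_insert, Set.mem_insert_iff] at hc
          rcases hc with hc | hc
          · exact Or.inr ⟨0, Nat.zero_lt_one, by rw [hσ0]; exact hc⟩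
          · exact Or.inl hc
      · have hb0 : b 0 ∉ insert m M := by
          obtain ⟨h1, h2⟩ := hb 0 (by omega)
          rw [Finset.mem_insert, not_or]
          refine ⟨?_, h1⟩
          have := h2 0 le_rfl
          rwa [hσ0] at this
        obtain ⟨hA, hBc⟩ := hτ (b 0) hb0 (fun i => b (i + 1)) (by
          intro k hk
          obtain ⟨h1, h2⟩ := hb (k + 1) (by omega)
          refine ⟨?_, ?_⟩
          · rw [Finset.mem_insert, not_or]
            refine ⟨?_, h1⟩
            have := h2 0 (Nat.zero_le _)
            rwa [hσ0] at this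
          · intro j hj
            have := h2 (j + 1) (by omega)
            rwa [hσs] at this)
        refine ⟨fun k hk => ?_, ?_⟩
        · cases k with
          | zero =>
            rw [hσ0]
            exact ⟨hmM, hmB, fun j hj => absurd hj (Nat.not_lt_zero j),
              fun j hj => absurd hj (Nat.not_lt_zero j)⟩
          | succ k =>
            obtain ⟨h1, h2, h3, h4⟩ := hA k (by omega)
            rw [Finset.mem_insert, not_or] at h1 h2
            rw [hσs]
            refine ⟨h1.2, h2.2, ?_, ?_⟩
            · intro j hj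
              cases j with
              | zero => rw [hσ0]; exact h1.1
              | succ j => rw [hσs]; exact h3 j (by omega)
            · intro j hj
              cases j with
              | zero => exact h2.1
              | succ j => exact h4 j (by omega)
        · refine ContainsCopy.mono ?_ hBc
          intro c hc
          rcases hc with hc | ⟨j, hj, hc⟩
          · rw [Finset.coe_insert, Set.mem_insert_iff] at hc
            rcases hc with hc | hc
            · exact Or.inr ⟨0, Nat.succ_pos n, by rw [hσ0]; exact hc⟩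
            · exact Or.inl hc
          · exact Or.inr ⟨j + 1, by omega, by rw [hσs]; exact hc⟩

/-- the statement of S0047 from a winning certificate at the semantic level. -/
theorem final (C : Finset Cell) (h : WinO 21 ∅ C) :
    ∃ σ : List (ℤ × ℤ) → ℤ × ℤ, ∀ b : ℕ → ℤ × ℤ,
      (∀ k : ℕ, k < 20 →
        (∀ j : ℕ, j ≤ k → b k ≠ makerClaim σ b j) ∧
        (∀ j : ℕ, j < k → b k ≠ b j)) →
      (∀ k : ℕ, k ≤ 20 →
        (∀ j : ℕ, j < k → makerClaim σ b k ≠ makerClaim σ b j) ∧
        (∀ j : ℕ, j < k → makerClaim σ b k ≠ b j)) ∧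
      ContainsCopy {c | ∃ j : ℕ, j ≤ 20 ∧ c = makerClaim σ b j} := by
  obtain ⟨σ, hσ⟩ := WinO.strategy 21 ∅ C ∅ h (Finset.disjoint_empty_left C)
  refine ⟨σ, fun b hb => ?_⟩
  obtain ⟨h1, h2⟩ := hσ b (fun k hk => ⟨Finset.notMem_empty _, (hb k (by omega)).1⟩)
  refine ⟨fun k hk => ⟨(h1 k (by omega)).2.2.1, (h1 k (by omega)).2.2.2⟩, ?_⟩
  refine ContainsCopy.mono ?_ h2
  intro c hc
  rcases hc with hc | ⟨j, hj, hc⟩
  · simp at hc
  · exact ⟨j, by omega, hc⟩

end Crest.Agent.SN
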