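import Mathlib

set_option autoImplicit false

namespace Crest.Agent.Lib_helper1_Lattice

/-- nonnegative case of the lattice covering lemma -/
theorem lattice_cover_nonneg (β γ x y : ℝ) (hβ : 0 ≤ β) (hγ : 0 ≤ γ) (h1 : β * γ < 1) :
    ∃ m n : ℤ, |x - m - β * n| ≤ 1 / 2 ∧ |y - n - γ * m| ≤ 1 / 2 := by
  -- m(n) = ⌊x - β n + 1/2⌋, c(n) = n + γ m(n)
  set mm : ℤ → ℤ := fun n => ⌊x - β * n + 1 / 2⌋ with hmm
  set c : ℤ → ℝ := fun n => n + γ * mm n with hc
  have hm1 : ∀ n : ℤ, (mm n : ℝ) ≤ x - β * n + 1 / 2 := fun n => Int.floor_le _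
  have hm2 : ∀ n : ℤ, x - β * n + 1 / 2 < mm n + 1 := fun n => Int.lt_floor_add_one _
  have hpos : 0 < 1 - β * γ := by linarith
  -- step
  have hstep : ∀ n : ℤ, c (n + 1) ≤ c n + 1 := by
    intro n
    have : mm (n + 1) ≤ mm n := by
      apply Int.floor_mono
      push_cast
      nlinarith
    have h' : ((mm (n + 1) : ℤ) : ℝ) ≤ mm n := by exact_mod_cast this
    simp only [hc]
    push_cast
    nlinarith
  -- bounded below
  have hbdd : ∃ b : ℤ, ∀ z : ℤ, y - 1 / 2 ≤ c z → b ≤ z := by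
    refine ⟨⌊(y - 1 / 2 - γ * x - γ / 2) / (1 - β * γ)⌋, fun z hz => ?_⟩
    have h2 : c z ≤ γ * x + γ / 2 + z * (1 - β * γ) := by
      simp only [hc]
      have := hm1 z
      nlinarith
    have h3 : (y - 1 / 2 - γ * x - γ / 2) / (1 - β * γ) ≤ z := by
      rw [div_le_iff₀ hpos]; linarith
    have h4 := Int.floor_le ((y - 1 / 2 - γ * x - γ / 2) / (1 - β * γ))
    have : ((⌊(y - 1 / 2 - γ * x - γ / 2) / (1 - β * γ)⌋ : ℤ) : ℝ) ≤ z := le_trans h4 h3
    exact_mod_cast this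
  have hinh : ∃ z : ℤ, y - 1 / 2 ≤ c z := by
    refine ⟨⌈(y - 1 / 2 - γ * x + γ / 2) / (1 - β * γ)⌉, ?_⟩
    set z := ⌈(y - 1 / 2 - γ * x + γ / 2) / (1 - β * γ)⌉ with hz
    have h2 : γ * x - γ / 2 + z * (1 - β * γ) ≤ c z := by
      simp only [hc]
      have := hm2 z
      nlinarith
    have h3 : (y - 1 / 2 - γ * x + γ / 2) / (1 - β * γ) ≤ z := Int.le_ceil _
    rw [div_le_iff₀ hpos] at h3
    linarith
  obtain ⟨n, hn, hmin⟩ := Int.exists_least_of_bdd hbdd hinh
  refine ⟨mm n, n, ?_, ?_⟩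
  · rw [abs_le]
    have := hm1 n
    have := hm2 n
    constructor <;> linarith
  · have hprev : c (n - 1) < y - 1 / 2 := by
      by_contra hcon
      push Not at hcon
      have := hmin (n - 1) hcon
      omega
    have hs := hstep (n - 1)
    rw [sub_add_cancel] at hs
    have hcn : c n = n + γ * mm n := rfl
    rw [abs_le]
    constructor <;> linarith

/-- Lattice covering lemma: unit squares centred at the lattice `(m + β n, n + γ m)` cover the plane
as soon as `0 ≤ β γ < 1`. -/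
theorem lattice_cover (β γ x y : ℝ) (h0 : 0 ≤ β * γ) (h1 : β * γ < 1) :
    ∃ m n : ℤ, |x - m - β * n| ≤ 1 / 2 ∧ |y - n - γ * m| ≤ 1 / 2 := by
  by_cases hcase : 0 ≤ β ∧ 0 ≤ γ
  · exact lattice_cover_nonneg β γ x y hcase.1 hcase.2 h1
  · have hβ : β ≤ 0 := by
      by_contra hb
      push Not at hb
      apply hcase
      refine ⟨hb.le, ?_⟩
      by_contra hg
      push Not at hg
      nlinarith
    have hγ : γ ≤ 0 := by
      by_contra hg
      push Not at hg
      apply hcase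
      refine ⟨?_, hg.le⟩
      by_contra hb
      push Not at hb
      nlinarith
    obtain ⟨m, n, h2, h3⟩ := lattice_cover_nonneg (-β) (-γ) (-x) y (by linarith) (by linarith)
      (by nlinarith)
    refine ⟨-m, n, ?_, ?_⟩
    · rw [← abs_neg]
      push_cast
      convert h2 using 2
      ring
    · push_cast
      convert h3 using 2
      ring

/-- Inverting `I + sA` in a zero-diagonal frame. -/
theorem frame_inverse_bound (β γ s L B θ r u0 u1 : ℝ) (hL : 0 ≤ L) (hs : |s| ≤ L)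
    (hβ : |β| ≤ B) (hγ : |γ| ≤ B) (h0 : 0 ≤ β * γ) (hθ : 0 < θ) (h1 : θ ≤ 1 - L ^ 2 * (β * γ))
    (hu0 : |u0 + s * β * u1| ≤ r / 2) (hu1 : |u1 + s * γ * u0| ≤ r / 2) :
    |u0| ≤ (1 + L * B) / (2 * θ) * r ∧ |u1| ≤ (1 + L * B) / (2 * θ) * r := by
  have hB : 0 ≤ B := le_trans (abs_nonneg _) hβ
  have hr : 0 ≤ r := by have := abs_nonneg (u0 + s * β * u1); linarith
  have hs2 : s ^ 2 ≤ L ^ 2 := by
    rw [← sq_abs s]; exact pow_le_pow_left₀ (abs_nonneg _) hs 2
  have hden : θ ≤ 1 - s ^ 2 * (β * γ) := by nlinarith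
  have hsβ : |s * β| ≤ L * B := by
    rw [abs_mul]; exact mul_le_mul hs hβ (abs_nonneg _) hL
  have hsγ : |s * γ| ≤ L * B := by
    rw [abs_mul]; exact mul_le_mul hs hγ (abs_nonneg _) hL
  have key : ∀ a b t : ℝ, |a| ≤ r / 2 → |b| ≤ r / 2 → |t| ≤ L * B → |a - t * b| ≤ (1 + L * B) * (r / 2) := by
    intro a b t ha hb ht
    calc |a - t * b| ≤ |a| + |t * b| := abs_sub _ _
      _ = |a| + |t| * |b| := by rw [abs_mul]
      _ ≤ r / 2 + L * B * (r / 2) := by
          have := mul_le_mul ht hb (abs_nonneg _) (by positivity)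
          linarith
      _ = (1 + L * B) * (r / 2) := by ring
  have fin : ∀ u w : ℝ, u * (1 - s ^ 2 * (β * γ)) = w → |w| ≤ (1 + L * B) * (r / 2) →
      |u| ≤ (1 + L * B) / (2 * θ) * r := by
    intro u w huw hw
    have h2 : |u| * θ ≤ (1 + L * B) * (r / 2) := by
      calc |u| * θ ≤ |u| * (1 - s ^ 2 * (β * γ)) := by
            exact mul_le_mul_of_nonneg_left hden (abs_nonneg _)
        _ = |u * (1 - s ^ 2 * (β * γ))| := by
            rw [abs_mul, abs_of_pos (lt_of_lt_of_le hθ hden)]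
        _ ≤ _ := by rw [huw]; exact hw
    have : (1 + L * B) / (2 * θ) * r = (1 + L * B) * (r / 2) / θ := by
      field_simp
    rw [this, le_div_iff₀ hθ]
    exact h2
  constructor
  · exact fin u0 _ (by ring) (key _ _ (s * β) hu0 hu1 hsβ)
  · exact fin u1 _ (by ring) (key _ _ (s * γ) hu1 hu0 hsγ)

/-- a traceless quadratic form vanishes on some unit vector -/
theorem exists_unit_isotropic (a σ : ℝ) :
    ∃ c s : ℝ, c ^ 2 + s ^ 2 = 1 ∧ a * c ^ 2 + σ * (c * s) - a * s ^ 2 = 0 := by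
  have hcont : ContinuousOn
      (fun t : ℝ => a * Real.cos t ^ 2 + σ * (Real.cos t * Real.sin t) - a * Real.sin t ^ 2)
      (Set.uIcc 0 (Real.pi / 2)) := by
    fun_prop
  have h := intermediate_value_uIcc hcont
  have h0 : (0 : ℝ) ∈ Set.uIcc
      ((fun t : ℝ => a * Real.cos t ^ 2 + σ * (Real.cos t * Real.sin t) - a * Real.sin t ^ 2) 0)
      ((fun t : ℝ => a * Real.cos t ^ 2 + σ * (Real.cos t * Real.sin t) - a * Real.sin t ^ 2)
        (Real.pi / 2)) := by
    simp only [Real.cos_zero, Real.sin_zero, Real.cos_pi_div_two, Real.sin_pi_div_two]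
    rw [Set.mem_uIcc]
    rcases le_total a 0 with ha | ha
    · left; constructor <;> nlinarith
    · right; constructor <;> nlinarith
  obtain ⟨t, -, ht⟩ := h h0
  exact ⟨Real.cos t, Real.sin t, Real.cos_sq_add_sin_sq t, ht⟩

end Crest.Agent.Lib_helper1_Lattice
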