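import Mathlib
import Crest.Agent.Lib_helper1_Lattice

set_option autoImplicit false
open MeasureTheory

namespace Crest.Agent.Lib_helper1_Frame

abbrev E2 := EuclideanSpace ℝ (Fin 2)

/-- half-open box in the orthonormal frame `b` -/
def fbox (b : OrthonormalBasis (Fin 2) ℝ E2) (a0 b0 a1 b1 : ℝ) : Set E2 :=
  {x | inner ℝ (b 0) x ∈ Set.Ico a0 b0 ∧ inner ℝ (b 1) x ∈ Set.Ico a1 b1}

theorem measurableSet_fbox (b : OrthonormalBasis (Fin 2) ℝ E2) (a0 b0 a1 b1 : ℝ) :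
    MeasurableSet (fbox b a0 b0 a1 b1) := by
  have h0 : Measurable (fun x : E2 => inner ℝ (b 0) x) := by fun_prop
  have h1 : Measurable (fun x : E2 => inner ℝ (b 1) x) := by fun_prop
  exact (h0 measurableSet_Ico).inter (h1 measurableSet_Ico)

theorem volume_fbox (b : OrthonormalBasis (Fin 2) ℝ E2) (a0 b0 a1 b1 : ℝ) :
    volume (fbox b a0 b0 a1 b1) = ENNReal.ofReal (b0 - a0) * ENNReal.ofReal (b1 - a1) := by
  have hset : fbox b a0 b0 a1 b1 = b.repr ⁻¹' ((@WithLp.ofLp 2 (Fin 2 → ℝ)) ⁻¹'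
      (Set.pi Set.univ fun i => Set.Ico (![a0, a1] i) (![b0, b1] i))) := by
    ext x
    simp only [fbox, Set.mem_ofPred_eq, Set.mem_preimage, Set.mem_pi, Set.mem_univ, forall_true_left,
      Fin.forall_fin_two, Matrix.cons_val_zero, Matrix.cons_val_one, b.repr_apply_apply]
  have hm : MeasurableSet (Set.pi Set.univ fun i : Fin 2 => Set.Ico (![a0, a1] i) (![b0, b1] i)) :=
    MeasurableSet.univ_pi fun i => measurableSet_Ico
  rw [hset, b.measurePreserving_repr.measure_preimage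
      ((PiLp.volume_preserving_ofLp (Fin 2)).measurable hm).nullMeasurableSet,
    (PiLp.volume_preserving_ofLp (Fin 2)).measure_preimage hm.nullMeasurableSet,
    Real.volume_pi_Ico, Fin.prod_univ_two]
  simp

/-- grid boxes -/
def gbox (b : OrthonormalBasis (Fin 2) ℝ E2) (t0 t1 r : ℝ) (q : ℤ × ℤ) : Set E2 :=
  fbox b (t0 + r * q.1) (t0 + r * (q.1 + 1)) (t1 + r * q.2) (t1 + r * (q.2 + 1))

theorem mem_gbox_iff (b : OrthonormalBasis (Fin 2) ℝ E2) (t0 t1 r : ℝ) (hr : 0 < r) (q : ℤ × ℤ)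
    (x : E2) : x ∈ gbox b t0 t1 r q ↔
      ⌊(inner ℝ (b 0) x - t0) / r⌋ = q.1 ∧ ⌊(inner ℝ (b 1) x - t1) / r⌋ = q.2 := by
  simp only [gbox, fbox, Set.mem_ofPred_eq, Set.mem_Ico, Int.floor_eq_iff, le_div_iff₀ hr,
    div_lt_iff₀ hr]
  constructor
  · rintro ⟨⟨h1, h2⟩, h3, h4⟩
    refine ⟨⟨?_, ?_⟩, ?_, ?_⟩ <;> nlinarith
  · rintro ⟨⟨h1, h2⟩, h3, h4⟩
    refine ⟨⟨?_, ?_⟩, ?_, ?_⟩ <;> nlinarith

theorem measurableSet_gbox (b : OrthonormalBasis (Fin 2) ℝ E2) (t0 t1 r : ℝ) (q : ℤ × ℤ) :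
    MeasurableSet (gbox b t0 t1 r q) := measurableSet_fbox _ _ _ _ _

theorem volume_gbox (b : OrthonormalBasis (Fin 2) ℝ E2) (t0 t1 r : ℝ) (hr : 0 < r) (q : ℤ × ℤ) :
    volume (gbox b t0 t1 r q) = ENNReal.ofReal (r ^ 2) := by
  rw [gbox, volume_fbox, ← ENNReal.ofReal_mul (by nlinarith)]
  congr 1
  ring

theorem pairwiseDisjoint_gbox (b : OrthonormalBasis (Fin 2) ℝ E2) (t0 t1 r : ℝ) (hr : 0 < r)
    (I : Set (ℤ × ℤ)) : I.PairwiseDisjoint (gbox b t0 t1 r) := by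
  intro q _ q' _ hne
  rw [Function.onFun, Set.disjoint_left]
  intro x hx hx'
  rw [mem_gbox_iff b t0 t1 r hr] at hx hx'
  apply hne
  ext
  · rw [← hx.1, ← hx'.1]
  · rw [← hx.2, ← hx'.2]

theorem volume_biUnion_gbox (b : OrthonormalBasis (Fin 2) ℝ E2) (t0 t1 r : ℝ) (hr : 0 < r)
    (I : Finset (ℤ × ℤ)) :
    volume (⋃ q ∈ I, gbox b t0 t1 r q) = ENNReal.ofReal ((I.card : ℝ) * r ^ 2) := by
  rw [measure_biUnion_finset (pairwiseDisjoint_gbox b t0 t1 r hr _)
    (fun q _ => measurableSet_gbox b t0 t1 r q)]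
  simp only [volume_gbox b t0 t1 r hr, Finset.sum_const, nsmul_eq_mul]
  rw [ENNReal.ofReal_mul (by positivity), ENNReal.ofReal_natCast]

/-- counting lemma -/
theorem card_mul_le (b : OrthonormalBasis (Fin 2) ℝ E2) (t0 t1 r : ℝ) (hr : 0 < r)
    (I : Finset (ℤ × ℤ)) (T : Set E2) (A : ℝ) (hA0 : 0 ≤ A) (hA : volume T ≤ ENNReal.ofReal A)
    (hsub : ∀ q ∈ I, gbox b t0 t1 r q ⊆ T) : (I.card : ℝ) * r ^ 2 ≤ A := by
  have h1 : volume (⋃ q ∈ I, gbox b t0 t1 r q) ≤ volume T :=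
    measure_mono (Set.iUnion₂_subset hsub)
  rw [volume_biUnion_gbox b t0 t1 r hr] at h1
  exact (ENNReal.ofReal_le_ofReal_iff hA0).1 (h1.trans hA)

/-- expansion in an orthonormal frame -/
theorem frame_expand (b : OrthonormalBasis (Fin 2) ℝ E2) (x : E2) :
    x = inner ℝ (b 0) x • b 0 + inner ℝ (b 1) x • b 1 := by
  have := b.sum_repr' x
  rw [Fin.sum_univ_two] at this
  exact this.symm

theorem frame_norm_sq (b : OrthonormalBasis (Fin 2) ℝ E2) (x : E2) :
    ‖x‖ ^ 2 = inner ℝ (b 0) x ^ 2 + inner ℝ (b 1) x ^ 2 := by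
  have := b.sum_sq_norm_inner_right x
  rw [Fin.sum_univ_two] at this
  simpa using this.symm

theorem frame_abs_inner_le (b : OrthonormalBasis (Fin 2) ℝ E2) (i : Fin 2) (x : E2) :
    |inner ℝ (b i) x| ≤ ‖x‖ := by
  have := abs_real_inner_le_norm (b i) x
  rwa [b.orthonormal.1 i, one_mul] at this

/-- zero-diagonal frame of a traceless operator -/
theorem exists_frame (A : E2 →L[ℝ] E2) (htr : LinearMap.trace ℝ _ A.toLinearMap = 0) :
    ∃ (b : OrthonormalBasis (Fin 2) ℝ E2) (β γ : ℝ),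
      (∀ u, inner ℝ (b 0) (A u) = β * inner ℝ (b 1) u) ∧
      (∀ u, inner ℝ (b 1) (A u) = γ * inner ℝ (b 0) u) ∧
      β * γ = - LinearMap.det A.toLinearMap ∧ |β| ≤ ‖A‖ ∧ |γ| ≤ ‖A‖ := by
  classical
  set e := EuclideanSpace.basisFun (Fin 2) ℝ with he
  have htr_e := LinearMap.trace_eq_sum_inner A.toLinearMap e
  rw [htr, Fin.sum_univ_two] at htr_e
  obtain ⟨c, s, hcs, hq⟩ := Lib_helper1_Lattice.exists_unit_isotropic (inner ℝ (e 0) (A (e 0)))
    (inner ℝ (e 0) (A (e 1)) + inner ℝ (e 1) (A (e 0)))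
  have e00 : inner ℝ (e 0) (e 0) = (1 : ℝ) := by
    rw [real_inner_self_eq_norm_sq, e.orthonormal.1 0]; norm_num
  have e11 : inner ℝ (e 1) (e 1) = (1 : ℝ) := by
    rw [real_inner_self_eq_norm_sq, e.orthonormal.1 1]; norm_num
  have e01 : inner ℝ (e 0) (e 1) = (0 : ℝ) := e.orthonormal.2 (by decide)
  have e10 : inner ℝ (e 1) (e 0) = (0 : ℝ) := e.orthonormal.2 (by decide)
  set v : E2 := c • e 0 + s • e 1 with hv
  set v' : E2 := (-s) • e 0 + c • e 1 with hv'
  have hvv : inner ℝ v v = (1 : ℝ) := by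
    rw [hv]
    simp only [inner_add_left, inner_add_right, inner_smul_left, inner_smul_right, e00, e11, e01,
      e10, RCLike.conj_to_real]
    nlinarith
  have hv'v' : inner ℝ v' v' = (1 : ℝ) := by
    rw [hv']
    simp only [inner_add_left, inner_add_right, inner_smul_left, inner_smul_right, e00, e11, e01,
      e10, RCLike.conj_to_real]
    nlinarith
  have hvv' : inner ℝ v v' = (0 : ℝ) := by
    rw [hv, hv']
    simp only [inner_add_left, inner_add_right, inner_smul_left, inner_smul_right, e00, e11, e01,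
      e10, RCLike.conj_to_real]
    ring
  have hv'v : inner ℝ v' v = (0 : ℝ) := by rw [real_inner_comm]; exact hvv'
  have hon : Orthonormal ℝ ![v, v'] := by
    rw [orthonormal_iff_ite]
    intro i j
    fin_cases i <;> fin_cases j
    · exact hvv
    · exact hvv'
    · exact hv'v
    · exact hv'v'
  obtain ⟨b, hb⟩ := Orthonormal.exists_orthonormalBasis_extension_of_card_eq (𝕜 := ℝ) (E := E2)
    (ι := Fin 2) (by simp) (v := ![v, v']) (s := Set.univ)
    (hon.comp _ Subtype.val_injective)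
  have hb0 : b 0 = v := by simpa using hb 0 (Set.mem_univ _)
  have hb1 : b 1 = v' := by simpa using hb 1 (Set.mem_univ _)
  have h00 : inner ℝ (b 0) (A (b 0)) = (0 : ℝ) := by
    rw [hb0, hv]
    simp only [map_add, map_smul, inner_add_left, inner_add_right, inner_smul_left,
      inner_smul_right, RCLike.conj_to_real]
    simp only [ContinuousLinearMap.coe_coe] at htr_e
    linear_combination hq - s ^ 2 * htr_e
  have htr_b := LinearMap.trace_eq_sum_inner A.toLinearMap b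
  rw [htr, Fin.sum_univ_two] at htr_b
  simp only [ContinuousLinearMap.coe_coe] at htr_b
  have h11 : inner ℝ (b 1) (A (b 1)) = (0 : ℝ) := by linarith
  refine ⟨b, inner ℝ (b 0) (A (b 1)), inner ℝ (b 1) (A (b 0)), ?_, ?_, ?_, ?_, ?_⟩
  · intro u
    conv_lhs => rw [frame_expand b u]
    simp only [map_add, map_smul, inner_add_right, inner_smul_right, h00]
    ring
  · intro u
    conv_lhs => rw [frame_expand b u]
    simp only [map_add, map_smul, inner_add_right, inner_smul_right, h11]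
    ring
  · rw [← LinearMap.det_toMatrix b.toBasis, Matrix.det_fin_two]
    simp only [LinearMap.toMatrix_apply, b.coe_toBasis, b.coe_toBasis_repr_apply,
      b.repr_apply_apply, ContinuousLinearMap.coe_coe, h00, h11]
    ring
  · calc |inner ℝ (b 0) (A (b 1))| ≤ ‖A (b 1)‖ := frame_abs_inner_le b 0 _
      _ ≤ ‖A‖ * ‖b 1‖ := A.le_opNorm _
      _ = ‖A‖ := by rw [b.orthonormal.1 1, mul_one]
  · calc |inner ℝ (b 1) (A (b 0))| ≤ ‖A (b 0)‖ := frame_abs_inner_le b 1 _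
      _ ≤ ‖A‖ * ‖b 0‖ := A.le_opNorm _
      _ = ‖A‖ := by rw [b.orthonormal.1 0, mul_one]

end Crest.Agent.Lib_helper1_Frame
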