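import Mathlib
import Crest.Agent.Lib_helper1_Frame

set_option autoImplicit false
open MeasureTheory

namespace Crest.Agent.Lib_helper1_Cover

open Crest.Agent.Lib_helper1_Frame

/-- sheared cylinder over the square `c + [0,1]a + [0,1]b` with velocity `g` -/
def cyl (c a b g : E2) : Set (ℝ × E2) :=
  {z | ∃ x ∈ Set.Icc (0 : ℝ) 1, ∃ y ∈ Set.Icc (0 : ℝ) 1, z.2 = c + x • a + y • b + z.1 • g}

/-- the weight -/
noncomputable def Jf (h : ℝ) (g : E2) : ℝ := 1 / Real.sqrt (1 + (g 0) ^ 2 + h ^ 2 * (g 1) ^ 2)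

theorem Jf_pos (h : ℝ) (g : E2) : 0 < Jf h g := by
  unfold Jf
  have : 0 < 1 + (g 0) ^ 2 + h ^ 2 * (g 1) ^ 2 := by positivity
  positivity

theorem Jf_le_one (h : ℝ) (g : E2) : Jf h g ≤ 1 := by
  unfold Jf
  have h1 : (1 : ℝ) ≤ 1 + (g 0) ^ 2 + h ^ 2 * (g 1) ^ 2 := by
    have : 0 ≤ (g 0) ^ 2 + h ^ 2 * (g 1) ^ 2 := by positivity
    linarith
  have h2 : (1 : ℝ) ≤ Real.sqrt (1 + (g 0) ^ 2 + h ^ 2 * (g 1) ^ 2) := by
    exact Real.one_le_sqrt.2 h1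
  rw [div_le_one (by linarith)]
  exact h2

/-- `S` has a finite cover by sheared square cylinders of total cost at most `C`. -/
def Covers (h : ℝ) (S : Set (ℝ × E2)) (C : ℝ) : Prop :=
  ∃ (ι : Type) (_ : Fintype ι) (c a b g : ι → E2),
    (∀ i, a i ≠ 0 ∧ ‖b i‖ = ‖a i‖ ∧ inner ℝ (a i) (b i) = 0) ∧
    S ⊆ ⋃ i, cyl (c i) (a i) (b i) (g i) ∧
    ∑ i, ‖a i‖ ^ 2 / Real.sqrt (1 + (g i 0) ^ 2 + h ^ 2 * (g i 1) ^ 2) ≤ C

theorem Covers.empty (h : ℝ) : Covers h ∅ 0 :=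
  ⟨Empty, inferInstance, Empty.elim, Empty.elim, Empty.elim, Empty.elim, fun i => i.elim,
    Set.empty_subset _, by simp⟩

theorem Covers.mono {h : ℝ} {S S' : Set (ℝ × E2)} {C C' : ℝ} (hc : Covers h S C) (hS : S' ⊆ S)
    (hC : C ≤ C') : Covers h S' C' := by
  obtain ⟨ι, hι, c, a, b, g, h1, h2, h3⟩ := hc
  exact ⟨ι, hι, c, a, b, g, h1, hS.trans h2, h3.trans hC⟩

theorem Covers.union {h : ℝ} {S S' : Set (ℝ × E2)} {C C' : ℝ} (hc : Covers h S C)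
    (hc' : Covers h S' C') : Covers h (S ∪ S') (C + C') := by
  obtain ⟨ι, hι, c, a, b, g, h1, h2, h3⟩ := hc
  obtain ⟨ι', hι', c', a', b', g', h1', h2', h3'⟩ := hc'
  refine ⟨ι ⊕ ι', inferInstance, Sum.elim c c', Sum.elim a a', Sum.elim b b', Sum.elim g g',
    ?_, ?_, ?_⟩
  · rintro (i | i)
    · exact h1 i
    · exact h1' i
  · rintro z (hz | hz)
    · obtain ⟨i, hi⟩ := Set.mem_iUnion.1 (h2 hz)
      exact Set.mem_iUnion.2 ⟨Sum.inl i, hi⟩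
    · obtain ⟨i, hi⟩ := Set.mem_iUnion.1 (h2' hz)
      exact Set.mem_iUnion.2 ⟨Sum.inr i, hi⟩
  · rw [Fintype.sum_sum_type]
    simp only [Sum.elim_inl, Sum.elim_inr]
    exact add_le_add h3 h3'

theorem Covers.biUnion {h : ℝ} {κ : Type*} (s : Finset κ) (S : κ → Set (ℝ × E2)) (C : κ → ℝ)
    (hc : ∀ q ∈ s, Covers h (S q) (C q)) : Covers h (⋃ q ∈ s, S q) (∑ q ∈ s, C q) := by
  classical
  induction s using Finset.induction_on with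
  | empty => simpa using Covers.empty h
  | insert q s hq IH =>
    rw [Finset.set_biUnion_insert, Finset.sum_insert hq]
    exact (hc q (Finset.mem_insert_self _ _)).union
      (IH fun q' hq' => hc q' (Finset.mem_insert_of_mem hq'))

theorem Covers.to_fin {h : ℝ} {S : Set (ℝ × E2)} {C : ℝ} (hc : Covers h S C) :
    ∃ (k : ℕ) (c a b g : Fin k → E2),
      (∀ i, a i ≠ 0 ∧ ‖b i‖ = ‖a i‖ ∧ inner ℝ (a i) (b i) = 0) ∧
      S ⊆ ⋃ i, {z : ℝ × E2 | ∃ x ∈ Set.Icc (0 : ℝ) 1, ∃ y ∈ Set.Icc (0 : ℝ) 1,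
          z.2 = c i + x • a i + y • b i + z.1 • g i} ∧
      ∑ i, ‖a i‖ ^ 2 / Real.sqrt (1 + (g i 0) ^ 2 + h ^ 2 * (g i 1) ^ 2) ≤ C := by
  obtain ⟨ι, hι, c, a, b, g, h1, h2, h3⟩ := hc
  let e := (Fintype.equivFin ι).symm
  refine ⟨Fintype.card ι, c ∘ e, a ∘ e, b ∘ e, g ∘ e, fun i => h1 (e i), ?_, ?_⟩
  · intro z hz
    obtain ⟨i, hi⟩ := Set.mem_iUnion.1 (h2 hz)
    refine Set.mem_iUnion.2 ⟨e.symm i, ?_⟩
    simpa [cyl] using hi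
  · have := Equiv.sum_comp e
      (fun i => ‖a i‖ ^ 2 / Real.sqrt (1 + (g i 0) ^ 2 + h ^ 2 * (g i 1) ^ 2))
    simp only [Function.comp]
    rw [this]
    exact h3

end Crest.Agent.Lib_helper1_Cover
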