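import Mathlib
import Crest.Prelude.Def_AsymptoticConvexity

/-!
Common toolkit for the asymptotic-convexity row (S0166--S0169).
Everything is stated for an unbundled real normed space `X`; the bridge to the bundled record
`RealBanach` is definitional.
-/

set_option autoImplicit false
set_option linter.style.haveILetI false

namespace Crest.Agent.Lib_helper2_AUC

open Filter Topology

variable {X : Type*} [NormedAddCommGroup X] [NormedSpace ℝ X]

/-- closed finite-codimensional subspace -/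
def CofSub (S : Submodule ℝ X) : Prop :=
  IsClosed (S : Set X) ∧ FiniteDimensional ℝ (X ⧸ S)

/-- The common kernel of finitely many continuous functionals is closed of finite codimension. -/
theorem cofSub_ker_pi {ι : Type*} [Finite ι] (φ : ι → X →L[ℝ] ℝ) :
    CofSub (LinearMap.ker (ContinuousLinearMap.pi φ).toLinearMap) := by
  classical
  haveI := Fintype.ofFinite ι
  refine ⟨(ContinuousLinearMap.pi φ).isClosed_ker, ?_⟩
  exact LinearEquiv.finiteDimensional
    ((ContinuousLinearMap.pi φ).toLinearMap.quotKerEquivRange).symm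

theorem mem_ker_pi {ι : Type*} (φ : ι → X →L[ℝ] ℝ) (x : X) :
    x ∈ LinearMap.ker (ContinuousLinearMap.pi φ).toLinearMap ↔ ∀ i, φ i x = 0 := by
  simp [LinearMap.mem_ker, funext_iff]

/-- If every continuous functional tends to `0` along `d`, then `d` gets close to every closed
finite-codimensional subspace. -/
theorem eventually_near_cof {S : Submodule ℝ X} (hS : CofSub S) {α : Type*} {l : Filter α}
    (d : α → X) (hd : ∀ φ : X →L[ℝ] ℝ, Tendsto (fun n => φ (d n)) l (𝓝 0))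
    {ε : ℝ} (hε : 0 < ε) : ∀ᶠ n in l, ∃ w ∈ S, ‖d n - w‖ < ε := by
  obtain ⟨hcl, hfd⟩ := hS
  haveI : IsClosed (S : Set X) := hcl
  haveI := hfd
  let b := Module.finBasis ℝ (X ⧸ S)
  let e : (X ⧸ S) ≃L[ℝ] (Fin (Module.finrank ℝ (X ⧸ S)) → ℝ) := b.equivFunL
  have h1 : Tendsto (fun n => e (S.mkQL (d n))) l (𝓝 0) := by
    rw [tendsto_pi_nhds]
    intro i
    have := hd ((ContinuousLinearMap.proj i).comp (e.toContinuousLinearMap.comp S.mkQL))
    simpa using this
  have h2 : Tendsto (fun n => S.mkQL (d n)) l (𝓝 0) := by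
    have := (e.symm.continuous.tendsto 0).comp h1
    simpa [Function.comp_def] using this
  have h3 : ∀ᶠ n in l, ‖S.mkQL (d n)‖ < ε / 2 := by
    have := (tendsto_zero_iff_norm_tendsto_zero.mp h2)
    exact this.eventually (gt_mem_nhds (by positivity))
  filter_upwards [h3] with n hn
  obtain ⟨m, hm, hm'⟩ := Submodule.Quotient.norm_mk_lt (S.mkQL (d n)) (half_pos hε)
  refine ⟨d n - m, ?_, ?_⟩
  · have hm2 : S.mkQ m = S.mkQ (d n) := hm
    have : S.mkQ (d n - m) = 0 := by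
      rw [map_sub, hm2, sub_self]
    exact (Submodule.Quotient.mk_eq_zero S).mp this
  · have : d n - (d n - m) = m := by abel
    rw [this]
    linarith

/-- A sequence dominated by the unit vector basis of `ℓ₂` on sign combinations. -/
def SignDominated (d : ℕ → X) (C : ℝ) : Prop :=
  ∀ (A : Finset ℕ) (a : ℕ → ℝ), (∀ n, |a n| ≤ 1) →
    ‖∑ n ∈ A, a n • d n‖ ≤ C * Real.sqrt A.card

theorem signDominated_of_l2 {d : ℕ → X} {C : ℝ} (hC : 0 ≤ C)
    (h : ∀ (A : Finset ℕ) (a : ℕ → ℝ),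
      ‖∑ n ∈ A, a n • d n‖ ≤ C * Real.sqrt (∑ n ∈ A, a n ^ 2)) : SignDominated d C := by
  intro A a ha
  refine (h A a).trans (mul_le_mul_of_nonneg_left (Real.sqrt_le_sqrt ?_) hC)
  calc ∑ n ∈ A, a n ^ 2 ≤ ∑ n ∈ A, (1 : ℝ) := by
        refine Finset.sum_le_sum fun n _ => ?_
        have := ha n
        rw [abs_le] at this
        nlinarith [this.1, this.2]
    _ = A.card := by simp

theorem SignDominated.tendsto {d : ℕ → X} {C : ℝ} (h : SignDominated d C) (φ : X →L[ℝ] ℝ) :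
    Tendsto (fun n => φ (d n)) atTop (𝓝 0) := by
  rw [← Nat.cofinite_eq_atTop, Metric.tendsto_nhds]
  intro ε hε
  rw [Filter.eventually_cofinite]
  by_contra hinf
  have hinf' : Set.Infinite {n | ¬ dist (φ (d n)) 0 < ε} := hinf
  set K : ℝ := ‖φ‖ * C / ε with hK
  obtain ⟨m, hm⟩ := exists_nat_gt (K ^ 2)
  obtain ⟨A, hA, hcard⟩ := hinf'.exists_subset_card_eq (m + 1)
  have hA' : ∀ n ∈ A, ε ≤ |φ (d n)| := by
    intro n hn
    have := hA hn
    simpa [Real.dist_eq] using this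
  let a : ℕ → ℝ := fun n => SignType.sign (φ (d n))
  have ha : ∀ n, |a n| ≤ 1 := by
    intro n
    simp only [a]
    rcases lt_trichotomy (φ (d n)) 0 with h0 | h0 | h0
    · simp [sign_neg h0]
    · simp [h0]
    · simp [sign_pos h0]
  have h1 := h A a ha
  have h2 : φ (∑ n ∈ A, a n • d n) = ∑ n ∈ A, |φ (d n)| := by
    rw [map_sum]
    refine Finset.sum_congr rfl fun n _ => ?_
    rw [map_smul, smul_eq_mul]
    simp only [a]
    exact sign_mul_self (φ (d n))
  have h3 : ((m : ℝ) + 1) * ε ≤ ∑ n ∈ A, |φ (d n)| := by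
    calc ((m : ℝ) + 1) * ε = ∑ n ∈ A, ε := by simp [hcard]
      _ ≤ _ := Finset.sum_le_sum hA'
  have h4 : ∑ n ∈ A, |φ (d n)| ≤ ‖φ‖ * (C * Real.sqrt ((m : ℝ) + 1)) := by
    rw [← h2]
    calc φ (∑ n ∈ A, a n • d n) ≤ ‖φ (∑ n ∈ A, a n • d n)‖ := Real.le_norm_self _
      _ ≤ ‖φ‖ * ‖∑ n ∈ A, a n • d n‖ := φ.le_opNorm _
      _ ≤ ‖φ‖ * (C * Real.sqrt ((m : ℝ) + 1)) := by
          refine mul_le_mul_of_nonneg_left ?_ (norm_nonneg _)
          have : ((A.card : ℕ) : ℝ) = (m : ℝ) + 1 := by rw [hcard]; push_cast; ring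
          rw [this] at h1
          exact h1
  set r := Real.sqrt ((m : ℝ) + 1) with hr
  have hr2 : r * r = (m : ℝ) + 1 := Real.mul_self_sqrt (by positivity)
  have hrpos : 0 < r := Real.sqrt_pos.mpr (by positivity)
  have h5 : r * ε ≤ ‖φ‖ * C := by
    have : r * (r * ε) ≤ r * (‖φ‖ * C) := by
      calc r * (r * ε) = ((m : ℝ) + 1) * ε := by rw [← hr2]; ring
        _ ≤ ‖φ‖ * (C * r) := h3.trans h4
        _ = r * (‖φ‖ * C) := by ring
    exact le_of_mul_le_mul_left this hrpos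
  have h6 : r ≤ K := by
    rw [hK, le_div_iff₀ hε]
    exact h5
  have h7 : (m : ℝ) + 1 ≤ K ^ 2 := by
    rw [← hr2, sq]
    exact mul_self_le_mul_self hrpos.le h6
  linarith

/-- A sign-dominated sequence gets close to every closed finite-codimensional subspace. -/
theorem SignDominated.eventually_near {d : ℕ → X} {C : ℝ} (h : SignDominated d C)
    {S : Submodule ℝ X} (hS : CofSub S) {ε : ℝ} (hε : 0 < ε) :
    ∀ᶠ n in atTop, ∃ w ∈ S, ‖d n - w‖ < ε :=
  eventually_near_cof hS d h.tendsto hε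

/-- A bounded sequence has two different terms whose difference is close to a given closed
finite-codimensional subspace. -/
theorem exists_pair_near_cof {S : Submodule ℝ X} (hS : CofSub S) (z : ℕ → X) {R : ℝ}
    (hz : ∀ n, ‖z n‖ ≤ R) {ε : ℝ} (hε : 0 < ε) :
    ∃ i j : ℕ, i < j ∧ ∃ w ∈ S, ‖z i - z j - w‖ < ε := by
  obtain ⟨hcl, hfd⟩ := hS
  haveI : IsClosed (S : Set X) := hcl
  haveI := hfd
  haveI : ProperSpace (X ⧸ S) := FiniteDimensional.proper_real _
  have hb : ∀ n, S.mkQL (z n) ∈ Metric.closedBall (0 : X ⧸ S) R := by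
    intro n
    rw [mem_closedBall_zero_iff]
    exact (Submodule.Quotient.norm_mk_le S (z n)).trans (hz n)
  obtain ⟨q, -, ψ, hψ, hlim⟩ :=
    (isCompact_closedBall (0 : X ⧸ S) R).tendsto_subseq hb
  have hc := hlim.cauchySeq
  rw [Metric.cauchySeq_iff] at hc
  obtain ⟨n0, hn0⟩ := hc (ε / 2) (half_pos hε)
  have h1 := hn0 n0 le_rfl (n0 + 1) (Nat.le_succ _)
  refine ⟨ψ n0, ψ (n0 + 1), hψ (Nat.lt_succ_self _), ?_⟩
  have h2 : ‖S.mkQL (z (ψ n0) - z (ψ (n0 + 1)))‖ < ε / 2 := by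
    rw [map_sub, ← dist_eq_norm]
    exact h1
  obtain ⟨m, hm, hm'⟩ := Submodule.Quotient.norm_mk_lt
    (S.mkQL (z (ψ n0) - z (ψ (n0 + 1)))) (half_pos hε)
  refine ⟨z (ψ n0) - z (ψ (n0 + 1)) - m, ?_, ?_⟩
  · have hm2 : S.mkQ m = S.mkQ (z (ψ n0) - z (ψ (n0 + 1))) := hm
    have : S.mkQ (z (ψ n0) - z (ψ (n0 + 1)) - m) = 0 := by
      rw [map_sub, hm2, sub_self]
    exact (Submodule.Quotient.mk_eq_zero S).mp this
  · have : z (ψ n0) - z (ψ (n0 + 1)) - (z (ψ n0) - z (ψ (n0 + 1)) - m) = m := by abel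
    rw [this]
    linarith

/-- A sign-dominated sequence bounded away from zero forces infinite dimension. -/
theorem not_finiteDimensional_of_signDominated {d : ℕ → X} {C κ : ℝ} (h : SignDominated d C)
    (hκ : 0 < κ) (hd : ∀ n, κ ≤ ‖d n‖) : ¬ FiniteDimensional ℝ X := by
  intro hfd
  have hS : CofSub (⊥ : Submodule ℝ X) := ⟨isClosed_singleton, inferInstance⟩
  obtain ⟨n, w, hw, hn⟩ := (h.eventually_near hS hκ).exists
  rw [Submodule.mem_bot] at hw
  rw [hw, sub_zero] at hn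
  exact absurd (hd n) (not_le.mpr hn)

/-- unbundled version of `RealBanach.IsEquivNorm` -/
def EquivNorm (N : X → ℝ) : Prop :=
  (∀ x y : X, N (x + y) ≤ N x + N y) ∧ (∀ (a : ℝ) (x : X), N (a • x) = abs a * N x) ∧
    ∃ a b : ℝ, 0 < a ∧ ∀ x : X, a * ‖x‖ ≤ N x ∧ N x ≤ b * ‖x‖

/-- unbundled version of `RealBanach.IsAUC` (with submodules instead of sets) -/
def AUC (N : X → ℝ) : Prop :=
  ∀ t : ℝ, 0 < t → ∃ c : ℝ, 0 < c ∧ ∀ x : X, N x = 1 → ∃ S : Submodule ℝ X, CofSub S ∧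
    ∀ y ∈ S, N y = 1 → c ≤ N (x + t • y) - 1

/-- Homogeneous form of one step of asymptotic uniform convexity. -/
theorem AUC.step {N : X → ℝ} (hN : EquivNorm N) (h : AUC N) {t₀ : ℝ} (ht₀ : 0 < t₀) :
    ∃ c : ℝ, 0 < c ∧ ∀ x : X, 0 < N x → ∃ S : Submodule ℝ X, CofSub S ∧
      ∀ w ∈ S, t₀ * N x ≤ N w → (1 + c) * N x ≤ N (x + w) := by
  obtain ⟨hadd, hsmul, -⟩ := hN
  obtain ⟨c, hc, hcx⟩ := h t₀ ht₀
  refine ⟨c, hc, fun x hx => ?_⟩
  have hx1 : N ((N x)⁻¹ • x) = 1 := by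
    rw [hsmul, abs_of_pos (inv_pos.mpr hx), inv_mul_cancel₀ hx.ne']
  obtain ⟨S, hS, hSy⟩ := hcx _ hx1
  refine ⟨S, hS, fun w hw hwx => ?_⟩
  have hwpos : 0 < N w := lt_of_lt_of_le (mul_pos ht₀ hx) hwx
  have hw1 : N ((N w)⁻¹ • w) = 1 := by
    rw [hsmul, abs_of_pos (inv_pos.mpr hwpos), inv_mul_cancel₀ hwpos.ne']
  have h1 := hSy _ (S.smul_mem _ hw) hw1
  set s : ℝ := N w / N x with hs
  have hspos : 0 < s := div_pos hwpos hx
  have hst : t₀ ≤ s := by rw [hs, le_div_iff₀ hx]; exact hwx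
  set lam : ℝ := t₀ / s with hlam
  have hlam0 : 0 < lam := div_pos ht₀ hspos
  have hlam1 : lam ≤ 1 := by rw [hlam, div_le_one hspos]; exact hst
  have hdecomp : (N x)⁻¹ • x + t₀ • ((N w)⁻¹ • w) =
      (1 - lam) • ((N x)⁻¹ • x) + lam • ((N x)⁻¹ • (x + w)) := by
    have e1 : t₀ * (N w)⁻¹ = lam * (N x)⁻¹ := by
      rw [hlam, hs]; field_simp
    rw [smul_add, smul_add, smul_smul, smul_smul, smul_smul, smul_smul, e1, ← add_assoc,
      ← add_smul]
    congr 2
    ring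
  have h2 : N ((N x)⁻¹ • x + t₀ • ((N w)⁻¹ • w)) ≤
      (1 - lam) + lam * ((N x)⁻¹ * N (x + w)) := by
    rw [hdecomp]
    refine (hadd _ _).trans ?_
    rw [hsmul (1 - lam), hsmul lam, hx1, hsmul ((N x)⁻¹), abs_of_nonneg (by linarith : 0 ≤ 1 - lam),
      abs_of_pos hlam0, abs_of_pos (inv_pos.mpr hx)]
    linarith
  have h3 : 1 + c ≤ (N x)⁻¹ * N (x + w) := by
    have h4 : c ≤ lam * ((N x)⁻¹ * N (x + w) - 1) := by linarith
    have h5 : 0 ≤ (N x)⁻¹ * N (x + w) - 1 := by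
      by_contra hneg
      rw [not_le] at hneg
      have := mul_neg_of_pos_of_neg hlam0 hneg
      linarith
    have h6 : lam * ((N x)⁻¹ * N (x + w) - 1) ≤ 1 * ((N x)⁻¹ * N (x + w) - 1) :=
      mul_le_mul_of_nonneg_right hlam1 h5
    linarith
  calc (1 + c) * N x ≤ ((N x)⁻¹ * N (x + w)) * N x := mul_le_mul_of_nonneg_right h3 hx.le
    _ = N (x + w) := by field_simp

/-- **Lemma A.** A bounded set in which every point can be moved by a definite amount in a
direction almost contained in any prescribed closed finite-codimensional subspace, staying in the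
set, prevents asymptotically uniformly convex renormings. -/
theorem not_AUC_of_set {N : X → ℝ} (hN : EquivNorm N) (B : Set X) (hne : B.Nonempty) {R κ : ℝ}
    (hB : ∀ x ∈ B, ‖x‖ ≤ R) (hκ : 0 < κ)
    (hstep : ∀ x ∈ B, ∀ S : Submodule ℝ X, CofSub S → ∀ ε : ℝ, 0 < ε →
      ∃ y ∈ B, ∃ w ∈ S, κ ≤ ‖y - x‖ ∧ ‖y - x - w‖ < ε) : ¬ AUC N := by
  intro hAUC
  have hN' := hN
  obtain ⟨hadd, hsmul, a, b, ha, hab⟩ := hN
  have hNnonneg : ∀ x, 0 ≤ N x := fun x =>
    le_trans (mul_nonneg ha.le (norm_nonneg x)) (hab x).1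
  -- `b` is positive, `R` is positive
  obtain ⟨x0, hx0⟩ := hne
  obtain ⟨y0, hy0, w0, -, hκ0, -⟩ := hstep x0 hx0 ⊤
    ⟨isClosed_univ, inferInstance⟩ 1 one_pos
  have hRpos : 0 < R := by
    have : κ ≤ R + R := hκ0.trans ((norm_sub_le _ _).trans (add_le_add (hB _ hy0) (hB _ hx0)))
    linarith
  have hbpos : 0 < b := by
    have h1 : 0 < ‖y0 - x0‖ := lt_of_lt_of_le hκ hκ0
    have h2 := hab (y0 - x0)
    have h3 : 0 < b * ‖y0 - x0‖ := lt_of_lt_of_le (mul_pos ha h1) (h2.1.trans h2.2)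
    exact (pos_iff_pos_of_mul_pos h3).mpr h1
  -- the supremum of `N` on `B`
  have hbdd : BddAbove (N '' B) := ⟨b * R, by
    rintro _ ⟨x, hx, rfl⟩
    exact (hab x).2.trans (mul_le_mul_of_nonneg_left (hB x hx) hbpos.le)⟩
  set M : ℝ := sSup (N '' B) with hM
  have hMle : ∀ x ∈ B, N x ≤ M := fun x hx => le_csSup hbdd ⟨x, hx, rfl⟩
  have hMpos : 0 < M := by
    -- one of x0, y0 has positive norm
    have h1 : a * κ ≤ N (y0 - x0) :=
      (mul_le_mul_of_nonneg_left hκ0 ha.le).trans (hab _).1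
    have h2 : N (y0 - x0) ≤ N y0 + N x0 := by
      have := hadd y0 ((-1 : ℝ) • x0)
      rw [hsmul] at this
      simpa [sub_eq_add_neg] using this
    have h3 := hMle _ hx0
    have h4 := hMle _ hy0
    have := mul_pos ha hκ
    linarith
  set t₀ : ℝ := a * κ / (2 * M) with ht₀
  have ht₀pos : 0 < t₀ := by positivity
  obtain ⟨c, hc, hstep'⟩ := hAUC.step hN' ht₀pos
  -- choose x nearly maximising
  have hlt : M / (1 + c / 2) < M := by
    rw [div_lt_iff₀ (by positivity)]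
    nlinarith
  obtain ⟨_, ⟨x, hx, rfl⟩, hxM⟩ :=
    exists_lt_of_lt_csSup (s := N '' B) ⟨N x0, x0, hx0, rfl⟩ hlt
  have hxpos : 0 < N x := lt_trans (by positivity) hxM
  obtain ⟨S, hS, hSw⟩ := hstep' x hxpos
  set ε : ℝ := min (a * κ / (2 * b)) (c / 2 * N x / (2 * b)) with hε
  have hεpos : 0 < ε := by
    refine lt_min (by positivity) (by positivity)
  obtain ⟨y, hy, w, hw, hκy, hyw⟩ := hstep x hx S hS ε hεpos
  -- N (y - x - w) ≤ b ε
  have he : N (y - x - w) ≤ b * ε :=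
    (hab _).2.trans (mul_le_mul_of_nonneg_left hyw.le hbpos.le)
  have he1 : b * ε ≤ a * κ / 2 := by
    calc b * ε ≤ b * (a * κ / (2 * b)) := mul_le_mul_of_nonneg_left (min_le_left _ _) hbpos.le
      _ = a * κ / 2 := by field_simp
  have he2 : b * ε ≤ c / 2 * N x / 2 := by
    calc b * ε ≤ b * (c / 2 * N x / (2 * b)) :=
          mul_le_mul_of_nonneg_left (min_le_right _ _) hbpos.le
      _ = c / 2 * N x / 2 := by field_simp
  have hNw : a * κ / 2 ≤ N w := by
    have h1 : a * κ ≤ N (y - x) := (mul_le_mul_of_nonneg_left hκy ha.le).trans (hab _).1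
    have h2 : N (y - x) ≤ N (y - x - w) + N w := by
      have := hadd (y - x - w) w
      simpa using this
    linarith
  have hcond : t₀ * N x ≤ N w := by
    have h1 : t₀ * N x ≤ t₀ * M := mul_le_mul_of_nonneg_left (hMle x hx) ht₀pos.le
    have h2 : t₀ * M = a * κ / 2 := by rw [ht₀]; field_simp
    linarith
  have h1 := hSw w hw hcond
  have h2 : N (x + w) ≤ N y + N (y - x - w) := by
    have h3 := hadd y ((-1 : ℝ) • (y - x - w))
    rw [hsmul] at h3
    have h4 : y + (-1 : ℝ) • (y - x - w) = x + w := by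
      simp only [neg_smul, one_smul]; abel
    rw [h4] at h3
    simpa using h3
  have h3 := hMle y hy
  have h4 : M < (1 + c / 2) * N x := by
    rw [div_lt_iff₀ (by positivity)] at hxM
    linarith
  nlinarith

section bridge

open Crest.AnalysisR

attribute [local instance] RealBanach.normed RealBanach.space

theorem isCof_coe (E : RealBanach) {S : Submodule ℝ E.X} (h : CofSub S) :
    E.IsCof (S : Set E.X) := ⟨S, rfl, h.1, h.2⟩

theorem exists_cofSub_of_isCof (E : RealBanach) {F : Set E.X} (h : E.IsCof F) :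
    ∃ S : Submodule ℝ E.X, (S : Set E.X) = F ∧ CofSub S := by
  obtain ⟨S, rfl, h1, h2⟩ := h
  exact ⟨S, rfl, h1, h2⟩

theorem equivNorm_of (E : RealBanach) {N : E.X → ℝ} (h : E.IsEquivNorm N) : EquivNorm N := h

theorem AUC_of_isAUC (E : RealBanach) {N : E.X → ℝ} (h : E.IsAUC N) : AUC N := by
  intro t ht
  obtain ⟨c, hc, hx⟩ := h t ht
  refine ⟨c, hc, fun x hx1 => ?_⟩
  obtain ⟨F, hF, hy⟩ := hx x hx1
  obtain ⟨S, rfl, hS⟩ := exists_cofSub_of_isCof E hF
  exact ⟨S, hS, hy⟩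

end bridge

end Crest.Agent.Lib_helper2_AUC
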