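import Mathlib
import Crest.Prelude.Def_Diamond
import Crest.Agent.Lib_helper2_AUC

set_option autoImplicit false

namespace Crest.Agent.Lib_helper1_Diamond

open Crest.AnalysisR Crest.Agent.Lib_helper2_AUC

section graph

theorem adj_iff (k : ℕ) (a b : DiamondVertex k) : (diamondGraph k).Adj a b ↔
    a ≠ b ∧ ((∃ e, diamondSrc k e = a ∧ diamondTgt k e = b) ∨
      (∃ e, diamondSrc k e = b ∧ diamondTgt k e = a)) :=
  SimpleGraph.fromRel_adj _ _ _

theorem reach_edge (k : ℕ) (e : DiamondEdge k) :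
    (diamondGraph k).Reachable (diamondSrc k e) (diamondTgt k e) := by
  by_cases h : diamondSrc k e = diamondTgt k e
  · rw [h]
  · exact SimpleGraph.Adj.reachable ((adj_iff k _ _).2 ⟨h, Or.inl ⟨e, rfl, rfl⟩⟩)

theorem dist_edge_le_one (k : ℕ) (e : DiamondEdge k) :
    (diamondGraph k).dist (diamondSrc k e) (diamondTgt k e) ≤ 1 := by
  by_cases h : diamondSrc k e = diamondTgt k e
  · rw [h, SimpleGraph.dist_self]; exact Nat.zero_le _
  · exact le_of_eq (SimpleGraph.dist_eq_one_iff_adj.2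
      ((adj_iff k _ _).2 ⟨h, Or.inl ⟨e, rfl, rfl⟩⟩))

theorem reach_inl (k : ℕ) {u v : DiamondVertex k} (h : (diamondGraph k).Reachable u v) :
    (diamondGraph (k + 1)).Reachable (Sum.inl u : DiamondVertex (k + 1)) (Sum.inl v) := by
  obtain ⟨p⟩ := h
  induction p with
  | nil => exact SimpleGraph.Reachable.refl _
  | cons hadj p ih =>
    refine SimpleGraph.Reachable.trans ?_ ih
    obtain ⟨-, ⟨e, rfl, rfl⟩ | ⟨e, rfl, rfl⟩⟩ := (adj_iff k _ _).1 hadj
    · exact (reach_edge (k + 1) (e, 0, false)).trans (reach_edge (k + 1) (e, 0, true))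
    · exact ((reach_edge (k + 1) (e, 0, false)).trans (reach_edge (k + 1) (e, 0, true))).symm

theorem preconnected (k : ℕ) : (diamondGraph k).Preconnected := by
  induction k with
  | zero =>
    have h : (diamondGraph 0).Reachable (false : DiamondVertex 0) true := reach_edge 0 ()
    intro u v
    match u, v with
    | false, false => exact SimpleGraph.Reachable.refl _
    | true, true => exact SimpleGraph.Reachable.refl _
    | false, true => exact h
    | true, false => exact h.symm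
  | succ k ih =>
    have key : ∀ a : DiamondVertex (k + 1), ∃ u : DiamondVertex k,
        (diamondGraph (k + 1)).Reachable a (Sum.inl u : DiamondVertex (k + 1)) := by
      intro a
      match a with
      | Sum.inl u => exact ⟨u, SimpleGraph.Reachable.refl _⟩
      | Sum.inr (e, i) => exact ⟨diamondTgt k e, reach_edge (k + 1) (e, i, true)⟩
    intro a b
    obtain ⟨u, hu⟩ := key a
    obtain ⟨v, hv⟩ := key b
    exact hu.trans ((reach_inl k (ih u v)).trans hv.symm)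

/-- potentials which are 1-Lipschitz along edges -/
def EdgeLip (k : ℕ) (ψ : DiamondVertex k → ℤ) : Prop :=
  ∀ e : DiamondEdge k, |ψ (diamondSrc k e) - ψ (diamondTgt k e)| ≤ 1

theorem EdgeLip.walk {k : ℕ} {ψ : DiamondVertex k → ℤ} (h : EdgeLip k ψ) {u v : DiamondVertex k}
    (p : (diamondGraph k).Walk u v) : |ψ u - ψ v| ≤ p.length := by
  induction p with
  | nil => simp
  | @cons a b c hadj p ih =>
    have h1 : |ψ a - ψ b| ≤ 1 := by
      obtain ⟨-, ⟨e, rfl, rfl⟩ | ⟨e, rfl, rfl⟩⟩ := (adj_iff k _ _).1 hadj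
      · exact h e
      · rw [abs_sub_comm]; exact h e
    have h2 : |ψ a - ψ c| ≤ |ψ a - ψ b| + |ψ b - ψ c| := abs_sub_le _ _ _
    rw [SimpleGraph.Walk.length_cons]
    push_cast
    linarith

theorem EdgeLip.le_dist {k : ℕ} {ψ : DiamondVertex k → ℤ} (h : EdgeLip k ψ)
    (u v : DiamondVertex k) : |ψ u - ψ v| ≤ (diamondDist k u v : ℤ) := by
  obtain ⟨p, hp⟩ := (preconnected k u v).exists_walk_length_eq_dist
  have := h.walk p
  rw [hp] at this
  exact this

theorem edgeLip_dist (k : ℕ) (u : DiamondVertex k) :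
    EdgeLip k (fun a => ((diamondGraph k).dist u a : ℤ)) := by
  intro e
  have h1 := (reach_edge k e).dist_triangle_right u
  have h2 := (reach_edge k e).symm.dist_triangle_right u
  have h3 := dist_edge_le_one k e
  rw [SimpleGraph.dist_comm (u := diamondTgt k e)] at h2
  rw [abs_le]
  constructor <;> simp only <;> omega

theorem one_le_dist_zero : 1 ≤ diamondDist 0 (false : DiamondVertex 0) true := by
  have h : (diamondGraph 0).Adj (false : DiamondVertex 0) true :=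
    (adj_iff 0 _ _).2 ⟨fun h => Bool.false_ne_true h, Or.inl ⟨(), rfl, rfl⟩⟩
  exact le_of_eq (SimpleGraph.dist_eq_one_iff_adj.2 h).symm

theorem two_mul_dist_le (k : ℕ) (u v : DiamondVertex k) :
    2 * diamondDist k u v ≤ diamondDist (k + 1) (Sum.inl u : DiamondVertex (k + 1)) (Sum.inl v) := by
  set ψ : DiamondVertex k → ℤ := fun a => ((diamondGraph k).dist u a : ℤ) with hψ
  have hL := edgeLip_dist k u
  let ψ' : DiamondVertex (k + 1) → ℤ := fun a =>
    match a with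
    | Sum.inl a => 2 * ψ a
    | Sum.inr (e, _) => ψ (diamondSrc k e) + ψ (diamondTgt k e)
  have hL' : EdgeLip (k + 1) ψ' := by
    rintro ⟨e, i, b⟩
    have := hL e
    cases b
    · show |2 * ψ (diamondSrc k e) - (ψ (diamondSrc k e) + ψ (diamondTgt k e))| ≤ 1
      convert this using 2
      ring
    · show |(ψ (diamondSrc k e) + ψ (diamondTgt k e)) - 2 * ψ (diamondTgt k e)| ≤ 1
      convert this using 2
      ring
  have h := hL'.le_dist (Sum.inl u) (Sum.inl v)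
  have h2 : ψ' (Sum.inl u) - ψ' (Sum.inl v) = - (2 * ((diamondGraph k).dist u v : ℤ)) := by
    show 2 * ψ u - 2 * ψ v = _
    simp [hψ]
  rw [h2, abs_neg, abs_of_nonneg (by positivity)] at h
  unfold diamondDist at *
  exact_mod_cast h

theorem two_le_dist_mid (k : ℕ) (e : DiamondEdge k) (i j : ℕ) (hij : i ≠ j) :
    2 ≤ diamondDist (k + 1) (Sum.inr (e, i) : DiamondVertex (k + 1)) (Sum.inr (e, j)) := by
  classical
  let ψ' : DiamondVertex (k + 1) → ℤ := fun a =>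
    match a with
    | Sum.inl _ => 0
    | Sum.inr (_, n) => if n = i then 1 else if n = j then -1 else 0
  have hL' : EdgeLip (k + 1) ψ' := by
    rintro ⟨e', n, b⟩
    cases b
    · show |0 - (if n = i then (1 : ℤ) else if n = j then -1 else 0)| ≤ 1
      split_ifs <;> simp
    · show |(if n = i then (1 : ℤ) else if n = j then -1 else 0) - 0| ≤ 1
      split_ifs <;> simp
  have h := hL'.le_dist (Sum.inr (e, i)) (Sum.inr (e, j))
  have h2 : ψ' (Sum.inr (e, i)) - ψ' (Sum.inr (e, j)) = 2 := by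
    show (if i = i then (1 : ℤ) else if i = j then -1 else 0) -
      (if j = i then (1 : ℤ) else if j = j then -1 else 0) = 2
    simp [hij.symm]
  rw [h2] at h
  exact_mod_cast h

end graph

section analytic

variable {X : Type*} [NormedAddCommGroup X] [NormedSpace ℝ X]

/-- unbundled form of the hypothesis on the maximum-based midpoint modulus -/
def MaxMid (X : Type*) [NormedAddCommGroup X] [NormedSpace ℝ X] : Prop :=
  ∀ t : ℝ, 0 < t → ∀ x : X, ‖x‖ = 1 → ∀ η : ℝ, 0 < η → ∃ S : Submodule ℝ X, CofSub S ∧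
    ∀ y ∈ S, ‖y‖ = 1 →
      Real.sqrt (1 + t ^ 2 / 4) - 1 - η ≤ max ‖x + t • y‖ ‖x - t • y‖ - 1

theorem norm_add_smul_le_max (x v : X) {lam : ℝ} (h0 : 0 ≤ lam) (h1 : lam ≤ 1) :
    ‖x + lam • v‖ ≤ max ‖x + v‖ ‖x - v‖ := by
  have e : x + lam • v = ((1 + lam) / 2) • (x + v) + ((1 - lam) / 2) • (x - v) := by
    module
  rw [e]
  refine (norm_add_le _ _).trans ?_
  rw [norm_smul, norm_smul, Real.norm_of_nonneg (by linarith), Real.norm_of_nonneg (by linarith)]
  have a1 : ‖x + v‖ ≤ max ‖x + v‖ ‖x - v‖ := le_max_left _ _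
  have a2 : ‖x - v‖ ≤ max ‖x + v‖ ‖x - v‖ := le_max_right _ _
  nlinarith

theorem norm_sub_smul_le_max (x v : X) {lam : ℝ} (h0 : 0 ≤ lam) (h1 : lam ≤ 1) :
    ‖x - lam • v‖ ≤ max ‖x + v‖ ‖x - v‖ := by
  have e : x - lam • v = ((1 - lam) / 2) • (x + v) + ((1 + lam) / 2) • (x - v) := by
    module
  rw [e]
  refine (norm_add_le _ _).trans ?_
  rw [norm_smul, norm_smul, Real.norm_of_nonneg (by linarith), Real.norm_of_nonneg (by linarith)]
  have a1 : ‖x + v‖ ≤ max ‖x + v‖ ‖x - v‖ := le_max_left _ _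
  have a2 : ‖x - v‖ ≤ max ‖x + v‖ ‖x - v‖ := le_max_right _ _
  nlinarith

/-- homogeneous form of the hypothesis -/
theorem MaxMid.homog (hM : MaxMid X) (x : X) (hx : 0 < ‖x‖) {r η : ℝ} (hr : 0 < r) (hη : 0 < η) :
    ∃ S : Submodule ℝ X, CofSub S ∧ ∀ v ∈ S, r ≤ ‖v‖ →
      Real.sqrt (‖x‖ ^ 2 + r ^ 2 / 4) - ‖x‖ * η ≤ max ‖x + v‖ ‖x - v‖ := by
  set a := ‖x‖ with ha
  have hx1 : ‖a⁻¹ • x‖ = 1 := by
    rw [norm_smul, Real.norm_of_nonneg (inv_pos.mpr hx).le, ← ha, inv_mul_cancel₀ hx.ne']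
  obtain ⟨S, hS, hSy⟩ := hM (r / a) (div_pos hr hx) _ hx1 η hη
  refine ⟨S, hS, fun v hv hrv => ?_⟩
  have hvpos : 0 < ‖v‖ := lt_of_lt_of_le hr hrv
  have hy1 : ‖‖v‖⁻¹ • v‖ = 1 := by
    rw [norm_smul, Real.norm_of_nonneg (inv_pos.mpr hvpos).le, inv_mul_cancel₀ hvpos.ne']
  have h1 := hSy _ (S.smul_mem _ hv) hy1
  set lam : ℝ := r / ‖v‖ with hlam
  have hlam0 : 0 ≤ lam := (div_pos hr hvpos).le
  have hlam1 : lam ≤ 1 := by rw [hlam, div_le_one hvpos]; exact hrv
  have e0 : (r / a) * ‖v‖⁻¹ = a⁻¹ * lam := by rw [hlam]; field_simp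
  have e1 : a⁻¹ • x + (r / a) • (‖v‖⁻¹ • v) = a⁻¹ • (x + lam • v) := by
    rw [smul_smul, e0, smul_add, smul_smul]
  have e2 : a⁻¹ • x - (r / a) • (‖v‖⁻¹ • v) = a⁻¹ • (x - lam • v) := by
    rw [smul_smul, e0, smul_sub, smul_smul]
  rw [e1, e2, norm_smul, norm_smul, Real.norm_of_nonneg (inv_pos.mpr hx).le] at h1
  have b1 := norm_add_smul_le_max x v hlam0 hlam1
  have b2 := norm_sub_smul_le_max x v hlam0 hlam1
  set M := max ‖x + v‖ ‖x - v‖ with hMdef
  have h2 : max (a⁻¹ * ‖x + lam • v‖) (a⁻¹ * ‖x - lam • v‖) ≤ a⁻¹ * M :=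
    max_le (mul_le_mul_of_nonneg_left b1 (inv_pos.mpr hx).le)
      (mul_le_mul_of_nonneg_left b2 (inv_pos.mpr hx).le)
  have h3 : Real.sqrt (1 + (r / a) ^ 2 / 4) - η ≤ a⁻¹ * M := by linarith
  have h4 : Real.sqrt (a ^ 2 + r ^ 2 / 4) = a * Real.sqrt (1 + (r / a) ^ 2 / 4) := by
    have : a ^ 2 + r ^ 2 / 4 = a ^ 2 * (1 + (r / a) ^ 2 / 4) := by field_simp
    rw [this, Real.sqrt_mul (by positivity), Real.sqrt_sq hx.le]
  rw [h4]
  have h5 : a * (Real.sqrt (1 + (r / a) ^ 2 / 4) - η) ≤ a * (a⁻¹ * M) :=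
    mul_le_mul_of_nonneg_left h3 hx.le
  have h6 : a * (a⁻¹ * M) = M := by field_simp
  linarith

/-- **Lemma S**: the midpoint inequality for a countably branching "diamond" in `X`. -/
theorem MaxMid.diamond (hM : MaxMid X) (x : X) (z : ℕ → X) {A l : ℝ} (hl : 0 ≤ l)
    (h1 : ∀ i, ‖x + z i‖ ≤ A) (h2 : ∀ i, ‖x - z i‖ ≤ A)
    (h3 : ∀ i j, i ≠ j → l ≤ ‖z i - z j‖) : ‖x‖ ^ 2 + l ^ 2 / 16 ≤ A ^ 2 := by
  have hA : 0 ≤ A := (norm_nonneg _).trans (h1 0)
  have hxA : ‖x‖ ≤ A := by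
    have e : x = (1 / 2 : ℝ) • (x + z 0) + (1 / 2 : ℝ) • (x - z 0) := by module
    calc ‖x‖ = ‖(1 / 2 : ℝ) • (x + z 0) + (1 / 2 : ℝ) • (x - z 0)‖ := by rw [← e]
      _ ≤ ‖(1 / 2 : ℝ) • (x + z 0)‖ + ‖(1 / 2 : ℝ) • (x - z 0)‖ := norm_add_le _ _
      _ = 1 / 2 * ‖x + z 0‖ + 1 / 2 * ‖x - z 0‖ := by
          rw [norm_smul, norm_smul, Real.norm_of_nonneg (by norm_num)]
      _ ≤ A := by linarith [h1 0, h2 0]
  have hzA : ∀ i, ‖z i‖ ≤ A := by
    intro i
    have e : z i = (1 / 2 : ℝ) • (x + z i) - (1 / 2 : ℝ) • (x - z i) := by module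
    calc ‖z i‖ = ‖(1 / 2 : ℝ) • (x + z i) - (1 / 2 : ℝ) • (x - z i)‖ := by rw [← e]
      _ ≤ ‖(1 / 2 : ℝ) • (x + z i)‖ + ‖(1 / 2 : ℝ) • (x - z i)‖ := norm_sub_le _ _
      _ = 1 / 2 * ‖x + z i‖ + 1 / 2 * ‖x - z i‖ := by
          rw [norm_smul, norm_smul, Real.norm_of_nonneg (by norm_num)]
      _ ≤ A := by linarith [h1 i, h2 i]
  rcases hl.eq_or_lt with hl0 | hlpos
  · rw [← hl0]
    have := pow_le_pow_left₀ (norm_nonneg x) hxA 2
    linarith
  rcases (norm_nonneg x).eq_or_lt with hx0 | hxpos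
  · rw [← hx0]
    have h4 : l ≤ 2 * A := by
      have := (h3 0 1 (by norm_num)).trans (norm_sub_le _ _)
      linarith [hzA 0, hzA 1]
    nlinarith
  -- main case
  have key : ∀ ε : ℝ, 0 < ε → ε < l / 2 →
      ‖x‖ ^ 2 + (l / 2 - ε) ^ 2 / 4 ≤ (A + ε + ‖x‖ * ε) ^ 2 := by
    intro ε hε hεl
    obtain ⟨S, hS, hSv⟩ := hM.homog x hxpos (r := l / 2 - ε) (η := ε) (by linarith) hε
    obtain ⟨i, j, hij, w, hw, hwz⟩ := exists_pair_near_cof hS z hzA (ε := 2 * ε) (by linarith)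
    have hv : (1 / 2 : ℝ) • w ∈ S := S.smul_mem _ hw
    have hwl : l - 2 * ε ≤ ‖w‖ := by
      have a1 := h3 i j hij.ne
      have a2 : ‖z i - z j‖ ≤ ‖z i - z j - w‖ + ‖w‖ := by
        have := norm_add_le (z i - z j - w) w
        simpa using this
      linarith
    have hvn : l / 2 - ε ≤ ‖(1 / 2 : ℝ) • w‖ := by
      rw [norm_smul, Real.norm_of_nonneg (by norm_num)]
      linarith
    have h5 := hSv _ hv hvn
    have b1 : ‖x + (1 / 2 : ℝ) • w‖ ≤ A + ε := by
      have e : x + (1 / 2 : ℝ) • w = (1 / 2 : ℝ) • (x + z i) + (1 / 2 : ℝ) • (x - z j)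
          - (1 / 2 : ℝ) • (z i - z j - w) := by module
      rw [e]
      refine (norm_sub_le _ _).trans ?_
      have := norm_add_le ((1 / 2 : ℝ) • (x + z i)) ((1 / 2 : ℝ) • (x - z j))
      rw [norm_smul, norm_smul, Real.norm_of_nonneg (by norm_num : (0 : ℝ) ≤ 1 / 2)] at this
      rw [norm_smul (1 / 2 : ℝ) (z i - z j - w), Real.norm_of_nonneg (by norm_num : (0 : ℝ) ≤ 1 / 2)]
      linarith [h1 i, h2 j]
    have b2 : ‖x - (1 / 2 : ℝ) • w‖ ≤ A + ε := by
      have e : x - (1 / 2 : ℝ) • w = (1 / 2 : ℝ) • (x - z i) + (1 / 2 : ℝ) • (x + z j)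
          + (1 / 2 : ℝ) • (z i - z j - w) := by module
      rw [e]
      refine (norm_add_le _ _).trans ?_
      have := norm_add_le ((1 / 2 : ℝ) • (x - z i)) ((1 / 2 : ℝ) • (x + z j))
      rw [norm_smul, norm_smul, Real.norm_of_nonneg (by norm_num : (0 : ℝ) ≤ 1 / 2)] at this
      rw [norm_smul (1 / 2 : ℝ) (z i - z j - w), Real.norm_of_nonneg (by norm_num : (0 : ℝ) ≤ 1 / 2)]
      linarith [h2 i, h1 j]
    have h6 : Real.sqrt (‖x‖ ^ 2 + (l / 2 - ε) ^ 2 / 4) ≤ A + ε + ‖x‖ * ε := by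
      have := max_le b1 b2
      linarith
    have h7 : 0 ≤ ‖x‖ ^ 2 + (l / 2 - ε) ^ 2 / 4 := by positivity
    calc ‖x‖ ^ 2 + (l / 2 - ε) ^ 2 / 4 = Real.sqrt (‖x‖ ^ 2 + (l / 2 - ε) ^ 2 / 4) ^ 2 :=
          (Real.sq_sqrt h7).symm
      _ ≤ (A + ε + ‖x‖ * ε) ^ 2 := pow_le_pow_left₀ (Real.sqrt_nonneg _) h6 2
  have t1 : Filter.Tendsto (fun ε : ℝ => ‖x‖ ^ 2 + (l / 2 - ε) ^ 2 / 4) (nhdsWithin 0 (Set.Ioi 0))
      (nhds (‖x‖ ^ 2 + (l / 2 - 0) ^ 2 / 4)) := by
    apply tendsto_nhdsWithin_of_tendsto_nhds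
    apply Continuous.tendsto
    fun_prop
  have t2 : Filter.Tendsto (fun ε : ℝ => (A + ε + ‖x‖ * ε) ^ 2) (nhdsWithin 0 (Set.Ioi 0))
      (nhds ((A + 0 + ‖x‖ * 0) ^ 2)) := by
    apply tendsto_nhdsWithin_of_tendsto_nhds
    apply Continuous.tendsto
    fun_prop
  have t3 := le_of_tendsto_of_tendsto t1 t2 (by
    filter_upwards [Ioo_mem_nhdsGT (show (0 : ℝ) < l / 2 by linarith)] with ε hε
    exact key ε hε.1 hε.2)
  have e1 : ‖x‖ ^ 2 + (l / 2 - 0) ^ 2 / 4 = ‖x‖ ^ 2 + l ^ 2 / 16 := by ring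
  have e2 : (A + 0 + ‖x‖ * 0) ^ 2 = A ^ 2 := by ring
  rw [e1, e2] at t3
  exact t3

/-- the inductive claim -/
theorem MaxMid.claim (hM : MaxMid X) (k : ℕ) : ∀ (f : DiamondVertex k → X) (s Lsq : ℝ), 0 ≤ s →
    (∀ u v, s * (diamondDist k u v : ℝ) ≤ ‖f u - f v‖) →
    (∀ e, ‖f (diamondSrc k e) - f (diamondTgt k e)‖ ^ 2 ≤ Lsq) →
    s ^ 2 * (1 + (k : ℝ) / 4) ≤ Lsq := by
  induction k with
  | zero =>
    intro f s Lsq hs h1 h2
    have a1 := h1 (false : DiamondVertex 0) true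
    have a2 : ‖f (false : DiamondVertex 0) - f true‖ ^ 2 ≤ Lsq := h2 ()
    have a3 : (1 : ℝ) ≤ (diamondDist 0 (false : DiamondVertex 0) true : ℝ) := by
      exact_mod_cast one_le_dist_zero
    have a4 : s ≤ ‖f (false : DiamondVertex 0) - f true‖ := by nlinarith
    have a5 := pow_le_pow_left₀ hs a4 2
    simp only [Nat.cast_zero, zero_div, add_zero, mul_one]
    linarith
  | succ k ih =>
    intro f s Lsq hs h1 h2
    have hg := ih (fun u => f (Sum.inl u)) (2 * s) (4 * Lsq - s ^ 2) (by linarith) ?_ ?_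
    · push_cast
      nlinarith
    · intro u v
      have a1 := h1 (Sum.inl u) (Sum.inl v)
      have a2 : (2 : ℝ) * (diamondDist k u v : ℝ) ≤
          (diamondDist (k + 1) (Sum.inl u : DiamondVertex (k + 1)) (Sum.inl v) : ℝ) := by
        exact_mod_cast two_mul_dist_le k u v
      have a3 := mul_le_mul_of_nonneg_left a2 hs
      show 2 * s * (diamondDist k u v : ℝ) ≤ ‖f (Sum.inl u) - f (Sum.inl v)‖
      linarith
    · intro e
      show ‖f (Sum.inl (diamondSrc k e)) - f (Sum.inl (diamondTgt k e))‖ ^ 2 ≤ 4 * Lsq - s ^ 2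
      set p := f (Sum.inl (diamondSrc k e)) with hp
      set q := f (Sum.inl (diamondTgt k e)) with hq
      have c1 : ∀ i, ‖p - f (Sum.inr (e, i))‖ ^ 2 ≤ Lsq := fun i => h2 (e, i, false)
      have c2 : ∀ i, ‖f (Sum.inr (e, i)) - q‖ ^ 2 ≤ Lsq := fun i => h2 (e, i, true)
      have hL : 0 ≤ Lsq := (sq_nonneg _).trans (c1 0)
      have key := hM.diamond ((1 / 2 : ℝ) • (p - q))
        (fun i => f (Sum.inr (e, i)) - (1 / 2 : ℝ) • (p + q)) (A := Real.sqrt Lsq) (l := 2 * s)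
        (by linarith) ?_ ?_ ?_
      · rw [Real.sq_sqrt hL, norm_smul, Real.norm_of_nonneg (by norm_num)] at key
        nlinarith
      · intro i
        have e1 : (1 / 2 : ℝ) • (p - q) + (f (Sum.inr (e, i)) - (1 / 2 : ℝ) • (p + q)) =
            f (Sum.inr (e, i)) - q := by module
        rw [e1]
        have := Real.abs_le_sqrt (c2 i)
        rwa [abs_of_nonneg (norm_nonneg _)] at this
      · intro i
        have e1 : (1 / 2 : ℝ) • (p - q) - (f (Sum.inr (e, i)) - (1 / 2 : ℝ) • (p + q)) =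
            p - f (Sum.inr (e, i)) := by module
        rw [e1]
        have := Real.abs_le_sqrt (c1 i)
        rwa [abs_of_nonneg (norm_nonneg _)] at this
      · intro i j hij
        have e1 : (f (Sum.inr (e, i)) - (1 / 2 : ℝ) • (p + q)) -
            (f (Sum.inr (e, j)) - (1 / 2 : ℝ) • (p + q)) =
            f (Sum.inr (e, i)) - f (Sum.inr (e, j)) := by abel
        rw [e1]
        have a1 := h1 (Sum.inr (e, i)) (Sum.inr (e, j))
        have a2 : (2 : ℝ) ≤
            (diamondDist (k + 1) (Sum.inr (e, i) : DiamondVertex (k + 1)) (Sum.inr (e, j)) : ℝ) := by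
          exact_mod_cast two_le_dist_mid k e i j hij
        have a3 := mul_le_mul_of_nonneg_left a2 hs
        linarith

end analytic

section bridge

attribute [local instance] RealBanach.normed RealBanach.space

theorem maxMid_of (E : RealBanach)
    (hmid : ∀ t : ℝ, 0 < t → E.MaxMidpointModulusGE E.norm t (Real.sqrt (1 + t ^ 2 / 4) - 1)) :
    MaxMid E.X := by
  intro t ht x hx η hη
  obtain ⟨F, hF, hy⟩ := hmid t ht x hx η hη
  obtain ⟨S, rfl, hS⟩ := exists_cofSub_of_isCof E hF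
  exact ⟨S, hS, hy⟩

theorem diamond_distortion (E : Crest.AnalysisR.RealBanach)
    (hmid : ∀ t : ℝ, 0 < t → E.MaxMidpointModulusGE E.norm t (Real.sqrt (1 + t ^ 2 / 4) - 1))
    (k : ℕ) (f : Crest.AnalysisR.DiamondVertex k → E.X) (D : ℝ) (h : E.HasDistortionLE k f D) :
    1 + (k : ℝ) / 4 ≤ D ^ 2 := by
  obtain ⟨s, hs, hf⟩ := h
  have key := (maxMid_of E hmid).claim k f s ((D * s) ^ 2) hs.le (fun u v => (hf u v).1) ?_
  · have hs2 : 0 < s ^ 2 := by positivity
    have : s ^ 2 * (1 + (k : ℝ) / 4) ≤ s ^ 2 * D ^ 2 := by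
      calc s ^ 2 * (1 + (k : ℝ) / 4) ≤ (D * s) ^ 2 := key
        _ = s ^ 2 * D ^ 2 := by ring
    exact le_of_mul_le_mul_left this hs2
  · intro e
    have a1 := (hf (diamondSrc k e) (diamondTgt k e)).2
    have a2 : diamondDist k (diamondSrc k e) (diamondTgt k e) ≤ 1 := dist_edge_le_one k e
    rcases Nat.le_one_iff_eq_zero_or_eq_one.1 a2 with a3 | a3
    · rw [a3] at a1
      simp only [Nat.cast_zero, mul_zero] at a1
      have : ‖f (diamondSrc k e) - f (diamondTgt k e)‖ = 0 := le_antisymm a1 (norm_nonneg _)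
      rw [this]
      have := sq_nonneg (D * s)
      simpa using this
    · rw [a3] at a1
      simp only [Nat.cast_one, mul_one] at a1
      exact pow_le_pow_left₀ (norm_nonneg _) a1 2

end bridge

end Crest.Agent.Lib_helper1_Diamond
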