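import Mathlib
import Crest.Agent.Lib_helper1_Cover

set_option autoImplicit false
open MeasureTheory

namespace Crest.Agent.Lib_helper1_Local

open Crest.Agent.Lib_helper1_Frame Crest.Agent.Lib_helper1_Cover Crest.Agent.Lib_helper1_Lattice

theorem mem_fbox_std (a0 b0 a1 b1 : ℝ) (x : E2) :
    x ∈ fbox (EuclideanSpace.basisFun (Fin 2) ℝ) a0 b0 a1 b1 ↔
      x 0 ∈ Set.Ico a0 b0 ∧ x 1 ∈ Set.Ico a1 b1 := by
  simp [fbox, EuclideanSpace.inner_single_left]

theorem abs_apply_le_norm (x : E2) (i : Fin 2) : |x i| ≤ ‖x‖ := by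
  have := PiLp.norm_apply_le x i
  simpa using this

theorem local_cover
    (V : E2 → E2) (h L : ℝ) (hL : 0 < L)
    (A : E2 →L[ℝ] E2) (b : OrthonormalBasis (Fin 2) ℝ E2) (β γ : ℝ)
    (hA0 : ∀ u, inner ℝ (b 0) (A u) = β * inner ℝ (b 1) u)
    (hA1 : ∀ u, inner ℝ (b 1) (A u) = γ * inner ℝ (b 0) u)
    (Bd θ : ℝ) (hβ : |β| ≤ Bd) (hγ : |γ| ≤ Bd) (h0 : 0 ≤ β * γ) (hθ : 0 < θ)
    (h1 : θ ≤ 1 - L ^ 2 * (β * γ))
    (K : ℝ) (hK : K = (1 + L * Bd) / (2 * θ))
    (ω τ : ℝ) (hτ : 0 < τ) (hω0 : 0 ≤ ω) (hω : L * ω * (2 * K) ≤ τ / 2)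
    (N : Set E2)
    (happ : ∀ x ∈ N, ∀ y ∈ N, ‖V x - V y - A (x - y)‖ ≤ ω * ‖x - y‖)
    (Jmax : ℝ) (hJ0 : 0 ≤ Jmax) (hJ : ∀ x ∈ N, Jf h (V x) ≤ Jmax)
    (x0 y0 ρ r : ℝ) (hρ : 0 < ρ) (hr : 0 < r)
    (hN : fbox (EuclideanSpace.basisFun (Fin 2) ℝ) (x0 - (2 * K + 1) * r) (x0 + ρ + (2 * K + 1) * r)
      (y0 - (2 * K + 1) * r) (y0 + ρ + (2 * K + 1) * r) ⊆ N)
    (T : Set E2) (hT : ∀ x ∈ T, x 0 ∈ Set.Icc x0 (x0 + ρ) ∧ x 1 ∈ Set.Icc y0 (y0 + ρ)) :
    Covers h {z | ∃ p ∈ T, |z.1| ≤ L ∧ z.2 = p + z.1 • V p}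
      ((1 + τ) ^ 2 * (ρ + 2 * ((2 * K + 1) * r)) ^ 2 * Jmax) := by
  classical
  have hBd : 0 ≤ Bd := le_trans (abs_nonneg _) hβ
  have hK0 : 0 < K := by rw [hK]; positivity
  set w := (2 * K + 1) * r with hw
  have hw0 : 0 < w := by positivity
  set P : ℤ × ℤ → E2 := fun q => (r * q.1) • b 0 + (r * q.2) • b 1 with hP
  have b00 : inner ℝ (b 0) (b 0) = (1 : ℝ) := by
    rw [real_inner_self_eq_norm_sq, b.orthonormal.1 0]; norm_num
  have b11 : inner ℝ (b 1) (b 1) = (1 : ℝ) := by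
    rw [real_inner_self_eq_norm_sq, b.orthonormal.1 1]; norm_num
  have b01 : inner ℝ (b 0) (b 1) = (0 : ℝ) := b.orthonormal.2 (by decide)
  have b10 : inner ℝ (b 1) (b 0) = (0 : ℝ) := b.orthonormal.2 (by decide)
  have hP0 : ∀ q, inner ℝ (b 0) (P q) = r * q.1 := by
    intro q
    simp only [hP, inner_add_right, inner_smul_right, b00, b01]; ring
  have hP1 : ∀ q, inner ℝ (b 1) (P q) = r * q.2 := by
    intro q
    simp only [hP, inner_add_right, inner_smul_right, b10, b11]; ring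
  set QQ := fbox (EuclideanSpace.basisFun (Fin 2) ℝ) (x0 - w) (x0 + ρ + w) (y0 - w) (y0 + ρ + w)
    with hQQ
  have hvolQQ : volume QQ ≤ ENNReal.ofReal ((ρ + 2 * w) ^ 2) := by
    rw [hQQ, volume_fbox, ← ENNReal.ofReal_mul (by linarith)]
    apply le_of_eq
    congr 1
    ring
  set Iset : Set (ℤ × ℤ) := {q | gbox b (-(r / 2)) (-(r / 2)) r q ⊆ QQ} with hIset
  have hcard : ∀ I : Finset (ℤ × ℤ), (↑I ⊆ Iset) → (I.card : ℝ) * r ^ 2 ≤ (ρ + 2 * w) ^ 2 :=
    fun I hI => card_mul_le b _ _ r hr I QQ _ (by positivity) hvolQQ (fun q hq => hI hq)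
  have hfin : Iset.Finite := by
    by_contra hinf
    obtain ⟨t, ht, htc⟩ := (Set.not_finite.1 hinf : Iset.Infinite).exists_subset_card_eq
      (⌈(ρ + 2 * w) ^ 2 / r ^ 2⌉₊ + 1)
    have h2 := hcard t ht
    rw [htc] at h2
    have h3 : (ρ + 2 * w) ^ 2 / r ^ 2 ≤ ⌈(ρ + 2 * w) ^ 2 / r ^ 2⌉₊ := Nat.le_ceil _
    rw [div_le_iff₀ (by positivity)] at h3
    push_cast at h2
    linarith [sq_pos_of_pos hr]
  set I := hfin.toFinset with hI
  -- the centre of a grid box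
  have hcentre : ∀ q, P q ∈ gbox b (-(r / 2)) (-(r / 2)) r q := by
    intro q
    simp only [gbox, fbox, Set.mem_ofPred_eq, Set.mem_Ico, hP0, hP1]
    refine ⟨⟨?_, ?_⟩, ?_, ?_⟩ <;> linarith
  -- points of a grid box are close to the centre
  have hclose : ∀ q, ∀ x ∈ gbox b (-(r / 2)) (-(r / 2)) r q, ‖x - P q‖ < r := by
    intro q x hx
    simp only [gbox, fbox, Set.mem_ofPred_eq, Set.mem_Ico] at hx
    obtain ⟨⟨h1, h2⟩, h3, h4⟩ := hx
    have hn := frame_norm_sq b (x - P q)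
    rw [inner_sub_right, inner_sub_right, hP0, hP1] at hn
    have ha : (inner ℝ (b 0) x - r * q.1) ^ 2 ≤ (r / 2) ^ 2 := by
      apply sq_le_sq'  <;> linarith
    have hb : (inner ℝ (b 1) x - r * q.2) ^ 2 ≤ (r / 2) ^ 2 := by
      apply sq_le_sq'  <;> linarith
    have : ‖x - P q‖ ^ 2 < r ^ 2 := by linarith [sq_pos_of_pos hr]
    exact lt_of_pow_lt_pow_left₀ 2 hr.le this
  -- membership criterion
  have hmemI : ∀ q, (x0 - 2 * K * r ≤ P q 0 ∧ P q 0 ≤ x0 + ρ + 2 * K * r) →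
      (y0 - 2 * K * r ≤ P q 1 ∧ P q 1 ≤ y0 + ρ + 2 * K * r) → q ∈ I := by
    intro q hq0 hq1
    rw [hI, Set.Finite.mem_toFinset]
    intro x hx
    have hc := hclose q x hx
    have c0 := abs_apply_le_norm (x - P q) 0
    have c1 := abs_apply_le_norm (x - P q) 1
    simp only [PiLp.sub_apply] at c0 c1
    rw [abs_le] at c0 c1
    rw [hQQ, mem_fbox_std]
    simp only [Set.mem_Ico, hw]
    refine ⟨⟨?_, ?_⟩, ?_, ?_⟩ <;> linarith
  have hPN : ∀ q ∈ I, P q ∈ N := by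
    intro q hq
    rw [hI, Set.Finite.mem_toFinset] at hq
    exact hN (hq (hcentre q))
  set r' := r * (1 + τ) with hr'
  have hr'0 : 0 < r' := by positivity
  refine ⟨{q // q ∈ I}, inferInstance, fun q => P q - (r' / 2) • b 0 - (r' / 2) • b 1,
    fun _ => r' • b 0, fun _ => r' • b 1, fun q => V (P q), ?_, ?_, ?_⟩
  · intro q
    refine ⟨?_, ?_, ?_⟩
    · intro hzero
      have := congrArg norm hzero
      rw [norm_smul, b.orthonormal.1 0, norm_zero, mul_one, Real.norm_eq_abs,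
        abs_of_pos hr'0] at this
      linarith
    · rw [norm_smul, norm_smul, b.orthonormal.1 0, b.orthonormal.1 1]
    · rw [inner_smul_left, inner_smul_right, b01]; simp
  · rintro ⟨s, ξ0⟩ ⟨p, hpT, hs, hz⟩
    simp only at hs hz
    have hs2 : s ^ 2 ≤ L ^ 2 := by
      rw [← sq_abs s]; exact pow_le_pow_left₀ (abs_nonneg _) hs 2
    have hprod : (s * β) * (s * γ) = s ^ 2 * (β * γ) := by ring
    have hprod0 : 0 ≤ (s * β) * (s * γ) := by rw [hprod]; positivity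
    have hprod1 : (s * β) * (s * γ) < 1 := by
      rw [hprod]; linarith [mul_le_mul_of_nonneg_right hs2 h0]
    set X := inner ℝ (b 0) p / r with hX
    set Y := inner ℝ (b 1) p / r with hY
    obtain ⟨m, n, hm, hn⟩ := lattice_cover (s * β) (s * γ) (X + s * β * Y) (Y + s * γ * X)
      hprod0 hprod1
    set q : ℤ × ℤ := (m, n) with hq
    set u := p - P q with hu
    have hu0 : inner ℝ (b 0) u = r * (X - m) := by
      rw [hu, inner_sub_right, hP0, hX]; field_simp; simp [hq]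
    have hu1 : inner ℝ (b 1) u = r * (Y - n) := by
      rw [hu, inner_sub_right, hP1, hY]; field_simp; simp [hq]
    have hc0 : |inner ℝ (b 0) u + s * β * inner ℝ (b 1) u| ≤ r / 2 := by
      rw [hu0, hu1]
      have : r * (X - m) + s * β * (r * (Y - n)) = r * (X + s * β * Y - m - s * β * n) := by ring
      rw [this, abs_mul, abs_of_pos hr]
      have := mul_le_mul_of_nonneg_left hm hr.le
      linarith
    have hc1 : |inner ℝ (b 1) u + s * γ * inner ℝ (b 0) u| ≤ r / 2 := by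
      rw [hu0, hu1]
      have : r * (Y - n) + s * γ * (r * (X - m)) = r * (Y + s * γ * X - n - s * γ * m) := by ring
      rw [this, abs_mul, abs_of_pos hr]
      have := mul_le_mul_of_nonneg_left hn hr.le
      linarith
    obtain ⟨hb0, hb1⟩ := frame_inverse_bound β γ s L Bd θ r _ _ hL.le hs hβ hγ h0 hθ h1 hc0 hc1
    rw [← hK] at hb0 hb1
    have hun : ‖u‖ ≤ 2 * K * r := by
      have hn2 := frame_norm_sq b u
      have h0' : inner ℝ (b 0) u ^ 2 ≤ (K * r) ^ 2 := sq_le_sq' (abs_le.1 hb0).1 (abs_le.1 hb0).2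
      have h1' : inner ℝ (b 1) u ^ 2 ≤ (K * r) ^ 2 := sq_le_sq' (abs_le.1 hb1).1 (abs_le.1 hb1).2
      have h2' : ‖u‖ ^ 2 ≤ (2 * K * r) ^ 2 := by
        have : 0 ≤ (K * r) ^ 2 := by positivity
        linarith
      exact le_of_pow_le_pow_left₀ two_ne_zero (by positivity) h2'
    have hp := hT p hpT
    have d0 := (abs_apply_le_norm u 0).trans hun
    have d1 := (abs_apply_le_norm u 1).trans hun
    simp only [hu, PiLp.sub_apply] at d0 d1
    rw [abs_le] at d0 d1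
    obtain ⟨⟨hp1, hp2⟩, hp3, hp4⟩ := hp
    have hqI : q ∈ I := hmemI q ⟨by linarith, by linarith⟩ ⟨by linarith, by linarith⟩
    have hpN : p ∈ N := by
      apply hN
      rw [mem_fbox_std]
      simp only [Set.mem_Ico]
      refine ⟨⟨?_, ?_⟩, ?_, ?_⟩ <;> linarith
    have herr := happ p hpN (P q) (hPN q hqI)
    rw [← hu] at herr
    set err := V p - V (P q) - A u with herrdef
    have herr' : ‖err‖ ≤ ω * (2 * K * r) := herr.trans (mul_le_mul_of_nonneg_left hun hω0)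
    set ξ := p + s • V p - P q - s • V (P q) with hξdef
    have hξ : ξ = u + s • A u + s • err := by
      rw [hξdef, herrdef, hu]; module
    have hsmall : ∀ i : Fin 2, |s * inner ℝ (b i) err| ≤ τ * r / 2 := by
      intro i
      rw [abs_mul]
      calc |s| * |inner ℝ (b i) err| ≤ L * (ω * (2 * K * r)) :=
            mul_le_mul hs ((frame_abs_inner_le b i err).trans herr') (abs_nonneg _) hL.le
        _ = (L * ω * (2 * K)) * r := by ring
        _ ≤ τ / 2 * r := mul_le_mul_of_nonneg_right hω hr.le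
        _ = τ * r / 2 := by ring
    have hi0 : |inner ℝ (b 0) ξ| ≤ r' / 2 := by
      have : inner ℝ (b 0) ξ = (inner ℝ (b 0) u + s * β * inner ℝ (b 1) u)
          + s * inner ℝ (b 0) err := by
        rw [hξ, inner_add_right, inner_add_right, inner_smul_right, inner_smul_right, hA0]; ring
      rw [this]
      calc _ ≤ |inner ℝ (b 0) u + s * β * inner ℝ (b 1) u| + |s * inner ℝ (b 0) err| :=
            abs_add_le _ _
        _ ≤ r / 2 + τ * r / 2 := add_le_add hc0 (hsmall 0)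
        _ = r' / 2 := by rw [hr']; ring
    have hi1 : |inner ℝ (b 1) ξ| ≤ r' / 2 := by
      have : inner ℝ (b 1) ξ = (inner ℝ (b 1) u + s * γ * inner ℝ (b 0) u)
          + s * inner ℝ (b 1) err := by
        rw [hξ, inner_add_right, inner_add_right, inner_smul_right, inner_smul_right, hA1]; ring
      rw [this]
      calc _ ≤ |inner ℝ (b 1) u + s * γ * inner ℝ (b 0) u| + |s * inner ℝ (b 1) err| :=
            abs_add_le _ _
        _ ≤ r / 2 + τ * r / 2 := add_le_add hc1 (hsmall 1)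
        _ = r' / 2 := by rw [hr']; ring
    rw [abs_le] at hi0 hi1
    refine Set.mem_iUnion.2 ⟨⟨q, hqI⟩, (inner ℝ (b 0) ξ + r' / 2) / r',
      ⟨div_nonneg (by linarith) hr'0.le, (div_le_one hr'0).2 (by linarith)⟩,
      (inner ℝ (b 1) ξ + r' / 2) / r',
      ⟨div_nonneg (by linarith) hr'0.le, (div_le_one hr'0).2 (by linarith)⟩, ?_⟩
    simp only
    rw [hz, smul_smul, smul_smul, div_mul_cancel₀ _ hr'0.ne', div_mul_cancel₀ _ hr'0.ne']
    have hexp := frame_expand b ξ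
    have h3 : p + s • V p = ξ + P q + s • V (P q) := by rw [hξdef]; abel
    rw [h3]
    conv_lhs => rw [hexp]
    module
  · have hterm : ∀ q : {q // q ∈ I}, ‖r' • b 0‖ ^ 2 /
        Real.sqrt (1 + (V (P q) 0) ^ 2 + h ^ 2 * (V (P q) 1) ^ 2) ≤ r' ^ 2 * Jmax := by
      intro q
      have := hJ (P q) (hPN q q.2)
      rw [norm_smul, b.orthonormal.1 0, mul_one, Real.norm_eq_abs, sq_abs, div_eq_mul_one_div]
      exact mul_le_mul_of_nonneg_left this (by positivity)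
    calc ∑ q : {q // q ∈ I}, ‖r' • b 0‖ ^ 2 /
          Real.sqrt (1 + (V (P q) 0) ^ 2 + h ^ 2 * (V (P q) 1) ^ 2)
        ≤ ∑ q : {q // q ∈ I}, r' ^ 2 * Jmax := Finset.sum_le_sum (fun q _ => hterm q)
      _ = (I.card : ℝ) * (r' ^ 2 * Jmax) := by
          simp [Finset.sum_const]
      _ = (1 + τ) ^ 2 * ((I.card : ℝ) * r ^ 2) * Jmax := by rw [hr']; ring
      _ ≤ (1 + τ) ^ 2 * (ρ + 2 * w) ^ 2 * Jmax := by
          have := hcard I (by intro q hq; simpa [hI] using hq)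
          gcongr

end Crest.Agent.Lib_helper1_Local
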