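import Mathlib
import Crest.Agent.Lib_helper1_Local

set_option autoImplicit false
open MeasureTheory

namespace Crest.Agent.Lib_helper1_Global

open Crest.Agent.Lib_helper1_Frame Crest.Agent.Lib_helper1_Cover Crest.Agent.Lib_helper1_Lattice
  Crest.Agent.Lib_helper1_Local

local notation "e2" => EuclideanSpace.basisFun (Fin 2) ℝ

theorem norm_le_of_abs_le (x : E2) (c : ℝ) (h0 : |x 0| ≤ c) (h1 : |x 1| ≤ c) : ‖x‖ ≤ 2 * c := by
  have hc : 0 ≤ c := le_trans (abs_nonneg _) h0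
  have hn : ‖x‖ ^ 2 = x 0 ^ 2 + x 1 ^ 2 := by
    rw [EuclideanSpace.norm_sq_eq, Fin.sum_univ_two]; simp
  have a0 : x 0 ^ 2 ≤ c ^ 2 := sq_le_sq' (abs_le.1 h0).1 (abs_le.1 h0).2
  have a1 : x 1 ^ 2 ≤ c ^ 2 := sq_le_sq' (abs_le.1 h1).1 (abs_le.1 h1).2
  have : ‖x‖ ^ 2 ≤ (2 * c) ^ 2 := by nlinarith
  exact le_of_pow_le_pow_left₀ two_ne_zero (by positivity) this

theorem mem_gbox_std (ρ : ℝ) (q : ℤ × ℤ) (x : E2) :
    x ∈ gbox e2 0 0 ρ q ↔
      x 0 ∈ Set.Ico (ρ * q.1) (ρ * q.1 + ρ) ∧ x 1 ∈ Set.Ico (ρ * q.2) (ρ * q.2 + ρ) := by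
  rw [gbox, mem_fbox_std]
  simp only [zero_add, mul_add, mul_one]

theorem dist_le_of_mem_gbox (ρ : ℝ) (q : ℤ × ℤ) (x y : E2) (hx : x ∈ gbox e2 0 0 ρ q)
    (hy : y ∈ gbox e2 0 0 ρ q) : dist x y ≤ 2 * ρ := by
  rw [mem_gbox_std] at hx hy
  obtain ⟨⟨a1, a2⟩, a3, a4⟩ := hx
  obtain ⟨⟨b1, b2⟩, b3, b4⟩ := hy
  rw [dist_eq_norm]
  apply norm_le_of_abs_le
  · rw [PiLp.sub_apply, abs_le]; constructor <;> linarith
  · rw [PiLp.sub_apply, abs_le]; constructor <;> linarith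

/-- the coarse cells meeting `D` -/
theorem exists_cells (D : Set E2) (hD : IsCompact D) (ρ τ : ℝ) (hρ : 0 < ρ) (hτ : 0 ≤ τ)
    (hvol : volume (Metric.cthickening (2 * ρ) D) ≤ volume D + ENNReal.ofReal τ) :
    ∃ C : Finset (ℤ × ℤ), (∀ q ∈ C, (D ∩ gbox e2 0 0 ρ q).Nonempty) ∧
      D ⊆ ⋃ q ∈ C, gbox e2 0 0 ρ q ∧ (C.card : ℝ) * ρ ^ 2 ≤ volume.real D + τ := by
  classical
  set Cset : Set (ℤ × ℤ) := {q | (D ∩ gbox e2 0 0 ρ q).Nonempty} with hCset
  have hsub : ∀ q ∈ Cset, gbox e2 0 0 ρ q ⊆ Metric.cthickening (2 * ρ) D := by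
    rintro q ⟨p, hpD, hpq⟩ x hx
    apply Metric.closedBall_subset_cthickening hpD
    rw [Metric.mem_closedBall]
    exact dist_le_of_mem_gbox ρ q x p hx hpq
  have hvol' : volume (Metric.cthickening (2 * ρ) D) ≤ ENNReal.ofReal (volume.real D + τ) := by
    rw [ENNReal.ofReal_add measureReal_nonneg hτ, measureReal_def,
      ENNReal.ofReal_toReal hD.measure_lt_top.ne]
    exact hvol
  have hcard : ∀ I : Finset (ℤ × ℤ), (↑I ⊆ Cset) → (I.card : ℝ) * ρ ^ 2 ≤ volume.real D + τ :=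
    fun I hI => card_mul_le e2 0 0 ρ hρ I _ _ (add_nonneg measureReal_nonneg hτ) hvol'
      (fun q hq => hsub q (hI hq))
  have hfin : Cset.Finite := by
    by_contra hinf
    obtain ⟨t, ht, htc⟩ := (Set.not_finite.1 hinf : Cset.Infinite).exists_subset_card_eq
      (⌈(volume.real D + τ) / ρ ^ 2⌉₊ + 1)
    have h2 := hcard t ht
    rw [htc] at h2
    have h3 : (volume.real D + τ) / ρ ^ 2 ≤ ⌈(volume.real D + τ) / ρ ^ 2⌉₊ := Nat.le_ceil _
    rw [div_le_iff₀ (by positivity)] at h3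
    push_cast at h2
    linarith [sq_pos_of_pos hρ]
  refine ⟨hfin.toFinset, ?_, ?_, ?_⟩
  · intro q hq
    exact (Set.Finite.mem_toFinset hfin).1 hq
  · intro p hp
    have hmem : p ∈ gbox e2 0 0 ρ (⌊(inner ℝ (e2 0) p - 0) / ρ⌋, ⌊(inner ℝ (e2 1) p - 0) / ρ⌋) :=
      (mem_gbox_iff e2 0 0 ρ hρ _ p).2 ⟨rfl, rfl⟩
    refine Set.mem_iUnion₂.2 ⟨_, ?_, hmem⟩
    exact (Set.Finite.mem_toFinset hfin).2 ⟨p, hp, hmem⟩
  · exact hcard _ (by intro q hq; exact (Set.Finite.mem_toFinset hfin).1 hq)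

/-- Riemann-type upper bound -/
theorem riemann_bound (D : Set E2) (hD : IsCompact D) (F : E2 → ℝ) (hF : ContinuousOn F D)
    (ρ τ : ℝ) (hρ : 0 < ρ) (C : Finset (ℤ × ℤ)) (hcov : D ⊆ ⋃ q ∈ C, gbox e2 0 0 ρ q)
    (c : ℤ × ℤ → ℝ) (hc1 : ∀ q ∈ C, c q ≤ 1)
    (hcF : ∀ q ∈ C, ∀ x ∈ D ∩ gbox e2 0 0 ρ q, c q ≤ F x + τ) :
    ∑ q ∈ C, ρ ^ 2 * c q ≤ (∫ x in D, F x) + τ * volume.real D +
      ((C.card : ℝ) * ρ ^ 2 - volume.real D) := by
  classical
  have hDm : MeasurableSet D := hD.measurableSet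
  have hint : IntegrableOn F D volume := hF.integrableOn_compact hD
  have hm : ∀ q ∈ C, MeasurableSet (D ∩ gbox e2 0 0 ρ q) :=
    fun q _ => hDm.inter (measurableSet_gbox _ _ _ _ _)
  have hdisj : Set.PairwiseDisjoint (↑C) (fun q => D ∩ gbox e2 0 0 ρ q) := by
    intro q hq q' hq' hne
    exact (pairwiseDisjoint_gbox e2 0 0 ρ hρ (↑C) hq hq' hne).mono Set.inter_subset_right
      Set.inter_subset_right
  have hDeq : D = ⋃ q ∈ C, D ∩ gbox e2 0 0 ρ q := by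
    rw [← Set.inter_iUnion₂]
    exact (Set.inter_eq_left.2 hcov).symm
  have hfinite : ∀ q ∈ C, volume (D ∩ gbox e2 0 0 ρ q) ≠ ⊤ := fun q _ =>
    (lt_of_le_of_lt (measure_mono Set.inter_subset_left) hD.measure_lt_top).ne
  have hsumμ : volume.real D = ∑ q ∈ C, volume.real (D ∩ gbox e2 0 0 ρ q) := by
    conv_lhs => rw [hDeq]
    exact measureReal_biUnion_finset hdisj hm hfinite
  have hsumI : ∫ x in D, F x = ∑ q ∈ C, ∫ x in D ∩ gbox e2 0 0 ρ q, F x := by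
    conv_lhs => rw [hDeq]
    exact integral_biUnion_finset C hm hdisj (fun q _ => hint.mono_set Set.inter_subset_left)
  have hcell : ∀ q ∈ C, ρ ^ 2 * c q ≤ (∫ x in D ∩ gbox e2 0 0 ρ q, F x) +
      τ * volume.real (D ∩ gbox e2 0 0 ρ q) + (ρ ^ 2 - volume.real (D ∩ gbox e2 0 0 ρ q)) := by
    intro q hq
    have h1 : (c q - τ) * volume.real (D ∩ gbox e2 0 0 ρ q) ≤ ∫ x in D ∩ gbox e2 0 0 ρ q, F x :=
      setIntegral_ge_of_const_le_real (hm q hq) (hfinite q hq)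
        (fun x hx => by linarith [hcF q hq x hx]) (hint.mono_set Set.inter_subset_left)
    have h2 : volume.real (D ∩ gbox e2 0 0 ρ q) ≤ ρ ^ 2 := by
      have h3 : volume (D ∩ gbox e2 0 0 ρ q) ≤ ENNReal.ofReal (ρ ^ 2) := by
        rw [← volume_gbox e2 0 0 ρ hρ q]
        exact measure_mono Set.inter_subset_right
      rw [measureReal_def]
      exact ENNReal.toReal_le_of_le_ofReal (by positivity) h3
    have h4 := hc1 q hq
    nlinarith
  calc ∑ q ∈ C, ρ ^ 2 * c q ≤ ∑ q ∈ C, ((∫ x in D ∩ gbox e2 0 0 ρ q, F x) +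
      τ * volume.real (D ∩ gbox e2 0 0 ρ q) + (ρ ^ 2 - volume.real (D ∩ gbox e2 0 0 ρ q))) :=
        Finset.sum_le_sum hcell
    _ = _ := by
      rw [Finset.sum_add_distrib, Finset.sum_add_distrib, Finset.sum_sub_distrib, ← Finset.mul_sum,
        ← hsumμ, ← hsumI, Finset.sum_const, nsmul_eq_mul]

theorem final_arith (I m0 τ ε S : ℝ) (hI0 : 0 ≤ I) (hI : I ≤ m0) (hτ0 : 0 < τ) (hτ1 : τ ≤ 1)
    (hτε : τ * (23 * m0 + 16) ≤ ε) (hS : S ≤ I + τ * m0 + τ + τ * (m0 + τ)) :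
    (1 + τ) ^ 3 * S ≤ I + ε := by
  have h1 : (1 + τ) ^ 3 ≤ 1 + 7 * τ := by nlinarith [mul_pos hτ0 hτ0]
  have hm0 : 0 ≤ m0 := hI0.trans hI
  have h2 : S ≤ I + τ * (2 * m0 + 2) := by nlinarith
  have h3 : 0 ≤ I + τ * (2 * m0 + 2) := by positivity
  calc (1 + τ) ^ 3 * S ≤ (1 + τ) ^ 3 * (I + τ * (2 * m0 + 2)) :=
        mul_le_mul_of_nonneg_left h2 (by positivity)
    _ ≤ (1 + 7 * τ) * (I + τ * (2 * m0 + 2)) := mul_le_mul_of_nonneg_right h1 h3
    _ ≤ I + τ * (23 * m0 + 16) := by nlinarith [mul_pos hτ0 hτ0, mul_nonneg hτ0.le hm0]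
    _ ≤ I + ε := by linarith

theorem continuous_Jf (h : ℝ) : Continuous (Jf h) := by
  unfold Jf
  refine Continuous.div continuous_const (Real.continuous_sqrt.comp (by fun_prop)) (fun g => ?_)
  have : 0 < 1 + (g 0) ^ 2 + h ^ 2 * (g 1) ^ 2 := by positivity
  exact (Real.sqrt_pos.2 this).ne'

theorem main
    (D : Set E2) (hD : IsCompact D) (V : E2 → E2) (U : Set E2)
    (hU : IsOpen U) (hDU : D ⊆ U) (hV : ContDiffOn ℝ 1 V U) (L h : ℝ) (hL : 0 < L)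
    (htr : ∀ p ∈ D, LinearMap.trace ℝ _ (fderiv ℝ V p).toLinearMap = 0)
    (hdet : ∀ p ∈ D, -(L ^ 2)⁻¹ < LinearMap.det (fderiv ℝ V p).toLinearMap ∧
      LinearMap.det (fderiv ℝ V p).toLinearMap ≤ 0)
    (ε : ℝ) (hε : 0 < ε) :
    Covers h {z : ℝ × E2 | ∃ p ∈ D, |z.1| ≤ L ∧ z.2 = p + z.1 • V p}
      ((∫ p in D, Jf h (V p)) + ε) := by
  classical
  rcases D.eq_empty_or_nonempty with rfl | hne
  · refine (Covers.empty h).mono ?_ ?_
    · rintro z ⟨p, hp, _⟩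
      exact hp.elim
    · simpa using hε.le
  obtain ⟨δ0, hδ0, hδ0U⟩ := hD.exists_cthickening_subset_open hU hDU
  set K0 := Metric.cthickening δ0 D with hK0def
  have hK0 : IsCompact K0 := hD.cthickening
  have hDK0 : D ⊆ K0 := Metric.self_subset_cthickening D
  have hcont : ContinuousOn (fderiv ℝ V) U := hV.continuousOn_fderiv_of_isOpen hU le_rfl
  obtain ⟨Bd, hBd⟩ := hD.exists_bound_of_continuousOn (hcont.mono hDU)
  have hdetcont : ContinuousOn (fun p => 1 + L ^ 2 * (fderiv ℝ V p).det) D :=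
    continuousOn_const.add (continuousOn_const.mul
      (ContinuousLinearMap.continuous_det.comp_continuousOn (hcont.mono hDU)))
  obtain ⟨pm, hpm, hmin⟩ := hD.exists_isMinOn hne hdetcont
  set θ := 1 + L ^ 2 * (fderiv ℝ V pm).det with hθdef
  have hL2 : 0 < L ^ 2 := by positivity
  have hθ : 0 < θ := by
    have h1 : -(L ^ 2)⁻¹ < (fderiv ℝ V pm).det := (hdet pm hpm).1
    have h2 : L ^ 2 * (-(L ^ 2)⁻¹) < L ^ 2 * (fderiv ℝ V pm).det := mul_lt_mul_of_pos_left h1 hL2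
    have h3 : L ^ 2 * (-(L ^ 2)⁻¹) = -1 := by field_simp
    rw [hθdef]; linarith
  have hθle : ∀ p ∈ D, θ ≤ 1 + L ^ 2 * (fderiv ℝ V p).det := fun p hp => hmin hp
  have hBd0 : 0 ≤ Bd := (norm_nonneg _).trans (hBd pm hpm)
  set K := (1 + L * Bd) / (2 * θ) with hKdef
  have hKpos : 0 < K := by positivity
  set m0 := volume.real D with hm0
  have hm0nn : 0 ≤ m0 := measureReal_nonneg
  set τ := min 1 (ε / (23 * m0 + 16)) with hτdef
  have hτ0 : 0 < τ := lt_min one_pos (by positivity)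
  have hτ1 : τ ≤ 1 := min_le_left _ _
  have hτε : τ * (23 * m0 + 16) ≤ ε := by
    have : τ ≤ ε / (23 * m0 + 16) := min_le_right _ _
    rwa [le_div_iff₀ (by positivity)] at this
  set ω := τ / (4 * L * K) with hωdef
  have hω0 : 0 < ω := by positivity
  have hωeq : L * ω * (2 * K) ≤ τ / 2 := by
    rw [hωdef]; apply le_of_eq; field_simp; ring
  have huc1 := hK0.uniformContinuousOn_of_continuous (hcont.mono hδ0U)
  obtain ⟨δa, hδa, hδa'⟩ := Metric.uniformContinuousOn_iff_le.1 huc1 ω hω0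
  have hJcont : ContinuousOn (fun p => Jf h (V p)) U :=
    (continuous_Jf h).comp_continuousOn hV.continuousOn
  have huc2 := hK0.uniformContinuousOn_of_continuous (hJcont.mono hδ0U)
  obtain ⟨δb, hδb, hδb'⟩ := Metric.uniformContinuousOn_iff_le.1 huc2 τ hτ0
  set δ1 := min δ0 (min δa δb) with hδ1def
  have hδ1 : 0 < δ1 := lt_min hδ0 (lt_min hδa hδb)
  have hδ1a : δ1 ≤ δa := (min_le_right _ _).trans (min_le_left _ _)
  have hδ1b : δ1 ≤ δb := (min_le_right _ _).trans (min_le_right _ _)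
  have hmeas := tendsto_measure_cthickening_of_isCompact (μ := (volume : Measure E2)) hD
  have hlt : volume D < volume D + ENNReal.ofReal τ :=
    ENNReal.lt_add_right hD.measure_lt_top.ne (by simpa using hτ0)
  have hev := hmeas.eventually_lt_const hlt
  obtain ⟨ρ0, hρ0, hρ0'⟩ := Metric.eventually_nhds_iff.1 hev
  set ρ := min (δ1 / 4) (ρ0 / 4) with hρdef
  have hρ : 0 < ρ := lt_min (by positivity) (by positivity)
  have hρ1 : 4 * ρ ≤ δ1 := by
    have : ρ ≤ δ1 / 4 := min_le_left _ _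
    linarith
  have hρ2 : 4 * ρ ≤ ρ0 := by
    have : ρ ≤ ρ0 / 4 := min_le_right _ _
    linarith
  have hvolρ : volume (Metric.cthickening (2 * ρ) D) ≤ volume D + ENNReal.ofReal τ := by
    apply le_of_lt
    apply hρ0'
    rw [Real.dist_eq, sub_zero, abs_of_pos (by positivity)]
    linarith
  set r := ρ * τ / (6 * (2 * K + 1)) with hrdef
  have hr : 0 < r := by positivity
  have hw : (2 * K + 1) * r = ρ * τ / 6 := by
    rw [hrdef]; field_simp
  obtain ⟨C, hCne, hCcov, hCcard⟩ := exists_cells D hD ρ τ hρ hτ0.le hvolρ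
  have hCne' : ∀ q ∈ C, ∃ p, p ∈ D ∩ gbox e2 0 0 ρ q := hCne
  choose! p0 hp0 using hCne'
  have hρτ : ρ * τ ≤ ρ := by nlinarith
  have hcell : ∀ q ∈ C,
      Covers h {z : ℝ × E2 | ∃ p ∈ D ∩ gbox e2 0 0 ρ q, |z.1| ≤ L ∧ z.2 = p + z.1 • V p}
      ((1 + τ) ^ 2 * (ρ + 2 * ((2 * K + 1) * r)) ^ 2 * (Jf h (V (p0 q)) + τ)) := by
    intro q hq
    obtain ⟨hpD, hpq⟩ := hp0 q hq
    obtain ⟨b, β, γ, hA0, hA1, hβγ, hβ, hγ⟩ := exists_frame (fderiv ℝ V (p0 q)) (htr _ hpD)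
    have hball : Metric.closedBall (p0 q) δ1 ⊆ K0 :=
      (Metric.closedBall_subset_cthickening hpD δ1).trans
        (Metric.cthickening_mono (min_le_left _ _) D)
    refine local_cover V h L hL (fderiv ℝ V (p0 q)) b β γ hA0 hA1 Bd θ (hβ.trans (hBd _ hpD))
      (hγ.trans (hBd _ hpD)) ?_ hθ ?_ K hKdef ω τ hτ0 hω0.le hωeq (Metric.closedBall (p0 q) δ1) ?_
      (Jf h (V (p0 q)) + τ) ?_ ?_ (ρ * q.1) (ρ * q.2) ρ r hρ hr ?_ (D ∩ gbox e2 0 0 ρ q) ?_
    · rw [hβγ]; linarith [(hdet _ hpD).2]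
    · rw [hβγ]
      have := hθle _ hpD
      have h2 : (fderiv ℝ V (p0 q)).det = LinearMap.det (fderiv ℝ V (p0 q)).toLinearMap := rfl
      rw [h2] at this
      linarith
    · intro x hx y hy
      refine (convex_closedBall (p0 q) δ1).norm_image_sub_le_of_norm_fderiv_le'
        (fun z hz => ?_) (fun z hz => ?_) hy hx
      · exact (hV.differentiableOn (by norm_num)).differentiableAt
          (hU.mem_nhds (hδ0U (hball hz)))
      · have := hδa' z (hball hz) (p0 q) (hDK0 hpD) ((Metric.mem_closedBall.1 hz).trans hδ1a)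
        rwa [dist_eq_norm] at this
    · exact add_nonneg (Jf_pos _ _).le hτ0.le
    · intro x hx
      have := hδb' x (hball hx) (p0 q) (hDK0 hpD) ((Metric.mem_closedBall.1 hx).trans hδ1b)
      rw [Real.dist_eq] at this
      linarith [(abs_le.1 this).2]
    · intro x hx
      rw [mem_fbox_std, hw] at hx
      obtain ⟨⟨a1, a2⟩, a3, a4⟩ := hx
      obtain ⟨⟨b1, b2⟩, b3, b4⟩ := (mem_gbox_std ρ q _).1 hpq
      rw [Metric.mem_closedBall, dist_eq_norm]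
      calc ‖x - p0 q‖ ≤ 2 * (ρ + ρ * τ / 6) := by
            apply norm_le_of_abs_le
            · rw [PiLp.sub_apply, abs_le]; constructor <;> linarith
            · rw [PiLp.sub_apply, abs_le]; constructor <;> linarith
        _ ≤ δ1 := by linarith
    · intro x hx
      have := (mem_gbox_std ρ q x).1 hx.2
      exact ⟨⟨this.1.1, this.1.2.le⟩, this.2.1, this.2.2.le⟩
  have hall := Covers.biUnion C _ _ hcell
  refine hall.mono ?_ ?_
  · rintro z ⟨p, hp, hz1, hz2⟩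
    obtain ⟨q, hq, hpq⟩ := Set.mem_iUnion₂.1 (hCcov hp)
    exact Set.mem_iUnion₂.2 ⟨q, hq, p, ⟨hp, hpq⟩, hz1, hz2⟩
  · have hR := riemann_bound D hD (fun p => Jf h (V p)) (hJcont.mono hDU) ρ τ hρ C hCcov
      (fun q => Jf h (V (p0 q))) (fun q _ => Jf_le_one _ _) (by
        intro q hq x hx
        obtain ⟨hpD, hpq⟩ := hp0 q hq
        have hd : dist (p0 q) x ≤ δb :=
          (dist_le_of_mem_gbox ρ q _ _ hpq hx.2).trans (by linarith)
        have := hδb' (p0 q) (hDK0 hpD) x (hDK0 hx.1) hd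
        rw [Real.dist_eq] at this
        linarith [(abs_le.1 this).2])
    have hsq : (ρ + 2 * ((2 * K + 1) * r)) ^ 2 ≤ (1 + τ) * ρ ^ 2 := by
      rw [hw]
      have : (ρ + 2 * (ρ * τ / 6)) ^ 2 = ρ ^ 2 * (1 + τ / 3) ^ 2 := by ring
      rw [this]
      have h2 : (1 + τ / 3) ^ 2 ≤ 1 + τ := by nlinarith
      nlinarith [sq_nonneg ρ]
    have hI0 : 0 ≤ ∫ p in D, Jf h (V p) :=
      setIntegral_nonneg hD.measurableSet (fun p _ => (Jf_pos _ _).le)
    have hI1 : ∫ p in D, Jf h (V p) ≤ m0 := by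
      have := norm_setIntegral_le_of_norm_le_const (μ := (volume : Measure E2)) (s := D)
        (f := fun p => Jf h (V p)) (C := 1) hD.measure_lt_top
        (fun p _ => by rw [Real.norm_eq_abs, abs_of_pos (Jf_pos _ _)]; exact Jf_le_one _ _)
      rw [one_mul] at this
      exact (le_abs_self _).trans this
    calc ∑ q ∈ C, (1 + τ) ^ 2 * (ρ + 2 * ((2 * K + 1) * r)) ^ 2 * (Jf h (V (p0 q)) + τ)
        ≤ ∑ q ∈ C, (1 + τ) ^ 3 * (ρ ^ 2 * Jf h (V (p0 q)) + τ * ρ ^ 2) := by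
          apply Finset.sum_le_sum
          intro q _
          have hJ := (Jf_pos h (V (p0 q))).le
          calc (1 + τ) ^ 2 * (ρ + 2 * ((2 * K + 1) * r)) ^ 2 * (Jf h (V (p0 q)) + τ)
              ≤ (1 + τ) ^ 2 * ((1 + τ) * ρ ^ 2) * (Jf h (V (p0 q)) + τ) := by gcongr
            _ = _ := by ring
      _ = (1 + τ) ^ 3 * (∑ q ∈ C, ρ ^ 2 * Jf h (V (p0 q)) + τ * ((C.card : ℝ) * ρ ^ 2)) := by
          rw [← Finset.mul_sum, Finset.sum_add_distrib, Finset.sum_const, nsmul_eq_mul]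
          ring
      _ ≤ (∫ p in D, Jf h (V p)) + ε := by
          apply final_arith _ m0 τ ε _ hI0 hI1 hτ0 hτ1 hτε
          have h5 : τ * ((C.card : ℝ) * ρ ^ 2) ≤ τ * (m0 + τ) :=
            mul_le_mul_of_nonneg_left hCcard hτ0.le
          linarith

end Crest.Agent.Lib_helper1_Global
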