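import Mathlib
import Crest.Prelude.Def_DaugavetL1
import Crest.Agent.Lib_helper2_AUC

/-!
The Daugavet property and closed finite-codimensional subspaces (for S0167).
-/

set_option autoImplicit false
set_option linter.style.haveILetI false
set_option linter.unusedSectionVars false

namespace Crest.Agent.Lib_helper2_Daugavet

open Crest.AnalysisR.L1Subspace Crest.Agent.Lib_helper2_AUC
open scoped RealInnerProductSpace

variable {V : Type*} [NormedAddCommGroup V] [NormedSpace ℝ V]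

/-- Slice lemma. -/
theorem slice (hD : HasDaugavetProperty V) (φ : V →L[ℝ] ℝ) {τ : ℝ} {z₀ : V} (hz₀ : ‖z₀‖ ≤ 1)
    (hτ : τ < φ z₀) {y : V} (hy : y ≠ 0) {ε : ℝ} (hε : 0 < ε) :
    ∃ z : V, ‖z‖ ≤ 1 ∧ τ < φ z ∧ ‖y‖ + 1 - ε ≤ ‖z + y‖ := by
  have hs : 0 < ‖y‖ := norm_pos_iff.mpr hy
  by_cases hφ : φ = 0
  · subst hφ
    refine ⟨‖y‖⁻¹ • y, ?_, by simpa using hτ, ?_⟩
    · rw [norm_smul, norm_inv, norm_norm, inv_mul_cancel₀ hs.ne']
    · have : ‖y‖⁻¹ • y + y = (‖y‖⁻¹ + 1) • y := by rw [add_smul, one_smul]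
      rw [this, norm_smul, Real.norm_eq_abs, abs_of_pos (by positivity), add_mul,
        inv_mul_cancel₀ hs.ne']
      linarith
  have hφpos : 0 < ‖φ‖ := norm_pos_iff.mpr hφ
  have hτφ : τ < ‖φ‖ := by
    calc τ < φ z₀ := hτ
      _ ≤ ‖φ z₀‖ := Real.le_norm_self _
      _ ≤ ‖φ‖ * ‖z₀‖ := φ.le_opNorm _
      _ ≤ ‖φ‖ * 1 := mul_le_mul_of_nonneg_left hz₀ hφpos.le
      _ = ‖φ‖ := mul_one _
  set s := ‖y‖ with hsdef
  -- choose δ
  set δ : ℝ := min (ε / 2) (s * (‖φ‖ - τ) / ‖φ‖) with hδ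
  have hδpos : 0 < δ := lt_min (by positivity) (by
    have : 0 < ‖φ‖ - τ := by linarith
    positivity)
  have hT : ‖φ.smulRight (‖φ‖⁻¹ • y)‖ = s := by
    rw [ContinuousLinearMap.norm_smulRight_apply, norm_smul, norm_inv, norm_norm,
      ← mul_assoc, mul_inv_cancel₀ hφpos.ne', one_mul]
  have hDT := hD φ (‖φ‖⁻¹ • y)
  rw [hT] at hDT
  have hlt : 1 + s - δ < ‖ContinuousLinearMap.id ℝ V + φ.smulRight (‖φ‖⁻¹ • y)‖ := by
    rw [hDT]; linarith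
  obtain ⟨u, hu1, hu2⟩ := ContinuousLinearMap.exists_lt_apply_of_lt_opNorm _ hlt
  -- wlog φ u ≥ 0
  obtain ⟨u, hu1, hu2, hu0⟩ : ∃ u : V, ‖u‖ < 1 ∧
      1 + s - δ < ‖u + (φ u * ‖φ‖⁻¹) • y‖ ∧ 0 ≤ φ u := by
    have e : ∀ u : V, (ContinuousLinearMap.id ℝ V + φ.smulRight (‖φ‖⁻¹ • y)) u =
        u + (φ u * ‖φ‖⁻¹) • y := by
      intro u
      simp [smul_smul]
    rw [e] at hu2
    rcases le_total 0 (φ u) with h | h
    · exact ⟨u, hu1, hu2, h⟩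
    · refine ⟨-u, by rwa [norm_neg], ?_, by rw [map_neg]; linarith⟩
      have : -u + (φ (-u) * ‖φ‖⁻¹) • y = -(u + (φ u * ‖φ‖⁻¹) • y) := by
        rw [map_neg, neg_mul, neg_smul, neg_add]
      rw [this, norm_neg]
      exact hu2
  set c : ℝ := φ u * ‖φ‖⁻¹ with hc
  have hc0 : 0 ≤ c := mul_nonneg hu0 (inv_nonneg.mpr hφpos.le)
  have hc1 : c ≤ 1 := by
    have h1 : φ u ≤ ‖φ‖ * 1 :=
      ((Real.le_norm_self _).trans (φ.le_opNorm u)).trans
        (mul_le_mul_of_nonneg_left hu1.le hφpos.le)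
    rw [hc, ← div_eq_mul_inv, div_le_one hφpos]
    linarith
  have h3 : ‖u + c • y‖ ≤ ‖u‖ + c * s := by
    refine (norm_add_le _ _).trans ?_
    rw [norm_smul, Real.norm_eq_abs, abs_of_nonneg hc0]
  have h4 : s - δ < c * s := by linarith
  refine ⟨u, hu1.le, ?_, ?_⟩
  · -- τ < φ u
    have h5 : φ u = c * ‖φ‖ := by rw [hc, mul_assoc, inv_mul_cancel₀ hφpos.ne', mul_one]
    have h6 : δ ≤ s * (‖φ‖ - τ) / ‖φ‖ := min_le_right _ _
    have h7 : δ * ‖φ‖ ≤ s * (‖φ‖ - τ) := by rwa [le_div_iff₀ hφpos] at h6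
    have h8 : (s - δ) * ‖φ‖ < c * s * ‖φ‖ := mul_lt_mul_of_pos_right h4 hφpos
    have h9 : s * τ < s * (c * ‖φ‖) := by nlinarith
    rw [h5]
    exact lt_of_mul_lt_mul_left h9 hs.le
  · have h5 : u + c • y = (u + y) - (1 - c) • y := by
      rw [sub_smul, one_smul]; abel
    have h6 : ‖u + c • y‖ ≤ ‖u + y‖ + (1 - c) * s := by
      rw [h5]
      refine (norm_sub_le _ _).trans ?_
      rw [norm_smul, Real.norm_eq_abs, abs_of_nonneg (by linarith)]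
    have h7 : δ ≤ ε / 2 := min_le_left _ _
    nlinarith

variable {G : Type*} [NormedAddCommGroup G] [InnerProductSpace ℝ G] [CompleteSpace G]

/-- points of `G` that are approximately attained by `Φ` on the ball with norm additivity against
every nonzero vector -/
def DSet (Φ : V →L[ℝ] G) (ε : ℝ) : Set G :=
  {ξ | ∀ y : V, y ≠ 0 → ∃ z : V, ‖z‖ ≤ 1 ∧ ‖Φ z - ξ‖ ≤ ε ∧ ‖y‖ + 1 - ε ≤ ‖z + y‖}

theorem convex_DSet (Φ : V →L[ℝ] G) {ε : ℝ} (hε1 : ε < 1) : Convex ℝ (DSet Φ ε) := by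
  intro ξ₁ h₁ ξ₂ h₂ α β hα hβ hαβ
  rcases hα.eq_or_lt with rfl | hα
  · have : β = 1 := by linarith
    subst this
    simpa using h₂
  rcases hβ.eq_or_lt with rfl | hβ
  · have : α = 1 := by linarith
    subst this
    simpa using h₁
  intro y hy
  have hs : 0 < ‖y‖ := norm_pos_iff.mpr hy
  obtain ⟨z₁, hz₁, hΦ₁, hn₁⟩ := h₁ (α⁻¹ • y) (smul_ne_zero (inv_ne_zero hα.ne') hy)
  have e1 : α • z₁ + y = α • (z₁ + α⁻¹ • y) := by
    rw [smul_add, smul_smul, mul_inv_cancel₀ hα.ne', one_smul]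
  have hn₁' : ‖y‖ + α - α * ε ≤ ‖α • z₁ + y‖ := by
    rw [e1, norm_smul, Real.norm_eq_abs, abs_of_pos hα]
    have : ‖α⁻¹ • y‖ = α⁻¹ * ‖y‖ := by
      rw [norm_smul, Real.norm_eq_abs, abs_of_pos (inv_pos.mpr hα)]
    rw [this] at hn₁
    calc ‖y‖ + α - α * ε = α * (α⁻¹ * ‖y‖ + 1 - ε) := by field_simp
      _ ≤ _ := mul_le_mul_of_nonneg_left hn₁ hα.le
  have hy' : α • z₁ + y ≠ 0 := by
    rw [← norm_pos_iff]
    have : 0 < α * (1 - ε) := mul_pos hα (by linarith)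
    nlinarith
  obtain ⟨z₂, hz₂, hΦ₂, hn₂⟩ := h₂ (β⁻¹ • (α • z₁ + y)) (smul_ne_zero (inv_ne_zero hβ.ne') hy')
  have e2 : β • z₂ + (α • z₁ + y) = β • (z₂ + β⁻¹ • (α • z₁ + y)) := by
    rw [smul_add, smul_smul, mul_inv_cancel₀ hβ.ne', one_smul]
  have hn₂' : ‖α • z₁ + y‖ + β - β * ε ≤ ‖β • z₂ + (α • z₁ + y)‖ := by
    rw [e2, norm_smul, Real.norm_eq_abs, abs_of_pos hβ]
    have : ‖β⁻¹ • (α • z₁ + y)‖ = β⁻¹ * ‖α • z₁ + y‖ := by
      rw [norm_smul, Real.norm_eq_abs, abs_of_pos (inv_pos.mpr hβ)]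
    rw [this] at hn₂
    calc ‖α • z₁ + y‖ + β - β * ε = β * (β⁻¹ * ‖α • z₁ + y‖ + 1 - ε) := by field_simp
      _ ≤ _ := mul_le_mul_of_nonneg_left hn₂ hβ.le
  refine ⟨α • z₁ + β • z₂, ?_, ?_, ?_⟩
  · calc ‖α • z₁ + β • z₂‖ ≤ ‖α • z₁‖ + ‖β • z₂‖ := norm_add_le _ _
      _ = α * ‖z₁‖ + β * ‖z₂‖ := by
          rw [norm_smul, norm_smul, Real.norm_eq_abs, Real.norm_eq_abs, abs_of_pos hα,
            abs_of_pos hβ]
      _ ≤ α * 1 + β * 1 :=
          add_le_add (mul_le_mul_of_nonneg_left hz₁ hα.le) (mul_le_mul_of_nonneg_left hz₂ hβ.le)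
      _ = 1 := by linarith
  · have : Φ (α • z₁ + β • z₂) - (α • ξ₁ + β • ξ₂) = α • (Φ z₁ - ξ₁) + β • (Φ z₂ - ξ₂) := by
      rw [map_add, map_smul, map_smul, smul_sub, smul_sub]; abel
    rw [this]
    calc ‖α • (Φ z₁ - ξ₁) + β • (Φ z₂ - ξ₂)‖ ≤ ‖α • (Φ z₁ - ξ₁)‖ + ‖β • (Φ z₂ - ξ₂)‖ :=
          norm_add_le _ _
      _ = α * ‖Φ z₁ - ξ₁‖ + β * ‖Φ z₂ - ξ₂‖ := by
          rw [norm_smul, norm_smul, Real.norm_eq_abs, Real.norm_eq_abs, abs_of_pos hα,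
            abs_of_pos hβ]
      _ ≤ α * ε + β * ε :=
          add_le_add (mul_le_mul_of_nonneg_left hΦ₁ hα.le) (mul_le_mul_of_nonneg_left hΦ₂ hβ.le)
      _ = ε := by rw [← add_mul, hαβ, one_mul]
  · have : α • z₁ + β • z₂ + y = β • z₂ + (α • z₁ + y) := by abel
    rw [this]
    have h3 : α * ε + β * ε = ε := by rw [← add_mul, hαβ, one_mul]
    linarith

theorem mem_closure_DSet (hD : HasDaugavetProperty V) (Φ : V →L[ℝ] G) {ε : ℝ} (hε : 0 < ε)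
    (hε1 : ε < 1) {x₀ : V} (hx₀ : ‖x₀‖ ≤ 1) : Φ x₀ ∈ closure (DSet Φ ε) := by
  by_contra hnot
  obtain ⟨f, u, hfu, huf⟩ := geometric_hahn_banach_closed_point
    (convex_DSet Φ hε1).closure isClosed_closure hnot
  set a : G := (InnerProductSpace.toDual ℝ G).symm f with ha
  have hfa : ∀ ξ, f ξ = ⟪a, ξ⟫ := fun ξ => by
    rw [ha, InnerProductSpace.toDual_symm_apply]
  set ξ₀ := Φ x₀ with hξ₀
  set Δ : ℝ := 2 * ‖Φ‖ with hΔ
  have hΦle : ∀ z : V, ‖z‖ ≤ 1 → ‖Φ z‖ ≤ ‖Φ‖ := fun z hz =>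
    (Φ.le_opNorm z).trans (mul_le_of_le_one_right (norm_nonneg _) hz)
  have hΔle : ∀ z : V, ‖z‖ ≤ 1 → ‖Φ z - ξ₀‖ ≤ Δ := fun z hz => by
    refine (norm_sub_le _ _).trans ?_
    have := hΦle z hz
    have := hΦle x₀ hx₀
    rw [hΔ]; linarith
  set gap : ℝ := f ξ₀ - u with hgap
  have hgappos : 0 < gap := by rw [hgap]; linarith
  set lam : ℝ := (1 + Δ ^ 2) / gap with hlam
  have hlampos : 0 < lam := by positivity
  set c : G := ξ₀ - lam • a with hc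
  set δ : ℝ := min 1 (ε ^ 2 / 3) with hδ
  have hδpos : 0 < δ := lt_min one_pos (by positivity)
  -- the supremum
  set Rs : Set ℝ := (fun z : V => ‖Φ z - c‖ ^ 2) '' {z | ‖z‖ ≤ 1} with hRs
  have hbdd : BddAbove Rs := by
    refine ⟨(‖Φ‖ + ‖c‖) ^ 2, ?_⟩
    rintro _ ⟨z, hz, rfl⟩
    exact pow_le_pow_left₀ (norm_nonneg _)
      ((norm_sub_le _ _).trans (add_le_add (hΦle z hz) le_rfl)) 2
  have hne : Rs.Nonempty := ⟨_, x₀, hx₀, rfl⟩
  set R2 : ℝ := sSup Rs with hR2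
  have hR2le : ∀ z : V, ‖z‖ ≤ 1 → ‖Φ z - c‖ ^ 2 ≤ R2 := fun z hz => le_csSup hbdd ⟨z, hz, rfl⟩
  obtain ⟨_, ⟨z₁, hz₁, rfl⟩, hz₁R⟩ := exists_lt_of_lt_csSup hne (sub_lt_self R2 hδpos)
  simp only at hz₁R
  set p : G := Φ z₁ with hp
  set v : G := p - c with hv
  -- p lies in DSet
  have hpD : p ∈ DSet Φ ε := by
    intro y hy
    obtain ⟨z, hz, hzτ, hzn⟩ := slice hD ((innerSL ℝ v).comp Φ) (τ := ⟪v, p⟫ - δ) hz₁
      (by simp only [ContinuousLinearMap.comp_apply, innerSL_apply_apply]; rw [← hp]; linarith)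
      hy hε
    refine ⟨z, hz, ?_, hzn⟩
    simp only [ContinuousLinearMap.comp_apply, innerSL_apply_apply] at hzτ
    have h1 : ‖Φ z - p‖ ^ 2 = ‖Φ z - c‖ ^ 2 - 2 * ⟪Φ z - c, v⟫ + ‖v‖ ^ 2 := by
      have : Φ z - p = (Φ z - c) - v := by rw [hv]; abel
      rw [this, norm_sub_sq_real]
    have h2 : ⟪Φ z - c, v⟫ = ⟪v, Φ z⟫ - ⟪v, c⟫ := by
      rw [real_inner_comm, inner_sub_right]
    have h3 : ‖v‖ ^ 2 = ⟪v, p⟫ - ⟪v, c⟫ := by
      rw [← real_inner_self_eq_norm_sq, ← inner_sub_right]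
    have h4 := hR2le z hz
    have h5 : ‖Φ z - p‖ ^ 2 ≤ ε ^ 2 := by
      have h6 : δ ≤ ε ^ 2 / 3 := min_le_right _ _
      nlinarith
    exact abs_le_of_sq_le_sq' h5 hε.le |>.2 |> fun h => by
      simpa [abs_of_nonneg (norm_nonneg _)] using h
  have hfp : f p < u := hfu p (subset_closure hpD)
  -- but p is far in the direction a
  have h1 : ‖p - c‖ ^ 2 = ‖p - ξ₀‖ ^ 2 + 2 * lam * ⟪a, p - ξ₀⟫ + lam ^ 2 * ‖a‖ ^ 2 := by
    have : p - c = (p - ξ₀) + lam • a := by rw [hc]; abel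
    rw [this, norm_add_sq_real, inner_smul_right, norm_smul, real_inner_comm, mul_pow,
      Real.norm_eq_abs, sq_abs]
    ring
  have h2 : lam ^ 2 * ‖a‖ ^ 2 ≤ R2 := by
    have := hR2le x₀ hx₀
    have e : Φ x₀ - c = lam • a := by rw [hc, ← hξ₀]; abel
    rw [e, norm_smul, mul_pow, Real.norm_eq_abs, sq_abs] at this
    exact this
  have h3 : ⟪a, p - ξ₀⟫ = f p - f ξ₀ := by rw [inner_sub_right, hfa, hfa]
  have h4 : ‖p - ξ₀‖ ^ 2 ≤ Δ ^ 2 := pow_le_pow_left₀ (norm_nonneg _) (hΔle z₁ hz₁) 2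
  have h5 : δ ≤ 1 := min_le_left _ _
  have h6 : -(1 + Δ ^ 2) < 2 * lam * (f p - f ξ₀) := by
    rw [← h3]
    rw [← hv] at h1
    nlinarith
  have h7 : lam * gap = 1 + Δ ^ 2 := by rw [hlam]; field_simp
  have h8 : f p - f ξ₀ < -gap := by rw [hgap]; linarith
  nlinarith

/-- **Daugavet property and finite codimension.** Every point of the unit sphere can be moved, inside
the unit ball, by almost `2` in a direction almost contained in a prescribed closed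
finite-codimensional subspace. -/
theorem daugavet_near (hD : HasDaugavetProperty V) {x : V} (hx : ‖x‖ = 1) {S : Submodule ℝ V}
    (hS : CofSub S) {ε : ℝ} (hε : 0 < ε) :
    ∃ z : V, ‖z‖ ≤ 1 ∧ 2 - ε ≤ ‖z - x‖ ∧ ∃ w ∈ S, ‖z - x - w‖ < ε := by
  obtain ⟨hcl, hfd⟩ := hS
  haveI : IsClosed (S : Set V) := hcl
  haveI := hfd
  let e : (V ⧸ S) ≃L[ℝ] EuclideanSpace ℝ (Fin (Module.finrank ℝ (V ⧸ S))) := toEuclidean
  let Φ : V →L[ℝ] EuclideanSpace ℝ (Fin (Module.finrank ℝ (V ⧸ S))) :=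
    e.toContinuousLinearMap.comp S.mkQL
  set K : ℝ := ‖(e.symm : EuclideanSpace ℝ (Fin (Module.finrank ℝ (V ⧸ S))) →L[ℝ] (V ⧸ S))‖ + 1
    with hK
  have hKpos : 0 < K := by positivity
  set ε' : ℝ := min (min ε (1 / 2)) (ε / (4 * K)) with hε'
  have hε'pos : 0 < ε' := lt_min (lt_min hε (by norm_num)) (by positivity)
  have hε'1 : ε' < 1 := lt_of_le_of_lt ((min_le_left _ _).trans (min_le_right _ _)) (by norm_num)
  have hε'ε : ε' ≤ ε := (min_le_left _ _).trans (min_le_left _ _)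
  have hε'K : ε' ≤ ε / (4 * K) := min_le_right _ _
  have hmem := mem_closure_DSet hD Φ hε'pos hε'1 hx.le
  rw [Metric.mem_closure_iff] at hmem
  obtain ⟨ξ, hξ, hdist⟩ := hmem ε' hε'pos
  have hx0 : -x ≠ 0 := by
    rw [neg_ne_zero, ← norm_pos_iff, hx]; exact one_pos
  obtain ⟨z, hz, hΦz, hzn⟩ := hξ (-x) hx0
  rw [norm_neg, hx, ← sub_eq_add_neg] at hzn
  refine ⟨z, hz, by linarith, ?_⟩
  have h1 : ‖Φ (z - x)‖ ≤ 2 * ε' := by
    have : Φ (z - x) = (Φ z - ξ) - (Φ x - ξ) := by rw [map_sub]; abel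
    rw [this]
    refine (norm_sub_le _ _).trans ?_
    rw [dist_eq_norm] at hdist
    linarith
  have h2 : S.mkQL (z - x) = e.symm (Φ (z - x)) := by
    simp [Φ]
  have h3 : ‖S.mkQL (z - x)‖ ≤ K * (2 * ε') := by
    rw [h2]
    refine ((e.symm : EuclideanSpace ℝ (Fin (Module.finrank ℝ (V ⧸ S))) →L[ℝ]
      (V ⧸ S)).le_opNorm _).trans ?_
    refine mul_le_mul (by rw [hK]; linarith) h1 (norm_nonneg _) hKpos.le
  have h4 : K * (2 * ε') ≤ ε / 2 := by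
    calc K * (2 * ε') ≤ K * (2 * (ε / (4 * K))) := by
          refine mul_le_mul_of_nonneg_left ?_ hKpos.le
          linarith
      _ = ε / 2 := by field_simp; ring
  obtain ⟨m, hm, hm'⟩ := Submodule.Quotient.norm_mk_lt (S.mkQL (z - x)) (half_pos hε)
  refine ⟨z - x - m, ?_, ?_⟩
  · have hm2 : S.mkQ m = S.mkQ (z - x) := hm
    have : S.mkQ (z - x - m) = 0 := by
      rw [map_sub, hm2, sub_self]
    exact (Submodule.Quotient.mk_eq_zero S).mp this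
  · have : z - x - (z - x - m) = m := by abel
    rw [this]
    linarith

theorem daugavet_sphere (hD : HasDaugavetProperty V) {x : V} (hx : ‖x‖ = 1) {S : Submodule ℝ V}
    (hS : CofSub S) {ε : ℝ} (hε : 0 < ε) :
    ∃ z : V, ‖z‖ = 1 ∧ 2 - ε ≤ ‖z - x‖ ∧ ∃ w ∈ S, ‖z - x - w‖ < ε := by
  set ε' : ℝ := min (ε / 2) (1 / 2) with hε'
  have hε'pos : 0 < ε' := lt_min (by positivity) (by norm_num)
  have h1 : ε' ≤ ε / 2 := min_le_left _ _
  have h2 : ε' ≤ 1 / 2 := min_le_right _ _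
  obtain ⟨z, hz, hzx, w, hw, hzw⟩ := daugavet_near hD hx hS hε'pos
  have hzn : 1 - ε' ≤ ‖z‖ := by
    have := norm_sub_le z x
    rw [hx] at this
    linarith
  have hzpos : 0 < ‖z‖ := by linarith
  have hdiff : ‖‖z‖⁻¹ • z - z‖ ≤ ε' := by
    have : ‖z‖⁻¹ • z - z = (‖z‖⁻¹ - 1) • z := by rw [sub_smul, one_smul]
    rw [this, norm_smul, Real.norm_eq_abs]
    have h3 : 1 ≤ ‖z‖⁻¹ := (one_le_inv₀ hzpos).mpr hz
    rw [abs_of_nonneg (by linarith), sub_mul, inv_mul_cancel₀ hzpos.ne']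
    linarith
  refine ⟨‖z‖⁻¹ • z, ?_, ?_, w, hw, ?_⟩
  · rw [norm_smul, norm_inv, norm_norm, inv_mul_cancel₀ hzpos.ne']
  · have : z - x = (‖z‖⁻¹ • z - x) - (‖z‖⁻¹ • z - z) := by abel
    have h3 : ‖z - x‖ ≤ ‖‖z‖⁻¹ • z - x‖ + ‖‖z‖⁻¹ • z - z‖ := by
      rw [this]; exact norm_sub_le _ _
    linarith
  · have : ‖z‖⁻¹ • z - x - w = (z - x - w) + (‖z‖⁻¹ • z - z) := by abel
    rw [this]
    refine lt_of_le_of_lt (norm_add_le _ _) ?_
    linarith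

/-- a unit vector of `S` close to half of `z - x` with `z` in the ball -/
theorem daugavet_dir (hD : HasDaugavetProperty V) {x : V} (hx : ‖x‖ = 1) {S : Submodule ℝ V}
    (hS : CofSub S) {ε : ℝ} (hε : 0 < ε) :
    ∃ y ∈ S, ‖y‖ = 1 ∧ ∃ z : V, ‖z‖ ≤ 1 ∧ ‖y - (1 / 2 : ℝ) • (z - x)‖ ≤ ε := by
  set ε' : ℝ := min (ε / 2) (1 / 2) with hε'
  have hε'pos : 0 < ε' := lt_min (by positivity) (by norm_num)
  have h1 : ε' ≤ ε / 2 := min_le_left _ _
  have h2 : ε' ≤ 1 / 2 := min_le_right _ _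
  obtain ⟨z, hz, hzx, w, hw, hzw⟩ := daugavet_near hD hx hS hε'pos
  have hzx2 : ‖z - x‖ ≤ 2 := by
    have := norm_sub_le z x
    rw [hx] at this
    linarith
  have hw1 : 2 - 2 * ε' ≤ ‖w‖ := by
    have : z - x = (z - x - w) + w := by abel
    have h3 : ‖z - x‖ ≤ ‖z - x - w‖ + ‖w‖ := by
      conv_lhs => rw [this]
      exact norm_add_le _ _
    linarith
  have hw2 : ‖w‖ ≤ 2 + ε' := by
    have : w = (z - x) - (z - x - w) := by abel
    have h3 : ‖w‖ ≤ ‖z - x‖ + ‖z - x - w‖ := by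
      conv_lhs => rw [this]
      exact norm_sub_le _ _
    linarith
  have hwpos : 0 < ‖w‖ := by linarith
  refine ⟨‖w‖⁻¹ • w, S.smul_mem _ hw, ?_, z, hz, ?_⟩
  · rw [norm_smul, norm_inv, norm_norm, inv_mul_cancel₀ hwpos.ne']
  · have e : ‖w‖⁻¹ • w - (1 / 2 : ℝ) • (z - x) =
        (‖w‖⁻¹ - 1 / 2) • w - (1 / 2 : ℝ) • (z - x - w) := by
      rw [sub_smul, smul_sub (1 / 2 : ℝ) (z - x) w]; abel
    rw [e]
    refine (norm_sub_le _ _).trans ?_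
    rw [norm_smul, norm_smul, Real.norm_eq_abs, Real.norm_eq_abs, abs_of_pos (by norm_num : (0:ℝ) < 1 / 2)]
    have h3 : |‖w‖⁻¹ - 1 / 2| * ‖w‖ = |1 - ‖w‖ / 2| := by
      rw [← abs_of_pos hwpos, ← abs_mul, abs_of_pos hwpos, sub_mul, inv_mul_cancel₀ hwpos.ne']
      congr 1; ring
    rw [h3]
    have h4 : |1 - ‖w‖ / 2| ≤ ε' := by
      rw [abs_le]; constructor <;> linarith
    linarith

theorem oneSided_upper (hD : HasDaugavetProperty V) {t : ℝ} (ht : 0 < t) {x : V} (hx : ‖x‖ = 1)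
    {S : Submodule ℝ V} (hS : CofSub S) {η : ℝ} (hη : 0 < η) :
    ∃ y ∈ S, ‖y‖ = 1 ∧ ‖x + t • y‖ - 1 ≤ max 0 (t - 2) + η ∧
      (‖x + t • y‖ + ‖x - t • y‖) / 2 - 1 ≤ max (t / 2) (t - 1) + η := by
  obtain ⟨y, hy, hy1, z, hz, hyz⟩ := daugavet_dir hD hx hS (ε := η / t) (by positivity)
  refine ⟨y, hy, hy1, ?_⟩
  have hterr : ‖t • (y - (1 / 2 : ℝ) • (z - x))‖ ≤ η := by
    rw [norm_smul, Real.norm_eq_abs, abs_of_pos ht]
    calc t * ‖y - (1 / 2 : ℝ) • (z - x)‖ ≤ t * (η / t) := mul_le_mul_of_nonneg_left hyz ht.le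
      _ = η := by field_simp
  have h1 : ‖x + t • y‖ ≤ |1 - t / 2| + t / 2 + η := by
    have e : x + t • y = ((1 - t / 2) • x + (t / 2) • z) + t • (y - (1 / 2 : ℝ) • (z - x)) := by
      rw [smul_sub t, smul_smul, smul_sub, sub_smul, one_smul]
      have : t * (1 / 2) = t / 2 := by ring
      rw [this]; abel
    rw [e]
    refine (norm_add_le _ _).trans (add_le_add ((norm_add_le _ _).trans ?_) hterr)
    rw [norm_smul, norm_smul, hx, Real.norm_eq_abs, Real.norm_eq_abs, abs_of_pos (by positivity : 0 < t / 2),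
      mul_one]
    have := mul_le_mul_of_nonneg_left hz (by positivity : 0 ≤ t / 2)
    linarith
  have h2 : ‖x - t • y‖ ≤ 1 + t + η := by
    have e : x - t • y = ((1 + t / 2) • x - (t / 2) • z) - t • (y - (1 / 2 : ℝ) • (z - x)) := by
      rw [smul_sub t, smul_smul, smul_sub, add_smul, one_smul]
      have : t * (1 / 2) = t / 2 := by ring
      rw [this]; abel
    rw [e]
    refine (norm_sub_le _ _).trans (add_le_add ((norm_sub_le _ _).trans ?_) hterr)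
    rw [norm_smul, norm_smul, hx, Real.norm_eq_abs, Real.norm_eq_abs, abs_of_pos (by positivity : 0 < t / 2),
      abs_of_pos (by positivity : 0 < 1 + t / 2), mul_one]
    have := mul_le_mul_of_nonneg_left hz (by positivity : 0 ≤ t / 2)
    linarith
  have h3 : |1 - t / 2| + t / 2 = max 1 (t - 1) := by
    rcases le_total (t / 2) 1 with h | h
    · rw [abs_of_nonneg (by linarith), max_eq_left (by linarith)]; ring
    · rw [abs_of_nonpos (by linarith), max_eq_right (by linarith)]; ring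
  rw [h3] at h1
  constructor
  · have : max 1 (t - 1) - 1 = max 0 (t - 2) := by
      rw [← max_sub_sub_right]; congr 1 <;> ring
    linarith
  · have : (max 1 (t - 1) + (1 + t)) / 2 - 1 = max (t / 2) (t - 1) := by
      rcases le_total 1 (t - 1) with h | h
      · rw [max_eq_right h, max_eq_right (by linarith)]; ring
      · rw [max_eq_left h, max_eq_left (by linarith)]; ring
    linarith

theorem oneSided_lower {t : ℝ} (ht : 0 < t) {x : V} (hx : ‖x‖ = 1) :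
    ∃ S : Submodule ℝ V, CofSub S ∧ ∀ y ∈ S, ‖y‖ = 1 → max 0 (t - 2) ≤ ‖x + t • y‖ - 1 := by
  have hx0 : ‖x‖ ≠ 0 := by rw [hx]; exact one_ne_zero
  obtain ⟨g, hg1, hgx⟩ := exists_dual_vector ℝ x hx0
  refine ⟨_, cofSub_ker_pi (fun _ : Unit => g), fun y hy hy1 => ?_⟩
  have hgy : g y = 0 := (mem_ker_pi _ y).mp hy ()
  have h1 : 1 ≤ ‖x + t • y‖ := by
    have h2 : g (x + t • y) = 1 := by
      rw [map_add, map_smul, hgy, hgx, hx]; simp
    calc (1 : ℝ) = g (x + t • y) := h2.symm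
      _ ≤ ‖g (x + t • y)‖ := Real.le_norm_self _
      _ ≤ ‖g‖ * ‖x + t • y‖ := g.le_opNorm _
      _ = ‖x + t • y‖ := by rw [hg1, one_mul]
  have h2 : t - 1 ≤ ‖x + t • y‖ := by
    have h3 : ‖t • y‖ = t := by rw [norm_smul, hy1, Real.norm_eq_abs, abs_of_pos ht, mul_one]
    have h4 : t • y = (x + t • y) - x := by abel
    have h5 : ‖t • y‖ ≤ ‖x + t • y‖ + ‖x‖ := by
      conv_lhs => rw [h4]
      exact norm_sub_le _ _
    linarith
  exact max_le (by linarith) (by linarith)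

theorem mid_trivial {t : ℝ} (ht : 0 < t) (x y : V) (hy1 : ‖y‖ = 1) :
    t - 1 ≤ (‖x + t • y‖ + ‖x - t • y‖) / 2 - 1 := by
  have h3 : ‖(2 * t) • y‖ = 2 * t := by
    rw [norm_smul, hy1, Real.norm_eq_abs, abs_of_pos (by positivity), mul_one]
  have h4 : (2 * t) • y = (x + t • y) - (x - t • y) := by
    rw [two_mul, add_smul]; abel
  have h5 : ‖(2 * t) • y‖ ≤ ‖x + t • y‖ + ‖x - t • y‖ := by
    conv_lhs => rw [h4]
    exact norm_sub_le _ _
  linarith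

theorem not_AUC_daugavet (hD : HasDaugavetProperty V) (hne : ∃ x : V, ‖x‖ = 1) {N : V → ℝ}
    (hN : EquivNorm N) : ¬ AUC N := by
  obtain ⟨x₀, hx₀⟩ := hne
  refine not_AUC_of_set hN {x | ‖x‖ = 1} ⟨x₀, hx₀⟩ (R := 1) (κ := 1) (fun x hx => le_of_eq hx)
    one_pos ?_
  intro x hx S hS ε hε
  obtain ⟨z, hz, hzx, w, hw, hzw⟩ := daugavet_sphere hD hx hS (ε := min ε 1) (lt_min hε one_pos)
  refine ⟨z, hz, w, hw, ?_, lt_of_lt_of_le hzw (min_le_left _ _)⟩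
  have := min_le_right ε 1
  linarith

end Crest.Agent.Lib_helper2_Daugavet
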