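import Mathlib
import Crest.Prelude.Def_TreePotentials
import Crest.Agent.Lib_helper2_AUC

/-!
Tree potentials: gluing of tests (combinatorial part) for S0168 / S0166.
-/

set_option autoImplicit false
set_option linter.style.haveILetI false

namespace Crest.Agent.Lib_helper2_Tree

open Crest.AnalysisR Crest.AnalysisR.TreePotential
open scoped Classical

/-- The coefficient family whose potential is `H`. -/
def grad (H : List ℕ → ℝ) : List ℕ → ℝ
  | [] => H []
  | a :: v => H (a :: v) - H v

theorem pathPotential_grad (H : List ℕ → ℝ) : ∀ u, pathPotential (grad H) u = H u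
  | [] => rfl
  | a :: v => by
    simp only [pathPotential, grad, pathPotential_grad H v]
    ring

theorem pathPotential_sub (f g : List ℕ → ℝ) :
    ∀ u, pathPotential (fun s => f s - g s) u = pathPotential f u - pathPotential g u
  | [] => rfl
  | a :: v => by
    simp only [pathPotential, pathPotential_sub f g v]
    ring

theorem pathPotential_neg (f : List ℕ → ℝ) :
    ∀ u, pathPotential (fun s => - f s) u = - pathPotential f u
  | [] => rfl
  | a :: v => by
    simp only [pathPotential, pathPotential_neg f v]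
    ring

/-- suffix closed sets of vertices containing the root (subtrees) -/
def SuffixClosed (S : Set (List ℕ)) : Prop :=
  [] ∈ S ∧ ∀ (n : ℕ) (v : List ℕ), n :: v ∈ S → v ∈ S

theorem potIn_aux {S : Set (List ℕ)} (hS : SuffixClosed S) (f : List ℕ → ℝ) :
    ∀ u, (u ∈ S → pathPotential (S.indicator f) u = pathPotential f u) ∧
      ∃ w, pathPotential (S.indicator f) u = pathPotential f w
  | [] => by
    have : pathPotential (S.indicator f) [] = pathPotential f [] := by
      simp [pathPotential, hS.1]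
    exact ⟨fun _ => this, [], this⟩
  | a :: v => by
    obtain ⟨h1, w, hw⟩ := potIn_aux hS f v
    by_cases h : a :: v ∈ S
    · have : pathPotential (S.indicator f) (a :: v) = pathPotential f (a :: v) := by
        simp [pathPotential, h, h1 (hS.2 a v h)]
      exact ⟨fun _ => this, _, this⟩
    · refine ⟨fun h' => absurd h' h, w, ?_⟩
      simp [pathPotential, h, hw]

theorem potIn_cons_not_mem {S : Set (List ℕ)} (f : List ℕ → ℝ) {a : ℕ} {v : List ℕ}
    (h : a :: v ∉ S) :
    pathPotential (S.indicator f) (a :: v) = pathPotential (S.indicator f) v := by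
  simp [pathPotential, h]

theorem potIn_cons_mem {S : Set (List ℕ)} (f : List ℕ → ℝ) {a : ℕ} {v : List ℕ}
    (h : a :: v ∈ S) :
    pathPotential (S.indicator f) (a :: v) = pathPotential (S.indicator f) v + f (a :: v) := by
  simp [pathPotential, h]

theorem abs_potIn_le {S : Set (List ℕ)} (hS : SuffixClosed S) {f : List ℕ → ℝ}
    (hf : ∀ s, |pathPotential f s| ≤ 1) (u : List ℕ) :
    |pathPotential (S.indicator f) u| ≤ 1 := by
  obtain ⟨-, w, hw⟩ := potIn_aux hS f u
  rw [hw]; exact hf w

theorem potOut_eq (S : Set (List ℕ)) (g : List ℕ → ℝ) (u : List ℕ) :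
    pathPotential (Sᶜ.indicator g) u = pathPotential g u - pathPotential (S.indicator g) u := by
  rw [← pathPotential_sub]
  congr 1
  funext s
  by_cases h : s ∈ S <;> simp [h]

theorem abs_potOut_le {S : Set (List ℕ)} (hS : SuffixClosed S) {g : List ℕ → ℝ}
    (hg : ∀ s, |pathPotential g s| ≤ 1) (u : List ℕ) :
    |pathPotential (Sᶜ.indicator g) u| ≤ 2 := by
  rw [potOut_eq]
  have h1 := hg u
  have h2 := abs_potIn_le hS hg u
  rw [abs_le] at *
  constructor <;> linarith [h1.1, h1.2, h2.1, h2.2]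

theorem potOut_mem {S : Set (List ℕ)} (hS : SuffixClosed S) (g : List ℕ → ℝ) {u : List ℕ}
    (hu : u ∈ S) : pathPotential (Sᶜ.indicator g) u = 0 := by
  rw [potOut_eq, (potIn_aux hS g u).1 hu, sub_self]

/-- The two glued potentials. `sgn = true` gives `H₁`, `sgn = false` gives `H₂`. -/
noncomputable def gluePot (S : Set (List ℕ)) (f g : List ℕ → ℝ) (a b : ℝ) (sgn : Bool)
    (u : List ℕ) : ℝ :=
  let F := pathPotential (S.indicator f) u
  let G := pathPotential (Sᶜ.indicator g) u
  if 0 ≤ F then a * F - b * (if sgn then max (-G) 0 else max G 0)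
  else a * F + b * (if sgn then max G 0 else max (-G) 0)

/-- The glued tests. -/
noncomputable def glue (S : Set (List ℕ)) (f g : List ℕ → ℝ) (a b : ℝ) (sgn : Bool) :
    List ℕ → ℝ := grad (gluePot S f g a b sgn)

theorem abs_gluePot_le {S : Set (List ℕ)} (hS : SuffixClosed S) {f g : List ℕ → ℝ}
    (hf : ∀ s, |pathPotential f s| ≤ 1) (hg : ∀ s, |pathPotential g s| ≤ 1)
    {a b : ℝ} (ha0 : 0 ≤ a) (ha1 : a ≤ 1) (hb0 : 0 ≤ b) (hb1 : b ≤ 1 / 2) (sgn : Bool)
    (u : List ℕ) : |gluePot S f g a b sgn u| ≤ 1 := by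
  have h1 := abs_potIn_le hS hf u
  have h2 := abs_potOut_le hS hg u
  rw [abs_le] at h1 h2
  simp only [gluePot]
  set F := pathPotential (S.indicator f) u
  set G := pathPotential (Sᶜ.indicator g) u
  have hp : 0 ≤ max G 0 ∧ max G 0 ≤ 2 := ⟨le_max_right _ _, max_le h2.2 (by norm_num)⟩
  have hn : 0 ≤ max (-G) 0 ∧ max (-G) 0 ≤ 2 :=
    ⟨le_max_right _ _, max_le (by linarith [h2.1]) (by norm_num)⟩
  have key : ∀ r : ℝ, 0 ≤ r → r ≤ 2 → 0 ≤ b * r ∧ b * r ≤ 1 := fun r hr0 hr2 =>
    ⟨mul_nonneg hb0 hr0, by nlinarith⟩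
  have kp := key _ hp.1 hp.2
  have kn := key _ hn.1 hn.2
  rw [abs_le]
  split_ifs with h0 h3 h3
  · have : 0 ≤ a * F ∧ a * F ≤ 1 := ⟨mul_nonneg ha0 h0, by nlinarith [h1.2]⟩
    constructor <;> linarith [this.1, this.2, kn.1, kn.2]
  · have : 0 ≤ a * F ∧ a * F ≤ 1 := ⟨mul_nonneg ha0 h0, by nlinarith [h1.2]⟩
    constructor <;> linarith [this.1, this.2, kp.1, kp.2]
  · rw [not_le] at h0
    have : a * F ≤ 0 ∧ -1 ≤ a * F := ⟨by nlinarith, by nlinarith [h1.1]⟩
    constructor <;> linarith [this.1, this.2, kp.1, kp.2]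
  · rw [not_le] at h0
    have : a * F ≤ 0 ∧ -1 ≤ a * F := ⟨by nlinarith, by nlinarith [h1.1]⟩
    constructor <;> linarith [this.1, this.2, kn.1, kn.2]

theorem gluePot_mem {S : Set (List ℕ)} (hS : SuffixClosed S) (f g : List ℕ → ℝ) (a b : ℝ)
    (sgn : Bool) {u : List ℕ} (hu : u ∈ S) :
    gluePot S f g a b sgn u = a * pathPotential f u := by
  simp only [gluePot, potOut_mem hS g hu, (potIn_aux hS f u).1 hu]
  simp

/-- On `S` the glued test is `a f`. -/
theorem glue_mem {S : Set (List ℕ)} (hS : SuffixClosed S) (f g : List ℕ → ℝ) (a b : ℝ)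
    (sgn : Bool) {u : List ℕ} (hu : u ∈ S) : glue S f g a b sgn u = a * f u := by
  cases u with
  | nil => simp only [glue, grad, gluePot_mem hS f g a b sgn hu, pathPotential]
  | cons n v =>
    simp only [glue, grad, gluePot_mem hS f g a b sgn hu,
      gluePot_mem hS f g a b sgn (hS.2 n v hu), pathPotential]
    ring

/-- Off `S` the glued test is dominated by `b |g|`. -/
theorem abs_glue_not_mem {S : Set (List ℕ)} (hS : SuffixClosed S) (f g : List ℕ → ℝ) (a : ℝ)
    {b : ℝ} (hb0 : 0 ≤ b) (sgn : Bool) {u : List ℕ} (hu : u ∉ S) :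
    |glue S f g a b sgn u| ≤ b * |g u| := by
  cases u with
  | nil => exact absurd hS.1 hu
  | cons n v =>
    simp only [glue, grad, gluePot, potIn_cons_not_mem f hu]
    have hG : pathPotential (Sᶜ.indicator g) (n :: v) =
        pathPotential (Sᶜ.indicator g) v + g (n :: v) := by
      simp [pathPotential, hu]
    rw [hG]
    set F := pathPotential (S.indicator f) v
    set G := pathPotential (Sᶜ.indicator g) v
    set γ := g (n :: v)
    have e1 : |max (G + γ) 0 - max G 0| ≤ |γ| := by
      have := abs_max_sub_max_le_abs (G + γ) G 0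
      simpa using this
    have e2 : |max (-(G + γ)) 0 - max (-G) 0| ≤ |γ| := by
      have := abs_max_sub_max_le_abs (-(G + γ)) (-G) 0
      have h3 : -(G + γ) - -G = -γ := by ring
      rw [h3, abs_neg] at this
      exact this
    split_ifs with h0 h3 h3
    · have : a * F - b * max (-(G + γ)) 0 - (a * F - b * max (-G) 0) =
          - (b * (max (-(G + γ)) 0 - max (-G) 0)) := by ring
      rw [this, abs_neg, abs_mul, abs_of_nonneg hb0]
      exact mul_le_mul_of_nonneg_left e2 hb0
    · have : a * F - b * max (G + γ) 0 - (a * F - b * max G 0) =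
          - (b * (max (G + γ) 0 - max G 0)) := by ring
      rw [this, abs_neg, abs_mul, abs_of_nonneg hb0]
      exact mul_le_mul_of_nonneg_left e1 hb0
    · have : a * F + b * max (G + γ) 0 - (a * F + b * max G 0) =
          (b * (max (G + γ) 0 - max G 0)) := by ring
      rw [this, abs_mul, abs_of_nonneg hb0]
      exact mul_le_mul_of_nonneg_left e1 hb0
    · have : a * F + b * max (-(G + γ)) 0 - (a * F + b * max (-G) 0) =
          (b * (max (-(G + γ)) 0 - max (-G) 0)) := by ring
      rw [this, abs_mul, abs_of_nonneg hb0]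
      exact mul_le_mul_of_nonneg_left e2 hb0

theorem gluePot_sub (S : Set (List ℕ)) (f g : List ℕ → ℝ) (a b : ℝ) (u : List ℕ) :
    gluePot S f g a b true u - gluePot S f g a b false u =
      b * pathPotential (Sᶜ.indicator g) u := by
  simp only [gluePot]
  set G := pathPotential (Sᶜ.indicator g) u
  have : max G 0 - max (-G) 0 = G := by
    rcases le_total 0 G with h | h
    · rw [max_eq_left h, max_eq_right (by linarith)]; ring
    · rw [max_eq_right h, max_eq_left (by linarith)]; ring
  split_ifs with h0 h1 h1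
  · exact absurd h1 (by simp)
  · linear_combination b * this
  · exact absurd h1 (by simp)
  · linear_combination b * this

/-- The difference of the two glued tests is `b g` off `S` (and `0` on `S`). -/
theorem glue_sub (S : Set (List ℕ)) (f g : List ℕ → ℝ) (a b : ℝ) (u : List ℕ) :
    glue S f g a b true u - glue S f g a b false u = b * Sᶜ.indicator g u := by
  cases u with
  | nil =>
    simp only [glue, grad]
    rw [gluePot_sub]
    simp [pathPotential]
  | cons n v =>
    simp only [glue, grad]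
    have h1 := gluePot_sub S f g a b (n :: v)
    have h2 := gluePot_sub S f g a b v
    have h3 : pathPotential (Sᶜ.indicator g) (n :: v) =
        pathPotential (Sᶜ.indicator g) v + Sᶜ.indicator g (n :: v) := rfl
    rw [h3] at h1
    linear_combination h1 - h2

theorem glue_sq_le {S : Set (List ℕ)} (hS : SuffixClosed S) (f g : List ℕ → ℝ) (a : ℝ)
    {b : ℝ} (hb0 : 0 ≤ b) (sgn : Bool) (u : List ℕ) :
    glue S f g a b sgn u ^ 2 ≤ a ^ 2 * f u ^ 2 + b ^ 2 * g u ^ 2 := by
  by_cases hu : u ∈ S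
  · rw [glue_mem hS f g a b sgn hu]
    nlinarith [sq_nonneg (b * g u)]
  · have h := abs_glue_not_mem hS f g a hb0 sgn hu
    have h2 : glue S f g a b sgn u ^ 2 ≤ (b * |g u|) ^ 2 := by
      rw [← sq_abs]
      exact pow_le_pow_left₀ (abs_nonneg _) h 2
    rw [mul_pow, sq_abs] at h2
    nlinarith [sq_nonneg (a * f u)]

/-! ### Tests of the four models -/

theorem sum_sq_le_of_le {α : Type*} (A : Finset α) (j : α → List ℕ) {f g h : List ℕ → ℝ}
    {a b : ℝ} (hab : a ^ 2 + b ^ 2 ≤ 1)
    (hpt : ∀ u, h u ^ 2 ≤ a ^ 2 * f u ^ 2 + b ^ 2 * g u ^ 2)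
    (hf : ∑ n ∈ A, f (j n) ^ 2 ≤ 1) (hg : ∑ n ∈ A, g (j n) ^ 2 ≤ 1) :
    ∑ n ∈ A, h (j n) ^ 2 ≤ 1 := by
  calc ∑ n ∈ A, h (j n) ^ 2 ≤ ∑ n ∈ A, (a ^ 2 * f (j n) ^ 2 + b ^ 2 * g (j n) ^ 2) :=
        Finset.sum_le_sum fun n _ => hpt _
    _ = a ^ 2 * ∑ n ∈ A, f (j n) ^ 2 + b ^ 2 * ∑ n ∈ A, g (j n) ^ 2 := by
        rw [Finset.sum_add_distrib, Finset.mul_sum, Finset.mul_sum]
    _ ≤ a ^ 2 * 1 + b ^ 2 * 1 :=
        add_le_add (mul_le_mul_of_nonneg_left hf (sq_nonneg a))
          (mul_le_mul_of_nonneg_left hg (sq_nonneg b))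
    _ ≤ 1 := by linarith

theorem extra_of_sq_le (m : PotentialModel) {f g h : List ℕ → ℝ} {a b : ℝ}
    (hab : a ^ 2 + b ^ 2 ≤ 1) (hpt : ∀ u, h u ^ 2 ≤ a ^ 2 * f u ^ 2 + b ^ 2 * g u ^ 2)
    (hf : ExtraCondition m f) (hg : ExtraCondition m g) : ExtraCondition m h := by
  cases m with
  | rootlessSibling =>
    refine ⟨?_, fun r A => sum_sq_le_of_le A (fun n => n :: r) hab hpt (hf.2 r A) (hg.2 r A)⟩
    have := hpt []
    rw [hf.1, hg.1] at this
    have h0 : h [] ^ 2 ≤ 0 := by simpa using this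
    exact pow_eq_zero_iff (two_ne_zero) |>.mp (le_antisymm h0 (sq_nonneg _))
  | rootedSibling =>
    exact fun r A => sum_sq_le_of_le A (fun n => n :: r) hab hpt (hf r A) (hg r A)
  | antichain =>
    refine ⟨(hf.1.union hg.1).subset ?_, fun A hA =>
      sum_sq_le_of_le A id hab hpt (hf.2 A hA) (hg.2 A hA)⟩
    intro u hu
    by_contra hcon
    simp only [Set.mem_union, Function.mem_support, not_or, not_not] at hcon
    have := hpt u
    rw [hcon.1, hcon.2] at this
    have h0 : h u ^ 2 ≤ 0 := by simpa using this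
    exact hu (pow_eq_zero_iff (two_ne_zero) |>.mp (le_antisymm h0 (sq_nonneg _)))
  | global =>
    exact fun A => sum_sq_le_of_le A id hab hpt (hf A) (hg A)

theorem isTest_glue (m : PotentialModel) {S : Set (List ℕ)} (hS : SuffixClosed S)
    {f g : List ℕ → ℝ} (hf : IsTest m f) (hg : IsTest m g) {a b : ℝ} (ha0 : 0 ≤ a)
    (hb0 : 0 ≤ b) (hb1 : b ≤ 1 / 2) (hab : a ^ 2 + b ^ 2 ≤ 1) (sgn : Bool) :
    IsTest m (glue S f g a b sgn) := by
  have ha1 : a ≤ 1 := by nlinarith [sq_nonneg b]
  refine ⟨fun s => ?_, extra_of_sq_le m hab (glue_sq_le hS f g a hb0 sgn) hf.2 hg.2⟩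
  rw [glue, pathPotential_grad]
  exact abs_gluePot_le hS hf.1 hg.1 ha0 ha1 hb0 hb1 sgn s

theorem isTest_neg (m : PotentialModel) {f : List ℕ → ℝ} (hf : IsTest m f) :
    IsTest m (fun s => - f s) := by
  refine ⟨fun s => ?_, extra_of_sq_le m (a := 1) (b := 0) (by norm_num) (fun u => by simp)
    hf.2 hf.2⟩
  rw [pathPotential_neg, abs_neg]
  exact hf.1 s

/-- the indicator of a vertex -/
noncomputable def delta (u : List ℕ) : List ℕ → ℝ := fun s => if s = u then 1 else 0

theorem pathPotential_delta (u : List ℕ) :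
    ∀ s, pathPotential (delta u) s = if u <:+ s then 1 else 0
  | [] => by
    simp only [pathPotential, delta, List.suffix_nil]
    by_cases h : u = []
    · simp [h]
    · simp [h, Ne.symm h]
  | n :: v => by
    simp only [pathPotential, pathPotential_delta u v, delta, List.suffix_cons_iff]
    by_cases h1 : u = n :: v
    · have h2 : ¬ u <:+ v := by
        intro h
        have := h.length_le
        rw [h1] at this
        simp at this
      simp [h1.symm, h2]
    · have h1' : ¬ (n :: v = u) := fun h => h1 h.symm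
      simp [h1, h1']

theorem sum_sq_delta_le {α : Type*} (A : Finset α) (j : α → List ℕ) (hj : Function.Injective j)
    (u : List ℕ) : ∑ n ∈ A, delta u (j n) ^ 2 ≤ 1 := by
  have : ∀ n ∈ A, delta u (j n) ^ 2 = if j n = u then 1 else 0 := by
    intro n _
    simp only [delta]
    split_ifs <;> simp
  rw [Finset.sum_congr rfl this, Finset.sum_ite, Finset.sum_const_zero, add_zero,
    Finset.sum_const, nsmul_eq_mul, mul_one]
  have hc : (A.filter fun n => j n = u).card ≤ 1 := by
    rw [Finset.card_le_one]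
    intro x hx y hy
    rw [Finset.mem_filter] at hx hy
    exact hj (hx.2.trans hy.2.symm)
  exact_mod_cast hc

theorem isTest_delta (m : PotentialModel) {u : List ℕ}
    (hu : u ≠ [] ∨ m ≠ PotentialModel.rootlessSibling) : IsTest m (delta u) := by
  refine ⟨fun s => ?_, ?_⟩
  · rw [pathPotential_delta]
    split_ifs <;> simp
  · have hinj : ∀ r : List ℕ, Function.Injective fun n : ℕ => n :: r := fun r x y h => by
      simpa using h
    cases m with
    | rootlessSibling =>
      refine ⟨?_, fun r A => sum_sq_delta_le A _ (hinj r) u⟩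
      rcases hu with hu | hu
      · simp [delta, Ne.symm hu]
      · exact absurd rfl hu
    | rootedSibling => exact fun r A => sum_sq_delta_le A _ (hinj r) u
    | antichain =>
      refine ⟨(Set.finite_singleton u).subset ?_, fun A _ =>
        sum_sq_delta_le A id Function.injective_id u⟩
      intro s hs
      simp only [Function.mem_support, delta] at hs
      by_contra h
      exact hs (by simp [show s ≠ u from h])
    | global => exact fun A => sum_sq_delta_le A id Function.injective_id u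

theorem isTest_zero (m : PotentialModel) : IsTest m (fun _ => 0) := by
  have h := isTest_delta m (u := [0]) (Or.inl (by simp))
  refine ⟨fun s => ?_, extra_of_sq_le m (a := 0) (b := 0) (by norm_num) (fun u => by simp)
    h.2 h.2⟩
  have : ∀ s, pathPotential (fun _ => (0 : ℝ)) s = 0 := by
    intro s
    induction s with
    | nil => rfl
    | cons n v ih => simp [pathPotential, ih]
  rw [this]; simp

/-- In all four models the squares of a test over a family of siblings sum to at most one. -/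
theorem sibling_sq_le (m : PotentialModel) {f : List ℕ → ℝ} (hf : IsTest m f) (r : List ℕ)
    (A : Finset ℕ) : ∑ n ∈ A, f (n :: r) ^ 2 ≤ 1 := by
  have hinj : Function.Injective fun n : ℕ => n :: r := fun x y h => by simpa using h
  have himg : ∑ n ∈ A, f (n :: r) ^ 2 = ∑ w ∈ A.image (fun n => n :: r), f w ^ 2 := by
    rw [Finset.sum_image (fun x _ y _ h => hinj h)]
  cases m with
  | rootlessSibling => exact hf.2.2 r A
  | rootedSibling => exact hf.2 r A
  | antichain =>
    rw [himg]
    refine hf.2.2 _ ?_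
    intro x hx y hy hxy hsuf
    rw [Finset.mem_image] at hx hy
    obtain ⟨n, -, rfl⟩ := hx
    obtain ⟨n', -, rfl⟩ := hy
    exact hxy (hsuf.eq_of_length (by simp))
  | global =>
    rw [himg]
    exact hf.2 _

/-! ### The model spaces -/

/-- the ambient space of bounded functions on the test set -/
abbrev LL (m : PotentialModel) : Type := lp (fun _ : PotentialTest m => ℝ) ⊤

/-- evaluation at a test -/
noncomputable def ev (m : PotentialModel) (τ : PotentialTest m) : LL m →L[ℝ] ℝ :=
  lp.evalCLM ℝ (fun _ : PotentialTest m => ℝ) ⊤ τ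

@[simp] theorem ev_apply (m : PotentialModel) (τ : PotentialTest m) (y : LL m) :
    ev m τ y = y τ := rfl

@[simp] theorem coordVector_apply (m : PotentialModel) (s : List ℕ) (τ : PotentialTest m) :
    coordVector m s τ = τ.1 s := rfl

instance (m : PotentialModel) : Nonempty (PotentialTest m) := ⟨⟨_, isTest_zero m⟩⟩

theorem apply_le_norm (m : PotentialModel) (y : LL m) (τ : PotentialTest m) : y τ ≤ ‖y‖ :=
  (Real.le_norm_self _).trans (lp.norm_apply_le_norm ENNReal.top_ne_zero y τ)

theorem eq_zero_of_forall_coord (m : PotentialModel) (Λ : LL m →L[ℝ] ℝ)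
    (h : ∀ s, Λ (coordVector m s) = 0) : ∀ y ∈ modelSpace m, Λ y = 0 := by
  have h1 : Submodule.span ℝ (Set.range (coordVector m)) ≤ LinearMap.ker Λ.toLinearMap := by
    rw [Submodule.span_le]
    rintro _ ⟨s, rfl⟩
    exact h s
  have h2 : modelSpace m ≤ LinearMap.ker Λ.toLinearMap :=
    Submodule.topologicalClosure_minimal _ h1 Λ.isClosed_ker
  intro y hy
  exact h2 hy

theorem coordVector_mem (m : PotentialModel) (s : List ℕ) : coordVector m s ∈ modelSpace m :=
  Submodule.le_topologicalClosure _ (Submodule.subset_span ⟨s, rfl⟩)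

/-- the negative of a test -/
def negT {m : PotentialModel} (τ : PotentialTest m) : PotentialTest m :=
  ⟨fun s => - τ.1 s, isTest_neg m τ.2⟩

theorem apply_negT {m : PotentialModel} (τ : PotentialTest m) {y : LL m}
    (hy : y ∈ modelSpace m) : y (negT τ) = - y τ := by
  have := eq_zero_of_forall_coord m (ev m (negT τ) + ev m τ)
    (fun s => by show -τ.1 s + τ.1 s = 0; ring) y hy
  have h2 : y (negT τ) + y τ = 0 := this
  linarith

theorem exists_test_gt {m : PotentialModel} {y : LL m} (hy : y ∈ modelSpace m) {η : ℝ}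
    (hη : 0 < η) : ∃ τ : PotentialTest m, ‖y‖ - η < y τ := by
  obtain ⟨_, ⟨τ, rfl⟩, hτ⟩ := (lp.isLUB_norm y).exists_between (sub_lt_self ‖y‖ hη)
  rcases le_total 0 (y τ) with h | h
  · exact ⟨τ, by simpa [Real.norm_eq_abs, abs_of_nonneg h] using hτ.1⟩
  · refine ⟨negT τ, ?_⟩
    rw [apply_negT τ hy]
    simpa [Real.norm_eq_abs, abs_of_nonpos h] using hτ.1

/-- the coordinate test at `u` (the zero test for the root of the rootless model) -/
noncomputable def dFun (m : PotentialModel) (u : List ℕ) : List ℕ → ℝ :=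
  if u ≠ [] ∨ m ≠ PotentialModel.rootlessSibling then delta u else fun _ => 0

theorem isTest_dFun (m : PotentialModel) (u : List ℕ) : IsTest m (dFun m u) := by
  unfold dFun
  split_ifs with h
  · exact isTest_delta m h
  · exact isTest_zero m

/-- the coordinate test at `u` (the zero test for the root of the rootless model) -/
noncomputable def dT (m : PotentialModel) (u : List ℕ) : PotentialTest m :=
  ⟨dFun m u, isTest_dFun m u⟩

theorem mul_dT (m : PotentialModel) (g : PotentialTest m) (u s : List ℕ) :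
    g.1 u * (dT m u).1 s = if u = s then g.1 s else 0 := by
  show g.1 u * dFun m u s = _
  by_cases h : u ≠ [] ∨ m ≠ PotentialModel.rootlessSibling
  · rw [dFun, if_pos h]
    simp only [delta]
    by_cases hus : u = s
    · simp [hus]
    · simp [hus, Ne.symm hus]
  · rw [dFun, if_neg h]
    simp only [mul_zero]
    rw [not_or, not_not, not_not] at h
    obtain ⟨rfl, rfl⟩ := h
    have hg : g.1 [] = 0 := g.2.2.1
    by_cases hus : [] = s
    · subst hus; simp [hg]
    · simp [hus]

theorem dT_self (m : PotentialModel) {u : List ℕ} (hu : u ≠ []) : (dT m u).1 u = 1 := by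
  show dFun m u u = 1
  simp [dFun, hu, delta]

/-- the glued tests as tests -/
noncomputable def glueT {m : PotentialModel} {S : Set (List ℕ)} (hS : SuffixClosed S)
    (f g : PotentialTest m) {a b : ℝ} (ha0 : 0 ≤ a)
    (hb0 : 0 ≤ b) (hb1 : b ≤ 1 / 2) (hab : a ^ 2 + b ^ 2 ≤ 1) (sgn : Bool) : PotentialTest m :=
  ⟨glue S f.1 g.1 a b sgn, isTest_glue m hS f.2 g.2 ha0 hb0 hb1 hab sgn⟩

theorem apply_glueT_sub {m : PotentialModel} {S : Finset (List ℕ)}
    (hS : SuffixClosed (S : Set (List ℕ)))
    (f g : PotentialTest m) {a b : ℝ} (ha0 : 0 ≤ a)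
    (hb0 : 0 ≤ b) (hb1 : b ≤ 1 / 2) (hab : a ^ 2 + b ^ 2 ≤ 1) {y : LL m}
    (hy : y ∈ modelSpace m) (hy0 : ∀ u ∈ S, y (dT m u) = 0) :
    y (glueT hS f g ha0 hb0 hb1 hab true) - y (glueT hS f g ha0 hb0 hb1 hab false) = b * y g := by
  have := eq_zero_of_forall_coord m
    (ev m (glueT hS f g ha0 hb0 hb1 hab true) - ev m (glueT hS f g ha0 hb0 hb1 hab false)
      - b • ev m g + b • ∑ u ∈ S, g.1 u • ev m (dT m u)) (fun s => ?_) y hy
  · simp only [add_apply, sub_apply,
      smul_apply, sum_apply, ev_apply, smul_eq_mul] at this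
    have h0 : ∑ u ∈ S, g.1 u * y (dT m u) = 0 :=
      Finset.sum_eq_zero fun u hu => by rw [hy0 u hu, mul_zero]
    rw [h0] at this
    linarith
  · simp only [add_apply, sub_apply,
      smul_apply, sum_apply, ev_apply, smul_eq_mul,
      coordVector_apply, mul_dT]
    have h1 := glue_sub (S : Set (List ℕ)) f.1 g.1 a b s
    simp only [glueT]
    rw [h1, Finset.sum_ite_eq']
    by_cases hs : s ∈ S
    · simp [hs]
    · simp [hs]

theorem sum_coord_apply (m : PotentialModel) (S : Finset (List ℕ)) (c : List ℕ → ℝ)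
    (τ : PotentialTest m) :
    (∑ u ∈ S, c u • coordVector m u : LL m) τ = ∑ u ∈ S, c u * τ.1 u := by
  have : ev m τ (∑ u ∈ S, c u • coordVector m u) = ∑ u ∈ S, c u * τ.1 u := by
    rw [map_sum]
    simp
  exact this

theorem sum_coord_mem (m : PotentialModel) (S : Finset (List ℕ)) (c : List ℕ → ℝ) :
    (∑ u ∈ S, c u • coordVector m u : LL m) ∈ modelSpace m :=
  Submodule.sum_mem _ fun u _ => Submodule.smul_mem _ _ (coordVector_mem m u)

theorem sum_coord_glueT {m : PotentialModel} {S : Finset (List ℕ)}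
    (hS : SuffixClosed (S : Set (List ℕ)))
    (f g : PotentialTest m) {a b : ℝ} (ha0 : 0 ≤ a)
    (hb0 : 0 ≤ b) (hb1 : b ≤ 1 / 2) (hab : a ^ 2 + b ^ 2 ≤ 1) (sgn : Bool) (c : List ℕ → ℝ) :
    (∑ u ∈ S, c u • coordVector m u : LL m) (glueT hS f g ha0 hb0 hb1 hab sgn) =
      a * (∑ u ∈ S, c u • coordVector m u : LL m) f := by
  rw [sum_coord_apply, sum_coord_apply, Finset.mul_sum]
  refine Finset.sum_congr rfl fun u hu => ?_
  simp only [glueT]
  rw [glue_mem hS f.1 g.1 a b sgn (Finset.mem_coe.mpr hu)]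
  ring

/-- **Core midpoint inequality.** -/
theorem mid_core {m : PotentialModel} {S : Finset (List ℕ)}
    (hS : SuffixClosed (S : Set (List ℕ))) (c : List ℕ → ℝ) {y : LL m}
    (hy : y ∈ modelSpace m) (hy0 : ∀ u ∈ S, y (dT m u) = 0) {a b : ℝ} (ha0 : 0 ≤ a)
    (hb0 : 0 ≤ b) (hb1 : b ≤ 1 / 2) (hab : a ^ 2 + b ^ 2 ≤ 1) :
    2 * a * ‖(∑ u ∈ S, c u • coordVector m u : LL m)‖ + b * ‖y‖ ≤
      ‖(∑ u ∈ S, c u • coordVector m u : LL m) + y‖ +
        ‖(∑ u ∈ S, c u • coordVector m u : LL m) - y‖ := by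
  set x : LL m := ∑ u ∈ S, c u • coordVector m u with hx
  have hxm : x ∈ modelSpace m := sum_coord_mem m S c
  refine le_of_forall_pos_le_add fun ε hε => ?_
  set η : ℝ := ε / (2 * a + b + 1) with hη
  have hηpos : 0 < η := by positivity
  obtain ⟨f, hf⟩ := exists_test_gt hxm hηpos
  obtain ⟨g, hg⟩ := exists_test_gt hy hηpos
  have h1 := apply_le_norm m (x + y) (glueT hS f g ha0 hb0 hb1 hab true)
  have h2 := apply_le_norm m (x - y) (glueT hS f g ha0 hb0 hb1 hab false)
  have h3 := apply_glueT_sub hS f g ha0 hb0 hb1 hab hy hy0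
  have h4 := sum_coord_glueT hS f g ha0 hb0 hb1 hab true c
  have h5 := sum_coord_glueT hS f g ha0 hb0 hb1 hab false c
  rw [← hx] at h4 h5
  have e1 : (x + y) (glueT hS f g ha0 hb0 hb1 hab true) =
      x (glueT hS f g ha0 hb0 hb1 hab true) + y (glueT hS f g ha0 hb0 hb1 hab true) := rfl
  have e2 : (x - y) (glueT hS f g ha0 hb0 hb1 hab false) =
      x (glueT hS f g ha0 hb0 hb1 hab false) - y (glueT hS f g ha0 hb0 hb1 hab false) := rfl
  rw [e1, h4] at h1
  rw [e2, h5] at h2
  have h6 : 2 * a * (‖x‖ - η) ≤ 2 * a * x f :=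
    mul_le_mul_of_nonneg_left hf.le (by positivity)
  have h7 : b * (‖y‖ - η) ≤ b * y g := mul_le_mul_of_nonneg_left hg.le hb0
  have h8 : (2 * a + b) * η ≤ ε := by
    rw [hη, mul_div_assoc']
    rw [div_le_iff₀ (by positivity)]
    nlinarith
  nlinarith

/-- the finite subtree generated by a finite set of vertices -/
def subtree (A : Finset (List ℕ)) : Finset (List ℕ) :=
  insert [] (A.biUnion fun u => u.tails.toFinset)

theorem subset_subtree (A : Finset (List ℕ)) : A ⊆ subtree A := by
  intro u hu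
  refine Finset.mem_insert_of_mem (Finset.mem_biUnion.mpr ⟨u, hu, ?_⟩)
  simp

theorem suffixClosed_subtree (A : Finset (List ℕ)) :
    SuffixClosed (subtree A : Set (List ℕ)) := by
  refine ⟨by simp [subtree], fun n v h => ?_⟩
  simp only [subtree, Finset.coe_insert, Finset.coe_biUnion, Set.mem_insert_iff, Set.mem_iUnion,
    Finset.mem_coe, List.mem_toFinset, List.mem_tails, reduceCtorEq, false_or] at h ⊢
  obtain ⟨u, hu, hsuf⟩ := h
  exact Or.inr ⟨u, hu, (List.suffix_cons n v).trans hsuf⟩

theorem exists_approx {m : PotentialModel} {x : LL m} (hx : x ∈ modelSpace m) {η : ℝ}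
    (hη : 0 < η) : ∃ (S : Finset (List ℕ)) (c : List ℕ → ℝ),
      SuffixClosed (S : Set (List ℕ)) ∧ ‖x - ∑ u ∈ S, c u • coordVector m u‖ < η := by
  have hx' : x ∈ closure (Submodule.span ℝ (Set.range (coordVector m)) : Set (LL m)) := hx
  rw [Metric.mem_closure_iff] at hx'
  obtain ⟨x', hx'mem, hdist⟩ := hx' η hη
  obtain ⟨c₀, hc₀⟩ := (Finsupp.mem_span_range_iff_exists_finsupp).mp hx'mem
  refine ⟨subtree c₀.support, c₀, suffixClosed_subtree _, ?_⟩
  have : ∑ u ∈ subtree c₀.support, c₀ u • coordVector m u = x' := by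
    rw [← hc₀, Finsupp.sum]
    refine (Finset.sum_subset (subset_subtree _) fun u _ hu => ?_).symm
    rw [Finsupp.notMem_support_iff.mp hu, zero_smul]
  rw [this, ← dist_eq_norm]
  exact hdist

open Crest.Agent.Lib_helper2_AUC

/-- the closed finite-codimensional subspace of vectors vanishing on the coordinates in `S` -/
noncomputable def vanishSub (m : PotentialModel) (S : Finset (List ℕ)) :
    Submodule ℝ (modelSpace m) :=
  LinearMap.ker (ContinuousLinearMap.pi
    (fun u : S => (ev m (dT m u)).comp (modelSpace m).subtypeL)).toLinearMap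

theorem cofSub_vanishSub (m : PotentialModel) (S : Finset (List ℕ)) :
    CofSub (vanishSub m S) := cofSub_ker_pi _

theorem mem_vanishSub {m : PotentialModel} {S : Finset (List ℕ)} {y : modelSpace m} :
    y ∈ vanishSub m S ↔ ∀ u ∈ S, (y : LL m) (dT m u) = 0 := by
  rw [vanishSub, mem_ker_pi]
  constructor
  · intro h u hu
    exact h ⟨u, hu⟩
  · intro h u
    exact h u u.2

theorem mid_model (m : PotentialModel) {t : ℝ} (ht0 : 0 < t) (ht1 : t < 1) (x : modelSpace m)
    (hx : ‖x‖ = 1) {η : ℝ} (hη : 0 < η) :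
    ∃ S' : Submodule ℝ (modelSpace m), CofSub S' ∧ ∀ y ∈ S', ‖y‖ = 1 →
      Real.sqrt (1 + t ^ 2 / 4) - 1 - η ≤ (‖x + t • y‖ + ‖x - t • y‖) / 2 - 1 := by
  obtain ⟨S, c, hS, hc⟩ := exists_approx x.2 (half_pos hη)
  refine ⟨vanishSub m S, cofSub_vanishSub m S, fun y hy hy1 => ?_⟩
  set x' : LL m := ∑ u ∈ S, c u • coordVector m u with hx'
  set r : ℝ := Real.sqrt (1 + t ^ 2 / 4) with hr
  have hr2 : r ^ 2 = 1 + t ^ 2 / 4 := Real.sq_sqrt (by positivity)
  have hr1 : 1 ≤ r := by
    rw [hr]
    exact Real.one_le_sqrt.mpr (by nlinarith [sq_nonneg t])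
  have hrpos : 0 < r := by linarith
  have hty : (t • (y : LL m)) ∈ modelSpace m := Submodule.smul_mem _ _ y.2
  have hty0 : ∀ u ∈ S, (t • (y : LL m)) (dT m u) = 0 := by
    intro u hu
    have := mem_vanishSub.mp hy u hu
    show t * (y : LL m) (dT m u) = 0
    rw [this, mul_zero]
  have hcore := mid_core hS c hty hty0 (a := 1 / r) (b := t / 2 / r) (by positivity)
    (by positivity) (by rw [div_le_iff₀ hrpos]; linarith)
    (by
      have : (1 / r) ^ 2 + (t / 2 / r) ^ 2 = (1 + t ^ 2 / 4) / r ^ 2 := by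
        field_simp
        ring
      rw [this, hr2, div_self (by positivity)])
  rw [← hx'] at hcore
  have hxn : ‖(x : LL m)‖ = 1 := hx
  have hyn : ‖(y : LL m)‖ = 1 := hy1
  have h1 : 1 - η / 2 ≤ ‖x'‖ := by
    have := norm_sub_norm_le (x : LL m) x'
    linarith
  have h2 : ‖x' + t • (y : LL m)‖ ≤ ‖(x : LL m) + t • (y : LL m)‖ + η / 2 := by
    have e : x' + t • (y : LL m) = ((x : LL m) + t • (y : LL m)) - ((x : LL m) - x') := by abel
    rw [e]
    exact (norm_sub_le _ _).trans (by linarith)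
  have h3 : ‖x' - t • (y : LL m)‖ ≤ ‖(x : LL m) - t • (y : LL m)‖ + η / 2 := by
    have e : x' - t • (y : LL m) = ((x : LL m) - t • (y : LL m)) - ((x : LL m) - x') := by abel
    rw [e]
    exact (norm_sub_le _ _).trans (by linarith)
  have h4 : ‖t • (y : LL m)‖ = t := by rw [norm_smul, hyn, Real.norm_eq_abs, abs_of_pos ht0, mul_one]
  rw [h4] at hcore
  have h5 : 2 * (1 / r) * 1 + t / 2 / r * t = 2 * r := by
    field_simp
    nlinarith
  have h6 : 2 * (1 / r) * (1 - η / 2) ≤ 2 * (1 / r) * ‖x'‖ :=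
    mul_le_mul_of_nonneg_left h1 (by positivity)
  have h7 : 1 / r ≤ 1 := by rw [div_le_one hrpos]; exact hr1
  have e1 : ‖x + t • y‖ = ‖(x : LL m) + t • (y : LL m)‖ := rfl
  have e2 : ‖x - t • y‖ = ‖(x : LL m) - t • (y : LL m)‖ := rfl
  rw [e1, e2]
  nlinarith

end Crest.Agent.Lib_helper2_Tree
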