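import Mathlib
import Crest.Prelude.Def_TreePotentials
import Crest.Agent.Lib_helper2_AUC
import Crest.Agent.Lib_helper2_Tree

/-!
Tree potentials: coordinate vectors, branch sums, sibling domination, no AUC renorming.
-/

set_option autoImplicit false
set_option linter.style.haveILetI false

namespace Crest.Agent.Lib_helper2_Tree

open Crest.AnalysisR Crest.AnalysisR.TreePotential Crest.Agent.Lib_helper2_AUC
open scoped Classical

/-- coordinate vectors as elements of the model space -/
noncomputable def eX (m : PotentialModel) (s : List ℕ) : modelSpace m :=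
  ⟨coordVector m s, coordVector_mem m s⟩

/-- branch sums -/
noncomputable def zX (m : PotentialModel) : List ℕ → modelSpace m
  | [] => eX m []
  | n :: v => zX m v + eX m (n :: v)

theorem zX_apply (m : PotentialModel) (τ : PotentialTest m) :
    ∀ v, (zX m v : LL m) τ = pathPotential τ.1 v
  | [] => rfl
  | n :: v => by
    have : (zX m (n :: v) : LL m) τ = (zX m v : LL m) τ + τ.1 (n :: v) := rfl
    rw [this, zX_apply m τ v]
    rfl

theorem norm_zX_le (m : PotentialModel) (v : List ℕ) : ‖zX m v‖ ≤ 1 := by
  show ‖(zX m v : LL m)‖ ≤ 1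
  refine lp.norm_le_of_forall_le zero_le_one fun τ => ?_
  rw [zX_apply, Real.norm_eq_abs]
  exact τ.2.1 v

theorem one_le_norm_eX (m : PotentialModel) {u : List ℕ} (hu : u ≠ []) : 1 ≤ ‖eX m u‖ := by
  have := apply_le_norm m (coordVector m u) (dT m u)
  rw [coordVector_apply, dT_self m hu] at this
  exact this

theorem signDominated_siblings (m : PotentialModel) (r : List ℕ) :
    SignDominated (fun n => eX m (n :: r)) 1 := by
  intro A a ha
  rw [one_mul]
  show ‖((∑ n ∈ A, a n • eX m (n :: r) : modelSpace m) : LL m)‖ ≤ _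
  refine lp.norm_le_of_forall_le (Real.sqrt_nonneg _) fun τ => ?_
  have h1 : ((∑ n ∈ A, a n • eX m (n :: r) : modelSpace m) : LL m) τ =
      ∑ n ∈ A, a n * τ.1 (n :: r) := by
    have : ((ev m τ).comp (modelSpace m).subtypeL) (∑ n ∈ A, a n • eX m (n :: r)) =
        ∑ n ∈ A, a n * τ.1 (n :: r) := by
      rw [map_sum]
      refine Finset.sum_congr rfl fun n _ => ?_
      rw [map_smul]
      rfl
    exact this
  rw [h1, Real.norm_eq_abs]
  refine Real.abs_le_sqrt ?_
  calc (∑ n ∈ A, a n * τ.1 (n :: r)) ^ 2
      ≤ (∑ n ∈ A, a n ^ 2) * ∑ n ∈ A, τ.1 (n :: r) ^ 2 := Finset.sum_mul_sq_le_sq_mul_sq _ _ _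
    _ ≤ (A.card : ℝ) * 1 := by
        refine mul_le_mul ?_ (sibling_sq_le m τ.2 r A) (Finset.sum_nonneg fun _ _ => sq_nonneg _)
          (Nat.cast_nonneg _)
        calc ∑ n ∈ A, a n ^ 2 ≤ ∑ n ∈ A, (1 : ℝ) := by
              refine Finset.sum_le_sum fun n _ => ?_
              have := ha n
              rw [abs_le] at this
              nlinarith [this.1, this.2]
          _ = A.card := by simp
    _ = A.card := mul_one _

theorem not_finiteDimensional_model (m : PotentialModel) :
    ¬ FiniteDimensional ℝ (modelSpace m) :=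
  not_finiteDimensional_of_signDominated (signDominated_siblings m []) one_pos
    fun n => one_le_norm_eX m (by simp)

theorem separable_model (m : PotentialModel) :
    TopologicalSpace.SeparableSpace (modelSpace m) := by
  have h1 : TopologicalSpace.IsSeparable (Set.range (coordVector m)) :=
    (Set.countable_range _).isSeparable
  have h2 : TopologicalSpace.IsSeparable
      (Submodule.span ℝ (Set.range (coordVector m)) : Set (LL m)) := h1.span
  have h3 : TopologicalSpace.IsSeparable (modelSpace m : Set (LL m)) := h2.closure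
  exact h3.separableSpace

theorem not_AUC_model (m : PotentialModel) {N : modelSpace m → ℝ} (hN : EquivNorm N) :
    ¬ AUC N := by
  refine not_AUC_of_set hN (Set.range (zX m)) ⟨_, ⟨[], rfl⟩⟩ (R := 1) (κ := 1) ?_ one_pos ?_
  · rintro _ ⟨v, rfl⟩
    exact norm_zX_le m v
  · rintro _ ⟨v, rfl⟩ S hS ε hε
    obtain ⟨n, w, hw, hn⟩ := ((signDominated_siblings m v).eventually_near hS hε).exists
    have e : zX m (n :: v) - zX m v = eX m (n :: v) := by
      show zX m v + eX m (n :: v) - zX m v = _
      abel
    refine ⟨zX m (n :: v), ⟨_, rfl⟩, w, hw, ?_, ?_⟩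
    · rw [e]; exact one_le_norm_eX m (by simp)
    · rw [e]; exact hn

end Crest.Agent.Lib_helper2_Tree
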