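import Mathlib
import Crest.Prelude.Def_TreePotentials
import Crest.Agent.Lib_helper2_AUC
import Crest.Agent.Lib_helper2_Tree
import Crest.Agent.Lib_helper2_Tree2

/-!
The height-`k` parts of the global tree-potential model: they are isomorphic to Hilbert spaces.
-/

set_option autoImplicit false
set_option linter.style.haveILetI false
set_option linter.unusedSectionVars false

namespace Crest.Agent.Lib_helper2_HtK

open Crest.AnalysisR Crest.AnalysisR.TreePotential Crest.Agent.Lib_helper2_AUC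
  Crest.Agent.Lib_helper2_Tree
open scoped Classical RealInnerProductSpace

/-- the global model -/
abbrev gm : PotentialModel := PotentialModel.global

/-- the Hilbert space of square summable arrays on the tree -/
abbrev HH : Type := lp (fun _ : List ℕ => ℝ) 2

theorem two_toReal : (2 : ENNReal).toReal = 2 := by simp

theorem sum_sq_le_norm_sq (c : HH) (A : Finset (List ℕ)) : ∑ u ∈ A, c u ^ 2 ≤ ‖c‖ ^ 2 := by
  have := lp.sum_rpow_le_norm_rpow (p := 2) (by simp) c A
  simp only [two_toReal, Real.rpow_two, Real.norm_eq_abs, sq_abs] at this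
  exact this

/-- a global test as an element of the Hilbert space -/
noncomputable def res (τ : PotentialTest gm) : HH :=
  ⟨fun u => τ.1 u, memℓp_gen' (C := 1) (fun A => by
    have := τ.2.2 A
    simpa only [two_toReal, Real.rpow_two, Real.norm_eq_abs, sq_abs] using this)⟩

@[simp] theorem res_apply (τ : PotentialTest gm) (u : List ℕ) : res τ u = τ.1 u := rfl

theorem norm_res_le (τ : PotentialTest gm) : ‖res τ‖ ≤ 1 := by
  refine lp.norm_le_of_forall_sum_le (p := 2) (by simp) zero_le_one fun A => ?_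
  have := τ.2.2 A
  simpa only [two_toReal, Real.rpow_two, Real.norm_eq_abs, sq_abs, res_apply, one_pow] using this

/-- the synthesis operator from the Hilbert space to bounded functions on the tests -/
noncomputable def JJ : HH →L[ℝ] LL gm :=
  LinearMap.mkContinuous
    { toFun := fun c => ⟨fun τ => ⟪res τ, c⟫, memℓp_infty ⟨‖c‖, by
        rintro _ ⟨τ, rfl⟩
        calc ‖⟪res τ, c⟫‖ ≤ ‖res τ‖ * ‖c‖ := norm_inner_le_norm _ _
          _ ≤ 1 * ‖c‖ := mul_le_mul_of_nonneg_right (norm_res_le τ) (norm_nonneg _)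
          _ = ‖c‖ := one_mul _⟩⟩
      map_add' := fun c d => by
        ext τ
        exact inner_add_right _ _ _
      map_smul' := fun a c => by
        ext τ
        exact inner_smul_right _ _ _ }
    1 (fun c => by
      rw [one_mul]
      refine lp.norm_le_of_forall_le (norm_nonneg _) fun τ => ?_
      calc ‖⟪res τ, c⟫‖ ≤ ‖res τ‖ * ‖c‖ := norm_inner_le_norm _ _
        _ ≤ 1 * ‖c‖ := mul_le_mul_of_nonneg_right (norm_res_le τ) (norm_nonneg _)
        _ = ‖c‖ := one_mul _)

theorem JJ_apply (c : HH) (τ : PotentialTest gm) : JJ c τ = ⟪res τ, c⟫ := rfl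

theorem norm_JJ_le (c : HH) : ‖JJ c‖ ≤ ‖c‖ := by
  refine lp.norm_le_of_forall_le (norm_nonneg _) fun τ => ?_
  rw [JJ_apply]
  calc ‖⟪res τ, c⟫‖ ≤ ‖res τ‖ * ‖c‖ := norm_inner_le_norm _ _
    _ ≤ 1 * ‖c‖ := mul_le_mul_of_nonneg_right (norm_res_le τ) (norm_nonneg _)
    _ = ‖c‖ := one_mul _

theorem JJ_single (u : List ℕ) (a : ℝ) : JJ (lp.single 2 u a) = a • coordVector gm u := by
  ext τ
  rw [JJ_apply, lp.inner_single_right]
  show ⟪res τ u, a⟫ = a * τ.1 u
  simp

/-- arrays supported on the vertices of height at most `k` -/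
def HS (k : ℕ) : Submodule ℝ HH where
  carrier := {c | ∀ u : List ℕ, k < u.length → c u = 0}
  add_mem' := fun {c d} hc hd u hu => by
    show c u + d u = 0
    rw [hc u hu, hd u hu, add_zero]
  zero_mem' := fun _ _ => rfl
  smul_mem' := fun a c hc u hu => by
    show a * c u = 0
    rw [hc u hu, mul_zero]

theorem mem_HS {k : ℕ} {c : HH} : c ∈ HS k ↔ ∀ u : List ℕ, k < u.length → c u = 0 := Iff.rfl

theorem isClosed_HS (k : ℕ) : IsClosed (HS k : Set HH) := by
  have : (HS k : Set HH) = ⋂ u : List ℕ, ⋂ _ : k < u.length,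
      {c : HH | lp.evalCLM ℝ (fun _ : List ℕ => ℝ) 2 u c = 0} := by
    ext c
    simp only [SetLike.mem_coe, mem_HS, Set.mem_iInter, Set.mem_ofPred_eq]
    rfl
  rw [this]
  exact isClosed_iInter fun u => isClosed_iInter fun _ =>
    isClosed_eq (ContinuousLinearMap.continuous _) continuous_const

instance (k : ℕ) : CompleteSpace (HS k) := (isClosed_HS k).completeSpace_coe

theorem abs_pathPotential_le {f : List ℕ → ℝ} {M : ℝ} (hM0 : 0 ≤ M) {k : ℕ}
    (hM : ∀ u, |f u| ≤ M) (h0 : ∀ u : List ℕ, k < u.length → f u = 0) :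
    ∀ s : List ℕ, |pathPotential f s| ≤ ((min s.length k : ℕ) + 1 : ℝ) * M
  | [] => by
    simp only [pathPotential, List.length_nil, Nat.zero_min, Nat.cast_zero, zero_add, one_mul]
    exact hM []
  | n :: v => by
    have ih := abs_pathPotential_le hM0 hM h0 v
    simp only [pathPotential]
    by_cases h : k < (n :: v).length
    · rw [h0 _ h, add_zero]
      refine ih.trans (mul_le_mul_of_nonneg_right ?_ hM0)
      have : min v.length k ≤ min (n :: v).length k := by
        simp only [List.length_cons]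
        omega
      exact_mod_cast Nat.succ_le_succ this
    · rw [not_lt] at h
      have h1 : min (n :: v).length k = min v.length k + 1 := by
        simp only [List.length_cons] at h ⊢
        omega
      rw [h1]
      push_cast
      calc |pathPotential f v + f (n :: v)| ≤ |pathPotential f v| + |f (n :: v)| := abs_add_le _ _
        _ ≤ ((min v.length k : ℕ) + 1 : ℝ) * M + M := add_le_add ih (hM _)
        _ = _ := by push_cast; ring

theorem norm_le_JJ {k : ℕ} {c : HH} (hc : c ∈ HS k) : ‖c‖ ≤ ((k : ℝ) + 1) * ‖JJ c‖ := by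
  by_cases hc0 : c = 0
  · subst hc0; simp
  have hn : 0 < ‖c‖ := norm_pos_iff.mpr hc0
  have hk : (0 : ℝ) < (k : ℝ) + 1 := by positivity
  set q : ℝ := (‖c‖ * ((k : ℝ) + 1))⁻¹ with hq
  have hqpos : 0 < q := by positivity
  have htest : IsTest gm (fun u => q * c u) := by
    refine ⟨fun s => ?_, fun A => ?_⟩
    · have h1 := abs_pathPotential_le (f := fun u => q * c u) (M := ((k : ℝ) + 1)⁻¹) (k := k)
        (by positivity) (fun u => by
          rw [abs_mul, abs_of_pos hqpos]
          have : |c u| ≤ ‖c‖ := lp.norm_apply_le_norm (by simp) c u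
          calc q * |c u| ≤ q * ‖c‖ := mul_le_mul_of_nonneg_left this hqpos.le
            _ = ((k : ℝ) + 1)⁻¹ := by rw [hq]; field_simp)
        (fun u hu => by rw [hc u hu, mul_zero]) s
      refine h1.trans ?_
      have h2 : ((min s.length k : ℕ) + 1 : ℝ) ≤ (k : ℝ) + 1 := by
        have : min s.length k ≤ k := min_le_right _ _
        exact_mod_cast Nat.succ_le_succ this
      calc ((min s.length k : ℕ) + 1 : ℝ) * ((k : ℝ) + 1)⁻¹ ≤ ((k : ℝ) + 1) * ((k : ℝ) + 1)⁻¹ :=
            mul_le_mul_of_nonneg_right h2 (by positivity)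
        _ = 1 := mul_inv_cancel₀ hk.ne'
    · have h1 := sum_sq_le_norm_sq c A
      calc ∑ u ∈ A, (q * c u) ^ 2 = q ^ 2 * ∑ u ∈ A, c u ^ 2 := by
            rw [Finset.mul_sum]; exact Finset.sum_congr rfl fun u _ => by ring
        _ ≤ q ^ 2 * ‖c‖ ^ 2 := mul_le_mul_of_nonneg_left h1 (sq_nonneg _)
        _ = (((k : ℝ) + 1)⁻¹) ^ 2 := by rw [hq]; field_simp
        _ ≤ 1 := by
            have : ((k : ℝ) + 1)⁻¹ ≤ 1 := inv_le_one_of_one_le₀ (by linarith [Nat.cast_nonneg (α := ℝ) k])
            exact pow_le_one₀ (by positivity) this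
  have hres : res ⟨_, htest⟩ = q • c := by
    ext u
    rfl
  have h1 : ⟪res ⟨_, htest⟩, c⟫ ≤ ‖JJ c‖ := apply_le_norm gm (JJ c) ⟨_, htest⟩
  rw [hres, inner_smul_left, real_inner_self_eq_norm_sq] at h1
  simp only [conj_trivial] at h1
  have h2 : q * ‖c‖ ^ 2 = ‖c‖ / ((k : ℝ) + 1) := by rw [hq]; field_simp
  rw [h2, div_le_iff₀ hk] at h1
  linarith

theorem JJ_injective : Function.Injective JJ := by
  rw [injective_iff_map_eq_zero]
  intro c hc
  ext u
  have h1 : JJ c (dT gm u) = 0 := by rw [hc]; rfl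
  rw [JJ_apply] at h1
  have h2 : res (dT gm u) = lp.single 2 u (1 : ℝ) := by
    ext s
    rw [res_apply, lp.single_apply]
    show dFun gm u s = _
    simp only [dFun, delta, ne_eq, reduceCtorEq, not_false_eq_true, or_true, if_true]
    by_cases h : s = u
    · subst h; simp
    · simp [h]
  rw [h2, lp.inner_single_left] at h1
  simpa using h1

/-- the height-`k` part of the global model -/
noncomputable def XS (k : ℕ) : Submodule ℝ (LL gm) := (HS k).map JJ.toLinearMap

/-- the isomorphism with a Hilbert space -/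
noncomputable def equivXS (k : ℕ) : HS k ≃L[ℝ] XS k :=
  LinearEquiv.toContinuousLinearEquivOfBounds
    (Submodule.equivMapOfInjective JJ.toLinearMap JJ_injective (HS k)) 1 ((k : ℝ) + 1)
    (fun c => by
      rw [one_mul]
      exact norm_JJ_le c.1)
    (fun x => by
      obtain ⟨c, rfl⟩ := (Submodule.equivMapOfInjective JJ.toLinearMap JJ_injective (HS k)).surjective x
      have e : (Submodule.equivMapOfInjective JJ.toLinearMap JJ_injective (HS k)).symm
          ((Submodule.equivMapOfInjective JJ.toLinearMap JJ_injective (HS k)) c) = c :=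
        LinearEquiv.symm_apply_apply _ _
      have h := norm_le_JJ c.2
      calc _ = ‖c‖ := congrArg _ e
        _ ≤ _ := h)

theorem equivXS_apply (k : ℕ) (c : HS k) : ((equivXS k c : XS k) : LL gm) = JJ c.1 := rfl

instance (k : ℕ) : CompleteSpace (XS k) :=
  (completeSpace_congr (equivXS k).isUniformEmbedding).mp inferInstance

theorem JJ_sum_single (A : Finset (List ℕ)) (c : List ℕ → ℝ) :
    JJ (∑ u ∈ A, lp.single 2 u (c u)) = ∑ u ∈ A, c u • coordVector gm u := by
  rw [map_sum]
  exact Finset.sum_congr rfl fun u _ => JJ_single u (c u)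

theorem JJ_mem_modelSpace (c : HH) : JJ c ∈ modelSpace gm := by
  have h1 : HasSum (fun u => lp.single 2 u (c u)) c := lp.hasSum_single (by simp) c
  have h2 := (JJ.continuous.tendsto c).comp h1
  refine (Submodule.isClosed_topologicalClosure _).mem_of_tendsto h2
    (Filter.Eventually.of_forall fun A => ?_)
  simp only [Function.comp]
  rw [JJ_sum_single]
  exact sum_coord_mem gm A _

theorem XS_le_modelSpace (k : ℕ) : XS k ≤ modelSpace gm := by
  rintro _ ⟨c, -, rfl⟩
  exact JJ_mem_modelSpace c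

theorem single_mem_HS {k : ℕ} {u : List ℕ} (hu : u.length ≤ k) (a : ℝ) :
    lp.single 2 u a ∈ HS k := by
  intro s hs
  rw [lp.single_apply_ne]
  rintro rfl
  omega

theorem coordVector_mem_XS {k : ℕ} {u : List ℕ} (hu : u.length ≤ k) :
    coordVector gm u ∈ XS k :=
  ⟨lp.single 2 u 1, single_mem_HS hu 1, by
    show JJ (lp.single 2 u 1) = _
    rw [JJ_single, one_smul]⟩

theorem sum_coord_mem_XS {k : ℕ} {S : Finset (List ℕ)} (hS : ∀ u ∈ S, u.length ≤ k)
    (c : List ℕ → ℝ) : (∑ u ∈ S, c u • coordVector gm u : LL gm) ∈ XS k :=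
  Submodule.sum_mem _ fun u hu => Submodule.smul_mem _ _ (coordVector_mem_XS (hS u hu))

theorem exists_approx_XS {k : ℕ} {x : LL gm} (hx : x ∈ XS k) {δ : ℝ} (hδ : 0 < δ) :
    ∃ (S : Finset (List ℕ)) (c : List ℕ → ℝ), SuffixClosed (S : Set (List ℕ)) ∧
      (∀ u ∈ S, u.length ≤ k) ∧ ‖x - ∑ u ∈ S, c u • coordVector gm u‖ < δ := by
  obtain ⟨c₀, hc₀, rfl⟩ := hx
  have h1 : HasSum (fun u => lp.single 2 u (c₀ u)) c₀ := lp.hasSum_single (by simp) c₀
  have h2 : ∀ᶠ A : Finset (List ℕ) in Filter.atTop,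
      dist (∑ u ∈ A, lp.single 2 u (c₀ u)) c₀ < δ := h1.eventually (Metric.ball_mem_nhds _ hδ)
  obtain ⟨A₀, hA₀⟩ := Filter.eventually_atTop.mp h2
  have h3 := hA₀ (subtree A₀) (subset_subtree A₀)
  set S : Finset (List ℕ) := (subtree A₀).filter (fun u => u.length ≤ k) with hS
  have h4 : ∑ u ∈ S, lp.single 2 u (c₀ u) = ∑ u ∈ subtree A₀, lp.single 2 u (c₀ u) := by
    refine Finset.sum_subset (Finset.filter_subset _ _) fun u hu hu' => ?_
    have : k < u.length := by
      by_contra h
      exact hu' (Finset.mem_filter.mpr ⟨hu, not_lt.mp h⟩)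
    rw [hc₀ u this]
    exact lp.single_zero _ _
  refine ⟨S, fun u => c₀ u, ⟨?_, ?_⟩, fun u hu => (Finset.mem_filter.mp hu).2, ?_⟩
  · simp only [hS, Finset.coe_filter]
    exact ⟨(suffixClosed_subtree A₀).1, by simp⟩
  · intro n v hnv
    simp only [hS, Finset.coe_filter] at hnv ⊢
    refine ⟨(suffixClosed_subtree A₀).2 n v hnv.1, ?_⟩
    have := hnv.2
    simp only [List.length_cons] at this
    omega
  · rw [← JJ_sum_single, h4]
    show ‖JJ c₀ - JJ _‖ < δ
    rw [← map_sub]
    refine lt_of_le_of_lt (norm_JJ_le _) ?_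
    rw [← dist_eq_norm, dist_comm]
    exact h3

/-- **Homogeneous midpoint inequality** (all sizes). -/
theorem mid_hom {m : PotentialModel} {S : Finset (List ℕ)}
    (hS : SuffixClosed (S : Set (List ℕ))) (c : List ℕ → ℝ) {y : LL m}
    (hy : y ∈ modelSpace m) (hy0 : ∀ u ∈ S, y (dT m u) = 0) :
    4 * ‖(∑ u ∈ S, c u • coordVector m u : LL m)‖ ^ 2 + ‖y‖ ^ 2 ≤
      (‖(∑ u ∈ S, c u • coordVector m u : LL m) + y‖ +
        ‖(∑ u ∈ S, c u • coordVector m u : LL m) - y‖) ^ 2 := by
  set x : LL m := ∑ u ∈ S, c u • coordVector m u with hx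
  set X := ‖x‖ with hX
  set Y := ‖y‖ with hY
  have hX0 : 0 ≤ X := norm_nonneg _
  have hY0 : 0 ≤ Y := norm_nonneg _
  have hsum0 : 0 ≤ ‖x + y‖ + ‖x - y‖ := by positivity
  by_cases hcase : 3 * Y ^ 2 ≤ 4 * X ^ 2
  · by_cases hX1 : X = 0
    · have : Y = 0 := by
        rw [hX1] at hcase
        have : Y ^ 2 ≤ 0 := by nlinarith
        exact pow_eq_zero_iff (two_ne_zero) |>.mp (le_antisymm this (sq_nonneg _))
      rw [hX1, this]
      have := sq_nonneg (‖x + y‖ + ‖x - y‖)
      simpa using this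
    have hXpos : 0 < X := lt_of_le_of_ne hX0 (Ne.symm hX1)
    set r : ℝ := Real.sqrt (4 * X ^ 2 + Y ^ 2) with hr
    have hr2 : r ^ 2 = 4 * X ^ 2 + Y ^ 2 := Real.sq_sqrt (by positivity)
    have hrpos : 0 < r := Real.sqrt_pos.mpr (by positivity)
    have hcore := mid_core hS c hy hy0 (a := 2 * X / r) (b := Y / r) (by positivity)
      (by positivity)
      (by
        rw [div_le_iff₀ hrpos]
        have : (2 * Y) ^ 2 ≤ r ^ 2 := by rw [hr2]; nlinarith
        have := abs_le_of_sq_le_sq' this hrpos.le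
        linarith [this.2])
      (by
        have : (2 * X / r) ^ 2 + (Y / r) ^ 2 = (4 * X ^ 2 + Y ^ 2) / r ^ 2 := by
          field_simp
          ring
        rw [this, hr2, div_self (by positivity)])
    rw [← hx, ← hX, ← hY] at hcore
    have h1 : 2 * (2 * X / r) * X + Y / r * Y = r := by
      have : 2 * (2 * X / r) * X + Y / r * Y = (4 * X ^ 2 + Y ^ 2) / r := by
        field_simp
        ring
      rw [this, ← hr2]
      field_simp
    rw [h1] at hcore
    rw [← hr2]
    exact pow_le_pow_left₀ hrpos.le hcore 2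
  · rw [not_le] at hcase
    have h1 : 2 * Y ≤ ‖x + y‖ + ‖x - y‖ := by
      have e : (2 : ℝ) • y = (x + y) - (x - y) := by rw [two_smul]; abel
      have h2 : ‖(2 : ℝ) • y‖ ≤ ‖x + y‖ + ‖x - y‖ := by
        rw [e]; exact norm_sub_le _ _
      rw [norm_smul] at h2
      simpa using h2
    have h2 : (2 * Y) ^ 2 ≤ (‖x + y‖ + ‖x - y‖) ^ 2 := pow_le_pow_left₀ (by positivity) h1 2
    nlinarith

end Crest.Agent.Lib_helper2_HtK
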