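import Mathlib
import Crest.Prelude.Def_TreeProducts
import Crest.Agent.Lib_helper2_AUC

/-!
Path products of independent multipliers (S0169).
-/

set_option autoImplicit false
set_option linter.style.haveILetI false
set_option linter.unusedSectionVars false

namespace Crest.Agent.Lib_helper2_Prod

open MeasureTheory ProbabilityTheory
open Crest.AnalysisR Crest.AnalysisR.TreeProduct Crest.Agent.Lib_helper2_AUC

section law

variable {ν : Measure ℝ} [IsProbabilityMeasure ν]

theorem integrable_id_of_mean (hmean : ∫ x, x ∂ν = 1) : Integrable (fun x : ℝ => x) ν := by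
  by_contra h
  rw [integral_undef h] at hmean
  exact zero_ne_one hmean

theorem ae_pos (hpos : ν (Set.Ioi 0) = 1) : ∀ᵐ x ∂ν, 0 < x := by
  have : ν (Set.Ioi 0)ᶜ = 0 := (prob_compl_eq_zero_iff measurableSet_Ioi).mpr hpos
  rw [ae_iff]
  exact this

theorem integral_abs_eq_one (hpos : ν (Set.Ioi 0) = 1) (hmean : ∫ x, x ∂ν = 1) :
    ∫ x, |x| ∂ν = 1 := by
  rw [← hmean]
  refine integral_congr_ae ?_
  filter_upwards [ae_pos hpos] with x hx
  exact abs_of_pos hx

theorem integral_sub_one (hmean : ∫ x, x ∂ν = 1) : ∫ x, (x - 1) ∂ν = 0 := by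
  rw [integral_sub (integrable_id_of_mean hmean) (integrable_const _), hmean]
  simp

theorem integrable_sub_one_sq (hmean : ∫ x, x ∂ν = 1) (hm2 : Integrable (fun x : ℝ => x ^ 2) ν) :
    Integrable (fun x : ℝ => (x - 1) ^ 2) ν := by
  have : (fun x : ℝ => (x - 1) ^ 2) = fun x => x ^ 2 - 2 * x + 1 := by
    funext x; ring
  rw [this]
  exact (hm2.sub ((integrable_id_of_mean hmean).const_mul 2)).add (integrable_const _)

theorem integral_abs_sub_one_pos (hnc : ∀ c : ℝ, ν ≠ Measure.dirac c) (hmean : ∫ x, x ∂ν = 1) :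
    0 < ∫ x, |x - 1| ∂ν := by
  have hint : Integrable (fun x : ℝ => |x - 1|) ν :=
    ((integrable_id_of_mean hmean).sub (integrable_const 1)).abs
  refine lt_of_le_of_ne (integral_nonneg fun x => abs_nonneg _) fun h0 => ?_
  have h1 := (integral_eq_zero_iff_of_nonneg (fun x => abs_nonneg (x - 1)) hint).mp h0.symm
  have h2 : ∀ᵐ x ∂ν, x = 1 := by
    filter_upwards [h1] with x hx
    have : |x - 1| = 0 := hx
    rw [abs_eq_zero] at this
    linarith
  refine hnc 1 ?_
  have h3 : ν {1}ᶜ = 0 := by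
    rw [ae_iff] at h2
    exact h2
  ext s hs
  by_cases h : (1 : ℝ) ∈ s
  · rw [Measure.dirac_apply_of_mem h]
    have : ν sᶜ = 0 := measure_mono_null (by
      intro x hx hx1
      rw [Set.mem_singleton_iff] at hx1
      exact hx (hx1 ▸ h)) h3
    exact (prob_compl_eq_zero_iff hs).mp this
  · rw [Measure.dirac_apply' _ hs, Set.indicator_of_notMem h]
    exact measure_mono_null (by
      intro x hx hx1
      rw [Set.mem_singleton_iff] at hx1
      exact h (hx1 ▸ hx)) h3

end law

section real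

variable {ν : Measure ℝ} [IsProbabilityMeasure ν] {Ω : Type} [MeasurableSpace Ω]
  {μ : Measure Ω} [IsProbabilityMeasure μ] {W : List ℕ → Ω → ℝ}

theorem integral_comp (hW : IsRealization ν μ W) {u : List ℕ} (hu : u ≠ []) {φ : ℝ → ℝ}
    (hφ : Measurable φ) : ∫ ω, φ (W u ω) ∂μ = ∫ x, φ x ∂ν := by
  rw [← hW.2.2 u hu, integral_map (hW.1 u).aemeasurable hφ.aestronglyMeasurable]

theorem integrable_comp (hW : IsRealization ν μ W) {u : List ℕ} (hu : u ≠ []) {φ : ℝ → ℝ}
    (hφ : Measurable φ) (h : Integrable φ ν) : Integrable (fun ω => φ (W u ω)) μ := by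
  rw [← hW.2.2 u hu] at h
  exact (integrable_map_measure hφ.aestronglyMeasurable (hW.1 u).aemeasurable).mp h

/-- the non-root vertices on the root path of a vertex -/
def anc : List ℕ → Finset (List ℕ)
  | [] => ∅
  | n :: v => insert (n :: v) (anc v)

theorem length_le_of_mem_anc : ∀ {v u : List ℕ}, u ∈ anc v → u.length ≤ v.length
  | [], u, h => by simp [anc] at h
  | n :: v, u, h => by
    rw [anc, Finset.mem_insert] at h
    rcases h with rfl | h
    · exact le_rfl
    · exact (length_le_of_mem_anc h).trans (by simp)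

theorem cons_notMem_anc (n : ℕ) (v : List ℕ) : n :: v ∉ anc v := fun h => by
  have := length_le_of_mem_anc h
  simp at this

theorem pathProduct_eq_prod (W : List ℕ → Ω → ℝ) (ω : Ω) :
    ∀ v, pathProduct W v ω = ∏ u ∈ anc v, W u ω
  | [] => by simp [pathProduct, anc]
  | n :: v => by
    rw [anc, Finset.prod_insert (cons_notMem_anc n v), ← pathProduct_eq_prod W ω v]
    simp only [pathProduct]
    ring

theorem measurable_pathProduct (hW : IsRealization ν μ W) :
    ∀ v, Measurable (pathProduct W v)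
  | [] => measurable_const
  | n :: v => (measurable_pathProduct hW v).mul (hW.1 _)

theorem indepFun_pathProduct (hW : IsRealization ν μ W) (v : List ℕ) (T : Finset (List ℕ))
    (hT : Disjoint (anc v) T) {ψ : (T → ℝ) → ℝ} (hψ : Measurable ψ) :
    IndepFun (pathProduct W v) (fun ω => ψ (fun i : T => W i ω)) μ := by
  have h := hW.2.1.indepFun_finset (anc v) T hT hW.1
  have hφ : Measurable (fun x : (anc v) → ℝ => ∏ i, x i) := by fun_prop
  have h2 := h.comp hφ hψ
  have e : pathProduct W v = (fun x : (anc v) → ℝ => ∏ i, x i) ∘ fun a (i : anc v) => W i a := by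
    funext ω
    rw [pathProduct_eq_prod]
    simp only [Function.comp]
    exact (Finset.prod_coe_sort (anc v) (fun u => W u ω)).symm
  rw [e]
  exact h2

theorem indepFun_pathProduct_cons (hW : IsRealization ν μ W) (n : ℕ) (v : List ℕ) :
    IndepFun (pathProduct W v) (W (n :: v)) μ := by
  have := indepFun_pathProduct hW v {n :: v}
    (Finset.disjoint_singleton_right.mpr (cons_notMem_anc n v))
    (ψ := fun x => x ⟨n :: v, Finset.mem_singleton_self _⟩) (by fun_prop)
  exact this

theorem pathProduct_props (hW : IsRealization ν μ W) (hpos : ν (Set.Ioi 0) = 1)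
    (hmean : ∫ x, x ∂ν = 1) :
    ∀ v, Integrable (pathProduct W v) μ ∧ ∫ ω, |pathProduct W v ω| ∂μ = 1
  | [] => by
    refine ⟨integrable_const _, ?_⟩
    simp [pathProduct]
  | n :: v => by
    obtain ⟨h1, h2⟩ := pathProduct_props hW hpos hmean v
    have hind := indepFun_pathProduct_cons hW n v
    have hWint : Integrable (W (n :: v)) μ :=
      integrable_comp hW (by simp) measurable_id (integrable_id_of_mean hmean)
    refine ⟨hind.integrable_mul h1 hWint, ?_⟩
    have hind' : IndepFun (fun ω => |pathProduct W v ω|) (fun ω => |W (n :: v) ω|) μ :=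
      hind.comp (φ := fun x : ℝ => |x|) (ψ := fun x : ℝ => |x|) (by fun_prop) (by fun_prop)
    have e : ∀ ω, |pathProduct W (n :: v) ω| = |pathProduct W v ω| * |W (n :: v) ω| := by
      intro ω
      simp only [pathProduct, abs_mul]
    simp_rw [e]
    rw [hind'.integral_fun_mul_eq_mul_integral h1.abs.aestronglyMeasurable
      hWint.abs.aestronglyMeasurable, h2, one_mul]
    have := integral_comp hW (u := n :: v) (by simp) (φ := fun x => |x|) (by fun_prop)
    rw [this]
    exact integral_abs_eq_one hpos hmean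

/-- the centred sibling combination -/
noncomputable def sibY (W : List ℕ → Ω → ℝ) (v : List ℕ) (A : Finset ℕ) (a : ℕ → ℝ) : Ω → ℝ :=
  ∑ n ∈ A, fun ω => a n * (W (n :: v) ω - 1)

theorem sibY_apply (W : List ℕ → Ω → ℝ) (v : List ℕ) (A : Finset ℕ) (a : ℕ → ℝ) (ω : Ω) :
    sibY W v A a ω = ∑ n ∈ A, a n * (W (n :: v) ω - 1) := by
  simp [sibY, Finset.sum_apply]

theorem indepFun_pathProduct_sibY (hW : IsRealization ν μ W) (v : List ℕ) (A : Finset ℕ)
    (a : ℕ → ℝ) : IndepFun (pathProduct W v) (sibY W v A a) μ := by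
  classical
  set T : Finset (List ℕ) := A.image (fun n => n :: v) with hT
  have hdisj : Disjoint (anc v) T := by
    rw [Finset.disjoint_left]
    intro u hu hu'
    rw [hT, Finset.mem_image] at hu'
    obtain ⟨n, -, rfl⟩ := hu'
    exact cons_notMem_anc n v hu
  have := indepFun_pathProduct hW v T hdisj
    (ψ := fun x => ∑ i : T, a (i.1.headD 0) * (x i - 1)) (by fun_prop)
  have e : sibY W v A a = fun ω => ∑ i : T, a (i.1.headD 0) * (W i ω - 1) := by
    funext ω
    rw [sibY_apply, Finset.sum_coe_sort T (fun u => a (u.headD 0) * (W u ω - 1)), hT,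
      Finset.sum_image (fun x _ y _ h => by simpa using h)]
    simp
  rw [e]
  exact this

theorem memLp_sib (hW : IsRealization ν μ W) (hmean : ∫ x, x ∂ν = 1)
    (hm2 : Integrable (fun x : ℝ => x ^ 2) ν) (v : List ℕ) (c : ℝ) (n : ℕ) :
    MemLp (fun ω => c * (W (n :: v) ω - 1)) 2 μ := by
  have hmeas : Measurable (fun ω => c * (W (n :: v) ω - 1)) :=
    ((hW.1 (n :: v)).sub_const 1).const_mul c
  rw [memLp_two_iff_integrable_sq hmeas.aestronglyMeasurable]
  have h := integrable_comp hW (u := n :: v) (by simp) (φ := fun x => (x - 1) ^ 2)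
    (by fun_prop) (integrable_sub_one_sq hmean hm2)
  have e : (fun ω => (c * (W (n :: v) ω - 1)) ^ 2) = fun ω => c ^ 2 * (W (n :: v) ω - 1) ^ 2 := by
    funext ω; ring
  rw [e]
  exact h.const_mul _

theorem integral_sib (hW : IsRealization ν μ W) (hmean : ∫ x, x ∂ν = 1) (v : List ℕ) (c : ℝ)
    (n : ℕ) : ∫ ω, c * (W (n :: v) ω - 1) ∂μ = 0 := by
  rw [integral_const_mul, integral_comp hW (u := n :: v) (by simp) (φ := fun x => x - 1)
    (by fun_prop), integral_sub_one hmean, mul_zero]

theorem integral_sibY_sq (hW : IsRealization ν μ W) (hmean : ∫ x, x ∂ν = 1)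
    (hm2 : Integrable (fun x : ℝ => x ^ 2) ν) (v : List ℕ) (A : Finset ℕ) (a : ℕ → ℝ) :
    MemLp (sibY W v A a) 2 μ ∧
    ∫ ω, sibY W v A a ω ^ 2 ∂μ = ∑ n ∈ A, a n ^ 2 * ∫ x, (x - 1) ^ 2 ∂ν := by
  have hmem : ∀ n ∈ A, MemLp (fun ω => a n * (W (n :: v) ω - 1)) 2 μ :=
    fun n _ => memLp_sib hW hmean hm2 v (a n) n
  have hmemY : MemLp (sibY W v A a) 2 μ := memLp_finsetSum' A hmem
  refine ⟨hmemY, ?_⟩
  have hpair : Set.Pairwise (A : Set ℕ) fun i j =>
      IndepFun (fun ω => a i * (W (i :: v) ω - 1)) (fun ω => a j * (W (j :: v) ω - 1)) μ := by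
    intro i _ j _ hij
    have hne : i :: v ≠ j :: v := fun h => hij (by simpa using h)
    exact (hW.2.1.indepFun hne).comp (φ := fun x : ℝ => a i * (x - 1))
      (ψ := fun x : ℝ => a j * (x - 1)) (by fun_prop) (by fun_prop)
  have hvar := IndepFun.variance_sum hmem hpair
  have hmean0 : ∫ ω, sibY W v A a ω ∂μ = 0 := by
    simp_rw [sibY_apply]
    rw [integral_finsetSum A fun n hn => (hmem n hn).integrable one_le_two]
    exact Finset.sum_eq_zero fun n _ => integral_sib hW hmean v (a n) n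
  rw [← variance_of_integral_eq_zero hmemY.aemeasurable hmean0]
  rw [sibY, hvar]
  refine Finset.sum_congr rfl fun n hn => ?_
  rw [variance_of_integral_eq_zero (hmem n hn).aemeasurable (integral_sib hW hmean v (a n) n)]
  have e : ∀ ω, (a n * (W (n :: v) ω - 1)) ^ 2 = a n ^ 2 * (W (n :: v) ω - 1) ^ 2 := by
    intro ω; ring
  simp_rw [e]
  rw [integral_const_mul, integral_comp hW (u := n :: v) (by simp) (φ := fun x => (x - 1) ^ 2)
    (by fun_prop)]

theorem integral_abs_sq_le {Y : Ω → ℝ} (hY : MemLp Y 2 μ) :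
    (∫ ω, |Y ω| ∂μ) ^ 2 ≤ ∫ ω, Y ω ^ 2 ∂μ := by
  have h1 : MemLp (fun ω => |Y ω|) 2 μ := hY.abs
  have h2 := variance_eq_sub h1
  have h3 := variance_nonneg (fun ω => |Y ω|) μ
  have e : ∫ ω, ((fun ω => |Y ω|) ^ 2) ω ∂μ = ∫ ω, Y ω ^ 2 ∂μ := by
    refine integral_congr_ae (Filter.Eventually.of_forall fun ω => ?_)
    simp [sq_abs]
  rw [e] at h2
  linarith

theorem integral_abs_sibY_le (hW : IsRealization ν μ W) (hmean : ∫ x, x ∂ν = 1)
    (hm2 : Integrable (fun x : ℝ => x ^ 2) ν) (v : List ℕ) (A : Finset ℕ) (a : ℕ → ℝ)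
    (ha : ∀ n, |a n| ≤ 1) :
    ∫ ω, |sibY W v A a ω| ∂μ ≤ Real.sqrt (∫ x, (x - 1) ^ 2 ∂ν) * Real.sqrt A.card := by
  obtain ⟨h1, h2⟩ := integral_sibY_sq hW hmean hm2 v A a
  have h3 := integral_abs_sq_le h1
  rw [h2] at h3
  set s2 := ∫ x, (x - 1) ^ 2 ∂ν with hs2
  have hs2nn : 0 ≤ s2 := integral_nonneg fun x => sq_nonneg _
  rw [← Real.sqrt_mul hs2nn]
  refine Real.le_sqrt_of_sq_le (h3.trans ?_)
  calc ∑ n ∈ A, a n ^ 2 * s2 ≤ ∑ n ∈ A, 1 * s2 := by
        refine Finset.sum_le_sum fun n _ => mul_le_mul_of_nonneg_right ?_ hs2nn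
        have := ha n
        rw [abs_le] at this
        nlinarith [this.1, this.2]
    _ = s2 * A.card := by simp [mul_comm]

theorem toL1_sum (A : Finset ℕ) (G : ℕ → Ω → ℝ) (hG : ∀ n, Integrable (G n) μ) :
    ∑ n ∈ A, (hG n).toL1 (G n) =
      (integrable_finsetSum A fun n _ => hG n).toL1 (fun ω => ∑ n ∈ A, G n ω) := by
  classical
  induction A using Finset.induction_on with
  | empty =>
    simp only [Finset.sum_empty]
    exact (Integrable.toL1_zero _).symm
  | insert n A hn ih =>
    rw [Finset.sum_insert hn, ih, ← Integrable.toL1_add]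
    rw [Integrable.toL1_eq_toL1_iff]
    refine Filter.Eventually.of_forall fun ω => ?_
    simp [Finset.sum_insert hn]

variable (hW : IsRealization ν μ W) (hpos : ν (Set.Ioi 0) = 1) (hmean : ∫ x, x ∂ν = 1)

/-- path products as elements of `L¹` -/
noncomputable def zL (v : List ℕ) : Lp ℝ 1 μ :=
  (pathProduct_props hW hpos hmean v).1.toL1 (pathProduct W v)

theorem zL_mem (v : List ℕ) : zL hW hpos hmean v ∈ productSpan μ W :=
  Submodule.le_topologicalClosure _ (Submodule.subset_span ⟨v, Integrable.coeFn_toL1 _⟩)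

/-- path products as elements of the product span -/
noncomputable def zP (v : List ℕ) : productSpan μ W := ⟨zL hW hpos hmean v, zL_mem hW hpos hmean v⟩

theorem norm_zP (v : List ℕ) : ‖zP hW hpos hmean v‖ = 1 := by
  show ‖zL hW hpos hmean v‖ = 1
  rw [zL, L1.norm_of_fun_eq_integral_norm]
  exact (pathProduct_props hW hpos hmean v).2

theorem norm_sum_smul (v : List ℕ) (A : Finset ℕ) (a : ℕ → ℝ) :
    ‖∑ n ∈ A, a n • (zP hW hpos hmean (n :: v) - zP hW hpos hmean v)‖ =
      ∫ ω, |sibY W v A a ω| ∂μ := by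
  have hint : ∀ u, Integrable (pathProduct W u) μ := fun u => (pathProduct_props hW hpos hmean u).1
  have hG : ∀ n, Integrable (fun ω => a n * (pathProduct W (n :: v) ω - pathProduct W v ω)) μ :=
    fun n => ((hint (n :: v)).sub (hint v)).const_mul (a n)
  have h1 : ((∑ n ∈ A, a n • (zP hW hpos hmean (n :: v) - zP hW hpos hmean v) :
      productSpan μ W) : Lp ℝ 1 μ) = ∑ n ∈ A, (hG n).toL1 _ := by
    rw [Submodule.coe_sum]
    refine Finset.sum_congr rfl fun n _ => ?_
    show a n • (zL hW hpos hmean (n :: v) - zL hW hpos hmean v) = _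
    rw [zL, zL, ← Integrable.toL1_sub, ← Integrable.toL1_smul, Integrable.toL1_eq_toL1_iff]
    exact Filter.Eventually.of_forall fun ω => by simp
  show ‖((∑ n ∈ A, a n • (zP hW hpos hmean (n :: v) - zP hW hpos hmean v) :
      productSpan μ W) : Lp ℝ 1 μ)‖ = _
  rw [h1, toL1_sum, L1.norm_of_fun_eq_integral_norm]
  have e : ∀ ω, ‖∑ n ∈ A, a n * (pathProduct W (n :: v) ω - pathProduct W v ω)‖ =
      |pathProduct W v ω| * |sibY W v A a ω| := by
    intro ω
    rw [Real.norm_eq_abs, ← abs_mul, sibY_apply, Finset.mul_sum]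
    congr 1
    refine Finset.sum_congr rfl fun n _ => ?_
    simp only [pathProduct]
    ring
  simp_rw [e]
  have hind : IndepFun (fun ω => |pathProduct W v ω|) (fun ω => |sibY W v A a ω|) μ :=
    (indepFun_pathProduct_sibY hW v A a).comp (φ := fun x : ℝ => |x|) (ψ := fun x : ℝ => |x|)
      (by fun_prop) (by fun_prop)
  have hmY : Measurable (sibY W v A a) := by
    have : sibY W v A a = fun ω => ∑ n ∈ A, a n * (W (n :: v) ω - 1) := by
      funext ω; exact sibY_apply W v A a ω
    rw [this]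
    refine Finset.measurable_fun_sum A fun n _ => ?_
    exact ((hW.1 (n :: v)).sub_const 1).const_mul (a n)
  rw [hind.integral_fun_mul_eq_mul_integral (hint v).abs.aestronglyMeasurable
    hmY.abs.aestronglyMeasurable, (pathProduct_props hW hpos hmean v).2, one_mul]

theorem norm_diff (v : List ℕ) (n : ℕ) :
    ‖zP hW hpos hmean (n :: v) - zP hW hpos hmean v‖ = ∫ x, |x - 1| ∂ν := by
  have := norm_sum_smul hW hpos hmean v {n} (fun _ => 1)
  simp only [Finset.sum_singleton, one_smul] at this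
  rw [this]
  have e : ∀ ω, |sibY W v {n} (fun _ => 1) ω| = |W (n :: v) ω - 1| := by
    intro ω
    rw [sibY_apply]
    simp
  simp_rw [e]
  exact integral_comp hW (u := n :: v) (by simp) (φ := fun x => |x - 1|) (by fun_prop)

theorem signDominated_diff (hm2 : Integrable (fun x : ℝ => x ^ 2) ν) (v : List ℕ) :
    SignDominated (fun n => zP hW hpos hmean (n :: v) - zP hW hpos hmean v)
      (Real.sqrt (∫ x, (x - 1) ^ 2 ∂ν)) := by
  intro A a ha
  rw [norm_sum_smul]
  exact integral_abs_sibY_le hW hmean hm2 v A a ha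

include hW hpos hmean in
theorem not_finiteDimensional_span (hnc : ∀ c : ℝ, ν ≠ Measure.dirac c)
    (hm2 : Integrable (fun x : ℝ => x ^ 2) ν) : ¬ FiniteDimensional ℝ (productSpan μ W) :=
  not_finiteDimensional_of_signDominated (signDominated_diff hW hpos hmean hm2 [])
    (integral_abs_sub_one_pos hnc hmean) fun n => (norm_diff hW hpos hmean [] n).ge

include hW hpos hmean in
theorem not_AUC_span (hnc : ∀ c : ℝ, ν ≠ Measure.dirac c)
    (hm2 : Integrable (fun x : ℝ => x ^ 2) ν) {N : productSpan μ W → ℝ} (hN : EquivNorm N) :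
    ¬ AUC N := by
  refine not_AUC_of_set hN (Set.range (zP hW hpos hmean)) ⟨_, ⟨[], rfl⟩⟩ (R := 1)
    (κ := ∫ x, |x - 1| ∂ν) ?_ (integral_abs_sub_one_pos hnc hmean) ?_
  · rintro _ ⟨v, rfl⟩
    exact (norm_zP hW hpos hmean v).le
  · rintro _ ⟨v, rfl⟩ S hS ε hε
    obtain ⟨n, w, hw, hn⟩ :=
      ((signDominated_diff hW hpos hmean hm2 v).eventually_near hS hε).exists
    exact ⟨zP hW hpos hmean (n :: v), ⟨_, rfl⟩, w, hw, (norm_diff hW hpos hmean v n).ge, hn⟩

end real

end Crest.Agent.Lib_helper2_Prod
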