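import Mathlib
import Crest.Prelude.Def_TreePotentials
import Crest.Agent.Lib_helper2_AUC
import Crest.Agent.Lib_helper2_Tree
import Crest.Agent.Lib_helper2_Tree2
import Crest.Agent.Lib_helper2_HtK

/-!
The `ℓ₂`-sum of the height-`k` parts of the global tree-potential model (the space of S0166).
-/

set_option autoImplicit false
set_option linter.style.haveILetI false
set_option linter.unusedSectionVars false

namespace Crest.Agent.Lib_helper2_Sum

open Crest.AnalysisR Crest.AnalysisR.TreePotential Crest.Agent.Lib_helper2_AUC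
  Crest.Agent.Lib_helper2_Tree Crest.Agent.Lib_helper2_HtK
open scoped Classical

section general

variable {X : ℕ → Type*} [∀ k, NormedAddCommGroup (X k)]

theorem hasSum_norm_sq (f : lp X 2) : HasSum (fun i => ‖f i‖ ^ 2) (‖f‖ ^ 2) := by
  have := lp.hasSum_norm (p := 2) (by simp) f
  simpa only [two_toReal, Real.rpow_two] using this

theorem l2_mid (p q a b : lp X 2)
    (h : ∀ j, 4 * ‖a j‖ ^ 2 + ‖b j‖ ^ 2 ≤ (‖p j‖ + ‖q j‖) ^ 2) :
    4 * ‖a‖ ^ 2 + ‖b‖ ^ 2 ≤ (‖p‖ + ‖q‖) ^ 2 := by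
  have h1 : ‖lp.toNorm p + lp.toNorm q‖ ≤ ‖p‖ + ‖q‖ := by
    refine (norm_add_le _ _).trans ?_
    rw [lp.norm_toNorm, lp.norm_toNorm]
  have h2 := hasSum_norm_sq (lp.toNorm p + lp.toNorm q)
  have h3 : HasSum (fun j => 4 * ‖a j‖ ^ 2 + ‖b j‖ ^ 2) (4 * ‖a‖ ^ 2 + ‖b‖ ^ 2) :=
    ((hasSum_norm_sq a).mul_left 4).add (hasSum_norm_sq b)
  have h4 : 4 * ‖a‖ ^ 2 + ‖b‖ ^ 2 ≤ ‖lp.toNorm p + lp.toNorm q‖ ^ 2 := by
    refine hasSum_le (fun j => ?_) h3 h2
    have : (lp.toNorm p + lp.toNorm q) j = ‖p j‖ + ‖q j‖ := rfl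
    rw [this, Real.norm_eq_abs, sq_abs]
    exact h j
  exact h4.trans (pow_le_pow_left₀ (norm_nonneg _) h1 2)

theorem sum_single_apply [∀ k, NormedSpace ℝ (X k)] (A : Finset ℕ) (xs : ∀ k, X k) (j : ℕ) :
    (∑ k ∈ A, lp.single 2 k (xs k) : lp X 2) j = if j ∈ A then xs j else 0 := by
  have h1 : (∑ k ∈ A, lp.single 2 k (xs k) : lp X 2) j =
      ∑ k ∈ A, (lp.single 2 k (xs k) : lp X 2) j := by
    have := map_sum (lp.evalCLM ℝ X 2 j) (fun k => (lp.single 2 k (xs k) : lp X 2)) A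
    exact this
  rw [h1]
  split_ifs with hj
  · rw [Finset.sum_eq_single j]
    · exact lp.single_apply_self 2 j (xs j)
    · intro k _ hk
      exact lp.single_apply_ne 2 k (xs k) (Ne.symm hk)
    · intro h; exact absurd hj h
  · refine Finset.sum_eq_zero fun k hk => ?_
    refine lp.single_apply_ne 2 k (xs k) ?_
    rintro rfl
    exact hj hk

theorem norm_single2 (k : ℕ) (x : X k) : ‖(lp.single 2 k x : lp X 2)‖ = ‖x‖ :=
  lp.norm_single (by simp) k x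

end general

/-- the family of height-`k` spaces -/
abbrev XF : ℕ → Type := fun k => XS k

/-- the space of S0166 -/
abbrev EE : Type := lp XF 2

/-- coordinate embeddings -/
noncomputable def inj (k : ℕ) : XS k →L[ℝ] EE :=
  lp.singleContinuousLinearMap ℝ XF 2 k

theorem inj_apply (k : ℕ) (x : XS k) : inj k x = lp.single 2 k x := rfl

theorem norm_inj (k : ℕ) (x : XS k) : ‖inj k x‖ = ‖x‖ := norm_single2 (X := XF) k x

/-- coordinate functionals -/
noncomputable def cf (k : ℕ) (u : List ℕ) : EE →L[ℝ] ℝ :=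
  ((ev gm (dT gm u)).comp (XS k).subtypeL).comp (lp.evalCLM ℝ XF 2 k)

theorem cf_apply (k : ℕ) (u : List ℕ) (y : EE) : cf k u y = ((y k : XS k) : LL gm) (dT gm u) := rfl

theorem sqrt_lip {X s δ : ℝ} (hδ0 : 0 ≤ δ) (hδ1 : δ ≤ 1) (hX : 1 - δ ≤ X) :
    Real.sqrt (1 + s ^ 2) - δ ≤ Real.sqrt (X ^ 2 + s ^ 2) := by
  set ρ := Real.sqrt (1 + s ^ 2) with hρ
  have hρ2 : ρ ^ 2 = 1 + s ^ 2 := Real.sq_sqrt (by positivity)
  have hρ1 : 1 ≤ ρ := Real.one_le_sqrt.mpr (by nlinarith [sq_nonneg s])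
  refine Real.le_sqrt_of_sq_le ?_
  have h1 : (1 - δ) ^ 2 ≤ X ^ 2 := pow_le_pow_left₀ (by linarith) hX 2
  nlinarith

theorem comp_ineq {t : ℝ} (A : Finset ℕ) (Sf : ℕ → Finset (List ℕ)) (cfn : ℕ → List ℕ → ℝ)
    (hSf : ∀ k, SuffixClosed (Sf k : Set (List ℕ))) (xs : ∀ k, XS k)
    (hxs : ∀ k, ((xs k : XS k) : LL gm) = ∑ u ∈ Sf k, cfn k u • coordVector gm u)
    (y : EE) (hy : ∀ k ∈ A, ∀ u ∈ Sf k, cf k u y = 0) (j : ℕ) :
    4 * ‖(∑ k ∈ A, lp.single 2 k (xs k) : EE) j‖ ^ 2 + ‖(t • y) j‖ ^ 2 ≤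
      (‖((∑ k ∈ A, lp.single 2 k (xs k) : EE) + t • y) j‖ +
        ‖((∑ k ∈ A, lp.single 2 k (xs k) : EE) - t • y) j‖) ^ 2 := by
  set x' : EE := ∑ k ∈ A, lp.single 2 k (xs k) with hx'
  have e1 : (x' + t • y) j = x' j + t • y j := rfl
  have e2 : (x' - t • y) j = x' j - t • y j := rfl
  have e3 : (t • y) j = t • y j := rfl
  rw [e1, e2, e3]
  have hxj : x' j = if j ∈ A then xs j else 0 := sum_single_apply (X := XF) A xs j
  by_cases hj : j ∈ A
  · rw [hxj, if_pos hj]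
    have hmem : (t • ((y j : XS j) : LL gm)) ∈ modelSpace gm :=
      Submodule.smul_mem _ _ (XS_le_modelSpace j (y j).2)
    have hvan : ∀ u ∈ Sf j, (t • ((y j : XS j) : LL gm)) (dT gm u) = 0 := by
      intro u hu
      have := hy j hj u hu
      rw [cf_apply] at this
      show t * ((y j : XS j) : LL gm) (dT gm u) = 0
      rw [this, mul_zero]
    have := mid_hom (hSf j) (cfn j) hmem hvan
    rw [← hxs j] at this
    exact this
  · rw [hxj, if_neg hj]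
    simp only [zero_add, zero_sub, norm_neg, norm_zero]
    nlinarith [norm_nonneg (t • y j)]

theorem mid_EE {t : ℝ} (ht : 0 < t) (x : EE) (hx : ‖x‖ = 1) {η : ℝ} (hη : 0 < η) :
    ∃ S' : Submodule ℝ EE, CofSub S' ∧ ∀ y ∈ S', ‖y‖ = 1 →
      Real.sqrt (1 + t ^ 2 / 4) - 1 - η ≤ (‖x + t • y‖ + ‖x - t • y‖) / 2 - 1 := by
  set δ : ℝ := min (η / 2) 1 with hδ
  have hδpos : 0 < δ := lt_min (by positivity) one_pos
  have hδ1 : δ ≤ 1 := min_le_right _ _
  have hδη : δ ≤ η / 2 := min_le_left _ _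
  have hsum : HasSum (fun k => (lp.single 2 k (x k) : EE)) x := lp.hasSum_single (by simp) x
  obtain ⟨A, hA⟩ : ∃ A : Finset ℕ, dist (∑ k ∈ A, (lp.single 2 k (x k) : EE)) x < δ / 2 :=
    (hsum.eventually (Metric.ball_mem_nhds _ (half_pos hδpos))).exists
  set δ₂ : ℝ := δ / (2 * ((A.card : ℝ) + 1)) with hδ₂
  have hδ₂pos : 0 < δ₂ := by positivity
  choose Sf cfn hSf hlen happ using fun k => exists_approx_XS (x k).2 hδ₂pos
  let xs : ∀ k, XS k := fun k =>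
    ⟨∑ u ∈ Sf k, cfn k u • coordVector gm u, sum_coord_mem_XS (hlen k) _⟩
  have hxs : ∀ k, ((xs k : XS k) : LL gm) = ∑ u ∈ Sf k, cfn k u • coordVector gm u := fun _ => rfl
  set x' : EE := ∑ k ∈ A, lp.single 2 k (xs k) with hx'
  have hxx' : ‖x - x'‖ < δ := by
    have h1 : x - x' = (x - ∑ k ∈ A, (lp.single 2 k (x k) : EE)) +
        ∑ k ∈ A, inj k (x k - xs k) := by
      have : ∑ k ∈ A, inj k (x k - xs k) =
          ∑ k ∈ A, (lp.single 2 k (x k) : EE) - ∑ k ∈ A, (lp.single 2 k (xs k) : EE) := by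
        rw [← Finset.sum_sub_distrib]
        refine Finset.sum_congr rfl fun k _ => ?_
        exact (inj k).map_sub (x k) (xs k)
      rw [this, hx']; abel
    rw [h1]
    refine lt_of_le_of_lt (norm_add_le _ _) ?_
    have h2 : ‖x - ∑ k ∈ A, (lp.single 2 k (x k) : EE)‖ < δ / 2 := by
      rw [← dist_eq_norm, dist_comm]; exact hA
    have h3 : ‖∑ k ∈ A, inj k (x k - xs k)‖ ≤ δ / 2 := by
      calc ‖∑ k ∈ A, inj k (x k - xs k)‖ ≤ ∑ k ∈ A, ‖inj k (x k - xs k)‖ := norm_sum_le _ _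
        _ ≤ ∑ k ∈ A, δ₂ := by
            refine Finset.sum_le_sum fun k _ => ?_
            rw [norm_inj]
            exact (happ k).le
        _ = A.card * δ₂ := by simp
        _ ≤ δ / 2 := by
            rw [hδ₂]
            rw [mul_div_assoc', div_le_iff₀ (by positivity)]
            nlinarith
    linarith
  refine ⟨_, cofSub_ker_pi (fun i : (Σ k : A, Sf k) => cf i.1 i.2), fun y hy hy1 => ?_⟩
  have hy0 : ∀ k ∈ A, ∀ u ∈ Sf k, cf k u y = 0 := by
    intro k hk u hu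
    exact (mem_ker_pi _ y).mp hy ⟨⟨k, hk⟩, ⟨u, hu⟩⟩
  have hmain := l2_mid (x' + t • y) (x' - t • y) x' (t • y)
    (comp_ineq A Sf cfn hSf xs hxs y hy0)
  have hty : ‖t • y‖ = t := by rw [norm_smul, hy1, Real.norm_eq_abs, abs_of_pos ht, mul_one]
  rw [hty] at hmain
  have hX : 1 - δ ≤ ‖x'‖ := by
    have := norm_sub_norm_le x x'
    rw [hx] at this
    linarith
  have h1 : 2 * Real.sqrt (‖x'‖ ^ 2 + (t / 2) ^ 2) ≤ ‖x' + t • y‖ + ‖x' - t • y‖ := by
    have h2 : (2 * Real.sqrt (‖x'‖ ^ 2 + (t / 2) ^ 2)) ^ 2 = 4 * ‖x'‖ ^ 2 + t ^ 2 := by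
      rw [mul_pow, Real.sq_sqrt (by positivity)]; ring
    rw [← h2] at hmain
    exact (abs_le_of_sq_le_sq' hmain (by positivity)).2
  have h2 := sqrt_lip (s := t / 2) hδpos.le hδ1 hX
  have h3 : (1 : ℝ) + (t / 2) ^ 2 = 1 + t ^ 2 / 4 := by ring
  rw [h3] at h2
  have h4 : ‖x' + t • y‖ ≤ ‖x + t • y‖ + δ := by
    have e : x' + t • y = (x + t • y) - (x - x') := by abel
    rw [e]
    exact (norm_sub_le _ _).trans (by linarith)
  have h5 : ‖x' - t • y‖ ≤ ‖x - t • y‖ + δ := by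
    have e : x' - t • y = (x - t • y) - (x - x') := by abel
    rw [e]
    exact (norm_sub_le _ _).trans (by linarith)
  linarith

end Crest.Agent.Lib_helper2_Sum
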