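import Mathlib
import Crest.Prelude.Def_TreePotentials
import Crest.Agent.Lib_helper2_AUC
import Crest.Agent.Lib_helper2_Tree
import Crest.Agent.Lib_helper2_Tree2
import Crest.Agent.Lib_helper2_HtK
import Crest.Agent.Lib_helper2_Sum

/-!
The space of S0166: no AUC renorming, separability, infinite dimension.
-/

set_option autoImplicit false
set_option linter.style.haveILetI false
set_option linter.unusedSectionVars false

namespace Crest.Agent.Lib_helper2_Sum

open Crest.AnalysisR Crest.AnalysisR.TreePotential Crest.Agent.Lib_helper2_AUC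
  Crest.Agent.Lib_helper2_Tree Crest.Agent.Lib_helper2_HtK
open scoped Classical

section levels

variable {X : Type*} [NormedAddCommGroup X] [NormedSpace ℝ X]

/-- Finite-height version of Lemma A. -/
theorem not_AUC_of_levels {N : X → ℝ} (hN : EquivNorm N) (B : ℕ → ℕ → Set X) {R κ : ℝ}
    (hκ : 0 < κ) (hne : ∀ k, (B k 0).Nonempty)
    (hbd : ∀ k j, ∀ x ∈ B k j, κ ≤ ‖x‖ ∧ ‖x‖ ≤ R)
    (hstep : ∀ k j, j < k → ∀ x ∈ B k j, ∀ S : Submodule ℝ X, CofSub S → ∀ ε : ℝ, 0 < ε →
      ∃ y ∈ B k (j + 1), ∃ w ∈ S, κ ≤ ‖y - x‖ ∧ ‖y - x - w‖ < ε) : ¬ AUC N := by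
  intro hAUC
  have hN' := hN
  obtain ⟨hadd, hsmul, a, b, ha, hab⟩ := hN
  obtain ⟨x0, hx0⟩ := hne 0
  have hRpos : 0 < R := lt_of_lt_of_le hκ ((hbd 0 0 x0 hx0).1.trans (hbd 0 0 x0 hx0).2)
  have hbpos : 0 < b := by
    have h1 : 0 < ‖x0‖ := lt_of_lt_of_le hκ (hbd 0 0 x0 hx0).1
    have h2 := hab x0
    have h3 : 0 < b * ‖x0‖ := lt_of_lt_of_le (mul_pos ha h1) (h2.1.trans h2.2)
    exact (pos_iff_pos_of_mul_pos h3).mpr h1
  set t₀ : ℝ := a * κ / (2 * (b * R)) with ht₀
  have ht₀pos : 0 < t₀ := by positivity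
  obtain ⟨c, hc, hstep'⟩ := hAUC.step hN' ht₀pos
  have hlow : ∀ k j, ∀ x ∈ B k j, a * κ ≤ N x := fun k j x hx =>
    (mul_le_mul_of_nonneg_left (hbd k j x hx).1 ha.le).trans (hab x).1
  have hup : ∀ k j, ∀ x ∈ B k j, N x ≤ b * R := fun k j x hx =>
    (hab x).2.trans (mul_le_mul_of_nonneg_left (hbd k j x hx).2 hbpos.le)
  have claim : ∀ k j, j ≤ k → ∃ x ∈ B k j, a * κ * (1 + c / 2) ^ j ≤ N x := by
    intro k j
    induction j with
    | zero =>
      intro _
      obtain ⟨x, hx⟩ := hne k
      exact ⟨x, hx, by simpa using hlow k 0 x hx⟩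
    | succ j ih =>
      intro hj
      obtain ⟨x, hx, hxN⟩ := ih (by omega)
      have hxpos : 0 < N x := lt_of_lt_of_le (mul_pos ha hκ) (hlow k j x hx)
      obtain ⟨S, hS, hSw⟩ := hstep' x hxpos
      set ε : ℝ := min (a * κ / (2 * b)) (c / 2 * (a * κ) / b) with hε
      have hεpos : 0 < ε := lt_min (by positivity) (by positivity)
      obtain ⟨y, hy, w, hw, hκy, hyw⟩ := hstep k j (by omega) x hx S hS ε hεpos
      refine ⟨y, hy, ?_⟩
      have he : N (y - x - w) ≤ b * ε :=
        (hab _).2.trans (mul_le_mul_of_nonneg_left hyw.le hbpos.le)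
      have he1 : b * ε ≤ a * κ / 2 := by
        calc b * ε ≤ b * (a * κ / (2 * b)) := mul_le_mul_of_nonneg_left (min_le_left _ _) hbpos.le
          _ = a * κ / 2 := by field_simp
      have he2 : b * ε ≤ c / 2 * (a * κ) := by
        calc b * ε ≤ b * (c / 2 * (a * κ) / b) :=
              mul_le_mul_of_nonneg_left (min_le_right _ _) hbpos.le
          _ = c / 2 * (a * κ) := by field_simp
      have hNw : a * κ / 2 ≤ N w := by
        have h1 : a * κ ≤ N (y - x) := (mul_le_mul_of_nonneg_left hκy ha.le).trans (hab _).1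
        have h2 : N (y - x) ≤ N (y - x - w) + N w := by
          have := hadd (y - x - w) w
          simpa using this
        linarith
      have hcond : t₀ * N x ≤ N w := by
        have h1 : t₀ * N x ≤ t₀ * (b * R) := mul_le_mul_of_nonneg_left (hup k j x hx) ht₀pos.le
        have h2 : t₀ * (b * R) = a * κ / 2 := by rw [ht₀]; field_simp
        linarith
      have h1 := hSw w hw hcond
      have h2 : N (x + w) ≤ N y + N (y - x - w) := by
        have h3 := hadd y ((-1 : ℝ) • (y - x - w))
        rw [hsmul] at h3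
        have h4 : y + (-1 : ℝ) • (y - x - w) = x + w := by
          simp only [neg_smul, one_smul]; abel
        rw [h4] at h3
        simpa using h3
      have h3 := hlow k j x hx
      have h4 : (1 + c / 2) * N x ≤ N y := by nlinarith
      calc a * κ * (1 + c / 2) ^ (j + 1) = (1 + c / 2) * (a * κ * (1 + c / 2) ^ j) := by ring
        _ ≤ (1 + c / 2) * N x := mul_le_mul_of_nonneg_left hxN (by positivity)
        _ ≤ N y := h4
  obtain ⟨k, hk⟩ := exists_nat_gt (b * R / (a * κ) / (c / 2))
  obtain ⟨x, hx, hxN⟩ := claim k k le_rfl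
  have h1 := hup k k x hx
  have h2 : 1 + (k : ℝ) * (c / 2) ≤ (1 + c / 2) ^ k :=
    one_add_mul_le_pow (by linarith) k
  have h3 : b * R / (a * κ) < (k : ℝ) * (c / 2) := by
    rwa [div_lt_iff₀ (by positivity)] at hk
  have h4 : b * R < a * κ * ((k : ℝ) * (c / 2)) := by
    rw [div_lt_iff₀ (by positivity)] at h3
    linarith
  have h5 : a * κ * (1 + (k : ℝ) * (c / 2)) ≤ a * κ * (1 + c / 2) ^ k :=
    mul_le_mul_of_nonneg_left h2 (by positivity)
  have h6 : 0 < a * κ := by positivity
  nlinarith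

end levels

section sep

variable {X : ℕ → Type*} [∀ k, NormedAddCommGroup (X k)] [∀ k, NormedSpace ℝ (X k)]

theorem separable_lp2 [∀ k, TopologicalSpace.SeparableSpace (X k)] :
    TopologicalSpace.SeparableSpace (lp X 2) := by
  choose D hDc hDd using fun k => TopologicalSpace.exists_countable_dense (X k)
  set T : Set (lp X 2) := ⋃ k, (fun x => (lp.single 2 k x : lp X 2)) '' D k with hT
  have hTc : T.Countable := Set.countable_iUnion fun k => (hDc k).image _
  set M : Submodule ℝ (lp X 2) := (Submodule.span ℝ T).topologicalClosure with hM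
  have hMcl : IsClosed (M : Set (lp X 2)) := Submodule.isClosed_topologicalClosure _
  have h1 : ∀ k (x : X k), (lp.single 2 k x : lp X 2) ∈ M := by
    intro k x
    have hcont : Continuous (fun x : X k => (lp.single 2 k x : lp X 2)) :=
      (lp.singleContinuousLinearMap ℝ X 2 k).continuous
    have hcl : IsClosed {x : X k | (lp.single 2 k x : lp X 2) ∈ M} := hMcl.preimage hcont
    have hsub : D k ⊆ {x : X k | (lp.single 2 k x : lp X 2) ∈ M} := by
      intro d hd
      exact Submodule.le_topologicalClosure _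
        (Submodule.subset_span (Set.mem_iUnion.mpr ⟨k, d, hd, rfl⟩))
    have := (hDd k).closure_eq ▸ closure_minimal hsub hcl
    exact this (Set.mem_univ x)
  have h2 : ∀ f : lp X 2, f ∈ M := by
    intro f
    have hs : HasSum (fun k => (lp.single 2 k (f k) : lp X 2)) f := lp.hasSum_single (by simp) f
    exact hMcl.mem_of_tendsto hs (Filter.Eventually.of_forall fun A =>
      Submodule.sum_mem _ fun k _ => h1 k (f k))
  have h3 : TopologicalSpace.IsSeparable (M : Set (lp X 2)) := (hTc.isSeparable.span).closure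
  rw [← TopologicalSpace.isSeparable_univ_iff]
  exact h3.mono fun f _ => h2 f

end sep

theorem clm_sum_smul {Y Z : Type*} [NormedAddCommGroup Y] [NormedSpace ℝ Y]
    [NormedAddCommGroup Z] [NormedSpace ℝ Z] (f : Y →L[ℝ] Z) (A : Finset ℕ) (a : ℕ → ℝ)
    (e : ℕ → Y) : f (∑ n ∈ A, a n • e n) = ∑ n ∈ A, a n • f (e n) := by
  simp [map_sum]

instance separable_XS (k : ℕ) : TopologicalSpace.SeparableSpace (XS k) := by
  have h1 : TopologicalSpace.IsSeparable (Set.range (coordVector gm)) :=
    (Set.countable_range _).isSeparable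
  have h2 : TopologicalSpace.IsSeparable
      (Submodule.span ℝ (Set.range (coordVector gm)) : Set (LL gm)) := h1.span
  have h3 : TopologicalSpace.IsSeparable (modelSpace gm : Set (LL gm)) := h2.closure
  have h4 : TopologicalSpace.IsSeparable (XS k : Set (LL gm)) := h3.mono (XS_le_modelSpace k)
  exact h4.separableSpace

theorem separable_EE : TopologicalSpace.SeparableSpace EE := separable_lp2 (X := XF)

/-- coordinate vectors in the height-`k` space -/
noncomputable def eK (k : ℕ) (u : List ℕ) (hu : u.length ≤ k) : XS k :=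
  ⟨coordVector gm u, coordVector_mem_XS hu⟩

theorem zX_mem_XS {k : ℕ} : ∀ {v : List ℕ}, v.length ≤ k → ((zX gm v : modelSpace gm) : LL gm) ∈ XS k
  | [], h => coordVector_mem_XS h
  | n :: v, h => by
    have h1 : v.length ≤ k := by
      simp only [List.length_cons] at h; omega
    exact Submodule.add_mem _ (zX_mem_XS h1) (coordVector_mem_XS h)

/-- branch sums in the height-`k` space -/
noncomputable def zK (k : ℕ) (v : List ℕ) (hv : v.length ≤ k) : XS k :=
  ⟨(zX gm v : modelSpace gm), zX_mem_XS hv⟩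

theorem norm_zK_le (k : ℕ) (v : List ℕ) (hv : v.length ≤ k) : ‖zK k v hv‖ ≤ 1 := norm_zX_le gm v

theorem one_le_norm_zK (k : ℕ) (v : List ℕ) (hv : v.length ≤ k) : 1 ≤ ‖zK k v hv‖ := by
  have h1 := apply_le_norm gm ((zX gm v : modelSpace gm) : LL gm) (dT gm [])
  rw [zX_apply] at h1
  have h2 : (dT gm []).1 = delta [] := by
    show dFun gm [] = delta []
    simp [dFun]
  rw [h2, pathPotential_delta, if_pos (List.nil_suffix)] at h1
  exact h1

theorem one_le_norm_eK (k : ℕ) (n : ℕ) (v : List ℕ) (hu : (n :: v).length ≤ k) :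
    1 ≤ ‖eK k (n :: v) hu‖ := one_le_norm_eX gm (u := n :: v) (by simp)

theorem zK_cons_sub (k : ℕ) (n : ℕ) (v : List ℕ) (hu : (n :: v).length ≤ k) (hv : v.length ≤ k) :
    zK k (n :: v) hu - zK k v hv = eK k (n :: v) hu := by
  apply Subtype.ext
  show ((zX gm v : modelSpace gm) : LL gm) + coordVector gm (n :: v) -
    ((zX gm v : modelSpace gm) : LL gm) = coordVector gm (n :: v)
  abel

theorem signDominated_inj (k : ℕ) (v : List ℕ) (hv : v.length + 1 ≤ k) :
    SignDominated (fun n => inj k (eK k (n :: v) (by simpa using hv))) 1 := by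
  intro A a ha
  have h1 := signDominated_siblings gm v A a ha
  have h2 : ∑ n ∈ A, a n • inj k (eK k (n :: v) (by simpa using hv)) =
      inj k (∑ n ∈ A, a n • eK k (n :: v) (by simpa using hv)) := by
    exact (clm_sum_smul (inj k) A a _).symm
  rw [h2, norm_inj]
  have h3 : ((∑ n ∈ A, a n • eK k (n :: v) (by simpa using hv) : XS k) : LL gm) =
      ((∑ n ∈ A, a n • eX gm (n :: v) : modelSpace gm) : LL gm) := by
    rw [Submodule.coe_sum, Submodule.coe_sum]
    rfl
  calc ‖(∑ n ∈ A, a n • eK k (n :: v) (by simpa using hv) : XS k)‖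
      = ‖((∑ n ∈ A, a n • eK k (n :: v) (by simpa using hv) : XS k) : LL gm)‖ := rfl
    _ = ‖((∑ n ∈ A, a n • eX gm (n :: v) : modelSpace gm) : LL gm)‖ := by rw [h3]
    _ ≤ _ := h1

theorem not_finiteDimensional_EE : ¬ FiniteDimensional ℝ EE :=
  not_finiteDimensional_of_signDominated (signDominated_inj 1 [] (by simp)) one_pos
    fun n => by
      rw [norm_inj]
      exact one_le_norm_eK 1 n [] (by simp)

theorem not_AUC_EE {N : EE → ℝ} (hN : EquivNorm N) : ¬ AUC N := by
  refine not_AUC_of_levels hN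
    (fun k j => {x : EE | ∃ (v : List ℕ) (hv : v.length ≤ k), v.length = j ∧
      x = inj k (zK k v hv)}) (R := 1) (κ := 1) one_pos ?_ ?_ ?_
  · intro k
    exact ⟨_, [], by simp, rfl, rfl⟩
  · rintro k j _ ⟨v, hv, -, rfl⟩
    rw [norm_inj]
    exact ⟨one_le_norm_zK k v hv, norm_zK_le k v hv⟩
  · rintro k j hjk _ ⟨v, hv, hvj, rfl⟩ S hS ε hε
    have hv1 : v.length + 1 ≤ k := by omega
    obtain ⟨n, w, hw, hn⟩ := ((signDominated_inj k v hv1).eventually_near hS hε).exists
    have hu : (n :: v).length ≤ k := by simpa using hv1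
    have e : inj k (zK k (n :: v) hu) - inj k (zK k v hv) = inj k (eK k (n :: v) hu) := by
      rw [← (inj k).map_sub, zK_cons_sub]
    refine ⟨inj k (zK k (n :: v) hu), ⟨n :: v, hu, by simp [hvj], rfl⟩, w, hw, ?_, ?_⟩
    · rw [e, norm_inj]
      exact one_le_norm_eK k n v hu
    · rw [e]
      exact hn

end Crest.Agent.Lib_helper2_Sum
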