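import Mathlib

/-!
Reflexivity lemmas (package R1 of row 125, S0166): Hilbert spaces are reflexive, reflexivity passes
through linear homeomorphisms, and the `ℓ²`-sum of reflexive spaces is reflexive.
-/

set_option autoImplicit false
open scoped ENNReal

namespace Crest.Agent.Lib_helper8_Reflexive

theorem reflexive_hilbert (H : Type*) [NormedAddCommGroup H] [InnerProductSpace ℝ H]
    [CompleteSpace H] : Function.Surjective (NormedSpace.inclusionInDoubleDual ℝ H) := by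
  intro Λ
  let J := InnerProductSpace.toDual ℝ H
  -- `y ↦ Λ (J y)` is a continuous linear functional
  let φ : H →L[ℝ] ℝ := Λ.comp (J.toLinearIsometry.toContinuousLinearMap)
  refine ⟨J.symm φ, ?_⟩
  ext f
  rw [NormedSpace.dual_def]
  obtain ⟨y, rfl⟩ := J.surjective f
  have h1 : J y (J.symm φ) = inner ℝ y (J.symm φ) := InnerProductSpace.toDual_apply_apply
  have h2 : inner ℝ (J.symm φ) y = φ y := InnerProductSpace.toDual_symm_apply
  rw [h1, real_inner_comm, h2]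
  rfl

theorem reflexive_of_equiv {X Y : Type*} [NormedAddCommGroup X] [NormedSpace ℝ X]
    [NormedAddCommGroup Y] [NormedSpace ℝ Y] (e : X ≃L[ℝ] Y)
    (hY : Function.Surjective (NormedSpace.inclusionInDoubleDual ℝ Y)) :
    Function.Surjective (NormedSpace.inclusionInDoubleDual ℝ X) := by
  intro Λ
  let Λ' : StrongDual ℝ (StrongDual ℝ Y) :=
    Λ.comp ((ContinuousLinearMap.compL ℝ X Y ℝ).flip (e : X →L[ℝ] Y))
  obtain ⟨y, hy⟩ := hY Λ'
  refine ⟨e.symm y, ?_⟩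
  ext f
  rw [NormedSpace.dual_def]
  have h := congrArg (fun G => G (f.comp (e.symm : Y →L[ℝ] X))) hy
  simp only [NormedSpace.dual_def] at h
  have h3 : Λ' (f.comp (e.symm : Y →L[ℝ] X)) = Λ f := by
    show Λ ((f.comp (e.symm : Y →L[ℝ] X)).comp (e : X →L[ℝ] Y)) = Λ f
    congr 1
    ext x
    simp
  rw [← h3, ← h]
  rfl

section lp2
variable {X : ℕ → Type} [∀ k, NormedAddCommGroup (X k)] [∀ k, NormedSpace ℝ (X k)]

theorem hp2 : 0 < (2 : ℝ≥0∞).toReal := by norm_num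

/-- head projection -/
noncomputable def Rn (n : ℕ) : lp X 2 →L[ℝ] lp X 2 :=
  ∑ k ∈ Finset.range n, (lp.singleContinuousLinearMap ℝ X 2 k).comp (lp.evalCLM ℝ X 2 k)

theorem Rn_apply (n : ℕ) (z : lp X 2) :
    Rn n z = ∑ k ∈ Finset.range n, lp.single 2 k (z k) := by
  simp only [Rn, FunLike.coe_sum, Finset.sum_apply, ContinuousLinearMap.comp_apply,
    lp.singleContinuousLinearMap_apply]
  rfl

theorem Rn_coord (n : ℕ) (z : lp X 2) (k : ℕ) :
    (Rn n z) k = if k < n then z k else 0 := by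
  rw [Rn_apply]
  simp only [lp.coeFn_single, lp.coeFn_sum, Finset.sum_apply, Finset.sum_pi_single,
    Finset.mem_range]

theorem normR_sq (n : ℕ) (z : lp X 2) :
    ‖Rn n z‖ ^ 2 = ∑ k ∈ Finset.range n, ‖z k‖ ^ 2 := by
  rw [Rn_apply]
  have := lp.norm_sum_single hp2 (fun k => z k) (Finset.range n)
  simpa [ENNReal.toReal_ofNat, Real.rpow_two] using this

theorem normQ_sq (n : ℕ) (z : lp X 2) :
    ‖z - Rn n z‖ ^ 2 = ‖z‖ ^ 2 - ∑ k ∈ Finset.range n, ‖z k‖ ^ 2 := by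
  rw [Rn_apply]
  have := lp.norm_compl_sum_single hp2 z (Finset.range n)
  simpa [ENNReal.toReal_ofNat, Real.rpow_two] using this

theorem norm_split (n : ℕ) (z : lp X 2) : ‖z‖ ^ 2 = ‖Rn n z‖ ^ 2 + ‖z - Rn n z‖ ^ 2 := by
  rw [normR_sq, normQ_sq]; ring

theorem normR_le (n : ℕ) (z : lp X 2) : ‖Rn n z‖ ≤ ‖z‖ := by
  have := norm_split n z
  have h2 : 0 ≤ ‖z - Rn n z‖ ^ 2 := by positivity
  exact abs_le_of_sq_le_sq' (by linarith) (norm_nonneg _) |>.2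

theorem normQ_le (n : ℕ) (z : lp X 2) : ‖z - Rn n z‖ ≤ ‖z‖ := by
  have := norm_split n z
  have h2 : 0 ≤ ‖Rn n z‖ ^ 2 := by positivity
  exact abs_le_of_sq_le_sq' (by linarith) (norm_nonneg _) |>.2

theorem Rn_comb (n : ℕ) (a b : ℝ) (z₁ z₂ : lp X 2) :
    Rn n (a • Rn n z₁ + b • (z₂ - Rn n z₂)) = a • Rn n z₁ := by
  ext k
  simp only [Rn_coord, lp.coeFn_add, lp.coeFn_smul, lp.coeFn_sub, Pi.add_apply, Pi.smul_apply,
    Pi.sub_apply]
  split_ifs <;> simp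

theorem Rn_tendsto (z : lp X 2) : Filter.Tendsto (fun n => Rn n z) Filter.atTop (nhds z) := by
  have h := (lp.hasSum_single (p := 2) (by norm_num) z).tendsto_sum_nat
  simpa only [Rn_apply] using h

theorem key_ineq (φ : StrongDual ℝ (lp X 2)) (n : ℕ) (z₁ z₂ : lp X 2) :
    (φ (Rn n z₁)) ^ 2 * ‖z₂‖ ^ 2 + (φ (z₂ - Rn n z₂)) ^ 2 * ‖z₁‖ ^ 2 ≤
      ‖φ‖ ^ 2 * ‖z₁‖ ^ 2 * ‖z₂‖ ^ 2 := by
  set α := φ (Rn n z₁) with hα
  set β := φ (z₂ - Rn n z₂) with hβ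
  set p := ‖z₁‖ ^ 2 with hp
  set q := ‖z₂‖ ^ 2 with hq
  have hp0 : 0 ≤ p := by positivity
  have hq0 : 0 ≤ q := by positivity
  set w : lp X 2 := (α * q) • Rn n z₁ + (β * p) • (z₂ - Rn n z₂) with hw
  set Sg := α ^ 2 * q + β ^ 2 * p with hSg
  have hSg0 : 0 ≤ Sg := by positivity
  have hφw : φ w = Sg := by
    rw [hw, map_add, map_smul, map_smul, smul_eq_mul, smul_eq_mul, ← hα, ← hβ, hSg]; ring
  have hRw : Rn n w = (α * q) • Rn n z₁ := Rn_comb n _ _ _ _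
  have hQw : w - Rn n w = (β * p) • (z₂ - Rn n z₂) := by rw [hRw, hw]; abel
  have hnw : ‖w‖ ^ 2 ≤ p * q * Sg := by
    rw [norm_split n w, hQw, hRw, norm_smul, norm_smul, mul_pow, mul_pow, Real.norm_eq_abs,
      Real.norm_eq_abs, sq_abs, sq_abs]
    have h1 : ‖Rn n z₁‖ ^ 2 ≤ p := pow_le_pow_left₀ (norm_nonneg _) (normR_le n z₁) 2
    have h2 : ‖z₂ - Rn n z₂‖ ^ 2 ≤ q := pow_le_pow_left₀ (norm_nonneg _) (normQ_le n z₂) 2
    calc (α * q) ^ 2 * ‖Rn n z₁‖ ^ 2 + (β * p) ^ 2 * ‖z₂ - Rn n z₂‖ ^ 2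
        ≤ (α * q) ^ 2 * p + (β * p) ^ 2 * q := by gcongr
      _ = p * q * Sg := by rw [hSg]; ring
  have hle : Sg ^ 2 ≤ ‖φ‖ ^ 2 * (p * q * Sg) := by
    have h1 : |φ w| ≤ ‖φ‖ * ‖w‖ := by simpa using φ.le_opNorm w
    rw [hφw, abs_of_nonneg hSg0] at h1
    calc Sg ^ 2 ≤ (‖φ‖ * ‖w‖) ^ 2 := pow_le_pow_left₀ hSg0 h1 2
      _ = ‖φ‖ ^ 2 * ‖w‖ ^ 2 := by ring
      _ ≤ ‖φ‖ ^ 2 * (p * q * Sg) := by gcongr
  rcases hSg0.eq_or_lt with h0 | hpos
  · rw [← h0]; positivity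
  · have : Sg * Sg ≤ (‖φ‖ ^ 2 * p * q) * Sg := by nlinarith
    exact le_of_mul_le_mul_right this hpos

theorem tail_tendsto (φ : StrongDual ℝ (lp X 2)) :
    Filter.Tendsto (fun n => ‖φ - φ.comp (Rn n)‖) Filter.atTop (nhds 0) := by
  rcases (norm_nonneg φ).eq_or_lt with h0 | hF
  · have : φ = 0 := norm_eq_zero.mp h0.symm
    simp [this]
  rw [Metric.tendsto_atTop]
  intro ε hε
  set F := ‖φ‖ with hFdef
  set r := Real.sqrt (max 0 (F ^ 2 - ε ^ 2)) with hr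
  have hr0 : 0 ≤ r := Real.sqrt_nonneg _
  have hr2 : r ^ 2 = max 0 (F ^ 2 - ε ^ 2) := Real.sq_sqrt (le_max_left _ _)
  have hrF : r < F := by
    apply lt_of_pow_lt_pow_left₀ 2 hF.le
    rw [hr2]
    apply max_lt (by positivity)
    have : 0 < ε ^ 2 := by positivity
    linarith
  obtain ⟨z, hz1, hz2⟩ := φ.exists_lt_apply_of_lt_opNorm hrF
  have hz0 : z ≠ 0 := by
    rintro rfl
    simp at hz2
    linarith
  have hzn : 0 < ‖z‖ := norm_pos_iff.mpr hz0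
  set z₁ : lp X 2 := (‖z‖)⁻¹ • z with hz₁
  have hz₁n : ‖z₁‖ = 1 := by
    rw [hz₁, norm_smul, norm_inv, norm_norm, inv_mul_cancel₀ hzn.ne']
  have hφz₁ : r < |φ z₁| := by
    rw [hz₁, map_smul, smul_eq_mul, abs_mul, abs_inv, abs_norm]
    rw [Real.norm_eq_abs] at hz2
    calc r < |φ z| := hz2
      _ = 1 * |φ z| := (one_mul _).symm
      _ ≤ (‖z‖)⁻¹ * |φ z| := by
          gcongr
          exact (one_le_inv₀ hzn).mpr hz1.le
  have hlim : Filter.Tendsto (fun n => F ^ 2 - (φ (Rn n z₁)) ^ 2) Filter.atTop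
      (nhds (F ^ 2 - (φ z₁) ^ 2)) := by
    have := (φ.continuous.tendsto z₁).comp (Rn_tendsto z₁)
    exact tendsto_const_nhds.sub (this.pow 2)
  have hlt : F ^ 2 - (φ z₁) ^ 2 < ε ^ 2 := by
    have h1 : r ^ 2 < (φ z₁) ^ 2 := by
      rw [← sq_abs (φ z₁)]
      exact pow_lt_pow_left₀ hφz₁ hr0 (by norm_num)
    have h2 : F ^ 2 - ε ^ 2 ≤ r ^ 2 := by rw [hr2]; exact le_max_right _ _
    linarith
  obtain ⟨N, hN⟩ := Filter.eventually_atTop.mp (hlim.eventually (gt_mem_nhds hlt))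
  refine ⟨N, fun n hn => ?_⟩
  have hc := hN n hn
  rw [dist_zero_right, norm_norm]
  set c := F ^ 2 - (φ (Rn n z₁)) ^ 2 with hcdef
  have hbound : ∀ z₂ : lp X 2, ‖(φ - φ.comp (Rn n)) z₂‖ ≤ Real.sqrt c * ‖z₂‖ := by
    intro z₂
    have hk := key_ineq φ n z₁ z₂
    rw [hz₁n] at hk
    have e : (φ - φ.comp (Rn n)) z₂ = φ (z₂ - Rn n z₂) := by simp
    rw [e, Real.norm_eq_abs]
    have h3 : (φ (z₂ - Rn n z₂)) ^ 2 ≤ c * ‖z₂‖ ^ 2 := by
      rw [hcdef]; nlinarith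
    calc |φ (z₂ - Rn n z₂)| ≤ Real.sqrt (c * ‖z₂‖ ^ 2) := Real.abs_le_sqrt h3
      _ ≤ Real.sqrt c * ‖z₂‖ := by
          by_cases hc0 : 0 ≤ c
          · rw [Real.sqrt_mul hc0, Real.sqrt_sq (norm_nonneg _)]
          · have : c * ‖z₂‖ ^ 2 ≤ 0 := mul_nonpos_of_nonpos_of_nonneg (le_of_not_ge hc0) (by positivity)
            rw [Real.sqrt_eq_zero_of_nonpos this]
            positivity
  calc ‖φ - φ.comp (Rn n)‖ ≤ Real.sqrt c :=
        ContinuousLinearMap.opNorm_le_bound _ (Real.sqrt_nonneg _) hbound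
    _ < ε := by
        rw [Real.sqrt_lt' hε]; exact hc

theorem Rn_opNorm_le (n : ℕ) : ‖(Rn n : lp X 2 →L[ℝ] lp X 2)‖ ≤ 1 :=
  ContinuousLinearMap.opNorm_le_bound _ zero_le_one (fun z => by simpa using normR_le n z)

theorem reflexive_lp2
    (h : ∀ k, Function.Surjective (NormedSpace.inclusionInDoubleDual ℝ (X k))) :
    Function.Surjective (NormedSpace.inclusionInDoubleDual ℝ (lp X 2)) := by
  intro Λ
  have hex : ∀ k, ∃ x : X k, ∀ ψ : StrongDual ℝ (X k), ψ x = Λ (ψ.comp (lp.evalCLM ℝ X 2 k)) := by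
    intro k
    obtain ⟨x, hx⟩ := h k (Λ.comp ((ContinuousLinearMap.compL ℝ (lp X 2) (X k) ℝ).flip
      (lp.evalCLM ℝ X 2 k)))
    refine ⟨x, fun ψ => ?_⟩
    have := congrArg (fun G => G ψ) hx
    simp only [NormedSpace.dual_def] at this
    rw [this]
    rfl
  choose x hx using hex
  -- finite sections
  set y : ℕ → lp X 2 := fun n => ∑ k ∈ Finset.range n, lp.single 2 k (x k) with hy
  have hΛR : ∀ (φ : StrongDual ℝ (lp X 2)) (n : ℕ), Λ (φ.comp (Rn n)) = φ (y n) := by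
    intro φ n
    have e : φ.comp (Rn n) = ∑ k ∈ Finset.range n,
        (φ.comp (lp.singleContinuousLinearMap ℝ X 2 k)).comp (lp.evalCLM ℝ X 2 k) := by
      ext z
      simp only [Rn, ContinuousLinearMap.comp_apply, FunLike.coe_sum, Finset.sum_apply, map_sum]
    rw [e, map_sum, hy, map_sum]
    refine Finset.sum_congr rfl (fun k _ => ?_)
    rw [← hx k]
    rfl
  have hyn : ∀ n, ‖y n‖ ≤ ‖Λ‖ := by
    intro n
    refine NormedSpace.norm_le_dual_bound ℝ (y n) (norm_nonneg Λ) (fun f => ?_)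
    rw [← hΛR f n]
    calc ‖Λ (f.comp (Rn n))‖ ≤ ‖Λ‖ * ‖f.comp (Rn n)‖ := Λ.le_opNorm _
      _ ≤ ‖Λ‖ * (‖f‖ * ‖(Rn n : lp X 2 →L[ℝ] lp X 2)‖) := by
          gcongr; exact ContinuousLinearMap.opNorm_comp_le _ _
      _ ≤ ‖Λ‖ * (‖f‖ * 1) := by
          gcongr; exact Rn_opNorm_le n
      _ = ‖Λ‖ * ‖f‖ := by ring
  have hsum : ∀ n, ∑ k ∈ Finset.range n, ‖x k‖ ^ (2 : ℝ≥0∞).toReal ≤ ‖Λ‖ ^ 2 := by
    intro n
    rw [← lp.norm_sum_single hp2 x (Finset.range n)]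
    have : ‖∑ i ∈ Finset.range n, lp.single 2 i (x i)‖ ^ (2 : ℝ≥0∞).toReal = ‖y n‖ ^ 2 := by
      simp [hy, ENNReal.toReal_ofNat]
    rw [this]
    exact pow_le_pow_left₀ (norm_nonneg _) (hyn n) 2
  have hmem : Memℓp x 2 := by
    apply memℓp_gen' (C := ‖Λ‖ ^ 2)
    intro s
    calc ∑ i ∈ s, ‖x i‖ ^ (2 : ℝ≥0∞).toReal
        ≤ ∑ i ∈ Finset.range (s.sup id + 1), ‖x i‖ ^ (2 : ℝ≥0∞).toReal := by
          apply Finset.sum_le_sum_of_subset_of_nonneg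
          · intro i hi
            rw [Finset.mem_range]
            exact Nat.lt_succ_of_le (Finset.le_sup (f := id) hi)
          · intro i _ _; positivity
      _ ≤ ‖Λ‖ ^ 2 := hsum _
  set xx : lp X 2 := ⟨x, hmem⟩ with hxx
  have hyR : ∀ n, y n = Rn n xx := by
    intro n; rw [Rn_apply]
  refine ⟨xx, ?_⟩
  ext φ
  rw [NormedSpace.dual_def]
  -- both sides are limits
  have h1 : Filter.Tendsto (fun n => φ (y n)) Filter.atTop (nhds (φ xx)) := by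
    have := (φ.continuous.tendsto xx).comp (Rn_tendsto xx)
    simp only [hyR]
    exact this
  have h2 : Filter.Tendsto (fun n => φ (y n)) Filter.atTop (nhds (Λ φ)) := by
    have h3 : Filter.Tendsto (fun n => Λ (φ - φ.comp (Rn n))) Filter.atTop (nhds 0) := by
      apply squeeze_zero_norm (a := fun n => ‖Λ‖ * ‖φ - φ.comp (Rn n)‖)
      · intro n; exact Λ.le_opNorm _
      · simpa using (tail_tendsto φ).const_mul ‖Λ‖
    have h4 : ∀ n, φ (y n) = Λ φ - Λ (φ - φ.comp (Rn n)) := by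
      intro n; rw [map_sub, hΛR]; ring
    have h5 : Filter.Tendsto (fun n => Λ φ - Λ (φ - φ.comp (Rn n))) Filter.atTop
        (nhds (Λ φ - 0)) := tendsto_const_nhds.sub h3
    rw [sub_zero] at h5
    exact h5.congr (fun n => (h4 n).symm)
  exact tendsto_nhds_unique h1 h2

end lp2

end Crest.Agent.Lib_helper8_Reflexive
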