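import Mathlib
import Crest.Prelude.Def_TreePotentials
import Crest.Prelude.Def_Diamond
import Crest.Agent.Lib_helper2_AUC
import Crest.Agent.Lib_helper2_HtK
import Crest.Agent.Lib_helper2_Sum
import Crest.Agent.Lib_helper2_Sum2
import Crest.Agent.Lib_helper8_Reflexive
import Crest.Agent.Lib_helper1_Diamond

/-!
The space of S0166 as a `RealBanach` record, and its properties in bundled form.
-/

set_option autoImplicit false
set_option linter.style.haveILetI false

namespace Crest.Agent.Lib_helper2_Sum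

open Crest.AnalysisR Crest.Agent.Lib_helper2_AUC Crest.Agent.Lib_helper2_HtK

theorem reflexive_XS (k : ℕ) :
    Function.Surjective (NormedSpace.inclusionInDoubleDual ℝ (XS k)) :=
  Crest.Agent.Lib_helper8_Reflexive.reflexive_of_equiv (equivXS k).symm
    (Crest.Agent.Lib_helper8_Reflexive.reflexive_hilbert (HS k))

theorem reflexive_EE : Function.Surjective (NormedSpace.inclusionInDoubleDual ℝ EE) :=
  Crest.Agent.Lib_helper8_Reflexive.reflexive_lp2 (X := XF) reflexive_XS

/-- the space of S0166 -/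
noncomputable def EB : RealBanach := ⟨EE, inferInstance, inferInstance, inferInstance⟩

theorem EB_sep : EB.IsSeparableInfiniteDim := ⟨separable_EE, not_finiteDimensional_EE⟩

theorem EB_refl : EB.IsReflexive := reflexive_EE

theorem EB_mid {t : ℝ} (ht : 0 < t) :
    EB.MidpointModulusGE EB.norm t (Real.sqrt (1 + t ^ 2 / 4) - 1) := by
  intro (x : EE) hx η hη
  obtain ⟨S', hS', h⟩ := mid_EE ht x hx hη
  refine ⟨(S' : Set EE), ⟨S', rfl, hS'.1, hS'.2⟩, ?_⟩
  intro (y : EE) hy hy1
  exact h y hy hy1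

theorem EB_mid_of_le {t c : ℝ} (ht : 0 < t) (hc : c ≤ Real.sqrt (1 + t ^ 2 / 4) - 1) :
    EB.MidpointModulusGE EB.norm t c := by
  intro x hx η hη
  obtain ⟨F, hF, h⟩ := EB_mid ht x hx η hη
  exact ⟨F, hF, fun y hy hy1 => le_trans (by linarith) (h y hy hy1)⟩

theorem EB_max {t : ℝ} (ht : 0 < t) :
    EB.MaxMidpointModulusGE EB.norm t (Real.sqrt (1 + t ^ 2 / 4) - 1) := by
  intro x hx η hη
  obtain ⟨F, hF, h⟩ := EB_mid ht x hx η hη
  refine ⟨F, hF, fun y hy hy1 => le_trans (h y hy hy1) ?_⟩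
  have key : ∀ p q : ℝ, (p + q) / 2 - 1 ≤ max p q - 1 := fun p q => by
    have h1 := le_max_left p q
    have h2 := le_max_right p q
    linarith
  exact key _ _

theorem EB_noAUC (N : EB.X → ℝ) (hN : EB.IsEquivNorm N) : ¬ EB.IsAUC N := fun hAUC =>
  not_AUC_EE hN (AUC_of_isAUC EB hAUC)

theorem EB_diamond (k : ℕ) (f : DiamondVertex k → EB.X) (D : ℝ) (h : EB.HasDistortionLE k f D) :
    1 + (k : ℝ) / 4 ≤ D ^ 2 :=
  Crest.Agent.Lib_helper1_Diamond.diamond_distortion EB (fun _ ht => EB_max ht) k f D h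

end Crest.Agent.Lib_helper2_Sum
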