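import Mathlib

/-!
Area toolkit for the cylinder-covering row (S0324 – S0329).
-/

set_option autoImplicit false

open MeasureTheory Set

namespace Crest.Agent.Lib_helper4_CylArea

abbrev E3 := EuclideanSpace ℝ (Fin 3)
abbrev E2 := EuclideanSpace ℝ (Fin 2)

/-- planar cross product -/
def cross2 (a b : E2) : ℝ := a 0 * b 1 - a 1 * b 0

/-- the unit square in `E2`. -/
def sq2 : Set E2 := {x | 0 ≤ x 0 ∧ x 0 ≤ 1 ∧ 0 ≤ x 1 ∧ x 1 ≤ 1}

/-- the standard triangle in `E2`. -/
def tr2 : Set E2 := {x | 0 ≤ x 0 ∧ 0 ≤ x 1 ∧ x 0 + x 1 ≤ 1}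

theorem volume_sq2 : volume sq2 = 1 := by
  have h := (EuclideanSpace.basisFun (Fin 2) ℝ).volume_parallelepiped
  have e : sq2 = (parallelepiped (EuclideanSpace.basisFun (Fin 2) ℝ) : Set E2) := by
    ext x
    rw [mem_parallelepiped_iff]
    constructor
    · rintro ⟨h0, h1, h2, h3⟩
      refine ⟨fun i => x i, ⟨fun i => ?_, fun i => ?_⟩, ?_⟩
      · fin_cases i <;> simp [h0, h2]
      · fin_cases i <;> simp [h1, h3]
      · ext i
        fin_cases i <;> simp [Fin.sum_univ_two]
    · rintro ⟨t, ⟨ht0, ht1⟩, rfl⟩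
      have a0 := ht0 0
      have a1 := ht0 1
      have b0 := ht1 0
      have b1 := ht1 1
      simp only [Pi.zero_apply, Pi.one_apply] at a0 a1 b0 b1
      simp [sq2, Fin.sum_univ_two, a0, a1, b0, b1]
  rw [e]; exact h

/-- the linear map `x ↦ x 0 • a + x 1 • b`. -/
noncomputable def lin2 {V : Type*} [AddCommGroup V] [Module ℝ V] (a b : V) : E2 →ₗ[ℝ] V where
  toFun x := x 0 • a + x 1 • b
  map_add' x y := by simp [add_smul]; abel
  map_smul' r x := by simp [mul_smul, smul_add]

@[simp] theorem lin2_apply {V : Type*} [AddCommGroup V] [Module ℝ V] (a b : V) (x : E2) :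
    lin2 a b x = x 0 • a + x 1 • b := rfl

theorem det_lin2 (a b : E2) : LinearMap.det (lin2 a b) = cross2 a b := by
  have h := LinearMap.det_toMatrix (EuclideanSpace.basisFun (Fin 2) ℝ).toBasis (lin2 a b)
  rw [← h, Matrix.det_fin_two]
  simp [LinearMap.toMatrix_apply, cross2]
  ring

theorem volume_image2 (c a b : E2) (S : Set E2) :
    volume ((fun x : E2 => c + x 0 • a + x 1 • b) '' S) =
      ENNReal.ofReal |cross2 a b| * volume S := by
  have e : (fun x : E2 => c + x 0 • a + x 1 • b) '' S = (fun y => c + y) '' (lin2 a b '' S) := by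
    rw [image_image]; congr 1; funext x; simp [add_assoc]
  rw [e, image_add_left, measure_preimage_add, Measure.addHaar_image_linearMap, det_lin2]


theorem continuous_coord2 (i : Fin 2) : Continuous (fun x : E2 => x i) := by fun_prop

theorem isClosed_tr2 : IsClosed tr2 := by
  have h0 : IsClosed {x : E2 | 0 ≤ x 0} := isClosed_le continuous_const (continuous_coord2 0)
  have h1 : IsClosed {x : E2 | 0 ≤ x 1} := isClosed_le continuous_const (continuous_coord2 1)
  have h2 : IsClosed {x : E2 | x 0 + x 1 ≤ 1} :=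
    isClosed_le ((continuous_coord2 0).add (continuous_coord2 1)) continuous_const
  have : tr2 = {x : E2 | 0 ≤ x 0} ∩ ({x : E2 | 0 ≤ x 1} ∩ {x : E2 | x 0 + x 1 ≤ 1}) := by
    ext x; simp [tr2]
  rw [this]; exact h0.inter (h1.inter h2)

theorem volume_tr2 : volume tr2 = 2⁻¹ := by
  -- the reflected triangle
  set T' : Set E2 := (fun x : E2 => !₂[(1:ℝ), 1] + x 0 • !₂[(-1:ℝ), 0] + x 1 • !₂[(0:ℝ), -1]) '' tr2
    with hT'
  have hv' : volume T' = volume tr2 := by
    rw [hT', volume_image2]; simp [cross2]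
  have hU : tr2 ∪ T' = sq2 := by
    ext x
    constructor
    · rintro (⟨h0, h1, h2⟩ | ⟨y, ⟨h0, h1, h2⟩, rfl⟩)
      · exact ⟨h0, by linarith, h1, by linarith⟩
      · refine ⟨?_, ?_, ?_, ?_⟩ <;> simp <;> linarith
    · rintro ⟨h0, h1, h2, h3⟩
      by_cases h : x 0 + x 1 ≤ 1
      · exact Or.inl ⟨h0, h2, h⟩
      · refine Or.inr ⟨!₂[1 - x 0, 1 - x 1], ⟨?_, ?_, ?_⟩, ?_⟩
        · simpa using h1
        · simpa using h3
        · simp; linarith
        · ext i; fin_cases i <;> simp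
  have hI : volume (tr2 ∩ T') = 0 := by
    have hsub : tr2 ∩ T' ⊆
        (fun x : E2 => !₂[(1:ℝ), 0] + x 0 • !₂[(-1:ℝ), 1] + x 1 • (0 : E2)) '' sq2 := by
      rintro x ⟨⟨h0, h1, h2⟩, ⟨y, ⟨g0, g1, g2⟩, rfl⟩⟩
      simp at h0 h1 h2
      refine ⟨!₂[y 0, 0], ⟨?_, ?_, ?_, ?_⟩, ?_⟩
      · simpa using g0
      · simp; linarith
      · simp
      · simp
      · ext i; fin_cases i
        · simp
        · simp; linarith
    refine measure_mono_null hsub ?_
    rw [volume_image2]; simp [cross2]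
  have hm : MeasurableSet T' := by
    have : T' = (fun x : E2 => !₂[(1:ℝ), 1] - x) ⁻¹' tr2 := by
      ext x
      constructor
      · rintro ⟨y, hy, rfl⟩
        have : (!₂[(1:ℝ), 1] - (!₂[(1:ℝ), 1] + y 0 • !₂[(-1:ℝ), 0] + y 1 • !₂[(0:ℝ), -1])) = y := by
          ext i; fin_cases i <;> simp
        simpa [this] using hy
      · intro hx
        refine ⟨!₂[(1:ℝ), 1] - x, hx, ?_⟩
        ext i; fin_cases i <;> simp
    rw [this]
    exact (isClosed_tr2.preimage (by fun_prop)).measurableSet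
  have key := measure_union_add_inter tr2 hm (μ := (volume : Measure E2))
  rw [hU, hI, volume_sq2, hv', add_zero] at key
  -- 1 = v + v
  have h2 : volume tr2 * 2 = 1 := by rw [mul_two]; exact key.symm
  exact ENNReal.eq_inv_of_mul_eq_one_left h2


/-- Gram determinant of two vectors. -/
noncomputable def gram (a b : E3) : ℝ := ‖a‖ ^ 2 * ‖b‖ ^ 2 - inner ℝ a b ^ 2

theorem gram_nonneg (a b : E3) : 0 ≤ gram a b := by
  have h := abs_real_inner_le_norm a b
  have h2 : inner ℝ a b ^ 2 ≤ (‖a‖ * ‖b‖) ^ 2 := by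
    rw [← sq_abs]; exact pow_le_pow_left₀ (abs_nonneg _) h 2
  unfold gram; nlinarith

/-- Master area formula: the `μHE[2]`-measure of an affine image of a planar set. -/
theorem area_image (c a b : E3) (S : Set E2) :
    μHE[2] ((fun x : E2 => c + x 0 • a + x 1 • b) '' S) =
      ENNReal.ofReal (Real.sqrt (gram a b)) * volume S := by
  have hcard : Module.finrank ℝ E3 = Fintype.card (Fin 3) := by simp
  set B := InnerProductSpace.gramSchmidtOrthonormalBasis hcard ![a, b, 0] with hB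
  have ha2 : inner ℝ (B 2) a = 0 :=
    InnerProductSpace.gramSchmidtOrthonormalBasis_inv_triangular hcard ![a, b, 0] (i := 0) (j := 2) (by decide)
  have hb2 : inner ℝ (B 2) b = 0 :=
    InnerProductSpace.gramSchmidtOrthonormalBasis_inv_triangular hcard ![a, b, 0] (i := 1) (j := 2) (by decide)
  set a' : E2 := !₂[inner ℝ (B 0) a, inner ℝ (B 1) a] with ha'
  set b' : E2 := !₂[inner ℝ (B 0) b, inner ℝ (B 1) b] with hb'
  have hae : a = a' 0 • B 0 + a' 1 • B 1 := by
    have := B.sum_repr' a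
    rw [Fin.sum_univ_three, ha2] at this
    simpa [ha'] using this.symm
  have hbe : b = b' 0 • B 0 + b' 1 • B 1 := by
    have := B.sum_repr' b
    rw [Fin.sum_univ_three, hb2] at this
    simpa [hb'] using this.symm
  have h00 : inner ℝ (B 0) (B 0) = 1 := by
    rw [real_inner_self_eq_norm_sq, B.orthonormal.1 0]; norm_num
  have h11 : inner ℝ (B 1) (B 1) = 1 := by
    rw [real_inner_self_eq_norm_sq, B.orthonormal.1 1]; norm_num
  have h01 : inner ℝ (B 0) (B 1) = 0 := B.orthonormal.2 (by decide)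
  have h10 : inner ℝ (B 1) (B 0) = 0 := B.orthonormal.2 (by decide)
  have hinner : ∀ x y : E2, inner ℝ (x 0 • B 0 + x 1 • B 1) (y 0 • B 0 + y 1 • B 1)
      = x 0 * y 0 + x 1 * y 1 := by
    intro x y
    simp only [inner_add_left, inner_add_right, inner_smul_left, inner_smul_right, h00, h11, h01,
      h10]
    simp
    ring
  let φ : E2 →ₗᵢ[ℝ] E3 :=
    { lin2 (B 0) (B 1) with
      norm_map' := by
        intro x
        have h1 : ‖lin2 (B 0) (B 1) x‖ ^ 2 = ‖x‖ ^ 2 := by
          rw [← real_inner_self_eq_norm_sq, lin2_apply, hinner, EuclideanSpace.norm_sq_eq,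
            Fin.sum_univ_two]
          simp [sq]
        exact (pow_left_inj₀ (norm_nonneg _) (norm_nonneg _) two_ne_zero).1 h1 }
  have hφ : ∀ x : E2, φ x = x 0 • B 0 + x 1 • B 1 := fun x => rfl
  have hiso : Isometry (fun z : E2 => c + φ z) := (isometry_add_left c).comp φ.isometry
  have himg : (fun x : E2 => c + x 0 • a + x 1 • b) '' S =
      (fun z : E2 => c + φ z) '' ((fun x : E2 => (0 : E2) + x 0 • a' + x 1 • b') '' S) := by
    rw [image_image]
    congr 1
    funext x
    rw [hφ]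
    conv_lhs => rw [hae, hbe]
    simp only [PiLp.add_apply, PiLp.smul_apply, smul_eq_mul, zero_add]
    simp only [smul_add, smul_smul, add_smul]
    abel
  rw [himg, hiso.euclideanHausdorffMeasure_image, EuclideanSpace.euclideanHausdorffMeasure_eq_volume,
    volume_image2]
  congr 2
  have hg : gram a b = cross2 a' b' ^ 2 := by
    unfold gram cross2
    have n1 : ‖a‖ ^ 2 = a' 0 * a' 0 + a' 1 * a' 1 := by
      rw [← real_inner_self_eq_norm_sq]; conv_lhs => rw [hae]
      exact hinner a' a'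
    have n2 : ‖b‖ ^ 2 = b' 0 * b' 0 + b' 1 * b' 1 := by
      rw [← real_inner_self_eq_norm_sq]; conv_lhs => rw [hbe]
      exact hinner b' b'
    have n3 : inner ℝ a b = a' 0 * b' 0 + a' 1 * b' 1 := by
      conv_lhs => rw [hae, hbe]
      exact hinner a' b'
    rw [n1, n2, n3]; ring
  rw [hg, Real.sqrt_sq_eq_abs]


theorem convex_tr2 : Convex ℝ tr2 := by
  intro x hx y hy a b ha hb hab
  obtain ⟨x0, x1, x2⟩ := hx
  obtain ⟨y0, y1, y2⟩ := hy
  refine ⟨?_, ?_, ?_⟩
  · simp; positivity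
  · simp; positivity
  · simp; nlinarith

/-- A triangle is the affine image of the standard triangle. -/
theorem tri_eq_image {V : Type*} [AddCommGroup V] [Module ℝ V] (p q r : V) :
    convexHull ℝ {p, q, r} = (fun x : E2 => p + x 0 • (q - p) + x 1 • (r - p)) '' tr2 := by
  apply Subset.antisymm
  · apply convexHull_min
    · rintro z (rfl | rfl | rfl)
      · exact ⟨!₂[0, 0], ⟨by simp, by simp, by simp⟩, by simp⟩
      · exact ⟨!₂[1, 0], ⟨by simp, by simp, by simp⟩, by simp⟩
      · exact ⟨!₂[0, 1], ⟨by simp, by simp, by simp⟩, by simp⟩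
    · have e : (fun x : E2 => p + x 0 • (q - p) + x 1 • (r - p)) '' tr2 =
          (fun y => p + y) '' (lin2 (q - p) (r - p) '' tr2) := by
        rw [image_image]; congr 1; funext x; simp [add_assoc]
      rw [e]
      exact (convex_tr2.linear_image _).translate p
  · rintro _ ⟨x, ⟨h0, h1, h2⟩, rfl⟩
    have hc := convex_convexHull ℝ ({p, q, r} : Set V)
    have := hc.sum_mem (t := Finset.univ) (w := ![1 - x 0 - x 1, x 0, x 1]) (z := ![p, q, r])
      (by intro i _; fin_cases i <;> simp <;> linarith)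
      (by simp [Fin.sum_univ_three]; ring)
      (by
        intro i _
        apply subset_convexHull
        fin_cases i <;> simp)
    simp only [Fin.sum_univ_three] at this
    convert this using 1
    simp [sub_smul, smul_sub]
    abel

/-- closed parallelogram as an image of the unit square. -/
theorem pgram_eq_image {V : Type*} [AddCommGroup V] [Module ℝ V] (c a b : V) :
    {x : V | ∃ s ∈ Set.Icc (0 : ℝ) 1, ∃ t ∈ Set.Icc (0 : ℝ) 1, x = c + s • a + t • b} =
      (fun x : E2 => c + x 0 • a + x 1 • b) '' sq2 := by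
  ext z
  constructor
  · rintro ⟨s, ⟨hs0, hs1⟩, t, ⟨ht0, ht1⟩, rfl⟩
    exact ⟨!₂[s, t], ⟨by simpa using hs0, by simpa using hs1, by simpa using ht0,
      by simpa using ht1⟩, by simp⟩
  · rintro ⟨x, ⟨h0, h1, h2, h3⟩, rfl⟩
    exact ⟨x 0, ⟨h0, h1⟩, x 1, ⟨h2, h3⟩, rfl⟩

theorem area_tri (p q r : E3) :
    μHE[2] (convexHull ℝ {p, q, r}) = ENNReal.ofReal (Real.sqrt (gram (q - p) (r - p)) / 2) := by
  rw [tri_eq_image, area_image, volume_tr2, div_eq_mul_inv,
    ENNReal.ofReal_mul (Real.sqrt_nonneg _)]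
  congr 1
  rw [ENNReal.ofReal_inv_of_pos (by norm_num)]
  simp

theorem area_pgram (c a b : E3) :
    μHE[2] {x : E3 | ∃ s ∈ Set.Icc (0 : ℝ) 1, ∃ t ∈ Set.Icc (0 : ℝ) 1, x = c + s • a + t • b} =
      ENNReal.ofReal (Real.sqrt (gram a b)) := by
  rw [pgram_eq_image, area_image, volume_sq2, mul_one]

theorem area_tri_toReal (p q r : E3) :
    (μHE[2] (convexHull ℝ {p, q, r})).toReal = Real.sqrt (gram (q - p) (r - p)) / 2 := by
  rw [area_tri, ENNReal.toReal_ofReal (by positivity)]

theorem area_pgram_toReal (c a b : E3) :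
    (μHE[2] {x : E3 | ∃ s ∈ Set.Icc (0 : ℝ) 1, ∃ t ∈ Set.Icc (0 : ℝ) 1,
      x = c + s • a + t • b}).toReal = Real.sqrt (gram a b) := by
  rw [area_pgram, ENNReal.toReal_ofReal (Real.sqrt_nonneg _)]

/-- planar versions -/
theorem volume_tri2 (p q r : E2) :
    volume (convexHull ℝ {p, q, r}) = ENNReal.ofReal (|cross2 (q - p) (r - p)| / 2) := by
  rw [tri_eq_image, volume_image2, volume_tr2, div_eq_mul_inv, ENNReal.ofReal_mul (abs_nonneg _)]
  congr 1
  rw [ENNReal.ofReal_inv_of_pos (by norm_num)]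
  simp

theorem volume_pgram2 (c a b : E2) :
    volume {x : E2 | ∃ s ∈ Set.Icc (0 : ℝ) 1, ∃ t ∈ Set.Icc (0 : ℝ) 1, x = c + s • a + t • b} =
      ENNReal.ofReal |cross2 a b| := by
  rw [pgram_eq_image, volume_image2, volume_sq2, mul_one]


/-! ### coordinates, determinants, projections -/

theorem inner3 (a b : E3) : inner ℝ a b = a 0 * b 0 + a 1 * b 1 + a 2 * b 2 := by
  simp [PiLp.inner_apply, Fin.sum_univ_three]
  ring

theorem normsq3 (a : E3) : ‖a‖ ^ 2 = a 0 ^ 2 + a 1 ^ 2 + a 2 ^ 2 := by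
  rw [← real_inner_self_eq_norm_sq, inner3]; ring

/-- the `3 × 3` determinant. -/
def det3 (a b c : E3) : ℝ :=
  a 0 * (b 1 * c 2 - b 2 * c 1) - a 1 * (b 0 * c 2 - b 2 * c 0) + a 2 * (b 0 * c 1 - b 1 * c 0)

/-- orthogonal projection along the (unit) vector `u`. -/
noncomputable def proj (u y : E3) : E3 := y - inner ℝ y u • u

/-- `proj u` as a linear map. -/
noncomputable def projL (u : E3) : E3 →ₗ[ℝ] E3 where
  toFun y := y - inner ℝ y u • u
  map_add' x y := by simp [inner_add_left, add_smul]; abel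
  map_smul' r x := by simp [inner_smul_left, mul_smul, smul_sub]

theorem projL_apply (u y : E3) : projL u y = y - inner ℝ y u • u := rfl

theorem proj_sub (u x y : E3) : proj u x - proj u y = proj u (x - y) := by
  simp [proj, inner_sub_left, sub_smul]; abel

theorem inner_proj (u y : E3) (hu : ‖u‖ = 1) : inner ℝ (proj u y) u = 0 := by
  simp [proj, inner_sub_left, inner_smul_left, hu]

theorem gram_proj (u a b : E3) (hu : ‖u‖ = 1) :
    gram (proj u a) (proj u b) = det3 a b u ^ 2 := by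
  have hn : u 0 ^ 2 + u 1 ^ 2 + u 2 ^ 2 = 1 := by rw [← normsq3, hu]; norm_num
  unfold gram
  rw [normsq3, normsq3, inner3]
  simp only [proj, PiLp.sub_apply, PiLp.smul_apply, smul_eq_mul, inner3, det3]
  linear_combination
    ((a 0 * u 0 + a 1 * u 1 + a 2 * u 2) ^ 2 * (b 0 ^ 2 + b 1 ^ 2 + b 2 ^ 2)
      + (b 0 * u 0 + b 1 * u 1 + b 2 * u 2) ^ 2 * (a 0 ^ 2 + a 1 ^ 2 + a 2 ^ 2)
      - 2 * (a 0 * u 0 + a 1 * u 1 + a 2 * u 2) * (b 0 * u 0 + b 1 * u 1 + b 2 * u 2)
          * (a 0 * b 0 + a 1 * b 1 + a 2 * b 2)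
      - (a 0 ^ 2 + a 1 ^ 2 + a 2 ^ 2) * (b 0 ^ 2 + b 1 ^ 2 + b 2 ^ 2)
      + (a 0 * b 0 + a 1 * b 1 + a 2 * b 2) ^ 2) * hn

theorem sqrt_gram_proj (u a b : E3) (hu : ‖u‖ = 1) :
    Real.sqrt (gram (proj u a) (proj u b)) = |det3 a b u| := by
  rw [gram_proj u a b hu, Real.sqrt_sq_eq_abs]

/-- image of a triangle under the projection. -/
theorem proj_image_tri (u p q r : E3) :
    (fun y => y - inner ℝ y u • u) '' convexHull ℝ {p, q, r} =
      convexHull ℝ {proj u p, proj u q, proj u r} := by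
  have := (projL u).image_convexHull ({p, q, r} : Set E3)
  rw [image_insert_eq, image_insert_eq, image_singleton] at this
  exact this

/-- area of the projection of a triangle. -/
theorem area_proj_tri (u p q r : E3) (hu : ‖u‖ = 1) :
    μHE[2] (convexHull ℝ {proj u p, proj u q, proj u r}) =
      ENNReal.ofReal (|det3 (q - p) (r - p) u| / 2) := by
  rw [area_tri, proj_sub, proj_sub, sqrt_gram_proj _ _ _ hu]

/-- a cylinder over an arbitrary triangle is the cylinder over the projected triangle. -/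
theorem mem_cyl_proj (u P Q R x : E3)
    (hx : ∃ b ∈ convexHull ℝ {P, Q, R}, ∃ t : ℝ, x = b + t • u) :
    ∃ b ∈ convexHull ℝ {proj u P, proj u Q, proj u R}, ∃ t : ℝ, x = b + t • u := by
  obtain ⟨b, hb, t, rfl⟩ := hx
  refine ⟨proj u b, ?_, inner ℝ b u + t, ?_⟩
  · rw [← proj_image_tri]; exact ⟨b, hb, rfl⟩
  · simp only [proj, add_smul]; abel

/-- an orthonormal frame of the plane `v^⊥`. -/
theorem exists_frame (v : E3) (hv : ‖v‖ = 1) :
    ∃ f₁ f₂ : E3, ‖f₁‖ = 1 ∧ ‖f₂‖ = 1 ∧ inner ℝ f₁ f₂ = 0 ∧ inner ℝ f₁ v = 0 ∧ inner ℝ f₂ v = 0 ∧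
      ∀ y : E3, inner ℝ y v = 0 → y = inner ℝ y f₁ • f₁ + inner ℝ y f₂ • f₂ := by
  have hcard : Module.finrank ℝ E3 = Fintype.card (Fin 3) := by simp
  set B := InnerProductSpace.gramSchmidtOrthonormalBasis hcard ![v, 0, 0] with hB
  have h1 : inner ℝ (B 1) v = 0 :=
    InnerProductSpace.gramSchmidtOrthonormalBasis_inv_triangular hcard ![v, 0, 0]
      (i := 0) (j := 1) (by decide)
  have h2 : inner ℝ (B 2) v = 0 :=
    InnerProductSpace.gramSchmidtOrthonormalBasis_inv_triangular hcard ![v, 0, 0]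
      (i := 0) (j := 2) (by decide)
  have hve : v = inner ℝ (B 0) v • B 0 := by
    have := B.sum_repr' v
    rw [Fin.sum_univ_three, h1, h2] at this
    simpa using this.symm
  have hne : inner ℝ (B 0) v ≠ 0 := by
    intro h0
    rw [h0, zero_smul] at hve
    rw [hve] at hv; simp at hv
  refine ⟨B 1, B 2, B.orthonormal.1 1, B.orthonormal.1 2, B.orthonormal.2 (by decide), h1, h2, ?_⟩
  intro y hy
  have h0 : inner ℝ (B 0) y = 0 := by
    rw [hve, inner_smul_right] at hy
    rcases mul_eq_zero.1 hy with h | h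
    · exact absurd h hne
    · rw [real_inner_comm]; exact h
  have := B.sum_repr' y
  rw [Fin.sum_univ_three, h0] at this
  rw [real_inner_comm (B 1) y, real_inner_comm (B 2) y]
  simpa using this.symm

/-- bounded subsets of a plane through the origin have finite area. -/
theorem area_lt_top_of_bounded (v : E3) (hv : ‖v‖ = 1) (S : Set E3)
    (hS : ∀ y ∈ S, inner ℝ y v = 0) (hb : Bornology.IsBounded S) : μHE[2] S < ⊤ := by
  obtain ⟨f₁, f₂, n1, n2, h12, -, -, hrep⟩ := exists_frame v hv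
  obtain ⟨r, hr⟩ := hb.subset_closedBall (0 : E3)
  have hsub : S ⊆ (fun x : E2 => (0 : E3) + x 0 • f₁ + x 1 • f₂) '' (Metric.closedBall 0 (2 * r)) := by
    intro y hy
    have hyr : ‖y‖ ≤ r := by simpa using hr hy
    refine ⟨!₂[inner ℝ y f₁, inner ℝ y f₂], ?_, ?_⟩
    · rw [mem_closedBall_zero_iff]
      have a1 : |inner ℝ y f₁| ≤ r := by
        have := abs_real_inner_le_norm y f₁; rw [n1, mul_one] at this; linarith
      have a2 : |inner ℝ y f₂| ≤ r := by
        have := abs_real_inner_le_norm y f₂; rw [n2, mul_one] at this; linarith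
      have hr0 : 0 ≤ r := le_trans (norm_nonneg _) hyr
      have : ‖(!₂[inner ℝ y f₁, inner ℝ y f₂] : E2)‖ ^ 2 ≤ (2 * r) ^ 2 := by
        rw [EuclideanSpace.norm_sq_eq, Fin.sum_univ_two]
        simp only [Real.norm_eq_abs, sq_abs]
        have b1 := sq_le_sq' (by linarith [neg_abs_le (inner ℝ y f₁)]) (le_trans (le_abs_self _) a1)
        have b2 := sq_le_sq' (by linarith [neg_abs_le (inner ℝ y f₂)]) (le_trans (le_abs_self _) a2)
        simp at b1 b2 ⊢
        nlinarith
      exact (pow_le_pow_iff_left₀ (norm_nonneg _) (by positivity) two_ne_zero).1 this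
    · simpa using (hrep y (hS y hy)).symm
  refine lt_of_le_of_lt (measure_mono hsub) ?_
  rw [area_image]
  exact ENNReal.mul_lt_top ENNReal.ofReal_lt_top measure_closedBall_lt_top

end Crest.Agent.Lib_helper4_CylArea

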