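import Crest.Agent.Lib_helper4_CylArea

/-!
Lemmas for S0328 (radial sweep).
-/

set_option autoImplicit false

open MeasureTheory Set
open scoped Interval
open Crest.Agent.Lib_helper4_CylArea

namespace Crest.Agent.Lib_helper4_CylSweep

/-- decomposition of the increment of the direction field. -/
theorem w_decomp {a b : E3} {α β : ℝ} {w : ℝ → E3} {lam : ℝ → ℝ}
    (hlam : ContinuousOn lam (Icc α β))
    (hw' : ∀ t ∈ Icc α β, HasDerivWithinAt w (lam t • (a + t • b)) (Icc α β) t)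
    {M : ℝ} (hM : ∀ t ∈ Icc α β, |lam t| ≤ M)
    {c τ : ℝ} (hc : c ∈ Icc α β) (hτ : τ ∈ Icc α β) :
    ∃ Λ₀ Λ₁ : ℝ, w τ - w c = Λ₀ • (a + c • b) + Λ₁ • b ∧ |Λ₀| ≤ M * |τ - c| ∧
      |Λ₁| ≤ M * |τ - c| ^ 2 := by
  have hsub : uIcc c τ ⊆ Icc α β := by
    intro x hx
    rcases le_total c τ with h | h
    · rw [uIcc_of_le h] at hx; exact ⟨hc.1.trans hx.1, hx.2.trans hτ.2⟩
    · rw [uIcc_of_ge h] at hx; exact ⟨hτ.1.trans hx.1, hx.2.trans hc.2⟩
  have hsub' : Ι c τ ⊆ Icc α β := fun x hx => hsub (uIoc_subset_uIcc hx)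
  have hcont : ContinuousOn w (uIcc c τ) := fun x hx =>
    ((hw' x (hsub hx)).continuousWithinAt).mono hsub
  have hl1 : ContinuousOn lam (uIcc c τ) := hlam.mono hsub
  have hi1 : IntervalIntegrable lam volume c τ := hl1.intervalIntegrable
  have hi2 : IntervalIntegrable (fun σ => lam σ * (σ - c)) volume c τ :=
    (hl1.mul (by fun_prop)).intervalIntegrable
  have hj1 : IntervalIntegrable (fun σ => lam σ • (a + c • b)) volume c τ :=
    (hl1.smul continuousOn_const).intervalIntegrable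
  have hj2 : IntervalIntegrable (fun σ => (lam σ * (σ - c)) • b) volume c τ :=
    ((hl1.mul (by fun_prop)).smul continuousOn_const).intervalIntegrable
  have hderiv : ∀ x ∈ Ioo (min c τ) (max c τ),
      HasDerivWithinAt w (lam x • (a + x • b)) (Ioi x) x := by
    intro x hx
    have hx' : x ∈ Ioo α β := by
      constructor
      · exact lt_of_le_of_lt (le_min hc.1 hτ.1) hx.1
      · exact lt_of_lt_of_le hx.2 (max_le hc.2 hτ.2)
    exact ((hw' x ⟨hx'.1.le, hx'.2.le⟩).hasDerivAt (Icc_mem_nhds hx'.1 hx'.2)).hasDerivWithinAt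
  have hfun : (fun x => lam x • (a + x • b)) =
      fun x => lam x • (a + c • b) + (lam x * (x - c)) • b := by
    funext x
    simp only [smul_add, smul_smul, mul_sub, sub_smul]
    abel
  have hint : IntervalIntegrable (fun x => lam x • (a + x • b)) volume c τ := by
    rw [hfun]
    exact hj1.add hj2
  have hFTC := intervalIntegral.integral_eq_sub_of_hasDeriv_right hcont hderiv hint
  refine ⟨∫ σ in c..τ, lam σ, ∫ σ in c..τ, lam σ * (σ - c), ?_, ?_, ?_⟩
  · rw [← hFTC, hfun, intervalIntegral.integral_add hj1 hj2,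
      intervalIntegral.integral_smul_const, intervalIntegral.integral_smul_const]
  · have := intervalIntegral.norm_integral_le_of_norm_le_const (a := c) (b := τ) (C := M)
      (f := lam) (fun x hx => by simpa using hM x (hsub' hx))
    simpa using this
  · have := intervalIntegral.norm_integral_le_of_norm_le_const (a := c) (b := τ)
      (C := M * |τ - c|) (f := fun σ => lam σ * (σ - c)) (fun x hx => by
        rw [Real.norm_eq_abs, abs_mul]
        have h1 := hM x (hsub' hx)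
        have h2 : |x - c| ≤ |τ - c| := by
          rcases le_total c τ with h | h
          · rw [uIoc_of_le h] at hx
            rw [abs_of_nonneg (by linarith [hx.1]), abs_of_nonneg (by linarith)]
            linarith [hx.2]
          · rw [uIoc_of_ge h] at hx
            rw [abs_of_nonpos (by linarith [hx.2]), abs_of_nonpos (by linarith)]
            linarith [hx.1]
        exact mul_le_mul h1 h2 (abs_nonneg _) (le_trans (abs_nonneg _) h1))
    rw [Real.norm_eq_abs] at this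
    calc _ ≤ M * |τ - c| * |τ - c| := this
      _ = _ := by ring


/-- membership in the outer triangle (before projection). -/
theorem mem_outer_tri (p₀ a' b : E3) {ξ₀ W mp mm ξ ζ : ℝ} (hW : 0 < W) (hm : 0 < mp + mm)
    (h1 : ξ₀ ≤ ξ) (h2 : ξ ≤ ξ₀ + W) (h3 : -((ξ - ξ₀) * mm) ≤ ζ) (h4 : ζ ≤ (ξ - ξ₀) * mp) :
    p₀ + ξ • a' + ζ • b ∈ convexHull ℝ {p₀ + ξ₀ • a', p₀ + ξ₀ • a' + W • (a' + mp • b),
      p₀ + ξ₀ • a' + W • (a' - mm • b)} := by
  rw [tri_eq_image]
  set s : ℝ := (ζ + (ξ - ξ₀) * mm) / (W * (mp + mm)) with hs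
  set t : ℝ := ((ξ - ξ₀) * mp - ζ) / (W * (mp + mm)) with ht
  have hD : 0 < W * (mp + mm) := mul_pos hW hm
  have hs0 : 0 ≤ s := div_nonneg (by linarith) hD.le
  have ht0 : 0 ≤ t := div_nonneg (by linarith) hD.le
  have hst : s + t = (ξ - ξ₀) / W := by
    rw [hs, ht]; field_simp; ring
  have hst1 : s + t ≤ 1 := by
    rw [hst, div_le_one hW]; linarith
  have hA : ξ₀ + s * W + t * W = ξ := by
    have : (s + t) * W = ξ - ξ₀ := by rw [hst]; field_simp
    linarith
  have hB : s * W * mp - t * W * mm = ζ := by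
    rw [hs, ht]; field_simp; ring
  refine ⟨!₂[s, t], ⟨by simpa using hs0, by simpa using ht0, by simpa using hst1⟩, ?_⟩
  simp only [PiLp.toLp_apply, Matrix.cons_val_zero, Matrix.cons_val_one, add_sub_cancel_left]
  linear_combination (norm := module) hA • a' + hB • b


theorem det3_eq_zero_of_perp (e a b w : E3) (he : ‖e‖ = 1) (ha : inner ℝ a e = 0)
    (hb : inner ℝ b e = 0) (hw : inner ℝ w e = 0) : det3 a b w = 0 := by
  have hn : e 0 ^ 2 + e 1 ^ 2 + e 2 ^ 2 = 1 := by rw [← normsq3, he]; norm_num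
  rw [inner3] at ha hb hw
  have h0 : det3 a b w * e 0 = 0 := by
    unfold det3
    linear_combination (b 1 * w 2 - b 2 * w 1) * ha - (a 1 * w 2 - a 2 * w 1) * hb
      + (a 1 * b 2 - a 2 * b 1) * hw
  have h1 : det3 a b w * e 1 = 0 := by
    unfold det3
    linear_combination (-(b 0 * w 2 - b 2 * w 0)) * ha + (a 0 * w 2 - a 2 * w 0) * hb
      - (a 0 * b 2 - a 2 * b 0) * hw
  have h2 : det3 a b w * e 2 = 0 := by
    unfold det3
    linear_combination (b 0 * w 1 - b 1 * w 0) * ha - (a 0 * w 1 - a 1 * w 0) * hb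
      + (a 0 * b 1 - a 1 * b 0) * hw
  have : det3 a b w = det3 a b w * e 0 * e 0 + det3 a b w * e 1 * e 1 + det3 a b w * e 2 * e 2 := by
    linear_combination (-(det3 a b w)) * hn
  rw [this, h0, h1, h2]; ring

theorem abs_det3_perp (e a b : E3) (he : ‖e‖ = 1) (ha : inner ℝ a e = 0)
    (hb : inner ℝ b e = 0) : |det3 a b e| = Real.sqrt (gram a b) := by
  have h := sqrt_gram_proj e a b he
  simp only [proj, ha, hb, zero_smul, sub_zero] at h
  exact h.symm

theorem norm_axis (e w : E3) (he : ‖e‖ = 1) (hw : inner ℝ w e = 0) :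
    ‖e + w‖ = Real.sqrt (1 + ‖w‖ ^ 2) := by
  have : ‖e + w‖ ^ 2 = 1 + ‖w‖ ^ 2 := by
    rw [norm_add_sq_real, he, real_inner_comm, hw]; ring
  rw [← this, Real.sqrt_sq (norm_nonneg _)]

theorem norm_axis_pos (e w : E3) (he : ‖e‖ = 1) (hw : inner ℝ w e = 0) : 0 < ‖e + w‖ := by
  rw [norm_axis e w he hw]; positivity

/-- the normalised axis -/
noncomputable def axis (e w : E3) : E3 := ‖e + w‖⁻¹ • (e + w)

theorem norm_axis_unit (e w : E3) (he : ‖e‖ = 1) (hw : inner ℝ w e = 0) : ‖axis e w‖ = 1 := by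
  have h := norm_axis_pos e w he hw
  rw [axis, norm_smul, norm_inv, norm_norm, inv_mul_cancel₀ h.ne']

/-- the projection used in S0328 is `proj` along the normalised axis. -/
theorem proj_axis (e w y : E3) (he : ‖e‖ = 1) (hw : inner ℝ w e = 0) :
    y - (inner ℝ y (e + w) / ‖e + w‖ ^ 2) • (e + w) = proj (axis e w) y := by
  have h := norm_axis_pos e w he hw
  simp only [proj, axis, inner_smul_right, smul_smul]
  congr 2
  field_simp

/-- area of the projection (along the axis `e + w`) of a triangle lying in a plane parallel to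
`e^⊥`. -/
theorem area_proj_plane (e a b w P : E3) (he : ‖e‖ = 1) (ha : inner ℝ a e = 0)
    (hb : inner ℝ b e = 0) (hw : inner ℝ w e = 0) (x₁ y₁ x₂ y₂ : ℝ) :
    (μHE[2] (convexHull ℝ {proj (axis e w) P, proj (axis e w) (P + (x₁ • a + y₁ • b)),
      proj (axis e w) (P + (x₂ • a + y₂ • b))})).toReal =
      Real.sqrt (gram a b) * (|x₁ * y₂ - x₂ * y₁| / (2 * Real.sqrt (1 + ‖w‖ ^ 2))) := by
  rw [area_proj_tri _ _ _ _ (norm_axis_unit e w he hw), ENNReal.toReal_ofReal (by positivity)]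
  have h0 := det3_eq_zero_of_perp e a b w he ha hb hw
  have hd : det3 (P + (x₁ • a + y₁ • b) - P) (P + (x₂ • a + y₂ • b) - P) (axis e w) =
      (x₁ * y₂ - x₂ * y₁) * ‖e + w‖⁻¹ * (det3 a b e + det3 a b w) := by
    simp only [det3, axis, PiLp.add_apply, PiLp.sub_apply, PiLp.smul_apply, smul_eq_mul]
    ring
  rw [hd, h0, add_zero, abs_mul, abs_mul, abs_det3_perp e a b he ha hb, abs_inv, abs_norm,
    norm_axis e w he hw]
  field_simp


/-! ### Riemann sums over `Fin`-indexed partitions -/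

section Riemann

variable {α β : ℝ} {N : ℕ} (t : Fin (N + 1) → ℝ)

theorem part_mem (hmono : StrictMono t) (h0 : t 0 = α) (hN : t (Fin.last N) = β)
    (j : Fin (N + 1)) : t j ∈ Icc α β :=
  ⟨h0 ▸ hmono.monotone (Fin.zero_le j), hN ▸ hmono.monotone (Fin.le_last j)⟩

theorem part_sub (hmono : StrictMono t) (h0 : t 0 = α) (hN : t (Fin.last N) = β)
    (i : Fin N) : Icc (t i.castSucc) (t i.succ) ⊆ Icc α β := fun _ hx =>
  ⟨(part_mem t hmono h0 hN _).1.trans hx.1, hx.2.trans (part_mem t hmono h0 hN _).2⟩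

theorem part_lt (hmono : StrictMono t) (i : Fin N) : t i.castSucc < t i.succ :=
  hmono (Fin.castSucc_lt_succ)

theorem sum_lengths (h0 : t 0 = α) (hN : t (Fin.last N) = β) :
    ∑ i : Fin N, (t i.succ - t i.castSucc) = β - α := by
  let t' : ℕ → ℝ := fun k => t ⟨min k N, Nat.lt_succ_of_le (min_le_right _ _)⟩
  have e : ∀ i : Fin N, t i.succ - t i.castSucc = t' (i + 1) - t' i := by
    intro i
    have h1 : min (i : ℕ) N = i := min_eq_left i.2.le
    have h2 : min ((i : ℕ) + 1) N = i + 1 := min_eq_left i.2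
    simp only [t']
    congr 2 <;> ext <;> simp [h1, h2]
  simp_rw [e]
  rw [Fin.sum_univ_eq_sum_range (fun k => t' (k + 1) - t' k), Finset.sum_range_sub]
  have a0 : t' 0 = α := by simp only [t']; rw [← h0]; congr 1
  have aN : t' N = β := by simp only [t']; rw [← hN]; congr 1; ext; simp
  rw [a0, aN]

theorem sum_integrals (hmono : StrictMono t) (h0 : t 0 = α) (hN : t (Fin.last N) = β)
    (g : ℝ → ℝ) (hg : ContinuousOn g (Icc α β)) :
    ∑ i : Fin N, ∫ τ in (t i.castSucc)..(t i.succ), g τ = ∫ τ in α..β, g τ := by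
  let t' : ℕ → ℝ := fun k => t ⟨min k N, Nat.lt_succ_of_le (min_le_right _ _)⟩
  have e1 : ∀ i : Fin N, t i.succ = t' (i + 1) := by
    intro i
    have h2 : min ((i : ℕ) + 1) N = i + 1 := min_eq_left i.2
    simp only [t']
    congr 1; ext; simp [h2]
  have e2 : ∀ i : Fin N, t i.castSucc = t' i := by
    intro i
    have h1 : min (i : ℕ) N = i := min_eq_left i.2.le
    simp only [t']
    congr 1; ext; simp [h1]
  simp_rw [e1, e2]
  rw [Fin.sum_univ_eq_sum_range (fun k => ∫ τ in (t' k)..(t' (k + 1)), g τ)]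
  have a0 : t' 0 = α := by simp only [t']; rw [← h0]; congr 1
  have aN : t' N = β := by simp only [t']; rw [← hN]; congr 1; ext; simp
  rw [intervalIntegral.sum_integral_adjacent_intervals, a0, aN]
  intro k _
  apply ContinuousOn.intervalIntegrable
  apply hg.mono
  intro x hx
  have m1 := part_mem t hmono h0 hN ⟨min k N, Nat.lt_succ_of_le (min_le_right _ _)⟩
  have m2 := part_mem t hmono h0 hN ⟨min (k + 1) N, Nat.lt_succ_of_le (min_le_right _ _)⟩
  rcases le_total (t' k) (t' (k + 1)) with h | h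
  · rw [uIcc_of_le h] at hx; exact ⟨m1.1.trans hx.1, hx.2.trans m2.2⟩
  · rw [uIcc_of_ge h] at hx; exact ⟨m2.1.trans hx.1, hx.2.trans m1.2⟩

theorem sum_close (hmono : StrictMono t) (h0 : t 0 = α) (hN : t (Fin.last N) = β)
    (g : ℝ → ℝ) (hg : ContinuousOn g (Icc α β)) (G : Fin N → ℝ) (E : ℝ)
    (h : ∀ i : Fin N, ∀ τ ∈ Icc (t i.castSucc) (t i.succ), |G i - g τ| ≤ E) :
    |∑ i, G i * (t i.succ - t i.castSucc) - ∫ τ in α..β, g τ| ≤ E * (β - α) := by
  rw [← sum_integrals t hmono h0 hN g hg, ← Finset.sum_sub_distrib, ← sum_lengths t h0 hN,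
    Finset.mul_sum]
  refine (Finset.abs_sum_le_sum_abs _ _).trans (Finset.sum_le_sum fun i _ => ?_)
  have hlt := part_lt t hmono i
  have hgi : IntervalIntegrable g volume (t i.castSucc) (t i.succ) := by
    apply ContinuousOn.intervalIntegrable
    rw [uIcc_of_le hlt.le]
    exact hg.mono (part_sub t hmono h0 hN i)
  have e : G i * (t i.succ - t i.castSucc) - ∫ τ in (t i.castSucc)..(t i.succ), g τ =
      ∫ τ in (t i.castSucc)..(t i.succ), (G i - g τ) := by
    rw [intervalIntegral.integral_sub (by simp) hgi, intervalIntegral.integral_const]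
    simp [mul_comm]
  rw [e]
  have := intervalIntegral.norm_integral_le_of_norm_le_const (a := t i.castSucc) (b := t i.succ)
    (C := E) (f := fun τ => G i - g τ) (fun x hx => by
      rw [uIoc_of_le hlt.le] at hx
      exact h i x ⟨hx.1.le, hx.2⟩)
  rw [Real.norm_eq_abs, abs_of_pos (sub_pos.2 hlt)] at this
  exact this

end Riemann


/-! ### one piece of the sweep -/

/-- every point of a piece of the sweep lies in the cylinder over the outer triangle. -/
theorem piece_outer {e a b p₀ : E3} {α β L M θ ω : ℝ} {R lam : ℝ → ℝ} {w : ℝ → E3}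
    (hlam : ContinuousOn lam (Icc α β))
    (hw' : ∀ t ∈ Icc α β, HasDerivWithinAt w (lam t • (a + t • b)) (Icc α β) t)
    (hM : ∀ t ∈ Icc α β, |lam t| ≤ M) (hM0 : 0 ≤ M) (hL : 0 < L) (hθ : 0 < θ)
    {c tm tp : ℝ} (htm : tm ∈ Icc α β) (htp : tp ∈ Icc α β) (h1 : tm ≤ c) (h2 : c ≤ tp)
    (hlt : tm < tp) (hRc : 0 ≤ R c) (hω : 0 < ω)
    (hR : ∀ τ ∈ Icc tm tp, R τ ≤ R c + ω) {X : E3}
    (hX : ∃ τ ∈ Icc tm tp, ∃ ρ ∈ Icc 0 (R τ), ∃ s : ℝ, |s| ≤ L ∧
      X = p₀ + ρ • (a + τ • b) + s • (e + w τ)) :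
    ∃ y ∈ convexHull ℝ {p₀ + (-(L * M * (tp - tm) + L * M * (tp - tm) / θ)) • (a + c • b),
        p₀ + (-(L * M * (tp - tm) + L * M * (tp - tm) / θ)) • (a + c • b) +
          (R c + ω + 2 * (L * M * (tp - tm)) + L * M * (tp - tm) / θ) •
            ((a + c • b) + ((tp - c) + θ * (tp - tm)) • b),
        p₀ + (-(L * M * (tp - tm) + L * M * (tp - tm) / θ)) • (a + c • b) +
          (R c + ω + 2 * (L * M * (tp - tm)) + L * M * (tp - tm) / θ) •
            ((a + c • b) - ((c - tm) + θ * (tp - tm)) • b)},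
      ∃ σ : ℝ, X = y + σ • (e + w c) := by
  obtain ⟨τ, hτ, ρ, hρ, s, hs, rfl⟩ := hX
  have hcI : c ∈ Icc α β := ⟨htm.1.trans h1, h2.trans htp.2⟩
  have hτI : τ ∈ Icc α β := ⟨htm.1.trans hτ.1, hτ.2.trans htp.2⟩
  obtain ⟨Λ₀, Λ₁, hdec, hΛ₀, hΛ₁⟩ := w_decomp hlam hw' hM hcI hτI
  set Δ := tp - tm with hΔ
  have hΔ0 : 0 < Δ := sub_pos.2 hlt
  set h := L * M * Δ with hh
  have hh0 : 0 ≤ h := by positivity
  have hτc : |τ - c| ≤ Δ := by
    rw [abs_le]; constructor <;> linarith [hτ.1, hτ.2]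
  have hsΛ₀ : |s * Λ₀| ≤ h := by
    rw [abs_mul]
    calc |s| * |Λ₀| ≤ L * (M * |τ - c|) := mul_le_mul hs hΛ₀ (abs_nonneg _) hL.le
      _ ≤ L * (M * Δ) := by gcongr
      _ = h := by rw [hh]; ring
  have hsΛ₁ : |s * Λ₁| ≤ h * Δ := by
    rw [abs_mul]
    calc |s| * |Λ₁| ≤ L * (M * |τ - c| ^ 2) := mul_le_mul hs hΛ₁ (abs_nonneg _) hL.le
      _ ≤ L * (M * Δ ^ 2) := by gcongr
      _ = h * Δ := by rw [hh]; ring
  have a0 := abs_le.1 hsΛ₀
  have a1 := abs_le.1 hsΛ₁
  have hhθ : 0 ≤ h / θ := div_nonneg hh0 hθ.le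
  have hθh : h / θ * θ = h := by field_simp
  have hρ0 := hρ.1
  have hρ1 : ρ ≤ R c + ω := hρ.2.trans (hR τ hτ)
  refine ⟨p₀ + (ρ + s * Λ₀) • (a + c • b) + (ρ * (τ - c) + s * Λ₁) • b, ?_, s, ?_⟩
  · apply mem_outer_tri
    · linarith
    · have : 0 < θ * Δ := mul_pos hθ hΔ0
      linarith
    · linarith
    · linarith
    · -- lower bound for ζ
      have e1 : ρ + s * Λ₀ - -(h + h / θ) = (ρ + s * Λ₀ + h) + h / θ := by ring
      rw [e1]
      have k1 : 0 ≤ ρ + s * Λ₀ + h := by linarith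
      have k2 : ρ ≤ ρ + s * Λ₀ + h := by linarith
      have k3 : 0 ≤ c - tm := by linarith
      have k4 : -(ρ * (c - tm)) ≤ ρ * (τ - c) := by nlinarith [hτ.1]
      have k5 : ρ * (c - tm) ≤ (ρ + s * Λ₀ + h) * (c - tm) := mul_le_mul_of_nonneg_right k2 k3
      have k6 : 0 ≤ (ρ + s * Λ₀ + h) * (θ * Δ) := by positivity
      have k7 : 0 ≤ h / θ * (c - tm) := by positivity
      have k8 : h / θ * (θ * Δ) = h * Δ := by rw [← mul_assoc, hθh]
      nlinarith
    · have e1 : ρ + s * Λ₀ - -(h + h / θ) = (ρ + s * Λ₀ + h) + h / θ := by ring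
      rw [e1]
      have k1 : 0 ≤ ρ + s * Λ₀ + h := by linarith
      have k2 : ρ ≤ ρ + s * Λ₀ + h := by linarith
      have k3 : 0 ≤ tp - c := by linarith
      have k4 : ρ * (τ - c) ≤ ρ * (tp - c) := by nlinarith [hτ.2]
      have k5 : ρ * (tp - c) ≤ (ρ + s * Λ₀ + h) * (tp - c) := mul_le_mul_of_nonneg_right k2 k3
      have k6 : 0 ≤ (ρ + s * Λ₀ + h) * (θ * Δ) := by positivity
      have k7 : 0 ≤ h / θ * (tp - c) := by positivity
      have k8 : h / θ * (θ * Δ) = h * Δ := by rw [← mul_assoc, hθh]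
      nlinarith
  · have hw2 : w τ = w c + (Λ₀ • (a + c • b) + Λ₁ • b) := by rw [← hdec]; abel
    rw [hw2]
    module


/-- the inner triangle is contained in the piece. -/
theorem piece_inner {e a b p₀ : E3} {L r : ℝ} {R : ℝ → ℝ} {w : ℝ → E3} (hL : 0 < L)
    {tm tp : ℝ} (hlt : tm < tp) (hr0 : 0 ≤ r) (hr : ∀ τ ∈ Icc tm tp, r ≤ R τ) :
    convexHull ℝ {p₀, p₀ + (r • a + (r * tm) • b), p₀ + (r • a + (r * tp) • b)} ⊆
      {x : E3 | ∃ τ ∈ Icc tm tp, ∃ ρ ∈ Icc 0 (R τ), ∃ s : ℝ, |s| ≤ L ∧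
        x = p₀ + ρ • (a + τ • b) + s • (e + w τ)} := by
  rw [tri_eq_image]
  rintro _ ⟨x, ⟨h0, h1, h2⟩, rfl⟩
  rcases (add_nonneg h0 h1).eq_or_lt with h | h
  · have e0 : x 0 = 0 := by linarith
    have e1 : x 1 = 0 := by linarith
    refine ⟨tm, ⟨le_rfl, hlt.le⟩, 0, ⟨le_rfl, hr0.trans (hr tm ⟨le_rfl, hlt.le⟩)⟩, 0,
      by simpa using hL.le, ?_⟩
    simp [e0, e1]
  · set τ : ℝ := (x 0 * tm + x 1 * tp) / (x 0 + x 1) with hτ
    have hτm : τ ∈ Icc tm tp := by
      constructor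
      · rw [hτ, le_div_iff₀ h]; nlinarith
      · rw [hτ, div_le_iff₀ h]; nlinarith
    refine ⟨τ, hτm, r * (x 0 + x 1), ⟨by positivity, ?_⟩, 0, by simpa using hL.le, ?_⟩
    · calc r * (x 0 + x 1) ≤ r * 1 := by gcongr
        _ = r := mul_one r
        _ ≤ R τ := hr τ hτm
    · have key : r * (x 0 + x 1) * τ = r * (x 0 * tm + x 1 * tp) := by
        rw [hτ]; field_simp
      simp only [add_sub_cancel_left, zero_smul, add_zero]
      linear_combination (norm := module) (-key) • b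

theorem gram_pos_of_linearIndependent {a b : E3} (hab : LinearIndependent ℝ ![a, b]) :
    0 < gram a b := by
  rw [LinearIndependent.pair_iff] at hab
  have ha : a ≠ 0 := by
    rintro rfl
    have := hab 1 0 (by simp)
    exact one_ne_zero this.1
  have hna : 0 < ‖a‖ ^ 2 := by positivity
  have key : ‖(-(inner ℝ a b)) • a + (‖a‖ ^ 2) • b‖ ^ 2 = ‖a‖ ^ 2 * gram a b := by
    rw [norm_add_sq_real, norm_smul, norm_smul, inner_smul_left, inner_smul_right]
    simp only [Real.norm_eq_abs, mul_pow, sq_abs, gram]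
    simp
    ring
  rcases (gram_nonneg a b).eq_or_lt with h | h
  · exfalso
    rw [← h, mul_zero] at key
    have hz : (-(inner ℝ a b)) • a + (‖a‖ ^ 2) • b = 0 := by
      have := pow_eq_zero_iff (two_ne_zero) |>.1 key
      exact norm_eq_zero.1 this
    exact hna.ne' (hab _ _ hz).2
  · exact h

theorem affineIndependent_of_area_pos {p q r : E3}
    (h : 0 < (μHE[2] (convexHull ℝ {p, q, r})).toReal) : AffineIndependent ℝ ![p, q, r] := by
  rw [affineIndependent_iff_not_collinear_set]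
  intro hcol
  rw [collinear_iff_of_mem (p₀ := p) (by simp)] at hcol
  obtain ⟨v, hv⟩ := hcol
  obtain ⟨x, hx⟩ := hv q (by simp)
  obtain ⟨y, hy⟩ := hv r (by simp)
  rw [area_tri_toReal] at h
  have : gram (q - p) (r - p) = 0 := by
    rw [hx, hy]
    simp only [vadd_eq_add, add_sub_cancel_right, gram, norm_smul, inner_smul_left,
      inner_smul_right, real_inner_self_eq_norm_sq]
    simp only [Real.norm_eq_abs, mul_pow, sq_abs]
    simp
    ring
  rw [this] at h
  simp at h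


/-- everything we need about one piece. -/
theorem piece_summary {e a b p₀ : E3} (he : ‖e‖ = 1) (ha : inner ℝ a e = 0) (hb : inner ℝ b e = 0)
    (hab : LinearIndependent ℝ ![a, b])
    {α β L M θ ω r : ℝ} {R lam : ℝ → ℝ} {w : ℝ → E3}
    (hw : ∀ t ∈ Icc α β, inner ℝ (w t) e = 0)
    (hlam : ContinuousOn lam (Icc α β))
    (hw' : ∀ t ∈ Icc α β, HasDerivWithinAt w (lam t • (a + t • b)) (Icc α β) t)
    (hM : ∀ t ∈ Icc α β, |lam t| ≤ M) (hM0 : 0 ≤ M) (hL : 0 < L) (hθ : 0 < θ)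
    {c tm tp : ℝ} (htm : tm ∈ Icc α β) (htp : tp ∈ Icc α β) (h1 : tm ≤ c) (h2 : c ≤ tp)
    (hlt : tm < tp) (hRc : 0 ≤ R c) (hω : 0 < ω)
    (hR : ∀ τ ∈ Icc tm tp, R τ ≤ R c + ω) (hr0 : 0 ≤ r) (hr : ∀ τ ∈ Icc tm tp, r ≤ R τ) :
    ∃ p q r' : E3,
      (inner ℝ p (e + w c) = 0 ∧ inner ℝ q (e + w c) = 0 ∧ inner ℝ r' (e + w c) = 0) ∧
      AffineIndependent ℝ ![p, q, r'] ∧
      ({x : E3 | ∃ τ ∈ Icc tm tp, ∃ ρ ∈ Icc 0 (R τ), ∃ s : ℝ, |s| ≤ L ∧
          x = p₀ + ρ • (a + τ • b) + s • (e + w τ)} ⊆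
        {x : E3 | ∃ y ∈ convexHull ℝ {p, q, r'}, ∃ σ : ℝ, x = y + σ • (e + w c)}) ∧
      (μHE[2] (convexHull ℝ ({p, q, r'} : Set E3))).toReal =
        Real.sqrt (gram a b) *
          ((R c + ω + 2 * (L * M * (tp - tm)) + L * M * (tp - tm) / θ) ^ 2 * (1 + 2 * θ) /
            (2 * Real.sqrt (1 + ‖w c‖ ^ 2)) * (tp - tm)) ∧
      (μHE[2] ((fun y => y - (inner ℝ y (e + w c) / ‖e + w c‖ ^ 2) • (e + w c)) ''
          {x : E3 | ∃ τ ∈ Icc tm tp, ∃ ρ ∈ Icc 0 (R τ), ∃ s : ℝ, |s| ≤ L ∧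
            x = p₀ + ρ • (a + τ • b) + s • (e + w τ)})).toReal ≤
        Real.sqrt (gram a b) *
          ((R c + ω + 2 * (L * M * (tp - tm)) + L * M * (tp - tm) / θ) ^ 2 * (1 + 2 * θ) /
            (2 * Real.sqrt (1 + ‖w c‖ ^ 2)) * (tp - tm)) ∧
      Real.sqrt (gram a b) * (r ^ 2 / (2 * Real.sqrt (1 + ‖w c‖ ^ 2)) * (tp - tm)) ≤
        (μHE[2] ((fun y => y - (inner ℝ y (e + w c) / ‖e + w c‖ ^ 2) • (e + w c)) ''
          {x : E3 | ∃ τ ∈ Icc tm tp, ∃ ρ ∈ Icc 0 (R τ), ∃ s : ℝ, |s| ≤ L ∧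
            x = p₀ + ρ • (a + τ • b) + s • (e + w τ)})).toReal := by
  have hcI : c ∈ Icc α β := ⟨htm.1.trans h1, h2.trans htp.2⟩
  have hwc := hw c hcI
  have hκ : 0 < Real.sqrt (gram a b) := Real.sqrt_pos.2 (gram_pos_of_linearIndependent hab)
  have hΔ0 : 0 < tp - tm := sub_pos.2 hlt
  set W : ℝ := R c + ω + 2 * (L * M * (tp - tm)) + L * M * (tp - tm) / θ with hW
  have hW0 : 0 < W := by
    have : 0 ≤ L * M * (tp - tm) := by positivity
    have : 0 ≤ L * M * (tp - tm) / θ := by positivity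
    rw [hW]; linarith
  set ξ₀ : ℝ := -(L * M * (tp - tm) + L * M * (tp - tm) / θ) with hξ₀
  set mp : ℝ := (tp - c) + θ * (tp - tm) with hmp
  set mm : ℝ := (c - tm) + θ * (tp - tm) with hmm
  set u := axis e (w c) with hu
  have hu1 : ‖u‖ = 1 := norm_axis_unit e (w c) he hwc
  have hnpos := norm_axis_pos e (w c) he hwc
  set P : E3 := p₀ + ξ₀ • (a + c • b) with hP
  have hQ : P + W • ((a + c • b) + mp • b) = P + (W • a + (W * (c + mp)) • b) := by module
  have hR' : P + W • ((a + c • b) - mm • b) = P + (W • a + (W * (c - mm)) • b) := by module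
  have hperp : ∀ y : E3, inner ℝ (proj u y) (e + w c) = 0 := by
    intro y
    have h := inner_proj u y hu1
    rw [hu, axis, inner_smul_right] at h
    rcases mul_eq_zero.1 h with h | h
    · exact absurd h (inv_ne_zero hnpos.ne')
    · exact h
  have harea : (μHE[2] (convexHull ℝ ({proj u P, proj u (P + W • ((a + c • b) + mp • b)),
      proj u (P + W • ((a + c • b) - mm • b))} : Set E3))).toReal =
      Real.sqrt (gram a b) * (W ^ 2 * (1 + 2 * θ) / (2 * Real.sqrt (1 + ‖w c‖ ^ 2)) * (tp - tm)) := by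
    rw [hQ, hR', hu, area_proj_plane e a b (w c) P he ha hb hwc]
    have : W * (W * (c - mm)) - W * (W * (c + mp)) = -(W ^ 2 * ((1 + 2 * θ) * (tp - tm))) := by
      rw [hmp, hmm]; ring
    rw [this, abs_neg, abs_of_nonneg (by positivity)]
    ring
  have hpiece : ∀ X ∈ {x : E3 | ∃ τ ∈ Icc tm tp, ∃ ρ ∈ Icc 0 (R τ), ∃ s : ℝ, |s| ≤ L ∧
          x = p₀ + ρ • (a + τ • b) + s • (e + w τ)},
      ∃ y ∈ convexHull ℝ {P, P + W • ((a + c • b) + mp • b), P + W • ((a + c • b) - mm • b)},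
        ∃ σ : ℝ, X = y + σ • (e + w c) := fun X hX =>
    piece_outer hlam hw' hM hM0 hL hθ htm htp h1 h2 hlt hRc hω hR hX
  have hprojfun : (fun y => y - (inner ℝ y (e + w c) / ‖e + w c‖ ^ 2) • (e + w c)) = proj u := by
    funext y; exact proj_axis e (w c) y he hwc
  have hprojaxis : proj u (e + w c) = 0 := by
    have : e + w c = ‖e + w c‖ • u := by
      rw [hu, axis, smul_smul, mul_inv_cancel₀ hnpos.ne', one_smul]
    rw [this]
    simp [proj, inner_smul_left, real_inner_self_eq_norm_sq, hu1]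
  have hsubimg : proj u '' {x : E3 | ∃ τ ∈ Icc tm tp, ∃ ρ ∈ Icc 0 (R τ), ∃ s : ℝ, |s| ≤ L ∧
          x = p₀ + ρ • (a + τ • b) + s • (e + w τ)} ⊆
      convexHull ℝ ({proj u P, proj u (P + W • ((a + c • b) + mp • b)),
        proj u (P + W • ((a + c • b) - mm • b))} : Set E3) := by
    rintro _ ⟨X, hX, rfl⟩
    obtain ⟨y, hy, σ, rfl⟩ := hpiece X hX
    rw [← proj_image_tri]
    refine ⟨y, hy, ?_⟩
    have e1 : proj u (y + σ • (e + w c)) = proj u y + σ • proj u (e + w c) := by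
      have := (projL u).map_add y (σ • (e + w c))
      rw [(projL u).map_smul] at this
      exact this
    rw [e1, hprojaxis, smul_zero, add_zero]
    rfl
  have hfin : μHE[2] (convexHull ℝ ({proj u P, proj u (P + W • ((a + c • b) + mp • b)),
      proj u (P + W • ((a + c • b) - mm • b))} : Set E3)) ≠ ⊤ := by
    rw [area_tri]; exact ENNReal.ofReal_ne_top
  refine ⟨proj u P, proj u (P + W • ((a + c • b) + mp • b)),
    proj u (P + W • ((a + c • b) - mm • b)), ⟨hperp _, hperp _, hperp _⟩, ?_, ?_, harea, ?_, ?_⟩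
  · apply affineIndependent_of_area_pos
    rw [harea]; positivity
  · intro X hX
    obtain ⟨y, hy, σ, rfl⟩ := hpiece X hX
    obtain ⟨y', hy', σ', h'⟩ := mem_cyl_proj u _ _ _ (y + (σ * ‖e + w c‖) • u) ⟨y, hy, _, rfl⟩
    refine ⟨y', hy', σ' * ‖e + w c‖⁻¹, ?_⟩
    have e1 : (σ * ‖e + w c‖) • u = σ • (e + w c) := by
      rw [hu, axis, smul_smul, mul_assoc, mul_inv_cancel₀ hnpos.ne', mul_one]
    have e2 : σ' • u = (σ' * ‖e + w c‖⁻¹) • (e + w c) := by
      rw [hu, axis, smul_smul]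
    rw [← e1, h', e2]
  · rw [hprojfun, ← harea]
    exact ENNReal.toReal_mono hfin (measure_mono hsubimg)
  · rw [hprojfun]
    have hin := piece_inner (e := e) (a := a) (b := b) (p₀ := p₀) (w := w) hL hlt hr0 hr
    have himg : convexHull ℝ ({proj u p₀, proj u (p₀ + (r • a + (r * tm) • b)),
        proj u (p₀ + (r • a + (r * tp) • b))} : Set E3) ⊆
        proj u '' {x : E3 | ∃ τ ∈ Icc tm tp, ∃ ρ ∈ Icc 0 (R τ), ∃ s : ℝ, |s| ≤ L ∧
          x = p₀ + ρ • (a + τ • b) + s • (e + w τ)} := by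
      rw [← proj_image_tri]
      exact image_mono hin
    have hA : (μHE[2] (convexHull ℝ ({proj u p₀, proj u (p₀ + (r • a + (r * tm) • b)),
        proj u (p₀ + (r • a + (r * tp) • b))} : Set E3))).toReal =
        Real.sqrt (gram a b) * (r ^ 2 / (2 * Real.sqrt (1 + ‖w c‖ ^ 2)) * (tp - tm)) := by
      rw [hu, area_proj_plane e a b (w c) p₀ he ha hb hwc]
      have : r * (r * tp) - r * (r * tm) = r ^ 2 * (tp - tm) := by ring
      rw [this, abs_of_nonneg (by positivity)]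
      ring
    rw [← hA]
    exact ENNReal.toReal_mono (ne_top_of_le_ne_top hfin (measure_mono hsubimg)) (measure_mono himg)

end Crest.Agent.Lib_helper4_CylSweep
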