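import Crest.Agent.Lib_helper4_CylSweep

/-!
More lemmas for S0328: choice of constants, partitions cover the interval.
-/

set_option autoImplicit false

open MeasureTheory Set
open Crest.Agent.Lib_helper4_CylArea Crest.Agent.Lib_helper4_CylSweep

namespace Crest.Agent.Lib_helper4_CylSweep2

theorem part_cover {α β : ℝ} (hαβ : α < β) {N : ℕ} (t : Fin (N + 1) → ℝ) (h0 : t 0 = α)
    (hN : t (Fin.last N) = β) {τ : ℝ} (hτ : τ ∈ Icc α β) :
    ∃ i : Fin N, τ ∈ Icc (t i.castSucc) (t i.succ) := by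
  by_contra hcon
  push Not at hcon
  have key : ∀ j : Fin (N + 1), t j ≤ τ ∧ (j ≠ 0 → t j < τ) := by
    intro j
    induction j using Fin.induction with
    | zero => exact ⟨h0 ▸ hτ.1, fun h => absurd rfl h⟩
    | succ i ih =>
      have : t i.succ < τ := by
        by_contra hc
        exact hcon i ⟨ih.1, not_lt.1 hc⟩
      exact ⟨this.le, fun _ => this⟩
  by_cases hl : Fin.last N = 0
  · rw [hl, h0] at hN; exact hαβ.ne hN
  · have := (key (Fin.last N)).2 hl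
    rw [hN] at this
    exact absurd hτ.2 (not_le.2 this)

theorem consts (Rb η₀ L M : ℝ) (hRb : 0 ≤ Rb) (hη : 0 < η₀) (hL : 0 < L) (hM : 0 ≤ M) :
    ∃ θ ω δ₁ : ℝ, 0 < θ ∧ 0 < ω ∧ 0 < δ₁ ∧ ∀ Rc Δ n : ℝ, 0 ≤ Rc → Rc ≤ Rb → 0 < Δ → Δ ≤ δ₁ →
      1 ≤ n →
      |(Rc + ω + 2 * (L * M * Δ) + L * M * Δ / θ) ^ 2 * (1 + 2 * θ) / (2 * n) - Rc ^ 2 / (2 * n)|
          ≤ η₀ / 2 ∧
      |(max (Rc - ω) 0) ^ 2 / (2 * n) - Rc ^ 2 / (2 * n)| ≤ η₀ / 2 := by
  set θ : ℝ := min 1 (η₀ / (4 * (Rb + 1) ^ 2)) with hθd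
  have hθ : 0 < θ := lt_min one_pos (by positivity)
  set ω₁ : ℝ := min 1 (η₀ / (2 * (2 * Rb + 1))) with hω₁d
  have hω₁ : 0 < ω₁ := lt_min one_pos (by positivity)
  set B : ℝ := L * M * (2 + 1 / θ) with hB
  have hB0 : 0 ≤ B := by positivity
  refine ⟨θ, ω₁ / 2, ω₁ / (2 * (B + 1)), hθ, by positivity, by positivity, ?_⟩
  intro Rc Δ n hRc0 hRc hΔ0 hΔ hn
  have hθ1 : θ * (4 * (Rb + 1) ^ 2) ≤ η₀ := by
    have : θ ≤ η₀ / (4 * (Rb + 1) ^ 2) := min_le_right _ _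
    rwa [le_div_iff₀ (by positivity)] at this
  have hω1 : ω₁ ≤ 1 := min_le_left _ _
  have hω2 : ω₁ * (2 * (2 * Rb + 1)) ≤ η₀ := by
    have : ω₁ ≤ η₀ / (2 * (2 * Rb + 1)) := min_le_right _ _
    rwa [le_div_iff₀ (by positivity)] at this
  have hn0 : 0 < 2 * n := by linarith
  constructor
  · set ω' : ℝ := ω₁ / 2 + B * Δ with hω'
    have hW : Rc + ω₁ / 2 + 2 * (L * M * Δ) + L * M * Δ / θ = Rc + ω' := by
      rw [hω', hB]; field_simp; ring
    have hBΔ : B * Δ ≤ ω₁ / 2 := by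
      calc B * Δ ≤ B * (ω₁ / (2 * (B + 1))) := by gcongr
        _ = ω₁ / 2 * (B / (B + 1)) := by field_simp
        _ ≤ ω₁ / 2 * 1 := by
          gcongr
          rw [div_le_one (by positivity)]; linarith
        _ = ω₁ / 2 := mul_one _
    have hω'0 : 0 < ω' := by positivity
    have hω'1 : ω' ≤ ω₁ := by rw [hω']; linarith
    rw [hW, ← sub_div, abs_of_nonneg (div_nonneg (by nlinarith [sq_nonneg (Rc + ω')]) hn0.le),
      div_le_iff₀ hn0]
    have k1 : (Rc + ω') ^ 2 - Rc ^ 2 ≤ η₀ / 2 := by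
      have : (Rc + ω') ^ 2 - Rc ^ 2 = ω' * (2 * Rc + ω') := by ring
      rw [this]
      calc ω' * (2 * Rc + ω') ≤ ω₁ * (2 * Rb + 1) := by
            apply mul_le_mul hω'1 (by linarith) (by positivity) hω₁.le
        _ ≤ η₀ / 2 := by linarith
    have k2 : 2 * θ * (Rc + ω') ^ 2 ≤ η₀ / 2 := by
      have : (Rc + ω') ^ 2 ≤ (Rb + 1) ^ 2 := by
        apply pow_le_pow_left₀ (by positivity); linarith
      calc 2 * θ * (Rc + ω') ^ 2 ≤ 2 * θ * (Rb + 1) ^ 2 := by gcongr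
        _ ≤ η₀ / 2 := by linarith
    have k3 : η₀ ≤ η₀ / 2 * (2 * n) := by nlinarith
    nlinarith
  · set r : ℝ := max (Rc - ω₁ / 2) 0 with hr
    have hr0 : 0 ≤ r := le_max_right _ _
    have hr1 : r ≤ Rc := max_le (by linarith) hRc0
    have hr2 : Rc - ω₁ / 2 ≤ r := le_max_left _ _
    rw [← sub_div, abs_of_nonpos (div_nonpos_of_nonpos_of_nonneg (by nlinarith) hn0.le), ← neg_div,
      div_le_iff₀ hn0]
    have k1 : Rc ^ 2 - r ^ 2 ≤ η₀ / 2 := by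
      have : Rc ^ 2 - r ^ 2 = (Rc - r) * (Rc + r) := by ring
      rw [this]
      calc (Rc - r) * (Rc + r) ≤ ω₁ * (2 * Rb + 1) := by
            apply mul_le_mul (by linarith) (by linarith) (by positivity) hω₁.le
        _ ≤ η₀ / 2 := by linarith
    have k3 : η₀ / 2 ≤ η₀ / 2 * (2 * n) := by nlinarith
    linarith

end Crest.Agent.Lib_helper4_CylSweep2
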