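import Mathlib

/-!
Row 211, package C, part 1: real algebra behind the explicit cover.
-/

set_option autoImplicit false

namespace Crest.Agent.Lib_helper5_CylAlg

/-- cap function (with twist parameter `k`). -/
noncomputable def Rc (k t : ℝ) : ℝ := 1 / 2 + k ^ 2 * (t ^ 2 + t ^ 4) / 4 + 9 / 32 * k ^ 4

/-- lower coordinates of a point of the cone `|y| ≤ ζ`. -/
theorem low_coords (k x y ζ : ℝ) (hy : |y| ≤ ζ) :
    ∃ t ρ : ℝ, -1 ≤ t ∧ t ≤ 1 ∧ 0 ≤ ρ ∧ y = k * x * (t ^ 2 + 1) / 2 + ρ * t ∧ ζ = k * x * t + ρ := by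
  have hζ : 0 ≤ ζ := le_trans (abs_nonneg _) hy
  have hy2 : y ^ 2 ≤ ζ ^ 2 := by
    rw [← sq_abs y]; exact pow_le_pow_left₀ (abs_nonneg _) hy 2
  have hdisc : (y - k * x) ^ 2 ≤ ζ ^ 2 - 2 * k * x * y + k ^ 2 * x ^ 2 := by nlinarith
  set ρ := Real.sqrt (ζ ^ 2 - 2 * k * x * y + k ^ 2 * x ^ 2) with hρ
  have hρ0 : 0 ≤ ρ := Real.sqrt_nonneg _
  have hρ2 : ρ ^ 2 = ζ ^ 2 - 2 * k * x * y + k ^ 2 * x ^ 2 :=
    Real.sq_sqrt (le_trans (sq_nonneg _) hdisc)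
  have hρabs : |y - k * x| ≤ ρ := by
    apply abs_le_of_sq_le_sq _ hρ0
    rw [hρ2]; exact hdisc
  rcases (add_nonneg hζ hρ0).eq_or_lt with h0 | hpos
  · have hζ0 : ζ = 0 := by linarith
    have hρ00 : ρ = 0 := by linarith
    have hy0 : y = 0 := by
      have : |y| ≤ 0 := by rw [hζ0] at hy; exact hy
      exact abs_eq_zero.1 (le_antisymm this (abs_nonneg _))
    have hkx : k * x = 0 := by
      have : |y - k * x| ≤ 0 := by rw [hρ00] at hρabs; exact hρabs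
      have := abs_eq_zero.1 (le_antisymm this (abs_nonneg _))
      linarith
    refine ⟨0, 0, by norm_num, by norm_num, le_refl _, ?_, ?_⟩
    · rw [hy0, hkx]; ring
    · rw [hζ0, hkx]; ring
  · set t := (2 * y - k * x) / (ζ + ρ) with ht
    have htm : t * (ζ + ρ) = 2 * y - k * x := by
      rw [ht]; field_simp
    have habs : |2 * y - k * x| ≤ ζ + ρ := by
      have : 2 * y - k * x = y + (y - k * x) := by ring
      rw [this]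
      exact le_trans (abs_add_le _ _) (add_le_add hy hρabs)
    have hkt : k * x * t = ζ - ρ := by
      have : k * x * t * (ζ + ρ) = (ζ - ρ) * (ζ + ρ) := by
        have : k * x * t * (ζ + ρ) = k * x * (t * (ζ + ρ)) := by ring
        rw [this, htm]; nlinarith
      exact mul_right_cancel₀ (ne_of_gt hpos) this
    obtain ⟨hl, hu⟩ := abs_le.1 habs
    refine ⟨t, ρ, ?_, ?_, hρ0, ?_, ?_⟩
    · rw [ht, le_div_iff₀ hpos]; linarith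
    · rw [ht, div_le_iff₀ hpos]; linarith
    · have : k * x * (t ^ 2 + 1) / 2 + ρ * t = (k * x * t) * t / 2 + k * x / 2 + ρ * t := by ring
      rw [this, hkt]
      nlinarith
    · rw [hkt]; ring

/-- the key polynomial inequality. -/
theorem key_ineq (k t τ : ℝ) (ht : t ^ 2 ≤ 1) (hτ : τ ^ 2 ≤ 1) :
    1 + (k * (t ^ 2 + 1) / 2) * (k * (τ ^ 2 + 1) / 2) ≤
      Rc k t * (1 + (k * (t ^ 2 + 1) / 2) * (k * (τ ^ 2 + 1) / 2) + k * t * τ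
          - k * (k * (τ ^ 2 + 1) / 2) * t ^ 2) +
      Rc k τ * (1 + (k * (t ^ 2 + 1) / 2) * (k * (τ ^ 2 + 1) / 2) - k * t * τ
          - k * (k * (t ^ 2 + 1) / 2) * τ ^ 2) := by
  have hid : Rc k t * (1 + (k * (t ^ 2 + 1) / 2) * (k * (τ ^ 2 + 1) / 2) + k * t * τ
          - k * (k * (τ ^ 2 + 1) / 2) * t ^ 2) +
      Rc k τ * (1 + (k * (t ^ 2 + 1) / 2) * (k * (τ ^ 2 + 1) / 2) - k * t * τ
          - k * (k * (t ^ 2 + 1) / 2) * τ ^ 2) -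
      (1 + (k * (t ^ 2 + 1) / 2) * (k * (τ ^ 2 + 1) / 2)) =
      k ^ 2 * (((t ^ 2 - τ ^ 2) / 2 + k * t * τ * (1 + t ^ 2 + τ ^ 2) / 4) ^ 2
        + (t ^ 2 + t ^ 4) / 4 * (k ^ 2 * (τ ^ 2 + 1) * (1 - t ^ 2) / 4)
        + (τ ^ 2 + τ ^ 4) / 4 * (k ^ 2 * (t ^ 2 + 1) * (1 - τ ^ 2) / 4)
        + k ^ 2 * (9 / 32 * (k ^ 2 * (τ ^ 2 + 1) * (1 - t ^ 2) / 4
            + k ^ 2 * (t ^ 2 + 1) * (1 - τ ^ 2) / 4))
        + k ^ 2 * (9 / 16 - t ^ 2 * τ ^ 2 * (1 + t ^ 2 + τ ^ 2) ^ 2 / 16)) := by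
    unfold Rc; ring
  have h1 : 0 ≤ 1 - t ^ 2 := by linarith
  have h2 : 0 ≤ 1 - τ ^ 2 := by linarith
  have ht0 : 0 ≤ t ^ 2 := sq_nonneg _
  have hτ0 : 0 ≤ τ ^ 2 := sq_nonneg _
  have h3 : t ^ 2 * τ ^ 2 * (1 + t ^ 2 + τ ^ 2) ^ 2 ≤ 9 := by
    have a1 : t ^ 2 * τ ^ 2 ≤ 1 := by nlinarith
    have a2 : (1 + t ^ 2 + τ ^ 2) ^ 2 ≤ 9 := by nlinarith
    have a3 : 0 ≤ t ^ 2 * τ ^ 2 := by positivity
    have a4 : 0 ≤ (1 + t ^ 2 + τ ^ 2) ^ 2 := by positivity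
    nlinarith
  have hpos : 0 ≤ k ^ 2 * (((t ^ 2 - τ ^ 2) / 2 + k * t * τ * (1 + t ^ 2 + τ ^ 2) / 4) ^ 2
        + (t ^ 2 + t ^ 4) / 4 * (k ^ 2 * (τ ^ 2 + 1) * (1 - t ^ 2) / 4)
        + (τ ^ 2 + τ ^ 4) / 4 * (k ^ 2 * (t ^ 2 + 1) * (1 - τ ^ 2) / 4)
        + k ^ 2 * (9 / 32 * (k ^ 2 * (τ ^ 2 + 1) * (1 - t ^ 2) / 4
            + k ^ 2 * (t ^ 2 + 1) * (1 - τ ^ 2) / 4))
        + k ^ 2 * (9 / 16 - t ^ 2 * τ ^ 2 * (1 + t ^ 2 + τ ^ 2) ^ 2 / 16)) := by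
    have b : 0 ≤ 9 / 16 - t ^ 2 * τ ^ 2 * (1 + t ^ 2 + τ ^ 2) ^ 2 / 16 := by linarith
    positivity
  linarith

/-- every point of the tetrahedron (in `(x, y, ζ)` coordinates) is caught by the lower or by the
upper family. -/
theorem dichotomy (k x y ζ : ℝ) (hk0 : 0 ≤ k) (hk1 : k < 1) (hx : |x| ≤ 1 - ζ) (hy : |y| ≤ ζ) :
    (∃ t ρ : ℝ, -1 ≤ t ∧ t ≤ 1 ∧ 0 ≤ ρ ∧ ρ ≤ Rc k t ∧
        y = k * x * (t ^ 2 + 1) / 2 + ρ * t ∧ ζ = k * x * t + ρ) ∨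
    (∃ t ρ : ℝ, -1 ≤ t ∧ t ≤ 1 ∧ 0 ≤ ρ ∧ ρ ≤ Rc k t ∧
        -x = k * y * (t ^ 2 + 1) / 2 + ρ * t ∧ 1 - ζ = k * y * t + ρ) := by
  obtain ⟨t, ρ, ht1, ht2, hρ, e1, e2⟩ := low_coords k x y ζ hy
  obtain ⟨τ, σ, hτ1, hτ2, hσ, e3, e4⟩ := low_coords k y (-x) (1 - ζ) (by rwa [abs_neg])
  by_cases h1 : ρ ≤ Rc k t
  · exact Or.inl ⟨t, ρ, ht1, ht2, hρ, h1, e1, e2⟩
  by_cases h2 : σ ≤ Rc k τ
  · exact Or.inr ⟨τ, σ, hτ1, hτ2, hσ, h2, e3, e4⟩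
  exfalso
  push_neg at h1 h2
  have ht : t ^ 2 ≤ 1 := by nlinarith
  have hτ : τ ^ 2 ≤ 1 := by nlinarith
  have key := key_ineq k t τ ht hτ
  set a := k * (t ^ 2 + 1) / 2 with ha
  set b := k * (τ ^ 2 + 1) / 2 with hb
  have hid : ρ * (1 + a * b + k * t * τ - k * b * t ^ 2) + σ * (1 + a * b - k * t * τ - k * a * τ ^ 2)
      = 1 + a * b := by
    have E1 : y - a * x - ρ * t = 0 := by rw [ha]; linarith
    have E2 : ζ - k * x * t - ρ = 0 := by linarith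
    have E3 : -x - b * y - σ * τ = 0 := by rw [hb]; linarith
    have E4 : 1 - ζ - k * y * τ - σ = 0 := by linarith
    linear_combination (-(1 + a * b)) * (E2 + E4) + k * t * (E3 + b * E1) - k * τ * (E1 - a * E3)
  have htτ : |t * τ| ≤ 1 := by
    rw [abs_mul]
    have a1 : |t| ≤ 1 := abs_le.2 ⟨ht1, ht2⟩
    have a2 : |τ| ≤ 1 := abs_le.2 ⟨hτ1, hτ2⟩
    calc |t| * |τ| ≤ 1 * 1 := mul_le_mul a1 a2 (abs_nonneg _) (by norm_num)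
      _ = 1 := by norm_num
  obtain ⟨hl, hu⟩ := abs_le.1 htτ
  have hC1 : 0 < 1 + a * b + k * t * τ - k * b * t ^ 2 := by
    have : a * b - k * b * t ^ 2 = k ^ 2 * (τ ^ 2 + 1) * (1 - t ^ 2) / 4 := by rw [ha, hb]; ring
    have h3 : 0 ≤ k ^ 2 * (τ ^ 2 + 1) * (1 - t ^ 2) / 4 := by
      have : 0 ≤ 1 - t ^ 2 := by linarith
      positivity
    nlinarith
  have hC2 : 0 < 1 + a * b - k * t * τ - k * a * τ ^ 2 := by
    have : a * b - k * a * τ ^ 2 = k ^ 2 * (t ^ 2 + 1) * (1 - τ ^ 2) / 4 := by rw [ha, hb]; ring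
    have h3 : 0 ≤ k ^ 2 * (t ^ 2 + 1) * (1 - τ ^ 2) / 4 := by
      have : 0 ≤ 1 - τ ^ 2 := by linarith
      positivity
    nlinarith
  nlinarith [mul_lt_mul_of_pos_right h1 hC1, mul_lt_mul_of_pos_right h2 hC2]

end Crest.Agent.Lib_helper5_CylAlg
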