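import Crest.Agent.Lib_helper5_CylAlg

/-!
Row 211, package C, part 2: real estimates for one sliver and for the total area.
-/

set_option autoImplicit false

namespace Crest.Agent.Lib_helper5_CylAlg

theorem Rc_lip (k t c η : ℝ) (hk0 : 0 ≤ k) (hk : k ≤ 2 / 3) (ht : |t| ≤ 1) (hc : |c| ≤ 1)
    (h : |t - c| ≤ η) : Rc k t ≤ Rc k c + k * η := by
  have hid : Rc k t - Rc k c = k ^ 2 * ((t - c) * ((t + c) * (1 + t ^ 2 + c ^ 2))) / 4 := by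
    unfold Rc; ring
  obtain ⟨t1, t2⟩ := abs_le.1 ht
  obtain ⟨c1, c2⟩ := abs_le.1 hc
  have ht2 : t ^ 2 ≤ 1 := by nlinarith
  have hc2 : c ^ 2 ≤ 1 := by nlinarith
  have hη : 0 ≤ η := le_trans (abs_nonneg _) h
  have h6 : |(t + c) * (1 + t ^ 2 + c ^ 2)| ≤ 6 := by
    rw [abs_mul]
    have a1 : |t + c| ≤ 2 := abs_le.2 ⟨by linarith, by linarith⟩
    have a2 : |1 + t ^ 2 + c ^ 2| ≤ 3 := abs_le.2 ⟨by nlinarith [sq_nonneg t, sq_nonneg c], by linarith⟩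
    calc |t + c| * |1 + t ^ 2 + c ^ 2| ≤ 2 * 3 := mul_le_mul a1 a2 (abs_nonneg _) (by norm_num)
      _ = 6 := by norm_num
  have h7 : (t - c) * ((t + c) * (1 + t ^ 2 + c ^ 2)) ≤ η * 6 := by
    calc (t - c) * ((t + c) * (1 + t ^ 2 + c ^ 2)) ≤ |(t - c) * ((t + c) * (1 + t ^ 2 + c ^ 2))| :=
          le_abs_self _
      _ = |t - c| * |(t + c) * (1 + t ^ 2 + c ^ 2)| := abs_mul _ _
      _ ≤ η * 6 := mul_le_mul h h6 (abs_nonneg _) hη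
  have h8 : k ^ 2 * ((t - c) * ((t + c) * (1 + t ^ 2 + c ^ 2))) ≤ k ^ 2 * (η * 6) :=
    mul_le_mul_of_nonneg_left h7 (sq_nonneg _)
  have h9 : k ^ 2 * η ≤ 2 / 3 * (k * η) := by
    have : k * (k * η) ≤ 2 / 3 * (k * η) := mul_le_mul_of_nonneg_right hk (mul_nonneg hk0 hη)
    nlinarith
  nlinarith

theorem Rc_pos (k t : ℝ) : 1 / 2 ≤ Rc k t := by
  unfold Rc
  have : 0 ≤ k ^ 2 * (t ^ 2 + t ^ 4) / 4 + 9 / 32 * k ^ 4 := by positivity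
  linarith

/-- the two inequalities that put a point of the ruled piece in the sliver triangle. -/
theorem sliver_weights (k η c t ρ x : ℝ) (hk0 : 0 ≤ k) (hk : k ≤ 2 / 3)
    (hc : |c| ≤ 1) (ht : |t| ≤ 1) (htc : |t - c| ≤ η) (hρ0 : 0 ≤ ρ) (hρ : ρ ≤ Rc k t)
    (hx : |x| ≤ 1) :
    (ρ + k * x * (t - c)) + 3 / 2 * k * η ≤ Rc k c + 7 / 2 * k * η ∧
    |ρ * (t - c) + k * x * (t - c) ^ 2 / 2| ≤ η * ((ρ + k * x * (t - c)) + 3 / 2 * k * η) := by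
  have hη : 0 ≤ η := le_trans (abs_nonneg _) htc
  have hl := Rc_lip k t c η hk0 hk ht hc htc
  have hxd : |x * (t - c)| ≤ η := by
    rw [abs_mul]
    calc |x| * |t - c| ≤ 1 * η := mul_le_mul hx htc (abs_nonneg _) (by norm_num)
      _ = η := one_mul _
  obtain ⟨d1, d2⟩ := abs_le.1 hxd
  have hk1 : k * (x * (t - c)) ≤ k * η := mul_le_mul_of_nonneg_left d2 hk0
  have hk2 : k * (-η) ≤ k * (x * (t - c)) := mul_le_mul_of_nonneg_left d1 hk0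
  constructor
  · nlinarith
  · have e : ρ * (t - c) + k * x * (t - c) ^ 2 / 2 = (t - c) * (ρ + k * (x * (t - c)) / 2) := by ring
    rw [e, abs_mul]
    have h2 : |ρ + k * (x * (t - c)) / 2| ≤ ρ + k * η / 2 := by
      rw [abs_le]; constructor <;> nlinarith
    have h3 : 0 ≤ ρ + k * η / 2 := by positivity
    calc |t - c| * |ρ + k * (x * (t - c)) / 2| ≤ η * (ρ + k * η / 2) :=
          mul_le_mul htc h2 (abs_nonneg _) hη
      _ ≤ η * ((ρ + k * x * (t - c)) + 3 / 2 * k * η) := by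
          apply mul_le_mul_of_nonneg_left _ hη
          nlinarith

/-- `1/√(1+s) ≤ 1 - s/2 + 3 s²/8`. -/
theorem inv_sqrt_le (s : ℝ) (hs : 0 ≤ s) :
    (Real.sqrt (1 + s))⁻¹ ≤ 1 - s / 2 + 3 * s ^ 2 / 8 := by
  have hq : 0 < 1 - s / 2 + 3 * s ^ 2 / 8 := by nlinarith [sq_nonneg (s - 2 / 3)]
  have h1 : 0 < 1 + s := by linarith
  have hsq : 0 < Real.sqrt (1 + s) := Real.sqrt_pos.2 h1
  rw [inv_le_comm₀ hsq hq]
  apply Real.le_sqrt_of_sq_le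
  rw [inv_pow, inv_le_comm₀ (by positivity) h1]
  rw [inv_le_iff_one_le_mul₀ h1]
  have : (1 - s / 2 + 3 * s ^ 2 / 8) ^ 2 * (1 + s) =
      1 + s ^ 3 * (5 / 8 - 15 / 64 * s + 9 / 64 * s ^ 2) := by ring
  rw [this]
  have h2 : 0 ≤ 5 / 8 - 15 / 64 * s + 9 / 64 * s ^ 2 := by nlinarith [sq_nonneg (s - 5 / 6)]
  have : 0 ≤ s ^ 3 * (5 / 8 - 15 / 64 * s + 9 / 64 * s ^ 2) := by positivity
  linarith

theorem density_aux (r g : ℝ) (hr0 : 0 ≤ r) (hr1 : r ≤ 1 / 2) (hg0 : 0 ≤ g) (hg3 : g ≤ 3) :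
    (1 / 2 + r / 10000 + 121 / 3200000000) ^ 2 * (1 - g / 20000 + 3 * g ^ 2 / 800000000) ≤
      1 / 4 + (r - g / 8) / 10000 + 5 / 100000000 := by
  obtain ⟨h, hh⟩ : ∃ h : ℝ, h = (1 / 2 + r / 10000 + 121 / 3200000000) ^ 2 := ⟨_, rfl⟩
  rw [← hh]
  have hlo : 1 / 4 ≤ h := by rw [hh]; nlinarith
  have hhi : h ≤ 1 / 4 + r / 10000 + 41 / 1000000000 := by rw [hh]; nlinarith
  have hhi2 : h ≤ 26 / 100 := by linarith
  have hg2 : g ^ 2 ≤ 9 := by nlinarith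
  have e3 : h * (1 - g / 20000 + 3 * g ^ 2 / 800000000) =
      h - h * g / 20000 + h * g ^ 2 * (3 / 800000000) := by ring
  rw [e3]
  have h1 : g / 4 ≤ h * g := by nlinarith
  have h2 : h * g ^ 2 ≤ 26 / 100 * 9 := by
    have : 0 ≤ g ^ 2 := sq_nonneg _
    nlinarith
  nlinarith

/-- area density bound of one sliver, for `k = 1/100`, `η = 10⁻⁶`. -/
theorem density_le (c : ℝ) (hc : c ^ 2 ≤ 1) :
    (Rc (1 / 100) c + 7 / 2 * (1 / 100) * (1 / 1000000)) ^ 2 *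
      (Real.sqrt (1 + (1 / 100) ^ 2 * ((c ^ 2 + 1) ^ 2 / 4 + 2 * c ^ 2)))⁻¹ ≤
    1 / 4 + (1 / 100) ^ 2 * (7 * c ^ 4 - 2 * c ^ 2 - 1) / 32 + 5 / 100000000 := by
  have hc0 : 0 ≤ c ^ 2 := sq_nonneg _
  have hc4 : c ^ 4 ≤ 1 := by nlinarith
  have hc40 : 0 ≤ c ^ 4 := by positivity
  have hg0 : 0 ≤ (c ^ 2 + 1) ^ 2 / 4 + 2 * c ^ 2 := by positivity
  have hg3 : (c ^ 2 + 1) ^ 2 / 4 + 2 * c ^ 2 ≤ 3 := by nlinarith
  have hr0 : 0 ≤ (c ^ 2 + c ^ 4) / 4 := by positivity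
  have hr1 : (c ^ 2 + c ^ 4) / 4 ≤ 1 / 2 := by linarith
  have hinv := inv_sqrt_le ((1 / 100) ^ 2 * ((c ^ 2 + 1) ^ 2 / 4 + 2 * c ^ 2)) (by positivity)
  have hh0 : 0 ≤ (Rc (1 / 100) c + 7 / 2 * (1 / 100) * (1 / 1000000)) ^ 2 := sq_nonneg _
  refine le_trans (mul_le_mul_of_nonneg_left hinv hh0) ?_
  have haux := density_aux _ _ hr0 hr1 hg0 hg3
  have e1 : (Rc (1 / 100) c + 7 / 2 * (1 / 100) * (1 / 1000000)) ^ 2 *
      (1 - (1 / 100) ^ 2 * ((c ^ 2 + 1) ^ 2 / 4 + 2 * c ^ 2) / 2 +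
        3 * ((1 / 100) ^ 2 * ((c ^ 2 + 1) ^ 2 / 4 + 2 * c ^ 2)) ^ 2 / 8) =
      (1 / 2 + (c ^ 2 + c ^ 4) / 4 / 10000 + 121 / 3200000000) ^ 2 *
        (1 - ((c ^ 2 + 1) ^ 2 / 4 + 2 * c ^ 2) / 20000 +
          3 * ((c ^ 2 + 1) ^ 2 / 4 + 2 * c ^ 2) ^ 2 / 800000000) := by
    unfold Rc; ring
  have e2 : 1 / 4 + (1 / 100 : ℝ) ^ 2 * (7 * c ^ 4 - 2 * c ^ 2 - 1) / 32 + 5 / 100000000 =
      1 / 4 + ((c ^ 2 + c ^ 4) / 4 - ((c ^ 2 + 1) ^ 2 / 4 + 2 * c ^ 2) / 8) / 10000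
        + 5 / 100000000 := by ring
  rw [e1, e2]
  exact haux

/-- telescoping estimate for the midpoint sums. -/
theorem tele_le (c η : ℝ) (hη : 0 ≤ η) :
    2 * η * (7 * c ^ 4 - 2 * c ^ 2 - 1) ≤
      (7 / 5 * (c + η) ^ 5 - 2 / 3 * (c + η) ^ 3 - (c + η)) -
      (7 / 5 * (c - η) ^ 5 - 2 / 3 * (c - η) ^ 3 - (c - η)) + 4 / 3 * η ^ 3 := by
  have : (7 / 5 * (c + η) ^ 5 - 2 / 3 * (c + η) ^ 3 - (c + η)) -
      (7 / 5 * (c - η) ^ 5 - 2 / 3 * (c - η) ^ 3 - (c - η)) + 4 / 3 * η ^ 3 -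
      2 * η * (7 * c ^ 4 - 2 * c ^ 2 - 1) = 28 * c ^ 2 * η ^ 3 + 14 / 5 * η ^ 5 := by ring
  have h2 : 0 ≤ 28 * c ^ 2 * η ^ 3 + 14 / 5 * η ^ 5 := by positivity
  linarith

/-- midpoints -/
noncomputable def mid (N : ℕ) (i : ℕ) : ℝ := -1 + (2 * (i : ℝ) + 1) / N

theorem sum_mid_le (N : ℕ) (hN : 0 < N) :
    ∑ i ∈ Finset.range N, (2 / (N : ℝ)) * (7 * mid N i ^ 4 - 2 * mid N i ^ 2 - 1) ≤
      - 8 / 15 + 4 / 3 * (1 / (N : ℝ)) ^ 2 := by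
  have hN' : (0 : ℝ) < N := by exact_mod_cast hN
  set G : ℝ → ℝ := fun t => 7 / 5 * t ^ 5 - 2 / 3 * t ^ 3 - t with hG
  set T : ℕ → ℝ := fun i => -1 + 2 * (i : ℝ) / N with hT
  have hstep : ∀ i ∈ Finset.range N, (2 / (N : ℝ)) * (7 * mid N i ^ 4 - 2 * mid N i ^ 2 - 1) ≤
      (G (T (i + 1)) - G (T i)) + 4 / 3 * (1 / (N : ℝ)) ^ 3 := by
    intro i _
    have h := tele_le (mid N i) (1 / (N : ℝ)) (by positivity)
    have e1 : mid N i + 1 / (N : ℝ) = T (i + 1) := by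
      simp only [mid, hT]; push_cast; field_simp; ring
    have e2 : mid N i - 1 / (N : ℝ) = T i := by
      simp only [mid, hT]; field_simp; ring
    rw [e1, e2] at h
    have e3 : 2 * (1 / (N : ℝ)) = 2 / N := by ring
    rw [e3] at h
    exact h
  refine le_trans (Finset.sum_le_sum hstep) ?_
  rw [Finset.sum_add_distrib, Finset.sum_range_sub (fun i => G (T i)), Finset.sum_const,
    Finset.card_range, nsmul_eq_mul]
  have t0 : T 0 = -1 := by simp [hT]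
  have tN : T N = 1 := by simp only [hT]; field_simp; ring
  rw [t0, tN]
  have : (N : ℝ) * (4 / 3 * (1 / (N : ℝ)) ^ 3) = 4 / 3 * (1 / (N : ℝ)) ^ 2 := by
    field_simp
  rw [this]
  simp only [hG]
  norm_num

/-- locating `t ∈ [-1, 1]` in a subinterval. -/
theorem exists_mid (N : ℕ) (hN : 0 < N) (t : ℝ) (h1 : -1 ≤ t) (h2 : t ≤ 1) :
    ∃ i : ℕ, i < N ∧ |t - mid N i| ≤ 1 / (N : ℝ) := by
  have hN' : (0 : ℝ) < N := by exact_mod_cast hN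
  set s := (t + 1) * N / 2 with hs
  have hs0 : 0 ≤ s := by rw [hs]; have : 0 ≤ t + 1 := by linarith
                         positivity
  have hsN : s ≤ N := by rw [hs]; nlinarith
  have hts : t = -1 + 2 * s / N := by rw [hs]; field_simp; ring
  have key : ∃ i : ℕ, i < N ∧ (i : ℝ) ≤ s ∧ s ≤ i + 1 := by
    rcases hsN.eq_or_lt with h | h
    · refine ⟨N - 1, Nat.sub_lt hN one_pos, ?_, ?_⟩
      · rw [h]; exact_mod_cast Nat.sub_le N 1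
      · rw [h]
        have : ((N - 1 : ℕ) : ℝ) = (N : ℝ) - 1 := by
          rw [Nat.cast_sub hN]; simp
        rw [this]; linarith
    · refine ⟨⌊s⌋₊, (Nat.floor_lt hs0).2 h, Nat.floor_le hs0, (Nat.lt_floor_add_one s).le⟩
  obtain ⟨i, hi, a1, a2⟩ := key
  refine ⟨i, hi, ?_⟩
  have e : t - mid N i = (2 * s - 2 * i - 1) / N := by
    rw [hts]; simp only [mid]; field_simp; ring
  rw [e, abs_div, abs_of_pos hN']
  apply div_le_div_of_nonneg_right _ hN'.le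
  rw [abs_le]; constructor <;> linarith

theorem mid_abs_le (N : ℕ) (i : ℕ) (hi : i < N) : |mid N i| ≤ 1 := by
  have hN' : (0 : ℝ) < N := by exact_mod_cast (lt_of_le_of_lt (Nat.zero_le _) hi)
  have hi' : (i : ℝ) + 1 ≤ N := by exact_mod_cast hi
  have hi0 : (0 : ℝ) ≤ i := Nat.cast_nonneg _
  rw [abs_le]; simp only [mid]
  constructor
  · have : 0 ≤ (2 * (i : ℝ) + 1) / N := by positivity
    linarith
  · have : (2 * (i : ℝ) + 1) / N ≤ 2 := by rw [div_le_iff₀ hN']; linarith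
    linarith

end Crest.Agent.Lib_helper5_CylAlg
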