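import Crest.Agent.Lib_helper4_CylArea
import Crest.Agent.Lib_helper5_CylAlg2

/-!
Row 211, package C, part 3: the explicit cover of the tetrahedron.
-/

set_option autoImplicit false
open MeasureTheory
open scoped ENNReal

namespace Crest.Agent.Lib_helper5_CylCover
open Crest.Agent.Lib_helper4_CylArea Crest.Agent.Lib_helper5_CylAlg

/-- "raw" cover: triangles need not be perpendicular to the axes; cost = projected areas. -/
def RawCov (S : Set E3) (m : ℕ) (A : ℝ) : Prop :=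
  ∃ u P Q R : Fin m → E3, (∀ i, ‖u i‖ = 1) ∧
    S ⊆ ⋃ i, {x : E3 | ∃ b ∈ convexHull ℝ {P i, Q i, R i}, ∃ t : ℝ, x = b + t • u i} ∧
    ∑ i, |det3 (Q i - P i) (R i - P i) (u i)| / 2 ≤ A

theorem mem_tri (P Q R : E3) (a b c : ℝ) (ha : 0 ≤ a) (hb : 0 ≤ b) (hc : 0 ≤ c)
    (h : a + b + c = 1) : a • P + b • Q + c • R ∈ convexHull ℝ {P, Q, R} := by
  have hcv := convex_convexHull ℝ ({P, Q, R} : Set E3)
  have := hcv.sum_mem (t := Finset.univ) (w := ![a, b, c]) (z := ![P, Q, R])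
    (by intro i _; fin_cases i <;> simp <;> assumption)
    (by simp [Fin.sum_univ_three]; linarith)
    (by
      intro i _
      apply subset_convexHull
      fin_cases i <;> simp)
  simpa [Fin.sum_univ_three] using this

/-- union of two raw covers. -/
theorem RawCov.union {S₁ S₂ : Set E3} {m₁ m₂ : ℕ} {A₁ A₂ : ℝ}
    (h₁ : RawCov S₁ m₁ A₁) (h₂ : RawCov S₂ m₂ A₂) : RawCov (S₁ ∪ S₂) (m₁ + m₂) (A₁ + A₂) := by
  obtain ⟨u₁, P₁, Q₁, R₁, hu₁, hc₁, ha₁⟩ := h₁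
  obtain ⟨u₂, P₂, Q₂, R₂, hu₂, hc₂, ha₂⟩ := h₂
  refine ⟨Fin.addCases u₁ u₂, Fin.addCases P₁ P₂, Fin.addCases Q₁ Q₂, Fin.addCases R₁ R₂,
    ?_, ?_, ?_⟩
  · intro i
    refine Fin.addCases (fun j => ?_) (fun j => ?_) i
    · simpa using hu₁ j
    · simpa using hu₂ j
  · rintro x (hx | hx)
    · obtain ⟨j, hj⟩ := Set.mem_iUnion.1 (hc₁ hx)
      refine Set.mem_iUnion.2 ⟨Fin.castAdd m₂ j, ?_⟩
      simpa using hj
    · obtain ⟨j, hj⟩ := Set.mem_iUnion.1 (hc₂ hx)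
      refine Set.mem_iUnion.2 ⟨Fin.natAdd m₁ j, ?_⟩
      simpa using hj
  · rw [Fin.sum_univ_add]
    simp only [Fin.addCases_left, Fin.addCases_right]
    exact add_le_add ha₁ ha₂

/-- a raw cover gives a genuine perpendicular cover. -/
theorem RawCov.toCov {S : Set E3} {m : ℕ} {A : ℝ} (h : RawCov S m A) :
    ∃ u p q r : Fin m → E3,
      (∀ i, ‖u i‖ = 1) ∧
      (∀ i, inner ℝ (p i) (u i) = 0 ∧ inner ℝ (q i) (u i) = 0 ∧ inner ℝ (r i) (u i) = 0) ∧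
      S ⊆ ⋃ i, {x : E3 | ∃ b ∈ convexHull ℝ {p i, q i, r i}, ∃ t : ℝ, x = b + t • u i} ∧
      ∑ i, (μHE[2] (convexHull ℝ ({p i, q i, r i} : Set E3))).toReal ≤ A := by
  obtain ⟨u, P, Q, R, hu, hc, ha⟩ := h
  refine ⟨u, fun i => proj (u i) (P i), fun i => proj (u i) (Q i), fun i => proj (u i) (R i),
    hu, fun i => ⟨inner_proj _ _ (hu i), inner_proj _ _ (hu i), inner_proj _ _ (hu i)⟩, ?_, ?_⟩
  · intro x hx
    obtain ⟨i, hi⟩ := Set.mem_iUnion.1 (hc hx)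
    exact Set.mem_iUnion.2 ⟨i, mem_cyl_proj _ _ _ _ _ hi⟩
  · refine le_trans (le_of_eq ?_) ha
    apply Finset.sum_congr rfl
    intro i _
    rw [area_proj_tri _ _ _ _ (hu i), ENNReal.toReal_ofReal (by positivity)]

/-! ### the symmetry `g (x, y, z) = (y, -x, √2 - z)` -/

noncomputable def gmap (X : E3) : E3 := !₂[X 1, -X 0, Real.sqrt 2 - X 2]
noncomputable def ginv (X : E3) : E3 := !₂[-X 1, X 0, Real.sqrt 2 - X 2]
noncomputable def Ginv (X : E3) : E3 := !₂[-X 1, X 0, -X 2]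

theorem ginv_gmap (X : E3) : ginv (gmap X) = X := by
  ext i; fin_cases i <;> simp [ginv, gmap]

theorem norm_Ginv (X : E3) : ‖Ginv X‖ = ‖X‖ := by
  have h : ‖Ginv X‖ ^ 2 = ‖X‖ ^ 2 := by
    rw [normsq3, normsq3]; simp [Ginv]; ring
  exact (sq_eq_sq₀ (norm_nonneg _) (norm_nonneg _)).1 h

theorem RawCov.transport {S : Set E3} {m : ℕ} {A : ℝ} (h : RawCov S m A) :
    RawCov {X | gmap X ∈ S} m A := by
  obtain ⟨u, P, Q, R, hu, hc, ha⟩ := h
  refine ⟨fun i => Ginv (u i), fun i => ginv (P i), fun i => ginv (Q i), fun i => ginv (R i),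
    fun i => by rw [norm_Ginv]; exact hu i, ?_, ?_⟩
  · intro X hX
    obtain ⟨i, b, hb, t, hbt⟩ := Set.mem_iUnion.1 (hc hX)
    refine Set.mem_iUnion.2 ⟨i, ginv b, ?_, t, ?_⟩
    · rw [tri_eq_image] at hb ⊢
      obtain ⟨x, hx, rfl⟩ := hb
      refine ⟨x, hx, ?_⟩
      ext j; fin_cases j <;> simp [ginv] <;> ring
    · rw [← ginv_gmap X, hbt]
      ext j; fin_cases j <;> simp [ginv, Ginv] <;> ring
  · refine le_trans (le_of_eq ?_) ha
    apply Finset.sum_congr rfl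
    intro i _
    have : det3 (ginv (Q i) - ginv (P i)) (ginv (R i) - ginv (P i)) (Ginv (u i)) =
        - det3 (Q i - P i) (R i - P i) (u i) := by
      simp [det3, ginv, Ginv]; ring
    rw [this, abs_neg]

/-! ### one family -/

/-- direction of the lines with parameter `c`. -/
noncomputable def dir (k c : ℝ) : E3 := !₂[1, k * (c ^ 2 + 1) / 2, Real.sqrt 2 * (k * c)]

/-- point of the plane `x = 0` with skew coordinates `(μ, ν)`. -/
noncomputable def pt (c μ ν : ℝ) : E3 := !₂[0, μ * c + ν, Real.sqrt 2 * μ]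

theorem normsq_dir (k c : ℝ) :
    ‖dir k c‖ ^ 2 = 1 + k ^ 2 * ((c ^ 2 + 1) ^ 2 / 4 + 2 * c ^ 2) := by
  rw [normsq3]
  simp only [dir]
  have h2 : Real.sqrt 2 ^ 2 = 2 := Real.sq_sqrt (by norm_num)
  simp
  nlinarith [h2]

theorem norm_dir (k c : ℝ) :
    ‖dir k c‖ = Real.sqrt (1 + k ^ 2 * ((c ^ 2 + 1) ^ 2 / 4 + 2 * c ^ 2)) := by
  rw [← normsq_dir, Real.sqrt_sq (norm_nonneg _)]

theorem norm_dir_pos (k c : ℝ) : 0 < ‖dir k c‖ := by
  rw [norm_dir]; apply Real.sqrt_pos.2; positivity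

/-- the region swept by the lower family. -/
def SL (k : ℝ) : Set E3 :=
  {X | |X 0| ≤ 1 ∧ ∃ t ρ : ℝ, -1 ≤ t ∧ t ≤ 1 ∧ 0 ≤ ρ ∧ ρ ≤ Rc k t ∧
    X 1 = k * X 0 * (t ^ 2 + 1) / 2 + ρ * t ∧ X 2 = Real.sqrt 2 * (k * X 0 * t + ρ)}

theorem pt_mem_tri (c η H μ₀ μ ν : ℝ) (hη : 0 < η) (hH : 0 < H) (h1 : μ + μ₀ ≤ H)
    (h2 : |ν| ≤ η * (μ + μ₀)) :
    pt c μ ν ∈ convexHull ℝ {pt c (-μ₀) 0, pt c (H - μ₀) (η * H), pt c (H - μ₀) (-(η * H))} := by
  obtain ⟨n1, n2⟩ := abs_le.1 h2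
  have hηH : 0 < η * H := mul_pos hη hH
  have h0 : 0 ≤ μ + μ₀ := by
    have : 0 ≤ η * (μ + μ₀) := le_trans (abs_nonneg _) h2
    exact nonneg_of_mul_nonneg_right this hη
  have hm := mem_tri (pt c (-μ₀) 0) (pt c (H - μ₀) (η * H)) (pt c (H - μ₀) (-(η * H)))
    (1 - (μ + μ₀) / H) ((μ + μ₀) / H / 2 + ν / (2 * (η * H))) ((μ + μ₀) / H / 2 - ν / (2 * (η * H)))
    (by rw [sub_nonneg, div_le_one hH]; exact h1)
    (by
      have : (μ + μ₀) / H / 2 + ν / (2 * (η * H)) = (η * (μ + μ₀) + ν) / (2 * (η * H)) := by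
        field_simp
      rw [this]; apply div_nonneg <;> linarith)
    (by
      have : (μ + μ₀) / H / 2 - ν / (2 * (η * H)) = (η * (μ + μ₀) - ν) / (2 * (η * H)) := by
        field_simp
      rw [this]; apply div_nonneg <;> linarith)
    (by ring)
  convert hm using 1
  ext j; fin_cases j
  · simp [pt]
  · simp [pt]; field_simp; ring
  · simp [pt]; field_simp; ring


theorem det3_sliver (k c η H μ₀ : ℝ) :
    det3 (pt c (H - μ₀) (η * H) - pt c (-μ₀) 0) (pt c (H - μ₀) (-(η * H)) - pt c (-μ₀) 0)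
      (‖dir k c‖⁻¹ • dir k c) = Real.sqrt 2 * (2 * η * (H ^ 2 * ‖dir k c‖⁻¹)) := by
  simp [det3, pt, dir]; ring

/-- the lower family: `N = 10⁶` slivers. -/
theorem rawCov_SL (N : ℕ) (hN : (N : ℝ) = 1000000) :
    RawCov (SL (1 / 100)) N (Real.sqrt 2 * (1 / 4 - 5 / 100000000)) := by
  have hNpos : 0 < N := by
    rcases Nat.eq_zero_or_pos N with h | h
    · rw [h] at hN; norm_num at hN
    · exact h
  have hη : (1 : ℝ) / N = 1 / 1000000 := by rw [hN]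
  refine ⟨fun i => ‖dir (1 / 100) (mid N i)‖⁻¹ • dir (1 / 100) (mid N i),
    fun i => pt (mid N i) (-(3 / 2 * (1 / 100) * (1 / 1000000))) 0,
    fun i => pt (mid N i) ((Rc (1 / 100) (mid N i) + 7 / 2 * (1 / 100) * (1 / 1000000))
        - 3 / 2 * (1 / 100) * (1 / 1000000))
      (1 / 1000000 * (Rc (1 / 100) (mid N i) + 7 / 2 * (1 / 100) * (1 / 1000000))),
    fun i => pt (mid N i) ((Rc (1 / 100) (mid N i) + 7 / 2 * (1 / 100) * (1 / 1000000))
        - 3 / 2 * (1 / 100) * (1 / 1000000))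
      (-(1 / 1000000 * (Rc (1 / 100) (mid N i) + 7 / 2 * (1 / 100) * (1 / 1000000)))),
    ?_, ?_, ?_⟩
  · intro i
    rw [norm_smul, norm_inv, norm_norm, inv_mul_cancel₀ (norm_dir_pos _ _).ne']
  · rintro X ⟨hX0, t, ρ, t1, t2, hρ0, hρ, e1, e2⟩
    obtain ⟨i, hi, hti⟩ := exists_mid N hNpos t t1 t2
    rw [hη] at hti
    have hc := mid_abs_le N i hi
    obtain ⟨w1, w2⟩ := sliver_weights (1 / 100) (1 / 1000000) (mid N i) t ρ (X 0) (by norm_num)
      (by norm_num) hc (abs_le.2 ⟨t1, t2⟩) hti hρ0 hρ hX0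
    have hH : 0 < Rc (1 / 100) (mid N i) + 7 / 2 * (1 / 100) * (1 / 1000000) := by
      have := Rc_pos (1 / 100) (mid N i); linarith
    have hm := pt_mem_tri (mid N i) (1 / 1000000) _ (3 / 2 * (1 / 100) * (1 / 1000000)) _ _
      (by norm_num) hH w1 w2
    refine Set.mem_iUnion.2 ⟨⟨i, hi⟩, _, hm, X 0 * ‖dir (1 / 100) (mid N i)‖, ?_⟩
    show X = _ + (X 0 * ‖dir (1 / 100) (mid N i)‖) •
      (‖dir (1 / 100) (mid N i)‖⁻¹ • dir (1 / 100) (mid N i))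
    rw [smul_smul, mul_assoc (X 0), mul_inv_cancel₀ (norm_dir_pos _ _).ne', mul_one]
    ext j; fin_cases j
    · simp [pt, dir]
    · simp [pt, dir]; rw [e1]; ring
    · simp [pt, dir]; rw [e2]; ring
  · have hterm : ∀ i : Fin N,
        |det3 (pt (mid N i) ((Rc (1 / 100) (mid N i) + 7 / 2 * (1 / 100) * (1 / 1000000))
            - 3 / 2 * (1 / 100) * (1 / 1000000))
          (1 / 1000000 * (Rc (1 / 100) (mid N i) + 7 / 2 * (1 / 100) * (1 / 1000000)))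
          - pt (mid N i) (-(3 / 2 * (1 / 100) * (1 / 1000000))) 0)
          (pt (mid N i) ((Rc (1 / 100) (mid N i) + 7 / 2 * (1 / 100) * (1 / 1000000))
            - 3 / 2 * (1 / 100) * (1 / 1000000))
          (-(1 / 1000000 * (Rc (1 / 100) (mid N i) + 7 / 2 * (1 / 100) * (1 / 1000000))))
          - pt (mid N i) (-(3 / 2 * (1 / 100) * (1 / 1000000))) 0)
          (‖dir (1 / 100) (mid N i)‖⁻¹ • dir (1 / 100) (mid N i))| / 2 ≤
        Real.sqrt 2 * ((1 / 4 + 5 / 100000000) * (1 / (N : ℝ)) +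
          1 / 640000 * ((2 / (N : ℝ)) * (7 * mid N i ^ 4 - 2 * mid N i ^ 2 - 1))) := by
      intro i
      rw [det3_sliver, abs_of_nonneg (by positivity)]
      have hc := mid_abs_le N i i.2
      have hc2 : mid N i ^ 2 ≤ 1 := by
        obtain ⟨a, b⟩ := abs_le.1 hc; nlinarith
      have hd := density_le (mid N i) hc2
      rw [← norm_dir] at hd
      rw [hN]
      have h2 : 0 ≤ Real.sqrt 2 := Real.sqrt_nonneg _
      have : Real.sqrt 2 * (2 * (1 / 1000000) *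
          ((Rc (1 / 100) (mid N i) + 7 / 2 * (1 / 100) * (1 / 1000000)) ^ 2 *
            ‖dir (1 / 100) (mid N i)‖⁻¹)) / 2 = Real.sqrt 2 * ((1 / 1000000) *
          ((Rc (1 / 100) (mid N i) + 7 / 2 * (1 / 100) * (1 / 1000000)) ^ 2 *
            ‖dir (1 / 100) (mid N i)‖⁻¹)) := by ring
      rw [this]
      apply mul_le_mul_of_nonneg_left _ h2
      nlinarith
    refine le_trans (Finset.sum_le_sum (fun i _ => hterm i)) ?_
    rw [← Finset.mul_sum]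
    apply mul_le_mul_of_nonneg_left _ (Real.sqrt_nonneg _)
    rw [Finset.sum_add_distrib, Finset.sum_const, Finset.card_univ,
      Fintype.card_fin, nsmul_eq_mul, ← Finset.mul_sum,
      Fin.sum_univ_eq_sum_range
        (fun i => (2 / (N : ℝ)) * (7 * mid N i ^ 4 - 2 * mid N i ^ 2 - 1)) N]
    have hs := sum_mid_le N hNpos
    rw [hN] at hs ⊢
    nlinarith

/-- the tetrahedron lies in `{|x| ≤ 1 - z/√2, |y| ≤ z/√2}`. -/
theorem K_subset :
    convexHull ℝ {(!₂[1, 0, 0] : E3), !₂[-1, 0, 0], !₂[0, 1, Real.sqrt 2], !₂[0, -1, Real.sqrt 2]} ⊆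
      {X : E3 | |X 0| ≤ 1 - X 2 / Real.sqrt 2 ∧ |X 1| ≤ X 2 / Real.sqrt 2} := by
  have h2 : 0 < Real.sqrt 2 := Real.sqrt_pos.2 (by norm_num)
  apply convexHull_min
  · rintro X (rfl | rfl | rfl | rfl)
    · simp
    · simp
    · simp [h2.ne']
    · simp [h2.ne']
  · intro X hX Y hY a b ha hb hab
    obtain ⟨x1, x2⟩ := hX
    obtain ⟨y1, y2⟩ := hY
    rw [abs_le] at x1 x2 y1 y2
    simp only [Set.mem_ofPred_eq, PiLp.add_apply, PiLp.smul_apply, smul_eq_mul, abs_le]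
    have e : (a * X 2 + b * Y 2) / Real.sqrt 2 = a * (X 2 / Real.sqrt 2) + b * (Y 2 / Real.sqrt 2) := by
      ring
    rw [e]
    refine ⟨⟨?_, ?_⟩, ⟨?_, ?_⟩⟩ <;> nlinarith [x1.1, x1.2, x2.1, x2.2, y1.1, y1.2, y2.1, y2.2]

theorem K_subset_union :
    convexHull ℝ {(!₂[1, 0, 0] : E3), !₂[-1, 0, 0], !₂[0, 1, Real.sqrt 2], !₂[0, -1, Real.sqrt 2]} ⊆
      SL (1 / 100) ∪ {X | gmap X ∈ SL (1 / 100)} := by
  intro X hX
  obtain ⟨hx, hy⟩ := K_subset hX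
  have h2 : 0 < Real.sqrt 2 := Real.sqrt_pos.2 (by norm_num)
  have hζ0 : 0 ≤ X 2 / Real.sqrt 2 := le_trans (abs_nonneg _) hy
  have hζ1 : X 2 / Real.sqrt 2 ≤ 1 := by have := abs_nonneg (X 0); linarith
  have hz : X 2 = Real.sqrt 2 * (X 2 / Real.sqrt 2) := by field_simp
  rcases dichotomy (1 / 100) (X 0) (X 1) (X 2 / Real.sqrt 2) (by norm_num) (by norm_num) hx hy with
    ⟨t, ρ, t1, t2, r0, r1, e1, e2⟩ | ⟨t, ρ, t1, t2, r0, r1, e1, e2⟩
  · left
    refine ⟨by linarith, t, ρ, t1, t2, r0, r1, e1, ?_⟩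
    rw [← e2]; exact hz
  · right
    refine ⟨?_, t, ρ, t1, t2, r0, r1, ?_, ?_⟩
    · simp only [gmap]; simp; linarith
    · simp only [gmap]; simpa using e1
    · have : (gmap X) 2 = Real.sqrt 2 - X 2 := by simp [gmap]
      have h0 : (gmap X) 0 = X 1 := by simp [gmap]
      rw [this, h0, ← e2, mul_sub, mul_one, ← hz]

/-- **The fixed explicit cover.** -/
theorem fixed_cover :
    ∃ (m : ℕ) (u p q r : Fin m → E3), m ≤ 2000000 ∧
      (∀ i, ‖u i‖ = 1) ∧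
      (∀ i, inner ℝ (p i) (u i) = 0 ∧ inner ℝ (q i) (u i) = 0 ∧ inner ℝ (r i) (u i) = 0) ∧
      convexHull ℝ {!₂[1, 0, 0], !₂[-1, 0, 0], !₂[0, 1, Real.sqrt 2], !₂[0, -1, Real.sqrt 2]} ⊆
        ⋃ i, {x : E3 | ∃ b ∈ convexHull ℝ {p i, q i, r i}, ∃ t : ℝ, x = b + t • u i} ∧
      ∑ i, (μHE[2] (convexHull ℝ ({p i, q i, r i} : Set E3))).toReal ≤
        Real.sqrt 2 * (1 / 2 - 1 / 10000000) := by
  have h1 := rawCov_SL 1000000 (by norm_num)
  obtain ⟨u, p, q, r, hu, hp, hc, ha⟩ := (h1.union h1.transport).toCov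
  refine ⟨1000000 + 1000000, u, p, q, r, by norm_num, hu, hp, K_subset_union.trans hc, ?_⟩
  refine le_trans ha (le_of_eq ?_)
  ring

end Crest.Agent.Lib_helper5_CylCover
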