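import Mathlib

/-!
Area toolkit: `μHE[2]` of affine images of planar sets in Euclidean 3-space.
-/

open MeasureTheory Measure Module
open scoped RealInnerProductSpace

namespace Crest.Agent.Lib_helper6_Area

abbrev E2 := EuclideanSpace ℝ (Fin 2)
abbrev E3 := EuclideanSpace ℝ (Fin 3)

/-- Gram determinant of two vectors. -/
noncomputable def gram {V : Type*} [NormedAddCommGroup V] [InnerProductSpace ℝ V] (a b : V) : ℝ :=
  ‖a‖ ^ 2 * ‖b‖ ^ 2 - ⟪a, b⟫ ^ 2

theorem gram_nonneg {V : Type*} [NormedAddCommGroup V] [InnerProductSpace ℝ V] (a b : V) :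
    0 ≤ gram a b := by
  unfold gram
  have h := abs_real_inner_le_norm a b
  have h2 : ⟪a, b⟫ ^ 2 ≤ (‖a‖ * ‖b‖) ^ 2 := by
    rw [← sq_abs]
    exact pow_le_pow_left₀ (abs_nonneg _) h 2
  nlinarith

/-- The planar linear map `x ↦ x 0 • a + x 1 • b`. -/
noncomputable def lin2 {V : Type*} [AddCommGroup V] [Module ℝ V] (a b : V) : E2 →ₗ[ℝ] V where
  toFun x := x 0 • a + x 1 • b
  map_add' x y := by simp [add_smul]; abel
  map_smul' r x := by simp [mul_smul, smul_add]

@[simp] theorem lin2_apply {V : Type*} [AddCommGroup V] [Module ℝ V] (a b : V) (x : E2) :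
    lin2 a b x = x 0 • a + x 1 • b := rfl

theorem det_lin2 (a b : E2) : LinearMap.det (lin2 a b) = a 0 * b 1 - a 1 * b 0 := by
  have h : lin2 a b = Matrix.toLin (PiLp.basisFun 2 ℝ (Fin 2)) (PiLp.basisFun 2 ℝ (Fin 2))
      !![a 0, b 0; a 1, b 1] := by
    apply (PiLp.basisFun 2 ℝ (Fin 2)).ext
    intro i
    ext j
    fin_cases i <;> fin_cases j <;>
      simp [Matrix.toLin_apply, Matrix.mulVec, dotProduct, Fin.sum_univ_two]
  rw [h, LinearMap.det_toLin, Matrix.det_fin_two_of]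
  ring

theorem gram_E2 (a b : E2) : gram a b = (a 0 * b 1 - a 1 * b 0) ^ 2 := by
  unfold gram
  simp only [EuclideanSpace.norm_sq_eq, PiLp.inner_apply, Fin.sum_univ_two, Real.norm_eq_abs,
    sq_abs, RCLike.inner_apply, conj_trivial]
  ring

theorem volume_lin2_image (a b : E2) (s : Set E2) :
    volume (lin2 a b '' s) = ENNReal.ofReal (Real.sqrt (gram a b)) * volume s := by
  rw [addHaar_image_linearMap, det_lin2, gram_E2, Real.sqrt_sq_eq_abs]


/-- For a unit (indeed nonzero) vector `u` of `E3` there is a linear isometry of `E2` onto `u^⊥`. -/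
theorem exists_isometry_orth (u : E3) (hu : u ≠ 0) :
    ∃ U : E2 →ₗᵢ[ℝ] E3, ∀ y : E3, ⟪y, u⟫ = 0 → ∃ x : E2, U x = y := by
  haveI : Fact (finrank ℝ E3 = 2 + 1) := ⟨by simp⟩
  have hfin : finrank ℝ (ℝ ∙ u)ᗮ = 2 := Submodule.finrank_orthogonal_span_singleton hu
  let B : OrthonormalBasis (Fin 2) ℝ (ℝ ∙ u)ᗮ :=
    (stdOrthonormalBasis ℝ (ℝ ∙ u)ᗮ).reindex (finCongr hfin)
  refine ⟨((ℝ ∙ u)ᗮ).subtypeₗᵢ.comp B.repr.symm.toLinearIsometry, fun y hy => ?_⟩
  have hy' : y ∈ (ℝ ∙ u)ᗮ := by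
    rw [Submodule.mem_orthogonal_singleton_iff_inner_left]
    exact hy
  refine ⟨B.repr ⟨y, hy'⟩, ?_⟩
  simp

/-- Any two vectors of `E3` have a common unit normal. -/
theorem exists_unit_orth (a b : E3) : ∃ u : E3, ‖u‖ = 1 ∧ ⟪a, u⟫ = 0 ∧ ⟪b, u⟫ = 0 := by
  have h1 : finrank ℝ (Submodule.span ℝ ({a, b} : Set E3)) ≤ 2 := by
    have := finrank_span_le_card (R := ℝ) ({a, b} : Set E3)
    refine this.trans ?_
    rw [Set.toFinset_card]
    classical
    calc Fintype.card ↑({a, b} : Set E3) = ({a, b} : Finset E3).card := by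
          rw [← Set.toFinset_card]; congr 1; ext; simp
      _ ≤ 2 := Finset.card_le_two
  have h2 := (Submodule.span ℝ ({a, b} : Set E3)).finrank_add_finrank_orthogonal
  have h3 : finrank ℝ E3 = 3 := by simp
  have h4 : 0 < finrank ℝ (Submodule.span ℝ ({a, b} : Set E3))ᗮ := by omega
  haveI := Module.nontrivial_of_finrank_pos h4
  obtain ⟨⟨w, hw⟩, hne⟩ := exists_ne (0 : (Submodule.span ℝ ({a, b} : Set E3))ᗮ)
  have hw0 : w ≠ 0 := fun h => hne (by ext1; simpa using h)
  have hn : ‖w‖ ≠ 0 := norm_ne_zero_iff.mpr hw0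
  rw [Submodule.mem_orthogonal] at hw
  refine ⟨(‖w‖)⁻¹ • w, ?_, ?_, ?_⟩
  · rw [norm_smul, norm_inv, norm_norm, inv_mul_cancel₀ hn]
  · rw [inner_smul_right, hw a (Submodule.subset_span (by simp)), mul_zero]
  · rw [inner_smul_right, hw b (Submodule.subset_span (by simp)), mul_zero]

/-- **Main area formula**: the `μHE[2]`-measure of the affine image `c + x₀ a + x₁ b`, `x ∈ s`. -/
theorem muHE_affine_image (c a b : E3) (s : Set E2) :
    (μHE[2] : Measure E3) ((fun x : E2 => c + (x 0 • a + x 1 • b)) '' s) =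
      ENNReal.ofReal (Real.sqrt (gram a b)) * volume s := by
  obtain ⟨u, hu, hau, hbu⟩ := exists_unit_orth a b
  have hu0 : u ≠ 0 := by
    intro h; rw [h, norm_zero] at hu; exact zero_ne_one hu
  obtain ⟨U, hU⟩ := exists_isometry_orth u hu0
  obtain ⟨a', rfl⟩ := hU a hau
  obtain ⟨b', rfl⟩ := hU b hbu
  have hgram : gram (U a') (U b') = gram a' b' := by
    unfold gram
    rw [U.norm_map, U.norm_map, U.inner_map_map]
  have himg : (fun x : E2 => c + (x 0 • U a' + x 1 • U b')) '' s =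
      (fun y : E3 => c + y) '' (U '' (lin2 a' b' '' s)) := by
    rw [Set.image_image, Set.image_image]
    apply Set.image_congr
    intro x _
    simp
  rw [himg, (isometry_add_left c).euclideanHausdorffMeasure_image,
    U.isometry.euclideanHausdorffMeasure_image,
    EuclideanSpace.euclideanHausdorffMeasure_eq_volume, volume_lin2_image, hgram]


/-! ### Volumes of planar regions -/

/-- The measurable equivalence `E2 ≃ ℝ × ℝ`. -/
noncomputable def e2Prod : E2 ≃ᵐ ℝ × ℝ :=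
  (MeasurableEquiv.toLp 2 (Fin 2 → ℝ)).symm.trans MeasurableEquiv.finTwoArrow

@[simp] theorem e2Prod_apply (x : E2) : e2Prod x = (x 0, x 1) := rfl

theorem measurePreserving_e2Prod : MeasurePreserving e2Prod volume volume :=
  (volume_preserving_finTwoArrow ℝ).comp (EuclideanSpace.volume_preserving_symm_measurableEquiv_toLp (Fin 2))

/-- Volume of a subset of `E2` described by a predicate on the two coordinates. -/
theorem volume_E2_eq (t : Set (ℝ × ℝ)) :
    volume {x : E2 | (x 0, x 1) ∈ t} = volume t :=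
  measurePreserving_e2Prod.measure_preimage_equiv t

theorem volume_region_cc {f g : ℝ → ℝ} (hf : Measurable f) (hg : Measurable g) {s : Set ℝ}
    (hs : MeasurableSet s) :
    volume {p : ℝ × ℝ | p.1 ∈ s ∧ p.2 ∈ Set.Icc (f p.1) (g p.1)} =
      ∫⁻ x in s, ENNReal.ofReal (g x - f x) := by
  classical
  rw [Measure.volume_eq_prod, Measure.prod_apply (measurableSet_region_between_cc hf hg hs)]
  have h : (fun x => volume (Prod.mk x ⁻¹' {p : ℝ × ℝ | p.1 ∈ s ∧ p.2 ∈ Set.Icc (f p.1) (g p.1)})) =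
      s.indicator fun x => ENNReal.ofReal (g x - f x) := by
    funext x
    rw [Set.indicator_apply]
    split_ifs with h
    · have hx : Prod.mk x ⁻¹' {p : ℝ × ℝ | p.1 ∈ s ∧ p.2 ∈ Set.Icc (f p.1) (g p.1)} =
          Set.Icc (f x) (g x) := by ext a; simp [h]
      rw [hx, Real.volume_Icc]
    · have hx : Prod.mk x ⁻¹' {p : ℝ × ℝ | p.1 ∈ s ∧ p.2 ∈ Set.Icc (f p.1) (g p.1)} = ∅ := by
        ext a; simp [h]
      rw [hx, measure_empty]
  rw [h, lintegral_indicator hs]

/-- The standard triangle of `E2`. -/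
def stdTri : Set E2 := {x | 0 ≤ x 0 ∧ 0 ≤ x 1 ∧ x 0 + x 1 ≤ 1}

/-- The unit square of `E2`. -/
def stdSq : Set E2 := {x | x 0 ∈ Set.Icc (0 : ℝ) 1 ∧ x 1 ∈ Set.Icc (0 : ℝ) 1}

/-- The open unit square of `E2`. -/
def stdSqO : Set E2 := {x | x 0 ∈ Set.Ioo (0 : ℝ) 1 ∧ x 1 ∈ Set.Ioo (0 : ℝ) 1}

theorem volume_stdSq : volume stdSq = 1 := by
  have : stdSq = {x : E2 | (x 0, x 1) ∈ Set.Icc (0 : ℝ) 1 ×ˢ Set.Icc (0 : ℝ) 1} := by
    ext x; simp only [stdSq, Set.mem_ofPred_eq, Set.mem_prod]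
  rw [this, volume_E2_eq, Measure.volume_eq_prod, Measure.prod_prod]
  simp

theorem volume_stdSqO : volume stdSqO = 1 := by
  have : stdSqO = {x : E2 | (x 0, x 1) ∈ Set.Ioo (0 : ℝ) 1 ×ˢ Set.Ioo (0 : ℝ) 1} := by
    ext x; simp only [stdSqO, Set.mem_ofPred_eq, Set.mem_prod]
  rw [this, volume_E2_eq, Measure.volume_eq_prod, Measure.prod_prod]
  simp

theorem volume_stdTri : volume stdTri = ENNReal.ofReal (1 / 2) := by
  have : stdTri = {x : E2 | (x 0, x 1) ∈
      {p : ℝ × ℝ | p.1 ∈ Set.Icc (0 : ℝ) 1 ∧ p.2 ∈ Set.Icc ((fun _ => (0 : ℝ)) p.1) ((fun x => 1 - x) p.1)}} := by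
    ext x
    simp only [stdTri, Set.mem_ofPred_eq, Set.mem_Icc]
    constructor
    · rintro ⟨h0, h1, h2⟩
      exact ⟨⟨h0, by linarith⟩, h1, by linarith⟩
    · rintro ⟨⟨h0, _⟩, h1, h2⟩
      exact ⟨h0, h1, by linarith⟩
  rw [this, volume_E2_eq, volume_region_cc (f := fun _ => (0 : ℝ)) (g := fun x => 1 - x)
    measurable_const (measurable_const.sub measurable_id) measurableSet_Icc]
  rw [← ofReal_integral_eq_lintegral_ofReal]
  · congr 1
    rw [integral_Icc_eq_integral_Ioc, ← intervalIntegral.integral_of_le zero_le_one]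
    simp only [sub_zero]
    rw [intervalIntegral.integral_sub (by simp) (by simp)]
    simp
    norm_num
  · exact (Continuous.integrableOn_Icc (by fun_prop))
  · rw [Filter.EventuallyLE, ae_restrict_iff' measurableSet_Icc]
    exact Filter.Eventually.of_forall fun x hx => by simpa using hx.2


/-! ### Triangles and parallelograms in `E3` -/

theorem convex_stdTri : Convex ℝ stdTri := by
  intro x hx y hy a b ha hb hab
  obtain ⟨hx0, hx1, hx2⟩ := hx
  obtain ⟨hy0, hy1, hy2⟩ := hy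
  refine ⟨?_, ?_, ?_⟩
  · simp only [PiLp.add_apply, PiLp.smul_apply, smul_eq_mul]; positivity
  · simp only [PiLp.add_apply, PiLp.smul_apply, smul_eq_mul]; positivity
  · simp only [PiLp.add_apply, PiLp.smul_apply, smul_eq_mul]
    nlinarith

/-- A triangle is the affine image of the standard triangle. -/
theorem convexHull_triple_eq_image {V : Type*} [AddCommGroup V] [Module ℝ V] (p q r : V) :
    convexHull ℝ ({p, q, r} : Set V) =
      (fun x : E2 => p + (x 0 • (q - p) + x 1 • (r - p))) '' stdTri := by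
  apply Set.Subset.antisymm
  · apply convexHull_min
    · intro z hz
      simp only [Set.mem_insert_iff, Set.mem_singleton_iff] at hz
      rcases hz with rfl | rfl | rfl
      · exact ⟨0, ⟨by simp, by simp, by simp⟩, by simp⟩
      · exact ⟨!₂[1, 0], ⟨by simp, by simp, by simp⟩, by simp⟩
      · exact ⟨!₂[0, 1], ⟨by simp, by simp, by simp⟩, by simp⟩
    · have h : (fun x : E2 => p + (x 0 • (q - p) + x 1 • (r - p))) '' stdTri =
          (fun y : V => p + y) '' (lin2 (q - p) (r - p) '' stdTri) := by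
        rw [Set.image_image]; rfl
      rw [h]
      exact (convex_stdTri.linear_image _).translate p
  · rintro _ ⟨x, ⟨h0, h1, h2⟩, rfl⟩
    have hs : (convexHull ℝ ({p, q, r} : Set V)) ⊇ {p, q, r} := subset_convexHull ℝ _
    have hp : p ∈ convexHull ℝ ({p, q, r} : Set V) := hs (by simp)
    have hq : q ∈ convexHull ℝ ({p, q, r} : Set V) := hs (by simp)
    have hr : r ∈ convexHull ℝ ({p, q, r} : Set V) := hs (by simp)
    have key := (convex_convexHull ℝ ({p, q, r} : Set V)).sum_mem (t := Finset.univ)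
      (w := ![1 - x 0 - x 1, x 0, x 1]) (z := ![p, q, r])
      (by intro i _; fin_cases i <;> simp <;> linarith)
      (by simp [Fin.sum_univ_three]; ring)
      (by intro i _; fin_cases i <;> simp [hp, hq, hr])
    simp only [Fin.sum_univ_three, Matrix.cons_val_zero, Matrix.cons_val_one,
      Matrix.cons_val_two, Matrix.head_cons, Matrix.tail_cons] at key
    convert key using 1
    simp only [smul_sub, sub_smul, one_smul]
    abel

/-- Area of a triangle in `E3`. -/
theorem muHE_triangle (p q r : E3) :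
    (μHE[2] : Measure E3) (convexHull ℝ ({p, q, r} : Set E3)) =
      ENNReal.ofReal (Real.sqrt (gram (q - p) (r - p)) / 2) := by
  rw [convexHull_triple_eq_image, muHE_affine_image, volume_stdTri,
    ← ENNReal.ofReal_mul (Real.sqrt_nonneg _)]
  congr 1
  ring

theorem muHE_triangle_toReal (p q r : E3) :
    ((μHE[2] : Measure E3) (convexHull ℝ ({p, q, r} : Set E3))).toReal =
      Real.sqrt (gram (q - p) (r - p)) / 2 := by
  rw [muHE_triangle, ENNReal.toReal_ofReal (by positivity)]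

/-- The closed parallelogram `c + [0,1] a + [0,1] b`, in the shape used by the statements. -/
theorem parallelogram_eq_image {V : Type*} [AddCommGroup V] [Module ℝ V] (c a b : V) :
    {x : V | ∃ s ∈ Set.Icc (0 : ℝ) 1, ∃ t ∈ Set.Icc (0 : ℝ) 1, x = c + s • a + t • b} =
      (fun x : E2 => c + (x 0 • a + x 1 • b)) '' stdSq := by
  ext z
  constructor
  · rintro ⟨s, hs, t, ht, rfl⟩
    exact ⟨!₂[s, t], ⟨by simpa using hs, by simpa using ht⟩, by simp [add_assoc]⟩
  · rintro ⟨x, ⟨h0, h1⟩, rfl⟩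
    exact ⟨x 0, h0, x 1, h1, by simp [add_assoc]⟩

/-- Area of a parallelogram in `E3`. -/
theorem muHE_parallelogram (c a b : E3) :
    (μHE[2] : Measure E3)
      {x : E3 | ∃ s ∈ Set.Icc (0 : ℝ) 1, ∃ t ∈ Set.Icc (0 : ℝ) 1, x = c + s • a + t • b} =
      ENNReal.ofReal (Real.sqrt (gram a b)) := by
  rw [parallelogram_eq_image, muHE_affine_image, volume_stdSq, mul_one]

theorem muHE_parallelogram_toReal (c a b : E3) :
    ((μHE[2] : Measure E3)
      {x : E3 | ∃ s ∈ Set.Icc (0 : ℝ) 1, ∃ t ∈ Set.Icc (0 : ℝ) 1, x = c + s • a + t • b}).toReal =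
      Real.sqrt (gram a b) := by
  rw [muHE_parallelogram, ENNReal.toReal_ofReal (Real.sqrt_nonneg _)]

/-- Area of an open parallelogram in `E3`. -/
theorem muHE_parallelogramO (c a b : E3) :
    (μHE[2] : Measure E3) ((fun x : E2 => c + (x 0 • a + x 1 • b)) '' stdSqO) =
      ENNReal.ofReal (Real.sqrt (gram a b)) := by
  rw [muHE_affine_image, volume_stdSqO, mul_one]

/-! ### Raw Hausdorff measure versus `μHE` -/

/-- The positive constant `κ` with `μHE[2] = κ • μH[2]`. -/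
noncomputable def kappa : ℝ :=
  ((addHaarScalarFactor (volume : Measure (EuclideanSpace ℝ (Fin 2))) μH[((2 : ℕ) : ℝ)] : NNReal) : ℝ)

theorem kappa_pos : 0 < kappa := by
  have h := addHaarScalarFactor_volume_hausdorffMeasure_ne_zero 2
  unfold kappa
  exact_mod_cast pos_iff_ne_zero.mpr h

theorem muHE_toReal_eq (s : Set E3) :
    ((μHE[2] : Measure E3) s).toReal = kappa * ((μH[(2 : ℝ)] : Measure E3) s).toReal := by
  rw [euclideanHausdorffMeasure_def, Measure.smul_apply, ENNReal.smul_def, smul_eq_mul,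
    ENNReal.toReal_mul]
  norm_num [kappa]

theorem muH_toReal_eq (s : Set E3) :
    ((μH[(2 : ℝ)] : Measure E3) s).toReal = kappa⁻¹ * ((μHE[2] : Measure E3) s).toReal := by
  rw [muHE_toReal_eq, ← mul_assoc, inv_mul_cancel₀ kappa_pos.ne', one_mul]


/-! ### Orthogonal projections `y ↦ y - ⟪y, v⟫ v` -/

/-- The map `y ↦ y - ⟪y, v⟫ • v` as a linear map. -/
noncomputable def projL (v : E3) : E3 →ₗ[ℝ] E3 where
  toFun y := y - inner ℝ y v • v
  map_add' x y := by simp only [inner_add_left, add_smul]; abel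
  map_smul' r x := by simp only [inner_smul_left, RingHom.id_apply, conj_trivial, mul_smul, smul_sub]

@[simp] theorem projL_apply (v y : E3) : projL v y = y - inner ℝ y v • v := rfl

theorem proj_image_convexHull (v : E3) (S : Set E3) :
    (fun y : E3 => y - inner ℝ y v • v) '' convexHull ℝ S =
      convexHull ℝ ((fun y : E3 => y - inner ℝ y v • v) '' S) :=
  (projL v).image_convexHull S

/-- The determinant of three vectors of `E3`. -/
def det3 (a b v : E3) : ℝ :=
  a 0 * (b 1 * v 2 - b 2 * v 1) - a 1 * (b 0 * v 2 - b 2 * v 0) + a 2 * (b 0 * v 1 - b 1 * v 0)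

theorem inner_E3 (a b : E3) : inner ℝ a b = a 0 * b 0 + a 1 * b 1 + a 2 * b 2 := by
  simp only [PiLp.inner_apply, Fin.sum_univ_three, RCLike.inner_apply, conj_trivial]
  ring

theorem norm_sq_E3 (a : E3) : ‖a‖ ^ 2 = a 0 ^ 2 + a 1 ^ 2 + a 2 ^ 2 := by
  simp only [EuclideanSpace.norm_sq_eq, Fin.sum_univ_three, Real.norm_eq_abs, sq_abs]

theorem gram_E3 (a b : E3) : gram a b =
    (a 1 * b 2 - a 2 * b 1) ^ 2 + (a 2 * b 0 - a 0 * b 2) ^ 2 + (a 0 * b 1 - a 1 * b 0) ^ 2 := by
  unfold gram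
  rw [norm_sq_E3, norm_sq_E3, inner_E3]
  ring

/-- The Gram determinant of the projections of `a, b` along the unit vector `v`. -/
theorem gram_proj (a b v : E3) (hv : ‖v‖ = 1) :
    gram (a - inner ℝ a v • v) (b - inner ℝ b v • v) = det3 a b v ^ 2 := by
  have hv2 : v 0 ^ 2 + v 1 ^ 2 + v 2 ^ 2 = 1 := by rw [← norm_sq_E3, hv]; norm_num
  rw [gram_E3]
  simp only [PiLp.sub_apply, PiLp.smul_apply, smul_eq_mul, inner_E3, det3]
  generalize a 0 = a0, a 1 = a1, a 2 = a2, b 0 = b0, b 1 = b1, b 2 = b2, v 0 = v0, v 1 = v1,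
    v 2 = v2 at *
  set D : ℝ := a0 * (b1 * v2 - b2 * v1) - a1 * (b0 * v2 - b2 * v0) + a2 * (b0 * v1 - b1 * v0) with hD
  have c0 : (a1 - (a0 * v0 + a1 * v1 + a2 * v2) * v1) * (b2 - (b0 * v0 + b1 * v1 + b2 * v2) * v2) -
      (a2 - (a0 * v0 + a1 * v1 + a2 * v2) * v2) * (b1 - (b0 * v0 + b1 * v1 + b2 * v2) * v1)
      = v0 * D := by
    rw [hD]; linear_combination (-(a1 * b2 - a2 * b1)) * hv2
  have c1 : (a2 - (a0 * v0 + a1 * v1 + a2 * v2) * v2) * (b0 - (b0 * v0 + b1 * v1 + b2 * v2) * v0) -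
      (a0 - (a0 * v0 + a1 * v1 + a2 * v2) * v0) * (b2 - (b0 * v0 + b1 * v1 + b2 * v2) * v2)
      = v1 * D := by
    rw [hD]; linear_combination (-(a2 * b0 - a0 * b2)) * hv2
  have c2 : (a0 - (a0 * v0 + a1 * v1 + a2 * v2) * v0) * (b1 - (b0 * v0 + b1 * v1 + b2 * v2) * v1) -
      (a1 - (a0 * v0 + a1 * v1 + a2 * v2) * v1) * (b0 - (b0 * v0 + b1 * v1 + b2 * v2) * v0)
      = v2 * D := by
    rw [hD]; linear_combination (-(a0 * b1 - a1 * b0)) * hv2
  rw [c0, c1, c2]
  linear_combination D ^ 2 * hv2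

end Crest.Agent.Lib_helper6_Area
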