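import Crest.Agent.Lib_helper6_Tetra

/-!
Package B of row 211 (`S0324`--`S0329`), in the statement shapes of the team interface file:
`minproj_ge`, `minproj_eq`, `proj_lt_top`, `hausdorff_const`, `exists_relOpen`,
and the lower bound for general regular tetrahedra.
-/

set_option autoImplicit false
open MeasureTheory
open scoped ENNReal

namespace Crest.Agent.Lib_helper6_CylB

open Crest.Agent.Lib_helper6_Area Crest.Agent.Lib_helper6_Proj Crest.Agent.Lib_helper6_Tetra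

theorem minproj_ge (v : E3) (hv : ‖v‖ = 1) :
    ENNReal.ofReal (Real.sqrt 2) ≤ μHE[2] ((fun y => y - inner ℝ y v • v) ''
      convexHull ℝ {!₂[1, 0, 0], !₂[-1, 0, 0], !₂[0, 1, Real.sqrt 2], !₂[0, -1, Real.sqrt 2]}) :=
  std_proj_lower v hv

theorem minproj_eq : ∃ v : E3, ‖v‖ = 1 ∧
    μHE[2] ((fun y => y - inner ℝ y v • v) ''
      convexHull ℝ {!₂[1, 0, 0], !₂[-1, 0, 0], !₂[0, 1, Real.sqrt 2], !₂[0, -1, Real.sqrt 2]}) =
      ENNReal.ofReal (Real.sqrt 2) :=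
  std_proj_eq

/-- Projections of bounded sets have finite area. -/
theorem proj_lt_top (v : E3) (hv : ‖v‖ = 1) (S : Set E3) (hS : Bornology.IsBounded S) :
    μHE[2] ((fun y => y - inner ℝ y v • v) '' S) < ⊤ :=
  muHE_pr_lt_top v hv hS

theorem minproj_ge_toReal (v : E3) (hv : ‖v‖ = 1) :
    Real.sqrt 2 ≤ (μHE[2] ((fun y => y - inner ℝ y v • v) ''
      convexHull ℝ {!₂[1, 0, 0], !₂[-1, 0, 0], !₂[0, 1, Real.sqrt 2],
        !₂[0, -1, Real.sqrt 2]} : Set E3)).toReal :=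
  std_proj_lower_toReal v hv

/-- Lower bound for all regular tetrahedra, in the shape of `S0327`. -/
theorem regular_minproj_ge (w : Fin 4 → E3) (ℓ : ℝ) (hℓ : 0 < ℓ)
    (hw : ∀ i j, i ≠ j → dist (w i) (w j) = ℓ) (v : E3) (hv : ‖v‖ = 1) :
    ENNReal.ofReal (ℓ ^ 2 * Real.sqrt 2 / 4) ≤
      μHE[2] ((fun y => y - inner ℝ y v • v) '' convexHull ℝ (Set.range w)) :=
  regular_tetra_proj_lower w ℓ hℓ hw v hv

theorem regular_minproj_ge_toReal (w : Fin 4 → E3) (ℓ : ℝ) (hℓ : 0 < ℓ)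
    (hw : ∀ i j, i ≠ j → dist (w i) (w j) = ℓ) (v : E3) (hv : ‖v‖ = 1) :
    ℓ ^ 2 * Real.sqrt 2 / 4 ≤
      (μHE[2] ((fun y => y - inner ℝ y v • v) '' convexHull ℝ (Set.range w))).toReal :=
  regular_tetra_proj_lower_toReal w ℓ hℓ hw v hv

/-- Conversion for `S0324`. -/
theorem hausdorff_const : ∃ c : ℝ, 0 < c ∧ ∀ S : Set E3,
    (μH[(2 : ℝ)] S).toReal = c * (μHE[2] S).toReal :=
  ⟨kappa⁻¹, inv_pos.mpr kappa_pos, muH_toReal_eq⟩

/-- Relatively open enlargement of a bounded planar set. -/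
theorem exists_relOpen (u : E3) (hu : ‖u‖ = 1) (T : Set E3) (hT : ∀ x ∈ T, inner ℝ x u = 0)
    (hb : Bornology.IsBounded T) (η : ℝ) (hη : 0 < η) :
    ∃ O : Set E3, IsOpen O ∧ T ⊆ O ∧ Bornology.IsBounded (O ∩ {x | inner ℝ x u = 0}) ∧
      (μHE[2] (O ∩ {x | inner ℝ x u = 0})).toReal ≤ (μHE[2] T).toReal + η := by
  obtain ⟨B, hB, ⟨O, hO, rfl⟩, hTB, hle⟩ := exists_relOpen_superset u hu T hb hT η hη
  exact ⟨O, hO, fun x hx => (hTB hx).1, hB, hle⟩

end Crest.Agent.Lib_helper6_CylB
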