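import Crest.Agent.Lib_helper6_Area

/-!
Projections of triangles, finiteness of planar areas, orthonormal frames, relatively open
enlargements.
-/

open MeasureTheory Measure Module
open scoped RealInnerProductSpace

namespace Crest.Agent.Lib_helper6_Proj

open Crest.Agent.Lib_helper6_Area

/-- Area of a projected triangle. -/
theorem muHE_proj_triangle (p q r v : E3) (hv : ‖v‖ = 1) :
    (μHE[2] : Measure E3) ((fun y : E3 => y - inner ℝ y v • v) '' convexHull ℝ {p, q, r}) =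
      ENNReal.ofReal (|det3 (q - p) (r - p) v| / 2) := by
  rw [proj_image_convexHull, Set.image_insert_eq, Set.image_pair, muHE_triangle]
  have h1 : (q - inner ℝ q v • v) - (p - inner ℝ p v • v) =
      (q - p) - inner ℝ (q - p) v • v := by
    rw [inner_sub_left, sub_smul]; abel
  have h2 : (r - inner ℝ r v • v) - (p - inner ℝ p v • v) =
      (r - p) - inner ℝ (r - p) v • v := by
    rw [inner_sub_left, sub_smul]; abel
  rw [h1, h2, gram_proj _ _ _ hv, Real.sqrt_sq_eq_abs]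

/-- An orthonormal frame `e1, e2, u` completing a unit vector `u`. -/
theorem exists_frame (u : E3) (hu : ‖u‖ = 1) :
    ∃ e1 e2 : E3, ‖e1‖ = 1 ∧ ‖e2‖ = 1 ∧ ⟪e1, e2⟫ = 0 ∧ ⟪e1, u⟫ = 0 ∧ ⟪e2, u⟫ = 0 ∧
      ∀ y : E3, y = ⟪y, e1⟫ • e1 + ⟪y, e2⟫ • e2 + ⟪y, u⟫ • u := by
  have hu0 : u ≠ 0 := by
    intro h; rw [h, norm_zero] at hu; exact zero_ne_one hu
  have : Fact (finrank ℝ E3 = 2 + 1) := ⟨by simp⟩
  have hfin : finrank ℝ (ℝ ∙ u)ᗮ = 2 := Submodule.finrank_orthogonal_span_singleton hu0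
  let B : OrthonormalBasis (Fin 2) ℝ (ℝ ∙ u)ᗮ :=
    (stdOrthonormalBasis ℝ (ℝ ∙ u)ᗮ).reindex (finCongr hfin)
  have hB := B.orthonormal
  have hmem : ∀ i, ⟪((B i : (ℝ ∙ u)ᗮ) : E3), u⟫ = 0 := fun i =>
    (Submodule.mem_orthogonal_singleton_iff_inner_left).mp (B i).2
  refine ⟨B 0, B 1, ?_, ?_, ?_, hmem 0, hmem 1, fun y => ?_⟩
  · exact hB.1 0
  · exact hB.1 1
  · exact hB.2 (i := 0) (j := 1) (by decide)
  · have huu : ⟪u, u⟫ = 1 := by rw [real_inner_self_eq_norm_sq, hu]; norm_num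
    have hy' : y - ⟪y, u⟫ • u ∈ (ℝ ∙ u)ᗮ := by
      rw [Submodule.mem_orthogonal_singleton_iff_inner_left, inner_sub_left, inner_smul_left, huu]
      simp
    have hsum := B.sum_repr' ⟨y - ⟪y, u⟫ • u, hy'⟩
    have hsum' := congrArg (Subtype.val) hsum
    simp only [Fin.sum_univ_two, Submodule.coe_add, Submodule.coe_smul, Submodule.coe_inner] at hsum'
    have e1 : ⟪((B 0 : (ℝ ∙ u)ᗮ) : E3), y - ⟪y, u⟫ • u⟫ = ⟪y, ((B 0 : (ℝ ∙ u)ᗮ) : E3)⟫ := by
      rw [inner_sub_right, inner_smul_right, hmem 0, mul_zero, sub_zero, real_inner_comm]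
    have e2 : ⟪((B 1 : (ℝ ∙ u)ᗮ) : E3), y - ⟪y, u⟫ • u⟫ = ⟪y, ((B 1 : (ℝ ∙ u)ᗮ) : E3)⟫ := by
      rw [inner_sub_right, inner_smul_right, hmem 1, mul_zero, sub_zero, real_inner_comm]
    rw [e1, e2] at hsum'
    rw [hsum']
    abel

/-- Data of an orthonormal frame `e1, e2, u`. -/
structure Frame (e1 e2 u : E3) : Prop where
  n1 : ‖e1‖ = 1
  n2 : ‖e2‖ = 1
  o12 : ⟪e1, e2⟫ = 0
  o1 : ⟪e1, u⟫ = 0
  o2 : ⟪e2, u⟫ = 0
  exp : ∀ y : E3, y = ⟪y, e1⟫ • e1 + ⟪y, e2⟫ • e2 + ⟪y, u⟫ • u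

theorem exists_Frame (u : E3) (hu : ‖u‖ = 1) : ∃ e1 e2 : E3, Frame e1 e2 u := by
  obtain ⟨e1, e2, h1, h2, h3, h4, h5, h6⟩ := exists_frame u hu
  exact ⟨e1, e2, h1, h2, h3, h4, h5, h6⟩

namespace Frame

variable {e1 e2 u : E3} (F : Frame e1 e2 u)
include F

theorem i11 : ⟪e1, e1⟫ = 1 := by rw [real_inner_self_eq_norm_sq, F.n1]; norm_num
theorem i22 : ⟪e2, e2⟫ = 1 := by rw [real_inner_self_eq_norm_sq, F.n2]; norm_num
theorem o21 : ⟪e2, e1⟫ = 0 := by rw [real_inner_comm, F.o12]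

theorem gram_eq : gram e1 e2 = 1 := by
  unfold gram; rw [F.n1, F.n2, F.o12]; norm_num

theorem inner_comb_1 (s t : ℝ) : ⟪s • e1 + t • e2, e1⟫ = s := by
  rw [inner_add_left, inner_smul_left, inner_smul_left, F.i11, F.o21]; simp

theorem inner_comb_2 (s t : ℝ) : ⟪s • e1 + t • e2, e2⟫ = t := by
  rw [inner_add_left, inner_smul_left, inner_smul_left, F.i22, F.o12]; simp

theorem inner_comb_u (s t : ℝ) : ⟪s • e1 + t • e2, u⟫ = 0 := by
  rw [inner_add_left, inner_smul_left, inner_smul_left, F.o1, F.o2]; simp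

theorem norm_comb (x : E2) : ‖x 0 • e1 + x 1 • e2‖ = ‖x‖ := by
  have h : ‖x 0 • e1 + x 1 • e2‖ ^ 2 = ‖x‖ ^ 2 := by
    rw [← real_inner_self_eq_norm_sq, inner_add_right, inner_smul_right, inner_smul_right,
      F.inner_comb_1, F.inner_comb_2, EuclideanSpace.norm_sq_eq, Fin.sum_univ_two]
    simp only [Real.norm_eq_abs, sq_abs]
    ring
  exact (pow_left_inj₀ (norm_nonneg _) (norm_nonneg _) two_ne_zero).mp h

/-- The planar coordinates of a set in the frame. -/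
def coords (_F : Frame e1 e2 u) (S : Set E3) : Set E2 := {x : E2 | x 0 • e1 + x 1 • e2 ∈ S}

theorem image_coords (S : Set E3) (hS : ∀ x ∈ S, ⟪x, u⟫ = 0) :
    (fun x : E2 => (0 : E3) + (x 0 • e1 + x 1 • e2)) '' F.coords S = S := by
  ext y
  constructor
  · rintro ⟨x, hx, rfl⟩
    have hx' : x 0 • e1 + x 1 • e2 ∈ S := hx
    simpa using hx'
  · intro hy
    have h := F.exp y
    rw [hS y hy, zero_smul, add_zero] at h
    refine ⟨!₂[⟪y, e1⟫, ⟪y, e2⟫], ?_, ?_⟩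
    · show _ ∈ S
      simp only [Matrix.cons_val_zero, Matrix.cons_val_one]
      rw [← h]; exact hy
    · simp only [Matrix.cons_val_zero, Matrix.cons_val_one, zero_add]
      exact h.symm

/-- The area of a subset of the plane `u^⊥` is the Lebesgue measure of its coordinates. -/
theorem muHE_eq_volume (S : Set E3) (hS : ∀ x ∈ S, ⟪x, u⟫ = 0) :
    (μHE[2] : Measure E3) S = volume (F.coords S) := by
  conv_lhs => rw [← F.image_coords S hS]
  rw [muHE_affine_image, F.gram_eq]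
  simp

theorem isBounded_coords (S : Set E3) (hS : Bornology.IsBounded S) :
    Bornology.IsBounded (F.coords S) := by
  obtain ⟨R, hR⟩ := hS.subset_closedBall 0
  refine (Metric.isBounded_closedBall (x := (0 : E2)) (r := R)).subset ?_
  intro x hx
  have := hR hx
  rw [mem_closedBall_zero_iff] at this ⊢
  rwa [F.norm_comb] at this

end Frame

/-- A bounded subset of a plane through the origin has finite area. -/
theorem muHE_lt_top (u : E3) (hu : ‖u‖ = 1) (S : Set E3) (hS : Bornology.IsBounded S)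
    (hSu : ∀ x ∈ S, ⟪x, u⟫ = 0) : (μHE[2] : Measure E3) S < ⊤ := by
  obtain ⟨e1, e2, F⟩ := exists_Frame u hu
  rw [F.muHE_eq_volume S hSu]
  exact (F.isBounded_coords S hS).measure_lt_top

/-- Relatively open enlargement of a bounded planar set with almost the same area. -/
theorem exists_relOpen_superset (u : E3) (hu : ‖u‖ = 1) (P : Set E3)
    (hP : Bornology.IsBounded P) (hPu : ∀ x ∈ P, ⟪x, u⟫ = 0) (ε : ℝ) (hε : 0 < ε) :
    ∃ B : Set E3, Bornology.IsBounded B ∧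
      (∃ O : Set E3, IsOpen O ∧ B = O ∩ {x | inner ℝ x u = 0}) ∧ P ⊆ B ∧
      ((μHE[2] : Measure E3) B).toReal ≤ ((μHE[2] : Measure E3) P).toReal + ε := by
  obtain ⟨e1, e2, F⟩ := exists_Frame u hu
  have hfin : volume (F.coords P) ≠ ⊤ := (F.isBounded_coords P hP).measure_lt_top.ne
  obtain ⟨W, hPW, hWo, hWlt⟩ := (F.coords P).exists_isOpen_lt_add hfin
    (ε := ENNReal.ofReal ε) (by simpa using hε)
  obtain ⟨R, hR⟩ := (F.isBounded_coords P hP).subset_ball 0
  set W' : Set E2 := W ∩ Metric.ball 0 R with hW'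
  have hW'o : IsOpen W' := hWo.inter Metric.isOpen_ball
  have hcont : Continuous (fun y : E3 => (!₂[⟪y, e1⟫, ⟪y, e2⟫] : E2)) := by
    fun_prop
  set O : Set E3 := (fun y : E3 => (!₂[⟪y, e1⟫, ⟪y, e2⟫] : E2)) ⁻¹' W' with hO
  have hBu : ∀ x ∈ O ∩ {x | inner ℝ x u = 0}, ⟪x, u⟫ = 0 := fun x hx => hx.2
  have hcoords : F.coords (O ∩ {x | inner ℝ x u = 0}) = W' := by
    ext x
    simp only [Frame.coords, hO, Set.mem_ofPred_eq, Set.mem_inter_iff, Set.mem_preimage,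
      F.inner_comb_1, F.inner_comb_2, F.inner_comb_u, and_true]
    have : (!₂[x 0, x 1] : E2) = x := by
      ext i; fin_cases i <;> simp
    rw [this]
  refine ⟨O ∩ {x | inner ℝ x u = 0}, ?_, ⟨O, hW'o.preimage hcont, rfl⟩, ?_, ?_⟩
  · rw [← F.image_coords _ hBu, hcoords]
    refine (Metric.isBounded_ball (x := (0 : E3)) (r := R)).subset ?_
    rintro _ ⟨x, hx, rfl⟩
    have := hx.2
    rw [mem_ball_zero_iff] at this ⊢
    show ‖(0 : E3) + (x 0 • e1 + x 1 • e2)‖ < R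
    rwa [zero_add, F.norm_comb]
  · intro y hy
    rw [← F.image_coords _ hBu, hcoords]
    rw [← F.image_coords P hPu] at hy
    obtain ⟨x, hx, rfl⟩ := hy
    exact ⟨x, ⟨hPW hx, hR hx⟩, rfl⟩
  · rw [F.muHE_eq_volume _ hBu, hcoords, F.muHE_eq_volume P hPu]
    have h1 : volume W' ≤ volume (F.coords P) + ENNReal.ofReal ε :=
      (measure_mono Set.inter_subset_left).trans hWlt.le
    have h2 := ENNReal.toReal_mono (by finiteness) h1
    rwa [ENNReal.toReal_add hfin (by finiteness), ENNReal.toReal_ofReal hε.le] at h2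

end Crest.Agent.Lib_helper6_Proj
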