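import Crest.Agent.Lib_helper6_Proj

/-!
Lower bound for the area of the orthogonal projections of a regular tetrahedron.
-/

open MeasureTheory Measure Module
open scoped RealInnerProductSpace

namespace Crest.Agent.Lib_helper6_Tetra

open Crest.Agent.Lib_helper6_Area Crest.Agent.Lib_helper6_Proj

theorem volume_x1_zero : volume {x : E2 | x 1 = 0} = 0 := by
  have h := volume_E2_eq ((Set.univ : Set ℝ) ×ˢ ({0} : Set ℝ))
  have h2 : {x : E2 | (x 0, x 1) ∈ (Set.univ : Set ℝ) ×ˢ ({0} : Set ℝ)} = {x : E2 | x 1 = 0} := by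
    ext x; simp
  rw [h2] at h
  rw [h, Measure.volume_eq_prod, Measure.prod_prod]
  simp

theorem det3_add_mid (a b c v : E3) : det3 a (b + c) v = det3 a b v + det3 a c v := by
  unfold det3; simp only [PiLp.add_apply]; ring

theorem det3_sub_mid (a b c v : E3) : det3 a (b - c) v = det3 a b v - det3 a c v := by
  unfold det3; simp only [PiLp.sub_apply]; ring

theorem det3_smul_mid (a b v : E3) (t : ℝ) : det3 a (t • b) v = t * det3 a b v := by
  unfold det3; simp only [PiLp.smul_apply, smul_eq_mul]; ring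

theorem det3_self_mid (a v : E3) : det3 a a v = 0 := by
  unfold det3; ring

theorem det3_mid_last (a v : E3) : det3 a v v = 0 := by
  unfold det3; ring

/-- The projection along `v`. -/
noncomputable abbrev pr (v : E3) : E3 → E3 := fun y => y - inner ℝ y v • v

theorem pr_add (v x y : E3) : pr v (x + y) = pr v x + pr v y := (projL v).map_add x y
theorem pr_sub (v x y : E3) : pr v (x - y) = pr v x - pr v y := (projL v).map_sub x y
theorem pr_smul (v : E3) (t : ℝ) (x : E3) : pr v (t • x) = t • pr v x := (projL v).map_smul t x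

theorem det3_pr (a y v : E3) : det3 a (pr v y) v = det3 a y v := by
  unfold pr
  rw [det3_sub_mid, det3_smul_mid, det3_mid_last, mul_zero, sub_zero]

theorem measurableSet_pr_triangle (v p q r : E3) :
    MeasurableSet (pr v '' convexHull ℝ {p, q, r}) := by
  have h : pr v '' convexHull ℝ {p, q, r} = convexHull ℝ (pr v '' {p, q, r}) :=
    proj_image_convexHull v _
  rw [h]
  exact (((Set.toFinite _).image _).isCompact_convexHull (𝕜 := ℝ)).isClosed.measurableSet

/-- Two projected triangles with a common edge, lying on opposite sides of it,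
overlap in a null set. -/
theorem muHE_inter_null (A B C D v : E3)
    (hneg : det3 (B - A) (C - A) v * det3 (B - A) (D - A) v < 0) :
    (μHE[2] : Measure E3) (pr v '' convexHull ℝ {A, B, C} ∩ pr v '' convexHull ℝ {A, B, D}) = 0 := by
  set a1 := det3 (B - A) (C - A) v with ha1
  set a2 := det3 (B - A) (D - A) v with ha2
  have hsub : pr v '' convexHull ℝ {A, B, C} ∩ pr v '' convexHull ℝ {A, B, D} ⊆
      (fun x : E2 => pr v A + (x 0 • pr v (B - A) + x 1 • pr v (C - A))) '' {x : E2 | x 1 = 0} := by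
    rintro y ⟨⟨z, hz, rfl⟩, ⟨z', hz', hzz⟩⟩
    rw [convexHull_triple_eq_image] at hz hz'
    obtain ⟨x, ⟨hx0, hx1, hx2⟩, rfl⟩ := hz
    obtain ⟨x', ⟨hx0', hx1', hx2'⟩, rfl⟩ := hz'
    have e1 : det3 (B - A) (pr v (A + (x 0 • (B - A) + x 1 • (C - A))) - A) v = x 1 * a1 := by
      rw [det3_sub_mid, det3_pr, ← det3_sub_mid, add_sub_cancel_left, det3_add_mid, det3_smul_mid,
        det3_smul_mid, det3_self_mid]
      ring
    have e2 : det3 (B - A) (pr v (A + (x' 0 • (B - A) + x' 1 • (D - A))) - A) v = x' 1 * a2 := by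
      rw [det3_sub_mid, det3_pr, ← det3_sub_mid, add_sub_cancel_left, det3_add_mid, det3_smul_mid,
        det3_smul_mid, det3_self_mid]
      ring
    have hzz' : pr v (A + (x' 0 • (B - A) + x' 1 • (D - A))) =
        pr v (A + (x 0 • (B - A) + x 1 • (C - A))) := hzz
    rw [hzz', e1] at e2
    have hx10 : x 1 = 0 := by
      by_contra hne
      have hpos : 0 < x 1 := lt_of_le_of_ne hx1 (Ne.symm hne)
      have ha1ne : a1 ≠ 0 := by
        intro h; rw [h, zero_mul] at hneg; exact lt_irrefl _ hneg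
      have h3 : 0 < x 1 * a1 ^ 2 := by positivity
      have h4 : x 1 * a1 ^ 2 = x' 1 * (a1 * a2) := by linear_combination a1 * e2
      have h5 : x' 1 * (a1 * a2) ≤ 0 := mul_nonpos_of_nonneg_of_nonpos hx1' hneg.le
      linarith
    refine ⟨x, hx10, ?_⟩
    show pr v A + (x 0 • pr v (B - A) + x 1 • pr v (C - A)) = pr v (A + (x 0 • (B - A) + x 1 • (C - A)))
    rw [pr_add, pr_add, pr_smul, pr_smul]
  refine measure_mono_null hsub ?_
  rw [muHE_affine_image, volume_x1_zero, mul_zero]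

/-- The projection of a set containing the triangles `ABC` and `ABD` has area at least
`|det (B - A, D - C, v)| / 2`. -/
theorem le_muHE_proj_quad (A B C D v : E3) (hv : ‖v‖ = 1) (K : Set E3)
    (h1 : convexHull ℝ {A, B, C} ⊆ K) (h2 : convexHull ℝ {A, B, D} ⊆ K) :
    ENNReal.ofReal (|det3 (B - A) (D - C) v| / 2) ≤ (μHE[2] : Measure E3) (pr v '' K) := by
  set a1 := det3 (B - A) (C - A) v with ha1
  set a2 := det3 (B - A) (D - A) v with ha2
  have hd : det3 (B - A) (D - C) v = a2 - a1 := by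
    rw [ha1, ha2, ← det3_sub_mid]; congr 1; abel
  have m1 : (μHE[2] : Measure E3) (pr v '' convexHull ℝ {A, B, C}) = ENNReal.ofReal (|a1| / 2) :=
    muHE_proj_triangle A B C v hv
  have m2 : (μHE[2] : Measure E3) (pr v '' convexHull ℝ {A, B, D}) = ENNReal.ofReal (|a2| / 2) :=
    muHE_proj_triangle A B D v hv
  have s1 : pr v '' convexHull ℝ {A, B, C} ⊆ pr v '' K := Set.image_mono h1
  have s2 : pr v '' convexHull ℝ {A, B, D} ⊆ pr v '' K := Set.image_mono h2
  rw [hd]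
  by_cases hneg : a1 * a2 < 0
  · have hnull := muHE_inter_null A B C D v hneg
    have hu := measure_union_add_inter (μ := (μHE[2] : Measure E3))
      (pr v '' convexHull ℝ {A, B, C}) (measurableSet_pr_triangle v A B D)
    rw [hnull, add_zero, m1, m2, ← ENNReal.ofReal_add (by positivity) (by positivity)] at hu
    have habs : |a2 - a1| / 2 = |a1| / 2 + |a2| / 2 := by
      rcases lt_or_gt_of_ne (show a1 ≠ 0 by intro h; rw [h, zero_mul] at hneg; exact lt_irrefl _ hneg)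
        with h | h
      · have : 0 < a2 := by nlinarith
        rw [abs_of_neg h, abs_of_pos this, abs_of_pos (by linarith)]; ring
      · have : a2 < 0 := by nlinarith
        rw [abs_of_pos h, abs_of_neg this, abs_of_neg (by linarith)]; ring
    rw [habs, ← hu]
    exact measure_mono (Set.union_subset s1 s2)
  · push Not at hneg
    have habs : |a2 - a1| ≤ max |a1| |a2| := by
      rcases le_total 0 a1 with h | h
      · have h' : 0 ≤ a2 ∨ a1 = 0 := by
          by_contra hcon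
          push Not at hcon
          have : 0 < a1 := lt_of_le_of_ne h (Ne.symm hcon.2)
          nlinarith [hcon.1]
        rcases h' with h' | h'
        · rw [abs_of_nonneg h, abs_of_nonneg h', abs_le]
          constructor
          · have := le_max_left a1 a2; linarith
          · have := le_max_right a1 a2; linarith
        · rw [h']; simp
      · have h' : a2 ≤ 0 ∨ a1 = 0 := by
          by_contra hcon
          push Not at hcon
          have : a1 < 0 := lt_of_le_of_ne h hcon.2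
          nlinarith [hcon.1]
        rcases h' with h' | h'
        · rw [abs_of_nonpos h, abs_of_nonpos h', abs_le]
          constructor
          · have := le_max_right (-a1) (-a2); linarith
          · have := le_max_left (-a1) (-a2); linarith
        · rw [h']; simp
    rcases le_total |a1| |a2| with h | h
    · rw [max_eq_right h] at habs
      calc ENNReal.ofReal (|a2 - a1| / 2) ≤ ENNReal.ofReal (|a2| / 2) :=
            ENNReal.ofReal_le_ofReal (by linarith)
        _ = _ := m2.symm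
        _ ≤ _ := measure_mono s2
    · rw [max_eq_left h] at habs
      calc ENNReal.ofReal (|a2 - a1| / 2) ≤ ENNReal.ofReal (|a1| / 2) :=
            ENNReal.ofReal_le_ofReal (by linarith)
        _ = _ := m1.symm
        _ ≤ _ := measure_mono s1

theorem key_alg (a0 a1 a2 b0 b1 b2 c0 c1 c2 v0 v1 v2 l : ℝ) (hl : l ≠ 0)
    (h11 : a0 * a0 + a1 * a1 + a2 * a2 = l ^ 2)
    (h22 : b0 * b0 + b1 * b1 + b2 * b2 = l ^ 2)
    (h33 : c0 * c0 + c1 * c1 + c2 * c2 = l ^ 2)
    (h12 : a0 * b0 + a1 * b1 + a2 * b2 = l ^ 2 / 2)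
    (h13 : a0 * c0 + a1 * c1 + a2 * c2 = l ^ 2 / 2)
    (h23 : b0 * c0 + b1 * c1 + b2 * c2 = l ^ 2 / 2)
    (hv : v0 * v0 + v1 * v1 + v2 * v2 = 1)
    (X Y Z : ℝ)
    (hX : X = b0 * (c1 * v2 - c2 * v1) - b1 * (c0 * v2 - c2 * v0) + b2 * (c0 * v1 - c1 * v0))
    (hY : Y = c0 * (a1 * v2 - a2 * v1) - c1 * (a0 * v2 - a2 * v0) + c2 * (a0 * v1 - a1 * v0))
    (hZ : Z = a0 * (b1 * v2 - b2 * v1) - a1 * (b0 * v2 - b2 * v0) + a2 * (b0 * v1 - b1 * v0)) :
    (Y + Z) ^ 2 + (X + Z) ^ 2 + (X + Y) ^ 2 = l ^ 4 := by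
  set Δ : ℝ := a0 * (b1 * c2 - b2 * c1) - a1 * (b0 * c2 - b2 * c0) + a2 * (b0 * c1 - b1 * c0) with hΔ
  have k0 : Δ * v0 = X * a0 + Y * b0 + Z * c0 := by rw [hΔ, hX, hY, hZ]; ring
  have k1 : Δ * v1 = X * a1 + Y * b1 + Z * c1 := by rw [hΔ, hX, hY, hZ]; ring
  have k2 : Δ * v2 = X * a2 + Y * b2 + Z * c2 := by rw [hΔ, hX, hY, hZ]; ring
  have hG : Δ ^ 2 = (a0 * a0 + a1 * a1 + a2 * a2) * (b0 * b0 + b1 * b1 + b2 * b2) * (c0 * c0 + c1 * c1 + c2 * c2)
      + 2 * (a0 * b0 + a1 * b1 + a2 * b2) * (b0 * c0 + b1 * c1 + b2 * c2) * (a0 * c0 + a1 * c1 + a2 * c2)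
      - (a0 * a0 + a1 * a1 + a2 * a2) * (b0 * c0 + b1 * c1 + b2 * c2) ^ 2
      - (b0 * b0 + b1 * b1 + b2 * b2) * (a0 * c0 + a1 * c1 + a2 * c2) ^ 2
      - (c0 * c0 + c1 * c1 + c2 * c2) * (a0 * b0 + a1 * b1 + a2 * b2) ^ 2 := by
    rw [hΔ]; ring
  rw [h11, h22, h33, h12, h13, h23] at hG
  have hN : Δ ^ 2 * (v0 * v0 + v1 * v1 + v2 * v2) =
      X ^ 2 * (a0 * a0 + a1 * a1 + a2 * a2) + Y ^ 2 * (b0 * b0 + b1 * b1 + b2 * b2)
      + Z ^ 2 * (c0 * c0 + c1 * c1 + c2 * c2) + 2 * X * Y * (a0 * b0 + a1 * b1 + a2 * b2)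
      + 2 * X * Z * (a0 * c0 + a1 * c1 + a2 * c2) + 2 * Y * Z * (b0 * c0 + b1 * c1 + b2 * c2) := by
    have : Δ ^ 2 * (v0 * v0 + v1 * v1 + v2 * v2) = (Δ * v0) ^ 2 + (Δ * v1) ^ 2 + (Δ * v2) ^ 2 := by ring
    rw [this, k0, k1, k2]; ring
  rw [h11, h22, h33, h12, h13, h23, hv, hG] at hN
  have hl2 : l ^ 2 ≠ 0 := pow_ne_zero 2 hl
  apply mul_left_cancel₀ hl2
  linear_combination (-2) * hN

theorem max_bound (P Q S l m : ℝ) (h : P ^ 2 + Q ^ 2 + S ^ 2 = l ^ 4)
    (hP : |P| / 2 ≤ m) (hQ : |Q| / 2 ≤ m) (hS : |S| / 2 ≤ m)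
    (h1 : |P + Q + S| / 4 ≤ m) (h2 : |-P + Q + S| / 4 ≤ m) (h3 : |P - Q + S| / 4 ≤ m)
    (h4 : |P + Q - S| / 4 ≤ m) : l ^ 2 * Real.sqrt 2 / 4 ≤ m := by
  have hm : 0 ≤ m := le_trans (by positivity) hP
  have hsum : (|P| + |Q| + |S|) / 4 ≤ m := by
    rcases abs_cases P with ⟨hp, _⟩ | ⟨hp, _⟩ <;> rcases abs_cases Q with ⟨hq, _⟩ | ⟨hq, _⟩ <;>
      rcases abs_cases S with ⟨hs, _⟩ | ⟨hs, _⟩ <;> rw [hp, hq, hs]
    · exact le_trans (by gcongr; exact le_abs_self _) h1
    · exact le_trans (by gcongr; exact (le_of_eq (by ring)).trans (le_abs_self _)) h4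
    · exact le_trans (by gcongr; exact (le_of_eq (by ring)).trans (le_abs_self _)) h3
    · exact le_trans (by gcongr; exact (le_of_eq (by ring)).trans (neg_le_abs _)) h2
    · exact le_trans (by gcongr; exact (le_of_eq (by ring)).trans (le_abs_self _)) h2
    · exact le_trans (by gcongr; exact (le_of_eq (by ring)).trans (neg_le_abs _)) h3
    · exact le_trans (by gcongr; exact (le_of_eq (by ring)).trans (neg_le_abs _)) h4
    · exact le_trans (by gcongr; exact (le_of_eq (by ring)).trans (neg_le_abs _)) h1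
  have h8 : l ^ 4 ≤ 8 * m ^ 2 := by
    have e1 : P ^ 2 ≤ 2 * m * |P| := by
      rw [← sq_abs]; nlinarith [abs_nonneg P]
    have e2 : Q ^ 2 ≤ 2 * m * |Q| := by
      rw [← sq_abs]; nlinarith [abs_nonneg Q]
    have e3 : S ^ 2 ≤ 2 * m * |S| := by
      rw [← sq_abs]; nlinarith [abs_nonneg S]
    nlinarith
  by_contra hcon
  push Not at hcon
  have hs2 : Real.sqrt 2 ^ 2 = 2 := Real.sq_sqrt (by norm_num)
  have : m ^ 2 < (l ^ 2 * Real.sqrt 2 / 4) ^ 2 := by gcongr
  have e : (l ^ 2 * Real.sqrt 2 / 4) ^ 2 = l ^ 4 / 8 := by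
    rw [div_pow, mul_pow, hs2]; ring
  rw [e] at this
  linarith

theorem isBounded_pr_image (v : E3) {K : Set E3} (hK : Bornology.IsBounded K) :
    Bornology.IsBounded (pr v '' K) :=
  (projL v).toContinuousLinearMap.lipschitz.isBounded_image hK

theorem inner_pr (v : E3) (hv : ‖v‖ = 1) (y : E3) : ⟪pr v y, v⟫ = 0 := by
  unfold pr
  rw [inner_sub_left, inner_smul_left, real_inner_self_eq_norm_sq, hv]
  simp

/-- Projections of bounded sets have finite area. -/
theorem muHE_pr_lt_top (v : E3) (hv : ‖v‖ = 1) {K : Set E3} (hK : Bornology.IsBounded K) :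
    (μHE[2] : Measure E3) ((fun y : E3 => y - inner ℝ y v • v) '' K) < ⊤ := by
  apply muHE_lt_top v hv _ (isBounded_pr_image v hK)
  rintro _ ⟨y, _, rfl⟩
  exact inner_pr v hv y

theorem isBounded_convexHull_range {n : ℕ} (w : Fin n → E3) :
    Bornology.IsBounded (convexHull ℝ (Set.range w)) :=
  ((Set.finite_range w).isCompact_convexHull (𝕜 := ℝ)).isBounded

/-- **Projections of a regular tetrahedron** of edge `l` have area at least `l² √2 / 4`. -/
theorem regular_tetra_proj_lower (w : Fin 4 → E3) (l : ℝ) (hl : 0 < l)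
    (hw : ∀ i j, i ≠ j → dist (w i) (w j) = l) (v : E3) (hv : ‖v‖ = 1) :
    ENNReal.ofReal (l ^ 2 * Real.sqrt 2 / 4) ≤
      (μHE[2] : Measure E3) ((fun y : E3 => y - inner ℝ y v • v) '' convexHull ℝ (Set.range w)) := by
  set K := convexHull ℝ (Set.range w) with hK
  have hfin : (μHE[2] : Measure E3) ((fun y : E3 => y - inner ℝ y v • v) '' K) ≠ ⊤ :=
    (muHE_pr_lt_top v hv (isBounded_convexHull_range w)).ne
  rw [ENNReal.ofReal_le_iff_le_toReal hfin]
  set m := ((μHE[2] : Measure E3) ((fun y : E3 => y - inner ℝ y v • v) '' K)).toReal with hm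
  have hsub : ∀ i j k : Fin 4, convexHull ℝ {w i, w j, w k} ⊆ K := by
    intro i j k
    apply convexHull_mono
    intro x hx
    simp only [Set.mem_insert_iff, Set.mem_singleton_iff] at hx
    rcases hx with rfl | rfl | rfl <;> exact Set.mem_range_self _
  have face : ∀ i j k : Fin 4, |det3 (w j - w i) (w k - w i) v| / 2 ≤ m := by
    intro i j k
    rw [hm, ← ENNReal.ofReal_le_iff_le_toReal hfin, ← muHE_proj_triangle _ _ _ _ hv]
    exact measure_mono (Set.image_mono (hsub i j k))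
  have quad : ∀ i j k n : Fin 4, |det3 (w j - w i) (w n - w k) v| / 2 ≤ m := by
    intro i j k n
    rw [hm, ← ENNReal.ofReal_le_iff_le_toReal hfin]
    exact le_muHE_proj_quad _ _ _ _ v hv K (hsub i j k) (hsub i j n)
  -- the inner products
  have hnorm : ∀ i j : Fin 4, i ≠ j → ‖w i - w j‖ ^ 2 = l ^ 2 := by
    intro i j hij
    rw [← dist_eq_norm, hw i j hij]
  set d1 := w 1 - w 0 with hd1
  set d2 := w 2 - w 0 with hd2
  set d3 := w 3 - w 0 with hd3
  have n1 : ‖d1‖ ^ 2 = l ^ 2 := hnorm 1 0 (by decide)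
  have n2 : ‖d2‖ ^ 2 = l ^ 2 := hnorm 2 0 (by decide)
  have n3 : ‖d3‖ ^ 2 = l ^ 2 := hnorm 3 0 (by decide)
  have n12 : ‖d1 - d2‖ ^ 2 = l ^ 2 := by
    rw [hd1, hd2, sub_sub_sub_cancel_right]; exact hnorm 1 2 (by decide)
  have n13 : ‖d1 - d3‖ ^ 2 = l ^ 2 := by
    rw [hd1, hd3, sub_sub_sub_cancel_right]; exact hnorm 1 3 (by decide)
  have n23 : ‖d2 - d3‖ ^ 2 = l ^ 2 := by
    rw [hd2, hd3, sub_sub_sub_cancel_right]; exact hnorm 2 3 (by decide)
  have nv : ‖v‖ ^ 2 = 1 := by rw [hv]; norm_num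
  rw [norm_sq_E3] at n1 n2 n3 n12 n13 n23 nv
  simp only [PiLp.sub_apply] at n12 n13 n23
  have key := key_alg (d1 0) (d1 1) (d1 2) (d2 0) (d2 1) (d2 2) (d3 0) (d3 1) (d3 2)
    (v 0) (v 1) (v 2) l hl.ne' (by linarith) (by linarith) (by linarith) (by linarith)
    (by linarith) (by linarith) (by linarith) (det3 d2 d3 v) (det3 d3 d1 v) (det3 d1 d2 v)
    rfl rfl rfl
  set X := det3 d2 d3 v with hX
  set Y := det3 d3 d1 v with hY
  set Z := det3 d1 d2 v with hZ
  have fX : |X| / 2 ≤ m := face 0 2 3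
  have fY : |Y| / 2 ≤ m := face 0 3 1
  have fZ : |Z| / 2 ≤ m := face 0 1 2
  have fW : |X + Y + Z| / 2 ≤ m := by
    have h := face 1 2 3
    have e : det3 (w 2 - w 1) (w 3 - w 1) v = X + Y + Z := by
      rw [hX, hY, hZ, hd1, hd2, hd3]
      unfold det3
      simp only [PiLp.sub_apply]
      ring
    rwa [e] at h
  have qP : |Y + Z| / 2 ≤ m := by
    have h := quad 0 1 2 3
    have e : det3 (w 1 - w 0) (w 3 - w 2) v = -(Y + Z) := by
      rw [hY, hZ, hd1, hd2, hd3]
      unfold det3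
      simp only [PiLp.sub_apply]
      ring
    rwa [e, abs_neg] at h
  have qQ : |X + Z| / 2 ≤ m := by
    have h := quad 0 2 1 3
    have e : det3 (w 2 - w 0) (w 3 - w 1) v = X + Z := by
      rw [hX, hZ, hd1, hd2, hd3]
      unfold det3
      simp only [PiLp.sub_apply]
      ring
    rwa [e] at h
  have qS : |X + Y| / 2 ≤ m := by
    have h := quad 0 3 1 2
    have e : det3 (w 3 - w 0) (w 2 - w 1) v = -(X + Y) := by
      rw [hX, hY, hd1, hd2, hd3]
      unfold det3
      simp only [PiLp.sub_apply]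
      ring
    rwa [e, abs_neg] at h
  refine max_bound (Y + Z) (X + Z) (X + Y) l m key qP qQ qS ?_ ?_ ?_ ?_
  · have e : Y + Z + (X + Z) + (X + Y) = 2 * (X + Y + Z) := by ring
    rw [e, abs_mul, abs_two]; linarith
  · have e : -(Y + Z) + (X + Z) + (X + Y) = 2 * X := by ring
    rw [e, abs_mul, abs_two]; linarith
  · have e : Y + Z - (X + Z) + (X + Y) = 2 * Y := by ring
    rw [e, abs_mul, abs_two]; linarith
  · have e : Y + Z + (X + Z) - (X + Y) = 2 * Z := by ring
    rw [e, abs_mul, abs_two]; linarith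

theorem regular_tetra_proj_lower_toReal (w : Fin 4 → E3) (l : ℝ) (hl : 0 < l)
    (hw : ∀ i j, i ≠ j → dist (w i) (w j) = l) (v : E3) (hv : ‖v‖ = 1) :
    l ^ 2 * Real.sqrt 2 / 4 ≤
      ((μHE[2] : Measure E3)
        ((fun y : E3 => y - inner ℝ y v • v) '' convexHull ℝ (Set.range w))).toReal := by
  rw [← ENNReal.ofReal_le_iff_le_toReal (muHE_pr_lt_top v hv (isBounded_convexHull_range w)).ne]
  exact regular_tetra_proj_lower w l hl hw v hv

/-! ### The standard tetrahedron -/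

/-- The vertices of the standard regular tetrahedron. -/
noncomputable def stdW : Fin 4 → E3 :=
  ![!₂[1, 0, 0], !₂[-1, 0, 0], !₂[0, 1, Real.sqrt 2], !₂[0, -1, Real.sqrt 2]]

theorem range_stdW : Set.range stdW =
    {!₂[1, 0, 0], !₂[-1, 0, 0], !₂[0, 1, Real.sqrt 2], !₂[0, -1, Real.sqrt 2]} := by
  unfold stdW
  ext x
  simp only [Set.mem_range, Set.mem_insert_iff, Set.mem_singleton_iff]
  constructor
  · rintro ⟨i, rfl⟩
    fin_cases i <;> simp
  · rintro (rfl | rfl | rfl | rfl)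
    · exact ⟨0, rfl⟩
    · exact ⟨1, rfl⟩
    · exact ⟨2, rfl⟩
    · exact ⟨3, rfl⟩

theorem dist_stdW : ∀ i j, i ≠ j → dist (stdW i) (stdW j) = 2 := by
  have hs2 : Real.sqrt 2 ^ 2 = 2 := Real.sq_sqrt (by norm_num)
  have h4 : Real.sqrt 4 = 2 := by
    rw [show (4 : ℝ) = 2 ^ 2 by norm_num, Real.sqrt_sq (by norm_num)]
  intro i j hij
  rw [EuclideanSpace.dist_eq, ← h4]
  congr 1
  fin_cases i <;> fin_cases j <;>
    first
    | exact absurd rfl hij
    | (simp [stdW, Fin.sum_univ_three, Real.dist_eq, sq_abs, hs2]; try norm_num)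

/-- `S0325`, first half of part (1). -/
theorem std_proj_lower (v : E3) (hv : ‖v‖ = 1) :
    ENNReal.ofReal (Real.sqrt 2) ≤ (μHE[2] : Measure E3) ((fun y => y - inner ℝ y v • v) ''
      convexHull ℝ {!₂[1, 0, 0], !₂[-1, 0, 0], !₂[0, 1, Real.sqrt 2], !₂[0, -1, Real.sqrt 2]}) := by
  have h := regular_tetra_proj_lower stdW 2 (by norm_num) dist_stdW v hv
  rw [range_stdW] at h
  convert h using 2
  ring

theorem std_proj_lower_toReal (v : E3) (hv : ‖v‖ = 1) :
    Real.sqrt 2 ≤ ((μHE[2] : Measure E3) ((fun y => y - inner ℝ y v • v) ''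
      convexHull ℝ {!₂[1, 0, 0], !₂[-1, 0, 0], !₂[0, 1, Real.sqrt 2],
        !₂[0, -1, Real.sqrt 2]})).toReal := by
  have h := regular_tetra_proj_lower_toReal stdW 2 (by norm_num) dist_stdW v hv
  rw [range_stdW] at h
  convert h using 1
  ring

/-- `S0325`, second half of part (1). -/
theorem std_proj_eq : ∃ v : E3, ‖v‖ = 1 ∧
    (μHE[2] : Measure E3) ((fun y => y - inner ℝ y v • v) ''
      convexHull ℝ {!₂[1, 0, 0], !₂[-1, 0, 0], !₂[0, 1, Real.sqrt 2], !₂[0, -1, Real.sqrt 2]}) =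
      ENNReal.ofReal (Real.sqrt 2) := by
  have hs2 : Real.sqrt 2 ^ 2 = 2 := Real.sq_sqrt (by norm_num)
  refine ⟨!₂[1, 0, 0], ?_, ?_⟩
  · have : ‖(!₂[1, 0, 0] : E3)‖ ^ 2 = 1 := by rw [norm_sq_E3]; simp
    exact (pow_eq_one_iff_of_nonneg (norm_nonneg _) two_ne_zero).mp this
  · rw [proj_image_convexHull, Set.image_insert_eq, Set.image_insert_eq, Set.image_pair]
    have e1 : (!₂[1, 0, 0] : E3) - inner ℝ (!₂[1, 0, 0] : E3) (!₂[1, 0, 0] : E3) • (!₂[1, 0, 0] : E3)
        = 0 := by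
      rw [inner_E3]; ext i; fin_cases i <;> simp
    have e2 : (!₂[-1, 0, 0] : E3) - inner ℝ (!₂[-1, 0, 0] : E3) (!₂[1, 0, 0] : E3) • (!₂[1, 0, 0] : E3)
        = 0 := by
      rw [inner_E3]; ext i; fin_cases i <;> simp
    have e3 : (!₂[0, 1, Real.sqrt 2] : E3) -
        inner ℝ (!₂[0, 1, Real.sqrt 2] : E3) (!₂[1, 0, 0] : E3) • (!₂[1, 0, 0] : E3)
        = !₂[0, 1, Real.sqrt 2] := by
      rw [inner_E3]; ext i; fin_cases i <;> simp
    have e4 : (!₂[0, -1, Real.sqrt 2] : E3) -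
        inner ℝ (!₂[0, -1, Real.sqrt 2] : E3) (!₂[1, 0, 0] : E3) • (!₂[1, 0, 0] : E3)
        = !₂[0, -1, Real.sqrt 2] := by
      rw [inner_E3]; ext i; fin_cases i <;> simp
    rw [e1, e2, e3, e4, Set.insert_eq_of_mem (Set.mem_insert _ _), muHE_triangle, gram_E3]
    congr 1
    simp only [sub_zero, Matrix.cons_val_zero, Matrix.cons_val_one, Matrix.cons_val_two,
      Matrix.head_cons, Matrix.tail_cons]
    have : (1 * Real.sqrt 2 - Real.sqrt 2 * -1) ^ 2 + (Real.sqrt 2 * 0 - 0 * Real.sqrt 2) ^ 2 +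
        ((0 : ℝ) * -1 - 1 * 0) ^ 2 = (2 * Real.sqrt 2) ^ 2 := by ring
    rw [this, Real.sqrt_sq (by positivity)]
    ring

end Crest.Agent.Lib_helper6_Tetra
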