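import Crest.Agent.Lib_helper4_CylArea

/-!
Toolkit extras for the cylinder-covering row (S0324 – S0329):
similarity scaling of `μHE[2]` and relatively open enlargements of bounded planar sets.
-/

set_option autoImplicit false
open MeasureTheory Set
open scoped ENNReal Pointwise

namespace Crest.Agent.Lib_helper7_CylExtras
open Crest.Agent.Lib_helper4_CylArea

/-- similarity scaling of area (`T` linear isometry, `s > 0`, any translation). -/
theorem area_similarity (T : E3 →ₗᵢ[ℝ] E3) (s : ℝ) (hs : 0 < s) (x₀ : E3) (S : Set E3) :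
    μHE[2] ((fun x => s • T x + x₀) '' S) = ENNReal.ofReal (s ^ 2) * μHE[2] S := by
  have e : (fun x => s • T x + x₀) '' S = (fun y => y + x₀) '' (s • (T '' S)) := by
    rw [← image_smul, image_image, image_image]
  rw [e, (isometry_add_right x₀).euclideanHausdorffMeasure_image,
    Measure.euclideanHausdorffMeasure_smul₀ 2 hs.ne', T.isometry.euclideanHausdorffMeasure_image]
  rw [ENNReal.smul_def, smul_eq_mul]
  congr 1
  rw [ENNReal.ofReal_pow hs.le]
  have : (‖s‖₊ : ℝ≥0∞) = ENNReal.ofReal s := by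
    have h := ofReal_norm s
    rw [Real.norm_of_nonneg hs.le] at h
    rw [h]; rfl
  rw [← this]
  simp

/-- relatively open enlargement of a bounded planar set. -/
theorem exists_relOpen (u : E3) (hu : ‖u‖ = 1) (T : Set E3) (hT : ∀ x ∈ T, inner ℝ x u = 0)
    (hb : Bornology.IsBounded T) (η : ℝ) (hη : 0 < η) :
    ∃ O : Set E3, IsOpen O ∧ T ⊆ O ∧ Bornology.IsBounded (O ∩ {x | inner ℝ x u = 0}) ∧
      (μHE[2] (O ∩ {x | inner ℝ x u = 0})).toReal ≤ (μHE[2] T).toReal + η := by
  obtain ⟨f₁, f₂, n1, n2, h12, h1u, h2u, hrep⟩ := exists_frame u hu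
  set φ : E2 → E3 := fun x => (0 : E3) + x 0 • f₁ + x 1 • f₂ with hφ
  set ψ : E3 → E2 := fun y => !₂[inner ℝ y f₁, inner ℝ y f₂] with hψ
  have hψc : Continuous ψ := by
    rw [hψ]
    fun_prop
  have hφc : Continuous φ := by
    rw [hφ]
    fun_prop
  have hg : gram f₁ f₂ = 1 := by
    unfold gram; rw [n1, n2, h12]; norm_num
  have harea : ∀ S : Set E2, μHE[2] (φ '' S) = volume S := by
    intro S
    rw [hφ, area_image, hg]; simp
  have hφψ : ∀ y : E3, inner ℝ y u = 0 → φ (ψ y) = y := by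
    intro y hy
    simpa [hφ, hψ] using (hrep y hy).symm
  have h21 : inner ℝ f₂ f₁ = 0 := by rw [real_inner_comm]; exact h12
  have hψφ : ∀ x : E2, ψ (φ x) = x := by
    intro x
    ext i
    fin_cases i <;>
      simp [hφ, hψ, inner_add_left, inner_smul_left, n1, n2, h12, h21]
  have hφu : ∀ x : E2, inner ℝ (φ x) u = 0 := by
    intro x
    simp [hφ, inner_add_left, inner_smul_left, h1u, h2u]
  -- the planar copy of `T`
  set T' : Set E2 := ψ '' T with hT'
  have hTT' : T = φ '' T' := by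
    rw [hT', image_image]
    ext y
    constructor
    · intro hy; exact ⟨y, hy, hφψ y (hT y hy)⟩
    · rintro ⟨z, hz, rfl⟩
      show φ (ψ z) ∈ T
      rw [hφψ z (hT z hz)]; exact hz
  have hT'fin : volume T' ≠ ⊤ := by
    rw [← harea, ← hTT']
    exact (area_lt_top_of_bounded u hu T hT hb).ne
  -- `T'` is bounded
  obtain ⟨r, hr⟩ := hb.subset_closedBall (0 : E3)
  have hT'b : Bornology.IsBounded T' :=
    ((isCompact_closedBall (0 : E3) r).image hψc).isBounded.subset (image_mono hr)
  obtain ⟨R, hR⟩ := hT'b.subset_ball (0 : E2)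
  obtain ⟨W, hTW, hWo, hWlt⟩ := T'.exists_isOpen_lt_add hT'fin
    (ε := ENNReal.ofReal η) (by simpa using hη)
  set W' : Set E2 := W ∩ Metric.ball 0 R with hW'
  have hW'o : IsOpen W' := hWo.inter Metric.isOpen_ball
  have hOeq : (ψ ⁻¹' W') ∩ {x | inner ℝ x u = 0} = φ '' W' := by
    ext y
    constructor
    · rintro ⟨h1, h2⟩
      exact ⟨ψ y, h1, hφψ y h2⟩
    · rintro ⟨x, hx, rfl⟩
      refine ⟨?_, hφu x⟩
      show ψ (φ x) ∈ W'
      rw [hψφ]; exact hx
  refine ⟨ψ ⁻¹' W', hW'o.preimage hψc, ?_, ?_, ?_⟩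
  · intro y hy
    exact ⟨hTW ⟨y, hy, rfl⟩, hR ⟨y, hy, rfl⟩⟩
  · rw [hOeq]
    exact ((isCompact_closedBall (0 : E2) R).image hφc).isBounded.subset
      (image_mono (inter_subset_right.trans Metric.ball_subset_closedBall))
  · rw [hOeq, harea, hTT', harea]
    have h1 : volume W' ≤ volume T' + ENNReal.ofReal η :=
      (measure_mono inter_subset_left).trans hWlt.le
    have h2 := ENNReal.toReal_mono (by simp [hT'fin]) h1
    rw [ENNReal.toReal_add hT'fin ENNReal.ofReal_ne_top, ENNReal.toReal_ofReal hη.le] at h2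
    exact h2

end Crest.Agent.Lib_helper7_CylExtras
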