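import Mathlib
import Crest.Prelude.Def_DaugavetL1
import Crest.Agent.Lib_helper2_AUC

/-!
Lower bound `t / 2` for the averaged midpoint modulus of a subspace of `L¹` whose unit ball is
totally bounded in measure (package Q1 of S0167).
-/

set_option autoImplicit false
set_option linter.style.haveILetI false
open MeasureTheory Set
open Crest Crest.AnalysisR Crest.AnalysisR.L1Subspace Crest.Agent.Lib_helper2_AUC

namespace Crest.Agent.Lib_helper7_L1Mid

variable {Ω : Type} [MeasurableSpace Ω]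

/-- the set integral as a continuous functional on `L¹`. -/
noncomputable def setIntL (P : Measure Ω) (B : Set Ω) : Lp ℝ 1 P →L[ℝ] ℝ :=
  (L1.integralCLM).comp (LpToLpRestrictCLM Ω ℝ ℝ P 1 B)

theorem setIntL_apply (P : Measure Ω) (B : Set Ω) (f : Lp ℝ 1 P) :
    setIntL P B f = ∫ ω in B, (f : Ω → ℝ) ω ∂P := by
  simp only [setIntL, ContinuousLinearMap.comp_apply]
  rw [← L1.integral_eq, L1.integral_eq_integral]
  exact integral_congr_ae (LpToLpRestrictCLM_coeFn ℝ B f)

/-- mass concentration: if `y` is `a`-close to `g` off `A` and orthogonal to the sign of `g`, then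
half of the mass of `y` sits on `A`. -/
theorem mass_on_A (P : Measure Ω) [IsProbabilityMeasure P] (fy fg : Ω → ℝ) (hy : Integrable fy P)
    (hgm : Measurable fg) (A : Set Ω) (hA : MeasurableSet A) (a : ℝ) (ha : 0 < a)
    (hclose : ∀ ω, ω ∉ A → |fy ω - fg ω| ≤ a)
    (h1 : ∫ ω in {ω | 0 < fg ω}, fy ω ∂P = 0) (h2 : ∫ ω in {ω | fg ω < 0}, fy ω ∂P = 0) :
    (∫ ω, |fy ω| ∂P) / 2 - a ≤ ∫ ω in A, |fy ω| ∂P := by
  have hGp : MeasurableSet {ω | 0 < fg ω} := measurableSet_lt measurable_const hgm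
  have hGm : MeasurableSet {ω | fg ω < 0} := measurableSet_lt hgm measurable_const
  have key : ∀ ω, |fy ω| - 2 * a - 2 * A.indicator (fun ω => |fy ω|) ω ≤
      {ω | 0 < fg ω}.indicator fy ω - {ω | fg ω < 0}.indicator fy ω := by
    intro ω
    have hRHS : -|fy ω| ≤ {ω | 0 < fg ω}.indicator fy ω - {ω | fg ω < 0}.indicator fy ω := by
      by_cases c1 : 0 < fg ω
      · have c2 : ¬ fg ω < 0 := by linarith
        simp only [indicator, mem_ofPred_eq, c1, c2, if_true, if_false]
        linarith [neg_abs_le (fy ω)]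
      · by_cases c2 : fg ω < 0
        · simp only [indicator, mem_ofPred_eq, c1, c2, if_true, if_false]
          linarith [le_abs_self (fy ω)]
        · simp only [indicator, mem_ofPred_eq, c1, c2, if_false]
          linarith [abs_nonneg (fy ω)]
    by_cases hω : ω ∈ A
    · simp only [indicator_of_mem hω]
      linarith
    · simp only [indicator_of_notMem hω]
      have hc := abs_le.1 (hclose ω hω)
      by_cases c1 : 0 < fg ω
      · have c2 : ¬ fg ω < 0 := by linarith
        simp only [indicator, mem_ofPred_eq, c1, c2, if_true, if_false]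
        rcases abs_cases (fy ω) with ⟨e, _⟩ | ⟨e, _⟩ <;> rw [e] <;> linarith [hc.1, hc.2]
      · by_cases c2 : fg ω < 0
        · simp only [indicator, mem_ofPred_eq, c1, c2, if_true, if_false]
          rcases abs_cases (fy ω) with ⟨e, _⟩ | ⟨e, _⟩ <;> rw [e] <;> linarith [hc.1, hc.2]
        · simp only [indicator, mem_ofPred_eq, c1, c2, if_false]
          have : fg ω = 0 := by linarith
          rw [this] at hc
          rcases abs_cases (fy ω) with ⟨e, _⟩ | ⟨e, _⟩ <;> rw [e] <;> linarith [hc.1, hc.2]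
  have hya : Integrable (fun ω => |fy ω|) P := hy.abs
  have i1 : Integrable (fun ω => |fy ω| - 2 * a) P := hya.sub (integrable_const _)
  have i2 : Integrable (fun ω => 2 * A.indicator (fun ω => |fy ω|) ω) P :=
    (hya.indicator hA).const_mul 2
  have hint1 : Integrable (fun ω => |fy ω| - 2 * a - 2 * A.indicator (fun ω => |fy ω|) ω) P :=
    i1.sub i2
  have hint2 : Integrable (fun ω => {ω | 0 < fg ω}.indicator fy ω -
      {ω | fg ω < 0}.indicator fy ω) P := (hy.indicator hGp).sub (hy.indicator hGm)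
  have hmono := integral_mono hint1 hint2 key
  rw [integral_sub (hy.indicator hGp) (hy.indicator hGm), integral_indicator hGp,
    integral_indicator hGm, h1, h2, integral_sub i1 i2,
    integral_sub hya (integrable_const _), integral_const_mul, integral_const_mul,
    integral_indicator hA] at hmono
  simp only [integral_const, probReal_univ, smul_eq_mul, one_mul] at hmono
  linarith

/-- pointwise midpoint estimate, integrated. -/
theorem mid_ge (P : Measure Ω) (fx fy : Ω → ℝ) (hx : Integrable fx P)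
    (hy : Integrable fy P) (A : Set Ω) (hA : MeasurableSet A) (t : ℝ) (ht : 0 < t) :
    (∫ ω, |fx ω| ∂P) - (∫ ω in A, |fx ω| ∂P) + t * (∫ ω in A, |fy ω| ∂P) ≤
      ((∫ ω, |fx ω + t * fy ω| ∂P) + ∫ ω, |fx ω - t * fy ω| ∂P) / 2 := by
  have hxa : Integrable (fun ω => |fx ω|) P := hx.abs
  have hya : Integrable (fun ω => |fy ω|) P := hy.abs
  have hp : Integrable (fun ω => |fx ω + t * fy ω|) P := (hx.add (hy.const_mul t)).abs
  have hm : Integrable (fun ω => |fx ω - t * fy ω|) P := (hx.sub (hy.const_mul t)).abs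
  have key : ∀ ω, |fx ω| - A.indicator (fun ω => |fx ω|) ω + t * A.indicator (fun ω => |fy ω|) ω ≤
      (|fx ω + t * fy ω| + |fx ω - t * fy ω|) / 2 := by
    intro ω
    have e1 : 2 * |fx ω| ≤ |fx ω + t * fy ω| + |fx ω - t * fy ω| := by
      have := abs_add_le (fx ω + t * fy ω) (fx ω - t * fy ω)
      have e : fx ω + t * fy ω + (fx ω - t * fy ω) = 2 * fx ω := by ring
      rw [e, abs_mul, abs_two] at this
      exact this
    have e2 : 2 * (t * |fy ω|) ≤ |fx ω + t * fy ω| + |fx ω - t * fy ω| := by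
      have := abs_sub (fx ω + t * fy ω) (fx ω - t * fy ω)
      have e : fx ω + t * fy ω - (fx ω - t * fy ω) = 2 * (t * fy ω) := by ring
      rw [e, abs_mul, abs_two, abs_mul, abs_of_pos ht] at this
      exact this
    by_cases hω : ω ∈ A
    · simp only [indicator_of_mem hω]; linarith
    · simp only [indicator_of_notMem hω]; linarith
  have i1 : Integrable (fun ω => |fx ω| - A.indicator (fun ω => |fx ω|) ω) P :=
    hxa.sub (hxa.indicator hA)
  have i2 : Integrable (fun ω => t * A.indicator (fun ω => |fy ω|) ω) P :=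
    (hya.indicator hA).const_mul t
  have i3 : Integrable (fun ω => |fx ω| - A.indicator (fun ω => |fx ω|) ω +
      t * A.indicator (fun ω => |fy ω|) ω) P := i1.add i2
  have i4 : Integrable (fun ω => (|fx ω + t * fy ω| + |fx ω - t * fy ω|) / 2) P :=
    (hp.add hm).div_const 2
  have hmono := integral_mono i3 i4 key
  rw [integral_add i1 i2, integral_sub hxa (hxa.indicator hA), integral_const_mul,
    integral_indicator hA, integral_indicator hA, integral_div, integral_add hp hm] at hmono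
  exact hmono

theorem exists_of_measureDist_lt (P : Measure Ω) [IsProbabilityMeasure P] (f g : Lp ℝ 1 P)
    (ε : ℝ) (h : measureDist P f g < ε) :
    ∃ a : ℝ, 0 < a ∧ a < ε ∧
      P {z | a < abs ((f : Ω → ℝ) z - (g : Ω → ℝ) z)} < ENNReal.ofReal a := by
  unfold measureDist at h
  have hne : {a : ℝ | 0 < a ∧
      P {z | a < abs ((f : Ω → ℝ) z - (g : Ω → ℝ) z)} < ENNReal.ofReal a}.Nonempty :=
    ⟨2, by norm_num, lt_of_le_of_lt prob_le_one (by simp)⟩
  obtain ⟨a, ⟨ha0, haP⟩, hlt⟩ := exists_lt_of_csInf_lt hne h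
  exact ⟨a, ha0, hlt, haP⟩

theorem exists_delta (P : Measure Ω) (fx : Ω → ℝ) (hx : Integrable fx P) (η : ℝ) (hη : 0 < η) :
    ∃ δ : ℝ, 0 < δ ∧ ∀ A : Set Ω, P A < ENNReal.ofReal δ → ∫ ω in A, |fx ω| ∂P ≤ η := by
  obtain ⟨δ, hδ, hδA⟩ := exists_pos_setLIntegral_lt_of_measure_lt (μ := P)
    (f := fun ω => ‖fx ω‖ₑ) hx.2.ne (ε := ENNReal.ofReal η) (by simpa using hη)
  have hmin : min δ 1 ≠ ⊤ := ne_of_lt (lt_of_le_of_lt (min_le_right _ _) ENNReal.one_lt_top)
  have hminpos : 0 < min δ 1 := lt_min hδ one_pos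
  refine ⟨(min δ 1).toReal, ENNReal.toReal_pos hminpos.ne' hmin, fun A hA => ?_⟩
  rw [ENNReal.ofReal_toReal hmin] at hA
  have h1 := hδA A (lt_of_lt_of_le hA (min_le_left _ _))
  have h2 : ∫ ω in A, |fx ω| ∂P = (∫⁻ ω in A, ‖fx ω‖ₑ ∂P).toReal := by
    have := integral_norm_eq_lintegral_enorm (μ := P.restrict A) hx.1.restrict
    simpa using this
  rw [h2]
  have h3 := ENNReal.toReal_mono ENNReal.ofReal_ne_top h1.le
  rwa [ENNReal.toReal_ofReal hη.le] at h3

theorem l1_mid_lower (P : MeasureTheory.Measure Ω)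
    [MeasureTheory.IsProbabilityMeasure P] (E : Submodule ℝ (MeasureTheory.Lp ℝ 1 P))
    (htb : Crest.AnalysisR.L1Subspace.UnitBallTotallyBoundedInMeasure P E) (t : ℝ) (ht : 0 < t)
    (x : E) (hx : ‖x‖ = 1) (η : ℝ) (hη : 0 < η) :
    ∃ S : Submodule ℝ E, CofSub S ∧ ∀ y ∈ S, ‖y‖ = 1 →
      t / 2 - η ≤ (‖x + t • y‖ + ‖x - t • y‖) / 2 - 1 := by
  classical
  set fx : Ω → ℝ := ((x : Lp ℝ 1 P) : Ω → ℝ) with hfx
  have hxi : Integrable fx P := L1.integrable_coeFn _
  obtain ⟨δ, hδ, hδA⟩ := exists_delta P fx hxi (η / 2) (half_pos hη)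
  set ε := min δ (η / (2 * t)) with hε
  have hεpos : 0 < ε := lt_min hδ (by positivity)
  obtain ⟨s, hs, hnet⟩ := htb ε hεpos
  set φ : (↥s × Bool) → E →L[ℝ] ℝ := fun i =>
    if i.2 then (setIntL P {ω | 0 < ((i.1 : Lp ℝ 1 P) : Ω → ℝ) ω}).comp E.subtypeL
    else (setIntL P {ω | ((i.1 : Lp ℝ 1 P) : Ω → ℝ) ω < 0}).comp E.subtypeL with hφ
  refine ⟨_, cofSub_ker_pi φ, fun y hy hy1 => ?_⟩
  have hyφ := (mem_ker_pi φ y).1 hy
  obtain ⟨g, hg, hdist⟩ := hnet (y : Lp ℝ 1 P) y.2 (by rw [← Submodule.coe_norm]; exact hy1.le)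
  obtain ⟨a, ha0, haε, haP⟩ := exists_of_measureDist_lt P _ _ ε hdist
  set fy : Ω → ℝ := ((y : Lp ℝ 1 P) : Ω → ℝ) with hfy
  set fg : Ω → ℝ := (g : Ω → ℝ) with hfg
  have hyi : Integrable fy P := L1.integrable_coeFn _
  have hym : Measurable fy := (Lp.stronglyMeasurable _).measurable
  have hgm : Measurable fg := (Lp.stronglyMeasurable _).measurable
  set A : Set Ω := {z | a < |fy z - fg z|} with hA
  have hAm : MeasurableSet A := measurableSet_lt measurable_const (hym.sub hgm).abs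
  have h1 : ∫ ω in {ω | 0 < fg ω}, fy ω ∂P = 0 := by
    have := hyφ (⟨g, hg⟩, true)
    simpa [hφ, setIntL_apply] using this
  have h2 : ∫ ω in {ω | fg ω < 0}, fy ω ∂P = 0 := by
    have := hyφ (⟨g, hg⟩, false)
    simpa [hφ, setIntL_apply] using this
  have hmass := mass_on_A P fy fg hyi hgm A hAm a ha0
    (fun ω hω => not_lt.1 hω) h1 h2
  have hmid := mid_ge P fx fy hxi hyi A hAm t ht
  have hnx : ∫ ω, |fx ω| ∂P = 1 := by
    rw [← hx, Submodule.coe_norm, L1.norm_eq_integral_norm]; rfl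
  have hny : ∫ ω, |fy ω| ∂P = 1 := by
    rw [← hy1, Submodule.coe_norm, L1.norm_eq_integral_norm]; rfl
  have hnp : ‖x + t • y‖ = ∫ ω, |fx ω + t * fy ω| ∂P := by
    have ec : ((x + t • y : E) : Lp ℝ 1 P) = (x : Lp ℝ 1 P) + t • (y : Lp ℝ 1 P) := rfl
    rw [Submodule.coe_norm, ec, L1.norm_eq_integral_norm]
    refine integral_congr_ae ?_
    filter_upwards [Lp.coeFn_add (x : Lp ℝ 1 P) (t • (y : Lp ℝ 1 P)),
      Lp.coeFn_smul t (y : Lp ℝ 1 P)] with ω e1 e2
    rw [e1, Pi.add_apply, e2, Pi.smul_apply, smul_eq_mul, Real.norm_eq_abs]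
  have hnm : ‖x - t • y‖ = ∫ ω, |fx ω - t * fy ω| ∂P := by
    have ec : ((x - t • y : E) : Lp ℝ 1 P) = (x : Lp ℝ 1 P) - t • (y : Lp ℝ 1 P) := rfl
    rw [Submodule.coe_norm, ec, L1.norm_eq_integral_norm]
    refine integral_congr_ae ?_
    filter_upwards [Lp.coeFn_sub (x : Lp ℝ 1 P) (t • (y : Lp ℝ 1 P)),
      Lp.coeFn_smul t (y : Lp ℝ 1 P)] with ω e1 e2
    rw [e1, Pi.sub_apply, e2, Pi.smul_apply, smul_eq_mul, Real.norm_eq_abs]
  have hxA : ∫ ω in A, |fx ω| ∂P ≤ η / 2 := by
    refine hδA A (lt_of_lt_of_le haP (ENNReal.ofReal_le_ofReal ?_))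
    exact haε.le.trans (min_le_left _ _)
  have hta : t * a ≤ η / 2 := by
    have : a ≤ η / (2 * t) := haε.le.trans (min_le_right _ _)
    calc t * a ≤ t * (η / (2 * t)) := by gcongr
      _ = η / 2 := by field_simp
  rw [hnp, hnm]
  rw [hnx] at hmid
  rw [hny] at hmass
  nlinarith

end Crest.Agent.Lib_helper7_L1Mid
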