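import Crest.Agent.Lib_helper7_CylExtras

/-!
Reduction of S0329 (open-base cylinder cover of the ruled set in `ℝ³`) to S0326
(square-tile sheared-cylinder cover in `ℝ × ℝ²`).
-/

set_option autoImplicit false
open MeasureTheory Set
open scoped ENNReal

namespace Crest.Agent.Lib_helper7_S0329
open Crest.Agent.Lib_helper4_CylArea Crest.Agent.Lib_helper7_CylExtras

theorem inner2 (a b : E2) : inner ℝ a b = a 0 * b 0 + a 1 * b 1 := by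
  simp [PiLp.inner_apply, Fin.sum_univ_two]
  ring

theorem normsq2 (a : E2) : ‖a‖ ^ 2 = a 0 ^ 2 + a 1 ^ 2 := by
  rw [← real_inner_self_eq_norm_sq, inner2]; ring

theorem abs_cross_of_square (a b : E2) (hab : ‖b‖ = ‖a‖) (hi : inner ℝ a b = 0) :
    |a 0 * b 1 - a 1 * b 0| = ‖a‖ ^ 2 := by
  have h1 : (a 0 * b 1 - a 1 * b 0) ^ 2 = (‖a‖ ^ 2) ^ 2 := by
    have hb : ‖b‖ ^ 2 = ‖a‖ ^ 2 := by rw [hab]
    rw [inner2] at hi
    have e : (a 0 * b 1 - a 1 * b 0) ^ 2 = ‖a‖ ^ 2 * ‖b‖ ^ 2 - (a 0 * b 0 + a 1 * b 1) ^ 2 := by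
      rw [normsq2, normsq2]; ring
    rw [e, hi, hb]; ring
  rw [← Real.sqrt_sq_eq_abs, h1, Real.sqrt_sq (by positivity)]

/-- one tile -/
theorem tile (h : ℝ) (hh : 0 < h) (c a b g : E2) (hab : ‖b‖ = ‖a‖) (hi : inner ℝ a b = 0)
    (η : ℝ) (hη : 0 < η) :
    ∃ (u : E3) (B : Set E3), ‖u‖ = 1 ∧ Bornology.IsBounded B ∧
      (∃ O : Set E3, IsOpen O ∧ B = O ∩ {x | inner ℝ x u = 0}) ∧
      (∀ (x s t : ℝ), s ∈ Icc (0 : ℝ) 1 → t ∈ Icc (0 : ℝ) 1 → ∀ ξ : E2,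
        ξ = c + s • a + t • b + x • g →
        ∃ y ∈ B, ∃ τ : ℝ, (!₂[x, ξ 0, h * ξ 1] : E3) = y + τ • u) ∧
      (μHE[2] B).toReal ≤ h * (‖a‖ ^ 2 / Real.sqrt (1 + (g 0) ^ 2 + h ^ 2 * (g 1) ^ 2)) + η := by
  set d : E3 := !₂[1, g 0, h * g 1] with hd
  set N : ℝ := Real.sqrt (1 + (g 0) ^ 2 + h ^ 2 * (g 1) ^ 2) with hN
  have hpos : 0 < 1 + (g 0) ^ 2 + h ^ 2 * (g 1) ^ 2 := by positivity
  have hNpos : 0 < N := Real.sqrt_pos.2 hpos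
  have hdN : ‖d‖ = N := by
    rw [hN, ← Real.sqrt_sq (norm_nonneg d), normsq3]
    congr 1
    simp [hd]; ring
  set u : E3 := N⁻¹ • d with hu
  have hu1 : ‖u‖ = 1 := by
    rw [hu, norm_smul, hdN, Real.norm_of_nonneg (inv_nonneg.2 hNpos.le)]
    exact inv_mul_cancel₀ hNpos.ne'
  set A : E3 := !₂[0, a 0, h * a 1] with hA
  set Bv : E3 := !₂[0, b 0, h * b 1] with hBv
  set C : E3 := !₂[0, c 0, h * c 1] with hC
  set P : Set E3 := {x : E3 | ∃ s ∈ Set.Icc (0 : ℝ) 1, ∃ t ∈ Set.Icc (0 : ℝ) 1,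
      x = proj u C + s • proj u A + t • proj u Bv} with hP
  have hPperp : ∀ x ∈ P, inner ℝ x u = 0 := by
    rintro x ⟨s, -, t, -, rfl⟩
    simp [inner_add_left, inner_smul_left, inner_proj _ _ hu1]
  have hPb : Bornology.IsBounded P := by
    rw [isBounded_iff_forall_norm_le]
    refine ⟨‖proj u C‖ + ‖proj u A‖ + ‖proj u Bv‖, ?_⟩
    rintro x ⟨s, ⟨hs0, hs1⟩, t, ⟨ht0, ht1⟩, rfl⟩
    have e1 : ‖s • proj u A‖ ≤ ‖proj u A‖ := by
      rw [norm_smul, Real.norm_of_nonneg hs0]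
      exact mul_le_of_le_one_left (norm_nonneg _) hs1
    have e2 : ‖t • proj u Bv‖ ≤ ‖proj u Bv‖ := by
      rw [norm_smul, Real.norm_of_nonneg ht0]
      exact mul_le_of_le_one_left (norm_nonneg _) ht1
    calc _ ≤ ‖proj u C + s • proj u A‖ + ‖t • proj u Bv‖ := norm_add_le _ _
      _ ≤ ‖proj u C‖ + ‖s • proj u A‖ + ‖t • proj u Bv‖ := by gcongr; exact norm_add_le _ _
      _ ≤ _ := by gcongr
  have hParea : (μHE[2] P).toReal = h * (‖a‖ ^ 2 / N) := by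
    rw [hP, area_pgram_toReal, sqrt_gram_proj _ _ _ hu1]
    have e : det3 A Bv u = N⁻¹ * h * (a 0 * b 1 - a 1 * b 0) := by
      simp [det3, hA, hBv, hu, hd]; ring
    rw [e, abs_mul, abs_cross_of_square a b hab hi, abs_of_pos (by positivity)]
    field_simp
  obtain ⟨O, hO, hPO, hOb, hOarea⟩ := exists_relOpen u hu1 P hPperp hPb η hη
  refine ⟨u, O ∩ {x | inner ℝ x u = 0}, hu1, hOb, ⟨O, hO, rfl⟩, ?_, ?_⟩
  · intro x s t hs ht ξ hξ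
    set Y : E3 := C + s • A + t • Bv with hY
    have hz : (!₂[x, ξ 0, h * ξ 1] : E3) = Y + (x * N) • u := by
      rw [hξ, hY, hu, smul_smul, mul_assoc, mul_inv_cancel₀ hNpos.ne', mul_one]
      ext i
      fin_cases i <;> simp [hA, hBv, hC, hd] <;> ring
    have hpY : proj u Y = proj u C + s • proj u A + t • proj u Bv := by
      simp only [proj, hY, inner_add_left, inner_smul_left, add_smul, smul_sub, smul_smul]
      simp
      abel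
    have hmem : proj u Y ∈ P := ⟨s, hs, t, ht, hpY⟩
    refine ⟨proj u Y, ⟨hPO hmem, hPperp _ hmem⟩, inner ℝ Y u + x * N, ?_⟩
    rw [hz]
    simp only [proj, add_smul]
    abel
  · rw [hParea] at hOarea
    exact hOarea

/-- S0329 from the conclusion of S0326 (applied with `L = M` and `ε / (2 h)`). -/
theorem main (h M : ℝ) (hh : 0 < h) (D : Set E2) (V : E2 → E2) (ε : ℝ) (hε : 0 < ε)
    (H : ∃ (k : ℕ) (c a b g : Fin k → E2),
      (∀ i, a i ≠ 0 ∧ ‖b i‖ = ‖a i‖ ∧ inner ℝ (a i) (b i) = 0) ∧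
      {z : ℝ × E2 | ∃ p ∈ D, abs z.1 ≤ M ∧ z.2 = p + z.1 • V p} ⊆
        ⋃ i, {z : ℝ × E2 | ∃ x ∈ Set.Icc (0 : ℝ) 1, ∃ y ∈ Set.Icc (0 : ℝ) 1,
          z.2 = c i + x • a i + y • b i + z.1 • g i} ∧
      ∑ i, ‖a i‖ ^ 2 / Real.sqrt (1 + (g i 0) ^ 2 + h ^ 2 * (g i 1) ^ 2) ≤
        (∫ p in D, 1 / Real.sqrt (1 + (V p 0) ^ 2 + h ^ 2 * (V p 1) ^ 2)) + ε / (2 * h)) :
    ∃ (k : ℕ) (u : Fin k → E3) (B : Fin k → Set E3),
      (∀ i, ‖u i‖ = 1) ∧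
      (∀ i, Bornology.IsBounded (B i) ∧ ∃ O : Set E3, IsOpen O ∧
        B i = O ∩ {x | inner ℝ x (u i) = 0}) ∧
      {z : E3 | ∃ p ∈ D, ∃ x : ℝ, abs x ≤ M ∧
          z = !₂[x, p 0 + x * V p 0, h * (p 1 + x * V p 1)]} ⊆
        ⋃ i, {z : E3 | ∃ y ∈ B i, ∃ τ : ℝ, z = y + τ • u i} ∧
      ∑ i, (μHE[2] (B i)).toReal ≤
        h * (∫ p in D, 1 / Real.sqrt (1 + (V p 0) ^ 2 + h ^ 2 * (V p 1) ^ 2)) + ε := by
  obtain ⟨k, c, a, b, g, hsq, hcov, hsum⟩ := H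
  set η : ℝ := ε / (2 * ((k : ℝ) + 1)) with hη
  have hηpos : 0 < η := by positivity
  have T := fun i => tile h hh (c i) (a i) (b i) (g i) (hsq i).2.1 (hsq i).2.2 η hηpos
  choose u B hu hBb hBo hBc hBa using T
  refine ⟨k, u, B, hu, fun i => ⟨hBb i, hBo i⟩, ?_, ?_⟩
  · rintro z ⟨p, hp, x, hx, rfl⟩
    have hmem : ((x, p + x • V p) : ℝ × E2) ∈
        {z : ℝ × E2 | ∃ p ∈ D, abs z.1 ≤ M ∧ z.2 = p + z.1 • V p} := ⟨p, hp, hx, rfl⟩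
    obtain ⟨i, s, hs, t, ht, he⟩ := mem_iUnion.1 (hcov hmem)
    obtain ⟨y, hy, τ, hz⟩ := hBc i x s t hs ht (p + x • V p) he
    refine mem_iUnion.2 ⟨i, y, hy, τ, ?_⟩
    rw [← hz]
    simp
  · calc ∑ i, (μHE[2] (B i)).toReal
        ≤ ∑ i, (h * (‖a i‖ ^ 2 / Real.sqrt (1 + (g i 0) ^ 2 + h ^ 2 * (g i 1) ^ 2)) + η) :=
          Finset.sum_le_sum fun i _ => hBa i
      _ = h * ∑ i, ‖a i‖ ^ 2 / Real.sqrt (1 + (g i 0) ^ 2 + h ^ 2 * (g i 1) ^ 2) + k * η := by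
          rw [Finset.sum_add_distrib, Finset.mul_sum]; simp
      _ ≤ h * ((∫ p in D, 1 / Real.sqrt (1 + (V p 0) ^ 2 + h ^ 2 * (V p 1) ^ 2)) + ε / (2 * h))
            + ε / 2 := by
          have h1 : (k : ℝ) * η ≤ ε / 2 := by
            rw [hη]
            have hk : (0 : ℝ) ≤ k := Nat.cast_nonneg k
            rw [mul_div_assoc', div_le_div_iff₀ (by positivity) (by norm_num)]
            nlinarith
          gcongr
      _ = _ := by field_simp; ring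

end Crest.Agent.Lib_helper7_S0329
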