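import Crest.Agent.Lib_helper8_ExpBasic

/-!
S0423, package C, part 2: the objective functional `Obj`, comparison lemmas, and the
one-parameter family of capped exponentials.
-/

set_option autoImplicit false

open MeasureTheory Set Filter Topology
open Crest.Agent.Lib_helper8_ExpDefs Crest.Agent.Lib_helper8_ExpBasic

namespace Crest.Agent.Lib_helper8_ExpObj


theorem W_eq_indicator : W = (Ioi (0:ℝ)).indicator (fun u => u * Real.exp (-u)) := by
  funext u
  unfold W
  by_cases h : 0 < u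
  · rw [if_pos h, indicator_of_mem (show u ∈ Ioi (0:ℝ) from h)]
  · rw [if_neg h, indicator_of_notMem (show u ∉ Ioi (0:ℝ) from h)]

theorem measurable_W : Measurable W := by
  rw [W_eq_indicator]
  exact (measurable_id.mul (Real.measurable_exp.comp measurable_neg)).indicator measurableSet_Ioi

theorem integrable_W : Integrable W := by
  rw [W_eq_indicator, integrable_indicator_iff measurableSet_Ioi]
  have := integrableOn_gam 1 0 one_pos le_rfl
  simpa using this

/-- the objective functional -/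
noncomputable def Obj (F : ℝ → ℝ) : ℝ := ∫ u, W u * F (4 / 3 - u)

theorem Obj_eq (F : ℝ → ℝ) :
    Obj F = ∫ u in Ioi (0:ℝ), u * Real.exp (-u) * F (4 / 3 - u) := by
  unfold Obj
  rw [← integral_indicator measurableSet_Ioi]
  congr 1
  funext u
  rw [W_eq_indicator]
  by_cases h : u ∈ Ioi (0:ℝ)
  · rw [indicator_of_mem h, indicator_of_mem h]
  · rw [indicator_of_notMem h, indicator_of_notMem h, zero_mul]

theorem integrable_W_mul {X : ℝ → ℝ} (hm : Measurable X) (hb : ∀ u, |X u| ≤ 1) :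
    Integrable (fun u => W u * X u) :=
  integrable_W.mul_bdd (c := 1) hm.aestronglyMeasurable (Eventually.of_forall hb)

theorem Good.abs_le {F : ℝ → ℝ} {m : ℝ} (hF : Good F m) (u : ℝ) : |F u| ≤ 1 := by
  rw [abs_of_pos (hF.pos u)]; exact hF.le_one u

theorem Good.integrable_obj {F : ℝ → ℝ} {m : ℝ} (hF : Good F m) :
    Integrable (fun u => W u * F (4 / 3 - u)) :=
  integrable_W_mul (hF.cont.measurable.comp (measurable_const.sub measurable_id))
    (fun _ => Good.abs_le hF _)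

theorem Good.integrable_sub {F E : ℝ → ℝ} {m μ : ℝ} (hF : Good F m) (hE : Good E μ) :
    Integrable (fun v => F v - E v) := by
  have := hE.int.sub hF.int
  refine this.congr (Eventually.of_forall fun v => ?_)
  simp

theorem Good.integral_sub {F E : ℝ → ℝ} {m μ : ℝ} (hF : Good F m) (hE : Good E μ) :
    ∫ v, (F v - E v) = μ - m := by
  have := MeasureTheory.integral_sub hE.int hF.int
  rw [hE.mean, hF.mean] at this
  rw [← this]
  congr 1
  funext v
  ring

/-- the basic comparison: if `(F - E)(w - c) ≥ 0` pointwise then `Obj F ≥ Obj E + c (μ - m)`. -/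
theorem obj_compare {F E : ℝ → ℝ} {m μ c : ℝ} (hF : Good F m) (hE : Good E μ)
    (h : ∀ u, 0 ≤ (F (4 / 3 - u) - E (4 / 3 - u)) * (W u - c)) :
    Obj E + c * (μ - m) ≤ Obj F := by
  have i1 := Good.integrable_sub hF hE
  have i2 : Integrable (fun u => F (4 / 3 - u) - E (4 / 3 - u)) := i1.comp_sub_left (4 / 3)
  have e2 : ∫ u, (F (4 / 3 - u) - E (4 / 3 - u)) = μ - m := by
    rw [integral_sub_left_eq_self (fun v => F v - E v) volume (4 / 3 : ℝ)]
    exact Good.integral_sub hF hE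
  have iF := Good.integrable_obj hF
  have iE := Good.integrable_obj hE
  have h0 : 0 ≤ ∫ u, (F (4 / 3 - u) - E (4 / 3 - u)) * (W u - c) := integral_nonneg h
  have e3 : ∫ u, (F (4 / 3 - u) - E (4 / 3 - u)) * (W u - c)
      = (Obj F - Obj E) - c * (μ - m) := by
    have : (fun u => (F (4 / 3 - u) - E (4 / 3 - u)) * (W u - c))
        = fun u => (W u * F (4 / 3 - u) - W u * E (4 / 3 - u))
            - c * (F (4 / 3 - u) - E (4 / 3 - u)) := by
      funext u; ring
    have iFE : Integrable (fun u => W u * F (4 / 3 - u) - W u * E (4 / 3 - u)) := iF.sub iE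
    rw [this, MeasureTheory.integral_sub iFE (i2.const_mul c), MeasureTheory.integral_sub iF iE,
      integral_const_mul, e2]
    rfl
  linarith

/-- monotonicity of `Obj` -/
theorem obj_mono {F E : ℝ → ℝ} {m μ : ℝ} (hF : Good F m) (hE : Good E μ)
    (h : ∀ v, E v ≤ F v) : Obj E ≤ Obj F :=
  integral_mono (Good.integrable_obj hE) (Good.integrable_obj hF)
    (fun u => mul_le_mul_of_nonneg_left (h _) (W_nonneg u))

/-- crude Lipschitz bound: if `E ≤ E'` then `Obj E' - Obj E ≤ ∫ (E' - E)`. -/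
theorem obj_sub_le {E E' : ℝ → ℝ} {μ μ' : ℝ} (hE : Good E μ) (hE' : Good E' μ')
    (h : ∀ v, E v ≤ E' v) : Obj E' - Obj E ≤ μ - μ' := by
  have i1 := Good.integrable_sub hE' hE
  have i2 : Integrable (fun u => E' (4 / 3 - u) - E (4 / 3 - u)) := i1.comp_sub_left (4 / 3)
  have e2 : ∫ u, (E' (4 / 3 - u) - E (4 / 3 - u)) = μ - μ' := by
    rw [integral_sub_left_eq_self (fun v => E' v - E v) volume (4 / 3 : ℝ)]
    exact Good.integral_sub hE' hE
  have iF := Good.integrable_obj hE'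
  have iE := Good.integrable_obj hE
  unfold Obj
  rw [← MeasureTheory.integral_sub iF iE, ← e2]
  refine integral_mono (iF.sub iE) i2 (fun u => ?_)
  have h1 := h (4 / 3 - u)
  have h2 := W_le_one u
  have h3 := W_nonneg u
  simp only
  nlinarith



theorem Jstar_le : 4 / 9 * Real.exp (-(1 / 3)) ≤ 13 / 40 := by
  have h1 : 1 + (1/3:ℝ) + (1/3:ℝ)^2/2 ≤ Real.exp (1/3) :=
    Real.quadratic_le_exp_of_nonneg (by norm_num)
  have h2 : Real.exp (-(1/3)) * Real.exp (1/3) = 1 := by rw [← Real.exp_add]; simp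
  have h3 : 0 < Real.exp (-(1/3)) := Real.exp_pos _
  nlinarith

/-- the polynomial inequality behind the case `p > 3/4`. -/
theorem poly_ineq (r : ℝ) (h0 : 0 ≤ r) (h1 : r ≤ 4 / 3) :
    11 / 3 + r / 3 - r ^ 2 ≤ 27 / 40 * (7 / 3 - r) ^ 2 * (1 + r + r ^ 2 / 2 + r ^ 3 / 6) := by
  have key : 0 ≤ 1/120 + (23/120)*r + (29/80)*r^2 - (23/80)*r^3 - (15/80)*r^4 + (9/80)*r^5 := by
    nlinarith [mul_nonneg h0 (sub_nonneg.2 h1), mul_nonneg (mul_nonneg h0 h0) (sub_nonneg.2 h1),
      mul_nonneg (mul_nonneg h0 h0) (mul_nonneg h0 (sub_nonneg.2 h1)), pow_nonneg h0 3, pow_nonneg h0 4,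
      pow_nonneg h0 5, sq_nonneg (r - 1), sq_nonneg (r^2 - r), sq_nonneg (r^2-1)]
  nlinarith

theorem exp_neg_mul_cubic_le (r : ℝ) (h0 : 0 ≤ r) :
    Real.exp (-r) * (1 + r + r ^ 2 / 2 + r ^ 3 / 6) ≤ 1 := by
  have h := Real.sum_le_exp_of_nonneg h0 4
  simp only [Finset.sum_range_succ, Finset.sum_range_zero, Nat.factorial] at h
  have h2 : Real.exp (-r) * Real.exp r = 1 := by rw [← Real.exp_add]; simp
  have h3 : 0 < Real.exp (-r) := Real.exp_pos _
  have h4 : 1 + r + r ^ 2 / 2 + r ^ 3 / 6 ≤ Real.exp r := by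
    norm_num at h
    linarith
  calc Real.exp (-r) * (1 + r + r ^ 2 / 2 + r ^ 3 / 6) ≤ Real.exp (-r) * Real.exp r :=
        mul_le_mul_of_nonneg_left h4 h3.le
    _ = 1 := h2

theorem capObj_small (p : ℝ) (hp : 0 ≤ p) (hp' : p ≤ 3 / 4) :
    4 / 9 * Real.exp (-(1 / 3)) ≤
      ∫ u in Ioi (0:ℝ), u * Real.exp (-u) * min 1 (Real.exp (-1 + p * (4 / 3 - u))) := by
  have e1 : ∫ u in Ioi (0:ℝ), u * Real.exp (-u) * min 1 (Real.exp (-1 + p * (4 / 3 - u)))
      = ∫ u in Ioi (0:ℝ), Real.exp (-1 + p * (4 / 3)) * (u * Real.exp (-((1 + p) * u))) := by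
    refine setIntegral_congr_fun measurableSet_Ioi (fun u hu => ?_)
    have hu' : (0:ℝ) < u := hu
    have h1 : -1 + p * (4 / 3 - u) ≤ 0 := by nlinarith
    have h2 : Real.exp (-1 + p * (4 / 3 - u)) ≤ 1 := Real.exp_le_one_iff.2 h1
    rw [min_eq_right h2]
    have h3 : Real.exp (-1 + p * (4 / 3)) * (u * Real.exp (-((1 + p) * u)))
        = u * (Real.exp (-1 + p * (4 / 3)) * Real.exp (-((1 + p) * u))) := by ring
    rw [h3, ← Real.exp_add, mul_assoc, ← Real.exp_add]
    congr 2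
    ring
  rw [e1, integral_const_mul, integral_gam (1 + p) 0 (by linarith) le_rfl]
  simp only [mul_zero, neg_zero, Real.exp_zero, zero_div, zero_add, one_mul]
  -- exp(-1+4p/3)/(1+p)^2 ≥ 4/9 exp(-1/3)
  have hx : (2 * p - 1) / 3 + 1 ≤ Real.exp ((2 * p - 1) / 3) := Real.add_one_le_exp _
  have hpos : 0 < (2 * p - 1) / 3 + 1 := by linarith
  have h2 : ((2 * p - 1) / 3 + 1) ^ 2 ≤ Real.exp ((2 * p - 1) / 3) ^ 2 :=
    pow_le_pow_left₀ hpos.le hx 2
  have h3 : Real.exp (-1 + p * (4 / 3)) = Real.exp ((2 * p - 1) / 3) ^ 2 * Real.exp (-(1 / 3)) := by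
    rw [sq, ← Real.exp_add, ← Real.exp_add]; congr 1; ring
  rw [h3]
  have h4 : 0 < Real.exp (-(1 / 3)) := Real.exp_pos _
  have h5 : (0:ℝ) < (1 + p) ^ 2 := by positivity
  rw [mul_one_div, le_div_iff₀ h5]
  have h6 : 4 / 9 * (1 + p) ^ 2 = ((2 * p - 1) / 3 + 1) ^ 2 := by ring
  calc 4 / 9 * Real.exp (-(1 / 3)) * (1 + p) ^ 2 = (4 / 9 * (1 + p) ^ 2) * Real.exp (-(1 / 3)) := by ring
    _ ≤ Real.exp ((2 * p - 1) / 3) ^ 2 * Real.exp (-(1 / 3)) := by
        rw [h6]; exact mul_le_mul_of_nonneg_right h2 h4.le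

theorem capObj_large (p : ℝ) (hp' : 3 / 4 < p) :
    4 / 9 * Real.exp (-(1 / 3)) ≤
      ∫ u in Ioi (0:ℝ), u * Real.exp (-u) * min 1 (Real.exp (-1 + p * (4 / 3 - u))) := by
  have hp : 0 < p := by linarith
  set r : ℝ := 4 / 3 - 1 / p with hr
  have hr0 : 0 < r := by
    have : 1 / p < 4 / 3 := by
      rw [div_lt_iff₀ hp]; linarith
    linarith
  have hr1 : r < 4 / 3 := by
    have : 0 < 1 / p := by positivity
    linarith
  have hpr : p * r = -1 + p * (4 / 3) := by
    rw [hr]; field_simp; ring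
  -- integrability
  have hint : IntegrableOn (fun u : ℝ => u * Real.exp (-u) * min 1 (Real.exp (-1 + p * (4 / 3 - u))))
      (Ioi 0) := by
    have h1 : IntegrableOn (fun u : ℝ => u * Real.exp (-u)) (Ioi 0) := by
      simpa using integrableOn_gam 1 0 one_pos le_rfl
    refine Integrable.mul_bdd (c := 1) h1 ?_ (Eventually.of_forall fun u => ?_)
    · exact (measurable_const.min (Real.measurable_exp.comp
        (measurable_const.add (measurable_const.mul (measurable_const.sub measurable_id))))).aestronglyMeasurable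
    · rw [Real.norm_eq_abs, abs_of_pos (lt_min one_pos (Real.exp_pos _))]
      exact min_le_left _ _
  rw [← Ioc_union_Ioi_eq_Ioi hr0.le, setIntegral_union (Ioc_disjoint_Ioi le_rfl) measurableSet_Ioi
    (hint.mono_set (Ioc_subset_Ioi_self)) (hint.mono_set (Ioi_subset_Ioi hr0.le))]
  -- first piece
  have e1 : ∫ u in Ioc (0:ℝ) r, u * Real.exp (-u) * min 1 (Real.exp (-1 + p * (4 / 3 - u)))
      = ∫ u in Ioc (0:ℝ) r, u * Real.exp (-u) := by
    refine setIntegral_congr_fun measurableSet_Ioc (fun u hu => ?_)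
    have h1 : 0 ≤ -1 + p * (4 / 3 - u) := by
      have : p * u ≤ p * r := mul_le_mul_of_nonneg_left hu.2 hp.le
      nlinarith
    have h2 : 1 ≤ Real.exp (-1 + p * (4 / 3 - u)) := Real.one_le_exp h1
    rw [min_eq_left h2, mul_one]
  have e1' : ∫ u in Ioc (0:ℝ) r, u * Real.exp (-u) = 1 - Real.exp (-r) * (r + 1) := by
    have hI := integrableOn_gam 1 0 one_pos le_rfl
    have h1 := setIntegral_union (Ioc_disjoint_Ioi (le_refl r)) measurableSet_Ioi
      (hI.mono_set (Ioc_subset_Ioi_self)) (hI.mono_set (Ioi_subset_Ioi hr0.le))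
    rw [Ioc_union_Ioi_eq_Ioi hr0.le, integral_gam 1 0 one_pos le_rfl,
      integral_gam 1 r one_pos hr0.le] at h1
    simp only [one_mul, mul_zero, neg_zero, Real.exp_zero, div_one, one_pow, zero_add] at h1
    linarith
  have e2 : ∫ u in Ioi r, u * Real.exp (-u) * min 1 (Real.exp (-1 + p * (4 / 3 - u)))
      = ∫ u in Ioi r, Real.exp (p * r) * (u * Real.exp (-((1 + p) * u))) := by
    refine setIntegral_congr_fun measurableSet_Ioi (fun u hu => ?_)
    have hu' : r < u := hu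
    have h1 : -1 + p * (4 / 3 - u) ≤ 0 := by
      have : p * r ≤ p * u := mul_le_mul_of_nonneg_left hu'.le hp.le
      nlinarith
    have h2 : Real.exp (-1 + p * (4 / 3 - u)) ≤ 1 := Real.exp_le_one_iff.2 h1
    rw [min_eq_right h2]
    have h3 : Real.exp (p * r) * (u * Real.exp (-((1 + p) * u)))
        = u * (Real.exp (p * r) * Real.exp (-((1 + p) * u))) := by ring
    rw [h3, ← Real.exp_add, mul_assoc, ← Real.exp_add, hpr]
    congr 2
    ring
  rw [e1, e1', e2, integral_const_mul, integral_gam (1 + p) r (by linarith) hr0.le]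
  have e3 : Real.exp (p * r) * (Real.exp (-((1 + p) * r)) * (r / (1 + p) + 1 / (1 + p) ^ 2))
      = Real.exp (-r) * (r / (1 + p) + 1 / (1 + p) ^ 2) := by
    rw [← mul_assoc, ← Real.exp_add]; congr 2; ring
  rw [e3]
  -- now the numerical inequality
  have hJ := Jstar_le
  have hc := exp_neg_mul_cubic_le r hr0.le
  have hq := poly_ineq r hr0.le hr1.le
  have hE : 0 < Real.exp (-r) := Real.exp_pos _
  -- B := (r+1) - r/(1+p) - 1/(1+p)^2 ≤ 27/40 * cubic
  have hp1 : 1 + p = (7 / 3 - r) / (4 / 3 - r) := by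
    have h43 : 4 / 3 - r = 1 / p := by rw [hr]; ring
    have h73 : 7 / 3 - r = 1 + 1 / p := by rw [hr]; ring
    rw [h43, h73]; field_simp; ring
  have h43 : 0 < 4 / 3 - r := by linarith
  have h73 : 0 < 7 / 3 - r := by linarith
  have hB : (r + 1) - (r / (1 + p) + 1 / (1 + p) ^ 2) ≤ 27 / 40 * (1 + r + r ^ 2 / 2 + r ^ 3 / 6) := by
    rw [hp1]
    have e : (r + 1) - (r / ((7 / 3 - r) / (4 / 3 - r)) + 1 / ((7 / 3 - r) / (4 / 3 - r)) ^ 2)
        = (11 / 3 + r / 3 - r ^ 2) / (7 / 3 - r) ^ 2 := by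
      have aux : ∀ A B : ℝ, A ≠ 0 → B ≠ 0 → B = A - 1 → r = 7 / 3 - A →
          (r + 1) - (r / (A / B) + 1 / (A / B) ^ 2) = (11 / 3 + r / 3 - r ^ 2) / A ^ 2 := by
        intro A B hA hB hBA hrA
        rw [hrA, hBA] at *
        field_simp
        ring
      exact aux _ _ h73.ne' h43.ne' (by ring) (by ring)
    rw [e, div_le_iff₀ (by positivity)]
    nlinarith
  have : Real.exp (-r) * ((r + 1) - (r / (1 + p) + 1 / (1 + p) ^ 2)) ≤ 27 / 40 := by
    calc Real.exp (-r) * ((r + 1) - (r / (1 + p) + 1 / (1 + p) ^ 2))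
        ≤ Real.exp (-r) * (27 / 40 * (1 + r + r ^ 2 / 2 + r ^ 3 / 6)) :=
          mul_le_mul_of_nonneg_left hB hE.le
      _ = 27 / 40 * (Real.exp (-r) * (1 + r + r ^ 2 / 2 + r ^ 3 / 6)) := by ring
      _ ≤ 27 / 40 * 1 := by gcongr
      _ = 27 / 40 := by ring
  nlinarith

theorem capObj_ge (p : ℝ) (hp : 0 ≤ p) :
    4 / 9 * Real.exp (-(1 / 3)) ≤
      ∫ u in Ioi (0:ℝ), u * Real.exp (-u) * min 1 (Real.exp (-1 + p * (4 / 3 - u))) := by
  rcases le_or_gt p (3 / 4) with h | h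
  · exact capObj_small p hp h
  · exact capObj_large p h


end Crest.Agent.Lib_helper8_ExpObj
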