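import Crest.Agent.Lib_helper8_ExpDefs

/-!
S0423, package "T": the one-dimensional averaging operator `T a` preserves the class `Good`.
-/

set_option autoImplicit false

open MeasureTheory Set Filter Topology
open Crest.Agent.Lib_helper8_ExpDefs

namespace Crest.Agent.Lib_helper8_ExpT


/-- (M3) -/
theorem T_step (a : ℝ) (ha : 0 < a) : T a step = fun y => min 1 (Real.exp (y / a)) := by
  funext y
  unfold T
  rcases le_or_gt 0 y with hy | hy
  · have h1 : ∀ x ∈ Ioi (0:ℝ), step (y + a * x) * Real.exp (-x) = Real.exp (-x) := by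
      intro x hx
      have hx' : (0:ℝ) < x := hx
      have : 0 ≤ y + a * x := by have := mul_pos ha hx'; linarith
      simp [step, this]
    rw [setIntegral_congr_fun measurableSet_Ioi h1, integral_exp_neg_Ioi_zero]
    have : 1 ≤ Real.exp (y / a) := Real.one_le_exp (div_nonneg hy ha.le)
    exact (min_eq_left this).symm
  · set c := -y / a with hc
    have hcpos : 0 < c := div_pos (by linarith) ha
    have h1 : ∀ x ∈ Ioi (0:ℝ), step (y + a * x) * Real.exp (-x)
        = (Ici c).indicator (fun x => Real.exp (-x)) x := by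
      intro x hx
      by_cases hxc : c ≤ x
      · have : 0 ≤ y + a * x := by
          have h2 : a * c ≤ a * x := mul_le_mul_of_nonneg_left hxc ha.le
          have h3 : a * c = -y := by rw [hc]; field_simp
          linarith
        simp [step, this, hxc]
      · have : ¬ 0 ≤ y + a * x := by
          rw [not_le] at hxc ⊢
          have h2 : a * x < a * c := mul_lt_mul_of_pos_left hxc ha
          have h3 : a * c = -y := by rw [hc]; field_simp
          linarith
        simp [step, this, hxc]
    rw [setIntegral_congr_fun measurableSet_Ioi h1, setIntegral_indicator measurableSet_Ici]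
    have h4 : Ioi (0:ℝ) ∩ Ici c = Ici c := by
      ext x; simp only [mem_inter_iff, mem_Ioi, mem_Ici]
      constructor
      · exact fun h => h.2
      · exact fun h => ⟨lt_of_lt_of_le hcpos h, h⟩
    rw [h4, integral_Ici_eq_integral_Ioi, integral_exp_neg_Ioi]
    have h5 : -c = y / a := by rw [hc]; ring
    rw [h5]
    have : Real.exp (y / a) ≤ 1 := by
      rw [← Real.exp_zero]; exact Real.exp_le_exp.mpr (div_nonpos_of_nonpos_of_nonneg hy.le ha.le)
    exact (min_eq_right this).symm



lemma step_sub_step (c : ℝ) :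
    Integrable (fun v => step v - step (v - c)) ∧ ∫ v, (step v - step (v - c)) = c := by
  rcases le_or_gt 0 c with hc | hc
  · have h : (fun v => step v - step (v - c)) = (Ico 0 c).indicator (1 : ℝ → ℝ) := by
      funext v
      by_cases h1 : 0 ≤ v <;> by_cases h2 : c ≤ v
      · simp [step, h1, h2]
      · have : v < c := not_le.mp h2
        simp [step, h1, h2, this]
      · exact absurd (hc.trans h2) h1
      · simp [step, h1, h2]
    rw [h]
    refine ⟨(integrable_indicator_iff measurableSet_Ico).mpr (integrableOn_const (by simp)), ?_⟩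
    rw [integral_indicator_one measurableSet_Ico, Real.volume_real_Ico_of_le hc]; ring
  · have h : (fun v => step v - step (v - c)) = fun v => - (Ico c 0).indicator (1 : ℝ → ℝ) v := by
      funext v
      by_cases h1 : 0 ≤ v <;> by_cases h2 : c ≤ v
      · simp [step, h1, h2]
      · exact absurd (hc.le.trans h1) h2
      · have : v < 0 := not_le.mp h1
        simp [step, h1, h2, this]
      · simp [step, h1, h2]
    rw [h]
    refine ⟨((integrable_indicator_iff measurableSet_Ico).mpr (integrableOn_const (by simp))).neg, ?_⟩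
    rw [integral_neg, integral_indicator_one measurableSet_Ico, Real.volume_real_Ico_of_le hc.le]; ring

/-- (M4) capped exponentials are good; `min 1 (exp (l + p v))` is the distribution function of
`-l/p - X/p`. -/
theorem good_cap (p l : ℝ) (hp : 0 < p) :
    Good (fun v => min 1 (Real.exp (l + p * v))) (-(l + 1) / p) := by
  set v₀ : ℝ := -l / p with hv₀
  have hv₀' : l + p * v₀ = 0 := by rw [hv₀]; field_simp; ring
  have hge : ∀ v, v₀ ≤ v → min 1 (Real.exp (l + p * v)) = 1 := by
    intro v hv
    apply min_eq_left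
    apply Real.one_le_exp
    have := mul_le_mul_of_nonneg_left hv hp.le
    linarith
  have hlt : ∀ v, v < v₀ → min 1 (Real.exp (l + p * v)) = Real.exp (l + p * v) := by
    intro v hv
    apply min_eq_right
    rw [← Real.exp_zero]
    apply Real.exp_le_exp.mpr
    have := mul_lt_mul_of_pos_left hv hp
    linarith
  have hB : (fun v => step (v - v₀) - min 1 (Real.exp (l + p * v)))
      = fun v => - (Iio v₀).indicator (fun v => Real.exp l * Real.exp (p * v)) v := by
    funext v
    by_cases h : v₀ ≤ v
    · have h' : ¬ v < v₀ := not_lt.mpr h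
      simp [step, h, hge v h, h']
    · have h' : v < v₀ := not_le.mp h
      rw [hlt v h', Real.exp_add]
      simp [step, h, h']
  have hBint : Integrable (fun v => step (v - v₀) - min 1 (Real.exp (l + p * v))) := by
    rw [hB]
    refine ((integrable_indicator_iff measurableSet_Iio).mpr ?_).neg
    exact ((integrableOn_exp_mul_Iic hp v₀).mono_set Iio_subset_Iic_self).const_mul _
  have hBval : ∫ v, (step (v - v₀) - min 1 (Real.exp (l + p * v))) = - (1 / p) := by
    rw [hB, integral_neg, integral_indicator measurableSet_Iio, integral_const_mul,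
      ← integral_Iic_eq_integral_Iio, integral_exp_mul_Iic hp]
    rw [mul_div_assoc', ← Real.exp_add, hv₀', Real.exp_zero]
  have hsplit : (fun v => step v - min 1 (Real.exp (l + p * v)))
      = fun v => (step v - step (v - v₀)) + (step (v - v₀) - min 1 (Real.exp (l + p * v))) := by
    funext v; ring
  refine ⟨by fun_prop, fun y => lt_min one_pos (Real.exp_pos _), fun y => min_le_left _ _, ?_, ?_,
    ?_, ?_, ?_, ?_⟩
  · intro x y h
    exact min_le_min le_rfl (Real.exp_le_exp.mpr (by have := mul_le_mul_of_nonneg_left h hp.le; linarith))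
  · have h : (fun v => Real.log (min 1 (Real.exp (l + p * v)))) = (fun _ => (0:ℝ)) ⊓ fun v => l + p * v := by
      funext v
      by_cases h : v₀ ≤ v
      · have := mul_le_mul_of_nonneg_left h hp.le
        simp only [hge v h, Real.log_one, Pi.inf_apply]
        exact (min_eq_left (by linarith)).symm
      · have h' : v < v₀ := not_le.mp h
        have := mul_lt_mul_of_pos_left h' hp
        simp only [hlt v h', Real.log_exp, Pi.inf_apply]
        exact (min_eq_right (by linarith)).symm
    rw [h]
    apply ConcaveOn.inf (concaveOn_const _ convex_univ)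
    refine ⟨convex_univ, ?_⟩
    intro x _ y _ a b _ _ hab
    simp only [smul_eq_mul]
    have : a * (l + p * x) + b * (l + p * y) = (a + b) * l + p * (a * x + b * y) := by ring
    rw [this, hab]; linarith
  · apply tendsto_const_nhds.congr'
    filter_upwards [eventually_ge_atTop v₀] with v hv
    exact (hge v hv).symm
  · have h1 : Tendsto (fun v => Real.exp (l + p * v)) atBot (𝓝 0) := by
      apply Real.tendsto_exp_atBot.comp
      apply tendsto_atBot_add_const_left
      exact Tendsto.const_mul_atBot hp tendsto_id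
    apply squeeze_zero (fun v => (lt_min one_pos (Real.exp_pos _)).le) (fun v => min_le_right _ _) h1
  · rw [hsplit]; exact (step_sub_step v₀).1.add hBint
  · rw [hsplit, integral_add (step_sub_step v₀).1 hBint, (step_sub_step v₀).2, hBval, hv₀]
    field_simp; ring



section goodT
variable {F : ℝ → ℝ} {m : ℝ}

lemma phi_cont (hF : Good F m) (a y : ℝ) : Continuous (fun x => F (y + a * x) * Real.exp (-x)) := by
  have := hF.cont
  fun_prop

lemma phi_int (hF : Good F m) (a y c : ℝ) :
    IntegrableOn (fun x => F (y + a * x) * Real.exp (-x)) (Ioi c) := by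
  refine Integrable.mono' (integrableOn_exp_neg_Ioi c) (phi_cont hF a y).aestronglyMeasurable ?_
  refine Eventually.of_forall fun x => ?_
  rw [Real.norm_eq_abs, abs_of_nonneg (mul_nonneg (hF.pos _).le (Real.exp_pos _).le)]
  exact mul_le_of_le_one_left (Real.exp_pos _).le (hF.le_one _)

lemma T_zero (hF : Good F m) : T 0 F = F := by
  funext y
  unfold T
  simp only [zero_mul, add_zero]
  rw [integral_const_mul, integral_exp_neg_Ioi_zero, mul_one]

lemma T_shift (hF : Good F m) (a y t : ℝ) :
    T a F (y + a * t) = Real.exp t *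
      (T a F y - ∫ x in (0:ℝ)..t, F (y + a * x) * Real.exp (-x)) := by
  have h1 : T a F (y + a * t) = ∫ x in Ioi t, Real.exp t * (F (y + a * x) * Real.exp (-x)) := by
    calc T a F (y + a * t)
        = ∫ x, (Ioi (0:ℝ)).indicator (fun x => F (y + a * t + a * x) * Real.exp (-x)) x :=
          (integral_indicator measurableSet_Ioi).symm
      _ = ∫ x, (Ioi t).indicator (fun x => Real.exp t * (F (y + a * x) * Real.exp (-x))) (x + t) := by
          congr 1
          funext x
          by_cases hx : 0 < x
          · have hx' : t < x + t := by linarith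
            simp only [indicator, mem_Ioi, hx, hx', if_true]
            have h2 : Real.exp (-x) = Real.exp t * Real.exp (-(x + t)) := by
              rw [← Real.exp_add]; congr 1; ring
            rw [h2]
            have h3 : y + a * t + a * x = y + a * (x + t) := by ring
            rw [h3]; ring
          · have hx' : ¬ t < x + t := by linarith
            simp only [indicator, mem_Ioi, hx, hx', if_false]
      _ = ∫ x, (Ioi t).indicator (fun x => Real.exp t * (F (y + a * x) * Real.exp (-x))) x :=
          integral_add_right_eq_self _ t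
      _ = ∫ x in Ioi t, Real.exp t * (F (y + a * x) * Real.exp (-x)) :=
          integral_indicator measurableSet_Ioi
  rw [h1, integral_const_mul]
  congr 1
  rw [← intervalIntegral.integral_Ioi_sub_Ioi' (phi_int hF a y 0) (phi_int hF a y t)]
  unfold T
  ring

lemma T_hasDerivAt (hF : Good F m) {a : ℝ} (ha : a ≠ 0) (y : ℝ) :
    HasDerivAt (T a F) ((T a F y - F y) / a) y := by
  have h1 : HasDerivAt (fun t => Real.exp t *
      (T a F y - ∫ x in (0:ℝ)..t, F (y + a * x) * Real.exp (-x))) (T a F y - F y) 0 := by
    have hI : HasDerivAt (fun t => ∫ x in (0:ℝ)..t, F (y + a * x) * Real.exp (-x))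
        (F (y + a * 0) * Real.exp (-0)) 0 :=
      ((phi_cont hF a y).integral_hasStrictDerivAt 0 0).hasDerivAt
    have h2 : HasDerivAt (fun t => Real.exp t *
        (T a F y - ∫ x in (0:ℝ)..t, F (y + a * x) * Real.exp (-x)))
        (Real.exp 0 * (T a F y - ∫ x in (0:ℝ)..0, F (y + a * x) * Real.exp (-x))
          + Real.exp 0 * (0 - F (y + a * 0) * Real.exp (-0))) 0 :=
      (Real.hasDerivAt_exp 0).mul ((hasDerivAt_const (0:ℝ) (T a F y)).sub hI)
    refine h2.congr_deriv ?_
    simp
    ring
  have h3 : HasDerivAt (fun z => (z - y) / a) (1 / a) y := by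
    simpa using ((hasDerivAt_id y).sub_const y).div_const a
  have h4 : HasDerivAt (fun t => Real.exp t *
      (T a F y - ∫ x in (0:ℝ)..t, F (y + a * x) * Real.exp (-x))) (T a F y - F y) ((y - y) / a) := by
    simpa using h1
  have h5 := h4.comp y h3
  have h6 : (fun t => Real.exp t *
      (T a F y - ∫ x in (0:ℝ)..t, F (y + a * x) * Real.exp (-x))) ∘ (fun z => (z - y) / a) = T a F := by
    funext z
    simp only [Function.comp]
    rw [← T_shift hF a y ((z - y) / a)]
    congr 1
    field_simp
    ring
  rw [h6] at h5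
  refine h5.congr_deriv ?_
  ring

lemma T_pos (hF : Good F m) (a y : ℝ) : 0 < T a F y := by
  unfold T
  rw [integral_pos_iff_support_of_nonneg (fun x => mul_nonneg (hF.pos _).le (Real.exp_pos _).le)
    (phi_int hF a y 0)]
  have : Function.support (fun x => F (y + a * x) * Real.exp (-x)) = univ := by
    ext x
    simp only [Function.mem_support, mem_univ, iff_true]
    exact (mul_pos (hF.pos _) (Real.exp_pos _)).ne'
  rw [this]
  simp

lemma T_le_one (hF : Good F m) (a y : ℝ) : T a F y ≤ 1 := by
  unfold T
  rw [← integral_exp_neg_Ioi_zero]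
  refine integral_mono (phi_int hF a y 0) (integrableOn_exp_neg_Ioi 0) fun x => ?_
  exact mul_le_of_le_one_left (Real.exp_pos _).le (hF.le_one _)

lemma T_mono (hF : Good F m) (a : ℝ) : Monotone (T a F) := by
  intro y₁ y₂ h
  unfold T
  refine integral_mono (phi_int hF a y₁ 0) (phi_int hF a y₂ 0) fun x => ?_
  exact mul_le_mul_of_nonneg_right (hF.mono (by linarith)) (Real.exp_pos _).le

lemma T_tendsto (hF : Good F m) (a : ℝ) {l : Filter ℝ} [l.IsCountablyGenerated] {c : ℝ}
    (h : ∀ x : ℝ, Tendsto (fun y => F (y + a * x)) l (𝓝 c)) : Tendsto (T a F) l (𝓝 c) := by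
  have h1 : Tendsto (fun y => ∫ x in Ioi (0:ℝ), F (y + a * x) * Real.exp (-x)) l
      (𝓝 (∫ x in Ioi (0:ℝ), c * Real.exp (-x))) := by
    refine tendsto_integral_filter_of_dominated_convergence (fun x => Real.exp (-x)) ?_ ?_
      (integrableOn_exp_neg_Ioi 0) ?_
    · exact Eventually.of_forall fun y => (phi_cont hF a y).aestronglyMeasurable
    · refine Eventually.of_forall fun y => Eventually.of_forall fun x => ?_
      rw [Real.norm_eq_abs, abs_of_nonneg (mul_nonneg (hF.pos _).le (Real.exp_pos _).le)]
      exact mul_le_of_le_one_left (Real.exp_pos _).le (hF.le_one _)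
    · exact Eventually.of_forall fun x => (h x).mul_const _
  rw [integral_const_mul, integral_exp_neg_Ioi_zero, mul_one] at h1
  exact h1

lemma four_point (hF : Good F m) {y₁ y₂ h : ℝ} (hy : y₁ ≤ y₂) (hh : 0 ≤ h) :
    F (y₂ + h) * F y₁ ≤ F (y₁ + h) * F y₂ := by
  have key : Real.log (F (y₂ + h)) + Real.log (F y₁) ≤ Real.log (F (y₁ + h)) + Real.log (F y₂) := by
    set w := y₂ + h - y₁ with hw
    rcases eq_or_lt_of_le (show 0 ≤ w by rw [hw]; linarith) with hw0 | hw0
    · have e1 : y₁ = y₂ := by linarith
      have e2 : h = 0 := by linarith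
      subst e1; subst e2; simp; 
    · have p1 : 0 ≤ h / w := by positivity
      have p2 : 0 ≤ (y₂ - y₁) / w := div_nonneg (by linarith) hw0.le
      have e3 : h / w + (y₂ - y₁) / w = 1 := by
        rw [← add_div, div_eq_one_iff_eq hw0.ne', hw]; ring
      have c1 := hF.conc.2 (mem_univ y₁) (mem_univ (y₂ + h)) p1 p2 e3
      have c2 := hF.conc.2 (mem_univ y₁) (mem_univ (y₂ + h)) p2 p1 (by rw [add_comm]; exact e3)
      simp only [smul_eq_mul] at c1 c2
      have e1 : h / w * y₁ + (y₂ - y₁) / w * (y₂ + h) = y₂ := by
        field_simp; rw [hw]; ring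
      have e2 : (y₂ - y₁) / w * y₁ + h / w * (y₂ + h) = y₁ + h := by
        field_simp; rw [hw]; ring
      rw [e1] at c1
      rw [e2] at c2
      have e4 : (h / w + (y₂ - y₁) / w) * (Real.log (F y₁) + Real.log (F (y₂ + h)))
          ≤ Real.log (F y₂) + Real.log (F (y₁ + h)) := by nlinarith
      rw [e3] at e4
      linarith
  rw [← Real.log_mul (hF.pos _).ne' (hF.pos _).ne', ← Real.log_mul (hF.pos _).ne' (hF.pos _).ne'] at key
  exact (Real.log_le_log_iff (mul_pos (hF.pos _) (hF.pos _)) (mul_pos (hF.pos _) (hF.pos _))).mp key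

lemma cross_pos (hF : Good F m) {a : ℝ} (ha : 0 < a) {y₁ y₂ : ℝ} (hy : y₁ ≤ y₂) :
    T a F y₂ * F y₁ ≤ T a F y₁ * F y₂ := by
  unfold T
  rw [← integral_mul_const, ← integral_mul_const]
  refine setIntegral_mono_on ((phi_int hF a y₂ 0).mul_const _) ((phi_int hF a y₁ 0).mul_const _)
    measurableSet_Ioi fun x hx => ?_
  have hx' : (0:ℝ) < x := hx
  have := four_point hF hy (mul_pos ha hx').le
  have e := Real.exp_pos (-x)
  nlinarith

lemma cross_neg (hF : Good F m) {a : ℝ} (ha : a < 0) {y₁ y₂ : ℝ} (hy : y₁ ≤ y₂) :
    T a F y₁ * F y₂ ≤ T a F y₂ * F y₁ := by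
  unfold T
  rw [← integral_mul_const, ← integral_mul_const]
  refine setIntegral_mono_on ((phi_int hF a y₁ 0).mul_const _) ((phi_int hF a y₂ 0).mul_const _)
    measurableSet_Ioi fun x hx => ?_
  have hx' : (0:ℝ) < x := hx
  have h0 : 0 ≤ -(a * x) := by nlinarith
  have := four_point hF (y₁ := y₁ + a * x) (y₂ := y₂ + a * x) (by linarith) h0
  simp only [add_neg_cancel_right] at this
  have e := Real.exp_pos (-x)
  nlinarith

lemma T_conc (hF : Good F m) {a : ℝ} (ha : a ≠ 0) :
    ConcaveOn ℝ univ (fun y => Real.log (T a F y)) := by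
  have hd : ∀ y, HasDerivAt (fun y => Real.log (T a F y)) ((T a F y - F y) / a / T a F y) y :=
    fun y => (T_hasDerivAt hF ha y).log (T_pos hF a y).ne'
  apply AntitoneOn.concaveOn_of_deriv convex_univ
  · exact (continuous_iff_continuousAt.mpr fun y => (hd y).continuousAt).continuousOn
  · intro y _; exact (hd y).differentiableAt.differentiableWithinAt
  · rw [interior_univ]
    intro y₁ _ y₂ _ h
    rw [(hd y₁).deriv, (hd y₂).deriv]
    have k1 := T_pos hF a y₁
    have k2 := T_pos hF a y₂
    rcases lt_or_gt_of_ne ha with ha' | ha'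
    · have c := cross_neg hF ha' h
      have e : ∀ y, (T a F y - F y) / a / T a F y = (F y - T a F y) / ((-a) * T a F y) := by
        intro y
        have := (T_pos hF a y).ne'
        field_simp
        ring
      rw [e y₁, e y₂, div_le_div_iff₀ (mul_pos (by linarith) k2) (mul_pos (by linarith) k1)]
      have : 0 < -a := by linarith
      nlinarith
    · have c := cross_pos hF ha' h
      rw [div_div, div_div, div_le_div_iff₀ (mul_pos ha' k2) (mul_pos ha' k1)]
      nlinarith

lemma T_deriv_nonneg (hF : Good F m) {a : ℝ} (ha : a ≠ 0) (y : ℝ) : 0 ≤ (T a F y - F y) / a := by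
  have e : F y = ∫ x in Ioi (0:ℝ), F y * Real.exp (-x) := by
    rw [integral_const_mul, integral_exp_neg_Ioi_zero, mul_one]
  rcases lt_or_gt_of_ne ha with ha' | ha'
  · apply div_nonneg_of_nonpos _ ha'.le
    rw [sub_nonpos, e]
    unfold T
    refine setIntegral_mono_on (phi_int hF a y 0) ((integrableOn_exp_neg_Ioi 0).const_mul _)
      measurableSet_Ioi fun x hx => ?_
    have hx' : (0:ℝ) < x := hx
    exact mul_le_mul_of_nonneg_right (hF.mono (by nlinarith)) (Real.exp_pos _).le
  · apply div_nonneg _ ha'.le
    rw [sub_nonneg, e]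
    unfold T
    refine setIntegral_mono_on ((integrableOn_exp_neg_Ioi 0).const_mul _) (phi_int hF a y 0)
      measurableSet_Ioi fun x hx => ?_
    have hx' : (0:ℝ) < x := hx
    exact mul_le_mul_of_nonneg_right (hF.mono (by nlinarith)) (Real.exp_pos _).le

lemma T_top (hF : Good F m) (a : ℝ) : Tendsto (T a F) atTop (𝓝 1) :=
  T_tendsto hF a fun x => hF.top.comp (tendsto_atTop_add_const_right _ _ tendsto_id)

lemma T_bot (hF : Good F m) (a : ℝ) : Tendsto (T a F) atBot (𝓝 0) :=
  T_tendsto hF a fun x => hF.bot.comp (tendsto_atBot_add_const_right _ _ tendsto_id)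

lemma T_deriv_integrable (hF : Good F m) {a : ℝ} (ha : a ≠ 0) :
    Integrable (fun y => (T a F y - F y) / a) := by
  have h1 : IntegrableOn (fun y => (T a F y - F y) / a) (Ioi 0) :=
    integrableOn_Ioi_deriv_of_nonneg' (fun x _ => T_hasDerivAt hF ha x)
      (fun x _ => T_deriv_nonneg hF ha x) (T_top hF a)
  have h2 : IntegrableOn (fun y => (T a F (-y) - F (-y)) / a) (Ioi (-0)) := by
    rw [neg_zero]
    refine integrableOn_Ioi_deriv_of_nonneg' (g := fun x => - T a F (-x)) (l := -0) (fun x _ => ?_)
      (fun x _ => T_deriv_nonneg hF ha (-x)) ((T_bot hF a).comp tendsto_neg_atTop_atBot).neg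
    have := ((T_hasDerivAt hF ha (-x)).scomp x (hasDerivAt_neg x)).neg
    refine this.congr_deriv ?_
    simp
  have h3 := h2.comp_neg_Iio
  simp only [neg_neg] at h3
  rw [← integrableOn_univ, ← Iio_union_Ici (a := (0:ℝ))]
  exact h3.union (Iff.mpr integrableOn_Ici_iff_integrableOn_Ioi h1)

theorem good_T' (hF : Good F m) (a : ℝ) : Good (T a F) (m - a) := by
  by_cases ha : a = 0
  · subst ha
    rw [T_zero hF, sub_zero]
    exact hF
  have hsplit : (fun y => step y - T a F y)
      = fun y => (step y - F y) + (-a) * ((T a F y - F y) / a) := by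
    funext y; field_simp; ring
  refine ⟨continuous_iff_continuousAt.mpr fun y => (T_hasDerivAt hF ha y).continuousAt,
    T_pos hF a, T_le_one hF a, T_mono hF a, T_conc hF ha, T_top hF a, T_bot hF a, ?_, ?_⟩
  · rw [hsplit]; exact hF.int.add ((T_deriv_integrable hF ha).const_mul _)
  · rw [hsplit, integral_add hF.int ((T_deriv_integrable hF ha).const_mul _), integral_const_mul,
      integral_of_hasDerivAt_of_tendsto (fun y => T_hasDerivAt hF ha y) (T_deriv_integrable hF ha)
        (T_bot hF a) (T_top hF a), hF.mean]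
    ring

end goodT


/-- (M5) -/
theorem good_T {F : ℝ → ℝ} {m : ℝ} (hF : Good F m) (a : ℝ) : Good (T a F) (m - a) :=
  good_T' hF a

end Crest.Agent.Lib_helper8_ExpT
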