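import Crest.Agent.Lib_helper8_ExpPi
import Crest.Agent.Lib_helper8_ExpT
import Crest.Agent.Lib_helper8_ExpObj

/-!
S0423: assembly lemmas (goodness of the distribution function of `-∑ a_i X_i`).
-/

set_option autoImplicit false

open MeasureTheory Set Filter Topology
open Crest.Agent.Lib_helper8_ExpDefs Crest.Agent.Lib_helper8_ExpPi Crest.Agent.Lib_helper8_ExpT
open Crest.Agent.Lib_helper8_ExpBasic Crest.Agent.Lib_helper8_ExpObj

namespace Crest.Agent.Lib_helper8_ExpAsm

theorem good_I (N : ℕ) : ∀ (a : Fin N → ℝ) (h : ℝ → ℝ) (m : ℝ), Good h m →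
    Good (I N a h) (m - ∑ i, a i) := by
  induction N with
  | zero =>
    intro a h m hh
    have : I 0 a h = h := funext (I_zero a h)
    rw [this]; simpa using hh
  | succ N ih =>
    intro a h m hh
    have hb : ∀ y, |h y| ≤ 1 := fun y => by
      rw [abs_of_pos (hh.pos y)]; exact hh.le_one y
    have : I (N + 1) a h = I N (fun i => a ((0 : Fin (N+1)).succAbove i)) (T (a 0) h) :=
      funext (I_succ N a 0 h hh.cont.measurable hb)
    rw [this]
    have := ih (fun i => a ((0 : Fin (N+1)).succAbove i)) (T (a 0) h) (m - a 0) (good_T hh (a 0))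
    convert this using 1
    rw [Fin.sum_univ_succAbove a 0]; ring

/-- the distribution function of `-∑ a_i X_i` is good of mean `-∑ a_i` as soon as some
coefficient is positive; moreover it is `I N a' (cap)`. -/
theorem I_step_eq (N : ℕ) (a : Fin (N + 1) → ℝ) (j : Fin (N + 1)) (hj : 0 < a j) :
    I (N + 1) a step = I N (fun i => a (j.succAbove i)) (fun y => min 1 (Real.exp (y / a j))) := by
  have h1 : I (N + 1) a step = I N (fun i => a (j.succAbove i)) (T (a j) step) :=
    funext (I_succ N a j step measurable_step abs_step_le)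
  rw [h1, T_step _ hj]

theorem good_I_step (N : ℕ) (a : Fin (N + 1) → ℝ) (j : Fin (N + 1)) (hj : 0 < a j) :
    Good (I (N + 1) a step) (- ∑ i, a i) := by
  rw [I_step_eq N a j hj]
  have h2 := good_cap (1 / a j) 0 (by positivity)
  have h3 : (fun v => min 1 (Real.exp (0 + 1 / a j * v))) = fun y => min 1 (Real.exp (y / a j)) := by
    funext v; congr 2; ring
  rw [h3] at h2
  have h4 := good_I N (fun i => a (j.succAbove i)) _ _ h2
  convert h4 using 1
  rw [Fin.sum_univ_succAbove a j]
  field_simp
  ring

end Crest.Agent.Lib_helper8_ExpAsm
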