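import Crest.Agent.Lib_helper8_ExpDefs

set_option autoImplicit false

open MeasureTheory Set Filter Topology
open Crest.Agent.Lib_helper8_ExpDefs

namespace Crest.Agent.Lib_helper8_ExpBasic

/-- antiderivative of `u e^{-lam u}` -/
theorem hasDerivAt_gam (lam : ℝ) (hl : 0 < lam) (u : ℝ) :
    HasDerivAt (fun u : ℝ => -(Real.exp (-(lam * u)) * (u / lam + 1 / lam ^ 2)))
      (u * Real.exp (-(lam * u))) u := by
  have h1 : HasDerivAt (fun u : ℝ => Real.exp (-(lam * u))) (Real.exp (-(lam * u)) * (-(lam * 1))) u :=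
    (((hasDerivAt_id u).const_mul lam).neg).exp
  have h2 : HasDerivAt (fun u : ℝ => u / lam + 1 / lam ^ 2) (1 / lam) u :=
    ((hasDerivAt_id u).div_const lam).add_const _
  refine ((h1.mul h2).neg).congr_deriv ?_
  field_simp
  ring

theorem tendsto_gam (lam : ℝ) (hl : 0 < lam) :
    Tendsto (fun u : ℝ => -(Real.exp (-(lam * u)) * (u / lam + 1 / lam ^ 2))) atTop (𝓝 0) := by
  have h0 : Tendsto (fun u : ℝ => lam * u) atTop atTop := tendsto_id.const_mul_atTop hl
  have h1 : Tendsto (fun x : ℝ => x ^ 1 * Real.exp (-x)) atTop (𝓝 0) :=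
    Real.tendsto_pow_mul_exp_neg_atTop_nhds_zero 1
  have h2 : Tendsto (fun x : ℝ => x ^ 0 * Real.exp (-x)) atTop (𝓝 0) :=
    Real.tendsto_pow_mul_exp_neg_atTop_nhds_zero 0
  have h3 := ((h1.add h2).comp h0).const_mul (-(1 / lam ^ 2))
  simp only [add_zero, mul_zero] at h3
  refine h3.congr (fun u => ?_)
  simp only [Function.comp]
  field_simp

theorem integrableOn_gam (lam r : ℝ) (hl : 0 < lam) (hr : 0 ≤ r) :
    IntegrableOn (fun u : ℝ => u * Real.exp (-(lam * u))) (Ioi r) :=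
  integrableOn_Ioi_deriv_of_nonneg' (fun x _ => hasDerivAt_gam lam hl x)
    (fun x hx => mul_nonneg (hr.trans (le_of_lt hx)) (Real.exp_pos _).le) (tendsto_gam lam hl)

theorem integral_gam (lam r : ℝ) (hl : 0 < lam) (hr : 0 ≤ r) :
    ∫ u in Ioi r, u * Real.exp (-(lam * u)) = Real.exp (-(lam * r)) * (r / lam + 1 / lam ^ 2) := by
  rw [integral_Ioi_of_hasDerivAt_of_nonneg' (fun x _ => hasDerivAt_gam lam hl x)
    (fun x hx => mul_nonneg (hr.trans (le_of_lt hx)) (Real.exp_pos _).le) (tendsto_gam lam hl)]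
  ring

/-- the Gamma(2) density, extended by zero -/
noncomputable def W (u : ℝ) : ℝ := if 0 < u then u * Real.exp (-u) else 0

theorem W_nonneg (u : ℝ) : 0 ≤ W u := by
  unfold W; split_ifs with h
  · exact mul_nonneg h.le (Real.exp_pos _).le
  · exact le_rfl

theorem W_le_one (u : ℝ) : W u ≤ 1 := by
  unfold W; split_ifs with h
  · have h1 : u + 1 ≤ Real.exp u := Real.add_one_le_exp u
    rw [Real.exp_neg, ← div_eq_mul_inv, div_le_one (Real.exp_pos _)]
    linarith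
  · exact zero_le_one

theorem gam_mono {u v : ℝ} (hu : 0 ≤ u) (huv : u ≤ v) (hv : v ≤ 1) :
    u * Real.exp (-u) ≤ v * Real.exp (-v) := by
  have h1 : -(v - u) + 1 ≤ Real.exp (-(v - u)) := Real.add_one_le_exp _
  have h2 : Real.exp (-v) = Real.exp (-(v - u)) * Real.exp (-u) := by
    rw [← Real.exp_add]; ring_nf
  have h3 : u ≤ v * Real.exp (-(v - u)) := by
    have : v * (-(v - u) + 1) ≤ v * Real.exp (-(v - u)) :=
      mul_le_mul_of_nonneg_left h1 (hu.trans huv)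
    nlinarith
  rw [h2, ← mul_assoc]
  exact mul_le_mul_of_nonneg_right h3 (Real.exp_pos _).le

theorem gam_anti {u v : ℝ} (hu : 1 ≤ u) (huv : u ≤ v) :
    v * Real.exp (-v) ≤ u * Real.exp (-u) := by
  have h1 : (v - u) + 1 ≤ Real.exp (v - u) := Real.add_one_le_exp _
  have h2 : Real.exp (-u) = Real.exp (v - u) * Real.exp (-v) := by
    rw [← Real.exp_add]; ring_nf
  have h3 : v ≤ u * Real.exp (v - u) := by
    have : u * ((v - u) + 1) ≤ u * Real.exp (v - u) :=
      mul_le_mul_of_nonneg_left h1 (by linarith)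
    nlinarith
  rw [h2, ← mul_assoc]
  exact mul_le_mul_of_nonneg_right h3 (Real.exp_pos _).le

/-- left end of the level set -/
noncomputable def u1 (θ : ℝ) : ℝ := θ / (Real.exp θ - 1)

theorem exp_sub_one_pos {θ : ℝ} (hθ : 0 < θ) : 0 < Real.exp θ - 1 := by
  have := Real.add_one_lt_exp hθ.ne'
  linarith

theorem u1_pos {θ : ℝ} (hθ : 0 < θ) : 0 < u1 θ := div_pos hθ (exp_sub_one_pos hθ)

theorem u1_le_one {θ : ℝ} (hθ : 0 < θ) : u1 θ ≤ 1 := by
  unfold u1
  rw [div_le_one (exp_sub_one_pos hθ)]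
  have := Real.add_one_le_exp θ
  linarith

theorem one_le_u2 {θ : ℝ} (hθ : 0 < θ) : 1 ≤ u1 θ + θ := by
  have h0 := exp_sub_one_pos hθ
  have h1 : u1 θ + θ = θ * Real.exp θ / (Real.exp θ - 1) := by
    unfold u1; field_simp; ring
  rw [h1, le_div_iff₀ h0]
  -- exp θ - 1 ≤ θ exp θ  ⟸ 1 - θ ≤ exp (-θ)
  have h2 : -θ + 1 ≤ Real.exp (-θ) := Real.add_one_le_exp _
  have h3 : Real.exp (-θ) * Real.exp θ = 1 := by rw [← Real.exp_add]; simp
  nlinarith [Real.exp_pos θ]

theorem gam_u1_eq {θ : ℝ} (hθ : 0 < θ) :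
    (u1 θ + θ) * Real.exp (-(u1 θ + θ)) = u1 θ * Real.exp (-(u1 θ)) := by
  have h0 := exp_sub_one_pos hθ
  have h1 : u1 θ + θ = u1 θ * Real.exp θ := by
    unfold u1; field_simp; ring
  have h2 : Real.exp (-(u1 θ + θ)) = Real.exp (-(u1 θ)) * Real.exp (-θ) := by
    rw [← Real.exp_add]; ring_nf
  have h3 : Real.exp θ * Real.exp (-θ) = 1 := by rw [← Real.exp_add]; simp
  calc (u1 θ + θ) * Real.exp (-(u1 θ + θ))
      = u1 θ * Real.exp θ * (Real.exp (-(u1 θ)) * Real.exp (-θ)) := by rw [h2, ← h1]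
    _ = u1 θ * Real.exp (-(u1 θ)) * (Real.exp θ * Real.exp (-θ)) := by ring
    _ = _ := by rw [h3, mul_one]

/-- the level -/
noncomputable def lev (θ : ℝ) : ℝ := u1 θ * Real.exp (-(u1 θ))

theorem lev_nonneg {θ : ℝ} (hθ : 0 < θ) : 0 ≤ lev θ :=
  mul_nonneg (u1_pos hθ).le (Real.exp_pos _).le

theorem lev_le_W {θ u : ℝ} (hθ : 0 < θ) (h1 : u1 θ ≤ u) (h2 : u ≤ u1 θ + θ) : lev θ ≤ W u := by
  have hu : 0 < u := (u1_pos hθ).trans_le h1
  unfold W lev
  rw [if_pos hu]
  rcases le_total u 1 with h | h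
  · exact gam_mono (u1_pos hθ).le h1 h
  · rw [← gam_u1_eq hθ]
    exact gam_anti h h2

theorem W_le_lev {θ u : ℝ} (hθ : 0 < θ) (h : u ≤ u1 θ ∨ u1 θ + θ ≤ u) : W u ≤ lev θ := by
  unfold W
  split_ifs with hu
  · rcases h with h | h
    · exact gam_mono hu.le h (u1_le_one hθ)
    · unfold lev
      rw [← gam_u1_eq hθ]
      exact gam_anti (one_le_u2 hθ) h
  · exact lev_nonneg hθ

/-- slope of the chord of `L` over `[α, β]` -/
noncomputable def slp (L : ℝ → ℝ) (α β : ℝ) : ℝ := (L β - L α) / (β - α)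

/-- value at `0` of the chord line of `L` over `[α, β]` -/
noncomputable def icpt (L : ℝ → ℝ) (α β : ℝ) : ℝ := L α - slp L α β * α

theorem three_pt {L : ℝ → ℝ} (hL : ConcaveOn ℝ univ L) {x y z : ℝ} (hxy : x < y) (hyz : y < z) :
    (L z - L y) * (y - x) ≤ (L y - L x) * (z - y) := by
  have h := hL.slope_anti_adjacent (mem_univ x) (mem_univ z) hxy hyz
  rw [div_le_div_iff₀ (sub_pos.2 hyz) (sub_pos.2 hxy)] at h
  exact h

theorem chord_le {L : ℝ → ℝ} (hL : ConcaveOn ℝ univ L) {α β v : ℝ} (hαβ : α < β)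
    (h1 : α ≤ v) (h2 : v ≤ β) : icpt L α β + slp L α β * v ≤ L v := by
  have hd : 0 < β - α := sub_pos.2 hαβ
  have e : icpt L α β + slp L α β * v = (L β * (v - α) + L α * (β - v)) / (β - α) := by
    unfold icpt slp; field_simp; ring
  rw [e, div_le_iff₀ hd]
  rcases h1.eq_or_lt with rfl | h1
  · nlinarith
  rcases h2.eq_or_lt with rfl | h2
  · nlinarith
  have := three_pt hL h1 h2
  nlinarith

theorem le_chord_left {L : ℝ → ℝ} (hL : ConcaveOn ℝ univ L) {α β v : ℝ} (hαβ : α < β)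
    (h1 : v ≤ α) : L v ≤ icpt L α β + slp L α β * v := by
  have hd : 0 < β - α := sub_pos.2 hαβ
  have e : icpt L α β + slp L α β * v = (L β * (v - α) + L α * (β - v)) / (β - α) := by
    unfold icpt slp; field_simp; ring
  rw [e, le_div_iff₀ hd]
  rcases h1.eq_or_lt with rfl | h1
  · nlinarith
  have := three_pt hL h1 hαβ
  nlinarith

theorem le_chord_right {L : ℝ → ℝ} (hL : ConcaveOn ℝ univ L) {α β v : ℝ} (hαβ : α < β)
    (h1 : β ≤ v) : L v ≤ icpt L α β + slp L α β * v := by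
  have hd : 0 < β - α := sub_pos.2 hαβ
  have e : icpt L α β + slp L α β * v = (L β * (v - α) + L α * (β - v)) / (β - α) := by
    unfold icpt slp; field_simp; ring
  rw [e, le_div_iff₀ hd]
  rcases h1.eq_or_lt with rfl | h1
  · nlinarith
  have := three_pt hL hαβ h1
  nlinarith


end Crest.Agent.Lib_helper8_ExpBasic
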