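import Crest.Agent.Lib_helper8_ExpObj

/-!
S0423, package C: case A of the chord argument (chord line passes above `(0,-1)`), plus the
error term tending to zero.
-/

set_option autoImplicit false

open MeasureTheory Set Filter Topology
open Crest.Agent.Lib_helper8_ExpDefs Crest.Agent.Lib_helper8_ExpBasic Crest.Agent.Lib_helper8_ExpObj

namespace Crest.Agent.Lib_helper8_ExpCaseA

/-- `(1+x) e^{-x}` is antitone on `x ≥ 0`. -/
theorem one_add_mul_exp_anti {x y : ℝ} (hx : 0 ≤ x) (hxy : x ≤ y) :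
    (1 + y) * Real.exp (-y) ≤ (1 + x) * Real.exp (-x) := by
  have h1 : (y - x) + 1 ≤ Real.exp (y - x) := Real.add_one_le_exp _
  have h2 : Real.exp (-x) = Real.exp (y - x) * Real.exp (-y) := by
    rw [← Real.exp_add]; ring_nf
  have h3 : 1 + y ≤ (1 + x) * Real.exp (y - x) := by
    have : (1 + x) * ((y - x) + 1) ≤ (1 + x) * Real.exp (y - x) :=
      mul_le_mul_of_nonneg_left h1 (by linarith)
    nlinarith
  rw [h2, ← mul_assoc]
  exact mul_le_mul_of_nonneg_right h3 (Real.exp_pos _).le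

theorem integrableOn_gam_mul {X : ℝ → ℝ} (hm : Measurable X) (hb : ∀ u, |X u| ≤ 1) :
    IntegrableOn (fun u : ℝ => u * Real.exp (-u) * X u) (Ioi 0) := by
  have h1 : IntegrableOn (fun u : ℝ => u * Real.exp (-u)) (Ioi 0) := by
    simpa using integrableOn_gam 1 0 one_pos le_rfl
  exact Integrable.mul_bdd (c := 1) h1 hm.aestronglyMeasurable (Eventually.of_forall hb)

/-- Case A.  Let `α = 4/3 - (u1 θ + θ) < β = 4/3 - u1 θ`, `L = log F`, `p = slp L α β ≥ 0` (monotone),
`lam = icpt L α β ≥ -1`.  On `[α, β]`: `F v = exp (L v) ≥ exp (lam + p v) ≥ min 1 (exp (-1 + p v))`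
(`chord_le`).  Hence `Obj F ≥ ∫_{u ∈ [u1, u1+θ]} W u * min 1 (exp (-1 + p (4/3-u)))
 ≥ capObj - ∫_{(0,u1)} W - ∫_{(u1+θ,∞)} W ≥ J* - u1 θ - (1+θ) e^{-θ}`
(`capObj_ge`, `W_le_one`, `integral_gam 1 (u1 θ + θ)`, and `(1+x)e^{-x}` antitone on `x ≥ 0`). -/
theorem caseA {F : ℝ → ℝ} (hF : Good F 0) {θ : ℝ} (hθ : 0 < θ)
    (h : -1 ≤ icpt (fun v => Real.log (F v)) (4 / 3 - (u1 θ + θ)) (4 / 3 - u1 θ)) :
    4 / 9 * Real.exp (-(1 / 3)) - (u1 θ + (1 + θ) * Real.exp (-θ)) ≤ Obj F := by
  have hu1 : 0 < u1 θ := u1_pos hθ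
  have hαβ : 4 / 3 - (u1 θ + θ) < 4 / 3 - u1 θ := by linarith
  set p : ℝ := slp (fun v => Real.log (F v)) (4 / 3 - (u1 θ + θ)) (4 / 3 - u1 θ) with hp
  have hp0 : 0 ≤ p := by
    rw [hp]
    unfold slp
    apply div_nonneg
    · exact sub_nonneg.2 (Real.log_le_log (hF.pos _) (hF.mono hαβ.le))
    · linarith
  have hcap := capObj_ge p hp0
  -- the two integrands
  have hmg : Measurable (fun u : ℝ => min 1 (Real.exp (-1 + p * (4 / 3 - u)))) :=
    measurable_const.min (Real.measurable_exp.comp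
      (measurable_const.add (measurable_const.mul (measurable_const.sub measurable_id))))
  have hbg : ∀ u : ℝ, |min 1 (Real.exp (-1 + p * (4 / 3 - u)))| ≤ 1 := fun u => by
    rw [abs_of_pos (lt_min one_pos (Real.exp_pos _))]
    exact min_le_left _ _
  have hgint := integrableOn_gam_mul hmg hbg
  have hfint : IntegrableOn (fun u : ℝ => u * Real.exp (-u) * F (4 / 3 - u)) (Ioi 0) :=
    integrableOn_gam_mul (hF.cont.measurable.comp (measurable_const.sub measurable_id))
      (fun _ => Good.abs_le hF _)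
  have hsub1 : Ioc (u1 θ) (u1 θ + θ) ⊆ Ioi (0:ℝ) := fun u hu => hu1.trans hu.1
  -- lower bound for Obj F
  have hObj : ∫ u in Ioc (u1 θ) (u1 θ + θ),
        u * Real.exp (-u) * min 1 (Real.exp (-1 + p * (4 / 3 - u))) ≤ Obj F := by
    rw [Obj_eq]
    calc ∫ u in Ioc (u1 θ) (u1 θ + θ), u * Real.exp (-u) * min 1 (Real.exp (-1 + p * (4 / 3 - u)))
        ≤ ∫ u in Ioc (u1 θ) (u1 θ + θ), u * Real.exp (-u) * F (4 / 3 - u) := by
          refine setIntegral_mono_on (hgint.mono_set hsub1) (hfint.mono_set hsub1)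
            measurableSet_Ioc (fun u hu => ?_)
          have hu0 : 0 < u := hu1.trans hu.1
          refine mul_le_mul_of_nonneg_left ?_ (mul_nonneg hu0.le (Real.exp_pos _).le)
          have hc := chord_le hF.conc hαβ (v := 4 / 3 - u) (by linarith [hu.2]) (by linarith [hu.1])
          have h1 : -1 + p * (4 / 3 - u) ≤ Real.log (F (4 / 3 - u)) := by
            have : icpt (fun v => Real.log (F v)) (4 / 3 - (u1 θ + θ)) (4 / 3 - u1 θ)
                + p * (4 / 3 - u) ≤ Real.log (F (4 / 3 - u)) := hc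
            linarith
          calc min 1 (Real.exp (-1 + p * (4 / 3 - u))) ≤ Real.exp (-1 + p * (4 / 3 - u)) :=
                min_le_right _ _
            _ ≤ Real.exp (Real.log (F (4 / 3 - u))) := Real.exp_le_exp.2 h1
            _ = F (4 / 3 - u) := Real.exp_log (hF.pos _)
      _ ≤ ∫ u in Ioi (0:ℝ), u * Real.exp (-u) * F (4 / 3 - u) := by
          refine setIntegral_mono_set hfint ?_ (LE.le.eventuallyLE hsub1)
          refine (ae_restrict_iff' measurableSet_Ioi).2 (Eventually.of_forall fun u hu => ?_)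
          have hu0 : (0:ℝ) < u := hu
          exact mul_nonneg (mul_nonneg hu0.le (Real.exp_pos _).le) (hF.pos _).le
  -- split the cap integral
  have hsplit : ∫ u in Ioi (0:ℝ), u * Real.exp (-u) * min 1 (Real.exp (-1 + p * (4 / 3 - u)))
      = (∫ u in Ioc (0:ℝ) (u1 θ), u * Real.exp (-u) * min 1 (Real.exp (-1 + p * (4 / 3 - u))))
        + ((∫ u in Ioc (u1 θ) (u1 θ + θ),
            u * Real.exp (-u) * min 1 (Real.exp (-1 + p * (4 / 3 - u))))
        + ∫ u in Ioi (u1 θ + θ), u * Real.exp (-u) * min 1 (Real.exp (-1 + p * (4 / 3 - u)))) := by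
    rw [← Ioc_union_Ioi_eq_Ioi hu1.le, setIntegral_union (Ioc_disjoint_Ioi le_rfl) measurableSet_Ioi
      (hgint.mono_set Ioc_subset_Ioi_self) (hgint.mono_set (Ioi_subset_Ioi hu1.le)),
      ← Ioc_union_Ioi_eq_Ioi (show u1 θ ≤ u1 θ + θ by linarith),
      setIntegral_union (Ioc_disjoint_Ioi le_rfl) measurableSet_Ioi
      (hgint.mono_set hsub1) (hgint.mono_set (Ioi_subset_Ioi (by linarith)))]
  have hA : ∫ u in Ioc (0:ℝ) (u1 θ), u * Real.exp (-u) * min 1 (Real.exp (-1 + p * (4 / 3 - u)))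
      ≤ u1 θ := by
    calc ∫ u in Ioc (0:ℝ) (u1 θ), u * Real.exp (-u) * min 1 (Real.exp (-1 + p * (4 / 3 - u)))
        ≤ ∫ _u in Ioc (0:ℝ) (u1 θ), (1:ℝ) := by
          refine setIntegral_mono_on (hgint.mono_set Ioc_subset_Ioi_self)
            (integrableOn_const (by simp)) measurableSet_Ioc (fun u hu => ?_)
          have hW := W_le_one u
          unfold W at hW
          rw [if_pos hu.1] at hW
          have h0 : 0 ≤ u * Real.exp (-u) := mul_nonneg hu.1.le (Real.exp_pos _).le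
          have h1 : min 1 (Real.exp (-1 + p * (4 / 3 - u))) ≤ 1 := min_le_left _ _
          have h2 : 0 < min 1 (Real.exp (-1 + p * (4 / 3 - u))) := lt_min one_pos (Real.exp_pos _)
          nlinarith
      _ = u1 θ := by
          simp [hu1.le]
  have hC : ∫ u in Ioi (u1 θ + θ), u * Real.exp (-u) * min 1 (Real.exp (-1 + p * (4 / 3 - u)))
      ≤ (1 + θ) * Real.exp (-θ) := by
    have hI : IntegrableOn (fun u : ℝ => u * Real.exp (-u)) (Ioi (u1 θ + θ)) := by
      simpa using integrableOn_gam 1 (u1 θ + θ) one_pos (by linarith)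
    calc ∫ u in Ioi (u1 θ + θ), u * Real.exp (-u) * min 1 (Real.exp (-1 + p * (4 / 3 - u)))
        ≤ ∫ u in Ioi (u1 θ + θ), u * Real.exp (-u) := by
          refine setIntegral_mono_on (hgint.mono_set (Ioi_subset_Ioi (by linarith))) hI
            measurableSet_Ioi (fun u hu => ?_)
          have hu0 : (0:ℝ) < u := lt_trans (by linarith) (show u1 θ + θ < u from hu)
          have h0 : 0 ≤ u * Real.exp (-u) := mul_nonneg hu0.le (Real.exp_pos _).le
          have h1 : min 1 (Real.exp (-1 + p * (4 / 3 - u))) ≤ 1 := min_le_left _ _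
          nlinarith
      _ = (1 + (u1 θ + θ)) * Real.exp (-(u1 θ + θ)) := by
          have := integral_gam 1 (u1 θ + θ) one_pos (by linarith)
          simp only [one_mul, div_one, one_pow] at this
          rw [this]; ring
      _ ≤ (1 + θ) * Real.exp (-θ) := one_add_mul_exp_anti hθ.le (by linarith)
  linarith

theorem err_tendsto :
    Tendsto (fun θ : ℝ => u1 θ + (1 + θ) * Real.exp (-θ)) atTop (𝓝 0) := by
  have h1 : Tendsto (fun x : ℝ => x ^ 1 * Real.exp (-x)) atTop (𝓝 0) :=
    Real.tendsto_pow_mul_exp_neg_atTop_nhds_zero 1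
  have h0 : Tendsto (fun x : ℝ => x ^ 0 * Real.exp (-x)) atTop (𝓝 0) :=
    Real.tendsto_pow_mul_exp_neg_atTop_nhds_zero 0
  simp only [pow_one] at h1
  simp only [pow_zero, one_mul] at h0
  have hden : Tendsto (fun x : ℝ => 1 - Real.exp (-x)) atTop (𝓝 1) := by
    simpa using (tendsto_const_nhds (x := (1:ℝ))).sub h0
  have hu : Tendsto (fun x : ℝ => x * Real.exp (-x) / (1 - Real.exp (-x))) atTop (𝓝 0) := by
    have := h1.div hden one_ne_zero
    rw [zero_div] at this
    exact this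
  have hu' : Tendsto u1 atTop (𝓝 0) := by
    refine hu.congr (fun x => ?_)
    unfold u1
    have e : Real.exp x - 1 = Real.exp x * (1 - Real.exp (-x)) := by
      rw [mul_sub, ← Real.exp_add]; simp
    rw [e, Real.exp_neg, ← div_eq_mul_inv, div_div]
  have h2 : Tendsto (fun x : ℝ => (1 + x) * Real.exp (-x)) atTop (𝓝 0) := by
    have := h0.add h1
    simp only [add_zero] at this
    refine this.congr (fun x => ?_)
    ring
  simpa using hu'.add h2

end Crest.Agent.Lib_helper8_ExpCaseA
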