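import Crest.Agent.Lib_helper8_ExpObj
import Crest.Agent.Lib_helper8_ExpT

/-!
S0423, package C: case B of the chord argument (chord line passes below `(0,-1)`).
-/

set_option autoImplicit false

open MeasureTheory Set Filter Topology
open Crest.Agent.Lib_helper8_ExpDefs Crest.Agent.Lib_helper8_ExpBasic Crest.Agent.Lib_helper8_ExpObj
open Crest.Agent.Lib_helper8_ExpT

namespace Crest.Agent.Lib_helper8_ExpCaseB

theorem Good.exp_log {F : ℝ → ℝ} {m : ℝ} (hF : Good F m) (v : ℝ) :
    Real.exp (Real.log (F v)) = F v := Real.exp_log (hF.pos v)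

theorem slp_pos {F : ℝ → ℝ} {m : ℝ} (hF : Good F m) {α β : ℝ} (hαβ : α < β)
    (h : icpt (fun v => Real.log (F v)) α β ≤ -1) : 0 < slp (fun v => Real.log (F v)) α β := by
  by_contra hp
  push Not at hp
  have h1 : ∀ᶠ v in atTop, F v ≤ Real.exp (-1) := by
    filter_upwards [eventually_ge_atTop (max β 0)] with v hv
    have hvβ : β ≤ v := (le_max_left _ _).trans hv
    have hv0 : 0 ≤ v := (le_max_right _ _).trans hv
    have h2 := le_chord_right hF.conc hαβ hvβ
    have h3 : slp (fun v => Real.log (F v)) α β * v ≤ 0 := mul_nonpos_of_nonpos_of_nonneg hp hv0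
    rw [← Good.exp_log hF v]
    exact Real.exp_le_exp.2 (by linarith)
  have h2 : (1:ℝ) ≤ Real.exp (-1) := le_of_tendsto hF.top h1
  have h3 : Real.exp (-1) < 1 := by
    rw [Real.exp_lt_one_iff]; norm_num
  linarith

theorem caseB_aux {F : ℝ → ℝ} (hF : Good F 0) {θ : ℝ} (hθ : 0 < θ)
    (h : icpt (fun v => Real.log (F v)) (4 / 3 - (u1 θ + θ)) (4 / 3 - u1 θ) ≤ -1) :
    ∃ μ : ℝ, μ ≤ θ ∧
      (icpt (fun v => Real.log (F v)) (4 / 3 - (u1 θ + θ)) (4 / 3 - u1 θ) = -1 → μ = 0) ∧
      4 / 9 * Real.exp (-(1 / 3)) - μ ≤ Obj F := by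
  set L : ℝ → ℝ := fun v => Real.log (F v) with hL
  set α : ℝ := 4 / 3 - (u1 θ + θ) with hα
  set β : ℝ := 4 / 3 - u1 θ with hβ
  have hαβ : α < β := by rw [hα, hβ]; linarith
  set p : ℝ := slp L α β with hp
  set lam : ℝ := icpt L α β with hlam
  have hp0 : 0 < p := slp_pos hF hαβ h
  set E : ℝ → ℝ := fun v => min 1 (Real.exp (lam + p * v)) with hE
  have gE : Good E (-(lam + 1) / p) := good_cap p lam hp0
  have gE' : Good (fun v => min 1 (Real.exp (-1 + p * v))) (-(-1 + 1) / p) := good_cap p (-1) hp0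
  have hμ0 : 0 ≤ -(lam + 1) / p := div_nonneg (by linarith) hp0.le
  -- pointwise comparison of F and E
  have hin : ∀ v, α ≤ v → v ≤ β → E v ≤ F v := by
    intro v h1 h2
    have h3 := chord_le hF.conc hαβ h1 h2
    calc E v ≤ Real.exp (lam + p * v) := min_le_right _ _
      _ ≤ Real.exp (L v) := Real.exp_le_exp.2 h3
      _ = F v := Good.exp_log hF v
  have hout : ∀ v, (v ≤ α ∨ β ≤ v) → F v ≤ E v := by
    intro v hv
    have h3 : L v ≤ lam + p * v := by
      rcases hv with hv | hv
      · exact le_chord_left hF.conc hαβ hv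
      · exact le_chord_right hF.conc hαβ hv
    refine le_min (hF.le_one v) ?_
    rw [← Good.exp_log hF v]
    exact Real.exp_le_exp.2 h3
  -- the sign condition
  have hsign : ∀ u, 0 ≤ (F (4 / 3 - u) - E (4 / 3 - u)) * (W u - lev θ) := by
    intro u
    by_cases hu : u1 θ ≤ u ∧ u ≤ u1 θ + θ
    · have h1 := hin (4 / 3 - u) (by rw [hα]; linarith [hu.2]) (by rw [hβ]; linarith [hu.1])
      have h2 := lev_le_W hθ hu.1 hu.2
      exact mul_nonneg (by linarith) (by linarith)
    · have hu' : u ≤ u1 θ ∨ u1 θ + θ ≤ u := by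
        by_contra hc
        push Not at hc
        exact hu ⟨hc.1.le, hc.2.le⟩
      have h1 := hout (4 / 3 - u) (by
        rcases hu' with h | h
        · right; rw [hβ]; linarith
        · left; rw [hα]; linarith)
      have h2 := W_le_lev hθ hu'
      exact mul_nonneg_of_nonpos_of_nonpos (by linarith) (by linarith)
  have c1 := obj_compare hF gE hsign
  have c2 := obj_sub_le gE gE' (fun v => min_le_min_left _ (Real.exp_le_exp.2 (by linarith)))
  have c3 : 4 / 9 * Real.exp (-(1 / 3)) ≤ Obj (fun v => min 1 (Real.exp (-1 + p * v))) := by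
    rw [Obj_eq]; exact capObj_ge p hp0.le
  have c4 : 0 ≤ lev θ * (-(lam + 1) / p - 0) := mul_nonneg (lev_nonneg hθ) (by linarith)
  refine ⟨-(lam + 1) / p, ?_, ?_, ?_⟩
  · -- μ ≤ θ
    have e1 := Good.integral_sub hF gE
    rw [sub_zero] at e1
    rw [← e1]
    have e2 : ∫ v, (Icc α β).indicator (fun _ => (1:ℝ)) v = θ := by
      rw [integral_indicator measurableSet_Icc, setIntegral_const]
      simp only [smul_eq_mul, mul_one, Measure.real, Real.volume_Icc]
      rw [ENNReal.toReal_ofReal (by linarith)]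
      rw [hα, hβ]; ring
    rw [← e2]
    refine integral_mono (Good.integrable_sub hF gE) ?_ (fun v => ?_)
    · exact (integrable_indicator_iff measurableSet_Icc).2 (by simp)
    · by_cases hv : v ∈ Icc α β
      · rw [indicator_of_mem hv]
        have h1 := hF.le_one v
        have h2 := gE.pos v
        linarith
      · rw [indicator_of_notMem hv]
        have hv' : v ≤ α ∨ β ≤ v := by
          by_contra hc
          push Not at hc
          exact hv ⟨hc.1.le, hc.2.le⟩
        have := hout v hv'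
        linarith
  · intro hl
    rw [hl]; simp
  · have : -(-1 + 1) / p = 0 := by simp
    rw [this] at c2
    linarith

end Crest.Agent.Lib_helper8_ExpCaseB
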