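import Crest.Agent.Lib_helper8_ExpCaseA
import Crest.Agent.Lib_helper8_ExpCaseB

/-!
S0423, package C: the chord lemma (intermediate value argument).
-/

set_option autoImplicit false

open MeasureTheory Set Filter Topology
open Crest.Agent.Lib_helper8_ExpDefs Crest.Agent.Lib_helper8_ExpBasic Crest.Agent.Lib_helper8_ExpObj
open Crest.Agent.Lib_helper8_ExpCaseA Crest.Agent.Lib_helper8_ExpCaseB

namespace Crest.Agent.Lib_helper8_ExpChord

theorem continuousOn_u1 : ContinuousOn u1 (Ioi 0) := by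
  unfold u1
  refine ContinuousOn.div continuousOn_id (Real.continuous_exp.continuousOn.sub continuousOn_const) ?_
  intro θ hθ
  exact (exp_sub_one_pos hθ).ne'

theorem continuousOn_icpt {F : ℝ → ℝ} {m : ℝ} (hF : Good F m) :
    ContinuousOn (fun θ => icpt (fun v => Real.log (F v)) (4 / 3 - (u1 θ + θ)) (4 / 3 - u1 θ))
      (Ioi 0) := by
  have hL : Continuous (fun v => Real.log (F v)) := hF.cont.log (fun v => (hF.pos v).ne')
  have hα : ContinuousOn (fun θ => 4 / 3 - (u1 θ + θ)) (Ioi 0) :=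
    continuousOn_const.sub (continuousOn_u1.add continuousOn_id)
  have hβ : ContinuousOn (fun θ => 4 / 3 - u1 θ) (Ioi 0) := continuousOn_const.sub continuousOn_u1
  have hLα : ContinuousOn (fun θ => Real.log (F (4 / 3 - (u1 θ + θ)))) (Ioi 0) :=
    hL.comp_continuousOn hα
  have hLβ : ContinuousOn (fun θ => Real.log (F (4 / 3 - u1 θ))) (Ioi 0) :=
    hL.comp_continuousOn hβ
  unfold icpt slp
  refine hLα.sub (ContinuousOn.mul (ContinuousOn.div (hLβ.sub hLα) (hβ.sub hα) ?_) hα)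
  intro θ hθ
  have : (0:ℝ) < θ := hθ
  have e : 4 / 3 - u1 θ - (4 / 3 - (u1 θ + θ)) = θ := by ring
  rw [e]; exact this.ne'

/-- (M8) the chord lemma. -/
theorem chord {F : ℝ → ℝ} (hF : Good F 0) :
    4 / 9 * Real.exp (-(1 / 3)) ≤ ∫ u in Set.Ioi (0 : ℝ), u * Real.exp (-u) * F (4 / 3 - u) := by
  rw [← Obj_eq]
  set Λ : ℝ → ℝ := fun θ => icpt (fun v => Real.log (F v)) (4 / 3 - (u1 θ + θ)) (4 / 3 - u1 θ) with hΛ
  have hcont : ContinuousOn Λ (Ioi 0) := continuousOn_icpt hF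
  by_cases hA : ∀ θ, 0 < θ → -1 ≤ Λ θ
  · -- let θ → ∞
    refine le_of_forall_pos_le_add (fun ε hε => ?_)
    have h1 : ∀ᶠ θ in atTop, u1 θ + (1 + θ) * Real.exp (-θ) < ε :=
      (tendsto_order.1 err_tendsto).2 ε hε
    obtain ⟨θ, h2, h3⟩ := (h1.and (eventually_gt_atTop 0)).exists
    have := caseA hF h3 (hA θ h3)
    linarith
  push Not at hA
  obtain ⟨θ₁, hθ₁, h₁⟩ := hA
  by_cases hB : ∀ θ, 0 < θ → Λ θ ≤ -1
  · -- let θ → 0
    refine le_of_forall_pos_le_add (fun ε hε => ?_)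
    obtain ⟨μ, hμ, -, h3⟩ := caseB_aux hF hε (hB ε hε)
    linarith
  push Not at hB
  obtain ⟨θ₂, hθ₂, h₂⟩ := hB
  -- intermediate value theorem
  have hsub : uIcc θ₁ θ₂ ⊆ Ioi 0 := by
    intro x hx
    have := hx.1
    exact lt_of_lt_of_le (lt_min hθ₁ hθ₂) this
  have hivt := intermediate_value_uIcc (hcont.mono hsub)
  have hmem : (-1:ℝ) ∈ uIcc (Λ θ₁) (Λ θ₂) := by
    rw [mem_uIcc]; left; exact ⟨h₁.le, h₂.le⟩
  obtain ⟨θ, hθ, hθe⟩ := hivt hmem
  have hθ0 : 0 < θ := hsub hθ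
  obtain ⟨μ, -, hμ, h3⟩ := caseB_aux hF hθ0 hθe.le
  rw [hμ hθe] at h3
  linarith

end Crest.Agent.Lib_helper8_ExpChord
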