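import Mathlib

/-!
Shared definitions for S0423 (weighted sums of exponential variables).
-/

set_option autoImplicit false

open MeasureTheory Set Filter Topology

namespace Crest.Agent.Lib_helper8_ExpDefs

/-- `T a F y = E F(y + a X)` for a mean-one exponential variable `X`. -/
noncomputable def T (a : ℝ) (F : ℝ → ℝ) (y : ℝ) : ℝ :=
  ∫ x in Set.Ioi (0 : ℝ), F (y + a * x) * Real.exp (-x)

/-- `I N a h y = E h(y + ∑ a_i X_i)`. -/
noncomputable def I (N : ℕ) (a : Fin N → ℝ) (h : ℝ → ℝ) (y : ℝ) : ℝ :=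
  ∫ x in Set.pi Set.univ (fun _ : Fin N => Set.Ioi (0 : ℝ)),
    h (y + ∑ i, a i * x i) * Real.exp (-∑ i, x i)

/-- Heaviside step. -/
noncomputable def step (y : ℝ) : ℝ := if 0 ≤ y then 1 else 0

/-- A "good" distribution function with mean `m`: continuous, positive, `≤ 1`, monotone,
log-concave, with the right limits, and `∫ (step - F) = m`. -/
structure Good (F : ℝ → ℝ) (m : ℝ) : Prop where
  cont : Continuous F
  pos : ∀ y, 0 < F y
  le_one : ∀ y, F y ≤ 1
  mono : Monotone F
  conc : ConcaveOn ℝ Set.univ (fun y => Real.log (F y))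
  top : Tendsto F atTop (𝓝 1)
  bot : Tendsto F atBot (𝓝 0)
  int : Integrable (fun y => step y - F y)
  mean : ∫ y, (step y - F y) = m

end Crest.Agent.Lib_helper8_ExpDefs
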