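import Crest.Agent.Lib_helper8_ExpAsm

/-!
S0423: the approximating sequence (second half of the statement) and the degenerate case `a = 0`.
-/

set_option autoImplicit false

open MeasureTheory Set Filter Topology
open Crest.Agent.Lib_helper8_ExpDefs Crest.Agent.Lib_helper8_ExpPi Crest.Agent.Lib_helper8_ExpT
open Crest.Agent.Lib_helper8_ExpBasic Crest.Agent.Lib_helper8_ExpObj Crest.Agent.Lib_helper8_ExpAsm

namespace Crest.Agent.Lib_helper8_ExpPart2


theorem exp_neg_third_le : Real.exp (-(1 / 3)) ≤ 73 / 100 := by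
  have h1 : 1 + (1 / 3 : ℝ) + (1 / 3 : ℝ) ^ 2 / 2 ≤ Real.exp (1 / 3) :=
    Real.quadratic_le_exp_of_nonneg (by norm_num)
  rw [Real.exp_neg]
  have h2 : (100 / 73 : ℝ) ≤ Real.exp (1 / 3) := le_trans (by norm_num) h1
  calc (Real.exp (1 / 3))⁻¹ ≤ (100 / 73 : ℝ)⁻¹ := inv_anti₀ (by norm_num) h2
    _ = 73 / 100 := by norm_num

theorem I_of_zero (N : ℕ) (a : Fin N → ℝ) (h : ∀ i, a i = 0) (g : ℝ → ℝ) (y : ℝ) :
    I N a g y = g y := by
  rw [I_eq]
  have : ∀ x : Fin N → ℝ, g (y + ∑ i, a i * x i) * Real.exp (-∑ i, x i)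
      = g y * Real.exp (-∑ i, x i) := by
    intro x
    simp [h]
  simp_rw [this]
  rw [integral_const_mul, integral_w, mul_one]

/-- degenerate case: all coefficients vanish; then the integral is `g(4/3) = (7/3) e^{-4/3}`. -/
theorem zero_case (N : ℕ) (a : Fin N → ℝ) (h : ∀ i, a i = 0) :
    I N a Crest.AlgGeometry.truncExpWeight (4 / 3) ≤ 1 - 4 / 9 * Real.exp (-(1 / 3)) := by
  rw [I_of_zero N a h]
  unfold Crest.AlgGeometry.truncExpWeight
  rw [if_neg (by norm_num)]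
  have hx := exp_neg_third_le
  have hx0 : 0 < Real.exp (-(1 / 3)) := Real.exp_pos _
  have e : Real.exp (-(4 / 3)) = Real.exp (-(1 / 3)) ^ 4 := by
    rw [← Real.exp_nat_mul]; congr 1; norm_num
  rw [e]
  set x := Real.exp (-(1 / 3)) with hxdef
  have h2 : x ^ 2 ≤ (73 / 100) ^ 2 := pow_le_pow_left₀ hx0.le hx 2
  have h4 : x ^ 4 ≤ (73 / 100) ^ 4 := pow_le_pow_left₀ hx0.le hx 4
  norm_num at h4 ⊢
  linarith



theorem lower_n (n : ℕ) (hn : 1 ≤ n) :
    1 - 4 / 9 * Real.exp (2 / 3) * ((1 + 1 / (n : ℝ)) ^ n)⁻¹ ≤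
      I (n + 1) (Fin.cons 2 (fun _ => -2 / (n : ℝ))) Crest.AlgGeometry.truncExpWeight (4 / 3) := by
  set a : Fin (n + 1) → ℝ := Fin.cons 2 (fun _ => -2 / (n : ℝ)) with ha
  have hn0 : (0:ℝ) < n := by exact_mod_cast hn
  have ha0 : a 0 = 2 := by rw [ha]; simp
  have hpos : 0 < a 0 := by rw [ha0]; norm_num
  have hg := good_I_step n a 0 hpos
  set c : ℝ := ((1 + 1 / (n : ℝ)) ^ n)⁻¹ with hc
  -- pointwise bound
  have hF : ∀ y, I (n + 1) a step y ≤ Real.exp (y / 2) * c := by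
    intro y
    rw [I_step_eq n a 0 hpos, ha0]
    have h1 := I_cap_le n (fun i => a ((0 : Fin (n + 1)).succAbove i)) (fun i => by
      rw [ha]; simp only [Fin.zero_succAbove, Fin.cons_succ]
      exact div_nonpos_of_nonpos_of_nonneg (by norm_num) hn0.le) y
    refine h1.trans (le_of_eq ?_)
    congr 1
    rw [ha]
    simp only [Fin.zero_succAbove, Fin.cons_succ, Finset.prod_const, Finset.card_univ,
      Fintype.card_fin]
    rw [hc, ← inv_pow]
    congr 2
    field_simp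
    ring
  rw [I_trunc]
  have hint1 : IntegrableOn (fun u : ℝ => u * Real.exp (-u) * I (n + 1) a step (4 / 3 - u)) (Ioi 0) := by
    have h1 : IntegrableOn (fun u : ℝ => u * Real.exp (-u)) (Ioi 0) := by
      simpa using integrableOn_gam 1 0 one_pos le_rfl
    exact Integrable.mul_bdd (c := 1) h1
      (hg.cont.measurable.comp (measurable_const.sub measurable_id)).aestronglyMeasurable
      (Eventually.of_forall fun u => Good.abs_le hg _)
  have hint2 : IntegrableOn (fun u : ℝ => (Real.exp (2 / 3) * c) * (u * Real.exp (-(3 / 2 * u)))) (Ioi 0) :=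
    (integrableOn_gam (3 / 2) 0 (by norm_num) le_rfl).const_mul _
  have h2 : ∫ u in Ioi (0:ℝ), u * Real.exp (-u) * I (n + 1) a step (4 / 3 - u)
      ≤ ∫ u in Ioi (0:ℝ), (Real.exp (2 / 3) * c) * (u * Real.exp (-(3 / 2 * u))) := by
    refine setIntegral_mono_on hint1 hint2 measurableSet_Ioi (fun u hu => ?_)
    have hu0 : (0:ℝ) < u := hu
    have h3 := hF (4 / 3 - u)
    have h4 : 0 ≤ u * Real.exp (-u) := mul_nonneg hu0.le (Real.exp_pos _).le
    calc u * Real.exp (-u) * I (n + 1) a step (4 / 3 - u)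
        ≤ u * Real.exp (-u) * (Real.exp ((4 / 3 - u) / 2) * c) := mul_le_mul_of_nonneg_left h3 h4
      _ = (Real.exp (2 / 3) * c) * (u * Real.exp (-(3 / 2 * u))) := by
          have e1 : Real.exp (-u) * Real.exp ((4 / 3 - u) / 2)
              = Real.exp (2 / 3) * Real.exp (-(3 / 2 * u)) := by
            rw [← Real.exp_add, ← Real.exp_add]; congr 1; ring
          calc u * Real.exp (-u) * (Real.exp ((4 / 3 - u) / 2) * c)
              = u * c * (Real.exp (-u) * Real.exp ((4 / 3 - u) / 2)) := by ring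
            _ = _ := by rw [e1]; ring
  rw [integral_const_mul, integral_gam (3 / 2) 0 (by norm_num) le_rfl] at h2
  simp only [mul_zero, neg_zero, Real.exp_zero, zero_div, zero_add, one_mul] at h2
  have e2 : Real.exp (2 / 3) * c * (1 / (3 / 2 : ℝ) ^ 2) = 4 / 9 * Real.exp (2 / 3) * c := by
    norm_num; ring
  rw [e2] at h2
  linarith

/-- second half of S0423. -/
theorem part2 : ∀ ε : ℝ, 0 < ε → ∃ (N : ℕ) (a : Fin N → ℝ), 1 ≤ N ∧ ∑ i, a i = 0 ∧
      3 / 4 * Real.exp (4 / 3) - Real.exp 1 / 3 - ε <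
        Real.exp (4 / 3) / (4 / 3) *
          ∫ x in Set.pi Set.univ (fun _ : Fin N => Set.Ioi (0 : ℝ)),
            Crest.AlgGeometry.truncExpWeight (4 / 3 + ∑ i, a i * x i) * Real.exp (-∑ i, x i) := by
  intro ε hε
  have h1 : Tendsto (fun n : ℕ => (1 + 1 / (n : ℝ)) ^ n) atTop (𝓝 (Real.exp 1)) :=
    Real.tendsto_one_add_div_pow_exp 1
  have h2 : Tendsto (fun n : ℕ => 1 / 3 * Real.exp 2 * ((1 + 1 / (n : ℝ)) ^ n)⁻¹) atTop
      (𝓝 (1 / 3 * Real.exp 2 * (Real.exp 1)⁻¹)) :=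
    (h1.inv₀ (Real.exp_pos 1).ne').const_mul _
  have e0 : 1 / 3 * Real.exp 2 * (Real.exp 1)⁻¹ = Real.exp 1 / 3 := by
    rw [← Real.exp_neg, mul_assoc, ← Real.exp_add]; norm_num; ring
  rw [e0] at h2
  have h3 : ∀ᶠ n : ℕ in atTop, 1 / 3 * Real.exp 2 * ((1 + 1 / (n : ℝ)) ^ n)⁻¹ < Real.exp 1 / 3 + ε :=
    (tendsto_order.1 h2).2 _ (by linarith)
  obtain ⟨n, hn, hn1⟩ := (h3.and (eventually_ge_atTop 1)).exists
  refine ⟨n + 1, Fin.cons 2 (fun _ => -2 / (n : ℝ)), by omega, ?_, ?_⟩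
  · rw [Fin.sum_univ_succ]
    simp only [Fin.cons_zero, Fin.cons_succ, Finset.sum_const, Finset.card_univ, Fintype.card_fin,
      nsmul_eq_mul]
    have : (n : ℝ) ≠ 0 := by positivity
    field_simp
    ring
  · have hl := lower_n n hn1
    have e1 : Real.exp (4 / 3) * Real.exp (2 / 3) = Real.exp 2 := by
      rw [← Real.exp_add]; norm_num
    have hpos : 0 < Real.exp (4 / 3) := Real.exp_pos _
    change _ < Real.exp (4 / 3) / (4 / 3) *
      I (n + 1) (Fin.cons 2 (fun _ => -2 / (n : ℝ))) Crest.AlgGeometry.truncExpWeight (4 / 3)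
    have h4 : Real.exp (4 / 3) / (4 / 3) * (1 - 4 / 9 * Real.exp (2 / 3) * ((1 + 1 / (n : ℝ)) ^ n)⁻¹)
        ≤ Real.exp (4 / 3) / (4 / 3) *
          I (n + 1) (Fin.cons 2 (fun _ => -2 / (n : ℝ))) Crest.AlgGeometry.truncExpWeight (4 / 3) :=
      mul_le_mul_of_nonneg_left hl (by positivity)
    have h5 : Real.exp (4 / 3) / (4 / 3) * (1 - 4 / 9 * Real.exp (2 / 3) * ((1 + 1 / (n : ℝ)) ^ n)⁻¹)
        = 3 / 4 * Real.exp (4 / 3) - 1 / 3 * Real.exp 2 * ((1 + 1 / (n : ℝ)) ^ n)⁻¹ := by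
      rw [← e1]; ring
    linarith


end Crest.Agent.Lib_helper8_ExpPart2
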