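import Crest.Agent.Lib_helper8_ExpDefs
import Crest.Prelude.Def_TruncExpWeight

/-!
S0423, package "Pi": reduction of the `N`-dimensional integrals to iterated one-dimensional ones.
-/

set_option autoImplicit false

open MeasureTheory Set Filter Topology
open Crest.Agent.Lib_helper8_ExpDefs

namespace Crest.Agent.Lib_helper8_ExpPi

/-- Lebesgue measure restricted to the positive half-line. -/
noncomputable abbrev nu : Measure ℝ := volume.restrict (Set.Ioi (0 : ℝ))

/-- The product of `N` copies of `nu`. -/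
noncomputable abbrev piNu (N : ℕ) : Measure (Fin N → ℝ) := Measure.pi fun _ : Fin N => nu

theorem I_eq (N : ℕ) (a : Fin N → ℝ) (h : ℝ → ℝ) (y : ℝ) :
    I N a h y = ∫ x, h (y + ∑ i, a i * x i) * Real.exp (-∑ i, x i) ∂(piNu N) := by
  unfold I piNu nu
  rw [volume_pi, Measure.restrict_pi_pi]

theorem exp_neg_sum (N : ℕ) (x : Fin N → ℝ) :
    Real.exp (-∑ i, x i) = ∏ i, Real.exp (-(x i)) := by
  rw [← Real.exp_sum, Finset.sum_neg_distrib]

theorem integrable_w (N : ℕ) :
    Integrable (fun x : Fin N → ℝ => Real.exp (-∑ i, x i)) (piNu N) := by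
  simp_rw [exp_neg_sum]
  exact Integrable.fintype_prod (fun _ => integrableOn_exp_neg_Ioi 0)

theorem integral_w (N : ℕ) :
    ∫ x : Fin N → ℝ, Real.exp (-∑ i, x i) ∂(piNu N) = 1 := by
  simp_rw [exp_neg_sum]
  rw [integral_fintype_prod_eq_prod (fun _ : Fin N => fun t : ℝ => Real.exp (-t))]
  simp only [nu, integral_exp_neg_Ioi_zero, Finset.prod_const_one]

theorem measurable_lin (N : ℕ) (a : Fin N → ℝ) (y : ℝ) :
    Measurable (fun x : Fin N → ℝ => y + ∑ i, a i * x i) := by
  fun_prop

theorem integrable_hw (N : ℕ) (a : Fin N → ℝ) (h : ℝ → ℝ) (hm : Measurable h)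
    (hb : ∀ y, |h y| ≤ 1) (y : ℝ) :
    Integrable (fun x : Fin N → ℝ => h (y + ∑ i, a i * x i) * Real.exp (-∑ i, x i)) (piNu N) := by
  refine (integrable_w N).mono' ?_ ?_
  · exact ((hm.comp (measurable_lin N a y)).mul (by fun_prop)).aestronglyMeasurable
  · refine Eventually.of_forall fun x => ?_
    rw [Real.norm_eq_abs, abs_mul, abs_of_pos (Real.exp_pos _)]
    exact mul_le_of_le_one_left (Real.exp_pos _).le (hb _)

/-- (M2) -/
theorem I_zero (a : Fin 0 → ℝ) (h : ℝ → ℝ) (y : ℝ) : I 0 a h y = h y := by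
  rw [I_eq]
  simp [piNu, Measure.real]

/-- (M2') total mass one. -/
theorem I_one (N : ℕ) (a : Fin N → ℝ) (y : ℝ) : I N a (fun _ => 1) y = 1 := by
  rw [I_eq]
  simpa using integral_w N

/-- (M1) split off coordinate `j` (Fubini; `MeasureTheory.volume_preserving_piFinSuccAbove`,
`Fin.sum_univ_succAbove`). -/
theorem I_succ (N : ℕ) (a : Fin (N + 1) → ℝ) (j : Fin (N + 1)) (h : ℝ → ℝ) (hm : Measurable h)
    (hb : ∀ y, |h y| ≤ 1) (y : ℝ) :
    I (N + 1) a h y = I N (fun i => a (j.succAbove i)) (T (a j) h) y := by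
  rw [I_eq, I_eq]
  have mp := measurePreserving_piFinSuccAbove (fun _ : Fin (N + 1) => nu) j
  set e := MeasurableEquiv.piFinSuccAbove (fun _ : Fin (N + 1) => ℝ) j with he
  set F : (Fin (N + 1) → ℝ) → ℝ :=
    fun x => h (y + ∑ i, a i * x i) * Real.exp (-∑ i, x i) with hF
  have hFint : Integrable F (piNu (N + 1)) := integrable_hw (N + 1) a h hm hb y
  have hFe : Integrable (fun z => F (e.symm z)) (nu.prod (piNu N)) :=
    (mp.symm.integrable_comp_emb e.symm.measurableEmbedding).2 hFint
  have h1 : ∫ x, F x ∂(piNu (N + 1)) = ∫ z, F (e.symm z) ∂(nu.prod (piNu N)) :=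
    (mp.symm.integral_comp' F).symm
  rw [h1, integral_prod_symm _ hFe]
  refine integral_congr_ae (Eventually.of_forall fun x' => ?_)
  simp only [T]
  rw [← integral_mul_const]
  refine integral_congr_ae (Eventually.of_forall fun t => ?_)
  simp only [hF, he, MeasurableEquiv.piFinSuccAbove_symm_apply, Fin.insertNthEquiv,
    Equiv.coe_fn_mk]
  rw [Fin.sum_univ_succAbove _ j, Fin.sum_univ_succAbove _ j]
  simp only [Fin.insertNth_apply_same, Fin.insertNth_apply_succAbove]
  rw [mul_assoc, ← Real.exp_add]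
  congr 2 <;> ring

/-- (M10) `min 1 (exp (v/2)) ≤ exp (v/2)` and the integral of a product of exponentials. -/
theorem I_cap_le (n : ℕ) (b : Fin n → ℝ) (hb : ∀ i, b i ≤ 0) (y : ℝ) :
    I n b (fun v => min 1 (Real.exp (v / 2))) y ≤ Real.exp (y / 2) * ∏ i, (1 - b i / 2)⁻¹ := by
  rw [I_eq]
  have key : ∀ x : Fin n → ℝ, Real.exp ((y + ∑ i, b i * x i) / 2) * Real.exp (-∑ i, x i)
      = Real.exp (y / 2) * ∏ i, Real.exp ((b i / 2 - 1) * x i) := by
    intro x
    rw [← Real.exp_sum, ← Real.exp_add, ← Real.exp_add]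
    congr 1
    simp only [sub_mul, Finset.sum_sub_distrib, one_mul]
    rw [add_div, Finset.sum_div]
    have : ∀ i, b i * x i / 2 = b i / 2 * x i := fun i => by ring
    simp only [this]
    ring
  have hint : Integrable (fun x : Fin n → ℝ => ∏ i, Real.exp ((b i / 2 - 1) * x i)) (piNu n) :=
    Integrable.fintype_prod (f := fun i t => Real.exp ((b i / 2 - 1) * t))
      (fun i => integrableOn_exp_mul_Ioi (by linarith [hb i]) 0)
  have hval : ∫ x : Fin n → ℝ, ∏ i, Real.exp ((b i / 2 - 1) * x i) ∂(piNu n)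
      = ∏ i, (1 - b i / 2)⁻¹ := by
    rw [integral_fintype_prod_eq_prod (fun i : Fin n => fun t : ℝ => Real.exp ((b i / 2 - 1) * t))]
    refine Finset.prod_congr rfl fun i _ => ?_
    have hneg : b i / 2 - 1 < 0 := by linarith [hb i]
    simp only [nu]
    rw [integral_exp_mul_Ioi hneg 0, mul_zero, Real.exp_zero, neg_div, ← div_neg, neg_sub,
      one_div]
  calc ∫ x : Fin n → ℝ, min 1 (Real.exp ((y + ∑ i, b i * x i) / 2)) * Real.exp (-∑ i, x i)
        ∂(piNu n)
      ≤ ∫ x : Fin n → ℝ, Real.exp (y / 2) * ∏ i, Real.exp ((b i / 2 - 1) * x i) ∂(piNu n) := by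
        refine integral_mono_of_nonneg (Eventually.of_forall fun x => ?_) (hint.const_mul _)
          (Eventually.of_forall fun x => ?_)
        · exact mul_nonneg (le_min zero_le_one (Real.exp_pos _).le) (Real.exp_pos _).le
        · show _ ≤ Real.exp (y / 2) * ∏ i, Real.exp ((b i / 2 - 1) * x i)
          rw [← key x]
          exact mul_le_mul_of_nonneg_right (min_le_right _ _) (Real.exp_pos _).le
    _ = Real.exp (y / 2) * ∏ i, (1 - b i / 2)⁻¹ := by rw [integral_const_mul, hval]

theorem measurable_step : Measurable step := by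
  unfold step
  exact Measurable.ite measurableSet_Ici measurable_const measurable_const

theorem abs_step_le (y : ℝ) : |step y| ≤ 1 := by
  unfold step
  split_ifs <;> simp

theorem integrable_phi : Integrable (fun u : ℝ => u * Real.exp (-u)) nu := by
  have h := Real.GammaIntegral_convergent (s := 2) (by norm_num)
  refine (integrableOn_congr_fun ?_ measurableSet_Ioi).1 h
  intro x _
  have : (2 : ℝ) - 1 = 1 := by norm_num
  simp only [this, Real.rpow_one]
  ring

theorem trunc_eq (z : ℝ) : Crest.AlgGeometry.truncExpWeight z =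
    1 - ∫ u in Set.Ioi (0 : ℝ), u * Real.exp (-u) * step (z - u) := by
  unfold Crest.AlgGeometry.truncExpWeight
  split_ifs with hz
  · have h0 : ∫ u in Set.Ioi (0 : ℝ), u * Real.exp (-u) * step (z - u) = 0 := by
      rw [setIntegral_congr_fun (g := fun _ => (0 : ℝ)) measurableSet_Ioi]
      · simp
      · intro u hu
        have hu' : (0 : ℝ) < u := hu
        have : ¬ (0 ≤ z - u) := by linarith
        simp [step, this]
    rw [h0, sub_zero]
  · have hz := not_le.1 hz
    have h1 : ∫ u in Set.Ioi (0 : ℝ), u * Real.exp (-u) * step (z - u)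
        = ∫ u in (0 : ℝ)..z, u * Real.exp (-u) := by
      rw [intervalIntegral.integral_of_le hz.le]
      have : (fun u => u * Real.exp (-u) * step (z - u))
          = Set.indicator (Set.Iic z) (fun u => u * Real.exp (-u)) := by
        funext u
        by_cases hu : u ≤ z
        · simp [step, hu, Set.indicator]
        · simp [step, hu, Set.indicator]
      rw [this, setIntegral_indicator measurableSet_Iic, Ioi_inter_Iic]
    have h2 : ∫ u in (0 : ℝ)..z, u * Real.exp (-u) = 1 - (1 + z) * Real.exp (-z) := by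
      have hd : ∀ u ∈ Set.uIcc 0 z,
          HasDerivAt (fun u => -((1 + u) * Real.exp (-u))) (u * Real.exp (-u)) u := by
        intro u _
        have h1 : HasDerivAt (fun u : ℝ => 1 + u) 1 u := (hasDerivAt_id u).const_add 1
        have h2 : HasDerivAt (fun u : ℝ => Real.exp (-u)) (Real.exp (-u) * (-1)) u :=
          (hasDerivAt_neg u).exp
        have h3 : HasDerivAt (fun u : ℝ => -((1 + u) * Real.exp (-u)))
            (-(1 * Real.exp (-u) + (1 + u) * (Real.exp (-u) * -1))) u := (h1.mul h2).neg
        have h4 : u * Real.exp (-u) = -(1 * Real.exp (-u) + (1 + u) * (Real.exp (-u) * -1)) := by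
          ring
        rw [h4]
        exact h3
      rw [intervalIntegral.integral_eq_sub_of_hasDerivAt hd
        (by apply Continuous.intervalIntegrable; fun_prop)]
      rw [neg_zero, Real.exp_zero]
      ring
    rw [h1, h2]
    ring

/-- (M7) `truncExpWeight z = 1 - ∫_{u>0} u e^{-u} step (z - u) du`, then Fubini. -/
theorem I_trunc (N : ℕ) (a : Fin N → ℝ) (y : ℝ) :
    I N a Crest.AlgGeometry.truncExpWeight y =
      1 - ∫ u in Set.Ioi (0 : ℝ), u * Real.exp (-u) * I N a step (y - u) := by
  rw [I_eq]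
  simp_rw [I_eq N a step]
  have hsw : Integrable (Function.uncurry fun (x : Fin N → ℝ) (u : ℝ) =>
      u * Real.exp (-u) * step (y + ∑ i, a i * x i - u) * Real.exp (-∑ i, x i))
      ((piNu N).prod nu) := by
    have hb : Integrable (fun z : (Fin N → ℝ) × ℝ =>
        Real.exp (-∑ i, z.1 i) * (z.2 * Real.exp (-z.2))) ((piNu N).prod nu) :=
      (integrable_w N).mul_prod integrable_phi
    refine hb.mono ?_ (Eventually.of_forall fun z => ?_)
    · refine Measurable.aestronglyMeasurable ?_
      refine Measurable.mul (Measurable.mul (by fun_prop) ?_) (by fun_prop)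
      exact measurable_step.comp (by fun_prop)
    · simp only [Function.uncurry, Real.norm_eq_abs, abs_mul]
      have := abs_step_le (y + ∑ i, a i * z.1 i - z.2)
      have h1 : 0 ≤ |z.2| * |Real.exp (-z.2)| := by positivity
      have h2 : 0 ≤ |Real.exp (-∑ i, z.1 i)| := abs_nonneg _
      calc |z.2| * |Real.exp (-z.2)| * |step (y + ∑ i, a i * z.1 i - z.2)|
            * |Real.exp (-∑ i, z.1 i)|
          ≤ |z.2| * |Real.exp (-z.2)| * 1 * |Real.exp (-∑ i, z.1 i)| := by gcongr
        _ = |Real.exp (-∑ i, z.1 i)| * (|z.2| * |Real.exp (-z.2)|) := by ring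
  calc ∫ x : Fin N → ℝ, Crest.AlgGeometry.truncExpWeight (y + ∑ i, a i * x i)
          * Real.exp (-∑ i, x i) ∂(piNu N)
      = ∫ x : Fin N → ℝ, (Real.exp (-∑ i, x i) - ∫ u, u * Real.exp (-u)
          * step (y + ∑ i, a i * x i - u) * Real.exp (-∑ i, x i) ∂nu) ∂(piNu N) := by
        refine integral_congr_ae (Eventually.of_forall fun x => ?_)
        beta_reduce
        rw [trunc_eq, sub_mul, one_mul, integral_mul_const]
    _ = 1 - ∫ x : Fin N → ℝ, ∫ u, u * Real.exp (-u)
          * step (y + ∑ i, a i * x i - u) * Real.exp (-∑ i, x i) ∂nu ∂(piNu N) := by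
        have hL : Integrable (fun x : Fin N → ℝ => ∫ u, u * Real.exp (-u)
            * step (y + ∑ i, a i * x i - u) * Real.exp (-∑ i, x i) ∂nu) (piNu N) :=
          hsw.integral_prod_left
        rw [integral_sub (integrable_w N) hL, integral_w]
    _ = 1 - ∫ u, ∫ x : Fin N → ℝ, u * Real.exp (-u)
          * step (y + ∑ i, a i * x i - u) * Real.exp (-∑ i, x i) ∂(piNu N) ∂nu := by
        rw [integral_integral_swap hsw]
    _ = _ := by
        congr 1
        refine integral_congr_ae (Eventually.of_forall fun u => ?_)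
        beta_reduce
        rw [← integral_const_mul]
        refine integral_congr_ae (Eventually.of_forall fun x => ?_)
        beta_reduce
        have : y + ∑ i, a i * x i - u = y - u + ∑ i, a i * x i := by ring
        rw [this]
        ring

end Crest.Agent.Lib_helper8_ExpPi
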