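import Crest.Agent.Lib_helper5_CylCover

/-!
Row 211, statement S0327, part a: from the fixed triangle cover of the standard tetrahedron to a
cover by cylinders with parallelogram bases (each triangle is cut into `n` rows).
-/

set_option autoImplicit false
open MeasureTheory
open scoped ENNReal

namespace Crest.Agent.Lib_helper8_S0327a
open Crest.Agent.Lib_helper4_CylArea

theorem gram_smul (x y : ℝ) (a b : E3) : gram (x • a) (y • b) = (x * y) ^ 2 * gram a b := by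
  unfold gram
  rw [norm_smul, norm_smul, inner_smul_left, inner_smul_right, mul_pow, mul_pow,
    Real.norm_eq_abs, Real.norm_eq_abs, sq_abs, sq_abs]
  simp only [conj_trivial]
  ring

theorem sqrt_gram_smul (x y : ℝ) (hx : 0 ≤ x) (hy : 0 ≤ y) (a b : E3) :
    Real.sqrt (gram (x • a) (y • b)) = x * y * Real.sqrt (gram a b) := by
  rw [gram_smul, Real.sqrt_mul (sq_nonneg _), Real.sqrt_sq (mul_nonneg hx hy)]

/-- every point of a triangle lies in one of `n` row parallelograms -/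
theorem tri_rows (p q r : E3) (n : ℕ) (hn : 0 < n) (x : E3) (hx : x ∈ convexHull ℝ {p, q, r}) :
    ∃ j : Fin n, ∃ s ∈ Set.Icc (0 : ℝ) 1, ∃ t ∈ Set.Icc (0 : ℝ) 1,
      x = (p + (((j : ℕ) : ℝ) / n) • (r - p)) + s • ((1 - ((j : ℕ) : ℝ) / n) • (q - p))
        + t • ((1 / (n : ℝ)) • (r - p)) := by
  rw [tri_eq_image] at hx
  obtain ⟨z, ⟨h0, h1, h2⟩, rfl⟩ := hx
  have hnR : (0 : ℝ) < n := by exact_mod_cast hn
  by_cases hT : z 1 < 1
  · have hfl : ⌊(n : ℝ) * z 1⌋₊ < n := by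
      rw [Nat.floor_lt (by positivity)]
      nlinarith
    set J : ℝ := ((⌊(n : ℝ) * z 1⌋₊ : ℕ) : ℝ) with hJ
    have hJ1 : J ≤ n * z 1 := Nat.floor_le (by positivity)
    have hJ2 : (n : ℝ) * z 1 < J + 1 := Nat.lt_floor_add_one _
    have hJn : J < n := by rw [hJ]; exact_mod_cast hfl
    have hJ0 : 0 ≤ J := by rw [hJ]; positivity
    have hd : 0 < 1 - J / n := by
      rw [sub_pos, div_lt_one hnR]; exact hJn
    have hJz : J / n ≤ z 1 := by
      rw [div_le_iff₀ hnR]; linarith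
    refine ⟨⟨⌊(n : ℝ) * z 1⌋₊, hfl⟩, z 0 / (1 - J / n), ⟨by positivity, ?_⟩,
      n * z 1 - J, ⟨by linarith, by linarith⟩, ?_⟩
    · rw [div_le_one hd]; linarith
    · show p + z 0 • (q - p) + z 1 • (r - p) = (p + (J / n) • (r - p)) + (z 0 / (1 - J / n)) • ((1 - J / n) • (q - p))
        + (n * z 1 - J) • ((1 / (n : ℝ)) • (r - p))
      rw [smul_smul, smul_smul, div_mul_cancel₀ _ hd.ne']
      have e : z 1 = J / n + (n * z 1 - J) * (1 / (n : ℝ)) := by
        field_simp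
        ring
      conv_lhs => rw [e, add_smul]
      abel
  · have hz1 : z 1 = 1 := by linarith
    have hz0 : z 0 = 0 := by linarith
    refine ⟨⟨n - 1, by omega⟩, 0, ⟨le_refl _, zero_le_one⟩, 1, ⟨zero_le_one, le_refl _⟩, ?_⟩
    have hc : (((n - 1 : ℕ) : ℕ) : ℝ) = n - 1 := by
      rw [Nat.cast_sub (by omega)]; simp
    show p + z 0 • (q - p) + z 1 • (r - p) = (p + (((n - 1 : ℕ) : ℝ) / n) • (r - p)) + (0 : ℝ) • ((1 - ((n - 1 : ℕ) : ℝ) / n) • (q - p))
        + (1 : ℝ) • ((1 / (n : ℝ)) • (r - p))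
    rw [hz1, hz0, hc, zero_smul, zero_smul, one_smul, one_smul, add_zero, add_zero, add_assoc,
      ← add_smul]
    have e : ((n : ℝ) - 1) / n + 1 / n = 1 := by
      field_simp
      ring
    rw [e, one_smul]

theorem sum_rows_aux (n : ℝ) (m : ℕ) :
    ∑ j ∈ Finset.range m, (1 - (j : ℝ) / n) * (1 / n) =
      m / n - (m : ℝ) * (m - 1) / (2 * n ^ 2) := by
  induction m with
  | zero => simp
  | succ k ih =>
    rw [Finset.sum_range_succ, ih]
    push_cast
    by_cases hn : n = 0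
    · simp [hn]
    · field_simp
      ring

theorem sum_rows (n : ℕ) (hn : 0 < n) :
    ∑ j : Fin n, (1 - ((j : ℕ) : ℝ) / n) * (1 / (n : ℝ)) = (1 + 1 / (n : ℝ)) / 2 := by
  rw [Fin.sum_univ_eq_sum_range (fun j => (1 - (j : ℝ) / n) * (1 / (n : ℝ))) n, sum_rows_aux]
  have hnR : (n : ℝ) ≠ 0 := by positivity
  field_simp
  ring

/-- parallelogram cover of the standard tetrahedron -/
theorem std_pgram_cover :
    ∃ (k : ℕ) (u c a b : Fin k → E3),
      (∀ i, ‖u i‖ = 1) ∧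
      (∀ i, inner ℝ (c i) (u i) = 0 ∧ inner ℝ (a i) (u i) = 0 ∧ inner ℝ (b i) (u i) = 0) ∧
      convexHull ℝ {!₂[1, 0, 0], !₂[-1, 0, 0], !₂[0, 1, Real.sqrt 2], !₂[0, -1, Real.sqrt 2]} ⊆
        ⋃ i, {x : E3 | ∃ s ∈ Set.Icc (0 : ℝ) 1, ∃ t ∈ Set.Icc (0 : ℝ) 1, ∃ τ : ℝ,
          x = c i + s • a i + t • b i + τ • u i} ∧
      ∑ i, Real.sqrt (gram (a i) (b i)) ≤ Real.sqrt 2 * (1 / 2 - 9 / 100000000) := by
  obtain ⟨m, u, p, q, r, -, hu, hp, hc, ha⟩ := Crest.Agent.Lib_helper5_CylCover.fixed_cover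
  set n : ℕ := 100000000 with hn
  have hn0 : 0 < n := by norm_num [hn]
  have hnR : (n : ℝ) = 100000000 := by norm_num [hn]
  let e : Fin m × Fin n ≃ Fin (m * n) := finProdFinEquiv
  refine ⟨m * n, fun z => u (e.symm z).1,
    fun z => p (e.symm z).1 + ((((e.symm z).2 : ℕ) : ℝ) / n) • (r (e.symm z).1 - p (e.symm z).1),
    fun z => (1 - (((e.symm z).2 : ℕ) : ℝ) / n) • (q (e.symm z).1 - p (e.symm z).1),
    fun z => (1 / (n : ℝ)) • (r (e.symm z).1 - p (e.symm z).1), ?_, ?_, ?_, ?_⟩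
  · intro z; exact hu _
  · intro z
    obtain ⟨h1, h2, h3⟩ := hp (e.symm z).1
    refine ⟨?_, ?_, ?_⟩ <;>
      simp [inner_add_left, inner_smul_left, inner_sub_left, h1, h2, h3]
  · intro x hx
    obtain ⟨i, hi⟩ := Set.mem_iUnion.mp (hc hx)
    obtain ⟨y, hy, τ, rfl⟩ := hi
    obtain ⟨j, s, hs, t, ht, hyy⟩ := tri_rows (p i) (q i) (r i) n hn0 y hy
    refine Set.mem_iUnion.mpr ⟨e (i, j), s, hs, t, ht, τ, ?_⟩
    simp only [Equiv.symm_apply_apply]
    rw [hyy]
  · rw [← Equiv.sum_comp e, Fintype.sum_prod_type]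
    simp only [Equiv.symm_apply_apply]
    have hrow : ∀ i : Fin m, ∑ j : Fin n,
        Real.sqrt (gram ((1 - ((j : ℕ) : ℝ) / n) • (q i - p i)) ((1 / (n : ℝ)) • (r i - p i))) =
        (1 + 1 / (n : ℝ)) * (μHE[2] (convexHull ℝ ({p i, q i, r i} : Set E3))).toReal := by
      intro i
      rw [area_tri_toReal]
      have : ∀ j : Fin n,
          Real.sqrt (gram ((1 - ((j : ℕ) : ℝ) / n) • (q i - p i)) ((1 / (n : ℝ)) • (r i - p i))) =
          ((1 - ((j : ℕ) : ℝ) / n) * (1 / (n : ℝ))) * Real.sqrt (gram (q i - p i) (r i - p i)) := by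
        intro j
        apply sqrt_gram_smul
        · have : ((j : ℕ) : ℝ) ≤ n := by exact_mod_cast j.2.le
          have hnp : (0 : ℝ) < n := by exact_mod_cast hn0
          rw [sub_nonneg, div_le_one hnp]; exact this
        · positivity
      rw [Finset.sum_congr rfl (fun j _ => this j), ← Finset.sum_mul, sum_rows n hn0]
      ring
    rw [Finset.sum_congr rfl (fun i _ => hrow i), ← Finset.mul_sum, hnR]
    have h2 : 0 ≤ Real.sqrt 2 := Real.sqrt_nonneg 2
    calc (1 + 1 / (100000000 : ℝ)) * ∑ i, (μHE[2] (convexHull ℝ ({p i, q i, r i} : Set E3))).toReal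
        ≤ (1 + 1 / (100000000 : ℝ)) * (Real.sqrt 2 * (1 / 2 - 1 / 10000000)) := by
          apply mul_le_mul_of_nonneg_left ha (by norm_num)
      _ ≤ Real.sqrt 2 * (1 / 2 - 9 / 100000000) := by nlinarith

end Crest.Agent.Lib_helper8_S0327a
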