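import Crest.Agent.Lib_helper8_S0327a

/-!
Row 211, statement S0327, part b: every regular tetrahedron is a similar image of the standard one;
transport of the parallelogram cover.
-/

set_option autoImplicit false
open MeasureTheory
open scoped ENNReal

namespace Crest.Agent.Lib_helper8_S0327b
open Crest.Agent.Lib_helper4_CylArea Crest.Agent.Lib_helper8_S0327a

/-- the linear map sending the standard basis to `f₁ f₂ f₃` -/
noncomputable def frameMap (f₁ f₂ f₃ : E3) : E3 →ₗ[ℝ] E3 where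
  toFun x := x 0 • f₁ + x 1 • f₂ + x 2 • f₃
  map_add' := by
    intro x y
    simp only [PiLp.add_apply, add_smul]
    abel
  map_smul' := by
    intro c x
    simp only [PiLp.smul_apply, smul_eq_mul, mul_smul, RingHom.id_apply, smul_add]

theorem frameMap_norm (f₁ f₂ f₃ : E3) (h11 : inner ℝ f₁ f₁ = 1) (h22 : inner ℝ f₂ f₂ = 1)
    (h33 : inner ℝ f₃ f₃ = 1) (h12 : inner ℝ f₁ f₂ = 0) (h13 : inner ℝ f₁ f₃ = 0)
    (h23 : inner ℝ f₂ f₃ = 0) (x : E3) : ‖frameMap f₁ f₂ f₃ x‖ = ‖x‖ := by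
  have h21 : inner ℝ f₂ f₁ = 0 := by rw [real_inner_comm]; exact h12
  have h31 : inner ℝ f₃ f₁ = 0 := by rw [real_inner_comm]; exact h13
  have h32 : inner ℝ f₃ f₂ = 0 := by rw [real_inner_comm]; exact h23
  have : ‖frameMap f₁ f₂ f₃ x‖ ^ 2 = ‖x‖ ^ 2 := by
    rw [← real_inner_self_eq_norm_sq, normsq3]
    show inner ℝ (x 0 • f₁ + x 1 • f₂ + x 2 • f₃) (x 0 • f₁ + x 1 • f₂ + x 2 • f₃) = _
    simp only [inner_add_left, inner_add_right, inner_smul_left, inner_smul_right, h11, h22, h33,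
      h12, h13, h23, h21, h31, h32, conj_trivial]
    ring
  exact (sq_eq_sq₀ (norm_nonneg _) (norm_nonneg _)).mp this

/-- Every regular tetrahedron of edge `ℓ` is the image of the standard one under `x ↦ (ℓ/2) T x + x₀`. -/
theorem exists_similarity (w : Fin 4 → E3) (ℓ : ℝ) (hℓ : 0 < ℓ)
    (hw : ∀ i j, i ≠ j → dist (w i) (w j) = ℓ) :
    ∃ (T : E3 →ₗᵢ[ℝ] E3) (x₀ : E3),
      convexHull ℝ (Set.range w) ⊆ (fun x => (ℓ / 2) • T x + x₀) ''
        convexHull ℝ {!₂[1, 0, 0], !₂[-1, 0, 0], !₂[0, 1, Real.sqrt 2], !₂[0, -1, Real.sqrt 2]} := by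
  set A : E3 := w 1 - w 0 with hA
  set B : E3 := w 2 - w 0 with hB
  set C : E3 := w 3 - w 0 with hC
  have d10 : ‖A‖ = ℓ := by rw [hA, ← dist_eq_norm]; exact hw 1 0 (by decide)
  have d20 : ‖B‖ = ℓ := by rw [hB, ← dist_eq_norm]; exact hw 2 0 (by decide)
  have d30 : ‖C‖ = ℓ := by rw [hC, ← dist_eq_norm]; exact hw 3 0 (by decide)
  have d12 : ‖A - B‖ = ℓ := by
    have : A - B = w 1 - w 2 := by rw [hA, hB]; abel
    rw [this, ← dist_eq_norm]; exact hw 1 2 (by decide)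
  have d13 : ‖A - C‖ = ℓ := by
    have : A - C = w 1 - w 3 := by rw [hA, hC]; abel
    rw [this, ← dist_eq_norm]; exact hw 1 3 (by decide)
  have d23 : ‖B - C‖ = ℓ := by
    have : B - C = w 2 - w 3 := by rw [hB, hC]; abel
    rw [this, ← dist_eq_norm]; exact hw 2 3 (by decide)
  have iAA : inner ℝ A A = ℓ ^ 2 := by rw [real_inner_self_eq_norm_sq, d10]
  have iBB : inner ℝ B B = ℓ ^ 2 := by rw [real_inner_self_eq_norm_sq, d20]
  have iCC : inner ℝ C C = ℓ ^ 2 := by rw [real_inner_self_eq_norm_sq, d30]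
  have iAB : inner ℝ A B = ℓ ^ 2 / 2 := by
    have := norm_sub_sq_real A B
    rw [d12, d10, d20] at this; linarith
  have iAC : inner ℝ A C = ℓ ^ 2 / 2 := by
    have := norm_sub_sq_real A C
    rw [d13, d10, d30] at this; linarith
  have iBC : inner ℝ B C = ℓ ^ 2 / 2 := by
    have := norm_sub_sq_real B C
    rw [d23, d20, d30] at this; linarith
  have iBA : inner ℝ B A = ℓ ^ 2 / 2 := by rw [real_inner_comm]; exact iAB
  have iCA : inner ℝ C A = ℓ ^ 2 / 2 := by rw [real_inner_comm]; exact iAC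
  have iCB : inner ℝ C B = ℓ ^ 2 / 2 := by rw [real_inner_comm]; exact iBC
  have hs2 : Real.sqrt 2 * Real.sqrt 2 = 2 := Real.mul_self_sqrt (by norm_num)
  have hs2p : 0 < Real.sqrt 2 := Real.sqrt_pos.mpr (by norm_num)
  set f₁ : E3 := (-(1 / ℓ)) • A with hf1
  set f₂ : E3 := (1 / ℓ) • (B - C) with hf2
  set f₃ : E3 := (1 / (Real.sqrt 2 * ℓ)) • (B + C - A) with hf3
  have h11 : inner ℝ f₁ f₁ = 1 := by
    simp only [hf1, inner_smul_left, inner_smul_right, iAA, conj_trivial]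
    field_simp
  have h22 : inner ℝ f₂ f₂ = 1 := by
    simp only [hf2, inner_smul_left, inner_smul_right, inner_sub_left, inner_sub_right, iBB, iCC,
      iBC, iCB, conj_trivial]
    field_simp
    ring
  have h33 : inner ℝ f₃ f₃ = 1 := by
    simp only [hf3, inner_smul_left, inner_smul_right, inner_sub_left, inner_sub_right,
      inner_add_left, inner_add_right, iAA, iBB, iCC, iAB, iAC, iBC, iBA, iCA, iCB, conj_trivial]
    field_simp
    nlinarith [hs2]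
  have h12 : inner ℝ f₁ f₂ = 0 := by
    simp only [hf1, hf2, inner_smul_left, inner_smul_right, inner_sub_right, iAB, iAC, conj_trivial]
    ring
  have h13 : inner ℝ f₁ f₃ = 0 := by
    simp only [hf1, hf3, inner_smul_left, inner_smul_right, inner_sub_right, inner_add_right, iAA,
      iAB, iAC, conj_trivial]
    ring
  have h23 : inner ℝ f₂ f₃ = 0 := by
    simp only [hf2, hf3, inner_smul_left, inner_smul_right, inner_sub_left, inner_sub_right,
      inner_add_right, iBB, iCC, iBC, iCB, iBA, iCA, conj_trivial]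
    ring
  let T : E3 →ₗᵢ[ℝ] E3 := ⟨frameMap f₁ f₂ f₃, frameMap_norm f₁ f₂ f₃ h11 h22 h33 h12 h13 h23⟩
  have hT : ∀ x : E3, T x = x 0 • f₁ + x 1 • f₂ + x 2 • f₃ := fun x => rfl
  set x₀ : E3 := w 0 + (1 / 2 : ℝ) • A with hx0
  refine ⟨T, x₀, ?_⟩
  set K : Set E3 :=
    convexHull ℝ {!₂[1, 0, 0], !₂[-1, 0, 0], !₂[0, 1, Real.sqrt 2], !₂[0, -1, Real.sqrt 2]} with hK
  have hconv : Convex ℝ ((fun x => (ℓ / 2) • T x + x₀) '' K) := by
    have e : (fun x => (ℓ / 2) • T x + x₀) '' K =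
        (fun y => x₀ + y) '' (((ℓ / 2) • T.toLinearMap) '' K) := by
      rw [Set.image_image]
      congr 1
      funext x
      simp [add_comm]
    rw [e]
    exact ((convex_convexHull ℝ _).linear_image _).translate x₀
  apply convexHull_min _ hconv
  have hℓ' : ℓ ≠ 0 := hℓ.ne'
  have g1 : (ℓ / 2) • f₁ = (-(1 / 2 : ℝ)) • A := by
    rw [hf1, smul_smul]; congr 1; field_simp
  have g2 : (ℓ / 2) • f₂ = (1 / 2 : ℝ) • (B - C) := by
    rw [hf2, smul_smul]; congr 1; field_simp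
  have g3 : (ℓ / 2) • (Real.sqrt 2 • f₃) = (1 / 2 : ℝ) • (B + C - A) := by
    rw [hf3, smul_smul, smul_smul]; congr 1; field_simp
  rintro _ ⟨i, rfl⟩
  fin_cases i
  · refine ⟨!₂[1, 0, 0], subset_convexHull ℝ _ (by simp), ?_⟩
    show (ℓ / 2) • T !₂[1, 0, 0] + x₀ = w 0
    have e : T !₂[1, 0, 0] = f₁ := by rw [hT]; simp
    rw [e, g1, hx0]
    module
  · refine ⟨!₂[-1, 0, 0], subset_convexHull ℝ _ (by simp), ?_⟩
    show (ℓ / 2) • T !₂[-1, 0, 0] + x₀ = w 1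
    have e : T !₂[-1, 0, 0] = -f₁ := by rw [hT]; simp
    rw [e, smul_neg, g1, hx0, hA]
    module
  · refine ⟨!₂[0, 1, Real.sqrt 2], subset_convexHull ℝ _ (by simp), ?_⟩
    show (ℓ / 2) • T !₂[0, 1, Real.sqrt 2] + x₀ = w 2
    have e : T !₂[0, 1, Real.sqrt 2] = f₂ + Real.sqrt 2 • f₃ := by rw [hT]; simp
    rw [e, smul_add, g2, g3, hx0, hA, hB, hC]
    module
  · refine ⟨!₂[0, -1, Real.sqrt 2], subset_convexHull ℝ _ (by simp), ?_⟩
    show (ℓ / 2) • T !₂[0, -1, Real.sqrt 2] + x₀ = w 3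
    have e : T !₂[0, -1, Real.sqrt 2] = -f₂ + Real.sqrt 2 • f₃ := by rw [hT]; simp
    rw [e, smul_add, smul_neg, g2, g3, hx0, hA, hB, hC]
    module

theorem gram_map (T : E3 →ₗᵢ[ℝ] E3) (a b : E3) : gram (T a) (T b) = gram a b := by
  unfold gram
  rw [T.norm_map, T.norm_map, T.inner_map_map]

/-- parallelogram cover of an arbitrary regular tetrahedron -/
theorem regular_pgram_cover (w : Fin 4 → E3) (ℓ : ℝ) (hℓ : 0 < ℓ)
    (hw : ∀ i j, i ≠ j → dist (w i) (w j) = ℓ) :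
    ∃ (k : ℕ) (u c a b : Fin k → E3),
      (∀ i, ‖u i‖ = 1) ∧
      (∀ i, inner ℝ (c i) (u i) = 0 ∧ inner ℝ (a i) (u i) = 0 ∧ inner ℝ (b i) (u i) = 0) ∧
      convexHull ℝ (Set.range w) ⊆
        ⋃ i, {x : E3 | ∃ s ∈ Set.Icc (0 : ℝ) 1, ∃ t ∈ Set.Icc (0 : ℝ) 1, ∃ τ : ℝ,
          x = c i + s • a i + t • b i + τ • u i} ∧
      ∑ i, Real.sqrt (gram (a i) (b i)) ≤
        (ℓ ^ 2 * Real.sqrt 2 / 4) * (1 / 2 - 9 / 100000000) := by
  obtain ⟨k, u, c, a, b, hu, hp, hc, ha⟩ := std_pgram_cover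
  obtain ⟨T, x₀, hT⟩ := exists_similarity w ℓ hℓ hw
  have hs : 0 ≤ ℓ / 2 := by positivity
  refine ⟨k, fun i => T (u i),
    fun i => (ℓ / 2) • T (c i) + (x₀ - inner ℝ x₀ (T (u i)) • T (u i)),
    fun i => (ℓ / 2) • T (a i), fun i => (ℓ / 2) • T (b i), ?_, ?_, ?_, ?_⟩
  · intro i; rw [T.norm_map]; exact hu i
  · intro i
    obtain ⟨h1, h2, h3⟩ := hp i
    refine ⟨?_, ?_, ?_⟩
    · simp only [inner_add_left, inner_sub_left, inner_smul_left, T.inner_map_map, h1,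
        real_inner_self_eq_norm_sq, hu i, conj_trivial]
      ring
    · simp only [inner_smul_left, T.inner_map_map, h2, mul_zero]
    · simp only [inner_smul_left, T.inner_map_map, h3, mul_zero]
  · intro x hx
    obtain ⟨x', hx', rfl⟩ := hT hx
    obtain ⟨i, hi⟩ := Set.mem_iUnion.mp (hc hx')
    obtain ⟨s, hs', t, ht', τ, rfl⟩ := hi
    refine Set.mem_iUnion.mpr ⟨i, s, hs', t, ht', (ℓ / 2) * τ + inner ℝ x₀ (T (u i)), ?_⟩
    simp only [map_add, map_smul]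
    module
  · have : ∀ i, Real.sqrt (gram ((ℓ / 2) • T (a i)) ((ℓ / 2) • T (b i))) =
        (ℓ / 2) * (ℓ / 2) * Real.sqrt (gram (a i) (b i)) := by
      intro i
      rw [sqrt_gram_smul _ _ hs hs, gram_map]
    rw [Finset.sum_congr rfl (fun i _ => this i), ← Finset.mul_sum]
    calc ℓ / 2 * (ℓ / 2) * ∑ i, Real.sqrt (gram (a i) (b i))
        ≤ ℓ / 2 * (ℓ / 2) * (Real.sqrt 2 * (1 / 2 - 9 / 100000000)) :=
          mul_le_mul_of_nonneg_left ha (by positivity)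
      _ = (ℓ ^ 2 * Real.sqrt 2 / 4) * (1 / 2 - 9 / 100000000) := by ring

end Crest.Agent.Lib_helper8_S0327b
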