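import Crest.Statements.S0110
-- import your own Crest.Agent.* helpers here

set_option autoImplicit false
open MeasureTheory
open scoped ENNReal NNReal
open Crest.AnalysisR.OT
open Crest Crest.AnalysisR Crest.AnalysisR.OT

namespace Crest.Agent.S0110

section general
variable {d : ℕ}

theorem enorm_sq_eq (v : EuclideanSpace ℝ (Fin d)) : ‖v‖ₑ ^ 2 = ENNReal.ofReal (‖v‖ ^ 2) := by
  rw [ENNReal.ofReal_pow (norm_nonneg _), ofReal_norm]

theorem cost_identity {ρ : Measure (EuclideanSpace ℝ (Fin d))}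
    {T S : EuclideanSpace ℝ (Fin d) → EuclideanSpace ℝ (Fin d)}
    (hT : Measurable T) (hS : Measurable S)
    (hle : ∀ᵐ x ∂ρ, inner ℝ x (S x) ≤ inner ℝ x (T x)) :
    (∫⁻ x, ‖x - T x‖ₑ ^ 2 ∂ρ) + (∫⁻ x, ‖S x‖ₑ ^ 2 ∂ρ)
        + ∫⁻ x, ENNReal.ofReal (2 * (inner ℝ x (T x) - inner ℝ x (S x))) ∂ρ
      = (∫⁻ x, ‖x - S x‖ₑ ^ 2 ∂ρ) + ∫⁻ x, ‖T x‖ₑ ^ 2 ∂ρ := by
  have m1 : Measurable fun x => ‖x - T x‖ₑ ^ 2 := (measurable_id.sub hT).enorm.pow_const 2
  have m2 : Measurable fun x => ‖x - S x‖ₑ ^ 2 := (measurable_id.sub hS).enorm.pow_const 2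
  have m3 : Measurable fun x => ‖S x‖ₑ ^ 2 := hS.enorm.pow_const 2
  have m4 : Measurable fun x => ‖x - T x‖ₑ ^ 2 + ‖S x‖ₑ ^ 2 := m1.add m3
  rw [← lintegral_add_left m1, ← lintegral_add_left m4, ← lintegral_add_left m2]
  apply lintegral_congr_ae
  filter_upwards [hle] with x hx
  simp only [enorm_sq_eq]
  rw [← ENNReal.ofReal_add (by positivity) (by positivity),
    ← ENNReal.ofReal_add (by positivity) (by linarith),
    ← ENNReal.ofReal_add (by positivity) (by positivity)]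
  congr 1
  rw [norm_sub_sq_real, norm_sub_sq_real]
  ring

theorem cost_eq {ρ : Measure (EuclideanSpace ℝ (Fin d))}
    {T S : EuclideanSpace ℝ (Fin d) → EuclideanSpace ℝ (Fin d)} {F : Set (EuclideanSpace ℝ (Fin d))}
    (hT : Measurable T) (hF : MeasurableSet F) (hTF : ∀ x, T x ∈ F)
    (hmax : ∀ x, ∀ y ∈ F, inner ℝ x y ≤ inner ℝ x (T x))
    (hfin1 : ∫⁻ x, ‖T x‖ₑ ^ 2 ∂ρ ≠ ∞) (hS : Measurable S) (hmap : ρ.map S = ρ.map T) :
    (∀ᵐ x ∂ρ, S x ∈ F) ∧
    (∫⁻ x, ‖x - T x‖ₑ ^ 2 ∂ρ)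
        + ∫⁻ x, ENNReal.ofReal (2 * (inner ℝ x (T x) - inner ℝ x (S x))) ∂ρ
      = ∫⁻ x, ‖x - S x‖ₑ ^ 2 ∂ρ := by
  have hSF : ∀ᵐ x ∂ρ, S x ∈ F := by
    have h0 : (ρ.map S) Fᶜ = 0 := by
      rw [hmap, Measure.map_apply hT hF.compl]
      have : T ⁻¹' Fᶜ = ∅ := by
        ext x; simp [hTF x]
      rw [this]; simp
    rw [Measure.map_apply hS hF.compl] at h0
    rw [ae_iff]
    exact h0
  refine ⟨hSF, ?_⟩
  have hle : ∀ᵐ x ∂ρ, inner ℝ x (S x) ≤ inner ℝ x (T x) := hSF.mono (fun x hx => hmax x _ hx)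
  have hid := cost_identity hT hS hle
  have mn : Measurable fun y : EuclideanSpace ℝ (Fin d) => ‖y‖ₑ ^ 2 := measurable_id.enorm.pow_const 2
  have hnorm : ∫⁻ x, ‖S x‖ₑ ^ 2 ∂ρ = ∫⁻ x, ‖T x‖ₑ ^ 2 ∂ρ := by
    rw [← lintegral_map mn hS, hmap, lintegral_map mn hT]
  rw [hnorm] at hid
  have h2 : ((∫⁻ x, ‖x - T x‖ₑ ^ 2 ∂ρ)
        + ∫⁻ x, ENNReal.ofReal (2 * (inner ℝ x (T x) - inner ℝ x (S x))) ∂ρ) + ∫⁻ x, ‖T x‖ₑ ^ 2 ∂ρ
      = (∫⁻ x, ‖x - S x‖ₑ ^ 2 ∂ρ) + ∫⁻ x, ‖T x‖ₑ ^ 2 ∂ρ := by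
    rw [← hid]; ring
  exact (ENNReal.add_left_inj hfin1).1 h2

theorem optimal_of_max {ρ : Measure (EuclideanSpace ℝ (Fin d))}
    {T : EuclideanSpace ℝ (Fin d) → EuclideanSpace ℝ (Fin d)} {F : Set (EuclideanSpace ℝ (Fin d))}
    (hT : Measurable T) (hF : MeasurableSet F) (hTF : ∀ x, T x ∈ F)
    (hmax : ∀ x, ∀ y ∈ F, inner ℝ x y ≤ inner ℝ x (T x))
    (hfin1 : ∫⁻ x, ‖T x‖ₑ ^ 2 ∂ρ ≠ ∞) : IsOptimalMap ρ (ρ.map T) T := by
  refine ⟨hT, rfl, fun S hS hmap => ?_⟩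
  rw [← (cost_eq hT hF hTF hmax hfin1 hS hmap).2]
  exact le_self_add

theorem hyperplane_null {y y' : EuclideanSpace ℝ (Fin d)} (h : y ≠ y') :
    volume {x : EuclideanSpace ℝ (Fin d) | inner ℝ x y = inner ℝ x y'} = 0 := by
  have hv : y - y' ≠ 0 := sub_ne_zero.2 h
  have hset : {x : EuclideanSpace ℝ (Fin d) | inner ℝ x y = inner ℝ x y'}
      = (((ℝ ∙ (y - y'))ᗮ : Submodule ℝ (EuclideanSpace ℝ (Fin d))) : Set (EuclideanSpace ℝ (Fin d))) := by
    ext x
    simp only [Set.mem_ofPred_eq, SetLike.mem_coe, Submodule.mem_orthogonal_singleton_iff_inner_left,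
      inner_sub_right, sub_eq_zero]
  rw [hset]
  apply Measure.addHaar_submodule
  intro htop
  have : (y - y') ∈ ((ℝ ∙ (y - y'))ᗮ : Submodule ℝ (EuclideanSpace ℝ (Fin d))) := by
    rw [htop]; trivial
  rw [Submodule.mem_orthogonal_singleton_iff_inner_left] at this
  exact hv (inner_self_eq_zero.1 this)

theorem ae_eq_of_optimal {ρ : Measure (EuclideanSpace ℝ (Fin d))}
    {T S : EuclideanSpace ℝ (Fin d) → EuclideanSpace ℝ (Fin d)} {F : Set (EuclideanSpace ℝ (Fin d))}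
    (hT : Measurable T) (hFfin : F.Finite) (hTF : ∀ x, T x ∈ F)
    (hmax : ∀ x, ∀ y ∈ F, inner ℝ x y ≤ inner ℝ x (T x))
    (hfin1 : ∫⁻ x, ‖T x‖ₑ ^ 2 ∂ρ ≠ ∞) (hfin2 : ∫⁻ x, ‖x - T x‖ₑ ^ 2 ∂ρ ≠ ∞)
    (hρ : ρ ≪ volume) (hS : IsOptimalMap ρ (ρ.map T) S) : S =ᵐ[ρ] T := by
  obtain ⟨hSm, hmap, hopt⟩ := hS
  have h1 := hopt T hT rfl
  obtain ⟨hSF, hce⟩ := cost_eq hT hFfin.measurableSet hTF hmax hfin1 hSm hmap
  rw [← hce] at h1
  have hG : ∫⁻ x, ENNReal.ofReal (2 * (inner ℝ x (T x) - inner ℝ x (S x))) ∂ρ = 0 := by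
    have : (∫⁻ x, ‖x - T x‖ₑ ^ 2 ∂ρ)
        + ∫⁻ x, ENNReal.ofReal (2 * (inner ℝ x (T x) - inner ℝ x (S x))) ∂ρ
        ≤ (∫⁻ x, ‖x - T x‖ₑ ^ 2 ∂ρ) + 0 := by simpa using h1
    exact le_antisymm ((ENNReal.add_le_add_iff_left hfin2).1 this) zero_le
  have mG : Measurable fun x => ENNReal.ofReal (2 * (inner ℝ x (T x) - inner ℝ x (S x))) := by
    apply ENNReal.measurable_ofReal.comp
    exact ((measurable_id.inner hT).sub (measurable_id.inner hSm)).const_mul 2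
  rw [lintegral_eq_zero_iff mG] at hG
  have hgen : ∀ᵐ x ∂ρ, ∀ y ∈ F, ∀ y' ∈ F, y ≠ y' → inner ℝ x y ≠ inner ℝ x y' := by
    rw [ae_ball_iff hFfin.countable]
    intro y _
    rw [ae_ball_iff hFfin.countable]
    intro y' _
    by_cases hyy : y = y'
    · exact Filter.Eventually.of_forall (fun x h => absurd hyy h)
    · have := hρ (hyperplane_null hyy)
      rw [ae_iff]
      refine measure_mono_null ?_ this
      intro x hx
      simp only [Set.mem_ofPred_eq] at hx ⊢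
      by_contra hcon
      exact hx (fun _ => hcon)
  filter_upwards [hSF, hG, hgen] with x hx1 hx2 hx3
  by_contra hne
  have h3 := hx3 _ hx1 _ (hTF x) hne
  have h4 := hmax x _ hx1
  simp only [Pi.zero_apply, ENNReal.ofReal_eq_zero] at hx2
  exact h3 (le_antisymm h4 (by linarith))

end general

section cube
variable {d : ℕ}

abbrev cube (d : ℕ) : Set (EuclideanSpace ℝ (Fin d)) := {x | ∀ i, |x i| ≤ 1}

def box (a b : Fin d → ℝ) : Set (EuclideanSpace ℝ (Fin d)) := {x | ∀ i, a i ≤ x i ∧ x i ≤ b i}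

theorem box_eq (a b : Fin d → ℝ) : box a b = (@WithLp.ofLp 2 (Fin d → ℝ)) ⁻¹' (Set.Icc a b) := by
  ext x
  simp only [box, Set.mem_ofPred_eq, Set.mem_preimage, Set.mem_Icc, Pi.le_def]
  exact forall_and

theorem measurableSet_box (a b : Fin d → ℝ) : MeasurableSet (box a b) := by
  rw [box_eq]
  exact (PiLp.volume_preserving_ofLp (Fin d)).measurable measurableSet_Icc

theorem volume_box (a b : Fin d → ℝ) : volume (box a b) = ∏ i, ENNReal.ofReal (b i - a i) := by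
  rw [box_eq, (PiLp.volume_preserving_ofLp (Fin d)).measure_preimage
    measurableSet_Icc.nullMeasurableSet, Real.volume_Icc_pi]

theorem cube_eq : cube d = box (fun _ => -1) (fun _ => 1) := by
  ext x
  simp only [cube, box, Set.mem_ofPred_eq, abs_le]

theorem volume_cube : volume (cube d) = ENNReal.ofReal (2 ^ d) := by
  rw [cube_eq, volume_box]
  simp only [sub_neg_eq_add, Finset.prod_const, Finset.card_univ, Fintype.card_fin]
  rw [ENNReal.ofReal_pow (by norm_num)]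
  norm_num

theorem rho_box (a b : Fin d → ℝ) (h1 : ∀ i, -1 ≤ a i) (h2 : ∀ i, a i ≤ b i) (h3 : ∀ i, b i ≤ 1) :
    uniformProbOn (cube d) (box a b) = ENNReal.ofReal (∏ i, (b i - a i) / 2) := by
  have hsub : box a b ⊆ cube d := by
    intro x hx i
    rw [abs_le]
    exact ⟨(h1 i).trans (hx i).1, (hx i).2.trans (h3 i)⟩
  unfold uniformProbOn
  rw [Measure.smul_apply, Measure.restrict_apply (measurableSet_box a b),
    Set.inter_eq_left.2 hsub, volume_box, volume_cube,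
    ← ENNReal.ofReal_prod_of_nonneg (fun i _ => sub_nonneg.2 (h2 i))]
  have : ∏ i, (b i - a i) = 2 ^ d * ∏ i, (b i - a i) / 2 := by
    rw [Finset.prod_div_distrib]
    simp only [Finset.prod_const, Finset.card_univ, Fintype.card_fin]
    field_simp
  rw [this, ENNReal.ofReal_mul (by positivity), smul_eq_mul]
  exact ENNReal.inv_mul_cancel_left (by simp) (by simp)

theorem measurableSet_cube : MeasurableSet (cube d) := by
  rw [cube_eq]; exact measurableSet_box _ _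

instance rho_prob : IsProbabilityMeasure (uniformProbOn (cube d)) := by
  constructor
  unfold uniformProbOn
  rw [Measure.smul_apply, Measure.restrict_apply_univ, volume_cube, smul_eq_mul]
  exact ENNReal.inv_mul_cancel (by simp) (by simp)

theorem rho_ac : uniformProbOn (cube d) ≪ (volume : Measure (EuclideanSpace ℝ (Fin d))) := by
  unfold uniformProbOn
  exact (Measure.absolutelyContinuous_of_le Measure.restrict_le_self).smul_left _

theorem rho_ae_mem : ∀ᵐ x ∂(uniformProbOn (cube d)), x ∈ cube d := by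
  unfold uniformProbOn
  exact Measure.ae_smul_measure (ae_restrict_mem measurableSet_cube) _

theorem lint_fin (f : EuclideanSpace ℝ (Fin d) → EuclideanSpace ℝ (Fin d)) (M : ℝ)
    (hf : ∀ x ∈ cube d, ‖f x‖ ^ 2 ≤ M) : ∫⁻ x, ‖f x‖ₑ ^ 2 ∂(uniformProbOn (cube d)) ≠ ∞ := by
  have h1 : ∫⁻ x, ‖f x‖ₑ ^ 2 ∂(uniformProbOn (cube d))
      ≤ ∫⁻ _, ENNReal.ofReal M ∂(uniformProbOn (cube d)) := by
    apply lintegral_mono_ae
    filter_upwards [rho_ae_mem] with x hx
    rw [enorm_sq_eq]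
    exact ENNReal.ofReal_le_ofReal (hf x hx)
  rw [lintegral_const, measure_univ, mul_one] at h1
  exact ne_top_of_le_ne_top ENNReal.ofReal_ne_top h1

theorem norm_sq_le_of_mem {x : EuclideanSpace ℝ (Fin d)} (hx : x ∈ cube d) : ‖x‖ ^ 2 ≤ d := by
  rw [EuclideanSpace.norm_sq_eq]
  calc ∑ i, ‖x i‖ ^ 2 ≤ ∑ _i : Fin d, (1 : ℝ) := by
        apply Finset.sum_le_sum
        intro i _
        have := hx i
        rw [Real.norm_eq_abs]
        have h0 := abs_nonneg (x i)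
        nlinarith
    _ = d := by simp

theorem norm_sub_sq_le_of_mem {x y : EuclideanSpace ℝ (Fin d)} (hx : x ∈ cube d) (hy : y ∈ cube d) :
    ‖x - y‖ ^ 2 ≤ 4 * d := by
  rw [EuclideanSpace.norm_sq_eq]
  calc ∑ i, ‖(x - y) i‖ ^ 2 ≤ ∑ _i : Fin d, (4 : ℝ) := by
        apply Finset.sum_le_sum
        intro i _
        have h1 := abs_le.1 (hx i)
        have h2 := abs_le.1 (hy i)
        rw [Real.norm_eq_abs, sq_abs, PiLp.sub_apply]
        nlinarith
    _ = 4 * d := by simp [mul_comm]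

noncomputable def refl (j : Fin d) : EuclideanSpace ℝ (Fin d) ≃ₗᵢ[ℝ] EuclideanSpace ℝ (Fin d) :=
  LinearIsometryEquiv.piLpCongrRight 2
    (fun i => if i = j then LinearIsometryEquiv.neg ℝ else LinearIsometryEquiv.refl ℝ ℝ)

theorem refl_apply (j : Fin d) (x : EuclideanSpace ℝ (Fin d)) (i : Fin d) :
    refl j x i = if i = j then - x i else x i := by
  simp only [refl, LinearIsometryEquiv.piLpCongrRight_apply]
  split_ifs <;> simp

theorem rho_map_refl (j : Fin d) :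
    (uniformProbOn (cube d)).map (refl j) = uniformProbOn (cube d) := by
  have hp := (refl j).measurePreserving.restrict_preimage (measurableSet_cube (d := d))
  have hpre : (refl j) ⁻¹' (cube d) = cube d := by
    ext x
    simp only [cube, Set.mem_preimage, Set.mem_ofPred_eq, refl_apply]
    refine forall_congr' (fun i => ?_)
    split_ifs <;> simp
  rw [hpre] at hp
  unfold uniformProbOn
  rw [Measure.map_smul, hp.map_eq]

end cube

section maps
variable {d : ℕ}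

noncomputable def e (j : Fin d) : EuclideanSpace ℝ (Fin d) := EuclideanSpace.single j 1

theorem e_apply (j i : Fin d) : e j i = if i = j then 1 else 0 := by
  simp [e]

theorem inner_e (x : EuclideanSpace ℝ (Fin d)) (j : Fin d) : inner ℝ x (e j) = x j := by
  simp [e, EuclideanSpace.inner_single_right]

noncomputable def Tk (i0 i1 : Fin d) (k : ℝ) (x : EuclideanSpace ℝ (Fin d)) :
    EuclideanSpace ℝ (Fin d) :=
  if |x i0| < k * x i1 then k • e i1 else if x i0 < 0 then - e i0 else e i0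

def Fk (i0 i1 : Fin d) (k : ℝ) : Set (EuclideanSpace ℝ (Fin d)) := {- e i0, e i0, k • e i1}

def Wk (i0 i1 : Fin d) (k : ℝ) : Set (EuclideanSpace ℝ (Fin d)) := {x | |x i0| < k * x i1}

theorem measurable_coord (i : Fin d) : Measurable fun x : EuclideanSpace ℝ (Fin d) => x i :=
  (EuclideanSpace.proj i).continuous.measurable

theorem measurableSet_Wk (i0 i1 : Fin d) (k : ℝ) : MeasurableSet (Wk i0 i1 k) :=
  measurableSet_lt (measurable_coord i0).abs ((measurable_coord i1).const_mul k)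

theorem measurable_Tk (i0 i1 : Fin d) (k : ℝ) : Measurable (Tk i0 i1 k) := by
  unfold Tk
  refine Measurable.ite (measurableSet_Wk i0 i1 k) measurable_const ?_
  exact Measurable.ite (measurableSet_lt (measurable_coord i0) measurable_const) measurable_const
    measurable_const

theorem Tk_mem (i0 i1 : Fin d) (k : ℝ) (x : EuclideanSpace ℝ (Fin d)) : Tk i0 i1 k x ∈ Fk i0 i1 k := by
  unfold Tk Fk
  split_ifs <;> simp

theorem Fk_finite (i0 i1 : Fin d) (k : ℝ) : (Fk i0 i1 k).Finite := by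
  unfold Fk
  exact Set.toFinite _

theorem Tk_max (i0 i1 : Fin d) (k : ℝ) (x : EuclideanSpace ℝ (Fin d)) :
    ∀ y ∈ Fk i0 i1 k, inner ℝ x y ≤ inner ℝ x (Tk i0 i1 k x) := by
  intro y hy
  have h1 := le_abs_self (x i0)
  have h2 := neg_abs_le (x i0)
  simp only [Fk, Set.mem_insert_iff, Set.mem_singleton_iff] at hy
  unfold Tk
  rcases hy with rfl | rfl | rfl <;> split_ifs with c1 c2 <;>
    simp only [inner_neg_right, inner_smul_right, inner_e] <;> try linarith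
  · rw [abs_of_neg c2] at c1; linarith
  · rw [abs_of_nonneg (not_lt.1 c2)] at c1; linarith

theorem Fk_sub_cube (i0 i1 : Fin d) (k : ℝ) (hk : |k| ≤ 1) : Fk i0 i1 k ⊆ cube d := by
  intro y hy i
  simp only [Fk, Set.mem_insert_iff, Set.mem_singleton_iff] at hy
  rcases hy with rfl | rfl | rfl
  · simp only [PiLp.neg_apply, e_apply]; split_ifs <;> simp
  · simp only [e_apply]; split_ifs <;> simp
  · simp only [PiLp.smul_apply, e_apply, smul_eq_mul]; split_ifs <;> simp [hk]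

theorem threeAtomic_map {ρ : Measure (EuclideanSpace ℝ (Fin d))} [IsFiniteMeasure ρ]
    {T : EuclideanSpace ℝ (Fin d) → EuclideanSpace ℝ (Fin d)} (hT : Measurable T)
    (y : Fin 3 → EuclideanSpace ℝ (Fin d)) (hy : Function.Injective y)
    (hTy : ∀ x, T x = y 0 ∨ T x = y 1 ∨ T x = y 2) (hpos : ∀ i, 0 < ρ (T ⁻¹' {y i})) :
    IsThreeAtomic (ρ.map T) := by
  refine ⟨y, hy, fun i => (ρ (T ⁻¹' {y i})).toReal,
    fun i => ENNReal.toReal_pos (hpos i).ne' (measure_ne_top _ _), ?_⟩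
  simp only [ENNReal.ofReal_toReal (measure_ne_top _ _)]
  have hμ : ∀ i, ρ (T ⁻¹' {y i}) = (ρ.map T) {y i} :=
    fun i => (Measure.map_apply hT (measurableSet_singleton _)).symm
  simp only [hμ]
  have hms : MeasurableSet ({y 0} ∪ ({y 1} ∪ {y 2}) : Set (EuclideanSpace ℝ (Fin d))) :=
    (measurableSet_singleton _).union ((measurableSet_singleton _).union (measurableSet_singleton _))
  have hae : ∀ᵐ z ∂(ρ.map T), z ∈ ({y 0} ∪ ({y 1} ∪ {y 2}) : Set (EuclideanSpace ℝ (Fin d))) := by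
    refine (ae_map_iff hT.aemeasurable (p := fun z => z ∈ ({y 0} ∪ ({y 1} ∪ {y 2}) :
      Set (EuclideanSpace ℝ (Fin d)))) hms).2 ?_
    exact Filter.Eventually.of_forall (fun x => by rcases hTy x with h | h | h <;> simp [h])
  have h01 : y 0 ≠ y 1 := fun h => by simpa using hy h
  have h02 : y 0 ≠ y 2 := fun h => by simpa using hy h
  have h12 : y 1 ≠ y 2 := fun h => by simpa using hy h
  conv_lhs => rw [← Measure.restrict_eq_self_of_ae_mem hae]
  rw [Measure.restrict_union (by simp [h01, h02])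
      ((measurableSet_singleton _).union (measurableSet_singleton _)),
    Measure.restrict_union (by simp [h12]) (measurableSet_singleton _),
    Measure.restrict_singleton, Measure.restrict_singleton, Measure.restrict_singleton,
    Fin.sum_univ_three, add_assoc]

def boxAB (i0 i1 : Fin d) (a0 b0 a1 b1 : ℝ) : Set (EuclideanSpace ℝ (Fin d)) :=
  box (fun i => if i = i0 then a0 else if i = i1 then a1 else -1)
    (fun i => if i = i0 then b0 else if i = i1 then b1 else 1)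

theorem rho_boxAB {i0 i1 : Fin d} (hne : i0 ≠ i1) {a0 b0 a1 b1 : ℝ} (h0 : -1 ≤ a0) (h0' : a0 ≤ b0)
    (h0'' : b0 ≤ 1) (h1 : -1 ≤ a1) (h1' : a1 ≤ b1) (h1'' : b1 ≤ 1) :
    uniformProbOn (cube d) (boxAB i0 i1 a0 b0 a1 b1)
      = ENNReal.ofReal ((b0 - a0) / 2 * ((b1 - a1) / 2)) := by
  unfold boxAB
  rw [rho_box]
  · congr 1
    rw [Finset.prod_eq_mul i0 i1 hne]
    · simp [hne.symm]
    · intro c _ hc
      simp only [hc.1, hc.2, if_false]
      norm_num
    · intro h; exact absurd (Finset.mem_univ _) h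
    · intro h; exact absurd (Finset.mem_univ _) h
  · intro i; split_ifs <;> linarith
  · intro i; split_ifs <;> linarith
  · intro i; split_ifs <;> linarith

theorem mem_boxAB {i0 i1 : Fin d} (hne : i0 ≠ i1) {a0 b0 a1 b1 : ℝ}
    {x : EuclideanSpace ℝ (Fin d)} (hx : x ∈ boxAB i0 i1 a0 b0 a1 b1) :
    (a0 ≤ x i0 ∧ x i0 ≤ b0) ∧ (a1 ≤ x i1 ∧ x i1 ≤ b1) := by
  have h0 := hx i0
  have h1 := hx i1
  simp only [if_true, hne.symm, if_false] at h0 h1
  exact ⟨h0, h1⟩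

theorem mem_boxAB_of {i0 i1 : Fin d} {a0 b0 a1 b1 : ℝ}
    {x : EuclideanSpace ℝ (Fin d)} (hx : x ∈ cube d) (h0 : a0 ≤ x i0 ∧ x i0 ≤ b0)
    (h1 : a1 ≤ x i1 ∧ x i1 ≤ b1) : x ∈ boxAB i0 i1 a0 b0 a1 b1 := by
  intro i
  dsimp only
  split_ifs with c0 c1
  · subst c0; exact h0
  · subst c1; exact h1
  · exact abs_le.1 (hx i)

theorem rho_Wk_ge {i0 i1 : Fin d} (hne : i0 ≠ i1) {h : ℝ} (h0 : 0 < h) (h1 : h ≤ 1 / 2) :
    ENNReal.ofReal (h / 16) ≤ uniformProbOn (cube d) (Wk i0 i1 h) := by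
  have hb := rho_boxAB (d := d) hne (a0 := -(h / 4)) (b0 := h / 4) (a1 := 1 / 2) (b1 := 1)
    (by linarith) (by linarith) (by linarith) (by norm_num) (by norm_num) le_rfl
  have : (h / 4 - -(h / 4)) / 2 * ((1 - 1 / 2) / 2) = h / 16 := by ring
  rw [this] at hb
  rw [← hb]
  apply measure_mono
  intro x hx
  obtain ⟨⟨ha, hb⟩, hc, hd⟩ := mem_boxAB hne hx
  show |x i0| < h * x i1
  have : |x i0| ≤ h / 4 := abs_le.2 ⟨ha, hb⟩
  nlinarith

theorem rho_Wk_le {i0 i1 : Fin d} (hne : i0 ≠ i1) {h : ℝ} (h0 : 0 < h) (h1 : h ≤ 1 / 2) :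
    uniformProbOn (cube d) (Wk i0 i1 h) ≤ ENNReal.ofReal h := by
  have hb := rho_boxAB (d := d) hne (a0 := -h) (b0 := h) (a1 := -1) (b1 := 1)
    (by linarith) (by linarith) (by linarith) (by norm_num) (by norm_num) le_rfl
  have : (h - -h) / 2 * ((1 - -1) / 2) = h := by ring
  rw [this] at hb
  rw [← hb]
  apply measure_mono_ae
  filter_upwards [rho_ae_mem] with x hx hxW
  have hxW' : |x i0| < h * x i1 := hxW
  have h2 := abs_le.1 (hx i1)
  have h3 : |x i0| ≤ h := by nlinarith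
  exact mem_boxAB_of hx (abs_le.1 h3) h2

theorem Wk_neg {i0 i1 : Fin d} (hne : i0 ≠ i1) (h : ℝ) :
    Wk i0 i1 (-h) = (refl i1) ⁻¹' (Wk i0 i1 h) := by
  ext x
  simp only [Wk, Set.mem_ofPred_eq, Set.mem_preimage, refl_apply, hne, if_false, if_true]
  constructor <;> intro hx <;> linarith

theorem rho_Wk_neg {i0 i1 : Fin d} (hne : i0 ≠ i1) (h : ℝ) :
    uniformProbOn (cube d) (Wk i0 i1 (-h)) = uniformProbOn (cube d) (Wk i0 i1 h) := by
  rw [Wk_neg hne, ← Measure.map_apply (refl i1).continuous.measurable (measurableSet_Wk _ _ _),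
    rho_map_refl]

theorem sites_ne {i0 i1 : Fin d} (hne : i0 ≠ i1) (k : ℝ) :
    (- e i0 ≠ e i0) ∧ (- e i0 ≠ k • e i1) ∧ (e i0 ≠ k • e i1) := by
  refine ⟨fun h => ?_, fun h => ?_, fun h => ?_⟩
  · have := congrArg (fun v : EuclideanSpace ℝ (Fin d) => v i0) h
    simp only [PiLp.neg_apply, e_apply, if_true] at this
    norm_num at this
  · have := congrArg (fun v : EuclideanSpace ℝ (Fin d) => v i0) h
    simp only [PiLp.neg_apply, PiLp.smul_apply, e_apply, if_true, hne, if_false] at this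
    norm_num at this
  · have := congrArg (fun v : EuclideanSpace ℝ (Fin d) => v i0) h
    simp only [PiLp.smul_apply, e_apply, if_true, hne, if_false] at this
    norm_num at this

theorem threeAtomic_Tk {i0 i1 : Fin d} (hne : i0 ≠ i1) {k : ℝ} (hk : |k| ≤ 1 / 2)
    (hW : 0 < uniformProbOn (cube d) (Wk i0 i1 k)) :
    IsThreeAtomic ((uniformProbOn (cube d)).map (Tk i0 i1 k)) := by
  obtain ⟨h01, h02, h12⟩ := sites_ne hne k
  have hk' := abs_le.1 hk
  refine threeAtomic_map (measurable_Tk i0 i1 k) ![- e i0, e i0, k • e i1] ?_ ?_ ?_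
  · intro i j hij
    fin_cases i <;> fin_cases j <;>
      first
        | rfl
        | exact absurd hij h01
        | exact absurd hij h02
        | exact absurd hij h12
        | exact absurd hij.symm h01
        | exact absurd hij.symm h02
        | exact absurd hij.symm h12
  · intro x
    have := Tk_mem i0 i1 k x
    simpa [Fk] using this
  · intro i
    fin_cases i
    · have hb := rho_boxAB (d := d) hne (a0 := -1) (b0 := -(3 / 4)) (a1 := -1) (b1 := 1)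
        le_rfl (by norm_num) (by norm_num) (by norm_num) (by norm_num) le_rfl
      refine lt_of_lt_of_le ?_ (measure_mono (s := boxAB i0 i1 (-1) (-(3 / 4)) (-1) 1) ?_)
      · rw [hb]; simp only [ENNReal.ofReal_pos]; norm_num
      · intro x hx
        obtain ⟨⟨ha, hb⟩, hc, hd⟩ := mem_boxAB hne hx
        have hneg : x i0 < 0 := by linarith
        have hcond : ¬ (|x i0| < k * x i1) := by
          rw [abs_of_neg hneg]
          nlinarith
        simp [Tk, hcond, hneg]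
    · have hb := rho_boxAB (d := d) hne (a0 := 3 / 4) (b0 := 1) (a1 := -1) (b1 := 1)
        (by norm_num) (by norm_num) le_rfl (by norm_num) (by norm_num) le_rfl
      refine lt_of_lt_of_le ?_ (measure_mono (s := boxAB i0 i1 (3 / 4) 1 (-1) 1) ?_)
      · rw [hb]; simp only [ENNReal.ofReal_pos]; norm_num
      · intro x hx
        obtain ⟨⟨ha, hb⟩, hc, hd⟩ := mem_boxAB hne hx
        have hneg : ¬ (x i0 < 0) := by linarith
        have hcond : ¬ (|x i0| < k * x i1) := by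
          rw [abs_of_nonneg (not_lt.1 hneg)]
          nlinarith
        simp [Tk, hcond, hneg]
    · refine lt_of_lt_of_le hW (measure_mono ?_)
      intro x hx
      have hx' : |x i0| < k * x i1 := hx
      simp [Tk, hx']

theorem exists_h (α : ℝ) (hα : 1 / 3 < α) (C : ℝ) (hC : 0 ≤ C) :
    ∃ h : ℝ, 0 < h ∧ h ≤ 1 / 2 ∧ C * (4 * h ^ 3) ^ α < h / 16 := by
  have hγ : 0 < 3 * α - 1 := by linarith
  set γ := 3 * α - 1 with hγdef
  have h4 : 0 < (4 : ℝ) ^ α := Real.rpow_pos_of_pos (by norm_num) _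
  set K := 16 * C * 4 ^ α + 1 with hK
  have hKpos : 0 < K := by positivity
  have hpos : 0 < (K⁻¹) ^ (1 / γ) := Real.rpow_pos_of_pos (inv_pos.2 hKpos) _
  refine ⟨min (1 / 2) ((K⁻¹) ^ (1 / γ)), lt_min (by norm_num) hpos, min_le_left _ _, ?_⟩
  set h := min (1 / 2) ((K⁻¹) ^ (1 / γ)) with hh
  have h0 : 0 < h := lt_min (by norm_num) hpos
  have hle : h ^ γ ≤ K⁻¹ := by
    calc h ^ γ ≤ ((K⁻¹) ^ (1 / γ)) ^ γ := Real.rpow_le_rpow h0.le (min_le_right _ _) hγ.le
      _ = K⁻¹ := by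
        rw [← Real.rpow_mul (inv_pos.2 hKpos).le, one_div_mul_cancel hγ.ne', Real.rpow_one]
  have hexp : (4 * h ^ 3) ^ α = 4 ^ α * (h ^ γ * h) := by
    rw [Real.mul_rpow (by norm_num) (by positivity), ← Real.rpow_natCast h 3,
      ← Real.rpow_mul h0.le, ← Real.rpow_add_one h0.ne']
    congr 2
    rw [hγdef]; push_cast; ring
  rw [hexp]
  have h5 : C * 4 ^ α * K⁻¹ < 1 / 16 := by
    rw [← div_eq_mul_inv, div_lt_iff₀ hKpos, hK]
    linarith
  have h6 : C * 4 ^ α * h ^ γ ≤ C * 4 ^ α * K⁻¹ := by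
    apply mul_le_mul_of_nonneg_left hle (by positivity)
  calc C * (4 ^ α * (h ^ γ * h)) = (C * 4 ^ α * h ^ γ) * h := by ring
    _ < 1 / 16 * h := by
      apply mul_lt_mul_of_pos_right (lt_of_le_of_lt h6 h5) h0
    _ = h / 16 := by ring

theorem probOn_Tk (i0 i1 : Fin d) {k : ℝ} (hk : |k| ≤ 1) :
    IsProbabilityOn (cube d) ((uniformProbOn (cube d)).map (Tk i0 i1 k)) := by
  refine ⟨Measure.isProbabilityMeasure_map (measurable_Tk i0 i1 k).aemeasurable, ?_⟩
  rw [Measure.map_apply (measurable_Tk i0 i1 k) measurableSet_cube.compl]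
  have : Tk i0 i1 k ⁻¹' (cube d)ᶜ = ∅ := by
    ext x
    simp only [Set.mem_preimage, Set.mem_compl_iff, Set.mem_empty_iff_false, iff_false, not_not]
    exact Fk_sub_cube i0 i1 k hk (Tk_mem i0 i1 k x)
  rw [this]; simp

theorem fin1_Tk (i0 i1 : Fin d) {k : ℝ} (hk : |k| ≤ 1) :
    ∫⁻ x, ‖Tk i0 i1 k x‖ₑ ^ 2 ∂(uniformProbOn (cube d)) ≠ ∞ :=
  lint_fin _ d (fun x _ => norm_sq_le_of_mem (Fk_sub_cube i0 i1 k hk (Tk_mem i0 i1 k x)))

theorem fin2_Tk (i0 i1 : Fin d) {k : ℝ} (hk : |k| ≤ 1) :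
    ∫⁻ x, ‖x - Tk i0 i1 k x‖ₑ ^ 2 ∂(uniformProbOn (cube d)) ≠ ∞ :=
  lint_fin (fun x => x - Tk i0 i1 k x) (4 * d)
    (fun x hx => norm_sub_sq_le_of_mem hx (Fk_sub_cube i0 i1 k hk (Tk_mem i0 i1 k x)))

theorem optimal_Tk (i0 i1 : Fin d) {k : ℝ} (hk : |k| ≤ 1) :
    IsOptimalMap (uniformProbOn (cube d)) ((uniformProbOn (cube d)).map (Tk i0 i1 k)) (Tk i0 i1 k) :=
  optimal_of_max (measurable_Tk i0 i1 k) (Fk_finite i0 i1 k).measurableSet (Tk_mem i0 i1 k)
    (Tk_max i0 i1 k) (fin1_Tk i0 i1 hk)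

theorem unique_Tk (i0 i1 : Fin d) {k : ℝ} (hk : |k| ≤ 1)
    {S : EuclideanSpace ℝ (Fin d) → EuclideanSpace ℝ (Fin d)}
    (hS : IsOptimalMap (uniformProbOn (cube d)) ((uniformProbOn (cube d)).map (Tk i0 i1 k)) S) :
    S =ᵐ[uniformProbOn (cube d)] Tk i0 i1 k :=
  ae_eq_of_optimal (measurable_Tk i0 i1 k) (Fk_finite i0 i1 k) (Tk_mem i0 i1 k)
    (Tk_max i0 i1 k) (fin1_Tk i0 i1 hk) (fin2_Tk i0 i1 hk) rho_ac hS

theorem measurable_pair (i0 i1 : Fin d) (h : ℝ) :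
    Measurable (fun x => (Tk i0 i1 h x, Tk i0 i1 (-h) (refl i1 x))) :=
  (measurable_Tk i0 i1 h).prodMk
    ((measurable_Tk i0 i1 (-h)).comp (refl i1).continuous.measurable)

theorem coupling_Tk (i0 i1 : Fin d) (h : ℝ) :
    IsPairCoupling ((uniformProbOn (cube d)).map (Tk i0 i1 h))
      ((uniformProbOn (cube d)).map (Tk i0 i1 (-h)))
      ((uniformProbOn (cube d)).map (fun x => (Tk i0 i1 h x, Tk i0 i1 (-h) (refl i1 x)))) := by
  constructor
  · rw [Measure.map_map measurable_fst (measurable_pair i0 i1 h)]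
    rfl
  · rw [Measure.map_map measurable_snd (measurable_pair i0 i1 h)]
    conv_rhs => rw [← rho_map_refl i1]
    rw [Measure.map_map (measurable_Tk i0 i1 (-h)) (refl i1).continuous.measurable]
    rfl

theorem norm_e (j : Fin d) : ‖e j‖ = 1 := by
  simp [e]

theorem cost_Tk {i0 i1 : Fin d} (hne : i0 ≠ i1) (h : ℝ) :
    quadCost ((uniformProbOn (cube d)).map (fun x => (Tk i0 i1 h x, Tk i0 i1 (-h) (refl i1 x))))
      = ENNReal.ofReal (4 * h ^ 2) * uniformProbOn (cube d) (Wk i0 i1 h) := by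
  unfold quadCost
  have hm : Measurable fun p : EuclideanSpace ℝ (Fin d) × EuclideanSpace ℝ (Fin d) =>
      ‖p.1 - p.2‖ₑ ^ 2 := (measurable_fst.sub measurable_snd).enorm.pow_const 2
  rw [lintegral_map hm (measurable_pair i0 i1 h)]
  rw [← lintegral_indicator_const (measurableSet_Wk i0 i1 h)]
  apply lintegral_congr
  intro x
  have hT : Tk i0 i1 (-h) (refl i1 x)
      = if |x i0| < h * x i1 then (-h) • e i1 else if x i0 < 0 then - e i0 else e i0 := by
    unfold Tk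
    simp only [refl_apply, hne, if_false, if_true, neg_mul_neg]
  simp only [hT]
  by_cases hx : |x i0| < h * x i1
  · have hxW : x ∈ Wk i0 i1 h := hx
    rw [Set.indicator_of_mem hxW]
    simp only [Tk, hx, if_true]
    rw [enorm_sq_eq]
    congr 1
    have : h • e i1 - (-h) • e i1 = (2 * h) • e i1 := by
      rw [neg_smul, sub_neg_eq_add, ← add_smul]; congr 1; ring
    rw [this, norm_smul, norm_e, mul_one, Real.norm_eq_abs, sq_abs]
    ring
  · have hxW : x ∉ Wk i0 i1 h := hx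
    rw [Set.indicator_of_notMem hxW]
    simp only [Tk, hx, if_false]
    simp

theorem dist_ge {i0 i1 : Fin d} (hne : i0 ≠ i1) {h : ℝ} (h0 : 0 < h) :
    uniformProbOn (cube d) (Wk i0 i1 h)
      ≤ ∫⁻ x, ‖Tk i0 i1 h x - Tk i0 i1 (-h) x‖ₑ ^ 2 ∂(uniformProbOn (cube d)) := by
  rw [← lintegral_indicator_one (measurableSet_Wk i0 i1 h)]
  apply lintegral_mono
  intro x
  by_cases hx : |x i0| < h * x i1
  · have hxW : x ∈ Wk i0 i1 h := hx
    rw [Set.indicator_of_mem hxW]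
    have hx2 : ¬ (|x i0| < -h * x i1) := by
      have := abs_nonneg (x i0)
      intro hc
      linarith
    show (1 : ℝ≥0∞) ≤ ‖Tk i0 i1 h x - Tk i0 i1 (-h) x‖ₑ ^ 2
    rw [enorm_sq_eq]
    have key : 1 ≤ ‖Tk i0 i1 h x - Tk i0 i1 (-h) x‖ := by
      refine le_trans ?_ (PiLp.norm_apply_le _ i0)
      simp only [Tk, hx, hx2, if_true, if_false]
      split_ifs <;>
        simp [e_apply, hne]
    rw [← ENNReal.ofReal_one]
    apply ENNReal.ofReal_le_ofReal
    nlinarith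
  · have hxW : x ∉ Wk i0 i1 h := hx
    rw [Set.indicator_of_notMem hxW]
    exact zero_le

end maps

/-- The exponent one third is optimal, even on the cube with three-atom targets: for d ≥ 2, ρ the uniform probability measure on the cube of points of ℝᵈ with all coordinates in [-1, 1], every α > 1/3 and every C ≥ 0, there are three-atomic probability measures μ, ν on that cube, each admitting a quadratic optimal transport map from ρ, such that for all such optimal maps Tμ, Tν some coupling π of μ, ν has C · (∫ ‖y - z‖² dπ)^α < ∫ ‖Tμ - Tν‖² dρ. Hence ‖Tμ - Tν‖_{L²(ρ)} > √C · W₂(μ, ν)^α. -/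
theorem result
    (d : ℕ) (hd : 2 ≤ d) (α : ℝ) (hα : 1 / 3 < α) (C : ℝ≥0) :
    ∃ μ ν : Measure (EuclideanSpace ℝ (Fin d)),
      IsProbabilityOn {x : EuclideanSpace ℝ (Fin d) | ∀ i, |x i| ≤ 1} μ ∧
      IsProbabilityOn {x : EuclideanSpace ℝ (Fin d) | ∀ i, |x i| ≤ 1} ν ∧
      IsThreeAtomic μ ∧ IsThreeAtomic ν ∧
      (∃ T, IsOptimalMap (uniformProbOn {x : EuclideanSpace ℝ (Fin d) | ∀ i, |x i| ≤ 1}) μ T) ∧
      (∃ T, IsOptimalMap (uniformProbOn {x : EuclideanSpace ℝ (Fin d) | ∀ i, |x i| ≤ 1}) ν T) ∧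
      ∀ Tμ Tν : EuclideanSpace ℝ (Fin d) → EuclideanSpace ℝ (Fin d),
        IsOptimalMap (uniformProbOn {x : EuclideanSpace ℝ (Fin d) | ∀ i, |x i| ≤ 1}) μ Tμ →
        IsOptimalMap (uniformProbOn {x : EuclideanSpace ℝ (Fin d) | ∀ i, |x i| ≤ 1}) ν Tν →
        ∃ π : Measure (EuclideanSpace ℝ (Fin d) × EuclideanSpace ℝ (Fin d)), IsPairCoupling μ ν π ∧
          (C : ℝ≥0∞) * quadCost π ^ α < ∫⁻ x, ‖Tμ x - Tν x‖ₑ ^ 2 ∂(uniformProbOn {x : EuclideanSpace ℝ (Fin d) | ∀ i, |x i| ≤ 1}) := by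
  obtain ⟨h, h0, h1, hnum⟩ := exists_h α hα C C.2
  have hα0 : 0 < α := by linarith
  let i0 : Fin d := ⟨0, by omega⟩
  let i1 : Fin d := ⟨1, by omega⟩
  have hne : i0 ≠ i1 := by simp [i0, i1, Fin.ext_iff]
  have hkp : |h| ≤ 1 / 2 := by rw [abs_of_pos h0]; exact h1
  have hkn : |-h| ≤ 1 / 2 := by rw [abs_neg]; exact hkp
  have hkp1 : |h| ≤ 1 := hkp.trans (by norm_num)
  have hkn1 : |-h| ≤ 1 := hkn.trans (by norm_num)
  have hWge := rho_Wk_ge (d := d) hne h0 h1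
  have hWle := rho_Wk_le (d := d) hne h0 h1
  have hWpos : 0 < uniformProbOn (cube d) (Wk i0 i1 h) :=
    lt_of_lt_of_le (by simp only [ENNReal.ofReal_pos]; positivity) hWge
  refine ⟨(uniformProbOn (cube d)).map (Tk i0 i1 h), (uniformProbOn (cube d)).map (Tk i0 i1 (-h)),
    probOn_Tk i0 i1 hkp1, probOn_Tk i0 i1 hkn1, threeAtomic_Tk hne hkp hWpos,
    threeAtomic_Tk hne hkn (by rw [rho_Wk_neg hne]; exact hWpos),
    ⟨_, optimal_Tk i0 i1 hkp1⟩, ⟨_, optimal_Tk i0 i1 hkn1⟩, ?_⟩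
  intro Tμ Tν hTμ hTν
  refine ⟨_, coupling_Tk i0 i1 h, ?_⟩
  have e1 := unique_Tk i0 i1 hkp1 hTμ
  have e2 := unique_Tk i0 i1 hkn1 hTν
  have hint : ∫⁻ x, ‖Tμ x - Tν x‖ₑ ^ 2 ∂(uniformProbOn (cube d))
      = ∫⁻ x, ‖Tk i0 i1 h x - Tk i0 i1 (-h) x‖ₑ ^ 2 ∂(uniformProbOn (cube d)) := by
    apply lintegral_congr_ae
    filter_upwards [e1, e2] with x hx1 hx2
    rw [hx1, hx2]
  rw [hint, cost_Tk hne h]
  refine lt_of_lt_of_le ?_ (hWge.trans (dist_ge hne h0))
  have hc : ENNReal.ofReal (4 * h ^ 2) * uniformProbOn (cube d) (Wk i0 i1 h)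
      ≤ ENNReal.ofReal (4 * h ^ 3) := by
    calc ENNReal.ofReal (4 * h ^ 2) * uniformProbOn (cube d) (Wk i0 i1 h)
        ≤ ENNReal.ofReal (4 * h ^ 2) * ENNReal.ofReal h := by gcongr
      _ = ENNReal.ofReal (4 * h ^ 3) := by
        rw [← ENNReal.ofReal_mul (by positivity)]; congr 1; ring
  calc (C : ℝ≥0∞) * (ENNReal.ofReal (4 * h ^ 2) * uniformProbOn (cube d) (Wk i0 i1 h)) ^ α
      ≤ (C : ℝ≥0∞) * (ENNReal.ofReal (4 * h ^ 3)) ^ α := by
        gcongr
    _ = ENNReal.ofReal (C * (4 * h ^ 3) ^ α) := by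
        rw [ENNReal.ofReal_rpow_of_pos (by positivity), ENNReal.ofReal_mul (NNReal.coe_nonneg C),
          ENNReal.ofReal_coe_nnreal]
    _ < ENNReal.ofReal (h / 16) := by
        exact (ENNReal.ofReal_lt_ofReal_iff (by positivity)).2 hnum

end Crest.Agent.S0110
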