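import Crest.Statements.S0167
import Crest.Agent.Lib_helper2_AUC
import Crest.Agent.Lib_helper2_Daugavet
import Crest.Agent.Lib_helper7_L1Mid

set_option autoImplicit false
open Crest Crest.AnalysisR

namespace Crest.Agent.S0167

/-- Let E be an infinite-dimensional closed subspace of the real L¹ of a probability space whose closed unit ball is totally bounded for convergence in measure and whose norm has the Daugavet property. Then at every unit x ∈ E and every t > 0 the averaged midpoint quantity sup_F inf_y ((‖x+ty‖+‖x-ty‖)/2 - 1) equals max(t/2, t-1) and the one-sided one sup_F inf_y (‖x+ty‖ - 1) equals max(0, t-2), as matching lower and upper bounds, and E admits no equivalent asymptotically uniformly convex norm. -/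
theorem result (Ω : Type) [MeasurableSpace Ω] (P : MeasureTheory.Measure Ω) [MeasureTheory.IsProbabilityMeasure P]
    (E : Submodule ℝ (MeasureTheory.Lp ℝ 1 P)) (hcl : IsClosed (E : Set (MeasureTheory.Lp ℝ 1 P)))
    (hinf : ¬ FiniteDimensional ℝ E)
    (htb : Crest.AnalysisR.L1Subspace.UnitBallTotallyBoundedInMeasure P E)
    (hD : Crest.AnalysisR.L1Subspace.HasDaugavetProperty E) :
    (∀ t : ℝ, 0 < t →
      (Crest.AnalysisR.L1Subspace.toRealBanach P E hcl).MidpointModulusGE
          (Crest.AnalysisR.L1Subspace.toRealBanach P E hcl).norm t (max (t / 2) (t - 1)) ∧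
        (Crest.AnalysisR.L1Subspace.toRealBanach P E hcl).MidpointModulusLE
          (Crest.AnalysisR.L1Subspace.toRealBanach P E hcl).norm t (max (t / 2) (t - 1)) ∧
        (Crest.AnalysisR.L1Subspace.toRealBanach P E hcl).OneSidedModulusGE
          (Crest.AnalysisR.L1Subspace.toRealBanach P E hcl).norm t (max 0 (t - 2)) ∧
        (Crest.AnalysisR.L1Subspace.toRealBanach P E hcl).OneSidedModulusLE
          (Crest.AnalysisR.L1Subspace.toRealBanach P E hcl).norm t (max 0 (t - 2))) ∧
      ∀ N : E → ℝ, (Crest.AnalysisR.L1Subspace.toRealBanach P E hcl).IsEquivNorm N →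
        ¬ (Crest.AnalysisR.L1Subspace.toRealBanach P E hcl).IsAUC N := by
  have hne : ∃ x : E, ‖x‖ = 1 := by
    have : Nontrivial E := by
      by_contra hnt
      rw [not_nontrivial_iff_subsingleton] at hnt
      exact hinf inferInstance
    obtain ⟨x, hx⟩ := exists_ne (0 : E)
    refine ⟨‖x‖⁻¹ • x, ?_⟩
    rw [norm_smul, norm_inv, norm_norm, inv_mul_cancel₀ (norm_ne_zero_iff.mpr hx)]
  refine ⟨fun t ht => ⟨?_, ?_, ?_, ?_⟩, ?_⟩
  · intro (x : E) hx η hη
    obtain ⟨S, hS, h⟩ := Crest.Agent.Lib_helper7_L1Mid.l1_mid_lower P E htb t ht x hx η hη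
    refine ⟨(S : Set E), ⟨S, rfl, hS.1, hS.2⟩, ?_⟩
    intro (y : E) hy hy1
    have h1 := h y hy hy1
    have h2 := Crest.Agent.Lib_helper2_Daugavet.mid_trivial ht x y hy1
    have h3 : max (t / 2) (t - 1) - η ≤ (‖x + t • y‖ + ‖x - t • y‖) / 2 - 1 := by
      rcases le_total (t / 2) (t - 1) with h | h
      · rw [max_eq_right h]; linarith
      · rw [max_eq_left h]; exact h1
    exact h3
  · intro (x : E) hx F hF η hη
    obtain ⟨S, rfl, hS⟩ := Crest.Agent.Lib_helper2_AUC.exists_cofSub_of_isCof _ hF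
    obtain ⟨y, hy, hy1, -, h⟩ := Crest.Agent.Lib_helper2_Daugavet.oneSided_upper hD ht hx hS hη
    exact ⟨y, hy, hy1, h⟩
  · intro (x : E) hx η hη
    obtain ⟨S, hS, h⟩ := Crest.Agent.Lib_helper2_Daugavet.oneSided_lower (V := E) ht hx
    refine ⟨(S : Set E), ⟨S, rfl, hS.1, hS.2⟩, ?_⟩
    intro (y : E) hy hy1
    have h1 := h y hy hy1
    have h3 : max 0 (t - 2) - η ≤ ‖x + t • y‖ - 1 := by linarith
    exact h3
  · intro (x : E) hx F hF η hη
    obtain ⟨S, rfl, hS⟩ := Crest.Agent.Lib_helper2_AUC.exists_cofSub_of_isCof _ hF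
    obtain ⟨y, hy, hy1, h, -⟩ := Crest.Agent.Lib_helper2_Daugavet.oneSided_upper hD ht hx hS hη
    exact ⟨y, hy, hy1, h⟩
  · intro N hN hAUC
    exact Crest.Agent.Lib_helper2_Daugavet.not_AUC_daugavet hD hne hN
      (Crest.Agent.Lib_helper2_AUC.AUC_of_isAUC _ hAUC)

end Crest.Agent.S0167
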