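import Crest.Statements.S0168
import Crest.Agent.Lib_helper2_AUC
import Crest.Agent.Lib_helper2_Tree
import Crest.Agent.Lib_helper2_Tree2

set_option autoImplicit false
open Crest Crest.AnalysisR

namespace Crest.Agent.S0168

/-- For each of the four bounded-potential coordinate models on the countably branching tree (rootless sibling, rooted sibling, antichain, global), the generated space, namely the closure of the span of the coordinate vectors in the supremum norm over the model's tests, is separable and infinite-dimensional, its norm has at every unit centre and every 0 < t < 1 averaged midpoint asymptotic quantity at least √(1 + t²/4) - 1, and no equivalent norm on it is asymptotically uniformly convex. -/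
theorem result
    (m : Crest.AnalysisR.TreePotential.PotentialModel) :
    (Crest.AnalysisR.TreePotential.modelBanach m).IsSeparableInfiniteDim ∧
      (∀ t : ℝ, 0 < t → t < 1 →
        (Crest.AnalysisR.TreePotential.modelBanach m).MidpointModulusGE
          (Crest.AnalysisR.TreePotential.modelBanach m).norm t (Real.sqrt (1 + t ^ 2 / 4) - 1)) ∧
      ∀ N : (Crest.AnalysisR.TreePotential.modelBanach m).X → ℝ,
        (Crest.AnalysisR.TreePotential.modelBanach m).IsEquivNorm N →
          ¬ (Crest.AnalysisR.TreePotential.modelBanach m).IsAUC N := by
  refine ⟨⟨Crest.Agent.Lib_helper2_Tree.separable_model m,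
    Crest.Agent.Lib_helper2_Tree.not_finiteDimensional_model m⟩, ?_, ?_⟩
  · intro t ht0 ht1 x hx η hη
    obtain ⟨S', hS', h⟩ := Crest.Agent.Lib_helper2_Tree.mid_model m ht0 ht1 x hx hη
    refine ⟨(S' : Set (Crest.AnalysisR.TreePotential.modelSpace m)), ⟨S', rfl, hS'.1, hS'.2⟩, ?_⟩
    intro y hy hy1
    exact h y hy hy1
  · intro N hN hAUC
    exact Crest.Agent.Lib_helper2_Tree.not_AUC_model m hN
      (Crest.Agent.Lib_helper2_AUC.AUC_of_isAUC _ hAUC)

end Crest.Agent.S0168
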