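import Crest.Statements.S0175
import Crest.Agent.Lib_MM_Opt2

set_option autoImplicit false
open MeasureTheory
open scoped ENNReal ContDiff
open Crest.AnalysisR.OT
open Crest Crest.AnalysisR Crest.AnalysisR.OT

namespace Crest.Agent.S0175

open Crest.Agent.MM in
theorem aux (n : ℕ) (s : ℝ) (hs : 0 < s) :
    ∃ ρ : EE n → ℝ, (∀ x, 0 ≤ ρ x) ∧ ContDiff ℝ ∞ ρ ∧ HasCompactSupport ρ ∧
      ContDiff ℝ ∞ (fun x => Real.sqrt (ρ x)) ∧ ∫ x, ρ x = 1 ∧
      ∃ k0 : ℝ, ∃ μA ν : Measure (EE n), Pair s k0 μA ν ∧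
        measOfDensity ρ = μA + (2 : ℝ≥0∞) • ν := by
  obtain ⟨k0, hsm⟩ := exists_small hs
  obtain ⟨f, fY, hf, hfY, hf0, hfY0, hfc, hfYc, hfA, hfS, hint, hmapY, hmapZ, hrot⟩ :=
    exists_data (n := n) hsm
  have hdisj : ∀ x, f x = 0 ∨ fY x = 0 := by
    intro x
    by_contra hcon
    rw [not_or] at hcon
    exact (Set.disjoint_left.1 (disjoint_ΩA_ΩS hsm)) (hfA x hcon.1) (hfS x hcon.2)
  have hmf : Measurable fun x : EE n => ENNReal.ofReal (f x ^ 2) :=
    (hf.continuous.measurable.pow_const 2).ennreal_ofReal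
  have hmfY : Measurable fun x : EE n => ENNReal.ofReal (fY x ^ 2) :=
    (hfY.continuous.measurable.pow_const 2).ennreal_ofReal
  set μA : Measure (EE n) := volume.withDensity fun x => ENNReal.ofReal (f x ^ 2) with hμA
  set ν : Measure (EE n) := volume.withDensity fun x => ENNReal.ofReal (fY x ^ 2) with hν
  have hP : Pair s k0 μA ν := by
    refine ⟨hsm, ?_, hmapY, hmapZ, ?_, ?_, hrot⟩
    · rw [hμA, withDensity_apply _ MeasurableSet.univ, Measure.restrict_univ, hint]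
    · rw [hμA, ae_withDensity_iff hmf]
      refine Filter.Eventually.of_forall fun x hx => hfA x ?_
      intro h0
      apply hx
      rw [h0]; simp
    · rw [hν, ae_withDensity_iff hmfY]
      refine Filter.Eventually.of_forall fun x hx => hfS x ?_
      intro h0
      apply hx
      rw [h0]; simp
  have hdens : measOfDensity (fun x => f x ^ 2 + 2 * fY x ^ 2) = μA + (2 : ℝ≥0∞) • ν := by
    unfold measOfDensity
    have e : (fun x : EE n => ENNReal.ofReal (f x ^ 2 + 2 * fY x ^ 2)) =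
        (fun x => ENNReal.ofReal (f x ^ 2)) + (2 : ℝ≥0∞) • fun x => ENNReal.ofReal (fY x ^ 2) := by
      funext x
      simp only [Pi.add_apply, Pi.smul_apply, smul_eq_mul]
      rw [ENNReal.ofReal_add (by positivity) (by positivity),
        ENNReal.ofReal_mul (by norm_num)]
      norm_num
    rw [e, withDensity_add_left hmf, withDensity_smul _ hmfY]
  refine ⟨fun x => f x ^ 2 + 2 * fY x ^ 2, fun x => by positivity, ?_, ?_, ?_, ?_, k0, μA, ν, hP,
    hdens⟩
  · exact (hf.pow 2).add (contDiff_const.mul (hfY.pow 2))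
  · have h1 : HasCompactSupport fun x => f x ^ 2 :=
      hfc.comp_left (g := fun t : ℝ => t ^ 2) (by norm_num)
    have h2 : HasCompactSupport fun x => 2 * fY x ^ 2 :=
      hfYc.comp_left (g := fun t : ℝ => 2 * t ^ 2) (by norm_num)
    exact h1.add h2
  · have e : (fun x => Real.sqrt (f x ^ 2 + 2 * fY x ^ 2)) =
        fun x => f x + Real.sqrt 2 * fY x := by
      funext x
      rcases hdisj x with h | h
      · rw [h]
        simp only [ne_eq, OfNat.ofNat_ne_zero, not_false_eq_true, zero_pow, zero_add]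
        rw [Real.sqrt_mul (by norm_num), Real.sqrt_sq (hfY0 x)]
      · rw [h]
        simp only [ne_eq, OfNat.ofNat_ne_zero, not_false_eq_true, zero_pow, mul_zero, add_zero]
        rw [Real.sqrt_sq (hf0 x)]
    rw [e]
    exact hf.add (contDiff_const.mul hfY)
  · have h1 : ∫ x, (f x ^ 2 + 2 * fY x ^ 2) =
        (∫⁻ x, ENNReal.ofReal (f x ^ 2 + 2 * fY x ^ 2)).toReal := by
      rw [integral_eq_lintegral_of_nonneg_ae (Filter.Eventually.of_forall fun x => by positivity)]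
      exact ((hf.pow 2).add (contDiff_const.mul (hfY.pow 2))).continuous.aestronglyMeasurable
    have h2 : ∫⁻ x, ENNReal.ofReal (f x ^ 2 + 2 * fY x ^ 2) =
        measOfDensity (fun x => f x ^ 2 + 2 * fY x ^ 2) Set.univ := by
      unfold measOfDensity
      rw [withDensity_apply _ MeasurableSet.univ, Measure.restrict_univ]
    rw [h1, h2, hdens, hP.mass]
    simp

/-- For every d ≥ 2 and s > 0 there is a smooth, compactly supported, nonnegative ρ on ℝᵈ with integral 1 and smooth square root such that, for μ = ρ dx and the cost summing ‖xᵢ - xⱼ‖^(-s) over the three pairs of a triple: some coupling with all three marginals μ has finite cost, minimal among all such couplings; every pair of Borel maps T₂, T₃ pushing μ to itself gives the plan x ↦ (x, T₂ x, T₃ x) strictly larger cost; and such pairs have costs arbitrarily close to that minimum. -/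
theorem result
    (d : ℕ) (hd : 2 ≤ d) (s : ℝ) (hs : 0 < s) :
    ∃ ρ : EuclideanSpace ℝ (Fin d) → ℝ, (∀ x, 0 ≤ ρ x) ∧ ContDiff ℝ ∞ ρ ∧ HasCompactSupport ρ ∧
      ContDiff ℝ ∞ (fun x => Real.sqrt (ρ x)) ∧ ∫ x, ρ x = 1 ∧
      ∃ π₀ : Measure (EuclideanSpace ℝ (Fin d) × EuclideanSpace ℝ (Fin d) × EuclideanSpace ℝ (Fin d)),
        IsCoupling₃ (measOfDensity ρ) π₀ ∧ ∫⁻ p, tripleCost s p ∂π₀ < ⊤ ∧
        (∀ π : Measure (EuclideanSpace ℝ (Fin d) × EuclideanSpace ℝ (Fin d) × EuclideanSpace ℝ (Fin d)), IsCoupling₃ (measOfDensity ρ) π →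
          ∫⁻ p, tripleCost s p ∂π₀ ≤ ∫⁻ p, tripleCost s p ∂π) ∧
        (∀ T₂ T₃ : EuclideanSpace ℝ (Fin d) → EuclideanSpace ℝ (Fin d), Measurable T₂ → Measurable T₃ →
          (measOfDensity ρ).map T₂ = measOfDensity ρ → (measOfDensity ρ).map T₃ = measOfDensity ρ →
          ∫⁻ p, tripleCost s p ∂π₀ < ∫⁻ x, tripleCost s (x, T₂ x, T₃ x) ∂(measOfDensity ρ)) ∧
        (∀ ε : ℝ≥0∞, 0 < ε → ∃ T₂ T₃ : EuclideanSpace ℝ (Fin d) → EuclideanSpace ℝ (Fin d), Measurable T₂ ∧ Measurable T₃ ∧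
          (measOfDensity ρ).map T₂ = measOfDensity ρ ∧ (measOfDensity ρ).map T₃ = measOfDensity ρ ∧
          ∫⁻ x, tripleCost s (x, T₂ x, T₃ x) ∂(measOfDensity ρ) < ∫⁻ p, tripleCost s p ∂π₀ + ε) := by
  obtain ⟨n, rfl⟩ : ∃ n, d = n + 2 := ⟨d - 2, by omega⟩
  obtain ⟨ρ, h0, h1, h2, h3, h4, k0, μA, ν, hP, hρ⟩ := aux n s hs
  refine ⟨ρ, h0, h1, h2, h3, h4, MM.planOf μA (MM.YY s k0) (MM.ZZ s k0), ?_, ?_, ?_, ?_, ?_⟩
  · rw [hρ]
    exact MM.planOf_coupling μA ν (MM.measurable_YY hP.small) (MM.measurable_ZZ hP.small)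
      hP.mapY hP.mapZ
  · exact MM.plan_finite hP
  · intro π hπ
    rw [hρ] at hπ
    exact MM.plan_optimal hP π hπ
  · intro T₂ T₃ m2 m3 p2 p3
    rw [hρ] at p2 p3 ⊢
    exact MM.no_monge_min hP T₂ T₃ m2 m3 p2 p3
  · intro ε hε
    rw [hρ]
    exact MM.monge_approx hP ε hε

end Crest.Agent.S0175
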