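-- Statement S0223 (row 155): counting lower bound for the shuffle of `Def_Shuffle`.
import Crest.Statements.S0223

set_option autoImplicit false
open Crest Crest.ProbabilityR

namespace Crest.Agent.S0223

open Crest.ProbabilityR.Shuffle

theorem mod_of_lt_two_mul {m x : ℕ} (hx : x < 2 * m) :
    x = x % m + (if m ≤ x then m else 0) := by
  by_cases h : m ≤ x
  · rw [if_pos h, Nat.mod_eq_sub_mod h, Nat.mod_eq_of_lt (by omega)]; omega
  · rw [if_neg h, Nat.mod_eq_of_lt (by omega)]; omega

theorem stepPos_injective (m : ℕ) (c : Fin m → Bool) : Function.Injective (stepPos m c) := by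
  intro x y h
  have hx := x.isLt
  have hy := y.isLt
  have hm : 0 < m := by omega
  simp only [stepPos, Fin.mk.injEq] at h
  have h1 : x.val % m = y.val % m := by
    split_ifs at h <;> omega
  have hc : c ⟨x.val % m, Nat.mod_lt _ hm⟩ = c ⟨y.val % m, Nat.mod_lt _ hm⟩ := by
    congr 1; exact Fin.ext h1
  rw [hc] at h
  have ex := mod_of_lt_two_mul hx
  have ey := mod_of_lt_two_mul hy
  apply Fin.ext
  by_cases hxm : m ≤ x.val <;> by_cases hym : m ≤ y.val
  · rw [if_pos hxm] at ex; rw [if_pos hym] at ey; omega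
  · exfalso
    cases hcv : c ⟨y.val % m, Nat.mod_lt _ hm⟩ <;> simp [hxm, hym, hcv, h1] at h
  · exfalso
    cases hcv : c ⟨y.val % m, Nat.mod_lt _ hm⟩ <;> simp [hxm, hym, hcv, h1] at h
  · rw [if_neg hxm] at ex; rw [if_neg hym] at ey; omega

theorem iterPos_injective (m : ℕ) : ∀ (t : ℕ) (cs : Fin t → Fin m → Bool),
    Function.Injective (iterPos m t cs)
  | 0, _ => fun _ _ h => h
  | t + 1, cs => (stepPos_injective m (cs (Fin.last t))).comp
      (iterPos_injective m t (fun i => cs i.castSucc))

/-- The permutation produced by the table `cs`. -/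
noncomputable def perm (m t : ℕ) (cs : Fin t → Fin m → Bool) : Equiv.Perm (Fin (2 * m)) :=
  Equiv.ofBijective (iterPos m t cs)
    (Finite.injective_iff_bijective.mp (iterPos_injective m t cs))

theorem tv_lower (m t : ℕ) :
    1 - (2 : ℝ) ^ (m * t) / ((2 * m).factorial : ℝ) ≤ tvFromUniform m t := by
  classical
  set u : ℝ := 1 / ((2 * m).factorial : ℝ) with hu
  have hfac : (0 : ℝ) < ((2 * m).factorial : ℝ) := by exact_mod_cast Nat.factorial_pos _
  have hu0 : 0 < u := by positivity
  set W : ℝ := (Fintype.card (Fin t → Fin m → Bool) : ℝ) with hW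
  have hWval : W = (2 : ℝ) ^ (m * t) := by
    rw [hW]; simp [Fintype.card_pi, ← pow_mul]
  have hW0 : 0 < W := by rw [hWval]; positivity
  let cnt : Equiv.Perm (Fin (2 * m)) → ℕ := fun g =>
    (Finset.univ.filter (fun cs : Fin t → Fin m → Bool => perm m t cs = g)).card
  have hprob : ∀ g : Equiv.Perm (Fin (2 * m)),
      Crest.FinProb.uniformProb {cs : Fin t → Fin m → Bool | iterPos m t cs = ⇑g}
        = (cnt g : ℝ) / W := by
    intro g
    unfold Crest.FinProb.uniformProb
    congr 2
    apply congrArg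
    ext cs
    simp only [Finset.mem_filter, Finset.mem_univ, true_and, Set.mem_ofPred_eq]
    constructor
    · intro h; apply Equiv.ext; intro x; exact congrFun h x
    · intro h; rw [← h]; rfl
  have hsum : ∑ g : Equiv.Perm (Fin (2 * m)), (cnt g : ℝ) = W := by
    rw [hW, ← Nat.cast_sum]
    congr 1
    have := Finset.card_eq_sum_card_fiberwise (s := (Finset.univ : Finset (Fin t → Fin m → Bool)))
      (t := (Finset.univ : Finset (Equiv.Perm (Fin (2 * m))))) (f := perm m t)
      (fun _ _ => Finset.mem_coe.mpr (Finset.mem_univ _))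
    rw [Finset.card_univ] at this
    exact this.symm
  have hpt : ∀ g : Equiv.Perm (Fin (2 * m)),
      (cnt g : ℝ) / W + u - 2 * u * (cnt g : ℝ) ≤ |(cnt g : ℝ) / W - u| := by
    intro g
    rcases Nat.eq_zero_or_pos (cnt g) with h0 | hpos
    · rw [h0]; simp [abs_of_pos hu0]
    · have h1 : (1 : ℝ) ≤ (cnt g : ℝ) := by exact_mod_cast hpos
      have : (cnt g : ℝ) / W - u ≤ |(cnt g : ℝ) / W - u| := le_abs_self _
      nlinarith
  have hcardG : ((Finset.univ : Finset (Equiv.Perm (Fin (2 * m)))).card : ℝ)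
      = ((2 * m).factorial : ℝ) := by
    rw [Finset.card_univ, Fintype.card_perm, Fintype.card_fin]
  have hlow : 2 - 2 * u * W ≤ ∑ g : Equiv.Perm (Fin (2 * m)), |(cnt g : ℝ) / W - u| := by
    calc 2 - 2 * u * W
        = ∑ g : Equiv.Perm (Fin (2 * m)), ((cnt g : ℝ) / W + u - 2 * u * (cnt g : ℝ)) := by
          rw [Finset.sum_sub_distrib, Finset.sum_add_distrib, ← Finset.sum_div, ← Finset.mul_sum,
            hsum, Finset.sum_const, nsmul_eq_mul, hcardG, hu]
          field_simp
          ring
      _ ≤ _ := Finset.sum_le_sum (fun g _ => hpt g)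
  unfold tvFromUniform
  simp only [hprob]
  rw [← hWval]
  have : W / ((2 * m).factorial : ℝ) = u * W := by rw [hu]; ring
  rw [this]
  linarith

/-- For a deck of `2 * 2 ^ d` cards and every number `t` of shuffles, the total variation distance between the law of the arrangement of the deck and the uniform law on all arrangements is at least `1 - 2 ^ (2 ^ d * t) / (2 * 2 ^ d)!`. -/
theorem result (d t : ℕ) :
    1 - (2 : ℝ) ^ (2 ^ d * t) / ((2 * 2 ^ d).factorial : ℝ)
      ≤ Crest.ProbabilityR.Shuffle.tvFromUniform (2 ^ d) t := by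
  exact tv_lower (2 ^ d) t

end Crest.Agent.S0223
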