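import Crest.Statements.S0324
import Crest.Agent.Lib_helper5_CylCover
import Crest.Agent.Lib_helper6_CylB

set_option autoImplicit false
open MeasureTheory
open scoped ENNReal
open Crest Crest.GeometryTopology Crest.GeometryTopology.Convex

namespace Crest.Agent.S0324

/-- The regular tetrahedron `K` with vertices `(±1, 0, 0)`, `(0, ±1, √2)` is covered by finitely many cylinders `Bᵢ + ℝ uᵢ`, each with unit direction `uᵢ` and base `Bᵢ` a triangle (convex hull of three points) in the plane `uᵢ^⊥`, whose total base area `∑ᵢ area(Bᵢ)` is smaller, by a positive margin, than half the area of the orthogonal projection of `K` onto `v^⊥` for every unit vector `v`; areas are 2-dimensional Hausdorff measure. -/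
theorem result :
    ∃ (m : ℕ) (u p q r : Fin m → EuclideanSpace ℝ (Fin 3)),
      (∀ i, ‖u i‖ = 1) ∧
      (∀ i, inner ℝ (p i) (u i) = 0 ∧ inner ℝ (q i) (u i) = 0 ∧ inner ℝ (r i) (u i) = 0) ∧
      convexHull ℝ {!₂[1, 0, 0], !₂[-1, 0, 0], !₂[0, 1, Real.sqrt 2], !₂[0, -1, Real.sqrt 2]} ⊆
        ⋃ i, {x : EuclideanSpace ℝ (Fin 3) | ∃ b ∈ convexHull ℝ {p i, q i, r i}, ∃ t : ℝ, x = b + t • u i} ∧
      ∃ δ : ℝ, 0 < δ ∧ ∀ v : EuclideanSpace ℝ (Fin 3), ‖v‖ = 1 →
        ∑ i, (μH[(2 : ℝ)] (convexHull ℝ {p i, q i, r i})).toReal + δ ≤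
          (μH[(2 : ℝ)] ((fun y => y - inner ℝ y v • v) '' convexHull ℝ {!₂[1, 0, 0], !₂[-1, 0, 0], !₂[0, 1, Real.sqrt 2], !₂[0, -1, Real.sqrt 2]})).toReal / 2 := by
  obtain ⟨m, u, p, q, r, -, hu, hperp, hcov, hsum⟩ := Crest.Agent.Lib_helper5_CylCover.fixed_cover
  obtain ⟨c, hc, hconv⟩ := Crest.Agent.Lib_helper6_CylB.hausdorff_const
  have h2 : 0 < Real.sqrt 2 := Real.sqrt_pos.2 (by norm_num)
  refine ⟨m, u, p, q, r, hu, hperp, hcov, c * Real.sqrt 2 / 10000000, by positivity, ?_⟩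
  intro v hv
  have h1 := Crest.Agent.Lib_helper6_CylB.minproj_ge_toReal v hv
  rw [hconv]
  have e : ∑ i, (μH[(2 : ℝ)] (convexHull ℝ {p i, q i, r i})).toReal
      = c * ∑ i, (μHE[2] (convexHull ℝ ({p i, q i, r i} : Set (EuclideanSpace ℝ (Fin 3))))).toReal := by
    rw [Finset.mul_sum]
    exact Finset.sum_congr rfl (fun i _ => hconv _)
  rw [e]
  have h3 := mul_le_mul_of_nonneg_left hsum hc.le
  have h4 := mul_le_mul_of_nonneg_left h1 hc.le
  nlinarith

end Crest.Agent.S0324
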