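import Crest.Statements.S0325
import Crest.Agent.Lib_helper5_CylCover
import Crest.Agent.Lib_helper6_CylB

set_option autoImplicit false
open MeasureTheory
open scoped ENNReal
open Crest Crest.GeometryTopology Crest.GeometryTopology.Convex

namespace Crest.Agent.S0325

open Crest.Agent.Lib_helper4_CylArea in
/-- area of the filler triangle -/
theorem area_filler (a : ℝ) (ha : 0 ≤ a) :
    (μHE[2] (convexHull ℝ ({(0 : E3), !₂[0, 2 * a, 0], !₂[0, 0, 1]} : Set E3))).toReal = a := by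
  rw [area_tri_toReal]
  have h : gram ((!₂[0, 2 * a, 0] : E3) - 0) ((!₂[0, 0, 1] : E3) - 0) = (2 * a) ^ 2 := by
    unfold gram
    rw [normsq3, normsq3, inner3]
    simp
  rw [h, Real.sqrt_sq (by positivity)]
  ring

open Crest.Agent.Lib_helper4_CylArea in
/-- area of the degenerate triangle -/
theorem area_degenerate :
    (μHE[2] (convexHull ℝ ({(0 : E3), (0 : E3), (0 : E3)} : Set E3))).toReal = 0 := by
  rw [area_tri_toReal]
  simp [gram]

/-- padding of a cover -/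
theorem pad (m : ℕ) (u p q r : Fin m → EuclideanSpace ℝ (Fin 3))
    (hu : ∀ i, ‖u i‖ = 1)
    (hperp : ∀ i, inner ℝ (p i) (u i) = 0 ∧ inner ℝ (q i) (u i) = 0 ∧ inner ℝ (r i) (u i) = 0)
    (K : Set (EuclideanSpace ℝ (Fin 3)))
    (hcov : K ⊆ ⋃ i, {x : EuclideanSpace ℝ (Fin 3) |
      ∃ b ∈ convexHull ℝ {p i, q i, r i}, ∃ t : ℝ, x = b + t • u i})
    (a : ℝ) (ha : 0 ≤ a) (M : ℕ) (hM : m + 1 ≤ M) :
    ∃ (u' p' q' r' : Fin M → EuclideanSpace ℝ (Fin 3)),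
      (∀ i, ‖u' i‖ = 1) ∧
      (∀ i, inner ℝ (p' i) (u' i) = 0 ∧ inner ℝ (q' i) (u' i) = 0 ∧ inner ℝ (r' i) (u' i) = 0) ∧
      K ⊆ ⋃ i, {x : EuclideanSpace ℝ (Fin 3) |
        ∃ b ∈ convexHull ℝ {p' i, q' i, r' i}, ∃ t : ℝ, x = b + t • u' i} ∧
      ∑ i, (μHE[2] (convexHull ℝ ({p' i, q' i, r' i} : Set (EuclideanSpace ℝ (Fin 3))))).toReal
        = ∑ i, (μHE[2] (convexHull ℝ ({p i, q i, r i} : Set (EuclideanSpace ℝ (Fin 3))))).toReal
          + a := by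
  obtain ⟨k, rfl⟩ : ∃ k, M = m + (1 + k) := ⟨M - (m + 1), by omega⟩
  have hex : ‖(!₂[1, 0, 0] : EuclideanSpace ℝ (Fin 3))‖ = 1 := by
    rw [EuclideanSpace.norm_eq]
    simp [Fin.sum_univ_three]
  refine ⟨Fin.append u (fun _ => !₂[1, 0, 0]), Fin.append p (fun _ => 0),
    Fin.append q (Fin.append (fun _ : Fin 1 => !₂[0, 2 * a, 0]) (fun _ : Fin k => 0)),
    Fin.append r (Fin.append (fun _ : Fin 1 => !₂[0, 0, 1]) (fun _ : Fin k => 0)), ?_, ?_, ?_, ?_⟩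
  · intro i
    refine Fin.addCases (fun j => ?_) (fun j => ?_) i
    · rw [Fin.append_left]; exact hu j
    · rw [Fin.append_right]; exact hex
  · intro i
    refine Fin.addCases (fun j => ?_) (fun j => ?_) i
    · simp only [Fin.append_left]; exact hperp j
    · simp only [Fin.append_right]
      refine ⟨by simp, ?_, ?_⟩
      · refine Fin.addCases (fun l => ?_) (fun l => ?_) j
        · simp only [Fin.append_left]
          rw [Crest.Agent.Lib_helper4_CylArea.inner3]; simp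
        · simp only [Fin.append_right]; simp
      · refine Fin.addCases (fun l => ?_) (fun l => ?_) j
        · simp only [Fin.append_left]
          rw [Crest.Agent.Lib_helper4_CylArea.inner3]; simp
        · simp only [Fin.append_right]; simp
  · intro x hx
    obtain ⟨i, hi⟩ := Set.mem_iUnion.1 (hcov hx)
    refine Set.mem_iUnion.2 ⟨Fin.castAdd (1 + k) i, ?_⟩
    simpa only [Fin.append_left] using hi
  · rw [Fin.sum_univ_add, Fin.sum_univ_add]
    simp only [Fin.append_left, Fin.append_right]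
    rw [Finset.sum_const, Finset.sum_const, area_filler a ha, area_degenerate]
    simp

/-- Let K be the regular tetrahedron with vertices (±1, 0, 0), (0, ±1, √2); areas are Lebesgue-normalised 2-dimensional Hausdorff measure. (1) The least area of an orthogonal projection of K onto a plane is √2: each map y ↦ y − ⟪y, v⟫ v with ‖v‖ = 1 sends K to a set of area ≥ √2, equal for some v. (2) For every 0 < ε ≤ 5·10⁻⁴, K is covered by 2⌈2/ε²⌉ cylinders Bᵢ + ℝ uᵢ, uᵢ a unit vector, Bᵢ a triangle (convex hull of three points) in uᵢ^⊥, of total area A with ‖A/√2 − 1/2 + 13 ε²/6000‖ ≤ 2 ε⁴. -/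
theorem result :
    ((∀ v : EuclideanSpace ℝ (Fin 3), ‖v‖ = 1 →
        ENNReal.ofReal (Real.sqrt 2) ≤ μHE[2] ((fun y => y - inner ℝ y v • v) '' convexHull ℝ {!₂[1, 0, 0], !₂[-1, 0, 0], !₂[0, 1, Real.sqrt 2], !₂[0, -1, Real.sqrt 2]})) ∧
      ∃ v : EuclideanSpace ℝ (Fin 3), ‖v‖ = 1 ∧
        μHE[2] ((fun y => y - inner ℝ y v • v) '' convexHull ℝ {!₂[1, 0, 0], !₂[-1, 0, 0], !₂[0, 1, Real.sqrt 2], !₂[0, -1, Real.sqrt 2]}) = ENNReal.ofReal (Real.sqrt 2)) ∧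
    ∀ ε : ℝ, 0 < ε → ε ≤ 1 / 2000 →
      ∃ (u p q r : Fin (2 * ⌈2 / ε ^ 2⌉₊) → EuclideanSpace ℝ (Fin 3)),
        (∀ i, ‖u i‖ = 1) ∧
        (∀ i, inner ℝ (p i) (u i) = 0 ∧ inner ℝ (q i) (u i) = 0 ∧ inner ℝ (r i) (u i) = 0) ∧
        convexHull ℝ {!₂[1, 0, 0], !₂[-1, 0, 0], !₂[0, 1, Real.sqrt 2], !₂[0, -1, Real.sqrt 2]} ⊆
          ⋃ i, {x : EuclideanSpace ℝ (Fin 3) | ∃ b ∈ convexHull ℝ {p i, q i, r i}, ∃ t : ℝ, x = b + t • u i} ∧
        abs ((∑ i, (μHE[2] (convexHull ℝ ({p i, q i, r i} : Set (EuclideanSpace ℝ (Fin 3))))).toReal) / Real.sqrt 2 -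
            (1 / 2 - 13 / 6000 * ε ^ 2)) ≤ 2 * ε ^ 4 := by
  refine ⟨⟨Crest.Agent.Lib_helper6_CylB.minproj_ge, Crest.Agent.Lib_helper6_CylB.minproj_eq⟩, ?_⟩
  intro ε hε hε'
  obtain ⟨m, u, p, q, r, hm, hu, hperp, hcov, hsum⟩ := Crest.Agent.Lib_helper5_CylCover.fixed_cover
  have h2 : 0 < Real.sqrt 2 := Real.sqrt_pos.2 (by norm_num)
  have hε2 : ε ^ 2 ≤ (1 / 2000) ^ 2 := pow_le_pow_left₀ hε.le hε' 2
  have hε2pos : 0 < ε ^ 2 := by positivity
  -- the number of cylinders is large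
  have hM : m + 1 ≤ 2 * ⌈2 / ε ^ 2⌉₊ := by
    have h1 : (8000000 : ℝ) ≤ 2 / ε ^ 2 := by
      rw [le_div_iff₀ hε2pos]
      nlinarith
    have h3 : (8000000 : ℝ) ≤ (⌈2 / ε ^ 2⌉₊ : ℝ) := h1.trans (Nat.le_ceil _)
    have h4 : 8000000 ≤ ⌈2 / ε ^ 2⌉₊ := by exact_mod_cast h3
    omega
  -- the missing area
  set A0 : ℝ := ∑ i, (μHE[2] (convexHull ℝ ({p i, q i, r i} : Set (EuclideanSpace ℝ (Fin 3))))).toReal
    with hA0
  have ha : 0 ≤ Real.sqrt 2 * (1 / 2 - 13 / 6000 * ε ^ 2) - A0 := by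
    have : Real.sqrt 2 * (1 / 2 - 1 / 10000000) ≤ Real.sqrt 2 * (1 / 2 - 13 / 6000 * ε ^ 2) := by
      apply mul_le_mul_of_nonneg_left _ h2.le
      nlinarith
    linarith
  obtain ⟨u', p', q', r', hu', hperp', hcov', hsum'⟩ :=
    pad m u p q r hu hperp _ hcov _ ha _ hM
  refine ⟨u', p', q', r', hu', hperp', hcov', ?_⟩
  rw [hsum']
  have e : (A0 + (Real.sqrt 2 * (1 / 2 - 13 / 6000 * ε ^ 2) - A0)) / Real.sqrt 2
      - (1 / 2 - 13 / 6000 * ε ^ 2) = 0 := by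
    field_simp
    ring
  rw [e, abs_zero]
  positivity

end Crest.Agent.S0325
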