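import Crest.Statements.S0327
import Crest.Agent.Lib_helper8_S0327b
import Crest.Agent.Lib_helper6_CylB

set_option autoImplicit false
open MeasureTheory
open scoped ENNReal
open Crest Crest.GeometryTopology Crest.GeometryTopology.Convex

namespace Crest.Agent.S0327

/-- Let K ⊂ ℝ³ be a regular tetrahedron (convex hull of four points with equal pairwise distances ℓ > 0); areas are Lebesgue-normalised 2-dimensional Hausdorff measure, π_v y = y − ⟪y, v⟫ v. (1) Finitely many cylinders Bᵢ + ℝ uᵢ, ‖uᵢ‖ = 1, with parallelogram bases Bᵢ = cᵢ + [0,1]aᵢ + [0,1]bᵢ in uᵢ^⊥ cover K, ∑ᵢ area(Bᵢ) being below half of area(π_v K) by a positive margin for all unit v, and ∑ᵢ area(Bᵢ)/area(π_{uᵢ} K) < 1/2. (2) The same with bounded relatively open subsets of the uᵢ^⊥ as bases. -/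
theorem result
    (w : Fin 4 → EuclideanSpace ℝ (Fin 3)) (ℓ : ℝ) (hℓ : 0 < ℓ)
    (hw : ∀ i j, i ≠ j → dist (w i) (w j) = ℓ) :
    (∃ (k : ℕ) (u c a b : Fin k → EuclideanSpace ℝ (Fin 3)),
      (∀ i, ‖u i‖ = 1) ∧
      (∀ i, inner ℝ (c i) (u i) = 0 ∧ inner ℝ (a i) (u i) = 0 ∧ inner ℝ (b i) (u i) = 0) ∧
      convexHull ℝ (Set.range w) ⊆ ⋃ i, {x : EuclideanSpace ℝ (Fin 3) |
        ∃ s ∈ Set.Icc (0 : ℝ) 1, ∃ t ∈ Set.Icc (0 : ℝ) 1, ∃ τ : ℝ, x = c i + s • a i + t • b i + τ • u i} ∧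
      (∃ δ : ℝ, 0 < δ ∧ ∀ v : EuclideanSpace ℝ (Fin 3), ‖v‖ = 1 →
        (∑ i, (μHE[2] {x : EuclideanSpace ℝ (Fin 3) |
            ∃ s ∈ Set.Icc (0 : ℝ) 1, ∃ t ∈ Set.Icc (0 : ℝ) 1, x = c i + s • a i + t • b i}).toReal) + δ ≤
          (μHE[2] ((fun y => y - inner ℝ y v • v) '' convexHull ℝ (Set.range w))).toReal / 2) ∧
      ∑ i, (μHE[2] {x : EuclideanSpace ℝ (Fin 3) |
            ∃ s ∈ Set.Icc (0 : ℝ) 1, ∃ t ∈ Set.Icc (0 : ℝ) 1, x = c i + s • a i + t • b i}).toReal /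
          (μHE[2] ((fun y => y - inner ℝ y (u i) • u i) '' convexHull ℝ (Set.range w))).toReal < 1 / 2) ∧
    (∃ (k : ℕ) (u : Fin k → EuclideanSpace ℝ (Fin 3)) (B : Fin k → Set (EuclideanSpace ℝ (Fin 3))),
      (∀ i, ‖u i‖ = 1) ∧
      (∀ i, Bornology.IsBounded (B i) ∧ ∃ O : Set (EuclideanSpace ℝ (Fin 3)), IsOpen O ∧
        B i = O ∩ {x | inner ℝ x (u i) = 0}) ∧
      convexHull ℝ (Set.range w) ⊆
        ⋃ i, {x : EuclideanSpace ℝ (Fin 3) | ∃ y ∈ B i, ∃ τ : ℝ, x = y + τ • u i} ∧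
      (∃ δ : ℝ, 0 < δ ∧ ∀ v : EuclideanSpace ℝ (Fin 3), ‖v‖ = 1 →
        (∑ i, (μHE[2] (B i)).toReal) + δ ≤
          (μHE[2] ((fun y => y - inner ℝ y v • v) '' convexHull ℝ (Set.range w))).toReal / 2) ∧
      ∑ i, (μHE[2] (B i)).toReal /
          (μHE[2] ((fun y => y - inner ℝ y (u i) • u i) '' convexHull ℝ (Set.range w))).toReal < 1 / 2) := by
  classical
  obtain ⟨k, u, c, a, b, hu, hp, hc, ha⟩ :=
    Crest.Agent.Lib_helper8_S0327b.regular_pgram_cover w ℓ hℓ hw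
  set m₀ : ℝ := ℓ ^ 2 * Real.sqrt 2 / 4 with hm0
  have hs2 : 0 < Real.sqrt 2 := Real.sqrt_pos.mpr (by norm_num)
  have hm0pos : 0 < m₀ := by positivity
  have hD : ∀ v : EuclideanSpace ℝ (Fin 3), ‖v‖ = 1 →
      m₀ ≤ (μHE[2] ((fun y => y - inner ℝ y v • v) '' convexHull ℝ (Set.range w))).toReal :=
    fun v hv => Crest.Agent.Lib_helper6_CylB.regular_minproj_ge_toReal w ℓ hℓ hw v hv
  have harea : ∀ i, (μHE[2] {x : EuclideanSpace ℝ (Fin 3) |
      ∃ s ∈ Set.Icc (0 : ℝ) 1, ∃ t ∈ Set.Icc (0 : ℝ) 1, x = c i + s • a i + t • b i}).toReal =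
      Real.sqrt (Crest.Agent.Lib_helper4_CylArea.gram (a i) (b i)) :=
    fun i => Crest.Agent.Lib_helper4_CylArea.area_pgram_toReal _ _ _
  -- a general estimate for the weighted sum
  have hratio : ∀ (A : Fin k → ℝ), (∀ i, 0 ≤ A i) → ∑ i, A i ≤ m₀ * (1 / 2 - 8 / 100000000) →
      ∑ i, A i / (μHE[2] ((fun y => y - inner ℝ y (u i) • u i) ''
        convexHull ℝ (Set.range w))).toReal < 1 / 2 := by
    intro A hA hsum
    calc ∑ i, A i / (μHE[2] ((fun y => y - inner ℝ y (u i) • u i) ''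
          convexHull ℝ (Set.range w))).toReal
        ≤ ∑ i, A i / m₀ :=
          Finset.sum_le_sum (fun i _ => div_le_div_of_nonneg_left (hA i) hm0pos (hD (u i) (hu i)))
      _ = (∑ i, A i) / m₀ := (Finset.sum_div _ _ _).symm
      _ ≤ 1 / 2 - 8 / 100000000 := by
          rw [div_le_iff₀ hm0pos]; linarith
      _ < 1 / 2 := by norm_num
  constructor
  · refine ⟨k, u, c, a, b, hu, hp, hc, ⟨m₀ * (8 / 100000000), by positivity, ?_⟩, ?_⟩
    · intro v hv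
      simp_rw [harea]
      have := hD v hv
      nlinarith
    · apply hratio
      · intro i; exact ENNReal.toReal_nonneg
      · simp_rw [harea]
        nlinarith
  · set η : ℝ := m₀ * (1 / 100000000) / ((k : ℝ) + 1) with hη
    have hηpos : 0 < η := by positivity
    have hex : ∀ i, ∃ O : Set (EuclideanSpace ℝ (Fin 3)), IsOpen O ∧
        {x : EuclideanSpace ℝ (Fin 3) |
          ∃ s ∈ Set.Icc (0 : ℝ) 1, ∃ t ∈ Set.Icc (0 : ℝ) 1, x = c i + s • a i + t • b i} ⊆ O ∧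
        Bornology.IsBounded (O ∩ {x | inner ℝ x (u i) = 0}) ∧
        (μHE[2] (O ∩ {x | inner ℝ x (u i) = 0})).toReal ≤
          (μHE[2] {x : EuclideanSpace ℝ (Fin 3) |
            ∃ s ∈ Set.Icc (0 : ℝ) 1, ∃ t ∈ Set.Icc (0 : ℝ) 1,
              x = c i + s • a i + t • b i}).toReal + η := by
      intro i
      obtain ⟨h1, h2, h3⟩ := hp i
      apply Crest.Agent.Lib_helper6_CylB.exists_relOpen (u i) (hu i) _ _ _ η hηpos
      · rintro x ⟨s, -, t, -, rfl⟩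
        simp [inner_add_left, inner_smul_left, h1, h2, h3]
      · rw [isBounded_iff_forall_norm_le]
        refine ⟨‖c i‖ + ‖a i‖ + ‖b i‖, ?_⟩
        rintro x ⟨s, ⟨hs0, hs1⟩, t, ⟨ht0, ht1⟩, rfl⟩
        have e1 : ‖s • a i‖ ≤ ‖a i‖ := by
          rw [norm_smul, Real.norm_of_nonneg hs0]
          exact mul_le_of_le_one_left (norm_nonneg _) hs1
        have e2 : ‖t • b i‖ ≤ ‖b i‖ := by
          rw [norm_smul, Real.norm_of_nonneg ht0]
          exact mul_le_of_le_one_left (norm_nonneg _) ht1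
        calc ‖c i + s • a i + t • b i‖ ≤ ‖c i + s • a i‖ + ‖t • b i‖ := norm_add_le _ _
          _ ≤ ‖c i‖ + ‖s • a i‖ + ‖t • b i‖ := by gcongr; exact norm_add_le _ _
          _ ≤ ‖c i‖ + ‖a i‖ + ‖b i‖ := by gcongr
    choose O hO1 hO2 hO3 hO4 using hex
    have hsum : ∑ i, (μHE[2] (O i ∩ {x | inner ℝ x (u i) = 0})).toReal ≤
        m₀ * (1 / 2 - 8 / 100000000) := by
      calc ∑ i, (μHE[2] (O i ∩ {x | inner ℝ x (u i) = 0})).toReal
          ≤ ∑ i, (Real.sqrt (Crest.Agent.Lib_helper4_CylArea.gram (a i) (b i)) + η) :=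
            Finset.sum_le_sum (fun i _ => by rw [← harea i]; exact hO4 i)
        _ = ∑ i, Real.sqrt (Crest.Agent.Lib_helper4_CylArea.gram (a i) (b i)) + k * η := by
            rw [Finset.sum_add_distrib]; simp
        _ ≤ m₀ * (1 / 2 - 9 / 100000000) + m₀ * (1 / 100000000) := by
            have hk : (k : ℝ) * η ≤ m₀ * (1 / 100000000) := by
              rw [hη, mul_div_assoc', div_le_iff₀ (by positivity)]
              have : 0 ≤ m₀ * (1 / 100000000) := by positivity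
              nlinarith
            linarith
        _ = m₀ * (1 / 2 - 8 / 100000000) := by ring
    refine ⟨k, u, fun i => O i ∩ {x | inner ℝ x (u i) = 0}, hu,
      fun i => ⟨hO3 i, O i, hO1 i, rfl⟩, ?_, ⟨m₀ * (8 / 100000000), by positivity, ?_⟩, ?_⟩
    · intro x hx
      obtain ⟨i, hi⟩ := Set.mem_iUnion.mp (hc hx)
      obtain ⟨s, hs, t, ht, τ, rfl⟩ := hi
      obtain ⟨h1, h2, h3⟩ := hp i
      refine Set.mem_iUnion.mpr ⟨i, c i + s • a i + t • b i, ⟨hO2 i ⟨s, hs, t, ht, rfl⟩, ?_⟩, τ, rfl⟩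
      simp [inner_add_left, inner_smul_left, h1, h2, h3]
    · intro v hv
      have := hD v hv
      linarith
    · exact hratio _ (fun i => ENNReal.toReal_nonneg) hsum

end Crest.Agent.S0327
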