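import Crest.Statements.S0328
import Crest.Agent.Lib_helper4_CylSweep2

set_option autoImplicit false
open MeasureTheory
open scoped ENNReal
open Crest Crest.GeometryTopology Crest.GeometryTopology.Convex

namespace Crest.Agent.S0328

/-- Unit e; a, b, p₀ ∈ e^⊥, a, b independent; α < β; L > 0; R ≥ 0, λ both continuous on [α, β]; w(t) ∈ e^⊥, w′ = λ(t)(a + tb). S = {p₀ + ρ(a + t b) + s(e + w t) : α ≤ t ≤ β, 0 ≤ ρ ≤ R t, ‖s‖ ≤ L}; A = κ ∫_α^β R²/(2√(1 + ‖w‖²)), κ = area spanned by a, b. For η > 0 a δ > 0 makes each partition t₀ < … < t_N of [α, β] of mesh ≤ δ, tags cᵢ, admit N cylinders (axes e + w(cᵢ), nondegenerate triangle bases) covering S, total area within η of A; same for S's pieces tᵢ ≤ t ≤ tᵢ₊₁ projected along these axes. -/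
theorem result
    (e a b p₀ : EuclideanSpace ℝ (Fin 3)) (he : ‖e‖ = 1)
    (ha : inner ℝ a e = 0) (hb : inner ℝ b e = 0) (hp₀ : inner ℝ p₀ e = 0)
    (hab : LinearIndependent ℝ ![a, b]) (L : ℝ) (hL : 0 < L) (α β : ℝ) (hαβ : α < β)
    (R : ℝ → ℝ) (hR : ContinuousOn R (Set.Icc α β)) (hR0 : ∀ t ∈ Set.Icc α β, 0 ≤ R t)
    (w : ℝ → EuclideanSpace ℝ (Fin 3)) (hw : ∀ t ∈ Set.Icc α β, inner ℝ (w t) e = 0)
    (lam : ℝ → ℝ) (hlam : ContinuousOn lam (Set.Icc α β))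
    (hw' : ∀ t ∈ Set.Icc α β, HasDerivWithinAt w (lam t • (a + t • b)) (Set.Icc α β) t)
    (η : ℝ) (hη : 0 < η) :
    ∃ δ : ℝ, 0 < δ ∧ ∀ (N : ℕ) (t : Fin (N + 1) → ℝ) (c : Fin N → ℝ),
      StrictMono t → t 0 = α → t (Fin.last N) = β →
      (∀ i : Fin N, t i.succ - t i.castSucc ≤ δ) →
      (∀ i : Fin N, t i.castSucc ≤ c i ∧ c i ≤ t i.succ) →
      (∃ (p q r : Fin N → EuclideanSpace ℝ (Fin 3)),
        (∀ i, inner ℝ (p i) (e + w (c i)) = 0 ∧ inner ℝ (q i) (e + w (c i)) = 0 ∧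
          inner ℝ (r i) (e + w (c i)) = 0) ∧
        (∀ i, AffineIndependent ℝ ![p i, q i, r i]) ∧
        {x : EuclideanSpace ℝ (Fin 3) | ∃ τ ∈ Set.Icc α β, ∃ ρ ∈ Set.Icc 0 (R τ), ∃ s : ℝ, abs s ≤ L ∧
            x = p₀ + ρ • (a + τ • b) + s • (e + w τ)} ⊆
          ⋃ i, {x : EuclideanSpace ℝ (Fin 3) | ∃ y ∈ convexHull ℝ {p i, q i, r i}, ∃ σ : ℝ,
            x = y + σ • (e + w (c i))} ∧
        abs ((∑ i, (μHE[2] (convexHull ℝ ({p i, q i, r i} : Set (EuclideanSpace ℝ (Fin 3))))).toReal) -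
            Real.sqrt (‖a‖ ^ 2 * ‖b‖ ^ 2 - inner ℝ a b ^ 2) *
              ∫ τ in α..β, R τ ^ 2 / (2 * Real.sqrt (1 + ‖w τ‖ ^ 2))) ≤ η) ∧
      abs ((∑ i : Fin N, (μHE[2] ((fun y => y - (inner ℝ y (e + w (c i)) / ‖e + w (c i)‖ ^ 2) • (e + w (c i))) ''
            {x : EuclideanSpace ℝ (Fin 3) | ∃ τ ∈ Set.Icc (t i.castSucc) (t i.succ), ∃ ρ ∈ Set.Icc 0 (R τ),
              ∃ s : ℝ, abs s ≤ L ∧ x = p₀ + ρ • (a + τ • b) + s • (e + w τ)})).toReal) -
          Real.sqrt (‖a‖ ^ 2 * ‖b‖ ^ 2 - inner ℝ a b ^ 2) *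
            ∫ τ in α..β, R τ ^ 2 / (2 * Real.sqrt (1 + ‖w τ‖ ^ 2))) ≤ η := by
  classical
  have hcpt : IsCompact (Set.Icc α β) := isCompact_Icc
  obtain ⟨M, hM⟩ := hcpt.exists_bound_of_continuousOn hlam
  obtain ⟨Rb, hRb⟩ := hcpt.exists_bound_of_continuousOn hR
  have hαI : α ∈ Set.Icc α β := ⟨le_rfl, hαβ.le⟩
  have hM0 : 0 ≤ M := (norm_nonneg _).trans (hM α hαI)
  have hRb0 : 0 ≤ Rb := (norm_nonneg _).trans (hRb α hαI)
  have hM' : ∀ t ∈ Set.Icc α β, |lam t| ≤ M := fun t ht => hM t ht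
  have hwc : ContinuousOn w (Set.Icc α β) := fun x hx => (hw' x hx).continuousWithinAt
  set g : ℝ → ℝ := fun τ => R τ ^ 2 / (2 * Real.sqrt (1 + ‖w τ‖ ^ 2)) with hgdef
  have hg : ContinuousOn g (Set.Icc α β) := by
    apply ContinuousOn.div (hR.pow 2)
    · exact continuousOn_const.mul ((continuousOn_const.add (hwc.norm.pow 2)).sqrt)
    · intro x _; positivity
  have hκeq : Real.sqrt (‖a‖ ^ 2 * ‖b‖ ^ 2 - inner ℝ a b ^ 2) =
      Real.sqrt (Lib_helper4_CylArea.gram a b) := rfl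
  rw [hκeq]
  set κ : ℝ := Real.sqrt (Lib_helper4_CylArea.gram a b) with hκ
  have hκ0 : 0 ≤ κ := Real.sqrt_nonneg _
  have hβα : 0 < β - α := sub_pos.2 hαβ
  set η₀ : ℝ := η / ((κ + 1) * (β - α)) with hη₀d
  have hη₀ : 0 < η₀ := by positivity
  have hfinal : κ * (η₀ * (β - α)) ≤ η := by
    have : κ * (η₀ * (β - α)) = η * (κ / (κ + 1)) := by
      rw [hη₀d]; field_simp
    rw [this]
    calc η * (κ / (κ + 1)) ≤ η * 1 := by
          gcongr
          rw [div_le_one (by positivity)]; linarith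
      _ = η := mul_one η
  obtain ⟨θ, ω, δ₁, hθ, hω, hδ₁, hconst⟩ := Lib_helper4_CylSweep2.consts Rb η₀ L M hRb0 hη₀ hL hM0
  have hRu := hcpt.uniformContinuousOn_of_continuous hR
  have hgu := hcpt.uniformContinuousOn_of_continuous hg
  rw [Metric.uniformContinuousOn_iff] at hRu hgu
  obtain ⟨δR, hδR, hRu⟩ := hRu ω hω
  obtain ⟨δg, hδg, hgu⟩ := hgu (η₀ / 2) (by positivity)
  refine ⟨min δ₁ (min (δR / 2) (δg / 2)), by positivity, ?_⟩
  intro N t c hmono h0 hN hmesh htag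
  have hmem := Lib_helper4_CylSweep.part_mem t hmono h0 hN
  have hlt := Lib_helper4_CylSweep.part_lt t hmono
  have hsub := Lib_helper4_CylSweep.part_sub t hmono h0 hN
  have hcI : ∀ i : Fin N, c i ∈ Set.Icc α β := fun i => hsub i ⟨(htag i).1, (htag i).2⟩
  have hdist : ∀ i : Fin N, ∀ τ ∈ Set.Icc (t i.castSucc) (t i.succ),
      dist τ (c i) ≤ t i.succ - t i.castSucc := by
    intro i τ hτ
    rw [Real.dist_eq, abs_le]
    constructor <;> linarith [hτ.1, hτ.2, (htag i).1, (htag i).2]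
  have hm1 : ∀ i : Fin N, t i.succ - t i.castSucc ≤ δ₁ := fun i =>
    (hmesh i).trans (min_le_left _ _)
  have hm2 : ∀ i : Fin N, t i.succ - t i.castSucc < δR := fun i => by
    have : t i.succ - t i.castSucc ≤ δR / 2 :=
      (hmesh i).trans ((min_le_right _ _).trans (min_le_left _ _))
    linarith
  have hm3 : ∀ i : Fin N, t i.succ - t i.castSucc < δg := fun i => by
    have : t i.succ - t i.castSucc ≤ δg / 2 :=
      (hmesh i).trans ((min_le_right _ _).trans (min_le_right _ _))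
    linarith
  have hRclose : ∀ i : Fin N, ∀ τ ∈ Set.Icc (t i.castSucc) (t i.succ), |R τ - R (c i)| < ω := by
    intro i τ hτ
    have := hRu τ (hsub i hτ) (c i) (hcI i) (lt_of_le_of_lt (hdist i τ hτ) (hm2 i))
    rwa [Real.dist_eq] at this
  have hgclose : ∀ i : Fin N, ∀ τ ∈ Set.Icc (t i.castSucc) (t i.succ),
      |g τ - g (c i)| < η₀ / 2 := by
    intro i τ hτ
    have := hgu τ (hsub i hτ) (c i) (hcI i) (lt_of_le_of_lt (hdist i τ hτ) (hm3 i))
    rwa [Real.dist_eq] at this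
  have hpiece := fun i : Fin N =>
    Lib_helper4_CylSweep.piece_summary (p₀ := p₀) (r := max (R (c i) - ω) 0) he ha hb hab hw hlam hw'
      hM' hM0 hL hθ (hmem i.castSucc) (hmem i.succ) (htag i).1 (htag i).2 (hlt i)
      (hR0 (c i) (hcI i)) hω
      (fun τ hτ => by have := abs_lt.1 (hRclose i τ hτ); linarith [this.2])
      (le_max_right _ _)
      (fun τ hτ => max_le (by have := abs_lt.1 (hRclose i τ hτ); linarith [this.1])
        (hR0 τ (hsub i hτ)))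
  choose p q r hperp haff hcov harea hup hlow using hpiece
  set Gout : Fin N → ℝ := fun i =>
    (R (c i) + ω + 2 * (L * M * (t i.succ - t i.castSucc)) + L * M * (t i.succ - t i.castSucc) / θ) ^ 2
      * (1 + 2 * θ) / (2 * Real.sqrt (1 + ‖w (c i)‖ ^ 2)) with hGout
  set Gin : Fin N → ℝ := fun i =>
    (max (R (c i) - ω) 0) ^ 2 / (2 * Real.sqrt (1 + ‖w (c i)‖ ^ 2)) with hGin
  have hn1 : ∀ i : Fin N, 1 ≤ Real.sqrt (1 + ‖w (c i)‖ ^ 2) := fun i => by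
    rw [Real.one_le_sqrt]; nlinarith [sq_nonneg ‖w (c i)‖]
  have hRcb : ∀ i : Fin N, R (c i) ≤ Rb := fun i =>
    (le_abs_self _).trans (hRb (c i) (hcI i))
  have hcs := fun i : Fin N => hconst (R (c i)) (t i.succ - t i.castSucc)
    (Real.sqrt (1 + ‖w (c i)‖ ^ 2)) (hR0 (c i) (hcI i)) (hRcb i) (sub_pos.2 (hlt i)) (hm1 i) (hn1 i)
  have hEout : ∀ i : Fin N, ∀ τ ∈ Set.Icc (t i.castSucc) (t i.succ), |Gout i - g τ| ≤ η₀ := by
    intro i τ hτ
    have h1 : |Gout i - g (c i)| ≤ η₀ / 2 := (hcs i).1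
    have h2 := (hgclose i τ hτ).le
    have : Gout i - g τ = (Gout i - g (c i)) - (g τ - g (c i)) := by ring
    rw [this]
    calc _ ≤ |Gout i - g (c i)| + |g τ - g (c i)| := abs_sub _ _
      _ ≤ η₀ := by linarith
  have hEin : ∀ i : Fin N, ∀ τ ∈ Set.Icc (t i.castSucc) (t i.succ), |Gin i - g τ| ≤ η₀ := by
    intro i τ hτ
    have h1 : |Gin i - g (c i)| ≤ η₀ / 2 := (hcs i).2
    have h2 := (hgclose i τ hτ).le
    have : Gin i - g τ = (Gin i - g (c i)) - (g τ - g (c i)) := by ring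
    rw [this]
    calc _ ≤ |Gin i - g (c i)| + |g τ - g (c i)| := abs_sub _ _
      _ ≤ η₀ := by linarith
  have hSout := Lib_helper4_CylSweep.sum_close t hmono h0 hN g hg Gout η₀ hEout
  have hSin := Lib_helper4_CylSweep.sum_close t hmono h0 hN g hg Gin η₀ hEin
  have hKout : |κ * ∑ i, Gout i * (t i.succ - t i.castSucc) - κ * ∫ τ in α..β, g τ| ≤ η := by
    rw [← mul_sub, abs_mul, abs_of_nonneg hκ0]
    exact (mul_le_mul_of_nonneg_left hSout hκ0).trans hfinal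
  have hKin : |κ * ∑ i, Gin i * (t i.succ - t i.castSucc) - κ * ∫ τ in α..β, g τ| ≤ η := by
    rw [← mul_sub, abs_mul, abs_of_nonneg hκ0]
    exact (mul_le_mul_of_nonneg_left hSin hκ0).trans hfinal
  constructor
  · refine ⟨p, q, r, hperp, haff, ?_, ?_⟩
    · rintro x ⟨τ, hτ, ρ, hρ, s, hs, rfl⟩
      obtain ⟨i, hi⟩ := Lib_helper4_CylSweep2.part_cover hαβ t h0 hN hτ
      exact Set.mem_iUnion.2 ⟨i, hcov i ⟨τ, hi, ρ, hρ, s, hs, rfl⟩⟩
    · have : ∑ i, (μHE[2] (convexHull ℝ ({p i, q i, r i} : Set (EuclideanSpace ℝ (Fin 3))))).toReal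
          = κ * ∑ i, Gout i * (t i.succ - t i.castSucc) := by
        rw [Finset.mul_sum]
        exact Finset.sum_congr rfl fun i _ => harea i
      rw [this]
      exact hKout
  · have hU : ∑ i : Fin N, (μHE[2] ((fun y => y - (inner ℝ y (e + w (c i)) / ‖e + w (c i)‖ ^ 2) • (e + w (c i))) ''
            {x : EuclideanSpace ℝ (Fin 3) | ∃ τ ∈ Set.Icc (t i.castSucc) (t i.succ), ∃ ρ ∈ Set.Icc 0 (R τ),
              ∃ s : ℝ, abs s ≤ L ∧ x = p₀ + ρ • (a + τ • b) + s • (e + w τ)})).toReal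
        ≤ κ * ∑ i, Gout i * (t i.succ - t i.castSucc) := by
      rw [Finset.mul_sum]
      exact Finset.sum_le_sum fun i _ => hup i
    have hLo : κ * ∑ i, Gin i * (t i.succ - t i.castSucc) ≤
        ∑ i : Fin N, (μHE[2] ((fun y => y - (inner ℝ y (e + w (c i)) / ‖e + w (c i)‖ ^ 2) • (e + w (c i))) ''
            {x : EuclideanSpace ℝ (Fin 3) | ∃ τ ∈ Set.Icc (t i.castSucc) (t i.succ), ∃ ρ ∈ Set.Icc 0 (R τ),
              ∃ s : ℝ, abs s ≤ L ∧ x = p₀ + ρ • (a + τ • b) + s • (e + w τ)})).toReal := by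
      rw [Finset.mul_sum]
      exact Finset.sum_le_sum fun i _ => hlow i
    have a1 := abs_le.1 hKout
    have a2 := abs_le.1 hKin
    rw [abs_le]
    constructor <;> linarith [a1.1, a1.2, a2.1, a2.2]

end Crest.Agent.S0328
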