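-- Statement S0423 (row 280).  Proof: see the Lib_helper8_Exp* modules (plan in departures/helper8.md).
import Crest.Statements.S0423
import Crest.Agent.Lib_helper8_ExpChord
import Crest.Agent.Lib_helper8_ExpPart2

set_option autoImplicit false
open Crest Crest.AlgGeometry

namespace Crest.Agent.S0423

open Crest.Agent.Lib_helper8_ExpDefs Crest.Agent.Lib_helper8_ExpPi Crest.Agent.Lib_helper8_ExpAsm
  Crest.Agent.Lib_helper8_ExpChord Crest.Agent.Lib_helper8_ExpPart2 in
theorem part1 (N : ℕ) (a : Fin N → ℝ) (hN : 1 ≤ N) (ha : ∑ i, a i = 0) :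
      Real.exp (4 / 3) / (4 / 3) *
          ∫ x in Set.pi Set.univ (fun _ : Fin N => Set.Ioi (0 : ℝ)),
            Crest.AlgGeometry.truncExpWeight (4 / 3 + ∑ i, a i * x i) * Real.exp (-∑ i, x i)
        ≤ 3 / 4 * Real.exp (4 / 3) - Real.exp 1 / 3 := by
  have key : I N a Crest.AlgGeometry.truncExpWeight (4/3) ≤ 1 - 4 / 9 * Real.exp (-(1 / 3)) := by
    by_cases h0 : ∃ j, 0 < a j
    · obtain ⟨j, hj⟩ := h0
      obtain ⟨M, rfl⟩ : ∃ M, N = M + 1 := ⟨N - 1, by omega⟩
      have hg := good_I_step M a j hj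
      rw [ha, neg_zero] at hg
      have := chord hg
      rw [I_trunc]
      linarith
    · push Not at h0
      have hz : ∀ i, a i = 0 := by
        have := (Finset.sum_eq_zero_iff_of_nonpos (fun i _ => h0 i)).1 ha
        exact fun i => this i (Finset.mem_univ i)
      exact zero_case N a hz
  have e1 : Real.exp (4/3) * Real.exp (-(1/3)) = Real.exp 1 := by
    rw [← Real.exp_add]; norm_num
  have hpos : 0 < Real.exp (4/3) := Real.exp_pos _
  change Real.exp (4 / 3) / (4 / 3) * I N a Crest.AlgGeometry.truncExpWeight (4/3) ≤ _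
  calc Real.exp (4 / 3) / (4 / 3) * I N a Crest.AlgGeometry.truncExpWeight (4/3)
      ≤ Real.exp (4 / 3) / (4 / 3) * (1 - 4 / 9 * Real.exp (-(1 / 3))) := by
        apply mul_le_mul_of_nonneg_left key; positivity
    _ = 3 / 4 * Real.exp (4 / 3) - Real.exp 1 / 3 := by
        rw [← e1]; ring

/-- For independent mean-one exponential random variables `X_1, …, X_N` (written as an integral over the positive orthant against the density `exp (-(x_1 + ⋯ + x_N))`), real coefficients `a_1, …, a_N` summing to zero, and the weight `g = truncExpWeight`, the quantity `(e^{4/3} / (4/3)) · E[g(4/3 + a_1 X_1 + ⋯ + a_N X_N)]` has supremum over all `N ≥ 1` and all such `a` exactly `(3/4) e^{4/3} − e/3`: it never exceeds this value, and comes within any `ε > 0` of it for some `N` and `a`. -/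
theorem result :
    (∀ (N : ℕ) (a : Fin N → ℝ), 1 ≤ N → ∑ i, a i = 0 →
      Real.exp (4 / 3) / (4 / 3) *
          ∫ x in Set.pi Set.univ (fun _ : Fin N => Set.Ioi (0 : ℝ)),
            Crest.AlgGeometry.truncExpWeight (4 / 3 + ∑ i, a i * x i) * Real.exp (-∑ i, x i)
        ≤ 3 / 4 * Real.exp (4 / 3) - Real.exp 1 / 3) ∧
    (∀ ε : ℝ, 0 < ε → ∃ (N : ℕ) (a : Fin N → ℝ), 1 ≤ N ∧ ∑ i, a i = 0 ∧
      3 / 4 * Real.exp (4 / 3) - Real.exp 1 / 3 - ε <
        Real.exp (4 / 3) / (4 / 3) *
          ∫ x in Set.pi Set.univ (fun _ : Fin N => Set.Ioi (0 : ℝ)),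
            Crest.AlgGeometry.truncExpWeight (4 / 3 + ∑ i, a i * x i) * Real.exp (-∑ i, x i)) := by
  exact ⟨part1, Crest.Agent.Lib_helper8_ExpPart2.part2⟩

end Crest.Agent.S0423
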